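import Mathlib

set_option autoImplicit false

/-! Fast kernel check (packed rows) that any `k` of `n` vectors are independent modulo a prime. -/

namespace Crest.Agent.P345Fast

/-- force evaluation of `x` in the kernel. -/
def force {α : Type} (x : ℕ) (f : ℕ → α) : α :=
  Nat.rec (motive := fun _ => α) (f 0) (fun m _ => f (m + 1)) x

theorem force_eq {α : Type} (x : ℕ) (f : ℕ → α) : force x f = f x := by
  cases x <;> rfl

def mapK (g : ℕ → ℕ) (L : List ℕ) : (List ℕ → Bool) → Bool :=
  List.rec (motive := fun _ => (List ℕ → Bool) → Bool) (fun k => k [])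
    (fun b _ ih k => force (g b) (fun v => ih (fun t => k (v :: t)))) L

theorem mapK_eq (g : ℕ → ℕ) (L : List ℕ) (k : List ℕ → Bool) : mapK g L k = k (L.map g) := by
  induction L generalizing k with
  | nil => rfl
  | cons b L ih =>
    show force (g b) (fun v => mapK g L (fun t => k (v :: t))) = _
    rw [force_eq, ih]
    rfl

/-- eliminate the lowest limb of `S` with pivot `a`, rest `R`. -/
def step (p B a R S : ℕ) : ℕ := a * (S / B) + (p - S % B % p) * R

def band (a b : Bool) : Bool := match a with
  | true => b
  | false => false

def bodyK (p B n : ℕ) (ih : ℕ → List ℕ → Bool) (k : ℕ) (L : List ℕ) : Bool :=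
  match L with
  | [] => true
  | R :: L' =>
    match Nat.blt (n + 1) k with
    | true => true
    | false =>
      match k with
      | 0 => true
      | 1 => match Nat.beq (R % B % p) 0 with
        | true => false
        | false => ih 1 L'
      | k' + 2 =>
        force (R % B % p) (fun a =>
          match Nat.beq a 0 with
          | true => false
          | false =>
            band (force (R / B) (fun R' => mapK (step p B a R') L' (fun M => ih (k' + 1) M)))
              (ih (k' + 2) L'))

def checkP (p B n : ℕ) : ℕ → List ℕ → Bool :=
  Nat.rec (motive := fun _ => ℕ → List ℕ → Bool) (fun _ _ => true)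
    (fun n ih k L => bodyK p B n ih k L) n

theorem checkP_zero (p B k : ℕ) (L : List ℕ) : checkP p B 0 k L = true := rfl
theorem checkP_succ (p B n k : ℕ) (L : List ℕ) :
    checkP p B (n + 1) k L = bodyK p B n (checkP p B n) k L := rfl

def dot {p : ℕ} (B : ℕ) : ℕ → List (ZMod p) → ZMod p
  | S, x :: u => ((S % B : ℕ) : ZMod p) * x + dot B (S / B) u
  | _, [] => 0

/-- all of the first `l` limbs are `< M`. -/
def bnd (B M : ℕ) : ℕ → ℕ → Prop
  | 0, _ => True
  | l + 1, S => S % B < M ∧ bnd B M l (S / B)

theorem comb {B a c x y : ℕ} (hB : 0 < B) (h : a * (x % B) + c * (y % B) < B) :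
    (a * x + c * y) % B = a * (x % B) + c * (y % B) ∧
    (a * x + c * y) / B = a * (x / B) + c * (y / B) := by
  have hx := Nat.div_add_mod x B
  have hy := Nat.div_add_mod y B
  have e : a * x + c * y = (a * (x % B) + c * (y % B)) + B * (a * (x / B) + c * (y / B)) := by
    conv_lhs => rw [← hx, ← hy]
    ring
  constructor
  · rw [e, Nat.add_mul_mod_self_left, Nat.mod_eq_of_lt h]
  · rw [e, Nat.add_mul_div_left _ _ hB, Nat.div_eq_of_lt h, zero_add]

theorem lin_bound {p M a c s r : ℕ} (ha : a ≤ p) (hc : c ≤ p) (hs : s < M) (hr : r < M)
    (hp : 0 < p) : a * s + c * r < 2 * p * M := by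
  have h1 : a * s ≤ p * s := Nat.mul_le_mul_right _ ha
  have h2 : c * r ≤ p * r := Nat.mul_le_mul_right _ hc
  have h3 : p * s < p * M := Nat.mul_lt_mul_of_pos_left hs hp
  have h4 : p * r < p * M := Nat.mul_lt_mul_of_pos_left hr hp
  nlinarith

theorem dot_comb {p B M a c : ℕ} (hp : 0 < p) (hM : 2 * p * M ≤ B) (hB : 0 < B)
    (ha : a ≤ p) (hc : c ≤ p) : ∀ (u : List (ZMod p)) (S R : ℕ),
    bnd B M u.length S → bnd B M u.length R →
    dot B (a * S + c * R) u = (a : ZMod p) * dot B S u + (c : ZMod p) * dot B R u ∧
    bnd B (2 * p * M) u.length (a * S + c * R) := by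
  intro u
  induction u with
  | nil => intro S R _ _; simp [dot, bnd]
  | cons x u ih =>
    intro S R hS hR
    simp only [List.length_cons, bnd] at hS hR ⊢
    have hb := lin_bound ha hc hS.1 hR.1 hp
    obtain ⟨e1, e2⟩ := comb (a := a) (c := c) (x := S) (y := R) hB (lt_of_lt_of_le hb hM)
    obtain ⟨i1, i2⟩ := ih (S / B) (R / B) hS.2 hR.2
    simp only [dot, e1, e2, i1]
    refine ⟨?_, hb, i2⟩
    push_cast
    ring

theorem bnd_mono {B M M' : ℕ} (h : M ≤ M') : ∀ (l S : ℕ), bnd B M l S → bnd B M' l S := by
  intro l
  induction l with
  | zero => intro S _; trivial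
  | succ l ih => intro S hS; exact ⟨lt_of_lt_of_le hS.1 h, ih _ hS.2⟩

theorem dot_zero {p B : ℕ} : ∀ (u : List (ZMod p)) (S : ℕ), (∀ x ∈ u, x = 0) → dot B S u = 0 := by
  intro u
  induction u with
  | nil => intro S _; simp [dot]
  | cons x u ih =>
    intro S h
    simp only [dot]
    rw [ih (S / B) (fun y hy => h y (List.mem_cons_of_mem _ hy)), h x List.mem_cons_self]
    simp

theorem check_sound (p : ℕ) [Fact p.Prime] (B : ℕ) (hB : 0 < B) : ∀ (n k M : ℕ) (L : List ℕ),
    M * (2 * p) ^ k ≤ B →
    L.length ≤ n → (∀ r ∈ L, bnd B M k r) → checkP p B n k L = true →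
    ∀ u : List (ZMod p), u.length = k → (∃ x ∈ u, x ≠ 0) →
      L.countP (fun r => decide (dot B r u = 0)) < k := by
  have hp : 0 < p := (Fact.out : p.Prime).pos
  intro n
  induction n with
  | zero =>
    intro k M L _ hL _ _ u hu hx
    have : L = [] := List.length_eq_zero_iff.1 (by omega)
    subst this
    obtain ⟨x, hx, _⟩ := hx
    have : 0 < u.length := List.length_pos_of_mem hx
    simp; omega
  | succ n ih =>
    intro k M L hMB hL hlen hc u hu hx
    have hk : 0 < k := by
      obtain ⟨x, hx, _⟩ := hx
      have : 0 < u.length := List.length_pos_of_mem hx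
      omega
    cases L with
    | nil => simpa using hk
    | cons R L' =>
      by_cases hlt : n + 1 < k
      · refine lt_of_le_of_lt (List.countP_le_length) (lt_of_le_of_lt hL hlt)
      · obtain ⟨k', rfl⟩ : ∃ k', k = k' + 1 := ⟨k - 1, by omega⟩
        have hb : Nat.blt (n + 1) (k' + 1) = false := by
          cases h : Nat.blt (n + 1) (k' + 1)
          · rfl
          · exact absurd (by simpa [Nat.blt_eq] using h) (by simpa using hlt)
        have hL' : L'.length ≤ n := by simpa using hL
        have hlen' : ∀ s ∈ L', bnd B M (k' + 1) s := fun s hs => hlen s (List.mem_cons_of_mem _ hs)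
        have hR := hlen R List.mem_cons_self
        -- extract the two facts
        have hfacts : ((R % B : ℕ) : ZMod p) ≠ 0 ∧ checkP p B n (k' + 1) L' = true ∧
            (k' = 0 ∨ checkP p B n k' (L'.map (step p B (R % B % p) (R / B))) = true) := by
          rw [checkP_succ] at hc
          unfold bodyK at hc
          simp only [hb] at hc
          have hnz : ∀ h : (R % B % p) ≠ 0, ((R % B : ℕ) : ZMod p) ≠ 0 := by
            intro h h'
            rw [ZMod.natCast_eq_zero_iff] at h'
            exact h (Nat.mod_eq_zero_of_dvd h')
          cases k' with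
          | zero =>
            simp only at hc
            have ha : Nat.beq (R % B % p) 0 = false := by
              cases h : Nat.beq (R % B % p) 0
              · rfl
              · rw [h] at hc; simp at hc
            rw [ha] at hc
            simp only at hc
            refine ⟨hnz ?_, hc, Or.inl rfl⟩
            intro h
            rw [h] at ha
            simp at ha
          | succ k' =>
            simp only [force_eq, mapK_eq] at hc
            have ha : Nat.beq (R % B % p) 0 = false := by
              cases h : Nat.beq (R % B % p) 0
              · rfl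
              · rw [h] at hc; simp at hc
            rw [ha] at hc
            simp only at hc
            have h1 : checkP p B n (k' + 1) (L'.map (step p B (R % B % p) (R / B))) = true := by
              cases h : checkP p B n (k' + 1) (L'.map (step p B (R % B % p) (R / B)))
              · rw [h] at hc; simp [band] at hc
              · rfl
            rw [h1] at hc
            simp only [band] at hc
            refine ⟨hnz ?_, hc, Or.inr h1⟩
            intro h
            rw [h] at ha
            simp at ha
        obtain ⟨ha', hc2, hc1⟩ := hfacts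
        rw [List.countP_cons]
        by_cases h0 : dot B R u = 0
        · cases u with
          | nil => simp at hu
          | cons x u' =>
            have hu' : u'.length = k' := by simpa using hu
            have hx' : ∃ y ∈ u', y ≠ 0 := by
              by_contra hcon
              push Not at hcon
              have h1 : dot B (R / B) u' = 0 := dot_zero u' (R / B) hcon
              simp only [dot] at h0
              rw [h1, add_zero] at h0
              have hx0 : x = 0 := by
                rcases mul_eq_zero.1 h0 with h | h
                · exact absurd h ha'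
                · exact h
              obtain ⟨y, hy, hy0⟩ := hx
              rcases List.mem_cons.1 hy with rfl | hy
              · exact hy0 hx0
              · exact hy0 (hcon y hy)
            have hk' : k' ≠ 0 := by
              rintro rfl
              obtain ⟨y, hy, _⟩ := hx'
              have : 0 < u'.length := List.length_pos_of_mem hy
              omega
            have hc1' := hc1.resolve_left hk'
            have hMB2 : 2 * p * M * (2 * p) ^ k' ≤ B := by
              calc 2 * p * M * (2 * p) ^ k' = M * (2 * p) ^ (k' + 1) := by ring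
                _ ≤ B := hMB
            have hM2 : 2 * p * M ≤ B := by
              refine le_trans ?_ hMB2
              exact Nat.le_mul_of_pos_right _ (by positivity)
            have hstep : ∀ s ∈ L', dot B (step p B (R % B % p) (R / B) s) u'
                = ((R % B % p : ℕ) : ZMod p) * dot B s (x :: u') ∧
                bnd B (2 * p * M) k' (step p B (R % B % p) (R / B) s) := by
              intro s hs
              have hsb := hlen' s hs
              simp only [bnd] at hsb hR
              obtain ⟨d1, d2⟩ := dot_comb (p := p) (B := B) (M := M) (a := R % B % p)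
                (c := p - s % B % p) hp hM2 hB (Nat.mod_lt _ hp).le (Nat.sub_le _ _) u'
                (s / B) (R / B) (by rw [hu']; exact hsb.2) (by rw [hu']; exact hR.2)
              rw [hu'] at d2
              refine ⟨?_, d2⟩
              have hcc : ((p - s % B % p : ℕ) : ZMod p) = - ((s % B : ℕ) : ZMod p) := by
                rw [Nat.cast_sub (Nat.mod_lt _ hp).le, ZMod.natCast_mod]
                simp
              have haa : ((R % B % p : ℕ) : ZMod p) = ((R % B : ℕ) : ZMod p) := by
                rw [ZMod.natCast_mod]
              unfold step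
              rw [d1, hcc, haa]
              simp only [dot] at h0 ⊢
              have h1 : dot B (R / B) u' = - (((R % B : ℕ) : ZMod p) * x) := by
                linear_combination h0
              rw [h1]
              ring
            have key := ih k' (2 * p * M) (L'.map (step p B (R % B % p) (R / B))) hMB2
              (by simpa using hL')
              (by
                intro s hs
                obtain ⟨t, ht, rfl⟩ := List.mem_map.1 hs
                exact (hstep t ht).2) hc1' u' hu' hx'
            rw [List.countP_map] at key
            have haa : ((R % B % p : ℕ) : ZMod p) ≠ 0 := by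
              rw [ZMod.natCast_mod]; exact ha'
            have heq : L'.countP (fun r => decide (dot B r (x :: u') = 0))
                = L'.countP ((fun r => decide (dot B r u' = 0)) ∘
                    step p B (R % B % p) (R / B)) := by
              apply List.countP_congr
              intro s hs
              simp only [Function.comp, decide_eq_true_eq]
              rw [(hstep s hs).1]
              constructor
              · intro h; rw [h, mul_zero]
              · intro h
                rcases mul_eq_zero.1 h with h | h
                · exact absurd h haa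
                · exact h
            rw [heq]
            simp only [h0, decide_true, if_true]
            omega
        · have := ih (k' + 1) M L' hMB hL' hlen' hc2 u hu hx
          simp only [h0, decide_false]
          simpa using this

theorem dot_ofFn {p B k : ℕ} (S : ℕ) (u : Fin k → ZMod p) :
    dot B S (List.ofFn u) = ∑ j : Fin k, ((S / B ^ (j : ℕ) % B : ℕ) : ZMod p) * u j := by
  induction k generalizing S with
  | zero => simp [dot]
  | succ k ih =>
    rw [List.ofFn_succ, Fin.sum_univ_succ]
    simp only [dot]
    rw [ih (S / B) (fun i => u i.succ)]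
    simp [pow_succ, Nat.div_div_eq_div_mul, mul_comm]

instance decBnd (B M : ℕ) : ∀ (l S : ℕ), Decidable (bnd B M l S)
  | 0, _ => isTrue trivial
  | l + 1, S =>
    haveI := decBnd B M l (S / B)
    inferInstanceAs (Decidable (S % B < M ∧ bnd B M l (S / B)))

/-- from the check to determinants over any ring mapping to `ZMod p`. -/
theorem det_ne {p : ℕ} [Fact p.Prime] {R : Type*} [CommRing R] (φ : R →+* ZMod p) {n k : ℕ}
    (B M : ℕ) (hB : 0 < B) (hMB : M * (2 * p) ^ k ≤ B)
    (x : Fin n → Fin k → R) (L : List ℕ) (hLl : L.length = n)
    (hlen : ∀ r ∈ L, bnd B M k r)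
    (hL : ∀ (i : Fin n) (j : Fin k), φ (x i j) = ((L.getD i 0 / B ^ (j : ℕ) % B : ℕ) : ZMod p))
    (hc : checkP p B n k L = true) (f : Fin k → Fin n) (hf : Function.Injective f) :
    (Matrix.of fun a b => x (f a) b).det ≠ 0 := by
  intro hdet
  have h1 : (φ.mapMatrix (Matrix.of fun a b => x (f a) b)).det = 0 := by
    rw [← RingHom.map_det, hdet, map_zero]
  obtain ⟨u, hu, hu0⟩ := Matrix.exists_mulVec_eq_zero_iff.2 h1
  have hex : ∃ y ∈ List.ofFn u, y ≠ 0 := by
    by_contra hcon
    push Not at hcon
    apply hu
    funext i
    exact hcon (u i) (by simp)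
  have key := check_sound p B hB n k M L hMB hLl.le hlen hc (List.ofFn u) (by simp) hex
  have hk : k ≤ L.countP (fun r => decide (dot B r (List.ofFn u) = 0)) := by
    have e1 : L = (List.finRange n).map (fun i : Fin n => L.getD i 0) := by
      apply List.ext_getElem
      · simp [hLl]
      · intro i h1 h2
        simp [List.getD_eq_getElem?_getD, h1]
    rw [e1, List.countP_map]
    have e2 : (List.finRange n).countP
        ((fun r => decide (dot B r (List.ofFn u) = 0)) ∘ fun i : Fin n => L.getD i 0)
        = (Finset.univ.filter (fun i : Fin n => dot B (L.getD i 0) (List.ofFn u) = 0)).card := by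
      rw [List.countP_eq_length_filter, ← List.toFinset_card_of_nodup
        ((List.nodup_finRange n).filter _)]
      congr 1
      ext i
      simp
    rw [e2]
    calc k = (Finset.univ.image f).card := by
            rw [Finset.card_image_of_injective _ hf]; simp
      _ ≤ _ := by
            apply Finset.card_le_card
            intro i hi
            obtain ⟨a, _, rfl⟩ := Finset.mem_image.1 hi
            rw [Finset.mem_filter]
            refine ⟨Finset.mem_univ _, ?_⟩
            rw [dot_ofFn _ u]
            have h3 := congrFun hu0 a
            simp only [Matrix.mulVec, dotProduct, RingHom.mapMatrix_apply, Matrix.map_apply,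
              Matrix.of_apply, Pi.zero_apply] at h3
            rw [← h3]
            refine Finset.sum_congr rfl fun j _ => ?_
            rw [hL]
  omega

/-- over `ℂ`: a nonzero `u` is killed by at most `k - 1` of the vectors. -/
theorem card_lt {p : ℕ} [Fact p.Prime] {R : Type*} [CommRing R] {K : Type*} [Field K]
    [DecidableEq K] (ι : R →+* K)
    (hι : Function.Injective ι) (φ : R →+* ZMod p) {n k : ℕ}
    (B M : ℕ) (hB : 0 < B) (hMB : M * (2 * p) ^ k ≤ B)
    (x : Fin n → Fin k → R) (L : List ℕ) (hLl : L.length = n)
    (hlen : ∀ r ∈ L, bnd B M k r)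
    (hL : ∀ (i : Fin n) (j : Fin k), φ (x i j) = ((L.getD i 0 / B ^ (j : ℕ) % B : ℕ) : ZMod p))
    (hc : checkP p B n k L = true) (u : Fin k → K) (hu : u ≠ 0) :
    (Finset.univ.filter (fun i : Fin n => ∑ j, ι (x i j) * u j = 0)).card < k := by
  by_contra hcon
  push Not at hcon
  obtain ⟨S, hS, hSc⟩ := Finset.exists_subset_card_eq hcon
  let f : Fin k → Fin n := fun a => S.orderEmbOfFin hSc a
  have hf : Function.Injective f := fun a b h => (S.orderEmbOfFin hSc).injective h
  have hfm : ∀ a, f a ∈ S := fun a => S.orderEmbOfFin_mem hSc a
  have hd := det_ne φ B M hB hMB x L hLl hlen hL hc f hf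
  have h1 : (ι.mapMatrix (Matrix.of fun a b => x (f a) b)).det ≠ 0 := by
    rw [← RingHom.map_det]
    intro h
    exact hd (hι (by rw [h, map_zero]))
  apply h1
  refine Matrix.exists_mulVec_eq_zero_iff.1 ⟨u, hu, ?_⟩
  funext a
  have h2 := (Finset.mem_filter.1 (hS (hfm a))).2
  simp only [Matrix.mulVec, dotProduct, RingHom.mapMatrix_apply, Matrix.map_apply,
    Matrix.of_apply, Pi.zero_apply]
  exact h2

/-- product-freeness from general position of 20 + 20 vectors in dimension 10. -/
theorem pf_of_card {K : Type*} [Field K] [DecidableEq K] {n k : ℕ} (hn : 2 * (k - 1) < n)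
    (x z : Fin n → Fin k → K)
    (hx : ∀ u : Fin k → K, u ≠ 0 →
      (Finset.univ.filter (fun i : Fin n => ∑ j, x i j * u j = 0)).card < k)
    (hz : ∀ u : Fin k → K, u ≠ 0 →
      (Finset.univ.filter (fun i : Fin n => ∑ j, z i j * u j = 0)).card < k)
    (u v : Fin k → K)
    (h : ∀ i, (∑ j, x i j * u j) * (∑ j, z i j * v j) = 0) : u = 0 ∨ v = 0 := by
  by_contra hcon
  push Not at hcon
  have h1 := hx u hcon.1
  have h2 := hz v hcon.2
  have h3 : (Finset.univ : Finset (Fin n)) ⊆
      (Finset.univ.filter (fun i : Fin n => ∑ j, x i j * u j = 0)) ∪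
      (Finset.univ.filter (fun i : Fin n => ∑ j, z i j * v j = 0)) := by
    intro i _
    rcases mul_eq_zero.1 (h i) with h | h
    · exact Finset.mem_union_left _ (by simp [h])
    · exact Finset.mem_union_right _ (by simp [h])
  have h4 := (Finset.card_le_card h3).trans (Finset.card_union_le _ _)
  simp only [Finset.card_univ, Fintype.card_fin] at h4
  omega

/-- Final form over any field of characteristic `p`: the packed rows `L` (base `B`, `B ^ j` limb)
are general mod `p`; then `(x_i · u) (x_i · v) = 0` for all `i` forces `u = 0 ∨ v = 0`. -/
theorem pf_char {p : ℕ} [Fact p.Prime] {K : Type*} [Field K] [CharP K p] {n k : ℕ}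
    (hn : 2 * (k - 1) < n) (B M : ℕ) (hB : 0 < B) (hMB : M * (2 * p) ^ k ≤ B)
    (L : List ℕ) (hLl : L.length = n) (hlen : ∀ r ∈ L, bnd B M k r)
    (hc : checkP p B n k L = true) (u v : Fin k → K)
    (h : ∀ i : Fin n, (∑ j : Fin k, ((L.getD i 0 / B ^ (j : ℕ) % B : ℕ) : K) * u j) *
      (∑ j : Fin k, ((L.getD i 0 / B ^ (j : ℕ) % B : ℕ) : K) * v j) = 0) : u = 0 ∨ v = 0 := by
  classical
  let ι : ZMod p →+* K := ZMod.castHom (dvd_refl p) K
  have hι : Function.Injective ι := ι.injective
  let x : Fin n → Fin k → ZMod p := fun i j => ((L.getD i 0 / B ^ (j : ℕ) % B : ℕ) : ZMod p)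
  have hx : ∀ u : Fin k → K, u ≠ 0 →
      (Finset.univ.filter (fun i : Fin n => ∑ j, ι (x i j) * u j = 0)).card < k :=
    card_lt ι hι (RingHom.id _) B M hB hMB x L hLl hlen (fun i j => rfl) hc
  refine pf_of_card hn (fun i j => ι (x i j)) (fun i j => ι (x i j)) hx hx u v ?_
  intro i
  have := h i
  simpa [x, ι] using this

end Crest.Agent.P345Fast
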