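import Mathlib

/-! Row 345: product-freeness over `ℂ` from product-freeness in characteristic `p` (helper11). -/

set_option autoImplicit false

namespace Crest.Agent.P345Lift

theorem exists_val (p : ℕ) (hp : p.Prime) :
    ∃ B : ValuationSubring ℂ, ((p : ℕ) : ℂ) ∈ B.nonunits := by
  set A : Subring ℂ := (Int.castRingHom ℂ).range with hA
  have hsurj : Function.Surjective (Int.castRingHom ℂ).rangeRestrict :=
    (Int.castRingHom ℂ).rangeRestrict_surjective
  have hinj : Function.Injective (Int.castRingHom ℂ) := Int.cast_injective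
  let e : ℤ ≃+* A := RingEquiv.ofBijective (Int.castRingHom ℂ).rangeRestrict
    ⟨fun a b h => hinj (by
      have := congrArg Subtype.val h
      simpa using this), hsurj⟩
  have hI : Ideal.span {(e (p : ℤ) : A)} ≠ ⊤ := by
    intro h
    rw [Ideal.span_singleton_eq_top] at h
    have h2 : IsUnit (p : ℤ) := by
      have := h.map e.symm
      simpa using this
    rw [Int.isUnit_iff] at h2
    rcases h2 with h3 | h3
    · have := hp.one_lt; omega
    · omega
  obtain ⟨B, hB1, hB2⟩ := Ideal.image_subset_nonunits_valuationSubring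
    (Ideal.span {(e (p : ℤ) : A)}) hI
  refine ⟨B, hB2 ?_⟩
  refine ⟨e (p : ℤ), Ideal.subset_span rfl, ?_⟩
  show ((Int.castRingHom ℂ).rangeRestrict (p : ℤ) : ℂ) = (p : ℂ)
  simp


/-- primitive representative of a nonzero vector -/
theorem prim (B : ValuationSubring ℂ) {d : ℕ} (u : Fin d → ℂ) (hu : u ≠ 0) :
    ∃ (c : ℂ) (w : Fin d → B), c ≠ 0 ∧ (∀ i, u i = c * (w i : ℂ)) ∧ ∃ i, w i = 1 := by
  have hne : ∃ i, u i ≠ 0 := by
    by_contra hcon
    push Not at hcon
    exact hu (funext hcon)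
  obtain ⟨j, hj⟩ := hne
  have : Nonempty (Fin d) := ⟨j⟩
  obtain ⟨i0, hi0⟩ := Finite.exists_max (fun i => B.valuation (u i))
  have h0 : u i0 ≠ 0 := by
    intro h
    have h1 := hi0 j
    simp only [h, map_zero] at h1
    have h2 : B.valuation (u j) = 0 := le_antisymm h1 zero_le
    exact hj ((map_eq_zero _).1 h2)
  have hmem : ∀ i, u i / u i0 ∈ B := by
    intro i
    rw [← B.valuation_le_one_iff, map_div₀]
    exact div_le_one_of_le₀ (hi0 i) zero_le
  refine ⟨u i0, fun i => ⟨u i / u i0, hmem i⟩, h0, ?_, i0, ?_⟩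
  · intro i
    show u i = u i0 * (u i / u i0)
    field_simp
  · apply Subtype.ext
    show u i0 / u i0 = 1
    exact div_self h0

theorem lift (p : ℕ) (hp : p.Prime) {ρ : Type*} {d e : ℕ} (n : ρ → Fin d × Fin e → ℤ)
    (hk : ∀ (k : Type) [Field k], (p : k) = 0 → ∀ (u : Fin d → k) (v : Fin e → k),
      (∀ r, ∑ q : Fin d × Fin e, (n r q : k) * (u q.1 * v q.2) = 0) → u = 0 ∨ v = 0)
    (u : Fin d → ℂ) (v : Fin e → ℂ)
    (h : ∀ r, ∑ q : Fin d × Fin e, (n r q : ℂ) * (u q.1 * v q.2) = 0) : u = 0 ∨ v = 0 := by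
  by_contra hcon
  push Not at hcon
  obtain ⟨hu, hv⟩ := hcon
  obtain ⟨B, hB⟩ := exists_val p hp
  obtain ⟨c, w, hc, hw, i1, hi1⟩ := prim B u hu
  obtain ⟨c', w', hc', hw', i2, hi2⟩ := prim B v hv
  have hres : (p : IsLocalRing.ResidueField B) = 0 := by
    have h1 : ((p : B)) ∈ IsLocalRing.maximalIdeal B := by
      have hB' : ((p : ℕ) : ℂ) ∈ (B.nonunits : Set ℂ) := hB
      rw [← B.image_maximalIdeal] at hB'
      obtain ⟨x, hx, hx2⟩ := hB'
      have : x = (p : B) := Subtype.ext (by rw [hx2]; simp)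
      rwa [← this]
    have h2 := (IsLocalRing.residue_eq_zero_iff (p : B)).2 h1
    simpa using h2
  have hrel : ∀ r, ∑ q : Fin d × Fin e, (n r q : B) * (w q.1 * w' q.2) = 0 := by
    intro r
    have h1 := h r
    have h2 : (c * c') * ∑ q : Fin d × Fin e, (n r q : ℂ) * ((w q.1 : ℂ) * (w' q.2 : ℂ)) = 0 := by
      rw [← h1, Finset.mul_sum]
      refine Finset.sum_congr rfl fun q _ => ?_
      rw [hw, hw']; ring
    have h3 := (mul_eq_zero.1 h2).resolve_left (mul_ne_zero hc hc')
    apply Subtype.ext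
    simpa using h3
  have h4 := hk (IsLocalRing.ResidueField B) hres
    (fun i => IsLocalRing.residue B (w i)) (fun i => IsLocalRing.residue B (w' i)) (by
      intro r
      have h5 := congrArg (IsLocalRing.residue B) (hrel r)
      simpa [map_sum] using h5)
  rcases h4 with h5 | h5
  · have := congrFun h5 i1
    simp [hi1] at this
  · have := congrFun h5 i2
    simp [hi2] at this

end Crest.Agent.P345Lift
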