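import Mathlib

/-!
Certificate tool for row 345 (helper77): "uniform matroid" check mod `p`.
`mds p n k cs = true` : every nonzero `u` kills at most `k - 1` of the columns `cs`.
-/

set_option autoImplicit false

namespace Crest.Agent.P345Mds

def comb (p h h' : ℕ) : List ℕ → List ℕ → List ℕ
  | a :: as, b :: bs => ((h * b + (p - h' % p) * a) % p) :: comb p h h' as bs
  | _, _ => []

def elim (p : ℕ) : List ℕ → List ℕ → List ℕ
  | h :: as, h' :: bs => comb p h h' as bs
  | _, _ => []

def hd : List ℕ → ℕ
  | [] => 0
  | a :: _ => a

def mds (p : ℕ) : ℕ → ℕ → List (List ℕ) → Bool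
  | 0, _, _ => true
  | _ + 1, 0, _ => true
  | _ + 1, _ + 1, [] => true
  | n + 1, k + 1, c :: cs =>
      Nat.ble (n + 1) k ||
        (!(Nat.beq (hd c % p) 0) && (mds p n k (cs.map (elim p c)) && mds p n (k + 1) cs))

variable {p : ℕ} [hp : Fact p.Prime]

def dot : List (ZMod p) → List ℕ → ZMod p
  | u :: us, c :: cs => u * (c : ZMod p) + dot us cs
  | _, _ => 0

theorem comb_length (h h' : ℕ) : ∀ (as bs : List ℕ), as.length = bs.length →
    (comb p h h' as bs).length = as.length
  | [], [], _ => rfl
  | [], _ :: _, hh => by simp at hh
  | _ :: _, [], hh => by simp at hh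
  | a :: as, b :: bs, hh => by
      simp only [List.length_cons, Nat.add_right_cancel_iff] at hh
      simp [comb, comb_length h h' as bs hh]

theorem cast_neg (h' : ℕ) : ((p - h' % p : ℕ) : ZMod p) = -(h' : ZMod p) := by
  have hpos : 0 < p := hp.out.pos
  rw [Nat.cast_sub (Nat.mod_lt _ hpos).le, ZMod.natCast_mod]
  simp

theorem dot_comb (h h' : ℕ) : ∀ (us : List (ZMod p)) (as bs : List ℕ),
    as.length = us.length → bs.length = us.length →
    dot us (comb p h h' as bs) = (h : ZMod p) * dot us bs - (h' : ZMod p) * dot us as
  | [], as, bs, h1, h2 => by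
      rw [List.length_nil, List.length_eq_zero_iff] at h1 h2
      subst h1; subst h2
      simp [dot, comb]
  | u :: us, [], _, h1, _ => by simp at h1
  | u :: us, _ :: _, [], _, h2 => by simp at h2
  | u :: us, a :: as, b :: bs, h1, h2 => by
      simp only [List.length_cons, Nat.add_right_cancel_iff] at h1 h2
      simp only [dot, comb]
      rw [dot_comb h h' us as bs h1 h2, ZMod.natCast_mod]
      push_cast [cast_neg]
      ring

theorem dot_zero : ∀ (us : List (ZMod p)) (as : List ℕ), (∀ a ∈ us, a = 0) → dot us as = 0
  | [], [], _ => rfl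
  | [], _ :: _, _ => rfl
  | _ :: _, [], _ => rfl
  | u :: us, a :: as, h => by
      simp only [dot]
      rw [h u (by simp), dot_zero us as (fun x hx => h x (by simp [hx]))]
      simp

theorem mds_sound : ∀ (n k : ℕ) (cs : List (List ℕ)), cs.length ≤ n → mds p n k cs = true →
    (∀ c ∈ cs, c.length = k) → ∀ u : List (ZMod p), u.length = k → (∃ a ∈ u, a ≠ 0) →
    cs.countP (fun c => decide (dot u c = 0)) < k := by
  intro n
  induction n with
  | zero =>
    intro k cs hl _ _ u hu ⟨a, ha, _⟩
    have : cs = [] := by simpa using hl
    subst this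
    have : 0 < u.length := List.length_pos_of_mem ha
    simp only [List.countP_nil]
    omega
  | succ n ih =>
    intro k cs hl hm hc u hu hne
    have hupos : 0 < u.length := by
      obtain ⟨a, ha, _⟩ := hne
      exact List.length_pos_of_mem ha
    match k, cs with
    | 0, _ => omega
    | k + 1, [] => simp
    | k + 1, c :: cs =>
      simp only [mds, Bool.or_eq_true, Bool.and_eq_true, Bool.not_eq_true'] at hm
      rcases hm with hm | ⟨h0, h1, h2⟩
      · have : n + 1 ≤ k := Nat.le_of_ble_eq_true hm
        have h3 := List.countP_le_length (p := fun c => decide (dot u c = 0)) (l := c :: cs)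
        omega
      · have hcl : c.length = k + 1 := hc c (by simp)
        match c, hcl with
        | h :: as, hcl =>
        match u, hu with
        | u0 :: us, hu =>
        simp only [List.length_cons, Nat.add_right_cancel_iff] at hcl hu
        have hh : (h : ZMod p) ≠ 0 := by
          intro h4
          rw [ZMod.natCast_eq_zero_iff] at h4
          have : h % p = 0 := Nat.mod_eq_zero_of_dvd h4
          simp [hd, this] at h0
        have hl' : cs.length ≤ n := by
          simp only [List.length_cons] at hl
          omega
        by_cases hz : dot (u0 :: us) (h :: as) = 0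
        · have hus : ∃ a ∈ us, a ≠ 0 := by
            by_contra hcon
            push Not at hcon
            have h5 : dot us as = 0 := dot_zero us as hcon
            simp only [dot, h5, add_zero] at hz
            have h6 : u0 = 0 := by
              rcases mul_eq_zero.mp hz with h | h
              · exact h
              · exact absurd h hh
            obtain ⟨a, ha, hane⟩ := hne
            rcases List.mem_cons.mp ha with h | h
            · exact hane (h.trans h6)
            · exact hane (hcon a h)
          have h7 := ih k (cs.map (elim p (h :: as))) (by simpa using hl') h1 (by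
            intro d hd
            rw [List.mem_map] at hd
            obtain ⟨e, he, rfl⟩ := hd
            have hel := hc e (by simp [he])
            match e, hel with
            | h' :: bs, hel =>
            simp only [List.length_cons, Nat.add_right_cancel_iff] at hel
            simp only [elim]
            rw [comb_length h h' as bs (by omega)]
            exact hcl) us hu hus
          rw [List.countP_map] at h7
          have h8 : cs.countP (fun c => decide (dot (u0 :: us) c = 0))
              ≤ cs.countP ((fun c => decide (dot us c = 0)) ∘ elim p (h :: as)) := by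
            refine List.countP_mono_left fun e he hdot => ?_
            have hel := hc e (by simp [he])
            match e, hel with
            | h' :: bs, hel =>
            simp only [List.length_cons, Nat.add_right_cancel_iff] at hel
            simp only [decide_eq_true_eq] at hdot
            refine decide_eq_true ?_
            change dot us (comb p h h' as bs) = 0
            rw [dot_comb h h' us as bs (by omega) (by omega)]
            simp only [dot] at hdot hz
            linear_combination (h : ZMod p) * hdot - (h' : ZMod p) * hz
          rw [List.countP_cons]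
          simp only [hz, decide_true, if_true]
          omega
        · have h9 := ih (k + 1) cs hl' h2 (fun c' hc' => hc c' (by simp [hc'])) (u0 :: us)
            (by simp [hu]) hne
          rw [List.countP_cons]
          simp only [hz, decide_false]
          simpa using h9

/-- function version of `dot`. -/
theorem dot_ofFn : ∀ (k : ℕ) (u : Fin k → ZMod p) (c : Fin k → ℕ),
    dot (List.ofFn u) (List.ofFn c) = ∑ i, u i * (c i : ZMod p)
  | 0, u, c => by simp [dot]
  | k + 1, u, c => by
      rw [List.ofFn_succ, List.ofFn_succ, Fin.sum_univ_succ, dot, dot_ofFn k]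

/-- main transfer: columns `x i` over a ring `R` embedded in a field `F`, with residues `c i` mod `p`. -/
theorem mds_transfer {R F : Type*} [CommRing R] [Field F] (φ : R →+* F)
    (hφ : Function.Injective φ) (ψ : R →+* ZMod p) {n k : ℕ} (x : Fin n → Fin k → R)
    (c : Fin n → Fin k → ℕ) (hc : ∀ i t, ψ (x i t) = (c i t : ZMod p))
    (hm : mds p n k (List.ofFn fun i => List.ofFn (c i)) = true)
    (u : Fin k → F) (hu : u ≠ 0) (s : Finset (Fin n)) (hs : ∀ i ∈ s, ∑ t, φ (x i t) * u t = 0) :
    s.card < k := by
  by_contra hcon
  push Not at hcon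
  obtain ⟨s', hs's, hcard⟩ := Finset.exists_subset_card_eq hcon
  let e : Fin k ≃ s' := (s'.equivFinOfCardEq hcard).symm
  let M : Matrix (Fin k) (Fin k) R := Matrix.of fun a t => x (e a) t
  have h1 : (M.map φ).det = 0 := by
    rw [← Matrix.exists_mulVec_eq_zero_iff]
    refine ⟨u, hu, ?_⟩
    funext a
    simpa [Matrix.mulVec, dotProduct, M] using hs (e a) (hs's (e a).2)
  have h2 : M.det = 0 := by
    apply hφ
    rw [map_zero, RingHom.map_det]
    exact h1
  have h3 : (M.map ψ).det = 0 := by
    have h3' := congrArg ψ h2
    rw [map_zero, RingHom.map_det] at h3'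
    exact h3'
  rw [← Matrix.exists_mulVec_eq_zero_iff] at h3
  obtain ⟨w, hw, hw0⟩ := h3
  have h4 := mds_sound (p := p) n k (List.ofFn fun i => List.ofFn (c i)) (by simp) hm (by
    intro d hd
    rw [List.mem_ofFn] at hd
    obtain ⟨i, rfl⟩ := hd
    simp) (List.ofFn w) (by simp) (by
    by_contra hcon2
    push Not at hcon2
    apply hw
    funext a
    exact hcon2 (w a) (by rw [List.mem_ofFn]; exact ⟨a, rfl⟩))
  have h5 : ∀ i ∈ s', dot (List.ofFn w) (List.ofFn (c i)) = 0 := by
    intro i hi
    rw [dot_ofFn]
    have h6 := congrFun hw0 (e.symm ⟨i, hi⟩)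
    simp only [Matrix.mulVec, dotProduct, Matrix.map_apply, M, Matrix.of_apply,
      Equiv.apply_symm_apply, Pi.zero_apply, hc] at h6
    rw [← h6]
    exact Finset.sum_congr rfl fun t _ => mul_comm _ _
  have h7 : s'.card ≤ (List.ofFn fun i => List.ofFn (c i)).countP
      (fun c => decide (dot (List.ofFn w) c = 0)) := by
    have h8 : (List.ofFn fun i => List.ofFn (c i)) = (List.finRange n).map
        (fun i => List.ofFn (c i)) := by
      rw [List.ofFn_eq_map]
    rw [h8, List.countP_map, List.countP_eq_length_filter]
    have h9 : s' ⊆ ((List.finRange n).filter ((fun c => decide (dot (List.ofFn w) c = 0)) ∘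
        fun i => List.ofFn (c i))).toFinset := by
      intro i hi
      rw [List.mem_toFinset, List.mem_filter]
      exact ⟨List.mem_finRange i, decide_eq_true (h5 i hi)⟩
    exact (Finset.card_le_card h9).trans (List.toFinset_card_le _)
  omega

/-- product-freeness from two uniform matroid certificates. -/
theorem pf_of_mds {R F : Type*} [CommRing R] [Field F] (φ : R →+* F)
    (hφ : Function.Injective φ) (ψ : R →+* ZMod p)
    (x z : Fin 20 → Fin 10 → R) (c d : Fin 20 → Fin 10 → ℕ)
    (hc : ∀ i t, ψ (x i t) = (c i t : ZMod p)) (hd : ∀ i t, ψ (z i t) = (d i t : ZMod p))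
    (hm : mds p 20 10 (List.ofFn fun i => List.ofFn (c i)) = true)
    (hm' : mds p 20 10 (List.ofFn fun i => List.ofFn (d i)) = true)
    (u v : Fin 10 → F)
    (h : ∀ r : Fin 20, ∑ q : Fin 10 × Fin 10, (φ (x r q.1) * φ (z r q.2)) * (u q.1 * v q.2) = 0) :
    u = 0 ∨ v = 0 := by
  by_contra hcon
  push Not at hcon
  obtain ⟨hu, hv⟩ := hcon
  classical
  have h1 : ∀ r, (∑ t, φ (x r t) * u t) = 0 ∨ (∑ t, φ (z r t) * v t) = 0 := by
    intro r
    rw [← mul_eq_zero, Finset.sum_mul_sum, ← h r, Fintype.sum_prod_type]
    exact Finset.sum_congr rfl fun a _ => Finset.sum_congr rfl fun b _ => by ring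
  set S : Finset (Fin 20) := Finset.univ.filter fun r => (∑ t, φ (x r t) * u t) = 0
  set T : Finset (Fin 20) := Finset.univ.filter fun r => (∑ t, φ (z r t) * v t) = 0
  have hS := mds_transfer φ hφ ψ x c hc hm u hu S (fun i hi => (Finset.mem_filter.mp hi).2)
  have hT := mds_transfer φ hφ ψ z d hd hm' v hv T (fun i hi => (Finset.mem_filter.mp hi).2)
  have hST : (Finset.univ : Finset (Fin 20)) ⊆ S ∪ T := by
    intro r _
    rcases h1 r with h | h
    · exact Finset.mem_union_left _ (Finset.mem_filter.mpr ⟨Finset.mem_univ _, h⟩)
    · exact Finset.mem_union_right _ (Finset.mem_filter.mpr ⟨Finset.mem_univ _, h⟩)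
  have h2 := (Finset.card_le_card hST).trans (Finset.card_union_le S T)
  simp only [Finset.card_univ, Fintype.card_fin] at h2
  omega

end Crest.Agent.P345Mds
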