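import Mathlib
import Crest.Agent.P345Mds

/-!
helper64, row 345: reduction modulo `p` of the whole product-freeness statement.
`place_lift`: bilinear relations with integer coefficients which have only trivial common zeros over
every field of characteristic `p` have only trivial common zeros over `ℂ`.
`pf_of_points_mod_p`: combination with the uniform-matroid certificate of `P345Mds`.
-/

set_option autoImplicit false

namespace Crest.Agent.P345Place

open Crest.Agent.P345Mds

theorem exists_place (p : ℕ) [hp : Fact p.Prime] :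
    ∃ B : ValuationSubring ℂ, (p : ℂ) ∈ B.nonunits := by
  let A : Subring ℂ := (Int.castRingHom ℂ).range
  let I : Ideal A := Ideal.span {(p : A)}
  have hI : I ≠ ⊤ := by
    intro h
    rw [Ideal.eq_top_iff_one] at h
    obtain ⟨c, hc⟩ := Ideal.mem_span_singleton'.mp h
    obtain ⟨z, hz⟩ := c.2
    have h1 : ((z * p : ℤ) : ℂ) = ((1 : ℤ) : ℂ) := by
      have h2 := congrArg (Subtype.val) hc
      push_cast
      simp only [Subring.coe_mul, Subring.coe_one] at h2
      rw [← h2, ← hz]
      simp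
    have h3 : (z * p : ℤ) = 1 := by exact_mod_cast h1
    have h4 : (p : ℤ) ∣ 1 := ⟨z, by rw [← h3]; ring⟩
    have h5 : p ∣ 1 := by exact_mod_cast h4
    exact hp.out.one_lt.ne' (Nat.dvd_one.mp h5)
  obtain ⟨B, _, hB⟩ := Ideal.image_subset_nonunits_valuationSubring I hI
  exact ⟨B, hB ⟨(p : A), Ideal.subset_span rfl, by simp⟩⟩

/-- scaling a nonzero vector into a valuation ring with one unit coordinate -/
theorem exists_scaled (B : ValuationSubring ℂ) (u : Fin 10 → ℂ) (hu : u ≠ 0) :
    ∃ i₀ : Fin 10, u i₀ ≠ 0 ∧ ∀ i, u i / u i₀ ∈ B := by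
  obtain ⟨i₀, -, hmax⟩ := Finset.exists_max_image Finset.univ (fun i => B.valuation (u i))
    ⟨0, Finset.mem_univ _⟩
  have h0 : u i₀ ≠ 0 := by
    intro h
    apply hu
    funext i
    have h1 := hmax i (Finset.mem_univ _)
    rw [h, map_zero] at h1
    have h2 : B.valuation (u i) = 0 := le_antisymm h1 zero_le'
    exact (map_eq_zero _).mp h2
  refine ⟨i₀, h0, fun i => ?_⟩
  rw [← B.valuation_le_one_iff, map_div₀]
  have hpos : 0 < B.valuation (u i₀) := by
    rw [zero_lt_iff]
    exact (map_ne_zero _).mpr h0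
  exact div_le_one_of_le₀ (hmax i (Finset.mem_univ _)) hpos.le

theorem place_lift (p : ℕ) [hp : Fact p.Prime] {ρ : Type*}
    (n : ρ → Fin 10 × Fin 10 → ℤ)
    (h : ∀ (k : Type) [Field k] [CharP k p] (u v : Fin 10 → k),
      (∀ r, ∑ q : Fin 10 × Fin 10, (n r q : k) * (u q.1 * v q.2) = 0) → u = 0 ∨ v = 0)
    (u v : Fin 10 → ℂ)
    (hrel : ∀ r, ∑ q : Fin 10 × Fin 10, (n r q : ℂ) * (u q.1 * v q.2) = 0) :
    u = 0 ∨ v = 0 := by
  by_contra hcon
  push Not at hcon
  obtain ⟨hu, hv⟩ := hcon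
  obtain ⟨B, hB⟩ := exists_place p
  obtain ⟨i₀, hi₀, hui⟩ := exists_scaled B u hu
  obtain ⟨j₀, hj₀, hvj⟩ := exists_scaled B v hv
  let u' : Fin 10 → B := fun i => ⟨u i / u i₀, hui i⟩
  let v' : Fin 10 → B := fun j => ⟨v j / v j₀, hvj j⟩
  have hu1 : u' i₀ = 1 := Subtype.ext (div_self hi₀)
  have hv1 : v' j₀ = 1 := Subtype.ext (div_self hj₀)
  have hr : ∀ r, ∑ q : Fin 10 × Fin 10, (n r q : B) * (u' q.1 * v' q.2) = 0 := by
    intro r
    apply Subtype.ext
    have h1 : ((∑ q : Fin 10 × Fin 10, (n r q : B) * (u' q.1 * v' q.2) : B) : ℂ)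
        = ∑ q : Fin 10 × Fin 10, (n r q : ℂ) * ((u q.1 / u i₀) * (v q.2 / v j₀)) := by
      push_cast
      rfl
    rw [h1]
    have h2 : ∑ q : Fin 10 × Fin 10, (n r q : ℂ) * ((u q.1 / u i₀) * (v q.2 / v j₀))
        = (∑ q : Fin 10 × Fin 10, (n r q : ℂ) * (u q.1 * v q.2)) / (u i₀ * v j₀) := by
      rw [Finset.sum_div]
      refine Finset.sum_congr rfl fun q _ => ?_
      field_simp
    rw [h2, hrel r, zero_div]
    rfl
  have hpm : (p : B) ∈ IsLocalRing.maximalIdeal B := by
    rw [IsLocalRing.mem_maximalIdeal]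
    intro hunit
    have h1 : ((p : B) : ℂ) ∉ B.nonunits := by
      rw [ValuationSubring.mem_nonunits_iff]
      have h2 : B.valuation ((p : B) : ℂ) = 1 := (B.valuation_eq_one_iff _).mp hunit
      rw [h2]
      exact lt_irrefl _
    apply h1
    simpa using hB
  have hchar : CharP (IsLocalRing.ResidueField B) p := by
    rw [CharP.charP_iff_prime_eq_zero hp.out]
    have h1 := (IsLocalRing.residue_eq_zero_iff (p : B)).mpr hpm
    simpa using h1
  have key := h (IsLocalRing.ResidueField B) (fun i => IsLocalRing.residue B (u' i))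
    (fun j => IsLocalRing.residue B (v' j)) (by
      intro r
      have h1 := congrArg (IsLocalRing.residue B) (hr r)
      rw [map_sum, map_zero] at h1
      simpa using h1)
  rcases key with h1 | h1
  · have h2 := congrFun h1 i₀
    simp only [hu1, map_one, Pi.zero_apply] at h2
    exact one_ne_zero h2
  · have h2 := congrFun h1 j₀
    simp only [hv1, map_one, Pi.zero_apply] at h2
    exact one_ne_zero h2

/-- product-freeness over `ℂ` of integer relations `n r`, from `20` split points modulo `p`: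
`x i ⊗ z i` is a combination `∑ r, T i r • n r` modulo `p`. -/
theorem pf_of_points_mod_p (p : ℕ) [hp : Fact p.Prime] {m : ℕ}
    (n : Fin m → Fin 10 × Fin 10 → ℤ)
    (c d : Fin 20 → Fin 10 → ℕ) (T : Fin 20 → Fin m → ℕ)
    (hT : ∀ (i : Fin 20) (a b : Fin 10),
      ((c i a * d i b : ℕ) : ZMod p) = ∑ r, (T i r : ZMod p) * (n r (a, b) : ZMod p))
    (hm : mds p 20 10 (List.ofFn fun i => List.ofFn (c i)) = true)
    (hm' : mds p 20 10 (List.ofFn fun i => List.ofFn (d i)) = true)
    (u v : Fin 10 → ℂ)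
    (hrel : ∀ r, ∑ q : Fin 10 × Fin 10, (n r q : ℂ) * (u q.1 * v q.2) = 0) :
    u = 0 ∨ v = 0 := by
  refine place_lift p n ?_ u v hrel
  intro k _ _ u v hk
  let φ : ZMod p →+* k := ZMod.castHom (dvd_refl p) k
  have hφ : Function.Injective φ := φ.injective
  refine pf_of_mds φ hφ (RingHom.id (ZMod p)) (fun i a => (c i a : ZMod p))
    (fun i a => (d i a : ZMod p)) c d (fun i t => rfl) (fun i t => rfl) hm hm' u v ?_
  intro i
  have h1 : ∀ q : Fin 10 × Fin 10, (φ (c i q.1 : ZMod p) * φ (d i q.2 : ZMod p))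
      = ∑ r, φ (T i r : ZMod p) * (n r q : k) := by
    rintro ⟨a, b⟩
    have h2 := congrArg φ (hT i a b)
    rw [map_sum] at h2
    simp only [map_mul, Nat.cast_mul, map_natCast, map_intCast] at h2 ⊢
    exact h2
  simp only [h1, Finset.sum_mul]
  rw [Finset.sum_comm]
  refine Finset.sum_eq_zero fun r _ => ?_
  have h3 : ∑ q : Fin 10 × Fin 10, φ (T i r : ZMod p) * (n r q : k) * (u q.1 * v q.2)
      = φ (T i r : ZMod p) * ∑ q : Fin 10 × Fin 10, (n r q : k) * (u q.1 * v q.2) := by
    rw [Finset.mul_sum]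
    exact Finset.sum_congr rfl fun q _ => by ring
  rw [h3, hk r, mul_zero]

end Crest.Agent.P345Place
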