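import Crest.Prelude.Def_Entanglement

set_option autoImplicit false
set_option linter.unusedSectionVars false

namespace Crest.Agent.P345Red

open Matrix Crest.Quantum
open scoped ComplexOrder Kronecker

variable {d e f ι κ ρ : Type*} [Fintype d] [Fintype e] [Fintype f] [Fintype ι] [Fintype κ]
  [DecidableEq d] [DecidableEq e] [DecidableEq f]

/-- the map with Kraus matrices `K i`. -/
noncomputable def kmap (K : ι → Matrix e d ℂ) (M : Matrix d d ℂ) : Matrix e e ℂ :=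
  ∑ i, K i * M * (K i)ᴴ

theorem kmap_linear (K : ι → Matrix e d ℂ) : IsLinearMap ℂ (kmap K) := by
  constructor
  · intro x y
    simp [kmap, Matrix.mul_add, Matrix.add_mul, Finset.sum_add_distrib]
  · intro c x
    simp [kmap, Finset.smul_sum]

/-- ampliation of a Kraus matrix -/
def amp (k : ℕ) (A : Matrix e d ℂ) : Matrix (Fin k × e) (Fin k × d) ℂ :=
  Matrix.of fun p q => if p.1 = q.1 then A p.2 q.2 else 0

theorem kmap_cp (K : ι → Matrix e d ℂ) : IsCompletelyPositive (kmap K) := by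
  intro k M hM
  have h : blockwise (k := Fin k) (kmap K) M = ∑ i, amp k (K i) * M * (amp k (K i))ᴴ := by
    ext p q
    simp only [blockwise, kmap, Matrix.of_apply, Matrix.sum_apply]
    refine Finset.sum_congr rfl fun i _ => ?_
    simp only [Matrix.mul_apply, Matrix.conjTranspose_apply, amp, Matrix.of_apply, block,
      Fintype.sum_prod_type]
    simp [Finset.sum_ite_eq, apply_ite]
  rw [h]
  exact Matrix.posSemidef_sum _ fun i _ => hM.mul_mul_conjTranspose_same _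

theorem kmap_ppt {ι' : Type*} [Fintype ι'] (K : ι → Matrix e d ℂ) (K' : ι' → Matrix e d ℂ)
    (h : ∀ M, (kmap K M).transpose = kmap K' M) : IsPPT (kmap K) := by
  refine ⟨kmap_cp K, ?_⟩
  have : (fun M => (kmap K M).transpose) = kmap K' := funext h
  rw [this]
  exact kmap_cp K'

theorem kmap_apply (K : ι → Matrix e d ℂ) (M : Matrix d d ℂ) (x y : e) :
    kmap K M x y = ∑ a, ∑ b, (∑ i, K i x a * star (K i y b)) * M a b := by
  simp only [kmap, Matrix.sum_apply, Matrix.mul_apply, Matrix.conjTranspose_apply,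
    Finset.sum_mul]
  calc ∑ i, ∑ b, ∑ a, K i x a * M a b * star (K i y b)
      = ∑ i, ∑ b, ∑ a, K i x a * star (K i y b) * M a b := by
        refine Finset.sum_congr rfl fun i _ => Finset.sum_congr rfl fun b _ =>
          Finset.sum_congr rfl fun a _ => by ring
    _ = ∑ b, ∑ i, ∑ a, K i x a * star (K i y b) * M a b := Finset.sum_comm
    _ = ∑ b, ∑ a, ∑ i, K i x a * star (K i y b) * M a b :=
        Finset.sum_congr rfl fun b _ => Finset.sum_comm
    _ = ∑ a, ∑ b, ∑ i, K i x a * star (K i y b) * M a b := Finset.sum_comm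

/-- entrywise criterion for the partial transposition identity -/
theorem kmap_transpose_of {ι' : Type*} [Fintype ι'] (K : ι → Matrix e d ℂ)
    (K' : ι' → Matrix e d ℂ)
    (h : ∀ x y a b, ∑ i, K i y a * star (K i x b) = ∑ i, K' i x a * star (K' i y b)) (M) :
    (kmap K M).transpose = kmap K' M := by
  ext x y
  rw [Matrix.transpose_apply, kmap_apply, kmap_apply]
  refine Finset.sum_congr rfl fun a _ => Finset.sum_congr rfl fun b _ => ?_
  rw [h]

theorem kmap_comp (K : ι → Matrix e d ℂ) (L : κ → Matrix f e ℂ) (M : Matrix d d ℂ) :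
    kmap L (kmap K M) = ∑ j, ∑ i, (L j * K i) * M * (L j * K i)ᴴ := by
  simp only [kmap, Matrix.mul_sum, Matrix.sum_mul, Matrix.conjTranspose_mul, Matrix.mul_assoc]

theorem choi_apply (K : ι → Matrix e d ℂ) (L : κ → Matrix f e ℂ) (p q : d × f) :
    choiMatrix (kmap L ∘ kmap K) p q
      = ∑ j, ∑ i, (L j * K i) p.2 p.1 * star ((L j * K i) q.2 q.1) := by
  simp only [choiMatrix, Matrix.of_apply, Function.comp_apply, kmap_comp, Matrix.sum_apply]
  refine Finset.sum_congr rfl fun j _ => Finset.sum_congr rfl fun i _ => ?_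
  generalize L j * K i = X
  simp [Matrix.mul_apply, Matrix.single_apply, Finset.sum_ite_eq, Finset.mul_sum,
    Finset.sum_mul, ite_and]

theorem choi_ne_zero (K : ι → Matrix e d ℂ) (L : κ → Matrix f e ℂ)
    (h : ∃ j i, L j * K i ≠ 0) : choiMatrix (kmap L ∘ kmap K) ≠ 0 := by
  obtain ⟨j, i, hji⟩ := h
  intro h0
  apply hji
  ext c a
  have h1 := congrFun (congrFun h0 (a, c)) (a, c)
  rw [choi_apply] at h1
  simp only [Matrix.zero_apply] at h1
  have h2 : ∀ z : ℂ, 0 ≤ z * star z := fun z => by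
    rw [mul_comm]; exact star_mul_self_nonneg z
  rw [Finset.sum_eq_zero_iff_of_nonneg (fun j _ => Finset.sum_nonneg fun i _ => h2 _)] at h1
  have h3 := h1 j (Finset.mem_univ _)
  rw [Finset.sum_eq_zero_iff_of_nonneg (fun i _ => h2 _)] at h3
  have h4 := h3 i (Finset.mem_univ _)
  simpa using h4

/-- the relation vectors annihilate the Choi matrix -/
theorem choi_mulVec_rel (K : ι → Matrix e d ℂ) (L : κ → Matrix f e ℂ) (n : d × f → ℂ)
    (h : ∀ j i, ∑ p : d × f, n p * (L j * K i) p.2 p.1 = 0) :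
    (choiMatrix (kmap L ∘ kmap K)).mulVec (fun p => star (n p)) = 0 := by
  ext p
  simp only [Matrix.mulVec, dotProduct, choi_apply, Pi.zero_apply, Finset.sum_mul]
  rw [Finset.sum_comm]
  refine Finset.sum_eq_zero fun j _ => ?_
  rw [Finset.sum_comm]
  refine Finset.sum_eq_zero fun i _ => ?_
  have h1 : ∑ q : d × f, (L j * K i) p.2 p.1 * star ((L j * K i) q.2 q.1) * star (n q)
      = (L j * K i) p.2 p.1 * star (∑ q : d × f, n q * (L j * K i) q.2 q.1) := by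
    rw [star_sum, Finset.mul_sum]
    refine Finset.sum_congr rfl fun q _ => ?_
    rw [star_mul]; ring
  rw [h1, h j i]; simp

theorem choi_vecMul_rel (K : ι → Matrix e d ℂ) (L : κ → Matrix f e ℂ) (n : d × f → ℂ)
    (h : ∀ j i, ∑ p : d × f, n p * (L j * K i) p.2 p.1 = 0) (q : d × f) :
    ∑ p, n p * choiMatrix (kmap L ∘ kmap K) p q = 0 := by
  simp only [choi_apply, Finset.mul_sum]
  rw [Finset.sum_comm]
  refine Finset.sum_eq_zero fun j _ => ?_
  rw [Finset.sum_comm]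
  refine Finset.sum_eq_zero fun i _ => ?_
  have h1 : ∑ p : d × f, n p * ((L j * K i) p.2 p.1 * star ((L j * K i) q.2 q.1))
      = (∑ p : d × f, n p * (L j * K i) p.2 p.1) * star ((L j * K i) q.2 q.1) := by
    rw [Finset.sum_mul]
    refine Finset.sum_congr rfl fun p _ => by ring
  rw [h1, h j i, zero_mul]

/-- a positive multiple of the Choi matrix is not a sum of Kronecker products of PSD matrices -/
theorem not_sum_kron (K : ι → Matrix e d ℂ) (L : κ → Matrix f e ℂ) (n : ρ → d × f → ℂ)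
    (hrel : ∀ r j i, ∑ p : d × f, n r p * (L j * K i) p.2 p.1 = 0)
    (hPF : ∀ (u : d → ℂ) (v : f → ℂ), (∀ r, ∑ p : d × f, n r p * (u p.1 * v p.2) = 0) →
      u = 0 ∨ v = 0)
    (hne : ∃ j i, L j * K i ≠ 0) (t : ℂ) (ht : t ≠ 0)
    (m : ℕ) (A : Fin m → Matrix d d ℂ) (B : Fin m → Matrix f f ℂ)
    (hA : ∀ i, (A i).PosSemidef) (hB : ∀ i, (B i).PosSemidef)
    (hsum : t • choiMatrix (kmap L ∘ kmap K) = ∑ i, A i ⊗ₖ B i) : False := by
  have hker : ∀ r i, (A i ⊗ₖ B i).mulVec (fun p => star (n r p)) = 0 := by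
    intro r i
    have h1 : (∑ i, A i ⊗ₖ B i).mulVec (fun p => star (n r p)) = 0 := by
      rw [← hsum, Matrix.smul_mulVec, choi_mulVec_rel K L (n r) (hrel r), smul_zero]
    have h2 : star (fun p => star (n r p)) ⬝ᵥ
        (∑ i, A i ⊗ₖ B i).mulVec (fun p => star (n r p)) = 0 := by
      rw [h1]; simp
    rw [Matrix.sum_mulVec, dotProduct_sum] at h2
    have hpos : ∀ i, (A i ⊗ₖ B i).PosSemidef := fun i => (hA i).kronecker (hB i)
    rw [Finset.sum_eq_zero_iff_of_nonneg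
      (fun i _ => (hpos i).dotProduct_mulVec_nonneg _)] at h2
    exact ((hpos i).dotProduct_mulVec_zero_iff _).1 (h2 i (Finset.mem_univ _))
  have hc := choi_ne_zero K L hne
  have hne2 : ∃ i, A i ⊗ₖ B i ≠ 0 := by
    by_contra hcon
    push Not at hcon
    rw [Finset.sum_eq_zero (fun i _ => hcon i)] at hsum
    exact hc ((smul_eq_zero.1 hsum).resolve_left ht)
  obtain ⟨i, hi⟩ := hne2
  have hA0 : A i ≠ 0 := by
    rintro h0; apply hi; rw [h0]; simp
  have hB0 : B i ≠ 0 := by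
    rintro h0; apply hi; rw [h0]; simp
  have hAe : ∃ a', (fun x => A i x a') ≠ 0 := by
    by_contra hcon; push Not at hcon
    apply hA0; ext x a'; exact congrFun (hcon a') x
  have hBe : ∃ c', (fun x => B i x c') ≠ 0 := by
    by_contra hcon; push Not at hcon
    apply hB0; ext x c'; exact congrFun (hcon c') x
  obtain ⟨a', ha'⟩ := hAe
  obtain ⟨c', hc'⟩ := hBe
  rcases hPF (fun x => A i x a') (fun y => B i y c') (by
    intro r
    have h3 := congrFun (hker r i) (a', c')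
    simp only [Matrix.mulVec, dotProduct, Pi.zero_apply, Matrix.kroneckerMap_apply] at h3
    have h4 := congrArg star h3
    rw [star_sum, star_zero] at h4
    rw [← h4]
    refine Finset.sum_congr rfl fun p _ => ?_
    rw [star_mul, star_star, star_mul]
    have e1 : star (A i a' p.1) = A i p.1 a' := (hA i).1.apply _ _
    have e2 : star (B i c' p.2) = B i p.2 c' := (hB i).1.apply _ _
    rw [e1, e2]; ring) with h | h
  · exact ha' h
  · exact hc' h


section Omega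

/-- the vector of an embedded maximally entangled state -/
noncomputable def omegaVec {k : ℕ} (g : Fin k → d) : Fin k × d → ℂ :=
  fun p => if p.2 = g p.1 then 1 else 0

noncomputable def omega {k : ℕ} (g : Fin k → d) : Matrix (Fin k × d) (Fin k × d) ℂ :=
  Matrix.vecMulVec (omegaVec g) (star (omegaVec g))

theorem omega_psd {k : ℕ} (g : Fin k → d) : (omega g).PosSemidef :=
  Matrix.posSemidef_vecMulVec_self_star _

theorem block_omega {k : ℕ} (g : Fin k → d) (s t : Fin k) :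
    block (omega g) s t = Matrix.single (g s) (g t) 1 := by
  ext a b
  simp only [block, omega, Matrix.of_apply, Matrix.vecMulVec_apply, omegaVec, Pi.star_apply,
    Matrix.single_apply]
  by_cases h1 : a = g s <;> by_cases h2 : b = g t <;> simp [h1, h2, eq_comm]

end Omega

theorem notEB_comp {N : ℕ} (K : ι → Matrix e (Fin N) ℂ) (L : κ → Matrix f e ℂ)
    (n : ρ → Fin N × f → ℂ)
    (hrel : ∀ r j i, ∑ p : Fin N × f, n r p * (L j * K i) p.2 p.1 = 0)
    (hPF : ∀ (u : Fin N → ℂ) (v : f → ℂ),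
      (∀ r, ∑ p : Fin N × f, n r p * (u p.1 * v p.2) = 0) → u = 0 ∨ v = 0)
    (hne : ∃ j i, L j * K i ≠ 0) :
    ¬ IsEntanglementBreaking (kmap L ∘ kmap K) := by
  intro h
  obtain ⟨m, A, B, hA, hB, hsum⟩ := h N (omega (fun i : Fin N => i)) (omega_psd _)
  refine not_sum_kron K L n hrel hPF hne 1 one_ne_zero m A B hA hB ?_
  rw [one_smul, ← hsum]
  ext p q
  simp only [blockwise, Matrix.of_apply, block_omega, choiMatrix]

theorem s0541_of {ι' κ' : Type*} [Fintype ι'] [Fintype κ']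
    (K : ι → Matrix (Fin 10) (Fin 10) ℂ) (K' : ι' → Matrix (Fin 10) (Fin 10) ℂ)
    (L : κ → Matrix (Fin 10) (Fin 10) ℂ) (L' : κ' → Matrix (Fin 10) (Fin 10) ℂ)
    (hK : ∀ M, (kmap K M).transpose = kmap K' M) (hL : ∀ M, (kmap L M).transpose = kmap L' M)
    (n : ρ → Fin 10 × Fin 10 → ℂ)
    (hrel : ∀ r j i, ∑ p : Fin 10 × Fin 10, n r p * (L j * K i) p.2 p.1 = 0)
    (hPF : ∀ (u : Fin 10 → ℂ) (v : Fin 10 → ℂ),
      (∀ r, ∑ p : Fin 10 × Fin 10, n r p * (u p.1 * v p.2) = 0) → u = 0 ∨ v = 0)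
    (hne : ∃ j i, L j * K i ≠ 0) :
    ∃ Φ₁ Φ₂ : Matrix (Fin 10) (Fin 10) ℂ → Matrix (Fin 10) (Fin 10) ℂ,
      IsLinearMap ℂ Φ₁ ∧ IsLinearMap ℂ Φ₂ ∧ IsPPT Φ₁ ∧ IsPPT Φ₂ ∧
      choiMatrix (Φ₂ ∘ Φ₁) ≠ 0 ∧
      (∀ u v : Fin 10 → ℂ, (∃ w, (choiMatrix (Φ₂ ∘ Φ₁)).mulVec w = fun p => u p.1 * v p.2) →
        u = 0 ∨ v = 0) ∧
      ¬ IsEntanglementBreaking (Φ₂ ∘ Φ₁) := by
  refine ⟨kmap K, kmap L, kmap_linear K, kmap_linear L, kmap_ppt K K' hK, kmap_ppt L L' hL,
    choi_ne_zero K L hne, ?_, notEB_comp K L n hrel hPF hne⟩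
  rintro u v ⟨w, hw⟩
  refine hPF u v fun r => ?_
  have h1 : ∀ p : Fin 10 × Fin 10, u p.1 * v p.2
      = (choiMatrix (kmap L ∘ kmap K)).mulVec w p := fun p => (congrFun hw p).symm
  simp only [h1, Matrix.mulVec, dotProduct, Finset.mul_sum]
  rw [Finset.sum_comm]
  refine Finset.sum_eq_zero fun q _ => ?_
  have h2 := choi_vecMul_rel K L (n r) (hrel r) q
  calc ∑ p, n r p * (choiMatrix (kmap L ∘ kmap K) p q * w q)
      = (∑ p, n r p * choiMatrix (kmap L ∘ kmap K) p q) * w q := by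
        rw [Finset.sum_mul]; exact Finset.sum_congr rfl fun p _ => by ring
    _ = 0 := by rw [h2, zero_mul]

section Block

/-- embedding matrix of `g` -/
noncomputable def P (g : Fin 10 → Fin 21) : Matrix (Fin 21) (Fin 10) ℂ :=
  Matrix.of fun x i => if x = g i then 1 else 0

theorem P_conj (g : Fin 10 → Fin 21) : (P g)ᴴ = (P g)ᵀ := by
  ext i x
  simp only [P, Matrix.conjTranspose_apply, Matrix.transpose_apply, Matrix.of_apply]
  split_ifs <;> simp

theorem compress (g h : Fin 10 → Fin 21) (X : Matrix (Fin 21) (Fin 21) ℂ) :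
    (P g)ᴴ * X * P h = X.submatrix g h := by
  ext i j
  rw [P_conj]
  simp [Matrix.mul_apply, P, Matrix.submatrix_apply]

theorem PP (g h : Fin 10 → Fin 21) : (P g)ᴴ * P h = Matrix.of fun i j => if g i = h j then 1 else 0 := by
  ext i j
  rw [P_conj]
  simp [Matrix.mul_apply, P, eq_comm]

def f1 : Fin 10 → Fin 21 := fun i => ⟨i.1, by omega⟩
def f2 : Fin 10 → Fin 21 := fun i => ⟨i.1 + 10, by omega⟩
def last : Fin 21 := ⟨20, by omega⟩

theorem PP11 : (P f1)ᴴ * P f1 = 1 := by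
  rw [PP]; ext i j; simp [f1, Matrix.one_apply, Fin.ext_iff]

theorem PP22 : (P f2)ᴴ * P f2 = 1 := by
  rw [PP]; ext i j; simp [f2, Matrix.one_apply, Fin.ext_iff]

theorem PP12 : (P f1)ᴴ * P f2 = 0 := by
  rw [PP]; ext i j
  have : ¬ (f1 i = f2 j) := by
    simp only [f1, f2, Fin.ext_iff]; omega
  simp [this]

theorem PP21 : (P f2)ᴴ * P f1 = 0 := by
  rw [PP]; ext i j
  have : ¬ (f2 i = f1 j) := by
    simp only [f1, f2, Fin.ext_iff]; omega
  simp [this]

noncomputable def W (R : Matrix (Fin 21) (Fin 21) ℂ) (x : Fin 21) : Matrix (Fin 21) (Fin 21) ℂ :=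
  Matrix.of fun y z => if y = last then R x z else 0

/-- Kraus matrices of the block channel -/
noncomputable def V (s : ℝ) (K : ι → Matrix (Fin 10) (Fin 10) ℂ)
    (L : κ → Matrix (Fin 10) (Fin 10) ℂ) (R : Matrix (Fin 21) (Fin 21) ℂ) :
    (ι ⊕ κ) ⊕ Fin 21 → Matrix (Fin 21) (Fin 21) ℂ
  | Sum.inl (Sum.inl i) => (s : ℂ) • (P f2 * K i * (P f1)ᴴ)
  | Sum.inl (Sum.inr j) => (s : ℂ) • (P f1 * L j * (P f2)ᴴ)
  | Sum.inr x => W R x

theorem kmap_V (s : ℝ) (K : ι → Matrix (Fin 10) (Fin 10) ℂ)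
    (L : κ → Matrix (Fin 10) (Fin 10) ℂ) (R : Matrix (Fin 21) (Fin 21) ℂ)
    (M : Matrix (Fin 21) (Fin 21) ℂ) :
    kmap (V s K L R) M = ((s : ℂ) * s) • (P f2 * kmap K ((P f1)ᴴ * M * P f1) * (P f2)ᴴ)
      + ((s : ℂ) * s) • (P f1 * kmap L ((P f2)ᴴ * M * P f2) * (P f1)ᴴ)
      + ∑ x, W R x * M * (W R x)ᴴ := by
  simp only [kmap, Fintype.sum_sum_type, V]
  congr 1
  congr 1
  · simp only [Matrix.mul_sum, Matrix.sum_mul, Finset.smul_sum]
    refine Finset.sum_congr rfl fun i _ => ?_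
    simp only [Matrix.conjTranspose_smul, Matrix.conjTranspose_mul,
      Matrix.conjTranspose_conjTranspose, Matrix.smul_mul, Matrix.mul_smul, smul_smul,
      Matrix.mul_assoc]
    simp
  · simp only [Matrix.mul_sum, Matrix.sum_mul, Finset.smul_sum]
    refine Finset.sum_congr rfl fun i _ => ?_
    simp only [Matrix.conjTranspose_smul, Matrix.conjTranspose_mul,
      Matrix.conjTranspose_conjTranspose, Matrix.smul_mul, Matrix.mul_smul, smul_smul,
      Matrix.mul_assoc]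
    simp

theorem W_part_apply (R M : Matrix (Fin 21) (Fin 21) ℂ) (y y' : Fin 21) :
    (∑ x, W R x * M * (W R x)ᴴ) y y'
      = if y = last ∧ y' = last then ∑ x, ∑ b, (∑ a, R x a * M a b) * star (R x b) else 0 := by
  simp only [Matrix.sum_apply, Matrix.mul_apply, W, Matrix.conjTranspose_apply, Matrix.of_apply]
  by_cases h1 : y = last <;> by_cases h2 : y' = last <;> simp [h1, h2]

theorem W_part_transpose (R M : Matrix (Fin 21) (Fin 21) ℂ) :
    (∑ x, W R x * M * (W R x)ᴴ)ᵀ = ∑ x, W R x * M * (W R x)ᴴ := by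
  ext y y'
  rw [Matrix.transpose_apply, W_part_apply, W_part_apply]
  simp only [and_comm]

theorem W_part_sub (g : Fin 10 → Fin 21) (hg : ∀ i, g i ≠ last)
    (R M : Matrix (Fin 21) (Fin 21) ℂ) :
    (∑ x, W R x * M * (W R x)ᴴ).submatrix g g = 0 := by
  ext y y'
  rw [Matrix.submatrix_apply, W_part_apply]
  simp [hg]

theorem f1_ne (i : Fin 10) : f1 i ≠ last := by
  simp only [f1, last, ne_eq, Fin.ext_iff]; omega

theorem f2_ne (i : Fin 10) : f2 i ≠ last := by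
  simp only [f2, last, ne_eq, Fin.ext_iff]; omega

theorem sand_transpose (g : Fin 10 → Fin 21) (X : Matrix (Fin 10) (Fin 10) ℂ) :
    (P g * X * (P g)ᴴ)ᵀ = P g * Xᵀ * (P g)ᴴ := by
  rw [P_conj, Matrix.transpose_mul, Matrix.transpose_mul, Matrix.transpose_transpose,
    Matrix.mul_assoc]

theorem V_ppt {ι' κ' : Type*} [Fintype ι'] [Fintype κ'] (s : ℝ)
    (K : ι → Matrix (Fin 10) (Fin 10) ℂ) (K' : ι' → Matrix (Fin 10) (Fin 10) ℂ)
    (L : κ → Matrix (Fin 10) (Fin 10) ℂ) (L' : κ' → Matrix (Fin 10) (Fin 10) ℂ)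
    (hK : ∀ M, (kmap K M).transpose = kmap K' M) (hL : ∀ M, (kmap L M).transpose = kmap L' M)
    (R : Matrix (Fin 21) (Fin 21) ℂ) : IsPPT (kmap (V s K L R)) := by
  refine kmap_ppt _ (V s K' L' R) fun M => ?_
  rw [kmap_V, kmap_V, Matrix.transpose_add, Matrix.transpose_add, Matrix.transpose_smul,
    Matrix.transpose_smul, sand_transpose, sand_transpose, W_part_transpose, hK, hL]

theorem compW (g : Fin 10 → Fin 21) (hg : ∀ i, g i ≠ last) (R M : Matrix (Fin 21) (Fin 21) ℂ) :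
    (P g)ᴴ * (∑ x, W R x * M * (W R x)ᴴ) * P g = 0 := by
  rw [compress, W_part_sub g hg]

theorem sub2 (s : ℝ) (K : ι → Matrix (Fin 10) (Fin 10) ℂ)
    (L : κ → Matrix (Fin 10) (Fin 10) ℂ) (R M : Matrix (Fin 21) (Fin 21) ℂ) :
    (P f2)ᴴ * kmap (V s K L R) M * P f2 = ((s : ℂ) * s) • kmap K ((P f1)ᴴ * M * P f1) := by
  rw [kmap_V, Matrix.mul_add, Matrix.mul_add, Matrix.add_mul, Matrix.add_mul, compW f2 f2_ne]
  simp only [Matrix.mul_smul, Matrix.smul_mul]
  have e1 : (P f2)ᴴ * (P f2 * kmap K ((P f1)ᴴ * M * P f1) * (P f2)ᴴ) * P f2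
      = kmap K ((P f1)ᴴ * M * P f1) := by
    rw [Matrix.mul_assoc (P f2), ← Matrix.mul_assoc (P f2)ᴴ, PP22, Matrix.one_mul,
      Matrix.mul_assoc, PP22, Matrix.mul_one]
  have e2 : (P f2)ᴴ * (P f1 * kmap L ((P f2)ᴴ * M * P f2) * (P f1)ᴴ) * P f2 = 0 := by
    rw [Matrix.mul_assoc (P f1), ← Matrix.mul_assoc (P f2)ᴴ, PP21, Matrix.zero_mul,
      Matrix.zero_mul]
  rw [e1, e2]; simp

theorem sub1 (s : ℝ) (K : ι → Matrix (Fin 10) (Fin 10) ℂ)
    (L : κ → Matrix (Fin 10) (Fin 10) ℂ) (R M : Matrix (Fin 21) (Fin 21) ℂ) :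
    (P f1)ᴴ * kmap (V s K L R) M * P f1 = ((s : ℂ) * s) • kmap L ((P f2)ᴴ * M * P f2) := by
  rw [kmap_V, Matrix.mul_add, Matrix.mul_add, Matrix.add_mul, Matrix.add_mul, compW f1 f1_ne]
  simp only [Matrix.mul_smul, Matrix.smul_mul]
  have e1 : (P f1)ᴴ * (P f1 * kmap L ((P f2)ᴴ * M * P f2) * (P f1)ᴴ) * P f1
      = kmap L ((P f2)ᴴ * M * P f2) := by
    rw [Matrix.mul_assoc (P f1), ← Matrix.mul_assoc (P f1)ᴴ, PP11, Matrix.one_mul,
      Matrix.mul_assoc, PP11, Matrix.mul_one]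
  have e2 : (P f1)ᴴ * (P f2 * kmap K ((P f1)ᴴ * M * P f1) * (P f2)ᴴ) * P f1 = 0 := by
    rw [Matrix.mul_assoc (P f2), ← Matrix.mul_assoc (P f1)ᴴ, PP12, Matrix.zero_mul,
      Matrix.zero_mul]
  rw [e1, e2]; simp

theorem V_not_EB (s : ℝ) (hs : s ≠ 0) (K : ι → Matrix (Fin 10) (Fin 10) ℂ)
    (L : κ → Matrix (Fin 10) (Fin 10) ℂ) (R : Matrix (Fin 21) (Fin 21) ℂ)
    (n : ρ → Fin 10 × Fin 10 → ℂ)
    (hrel : ∀ r j i, ∑ p : Fin 10 × Fin 10, n r p * (L j * K i) p.2 p.1 = 0)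
    (hPF : ∀ (u : Fin 10 → ℂ) (v : Fin 10 → ℂ),
      (∀ r, ∑ p : Fin 10 × Fin 10, n r p * (u p.1 * v p.2) = 0) → u = 0 ∨ v = 0)
    (hne : ∃ j i, L j * K i ≠ 0) :
    ¬ IsEntanglementBreaking (kmap (V s K L R) ∘ kmap (V s K L R)) := by
  intro h
  obtain ⟨m, A, B, hA, hB, hsum⟩ := h 10 (omega f1) (omega_psd _)
  refine not_sum_kron K L n hrel hPF hne (((s : ℂ) * s) * ((s : ℂ) * s)) ?_ m A
    (fun i => (B i).submatrix f1 f1) hA (fun i => (hB i).submatrix f1) ?_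
  · have : (s : ℂ) ≠ 0 := by exact_mod_cast hs
    exact mul_ne_zero (mul_ne_zero this this) (mul_ne_zero this this)
  · ext p q
    have h1 := congrFun (congrFun hsum (p.1, f1 p.2)) (q.1, f1 q.2)
    simp only [blockwise, Matrix.of_apply, block_omega, Matrix.sum_apply,
      Matrix.kroneckerMap_apply, Function.comp_apply] at h1
    simp only [Matrix.sum_apply, Matrix.kroneckerMap_apply, Matrix.submatrix_apply]
    rw [← h1]
    have h2 : (kmap (V s K L R) (kmap (V s K L R) (Matrix.single (f1 p.1) (f1 q.1) 1)))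
        (f1 p.2) (f1 q.2)
        = ((P f1)ᴴ * (kmap (V s K L R) (kmap (V s K L R) (Matrix.single (f1 p.1) (f1 q.1) 1)))
          * P f1) p.2 q.2 := by
      rw [compress]; rfl
    rw [h2, sub1, sub2, compress]
    have h3 : (Matrix.single (f1 p.1) (f1 q.1) (1 : ℂ)).submatrix f1 f1
        = Matrix.single p.1 q.1 1 := by
      ext a b
      simp [Matrix.submatrix_apply, Matrix.single_apply, f1, Fin.ext_iff]
    rw [h3, (kmap_linear L).map_smul]
    simp [choiMatrix, Matrix.smul_apply, mul_assoc]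

theorem trace_kmap {κ' : Type*} [Fintype κ'] (K : κ' → Matrix d d ℂ) (M : Matrix d d ℂ) :
    (kmap K M).trace = ((∑ i, (K i)ᴴ * K i) * M).trace := by
  simp only [kmap, Matrix.trace_sum, Matrix.sum_mul]
  refine Finset.sum_congr rfl fun i _ => ?_
  rw [Matrix.trace_mul_comm, Matrix.mul_assoc]

open scoped MatrixOrder in
theorem exists_factor {Q : Matrix (Fin 21) (Fin 21) ℂ} (hQ : Q.PosSemidef) :
    ∃ R : Matrix (Fin 21) (Fin 21) ℂ, Q = Rᴴ * R := by
  obtain ⟨R, hR⟩ := CStarAlgebra.nonneg_iff_eq_star_mul_self.1 hQ.nonneg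
  exact ⟨R, hR⟩

open scoped MatrixOrder Matrix.Norms.L2Operator in
theorem exists_scale (S : Matrix (Fin 21) (Fin 21) ℂ) (hS : S.IsHermitian) :
    ∃ s : ℝ, s ≠ 0 ∧ (1 - ((s : ℂ) * s) • S).PosSemidef := by
  have h1 : S ≤ algebraMap ℝ (Matrix (Fin 21) (Fin 21) ℂ) ‖S‖ :=
    IsSelfAdjoint.le_algebraMap_norm_self (by exact hS)
  have hc : (0 : ℝ) < ‖S‖ + 1 := by positivity
  refine ⟨(Real.sqrt (‖S‖ + 1))⁻¹, by positivity, ?_⟩
  have h2 : ((((Real.sqrt (‖S‖ + 1))⁻¹ : ℝ) : ℂ) * (((Real.sqrt (‖S‖ + 1))⁻¹ : ℝ) : ℂ))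
      = (((‖S‖ + 1)⁻¹ : ℝ) : ℂ) := by
    rw [← Complex.ofReal_mul, ← mul_inv, Real.mul_self_sqrt hc.le]
  rw [h2]
  have h3 : (algebraMap ℝ (Matrix (Fin 21) (Fin 21) ℂ) ‖S‖ - S).PosSemidef :=
    Matrix.le_iff.1 h1
  have h4 : (1 - (((‖S‖ + 1)⁻¹ : ℝ) : ℂ) • S)
      = (((‖S‖ + 1)⁻¹ : ℝ) : ℂ) • ((algebraMap ℝ (Matrix (Fin 21) (Fin 21) ℂ) ‖S‖ - S) + 1) := by
    rw [Algebra.algebraMap_eq_smul_one, smul_add, smul_sub]
    ext i j
    have hne : (((‖S‖ + 1 : ℝ)) : ℂ) ≠ 0 := by exact_mod_cast hc.ne'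
    simp only [Matrix.sub_apply, Matrix.add_apply, Matrix.smul_apply, smul_eq_mul,
      Complex.real_smul, Complex.ofReal_inv]
    field_simp
    push_cast
    ring
  rw [h4]
  refine Matrix.PosSemidef.smul (h3.add Matrix.PosSemidef.one) ?_
  have : (0 : ℝ) ≤ (‖S‖ + 1)⁻¹ := by positivity
  exact_mod_cast this

theorem sum_V (s : ℝ) (K : ι → Matrix (Fin 10) (Fin 10) ℂ)
    (L : κ → Matrix (Fin 10) (Fin 10) ℂ) (R : Matrix (Fin 21) (Fin 21) ℂ) :
    ∑ i, (V s K L R i)ᴴ * V s K L R i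
      = ((s : ℂ) * s) • (P f1 * (∑ i, (K i)ᴴ * K i) * (P f1)ᴴ
        + P f2 * (∑ j, (L j)ᴴ * L j) * (P f2)ᴴ) + Rᴴ * R := by
  simp only [Fintype.sum_sum_type, V]
  congr 1
  · rw [smul_add]
    congr 1
    · simp only [Matrix.mul_sum, Matrix.sum_mul, Finset.smul_sum]
      refine Finset.sum_congr rfl fun i _ => ?_
      simp only [Matrix.conjTranspose_smul, Matrix.conjTranspose_mul,
        Matrix.conjTranspose_conjTranspose, Matrix.smul_mul, Matrix.mul_smul, smul_smul]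
      have : P f1 * ((K i)ᴴ * (P f2)ᴴ) * (P f2 * K i * (P f1)ᴴ)
          = P f1 * ((K i)ᴴ * K i) * (P f1)ᴴ := by
        calc P f1 * ((K i)ᴴ * (P f2)ᴴ) * (P f2 * K i * (P f1)ᴴ)
            = P f1 * (K i)ᴴ * ((P f2)ᴴ * P f2) * K i * (P f1)ᴴ := by
              simp only [Matrix.mul_assoc]
          _ = _ := by rw [PP22]; simp only [Matrix.mul_one, Matrix.mul_assoc]
      rw [this]; simp
    · simp only [Matrix.mul_sum, Matrix.sum_mul, Finset.smul_sum]
      refine Finset.sum_congr rfl fun i _ => ?_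
      simp only [Matrix.conjTranspose_smul, Matrix.conjTranspose_mul,
        Matrix.conjTranspose_conjTranspose, Matrix.smul_mul, Matrix.mul_smul, smul_smul]
      have : P f2 * ((L i)ᴴ * (P f1)ᴴ) * (P f1 * L i * (P f2)ᴴ)
          = P f2 * ((L i)ᴴ * L i) * (P f2)ᴴ := by
        calc P f2 * ((L i)ᴴ * (P f1)ᴴ) * (P f1 * L i * (P f2)ᴴ)
            = P f2 * (L i)ᴴ * ((P f1)ᴴ * P f1) * L i * (P f2)ᴴ := by
              simp only [Matrix.mul_assoc]
          _ = _ := by rw [PP11]; simp only [Matrix.mul_one, Matrix.mul_assoc]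
      rw [this]; simp
  · ext z z'
    simp only [Matrix.sum_apply, Matrix.mul_apply, Matrix.conjTranspose_apply, W, Matrix.of_apply]
    refine Finset.sum_congr rfl fun x _ => ?_
    simp [apply_ite]

theorem s0540_of {ι' κ' : Type*} [Fintype ι'] [Fintype κ']
    (K : ι → Matrix (Fin 10) (Fin 10) ℂ) (K' : ι' → Matrix (Fin 10) (Fin 10) ℂ)
    (L : κ → Matrix (Fin 10) (Fin 10) ℂ) (L' : κ' → Matrix (Fin 10) (Fin 10) ℂ)
    (hK : ∀ M, (kmap K M).transpose = kmap K' M) (hL : ∀ M, (kmap L M).transpose = kmap L' M)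
    (n : ρ → Fin 10 × Fin 10 → ℂ)
    (hrel : ∀ r j i, ∑ p : Fin 10 × Fin 10, n r p * (L j * K i) p.2 p.1 = 0)
    (hPF : ∀ (u : Fin 10 → ℂ) (v : Fin 10 → ℂ),
      (∀ r, ∑ p : Fin 10 × Fin 10, n r p * (u p.1 * v p.2) = 0) → u = 0 ∨ v = 0)
    (hne : ∃ j i, L j * K i ≠ 0) :
    ∃ Θ : Matrix (Fin 21) (Fin 21) ℂ → Matrix (Fin 21) (Fin 21) ℂ,
      IsChannel Θ ∧ IsPPT Θ ∧ ¬ IsEntanglementBreaking (Θ ∘ Θ) := by
  set S : Matrix (Fin 21) (Fin 21) ℂ := P f1 * (∑ i, (K i)ᴴ * K i) * (P f1)ᴴ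
        + P f2 * (∑ j, (L j)ᴴ * L j) * (P f2)ᴴ with hSdef
  have hS : S.IsHermitian := by
    rw [Matrix.IsHermitian, hSdef]
    simp only [Matrix.conjTranspose_add, Matrix.conjTranspose_mul,
      Matrix.conjTranspose_conjTranspose, Matrix.conjTranspose_sum, Matrix.mul_assoc]
  obtain ⟨s, hs, hQ⟩ := exists_scale S hS
  obtain ⟨R, hR⟩ := exists_factor hQ
  refine ⟨kmap (V s K L R), ⟨kmap_linear _, kmap_cp _, fun M => ?_⟩,
    V_ppt s K K' L L' hK hL R, V_not_EB s hs K L R n hrel hPF hne⟩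
  rw [trace_kmap, sum_V, ← hSdef, ← hR]
  simp

end Block

end Crest.Agent.P345Red
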