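import Crest.Agent.P345Red

set_option autoImplicit false

/-! Row 345: the structural identities `hK`, `hL` for the second compounds of a pencil
`A(w) = ∑ w_j C_j` (6 x 4, integer) with `C_iᵀ C_j` symmetric. -/

namespace Crest.Agent.P345HK34

open Matrix Crest.Agent.P345Red
open scoped ComplexOrder Kronecker

/-- coefficient of `w_a w_b` (`a ≤ b`) in the `2 x 2` minor with rows `r, s`, columns `k, l`. -/
def entry (C : Fin 4 → Fin 6 → Fin 4 → ℤ) (r s : Fin 6) (k l a b : Fin 4) : ℤ :=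
  C a r k * C b s l - C a r l * C b s k +
    (if a = b then 0 else C b r k * C a s l - C b r l * C a s k)

theorem prodsum (f g h t : Fin 6 → ℤ) :
    ∑ r, ∑ s, (f r * g s) * (h r * t s) = (∑ r, f r * h r) * (∑ s, g s * t s) := by
  rw [Finset.sum_mul_sum]
  exact Finset.sum_congr rfl fun r _ => Finset.sum_congr rfl fun s _ => by ring

theorem entry_sym (C : Fin 4 → Fin 6 → Fin 4 → ℤ)
    (hC : ∀ i j k l, ∑ r, C i r k * C j r l = ∑ r, C i r l * C j r k)
    (k l k' l' a b c d : Fin 4) :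
    ∑ r, ∑ s, entry C r s k l a b * entry C r s k' l' c d
      = ∑ r, ∑ s, entry C r s k' l' a b * entry C r s k l c d := by
  have key : ∀ (a b c d k l k' l' : Fin 4),
      ∑ r, ∑ s, (C a r k * C b s l) * (C c r k' * C d s l')
        = ∑ r, ∑ s, (C a r k' * C b s l') * (C c r k * C d s l) := by
    intro a b c d k l k' l'
    rw [prodsum, prodsum, hC a c k k', hC b d l l']
  have h4 : ∀ (a b c d : Fin 4),
      ∑ r, ∑ s, (C a r k * C b s l - C a r l * C b s k) * (C c r k' * C d s l' - C c r l' * C d s k')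
        = ∑ r, ∑ s, (C a r k' * C b s l' - C a r l' * C b s k') *
          (C c r k * C d s l - C c r l * C d s k) := by
    intro a b c d
    have e : ∀ (k l k' l' : Fin 4), ∑ r, ∑ s, (C a r k * C b s l - C a r l * C b s k) *
        (C c r k' * C d s l' - C c r l' * C d s k')
        = (∑ r, ∑ s, (C a r k * C b s l) * (C c r k' * C d s l'))
          - (∑ r, ∑ s, (C a r k * C b s l) * (C c r l' * C d s k'))
          - (∑ r, ∑ s, (C a r l * C b s k) * (C c r k' * C d s l'))
          + (∑ r, ∑ s, (C a r l * C b s k) * (C c r l' * C d s k')) := by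
      intro k l k' l'
      simp only [← Finset.sum_sub_distrib, ← Finset.sum_add_distrib]
      exact Finset.sum_congr rfl fun r _ => Finset.sum_congr rfl fun s _ => by ring
    rw [e, e, key a b c d k l k' l', key a b c d k l l' k', key a b c d l k k' l',
      key a b c d l k l' k']
    ring
  unfold entry
  by_cases h1 : a = b
  · by_cases h2 : c = d
    · simp only [if_pos h1, if_pos h2, add_zero]
      exact h4 a b c d
    · simp only [if_pos h1, if_neg h2, add_zero, mul_add, Finset.sum_add_distrib]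
      rw [h4 a b c d, h4 a b d c]
  · by_cases h2 : c = d
    · simp only [if_neg h1, if_pos h2, add_zero, add_mul, Finset.sum_add_distrib]
      rw [h4 a b c d, h4 b a c d]
    · simp only [if_neg h1, if_neg h2, mul_add, add_mul, Finset.sum_add_distrib]
      rw [h4 a b c d, h4 a b d c, h4 b a c d, h4 b a d c]

def pk : Fin 10 → Fin 4 := ![0, 0, 0, 1, 1, 2, 0, 0, 0, 0]
def pl : Fin 10 → Fin 4 := ![1, 2, 3, 2, 3, 3, 0, 0, 0, 0]
def ma : Fin 10 → Fin 4 := ![0, 0, 0, 0, 1, 1, 1, 2, 2, 3]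
def mb : Fin 10 → Fin 4 := ![0, 1, 2, 3, 1, 2, 3, 2, 3, 3]
/-- complementary pair -/
def co : Fin 10 → Fin 10 := ![5, 4, 3, 2, 1, 0, 6, 7, 8, 9]
def sg : Fin 10 → ℤ := ![1, -1, 1, 1, -1, 1, 0, 0, 0, 0]

def Kz (C : Fin 4 → Fin 6 → Fin 4 → ℤ) (i : Fin 6 × Fin 6) (x m : Fin 10) : ℤ :=
  entry C i.1 i.2 (pk x) (pl x) (ma m) (mb m)

def Lz (C : Fin 4 → Fin 6 → Fin 4 → ℤ) (i : Fin 6 × Fin 6) (m y : Fin 10) : ℤ :=
  sg y * Kz C i (co y) m

noncomputable def K (C : Fin 4 → Fin 6 → Fin 4 → ℤ) (i : Fin 6 × Fin 6) :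
    Matrix (Fin 10) (Fin 10) ℂ := Matrix.of fun x m => ((Kz C i x m : ℤ) : ℂ)

noncomputable def L (C : Fin 4 → Fin 6 → Fin 4 → ℤ) (i : Fin 6 × Fin 6) :
    Matrix (Fin 10) (Fin 10) ℂ := Matrix.of fun m y => ((Lz C i m y : ℤ) : ℂ)

theorem hK (C : Fin 4 → Fin 6 → Fin 4 → ℤ)
    (hC : ∀ i j k l, ∑ r, C i r k * C j r l = ∑ r, C i r l * C j r k)
    (M : Matrix (Fin 10) (Fin 10) ℂ) : (kmap (K C) M).transpose = kmap (K C) M := by
  refine kmap_transpose_of (K C) (K C) (fun x y a b => ?_) M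
  have h := entry_sym C hC (pk y) (pl y) (pk x) (pl x) (ma a) (mb a) (ma b) (mb b)
  have h' : ∑ i, Kz C i y a * Kz C i x b = ∑ i, Kz C i x a * Kz C i y b := by
    rw [Fintype.sum_prod_type, Fintype.sum_prod_type]
    exact h
  simp only [K, Matrix.of_apply, RCLike.star_def, map_intCast]
  exact_mod_cast h'

theorem hL (C : Fin 4 → Fin 6 → Fin 4 → ℤ)
    (hC : ∀ i j k l, ∑ r, C i r k * C j r l = ∑ r, C i r l * C j r k)
    (M : Matrix (Fin 10) (Fin 10) ℂ) : (kmap (L C) M).transpose = kmap (L C) M := by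
  refine kmap_transpose_of (L C) (L C) (fun x y a b => ?_) M
  have h := entry_sym C hC (pk (co a)) (pl (co a)) (pk (co b)) (pl (co b)) (ma y) (mb y) (ma x) (mb x)
  have h' : ∑ i, Lz C i y a * Lz C i x b = ∑ i, Lz C i x a * Lz C i y b := by
    have e1 : ∀ i, Lz C i y a * Lz C i x b
        = sg a * sg b * (Kz C i (co a) y * Kz C i (co b) x) := fun i => by unfold Lz; ring
    have e2 : ∀ i, Lz C i x a * Lz C i y b
        = sg a * sg b * (Kz C i (co b) y * Kz C i (co a) x) := fun i => by unfold Lz; ring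
    simp only [e1, e2, ← Finset.mul_sum]
    rw [Fintype.sum_prod_type, Fintype.sum_prod_type]
    exact congrArg _ h
  simp only [L, Matrix.of_apply, RCLike.star_def, map_intCast]
  exact_mod_cast h'

end Crest.Agent.P345HK34
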