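import Crest.Agent.P345Mds

/-! Row 345: transfer of product-freeness from characteristic `p` to `ℂ`
(valuation subring of `ℂ` above `p`). -/

set_option autoImplicit false

namespace Crest.Agent.P345Val79

theorem exists_val (p : ℕ) [hp : Fact p.Prime] : ∃ B : ValuationSubring ℂ, (p : ℂ) ∈ B.nonunits := by
  let A : Subring ℂ := (Int.castRingHom ℂ).range
  let P : A := ⟨(p : ℂ), ⟨(p : ℤ), by simp⟩⟩
  have hI : Ideal.span {P} ≠ ⊤ := by
    intro h
    rw [Ideal.eq_top_iff_one, Ideal.mem_span_singleton'] at h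
    obtain ⟨⟨a, n, hn⟩, ha⟩ := h
    have h1 : a * (p : ℂ) = 1 := congrArg Subtype.val ha
    rw [← hn] at h1
    have h2 : ((n * (p : ℤ) : ℤ) : ℂ) = ((1 : ℤ) : ℂ) := by push_cast; simpa using h1
    have h3 : n * (p : ℤ) = 1 := by exact_mod_cast h2
    have h4 : (p : ℤ) ∣ 1 := ⟨n, by rw [← h3]; ring⟩
    have h5 : p ∣ 1 := by exact_mod_cast h4
    exact hp.out.one_lt.ne' (Nat.dvd_one.1 h5)
  obtain ⟨B, _, hB⟩ := Ideal.image_subset_nonunits_valuationSubring (Ideal.span {P}) hI
  exact ⟨B, hB ⟨P, Ideal.mem_span_singleton_self P, rfl⟩⟩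

theorem scale {a : Type*} [Fintype a] (B : ValuationSubring ℂ) (u : a → ℂ) (hu : u ≠ 0) :
    ∃ i0, u i0 ≠ 0 ∧ ∀ i, u i / u i0 ∈ B := by
  obtain ⟨j, hj⟩ := Function.ne_iff.1 hu
  haveI : Nonempty a := ⟨j⟩
  obtain ⟨i0, hi0⟩ := Finite.exists_max (fun i => B.valuation (u i))
  have h0 : u i0 ≠ 0 := by
    intro h
    have h1 := hi0 j
    simp only [h, map_zero, le_zero_iff] at h1
    exact hj ((B.valuation).zero_iff.1 h1)
  refine ⟨i0, h0, fun i => ?_⟩
  rw [← B.valuation_le_one_iff, map_div₀]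
  have h2 : B.valuation (u i0) ≠ 0 := (B.valuation).ne_zero_iff.2 h0
  exact (div_le_one₀ (zero_lt_iff.2 h2)).2 (hi0 i)

theorem val_transfer (p : ℕ) [hp : Fact p.Prime] {ρ a c : Type*} [Fintype a] [Fintype c]
    (N : ρ → a → c → ℤ)
    (H : ∀ (k : Type) [Field k] [CharP k p] (u : a → k) (v : c → k),
      (∀ r, ∑ i, ∑ j, (N r i j : k) * (u i * v j) = 0) → u = 0 ∨ v = 0)
    (u : a → ℂ) (v : c → ℂ) (h : ∀ r, ∑ i, ∑ j, (N r i j : ℂ) * (u i * v j) = 0) :
    u = 0 ∨ v = 0 := by
  by_contra hcon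
  push Not at hcon
  obtain ⟨hu, hv⟩ := hcon
  obtain ⟨B, hB⟩ := exists_val p
  obtain ⟨i0, hi0, hui⟩ := scale B u hu
  obtain ⟨j0, hj0, hvj⟩ := scale B v hv
  let k := IsLocalRing.ResidueField B
  let π : B →+* k := IsLocalRing.residue B
  have hpk : (p : k) = 0 := by
    have h1 : (p : B) ∈ IsLocalRing.maximalIdeal B := by
      rw [ValuationSubring.mem_nonunits_iff_exists_mem_maximalIdeal] at hB
      obtain ⟨h2, h3⟩ := hB
      exact h3
    have h4 : π (p : B) = 0 := (IsLocalRing.residue_eq_zero_iff _).2 h1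
    rwa [map_natCast] at h4
  haveI : CharP k p := by
    have := CharP.exists k
    obtain ⟨q, hq⟩ := this
    have h1 : q ∣ p := (CharP.cast_eq_zero_iff k q p).1 hpk
    rcases (Nat.dvd_prime hp.out).1 h1 with h2 | h2
    · exfalso
      rw [h2] at hq
      have h5 : ((1 : ℕ) : k) = 0 := (CharP.cast_eq_zero_iff k 1 1).2 (dvd_refl 1)
      rw [Nat.cast_one] at h5
      exact one_ne_zero h5
    · rwa [h2] at hq
  let uu : a → B := fun i => ⟨u i / u i0, hui i⟩
  let vv : c → B := fun j => ⟨v j / v j0, hvj j⟩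
  have hB0 : ∀ r, ∑ i, ∑ j, (N r i j : B) * (uu i * vv j) = 0 := by
    intro r
    apply Subtype.val_injective
    have h1 : ((∑ i, ∑ j, (N r i j : B) * (uu i * vv j) : B) : ℂ)
        = ∑ i, ∑ j, (N r i j : ℂ) * (u i / u i0 * (v j / v j0)) := by
      push_cast
      rfl
    have h2 : ∑ i, ∑ j, (N r i j : ℂ) * (u i / u i0 * (v j / v j0))
        = (∑ i, ∑ j, (N r i j : ℂ) * (u i * v j)) * (1 / (u i0 * v j0)) := by
      rw [Finset.sum_mul]
      refine Finset.sum_congr rfl fun i _ => ?_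
      rw [Finset.sum_mul]
      refine Finset.sum_congr rfl fun j _ => ?_
      field_simp
    show ((∑ i, ∑ j, (N r i j : B) * (uu i * vv j) : B) : ℂ) = ((0 : B) : ℂ)
    rw [h1, h2, h r, zero_mul]
    rfl
  rcases H k (fun i => π (uu i)) (fun j => π (vv j)) (by
    intro r
    have := congrArg π (hB0 r)
    simpa only [map_sum, map_mul, map_intCast, map_zero] using this) with h1 | h1
  · have h2 := congrFun h1 i0
    have h3 : uu i0 = 1 := Subtype.ext (div_self hi0)
    simp only [h3, map_one, Pi.zero_apply] at h2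
    exact one_ne_zero h2
  · have h2 := congrFun h1 j0
    have h3 : vv j0 = 1 := Subtype.ext (div_self hj0)
    simp only [h3, map_one, Pi.zero_apply] at h2
    exact one_ne_zero h2

/-- product-freeness over `ℂ` from data mod `p`: integer relations `N r`, whose `𝔽_p`-span contains
20 product vectors `x i ⊗ z i` in general position. -/
theorem pf_mod_p (p : ℕ) [hp : Fact p.Prime] {m : ℕ} (N : Fin m → Fin 10 → Fin 10 → ℤ)
    (c : Fin 20 → Fin m → ℤ) (x z : Fin 20 → Fin 10 → ℕ)
    (hc : ∀ i s t, ((∑ r, c i r * N r s t - (x i s : ℤ) * (z i t : ℤ) : ℤ) : ZMod p) = 0)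
    (hm : P345Mds.mds p 20 10 (List.ofFn fun i => List.ofFn (x i)) = true)
    (hm' : P345Mds.mds p 20 10 (List.ofFn fun i => List.ofFn (z i)) = true)
    (u v : Fin 10 → ℂ) (h : ∀ r, ∑ i, ∑ j, (N r i j : ℂ) * (u i * v j) = 0) :
    u = 0 ∨ v = 0 := by
  refine val_transfer p N ?_ u v h
  intro k _ _ u v h
  let φ : ZMod p →+* k := ZMod.castHom (dvd_refl p) k
  refine P345Mds.pf_of_mds φ φ.injective (RingHom.id _) (fun i s => (x i s : ZMod p))
    (fun i s => (z i s : ZMod p)) x z (fun _ _ => rfl) (fun _ _ => rfl) hm hm' u v ?_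
  intro i
  have h1 : ∀ s t, (∑ r, (c i r : k) * (N r s t : k)) = (x i s : k) * (z i t : k) := by
    intro s t
    have h2 := congrArg φ (hc i s t)
    rw [map_intCast, map_zero] at h2
    push_cast at h2
    exact sub_eq_zero.1 h2
  rw [Fintype.sum_prod_type]
  calc ∑ s, ∑ t, (φ (x i s : ZMod p) * φ (z i t : ZMod p)) * (u s * v t)
      = ∑ s, ∑ t, (∑ r, (c i r : k) * (N r s t : k)) * (u s * v t) := by
        refine Finset.sum_congr rfl fun s _ => Finset.sum_congr rfl fun t _ => ?_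
        rw [h1, map_natCast, map_natCast]
    _ = ∑ r, (c i r : k) * ∑ s, ∑ t, (N r s t : k) * (u s * v t) := by
        simp only [Finset.sum_mul, Finset.mul_sum]
        rw [Finset.sum_comm]
        have : ∀ s : Fin 10, (∑ t, ∑ r, (c i r : k) * (N r s t : k) * (u s * v t))
            = ∑ r, ∑ t, (c i r : k) * ((N r s t : k) * (u s * v t)) := by
          intro s
          rw [Finset.sum_comm]
          exact Finset.sum_congr rfl fun _ _ => Finset.sum_congr rfl fun _ _ => by ring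
        rw [Finset.sum_comm]
        simp only [this]
        rw [Finset.sum_comm]
    _ = 0 := by simp [h]

end Crest.Agent.P345Val79
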