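import Crest.Agent.P345Ind63
import Crest.Agent.P345Red

set_option autoImplicit false
set_option maxRecDepth 100000

namespace Crest.Agent.P345Asm63
open Matrix Crest.Quantum Crest.Agent.P345Red

def prs : Fin 15 → Fin 6 × Fin 6 := ![(0, 1), (0, 2), (0, 3), (0, 4), (0, 5), (1, 2), (1, 3), (1, 4), (1, 5), (2, 3), (2, 4), (2, 5), (3, 4), (3, 5), (4, 5)]
def us : Fin 15 → Fin 6 × Fin 6 × Fin 6 × Fin 6 := ![(0, 1, 2, 3), (0, 1, 2, 4), (0, 1, 2, 5), (0, 1, 3, 4), (0, 1, 3, 5), (0, 1, 4, 5), (0, 2, 3, 4), (0, 2, 3, 5), (0, 2, 4, 5), (0, 3, 4, 5), (1, 2, 3, 4), (1, 2, 3, 5), (1, 2, 4, 5), (1, 3, 4, 5), (2, 3, 4, 5)]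
def idx : Fin 15 → Fin 15 → Fin 15 := ![![0, 0, 0, 0, 0, 0, 0, 0, 0, 0, 1, 2, 3, 4, 5], ![0, 0, 0, 0, 0, 0, 0, 1, 2, 0, 0, 0, 6, 7, 8], ![0, 0, 0, 0, 0, 0, 0, 3, 4, 0, 6, 7, 0, 0, 9], ![0, 0, 0, 0, 0, 1, 3, 0, 5, 6, 0, 8, 0, 9, 0], ![0, 0, 0, 0, 0, 2, 4, 5, 0, 7, 8, 0, 9, 0, 0], ![0, 0, 0, 1, 2, 0, 0, 0, 0, 0, 0, 0, 10, 11, 12], ![0, 0, 0, 3, 4, 0, 0, 0, 0, 0, 10, 11, 0, 0, 13], ![0, 1, 3, 0, 5, 0, 0, 0, 0, 10, 0, 12, 0, 13, 0], ![0, 2, 4, 5, 0, 0, 0, 0, 0, 11, 12, 0, 13, 0, 0], ![0, 0, 0, 6, 7, 0, 0, 10, 11, 0, 0, 0, 0, 0, 14], ![1, 0, 6, 0, 8, 0, 10, 0, 12, 0, 0, 0, 0, 14, 0], ![2, 0, 7, 8, 0, 0, 11, 12, 0, 0, 0, 0, 14, 0, 0], ![3, 6, 0, 0, 9, 10, 0, 0, 13, 0, 0, 14, 0, 0, 0], ![4, 7, 0, 9, 0, 11, 0, 13, 0, 0, 14, 0, 0, 0, 0], ![5, 8, 9, 0, 0, 12, 13, 0, 0, 14, 0, 0, 0, 0, 0]]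
def sg : Fin 15 → Fin 15 → ℤ := ![![0, 0, 0, 0, 0, 0, 0, 0, 0, 1, 1, 1, 1, 1, 1], ![0, 0, 0, 0, 0, 0, -1, -1, -1, 0, 0, 0, 1, 1, 1], ![0, 0, 0, 0, 0, 1, 0, -1, -1, 0, -1, -1, 0, 0, 1], ![0, 0, 0, 0, 0, 1, 1, 0, -1, 1, 0, -1, 0, -1, 0], ![0, 0, 0, 0, 0, 1, 1, 1, 0, 1, 1, 0, 1, 0, 0], ![0, 0, 1, 1, 1, 0, 0, 0, 0, 0, 0, 0, 1, 1, 1], ![0, -1, 0, 1, 1, 0, 0, 0, 0, 0, -1, -1, 0, 0, 1], ![0, -1, -1, 0, 1, 0, 0, 0, 0, 1, 0, -1, 0, -1, 0], ![0, -1, -1, -1, 0, 0, 0, 0, 0, 1, 1, 0, 1, 0, 0], ![1, 0, 0, 1, 1, 0, 0, 1, 1, 0, 0, 0, 0, 0, 1], ![1, 0, -1, 0, 1, 0, -1, 0, 1, 0, 0, 0, 0, -1, 0], ![1, 0, -1, -1, 0, 0, -1, -1, 0, 0, 0, 0, 1, 0, 0], ![1, 1, 0, 0, 1, 1, 0, 0, 1, 0, 0, 1, 0, 0, 0], ![1, 1, 0, -1, 0, 1, 0, -1, 0, 0, -1, 0, 0, 0, 0], ![1, 1, 1, 0, 0, 1, 1, 0, 0, 1, 0, 0, 0, 0, 0]]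

section gen
variable {R : Type*} [CommRing R]

/-- 4x4 determinant of four rows (Laplace expansion along the first two rows) -/
def det4 (a b c d : Fin 4 → R) : R :=
  (a 0 * b 1 - a 1 * b 0) * (c 2 * d 3 - c 3 * d 2)
  - (a 0 * b 2 - a 2 * b 0) * (c 1 * d 3 - c 3 * d 1)
  + (a 0 * b 3 - a 3 * b 0) * (c 1 * d 2 - c 2 * d 1)
  + (a 1 * b 2 - a 2 * b 1) * (c 0 * d 3 - c 3 * d 0)
  - (a 1 * b 3 - a 3 * b 1) * (c 0 * d 2 - c 2 * d 0)
  + (a 2 * b 3 - a 3 * b 2) * (c 0 * d 1 - c 1 * d 0)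

def mU (A : Fin 6 → Fin 4 → R) (U : Fin 15) : R :=
  det4 (A (us U).1) (A (us U).2.1) (A (us U).2.2.1) (A (us U).2.2.2)

set_option maxHeartbeats 4000000 in
theorem det4_eq (A : Fin 6 → Fin 4 → R) (T S : Fin 15) :
    det4 (A (prs T).1) (A (prs T).2) (A (prs S).1) (A (prs S).2) = (sg T S : R) * mU A (idx T S) := by
  fin_cases T <;> fin_cases S <;>
  simp only [prs, sg, idx, mU, us, det4, Fin.zero_eta, Fin.mk_one, Fin.reduceFinMk, Matrix.cons_val,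
      Fin.isValue, Int.cast_zero, Int.cast_one, Int.cast_neg, zero_mul, one_mul] <;> ring
end gen

def pI : Fin 10 → Fin 4 × Fin 4 :=
  ![(0, 0), (0, 1), (0, 2), (0, 3), (1, 1), (1, 2), (1, 3), (2, 2), (2, 3), (3, 3)]
def px : Fin 6 → Fin 4 × Fin 4 := ![(0, 1), (0, 2), (0, 3), (1, 2), (1, 3), (2, 3)]
def hs : Fin 6 → ℤ := ![1, -1, 1, 1, -1, 1]

section data
variable (C : Fin 4 → Fin 6 → Fin 4 → ℤ)

def kc (S : Fin 15) (x : Fin 6) (i j : Fin 4) : ℤ :=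
  C i (prs S).1 (px x).1 * C j (prs S).2 (px x).2 - C i (prs S).1 (px x).2 * C j (prs S).2 (px x).1

def KI (S : Fin 15) (x : Fin 6) (I : Fin 10) : ℤ :=
  if (pI I).1 = (pI I).2 then kc C S x (pI I).1 (pI I).1
  else kc C S x (pI I).1 (pI I).2 + kc C S x (pI I).2 (pI I).1

def KZ (S : Fin 15) (x I : Fin 10) : ℤ := if h : x.val < 6 then KI C S ⟨x.val, h⟩ I else 0
def LZ (T : Fin 15) (J x : Fin 10) : ℤ :=
  if h : x.val < 6 then hs ⟨x.val, h⟩ * KI C T (Fin.rev ⟨x.val, h⟩) J else 0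

def om (w : Fin 4 → ℤ) (I : Fin 10) : ℤ := w (pI I).1 * w (pI I).2
def Aw (w : Fin 4 → ℤ) (r : Fin 6) (a : Fin 4) : ℤ :=
  w 0 * C 0 r a + w 1 * C 1 r a + w 2 * C 2 r a + w 3 * C 3 r a

theorem K_om (w : Fin 4 → ℤ) (S : Fin 15) (x : Fin 6) :
    ∑ I, om w I * KI C S x I = Aw C w (prs S).1 (px x).1 * Aw C w (prs S).2 (px x).2
      - Aw C w (prs S).1 (px x).2 * Aw C w (prs S).2 (px x).1 := by
  simp only [Fin.sum_univ_succ, Fin.sum_univ_zero, om, KI, kc, Aw, pI]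
  generalize (prs S).1 = r
  generalize (prs S).2 = s
  generalize (px x).1 = a
  generalize (px x).2 = b
  simp
  ring

theorem sum6 {M : Type*} [AddCommMonoid M] (f : Fin 10 → M) (h : ∀ x : Fin 10, 6 ≤ x.val → f x = 0) :
    ∑ x, f x = ∑ x : Fin 6, f ⟨x.val, by omega⟩ := by
  simp only [Fin.sum_univ_succ, Fin.sum_univ_zero]
  have h6 := h 6 (by decide)
  have h7 := h 7 (by decide)
  have h8 := h 8 (by decide)
  have h9 := h 9 (by decide)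
  simp only [add_zero]
  change f 0 + (f 1 + (f 2 + (f 3 + (f 4 + (f 5 + (f 6 + (f 7 + (f 8 + f 9)))))))) =
    f 0 + (f 1 + (f 2 + (f 3 + (f 4 + f 5))))
  rw [h6, h7, h8, h9]
  simp

theorem LK_om (w : Fin 4 → ℤ) (T S : Fin 15) :
    ∑ I, ∑ J, om w I * om w J * ∑ x, LZ C T J x * KZ C S x I
      = sg T S * mU (Aw C w) (idx T S) := by
  have h1 : ∑ I, ∑ J, om w I * om w J * ∑ x, LZ C T J x * KZ C S x I
      = ∑ x, (∑ J, om w J * LZ C T J x) * (∑ I, om w I * KZ C S x I) := by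
    simp only [Finset.mul_sum, Finset.sum_mul]
    rw [Finset.sum_comm]
    rw [Finset.sum_comm]
    calc ∑ I, ∑ J, ∑ x, om w I * om w J * (LZ C T J x * KZ C S x I)
        = ∑ I, ∑ x, ∑ J, om w I * om w J * (LZ C T J x * KZ C S x I) :=
          Finset.sum_congr rfl fun I _ => Finset.sum_comm
      _ = ∑ x, ∑ I, ∑ J, om w I * om w J * (LZ C T J x * KZ C S x I) := Finset.sum_comm
      _ = _ := by
          refine Finset.sum_congr rfl fun x _ => ?_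
          first
          | exact Finset.sum_congr rfl fun I _ => Finset.sum_congr rfl fun J _ => by ring
          | (rw [Finset.sum_comm]
             exact Finset.sum_congr rfl fun I _ => Finset.sum_congr rfl fun J _ => by ring)
  rw [h1, sum6]
  · have h2 : ∀ x : Fin 6, (∑ J, om w J * LZ C T J ⟨x.val, by omega⟩) *
        (∑ I, om w I * KZ C S ⟨x.val, by omega⟩ I) =
        hs x * ((∑ J, om w J * KI C T (Fin.rev x) J) * (∑ I, om w I * KI C S x I)) := by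
      intro x
      have h3 : ∀ J, LZ C T J ⟨x.val, by omega⟩ = hs x * KI C T (Fin.rev x) J := fun J => by
        rw [LZ, dif_pos x.2]
      have h4 : ∀ I, KZ C S ⟨x.val, by omega⟩ I = KI C S x I := fun I => by
        rw [KZ, dif_pos x.2]
      simp only [h3, h4]
      have h5 : ∑ J, om w J * (hs x * KI C T (Fin.rev x) J)
          = hs x * ∑ J, om w J * KI C T (Fin.rev x) J := by
        rw [Finset.mul_sum]
        exact Finset.sum_congr rfl fun J _ => by ring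
      rw [h5, mul_assoc]
    simp only [h2, K_om]
    rw [← Int.cast_id (n := sg T S), ← det4_eq (Aw C w) T S]
    simp only [Fin.sum_univ_succ, Fin.sum_univ_zero, px, hs, det4]
    simp [Fin.rev]
    ring
  · intro x hx
    have : ∀ I, KZ C S x I = 0 := fun I => by rw [KZ, dif_neg (by omega)]
    simp [this]

noncomputable def KC (S : Fin 15) : Matrix (Fin 10) (Fin 10) ℂ := Matrix.of fun x I => (KZ C S x I : ℂ)
noncomputable def LC (T : Fin 15) : Matrix (Fin 10) (Fin 10) ℂ := Matrix.of fun J x => (LZ C T J x : ℂ)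

theorem LK_apply (T S : Fin 15) (J I : Fin 10) :
    (LC C T * KC C S) J I = ((∑ x, LZ C T J x * KZ C S x I : ℤ) : ℂ) := by
  simp only [LC, KC, Matrix.mul_apply, Matrix.of_apply]
  push_cast
  rfl

abbrev Rel := {n : Fin 10 × Fin 10 → ℂ // ∀ j i, ∑ p : Fin 10 × Fin 10,
        n p * (LC C j * KC C i) p.2 p.1 = 0}

variable (hKs : ∀ x y : Fin 6, ∀ I J : Fin 10,
  ∑ S, KI C S y I * KI C S x J = ∑ S, KI C S x I * KI C S y J)
include hKs

theorem KZ_sym (x y I J : Fin 10) :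
    ∑ S, KZ C S y I * KZ C S x J = ∑ S, KZ C S x I * KZ C S y J := by
  by_cases hx : x.val < 6
  · by_cases hy : y.val < 6
    · simp only [KZ, dif_pos hx, dif_pos hy]
      exact hKs _ _ _ _
    · simp only [KZ, dif_neg hy, zero_mul, mul_zero]
  · simp only [KZ, dif_neg hx, zero_mul, mul_zero]

theorem LZ_sym (x y I J : Fin 10) :
    ∑ S, LZ C S y I * LZ C S x J = ∑ S, LZ C S x I * LZ C S y J := by
  by_cases hx : I.val < 6
  · by_cases hy : J.val < 6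
    · simp only [LZ, dif_pos hx, dif_pos hy]
      have h := hKs (Fin.rev ⟨J.val, hy⟩) (Fin.rev ⟨I.val, hx⟩) y x
      have e1 : ∀ f1 f2 : Fin 15 → ℤ, ∀ a b : ℤ, ∑ S, (a * f1 S) * (b * f2 S)
          = a * b * ∑ S, f1 S * f2 S := by
        intro f1 f2 a b
        rw [Finset.mul_sum]
        exact Finset.sum_congr rfl fun _ _ => by ring
      rw [e1, e1, h]
      congr 1
      exact Finset.sum_congr rfl fun _ _ => by ring
    · simp only [LZ, dif_neg hy, zero_mul, mul_zero]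
  · simp only [LZ, dif_neg hx, zero_mul, mul_zero]

theorem hK (M) : (kmap (KC C) M).transpose = kmap (KC C) M := by
  refine kmap_transpose_of _ _ (fun x y a b => ?_) M
  have h := congrArg (fun z : ℤ => (z : ℂ)) (KZ_sym C hKs x y a b)
  simp only [Int.cast_sum, Int.cast_mul] at h
  simpa [KC] using h

theorem hL (M) : (kmap (LC C) M).transpose = kmap (LC C) M := by
  refine kmap_transpose_of _ _ (fun x y a b => ?_) M
  have h := congrArg (fun z : ℤ => (z : ℂ)) (LZ_sym C hKs x y a b)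
  simp only [Int.cast_sum, Int.cast_mul] at h
  simpa [LC] using h

omit hKs in
/-- all functionals killing the Kraus operators of the composition -/
theorem span_of (u v : Fin 10 → ℂ)
    (h : ∀ n : {n : Fin 10 × Fin 10 → ℂ // ∀ j i, ∑ p : Fin 10 × Fin 10,
        n p * (LC C j * KC C i) p.2 p.1 = 0},
      ∑ p : Fin 10 × Fin 10, n.1 p * (u p.1 * v p.2) = 0) :
    ∃ c : Fin 15 × Fin 15 → ℂ, ∀ p : Fin 10 × Fin 10,
      u p.1 * v p.2 = ∑ q, c q * (LC C q.1 * KC C q.2) p.2 p.1 := by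
  classical
  let F : Fin 15 × Fin 15 → (Fin 10 × Fin 10 → ℂ) := fun q p => (LC C q.1 * KC C q.2) p.2 p.1
  let x : Fin 10 × Fin 10 → ℂ := fun p => u p.1 * v p.2
  have hx : x ∈ Submodule.span ℂ (Set.range F) := by
    by_contra hn
    obtain ⟨f, hf0, hf⟩ := Submodule.exists_le_ker_of_notMem hn
    have hrep : ∀ y : Fin 10 × Fin 10 → ℂ, f y = ∑ p, f (Pi.single p 1) * y p := by
      intro y
      have : y = ∑ p, y p • (Pi.single p (1 : ℂ) : Fin 10 × Fin 10 → ℂ) := by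
        ext q
        simp [Finset.sum_apply, Pi.single_apply]
      conv_lhs => rw [this]
      rw [map_sum]
      exact Finset.sum_congr rfl fun p _ => by rw [map_smul, smul_eq_mul, mul_comm]
    apply hf0
    rw [hrep]
    refine h ⟨fun p => f (Pi.single p 1), fun j i => ?_⟩
    have h2 : F (j, i) ∈ LinearMap.ker f := hf (Submodule.subset_span ⟨(j, i), rfl⟩)
    rw [LinearMap.mem_ker, hrep] at h2
    exact h2
  rw [Submodule.mem_span_range_iff_exists_fun] at hx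
  obtain ⟨c, hc⟩ := hx
  refine ⟨c, fun p => ?_⟩
  have := congrFun hc p
  simp only [Finset.sum_apply, Pi.smul_apply, smul_eq_mul] at this
  exact this.symm

omit hKs in
theorem eval_of (u v : Fin 10 → ℂ) (c : Fin 15 × Fin 15 → ℂ)
    (hc : ∀ p : Fin 10 × Fin 10, u p.1 * v p.2 = ∑ q, c q * (LC C q.1 * KC C q.2) p.2 p.1)
    (w : Fin 4 → ℤ) :
    (∑ s, u s * (om w s : ℂ)) * (∑ s, v s * (om w s : ℂ))
      = ∑ U, (∑ q : Fin 15 × Fin 15, if idx q.1 q.2 = U then c q * (sg q.1 q.2 : ℂ) else 0)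
          * ((mU (Aw C w) U : ℤ) : ℂ) := by
  have h1 : (∑ s, u s * (om w s : ℂ)) * (∑ s, v s * (om w s : ℂ))
      = ∑ q : Fin 15 × Fin 15, c q * ((sg q.1 q.2 * mU (Aw C w) (idx q.1 q.2) : ℤ) : ℂ) := by
    rw [Finset.sum_mul_sum]
    calc ∑ I, ∑ J, u I * (om w I : ℂ) * (v J * (om w J : ℂ))
        = ∑ I, ∑ J, ∑ q, c q * (((om w I * om w J) * (∑ x, LZ C q.1 J x * KZ C q.2 x I) : ℤ) : ℂ) := by
          refine Finset.sum_congr rfl fun I _ => Finset.sum_congr rfl fun J _ => ?_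
          have := hc (I, J)
          simp only [LK_apply] at this
          calc u I * (om w I : ℂ) * (v J * (om w J : ℂ)) = (om w I : ℂ) * (om w J : ℂ) * (u I * v J) := by ring
            _ = _ := by
              rw [this, Finset.mul_sum]
              exact Finset.sum_congr rfl fun q _ => by
                rw [Int.cast_mul, Int.cast_mul]; ring
      _ = ∑ I, ∑ q, ∑ J, c q * (((om w I * om w J) * (∑ x, LZ C q.1 J x * KZ C q.2 x I) : ℤ) : ℂ) :=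
          Finset.sum_congr rfl fun I _ => Finset.sum_comm
      _ = ∑ q, ∑ I, ∑ J, c q * (((om w I * om w J) * (∑ x, LZ C q.1 J x * KZ C q.2 x I) : ℤ) : ℂ) :=
          Finset.sum_comm
      _ = _ := by
          refine Finset.sum_congr rfl fun q _ => ?_
          rw [← LK_om C w q.1 q.2]
          rw [Int.cast_sum, Finset.mul_sum]
          refine Finset.sum_congr rfl fun I _ => ?_
          rw [Int.cast_sum, Finset.mul_sum]
  rw [h1]
  simp only [Finset.sum_mul]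
  rw [Finset.sum_comm]
  refine Finset.sum_congr rfl fun q _ => ?_
  simp only [ite_mul, zero_mul, Finset.sum_ite_eq, Finset.mem_univ, if_true]
  push_cast
  ring

theorem main (p : ℕ) [hp : Fact p.Prime] (e : Fin 15 → Fin 4 → ℤ) (N : Fin 15 → Fin 15 → ℤ)
    (hN : ∀ a b, ((∑ k, N a k * mU (Aw C (e k)) b : ℤ) : ZMod p) = if a = b then 1 else 0)
    (w : Fin 20 → Fin 4 → ℤ) (hm : ∀ i U, ((mU (Aw C (w i)) U : ℤ) : ZMod p) = 0)
    (H : ∀ (k : Type) [Field k] [CharP k p] (u v : Fin 10 → k),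
      (∀ i, (∑ s, u s * ((om (w i) s : ℤ) : k)) * (∑ s, v s * ((om (w i) s : ℤ) : k)) = 0) →
        u = 0 ∨ v = 0)
    (hne : ∃ T S J I, ∑ x, LZ C T J x * KZ C S x I ≠ 0) :
    (∃ Φ₁ Φ₂ : Matrix (Fin 10) (Fin 10) ℂ → Matrix (Fin 10) (Fin 10) ℂ,
      IsLinearMap ℂ Φ₁ ∧ IsLinearMap ℂ Φ₂ ∧ IsPPT Φ₁ ∧ IsPPT Φ₂ ∧
      choiMatrix (Φ₂ ∘ Φ₁) ≠ 0 ∧
      (∀ u v : Fin 10 → ℂ, (∃ w, (choiMatrix (Φ₂ ∘ Φ₁)).mulVec w = fun p => u p.1 * v p.2) →
        u = 0 ∨ v = 0) ∧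
      ¬ IsEntanglementBreaking (Φ₂ ∘ Φ₁)) ∧
    ∃ Θ : Matrix (Fin 21) (Fin 21) ℂ → Matrix (Fin 21) (Fin 21) ℂ,
      IsChannel Θ ∧ IsPPT Θ ∧ ¬ IsEntanglementBreaking (Θ ∘ Θ) := by
  have hPF : ∀ (u : Fin 10 → ℂ) (v : Fin 10 → ℂ),
      (∀ n : {n : Fin 10 × Fin 10 → ℂ // ∀ j i, ∑ p : Fin 10 × Fin 10,
        n p * (LC C j * KC C i) p.2 p.1 = 0},
        ∑ p : Fin 10 × Fin 10, n.1 p * (u p.1 * v p.2) = 0) → u = 0 ∨ v = 0 := by
    intro u v h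
    obtain ⟨c, hc⟩ := span_of C u v h
    exact P345Ind63.val_ind p (fun k => om (e k)) (fun k U => mU (Aw C (e k)) U) N hN
      (fun i => om (w i)) (fun i U => mU (Aw C (w i)) U) hm H u v _
      (fun k => eval_of C u v c hc (e k)) (fun i => eval_of C u v c hc (w i))
  have hne' : ∃ j i, LC C j * KC C i ≠ 0 := by
    obtain ⟨T, S, J, I, h⟩ := hne
    refine ⟨T, S, fun h0 => h ?_⟩
    have h1 := LK_apply C T S J I
    rw [h0] at h1
    have h2 : ((∑ x, LZ C T J x * KZ C S x I : ℤ) : ℂ) = 0 := h1.symm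
    exact_mod_cast h2
  exact ⟨s0541_of (KC C) (KC C) (LC C) (LC C) (hK C hKs) (hL C hKs) (fun n : Rel C => n.1)
      (fun n j i => n.2 j i) hPF hne',
    s0540_of (KC C) (KC C) (LC C) (LC C) (hK C hKs) (hL C hKs) (fun n : Rel C => n.1)
      (fun n j i => n.2 j i) hPF hne'⟩

end data
end Crest.Agent.P345Asm63
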