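import Mathlib

set_option autoImplicit false

/-! Certificate for product-freeness: if all 10-subsets of the 20 vectors `x i` and of the 20
vectors `z i` are independent, then `(x i · u) (z i · v) = 0` for all `i` forces `u = 0 ∨ v = 0`.
The independence is checked modulo a prime by a kernel computation (`check`). -/

namespace Crest.Agent.P345Cert

/-- eliminate the first coordinate of `s` with the pivot row `a :: r`. -/
def red (p a : ℕ) (r : List ℕ) (s : List ℕ) : List ℕ :=
  match s with
  | [] => []
  | b :: s' => (fun c => List.zipWith (fun x y => (a * x + c * y) % p) s' r) (p - b % p)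

/-- `check p n k L`: any `k` of the rows in `L` (each of length `k`) are independent mod `p`. -/
def check (p : ℕ) : ℕ → ℕ → List (List ℕ) → Bool
  | 0, _, _ => true
  | n + 1, k, L =>
    match L with
    | [] => true
    | r :: L' =>
      match Nat.blt (n + 1) k with
      | true => true
      | false =>
        match k with
        | 0 => true
        | k' + 1 =>
          match r with
          | [] => false
          | a :: r' =>
            match Nat.beq (a % p) 0 with
            | true => false
            | false =>
              match check p n k' (L'.map (red p a r')) with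
              | false => false
              | true => check p n (k' + 1) L'

def dot {p : ℕ} : List ℕ → List (ZMod p) → ZMod p
  | a :: r, x :: u => (a : ZMod p) * x + dot r u
  | _, _ => 0

theorem dot_zipWith {p : ℕ} (a c : ℕ) : ∀ (s r : List ℕ) (u : List (ZMod p)),
    s.length = u.length → r.length = u.length →
    dot (List.zipWith (fun x y => (a * x + c * y) % p) s r) u
      = (a : ZMod p) * dot s u + (c : ZMod p) * dot r u := by
  intro s r u
  induction u generalizing s r with
  | nil =>
    intro hs hr
    have h1 : s = [] := List.length_eq_zero_iff.1 (by simpa using hs)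
    have h2 : r = [] := List.length_eq_zero_iff.1 (by simpa using hr)
    subst h1; subst h2
    simp [dot]
  | cons x u ih =>
    intro hs hr
    cases s with
    | nil => simp at hs
    | cons b s =>
      cases r with
      | nil => simp at hr
      | cons d r =>
        simp only [List.length_cons, Nat.add_right_cancel_iff] at hs hr
        simp only [List.zipWith_cons_cons, dot, ih s r hs hr]
        rw [ZMod.natCast_mod]
        push_cast
        ring

theorem dot_zero {p : ℕ} : ∀ (r : List ℕ) (u : List (ZMod p)), (∀ x ∈ u, x = 0) → dot r u = 0 := by
  intro r u
  induction u generalizing r with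
  | nil => intro _; cases r <;> simp [dot]
  | cons x u ih =>
    intro h
    cases r with
    | nil => simp [dot]
    | cons a r =>
      simp only [dot]
      rw [ih r (fun y hy => h y (List.mem_cons_of_mem _ hy)), h x List.mem_cons_self]
      simp

theorem red_length {p a : ℕ} {r s : List ℕ} {k : ℕ} (hr : r.length = k) (hs : s.length = k + 1) :
    (red p a r s).length = k := by
  cases s with
  | nil => simp at hs
  | cons b s' =>
    simp only [List.length_cons, Nat.add_right_cancel_iff] at hs
    simp [red, hr, hs]

theorem dot_red {p : ℕ} [Fact p.Prime] {a : ℕ} {r s : List ℕ} {k : ℕ} (x : ZMod p)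
    (u : List (ZMod p)) (hu : u.length = k) (hr : r.length = k) (hs : s.length = k + 1)
    (h0 : dot (a :: r) (x :: u) = 0) :
    dot (red p a r s) u = (a : ZMod p) * dot s (x :: u) := by
  cases s with
  | nil => simp at hs
  | cons b s' =>
    simp only [List.length_cons, Nat.add_right_cancel_iff] at hs
    have hp : 0 < p := (Fact.out : p.Prime).pos
    have hc : ((p - b % p : ℕ) : ZMod p) = - (b : ZMod p) := by
      rw [Nat.cast_sub (Nat.mod_lt _ hp).le, ZMod.natCast_mod]
      simp
    simp only [red]
    rw [dot_zipWith a _ s' r u (by rw [hs, hu]) (by rw [hr, hu]), hc]
    simp only [dot] at h0 ⊢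
    have h1 : dot r u = - ((a : ZMod p) * x) := by
      linear_combination h0
    rw [h1]
    ring

theorem check_sound (p : ℕ) [Fact p.Prime] : ∀ (n k : ℕ) (L : List (List ℕ)),
    L.length ≤ n → (∀ r ∈ L, r.length = k) → check p n k L = true →
    ∀ u : List (ZMod p), u.length = k → (∃ x ∈ u, x ≠ 0) →
      L.countP (fun r => decide (dot r u = 0)) < k := by
  intro n
  induction n with
  | zero =>
    intro k L hL _ _ u hu hx
    have : L = [] := List.length_eq_zero_iff.1 (by omega)
    subst this
    obtain ⟨x, hx, _⟩ := hx
    have : 0 < u.length := List.length_pos_of_mem hx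
    simp; omega
  | succ n ih =>
    intro k L hL hlen hc u hu hx
    have hk : 0 < k := by
      obtain ⟨x, hx, _⟩ := hx
      have : 0 < u.length := List.length_pos_of_mem hx
      omega
    cases L with
    | nil => simpa using hk
    | cons r L' =>
      by_cases hlt : n + 1 < k
      · refine lt_of_le_of_lt (List.countP_le_length) (lt_of_le_of_lt hL hlt)
      · obtain ⟨k', rfl⟩ : ∃ k', k = k' + 1 := ⟨k - 1, by omega⟩
        have hb : Nat.blt (n + 1) (k' + 1) = false := by
          cases h : Nat.blt (n + 1) (k' + 1)
          · rfl
          · exact absurd (by simpa [Nat.blt_eq] using h) (by simpa using hlt)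
        unfold check at hc
        simp only [hb] at hc
        cases r with
        | nil => simp at hc
        | cons a r' =>
          simp only at hc
          have ha : Nat.beq (a % p) 0 = false := by
            cases h : Nat.beq (a % p) 0
            · rfl
            · rw [h] at hc; simp at hc
          rw [ha] at hc
          simp only at hc
          have hc1 : check p n k' (L'.map (red p a r')) = true := by
            cases h : check p n k' (L'.map (red p a r'))
            · rw [h] at hc; simp at hc
            · rfl
          rw [hc1] at hc
          simp only at hc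
          have ha' : (a : ZMod p) ≠ 0 := by
            intro h
            rw [ZMod.natCast_eq_zero_iff] at h
            have : a % p = 0 := Nat.mod_eq_zero_of_dvd h
            rw [this] at ha
            simp at ha
          have hL' : L'.length ≤ n := by simpa using hL
          have hr' : r'.length = k' := by
            have := hlen (a :: r') List.mem_cons_self
            simpa using this
          have hlen' : ∀ s ∈ L', s.length = k' + 1 := fun s hs => hlen s (List.mem_cons_of_mem _ hs)
          rw [List.countP_cons]
          by_cases h0 : dot (a :: r') u = 0
          · cases u with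
            | nil => simp at hu
            | cons x u' =>
              have hu' : u'.length = k' := by simpa using hu
              have hx' : ∃ y ∈ u', y ≠ 0 := by
                by_contra hcon
                push Not at hcon
                have h1 : dot r' u' = 0 := dot_zero r' u' hcon
                simp only [dot] at h0
                rw [h1, add_zero] at h0
                have hx0 : x = 0 := by
                  rcases mul_eq_zero.1 h0 with h | h
                  · exact absurd h ha'
                  · exact h
                obtain ⟨y, hy, hy0⟩ := hx
                rcases List.mem_cons.1 hy with rfl | hy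
                · exact hy0 hx0
                · exact hy0 (hcon y hy)
              have key := ih k' (L'.map (red p a r')) (by simpa using hL')
                (by
                  intro s hs
                  obtain ⟨t, ht, rfl⟩ := List.mem_map.1 hs
                  exact red_length hr' (hlen' t ht)) hc1 u' hu' hx'
              rw [List.countP_map] at key
              have heq : L'.countP (fun r => decide (dot r (x :: u') = 0))
                  = L'.countP ((fun r => decide (dot r u' = 0)) ∘ red p a r') := by
                apply List.countP_congr
                intro s hs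
                have h2 := dot_red (p := p) x u' hu' hr' (hlen' s hs) h0
                simp only [Function.comp, decide_eq_true_eq]
                rw [h2]
                constructor
                · intro h; rw [h, mul_zero]
                · intro h
                  rcases mul_eq_zero.1 h with h | h
                  · exact absurd h ha'
                  · exact h
              rw [heq]
              simp only [h0, decide_true, if_true]
              omega
          · have := ih (k' + 1) L' hL' hlen' hc u hu hx
            simp only [h0, decide_false]
            simpa using this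

theorem dot_ofFn {p k : ℕ} (r : List ℕ) (u : Fin k → ZMod p) (hr : r.length = k) :
    dot r (List.ofFn u) = ∑ j : Fin k, ((r.getD j 0 : ℕ) : ZMod p) * u j := by
  induction k generalizing r with
  | zero => cases r <;> simp [dot]
  | succ k ih =>
    cases r with
    | nil => simp at hr
    | cons a r =>
      rw [List.ofFn_succ, Fin.sum_univ_succ]
      simp only [dot]
      rw [ih r (fun i => u i.succ) (by simpa using hr)]
      simp

/-- from the check to determinants over any ring mapping to `ZMod p`. -/
theorem det_ne {p : ℕ} [Fact p.Prime] {R : Type*} [CommRing R] (φ : R →+* ZMod p) {n k : ℕ}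
    (x : Fin n → Fin k → R) (L : List (List ℕ)) (hLl : L.length = n)
    (hlen : ∀ r ∈ L, r.length = k)
    (hL : ∀ (i : Fin n) (j : Fin k), φ (x i j) = (((L.getD i []).getD j 0 : ℕ) : ZMod p))
    (hc : check p n k L = true) (f : Fin k → Fin n) (hf : Function.Injective f) :
    (Matrix.of fun a b => x (f a) b).det ≠ 0 := by
  intro hdet
  have h1 : (φ.mapMatrix (Matrix.of fun a b => x (f a) b)).det = 0 := by
    rw [← RingHom.map_det, hdet, map_zero]
  obtain ⟨u, hu, hu0⟩ := Matrix.exists_mulVec_eq_zero_iff.2 h1
  have hex : ∃ y ∈ List.ofFn u, y ≠ 0 := by
    by_contra hcon
    push Not at hcon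
    apply hu
    funext i
    exact hcon (u i) (by simp)
  have key := check_sound p n k L hLl.le hlen hc (List.ofFn u) (by simp) hex
  have hk : k ≤ L.countP (fun r => decide (dot r (List.ofFn u) = 0)) := by
    have e1 : L = (List.finRange n).map (fun i : Fin n => L.getD i []) := by
      apply List.ext_getElem
      · simp [hLl]
      · intro i h1 h2
        simp [List.getD_eq_getElem?_getD, h1]
    rw [e1, List.countP_map]
    have e2 : (List.finRange n).countP
        ((fun r => decide (dot r (List.ofFn u) = 0)) ∘ fun i : Fin n => L.getD i [])
        = (Finset.univ.filter (fun i : Fin n => dot (L.getD i []) (List.ofFn u) = 0)).card := by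
      rw [List.countP_eq_length_filter, ← List.toFinset_card_of_nodup
        ((List.nodup_finRange n).filter _)]
      congr 1
      ext i
      simp
    rw [e2]
    have : Fintype.card (Fin k) = k := Fintype.card_fin k
    calc k = (Finset.univ.image f).card := by
            rw [Finset.card_image_of_injective _ hf]; simp
      _ ≤ _ := by
            apply Finset.card_le_card
            intro i hi
            obtain ⟨a, _, rfl⟩ := Finset.mem_image.1 hi
            rw [Finset.mem_filter]
            refine ⟨Finset.mem_univ _, ?_⟩
            have hmem : L.getD (f a) [] ∈ L := by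
              rw [List.getD_eq_getElem _ _ (by rw [hLl]; exact (f a).2)]
              exact List.getElem_mem _
            rw [dot_ofFn _ u (hlen _ hmem)]
            have h3 := congrFun hu0 a
            simp only [Matrix.mulVec, dotProduct, RingHom.mapMatrix_apply, Matrix.map_apply,
              Matrix.of_apply, Pi.zero_apply] at h3
            rw [← h3]
            refine Finset.sum_congr rfl fun j _ => ?_
            rw [hL]
  omega

/-- over `ℂ`: a nonzero `u` is killed by at most `k - 1` of the vectors. -/
theorem card_lt {p : ℕ} [Fact p.Prime] {R : Type*} [CommRing R] (ι : R →+* ℂ)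
    (hι : Function.Injective ι) (φ : R →+* ZMod p) {n k : ℕ}
    (x : Fin n → Fin k → R) (L : List (List ℕ)) (hLl : L.length = n)
    (hlen : ∀ r ∈ L, r.length = k)
    (hL : ∀ (i : Fin n) (j : Fin k), φ (x i j) = (((L.getD i []).getD j 0 : ℕ) : ZMod p))
    (hc : check p n k L = true) (u : Fin k → ℂ) (hu : u ≠ 0) :
    (Finset.univ.filter (fun i : Fin n => ∑ j, ι (x i j) * u j = 0)).card < k := by
  by_contra hcon
  push Not at hcon
  obtain ⟨S, hS, hSc⟩ := Finset.exists_subset_card_eq hcon
  let f : Fin k → Fin n := fun a => S.orderEmbOfFin hSc a
  have hf : Function.Injective f := fun a b h => (S.orderEmbOfFin hSc).injective h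
  have hfm : ∀ a, f a ∈ S := fun a => S.orderEmbOfFin_mem hSc a
  have hd := det_ne φ x L hLl hlen hL hc f hf
  have h1 : (ι.mapMatrix (Matrix.of fun a b => x (f a) b)).det ≠ 0 := by
    rw [← RingHom.map_det]
    intro h
    exact hd (hι (by rw [h, map_zero]))
  apply h1
  refine Matrix.exists_mulVec_eq_zero_iff.1 ⟨u, hu, ?_⟩
  funext a
  have h2 := (Finset.mem_filter.1 (hS (hfm a))).2
  simp only [Matrix.mulVec, dotProduct, RingHom.mapMatrix_apply, Matrix.map_apply,
    Matrix.of_apply, Pi.zero_apply]
  exact h2

/-- product-freeness from general position of 20 + 20 vectors in dimension 10. -/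
theorem pf {p q : ℕ} [Fact p.Prime] [Fact q.Prime] {R : Type*} [CommRing R] (ι : R →+* ℂ)
    (hι : Function.Injective ι) (φ : R →+* ZMod p) (φ' : R →+* ZMod q)
    (x z : Fin 20 → Fin 10 → R) (Lx Lz : List (List ℕ))
    (hxl : Lx.length = 20) (hzl : Lz.length = 20)
    (hxlen : ∀ r ∈ Lx, r.length = 10) (hzlen : ∀ r ∈ Lz, r.length = 10)
    (hLx : ∀ (i : Fin 20) (j : Fin 10), φ (x i j) = (((Lx.getD i []).getD j 0 : ℕ) : ZMod p))
    (hLz : ∀ (i : Fin 20) (j : Fin 10), φ' (z i j) = (((Lz.getD i []).getD j 0 : ℕ) : ZMod q))
    (hcx : check p 20 10 Lx = true) (hcz : check q 20 10 Lz = true)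
    (u v : Fin 10 → ℂ)
    (h : ∀ i, (∑ j, ι (x i j) * u j) * (∑ j, ι (z i j) * v j) = 0) : u = 0 ∨ v = 0 := by
  by_contra hcon
  push Not at hcon
  have h1 := card_lt ι hι φ x Lx hxl hxlen hLx hcx u hcon.1
  have h2 := card_lt ι hι φ' z Lz hzl hzlen hLz hcz v hcon.2
  have h3 : (Finset.univ : Finset (Fin 20)) ⊆
      (Finset.univ.filter (fun i : Fin 20 => ∑ j, ι (x i j) * u j = 0)) ∪
      (Finset.univ.filter (fun i : Fin 20 => ∑ j, ι (z i j) * v j = 0)) := by
    intro i _
    rcases mul_eq_zero.1 (h i) with h | h
    · exact Finset.mem_union_left _ (by simp [h])
    · exact Finset.mem_union_right _ (by simp [h])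
  have h4 := (Finset.card_le_card h3).trans (Finset.card_union_le _ _)
  simp only [Finset.card_univ, Fintype.card_fin] at h4
  omega

end Crest.Agent.P345Cert
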