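import Crest.Agent.P345Fin63
import Crest.Agent.P345Mds63

set_option autoImplicit false
set_option maxRecDepth 1000000
set_option exponentiation.threshold 10000

namespace Crest.Agent.P345End63
open Crest.Quantum Crest.Agent.P345Asm63 Crest.Agent.P345Fin63 Crest.Agent.P345Mds63

def perm : Fin 10 → Fin 10 := ![5, 8, 3, 4, 2, 9, 1, 6, 0, 7]
def ord : Fin 20 → Fin 20 := ![7, 5, 13, 2, 11, 17, 18, 8, 6, 16, 12, 14, 0, 3, 10, 4, 15, 19, 1, 9]

theorem perm_bij : Function.Bijective perm := by decide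
theorem prime_p : Nat.Prime 68749 := by norm_num
instance : Fact (Nat.Prime 68749) := ⟨prime_p⟩

theorem tab : ∀ (r : Fin 20) (j : Fin 10),
    (((L63.getD r.val 0 / (2 ^ 192) ^ (j : ℕ) % (2 ^ 192) : ℕ) : ℤ) - om (ww (ord r)) (perm j)) % 68749 = 0 := by
  decide +kernel

theorem len63 : ∀ r ∈ L63, P345Fast.bnd (2 ^ 192) 68749 10 r := by
  intro r hr
  simp only [L63, List.mem_cons, List.mem_nil_iff, or_false] at hr
  rcases hr with rfl | rfl | rfl | rfl | rfl | rfl | rfl | rfl | rfl | rfl | rfl | rfl | rfl | rfl |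
    rfl | rfl | rfl | rfl | rfl | rfl <;>
  · simp only [P345Fast.bnd]
    norm_num

theorem hk (k : Type) [Field k] [CharP k 68749] (u v : Fin 10 → k)
    (h : ∀ i, (∑ s, u s * ((om (ww i) s : ℤ) : k)) * (∑ s, v s * ((om (ww i) s : ℤ) : k)) = 0) :
    u = 0 ∨ v = 0 := by
  have htab : ∀ (r : Fin 20) (j : Fin 10),
      ((L63.getD r.val 0 / (2 ^ 192) ^ (j : ℕ) % (2 ^ 192) : ℕ) : k) = ((om (ww (ord r)) (perm j) : ℤ) : k) := by
    intro r j
    have h1 := Int.dvd_of_emod_eq_zero (tab r j)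
    have h2 := (CharP.intCast_eq_zero_iff k 68749 _).2 h1
    rw [Int.cast_sub, sub_eq_zero, Int.cast_natCast] at h2
    exact h2
  have hsum : ∀ (u : Fin 10 → k) (r : Fin 20),
      (∑ j : Fin 10, ((L63.getD r.val 0 / (2 ^ 192) ^ (j : ℕ) % (2 ^ 192) : ℕ) : k) * u (perm j))
        = ∑ s, u s * ((om (ww (ord r)) s : ℤ) : k) := by
    intro u r
    rw [← Equiv.sum_comp (Equiv.ofBijective perm perm_bij)
      (fun s => u s * ((om (ww (ord r)) s : ℤ) : k))]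
    refine Finset.sum_congr rfl fun j _ => ?_
    rw [htab, mul_comm]
    rfl
  have key := P345Fast.pf_char (p := 68749) (K := k) (n := 20) (k := 10) (by norm_num) (2 ^ 192) 68749
    (by positivity) (by norm_num) L63 rfl len63 chk63 (fun j => u (perm j)) (fun j => v (perm j)) (by
      intro i
      rw [hsum, hsum]
      exact h (ord i))
  rcases key with h1 | h1
  · left
    funext s
    obtain ⟨j, rfl⟩ := perm_bij.2 s
    exact congrFun h1 j
  · right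
    funext s
    obtain ⟨j, rfl⟩ := perm_bij.2 s
    exact congrFun h1 j

theorem modp (z : ℤ) (h : z % 68749 = 0) : ((z : ℤ) : ZMod 68749) = 0 :=
  (ZMod.intCast_zmod_eq_zero_iff_dvd z 68749).2 (Int.dvd_of_emod_eq_zero h)

theorem final :
    (∃ Φ₁ Φ₂ : Matrix (Fin 10) (Fin 10) ℂ → Matrix (Fin 10) (Fin 10) ℂ,
      IsLinearMap ℂ Φ₁ ∧ IsLinearMap ℂ Φ₂ ∧ IsPPT Φ₁ ∧ IsPPT Φ₂ ∧
      choiMatrix (Φ₂ ∘ Φ₁) ≠ 0 ∧
      (∀ u v : Fin 10 → ℂ, (∃ w, (choiMatrix (Φ₂ ∘ Φ₁)).mulVec w = fun p => u p.1 * v p.2) →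
        u = 0 ∨ v = 0) ∧
      ¬ IsEntanglementBreaking (Φ₂ ∘ Φ₁)) ∧
    ∃ Θ : Matrix (Fin 21) (Fin 21) ℂ → Matrix (Fin 21) (Fin 21) ℂ,
      IsChannel Θ ∧ IsPPT Θ ∧ ¬ IsEntanglementBreaking (Θ ∘ Θ) := by
  refine P345Asm63.main CC P345Fin63.hKs 68749 ee NM (fun a b => ?_) ww (fun i U => modp _ (hm' i U))
    hk P345Fin63.hne
  have h1 := hN' a b
  by_cases hab : a = b
  · rw [if_pos hab] at h1 ⊢
    have h2 : ((∑ k, NM a k * mU (Aw CC (ee k)) b) - 1) % 68749 = 0 := by omega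
    have h3 := modp _ h2
    rw [Int.cast_sub, Int.cast_one, sub_eq_zero] at h3
    exact h3
  · rw [if_neg hab] at h1 ⊢
    exact modp _ h1

end Crest.Agent.P345End63
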