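import Mathlib

set_option autoImplicit false
set_option maxHeartbeats 400000

namespace Crest.Agent.P345Val

/-- A valuation subring of `ℂ` in which the prime `p` is a non-unit. -/
theorem exists_val (p : ℕ) [Fact p.Prime] :
    ∃ O : ValuationSubring ℂ, (p : ℂ) ∈ O.nonunits := by
  classical
  -- the prime subring of `ℂ`
  let A : Subring ℂ := (Int.castRingHom ℂ).range
  have hpA : (p : ℂ) ∈ A := ⟨(p : ℤ), by simp⟩
  let I : Ideal A := Ideal.span {(⟨(p : ℂ), hpA⟩ : A)}
  have hI : I ≠ ⊤ := by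
    intro h
    have h1 : (1 : A) ∈ I := by rw [h]; trivial
    rw [Ideal.mem_span_singleton'] at h1
    obtain ⟨⟨a, m, hm⟩, ha⟩ := h1
    have h2 : a * (p : ℂ) = 1 := by
      have := congrArg Subtype.val ha
      simpa using this
    have h3 : ((m * (p : ℤ) : ℤ) : ℂ) = ((1 : ℤ) : ℂ) := by
      push_cast
      have : (m : ℂ) = a := by simpa using hm
      rw [this]; exact h2
    have h4 : m * (p : ℤ) = 1 := by exact_mod_cast h3
    have h5 : (p : ℤ) ∣ 1 := ⟨m, by linarith⟩
    have hp := (Fact.out : p.Prime)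
    have h6 : p ∣ 1 := by exact_mod_cast h5
    exact hp.one_lt.ne' (Nat.dvd_one.mp h6)
  obtain ⟨O, hO⟩ := Ideal.image_subset_nonunits_valuationSubring I hI
  refine ⟨O, ?_⟩
  have := hO.2
  apply this
  exact ⟨⟨(p : ℂ), hpA⟩, Ideal.subset_span rfl, rfl⟩


/-- Scaling a nonzero vector into the valuation ring, with one coordinate equal to `1`. -/
theorem exists_scale (O : ValuationSubring ℂ) {a : ℕ} (u : Fin a → ℂ) (hu : u ≠ 0) :
    ∃ (c : ℂ) (u' : Fin a → O) (i₀ : Fin a), c ≠ 0 ∧ (∀ i, u i = c * (u' i : ℂ)) ∧ u' i₀ = 1 := by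
  classical
  obtain ⟨i1, hi1⟩ : ∃ i, u i ≠ 0 := by
    by_contra h
    push Not at h
    exact hu (funext h)
  have : Nonempty (Fin a) := ⟨i1⟩
  obtain ⟨i₀, hi₀⟩ := Finite.exists_max (fun i => O.valuation (u i))
  have h0 : u i₀ ≠ 0 := by
    intro h
    have := hi₀ i1
    simp only [h, map_zero] at this
    have h2 : O.valuation (u i1) = 0 := le_antisymm this zero_le
    exact hi1 ((map_eq_zero _).mp h2)
  have hmem : ∀ i, u i / u i₀ ∈ O := by
    intro i
    rw [← ValuationSubring.valuation_le_one_iff, map_div₀]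
    exact div_le_one_of_le₀ (hi₀ i) zero_le
  refine ⟨u i₀, fun i => ⟨u i / u i₀, hmem i⟩, i₀, h0, ?_, ?_⟩
  · intro i
    show u i = u i₀ * (u i / u i₀)
    field_simp
  · apply Subtype.ext
    show u i₀ / u i₀ = 1
    exact div_self h0

/-- Lift of "only trivial common zeros" of integer bilinear forms from characteristic `p` to `ℂ`. -/
theorem pf_lift (p : ℕ) [Fact p.Prime] {R a c : ℕ} (n : Fin R → Fin a → Fin c → ℤ)
    (h : ∀ (k : Type) [Field k] [CharP k p] (u : Fin a → k) (v : Fin c → k),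
      (∀ r, ∑ i, ∑ j, (n r i j : k) * u i * v j = 0) → u = 0 ∨ v = 0) :
    ∀ (u : Fin a → ℂ) (v : Fin c → ℂ),
      (∀ r, ∑ i, ∑ j, (n r i j : ℂ) * u i * v j = 0) → u = 0 ∨ v = 0 := by
  classical
  intro u v huv
  by_contra hne
  push Not at hne
  obtain ⟨hu, hv⟩ := hne
  obtain ⟨O, hO⟩ := exists_val p
  obtain ⟨cu, u', i₀, hcu, hu', hi₀⟩ := exists_scale O u hu
  obtain ⟨cv, v', j₀, hcv, hv', hj₀⟩ := exists_scale O v hv
  let k := IsLocalRing.ResidueField O
  let res : O →+* k := IsLocalRing.residue O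
  have hpO : (p : k) = 0 := by
    have h1 : ((p : O) : ℂ) ∈ O.nonunits := by simpa using hO
    have h2 : (p : O) ∈ IsLocalRing.maximalIdeal O := by
      rw [← ValuationSubring.coe_mem_nonunits_iff]
      exact h1
    have h3 : res (p : O) = 0 := (IsLocalRing.residue_eq_zero_iff _).mpr h2
    simpa using h3
  have hchar : CharP k p := by
    have hp := (Fact.out : p.Prime)
    exact ringChar.of_eq (CharP.ringChar_of_prime_eq_zero hp hpO)
  have hrel : ∀ r, ∑ i, ∑ j, ((n r i j : ℤ) : O) * u' i * v' j = 0 := by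
    intro r
    apply Subtype.ext
    have h1 := huv r
    have h2 : ∑ i, ∑ j, (n r i j : ℂ) * u i * v j
        = (cu * cv) * ∑ i, ∑ j, (n r i j : ℂ) * (u' i : ℂ) * (v' j : ℂ) := by
      rw [Finset.mul_sum]
      refine Finset.sum_congr rfl fun i _ => ?_
      rw [Finset.mul_sum]
      refine Finset.sum_congr rfl fun j _ => ?_
      rw [hu' i, hv' j]
      ring
    rw [h2] at h1
    have h3 := (mul_eq_zero.mp h1).resolve_left (mul_ne_zero hcu hcv)
    push_cast
    exact h3
  have hk := h k (fun i => res (u' i)) (fun j => res (v' j)) (by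
    intro r
    have h1 := congrArg res (hrel r)
    simpa [map_sum, map_mul] using h1)
  rcases hk with hk | hk
  · have := congrFun hk i₀
    simp only [hi₀, map_one, Pi.zero_apply] at this
    exact one_ne_zero this
  · have := congrFun hk j₀
    simp only [hj₀, map_one, Pi.zero_apply] at this
    exact one_ne_zero this

end Crest.Agent.P345Val
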