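import Crest.Agent.P345Red
import Crest.Agent.P345Val
import Crest.Agent.P345Fast

set_option autoImplicit false

namespace Crest.Agent.P345Glue77
open Matrix Crest.Agent.P345Red Crest.Quantum

/-- relations mod `p` lift to exact integral relations. -/
theorem lift_rel (p : ℕ) [Fact p.Prime] {m n : ℕ} (M : Matrix (Fin m) (Fin n) ℤ)
    (R : Matrix (Fin n) (Fin m) ℤ)
    (hR : (M * R).map (Int.castRingHom (ZMod p)) = 1) (mu : Fin n → ℤ)
    (hmu : ∀ c, ((M.mulVec mu c : ℤ) : ZMod p) = 0) :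
    ∃ lam : Fin n → ℤ, M.mulVec lam = 0 ∧ ∀ i, (lam i : ZMod p) = (mu i : ZMod p) := by
  have hdet : (((M * R).det : ℤ) : ZMod p) = 1 := by
    have h := RingHom.map_det (Int.castRingHom (ZMod p)) (M * R)
    have h2 : (Int.castRingHom (ZMod p)).mapMatrix (M * R) = 1 := hR
    rw [h2, Matrix.det_one] at h
    simpa using h
  refine ⟨(M * R).det • mu - R.mulVec ((M * R).adjugate.mulVec (M.mulVec mu)), ?_, ?_⟩
  · rw [Matrix.mulVec_sub, Matrix.mulVec_smul, Matrix.mulVec_mulVec, Matrix.mulVec_mulVec,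
      Matrix.mul_adjugate, Matrix.smul_mulVec, Matrix.one_mulVec, sub_self]
  · intro i
    have h1 : ∀ j, ((((M * R).adjugate.mulVec (M.mulVec mu)) j : ℤ) : ZMod p) = 0 := by
      intro j
      simp only [Matrix.mulVec, dotProduct]
      push_cast
      refine Finset.sum_eq_zero fun c _ => ?_
      have := hmu c
      simp only [Matrix.mulVec, dotProduct] at this
      push_cast at this
      rw [this, mul_zero]
    have h2 : (((R.mulVec ((M * R).adjugate.mulVec (M.mulVec mu))) i : ℤ) : ZMod p) = 0 := by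
      rw [Matrix.mulVec, dotProduct]
      push_cast
      refine Finset.sum_eq_zero fun c _ => ?_
      rw [h1 c, mul_zero]
    rw [Pi.sub_apply, Int.cast_sub, h2, sub_zero, Pi.smul_apply, smul_eq_mul, Int.cast_mul, hdet,
      one_mul]

section Main

variable (K : Fin 15 → Fin 10 → Fin 10 → ℤ) (E : Fin 10 → Fin 10 → ℤ)

def Kc (c : Fin 15) : Matrix (Fin 10) (Fin 10) ℂ := Matrix.of fun x a => ((K c x a : ℤ) : ℂ)
def Lz (j : Fin 15) (s x : Fin 10) : ℤ := ∑ a, K j a s * E a x
def Lc (j : Fin 15) : Matrix (Fin 10) (Fin 10) ℂ := Matrix.of fun s x => ((Lz K E j s x : ℤ) : ℂ)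
def LK (j i : Fin 15) (s a : Fin 10) : ℤ := ∑ y, Lz K E j s y * K i y a

theorem LcKc (j i : Fin 15) (s a : Fin 10) : (Lc K E j * Kc K i) s a = ((LK K E j i s a : ℤ) : ℂ) := by
  simp [Matrix.mul_apply, Lc, Kc, LK]

theorem hK (hsym : ∀ x y a b, ∑ c, K c y a * K c x b = ∑ c, K c x a * K c y b) (M) :
    (kmap (Kc K) M).transpose = kmap (Kc K) M := by
  refine kmap_transpose_of _ _ ?_ M
  intro x y a b
  have h := congrArg (Int.cast : ℤ → ℂ) (hsym x y a b)
  push_cast at h
  simpa [Kc] using h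

theorem hL (hsym : ∀ x y a b, ∑ c, K c y a * K c x b = ∑ c, K c x a * K c y b) (M) :
    (kmap (Lc K E) M).transpose = kmap (Lc K E) M := by
  refine kmap_transpose_of _ _ ?_ M
  intro s t x y
  have key : ∑ j, Lz K E j t x * Lz K E j s y = ∑ j, Lz K E j s x * Lz K E j t y := by
    simp only [Lz, Finset.sum_mul_sum]
    rw [Finset.sum_comm]
    conv_rhs => rw [Finset.sum_comm]
    refine Finset.sum_congr rfl fun a _ => ?_
    rw [Finset.sum_comm]
    conv_rhs => rw [Finset.sum_comm]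
    refine Finset.sum_congr rfl fun b _ => ?_
    have h := hsym b a t s
    -- ∑ c, K c a t * K c b s = ∑ c, K c b t * K c a s
    calc ∑ j, K j a t * E a x * (K j b s * E b y)
        = E a x * E b y * ∑ j, K j a t * K j b s := by
          rw [Finset.mul_sum]; exact Finset.sum_congr rfl fun j _ => by ring
      _ = E a x * E b y * ∑ j, K j b t * K j a s := by rw [h]
      _ = ∑ j, K j a s * E a x * (K j b t * E b y) := by
          rw [Finset.mul_sum]; exact Finset.sum_congr rfl fun j _ => by ring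
  have h := congrArg (Int.cast : ℤ → ℂ) key
  push_cast at h
  simpa [Lc] using h

variable (mon : Fin 10 → Fin 10 → Fin 35) (M : Matrix (Fin 15) (Fin 35) ℤ)

theorem rel_of (cls : Fin 15 → Fin 15 → Fin 15) (eps : Fin 15 → Fin 15 → ℤ)
    (hP : ∀ j i m, ∑ q : Fin 10 × Fin 10, (if mon q.1 q.2 = m then LK K E j i q.2 q.1 else 0)
      = eps j i * M (cls j i) m) (lam : Fin 35 → ℤ) (hlam : M.mulVec lam = 0) (j i : Fin 15) :
    ∑ q : Fin 10 × Fin 10, lam (mon q.1 q.2) * LK K E j i q.2 q.1 = 0 := by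
  have h1 : ∀ q : Fin 10 × Fin 10, lam (mon q.1 q.2) * LK K E j i q.2 q.1
      = ∑ m, lam m * (if mon q.1 q.2 = m then LK K E j i q.2 q.1 else 0) := by
    intro q
    simp
  simp only [h1]
  rw [Finset.sum_comm]
  have h2 : ∀ m, ∑ q : Fin 10 × Fin 10, lam m * (if mon q.1 q.2 = m then LK K E j i q.2 q.1 else 0)
      = eps j i * (M (cls j i) m * lam m) := by
    intro m
    rw [← Finset.mul_sum, hP j i m]
    ring
  simp only [h2]
  rw [← Finset.mul_sum]
  have h3 := congrFun hlam (cls j i)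
  simp only [Matrix.mulVec, dotProduct, Pi.zero_apply] at h3
  rw [h3, mul_zero]

/-- all hypotheses of the two reductions. -/
theorem all (p : ℕ) [Fact p.Prime] (R : Matrix (Fin 35) (Fin 15) ℤ)
    (hR : (M * R).map (Int.castRingHom (ZMod p)) = 1) (mu : Fin 20 → Fin 35 → ℤ)
    (hmu : ∀ i c, ((M.mulVec (mu i) c : ℤ) : ZMod p) = 0)
    (cls : Fin 15 → Fin 15 → Fin 15) (eps : Fin 15 → Fin 15 → ℤ)
    (hP : ∀ j i m, ∑ q : Fin 10 × Fin 10, (if mon q.1 q.2 = m then LK K E j i q.2 q.1 else 0)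
      = eps j i * M (cls j i) m)
    (B MB : ℕ) (hB : 0 < B) (hMB : MB * (2 * p) ^ 10 ≤ B)
    (L : List ℕ) (hLl : L.length = 20) (hlen : ∀ r ∈ L, P345Fast.bnd B MB 10 r)
    (hc : P345Fast.checkP p B 20 10 L = true)
    (hx : ∀ (i : Fin 20) (a b : Fin 10), ((mu i (mon a b) : ℤ) : ZMod p)
      = ((L.getD i 0 / B ^ (a : ℕ) % B : ℕ) : ZMod p) * ((L.getD i 0 / B ^ (b : ℕ) % B : ℕ) : ZMod p)) :
    ∃ n : Fin 20 → Fin 10 × Fin 10 → ℂ,
      (∀ r j i, ∑ q : Fin 10 × Fin 10, n r q * (Lc K E j * Kc K i) q.2 q.1 = 0) ∧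
      (∀ u v : Fin 10 → ℂ, (∀ r, ∑ q : Fin 10 × Fin 10, n r q * (u q.1 * v q.2) = 0) →
        u = 0 ∨ v = 0) := by
  choose lam hlam hlam2 using fun i => lift_rel p M R hR (mu i) (hmu i)
  refine ⟨fun r q => ((lam r (mon q.1 q.2) : ℤ) : ℂ), ?_, ?_⟩
  · intro r j i
    have h := congrArg (Int.cast : ℤ → ℂ) (rel_of K E mon M cls eps hP (lam r) (hlam r) j i)
    push_cast at h
    simpa only [LcKc] using h
  · intro u v h
    refine P345Val.pf_lift p (fun r a b => lam r (mon a b)) ?_ u v ?_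
    · intro k _ _ u v hk
      refine P345Fast.pf_char (p := p) (K := k) (n := 20) (k := 10) (by norm_num) B MB hB hMB L
        hLl hlen hc u v ?_
      intro i
      have h2 := hk i
      have h3 : ∀ a b : Fin 10, ((lam i (mon a b) : ℤ) : k)
          = ((L.getD i 0 / B ^ (a : ℕ) % B : ℕ) : k) * ((L.getD i 0 / B ^ (b : ℕ) % B : ℕ) : k) := by
        intro a b
        have h4 := (hlam2 i (mon a b)).trans (hx i a b)
        have h5 := congrArg (ZMod.castHom (dvd_refl p) k) h4
        simpa using h5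
      rw [Finset.sum_mul_sum, ← h2]
      refine Finset.sum_congr rfl fun a _ => Finset.sum_congr rfl fun b _ => ?_
      rw [h3 a b]
      ring
    · intro r
      have h2 := h r
      rw [Fintype.sum_prod_type] at h2
      rw [← h2]
      refine Finset.sum_congr rfl fun a _ => Finset.sum_congr rfl fun b _ => ?_
      ring

end Main

end Crest.Agent.P345Glue77
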