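import Crest.Agent.P345F82

set_option autoImplicit false
namespace Crest.Agent.P345H82
open Matrix Crest.Agent.P345HK34 Crest.Agent.P345Red Crest.Agent.P345S82 Crest.Agent.P345F82
open Crest.Agent.P345.Dual26

instance : Fact (Nat.Prime 1000081) := ⟨by norm_num⟩

theorem cast_eq {k : Type} [Field k] [CharP k 1000081] {a b : ℤ} (h : (a - b) % 1000081 = 0) :
    (a : k) = (b : k) := by
  have h1 : ((a - b : ℤ) : k) = 0 := by
    rw [CharP.intCast_eq_zero_iff k 1000081]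
    exact_mod_cast Int.dvd_of_emod_eq_zero h
  rw [Int.cast_sub, sub_eq_zero] at h1
  exact h1

theorem dl_eq' : ∀ (t s : Fin 15), dl t s = ∑ r : Fin 15, (Mt.getD t []).getD r 0 * (Gt.getD r []).getD s 0 := by
  decide +kernel

theorem dl_eq (t s : Fin 15) : dl t s = ∑ r : Fin 15, (Mt.getD t []).getD r 0 * (Gt.getD r []).getD s 0 :=
  dl_eq' t s

theorem ind (k : Type) [Field k] [CharP k 1000081] (l : Fin 15 → k)
    (h : ∀ r, ∑ t, l t * (mm t r : k) = 0) : l = 0 := by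
  ext s
  have h1 : ∀ r : Fin 15, ∑ t, l t * (((Mt.getD t []).getD r 0 : ℤ) : k) = 0 := by
    intro r
    rw [← h (Fin.castLE (by decide) r)]
    refine Finset.sum_congr rfl fun t _ => ?_
    rw [cast_eq (k := k) (chkM t r)]
  have h2 : ∀ t, ((dl t s : ℤ) : k) = if t = s then 1 else 0 := by
    intro t
    rw [cast_eq (k := k) (chkG t s)]
    split_ifs <;> simp
  have h3 : ∑ t, l t * ((dl t s : ℤ) : k) = 0 := by
    have e : ∀ t, l t * ((dl t s : ℤ) : k) =
        ∑ r : Fin 15, (l t * (((Mt.getD t []).getD r 0 : ℤ) : k)) * (((Gt.getD r []).getD s 0 : ℤ) : k) := by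
      intro t
      rw [dl_eq, Int.cast_sum, Finset.mul_sum]
      refine Finset.sum_congr rfl fun r _ => ?_
      rw [Int.cast_mul, mul_assoc]
    simp only [e]
    rw [Finset.sum_comm]
    refine Finset.sum_eq_zero fun r _ => ?_
    rw [← Finset.sum_mul, h1 r, zero_mul]
  simp only [h2, mul_ite, mul_one, mul_zero, Finset.sum_ite_eq', Finset.mem_univ, if_true] at h3
  simpa using h3

def nn (r : Fin 35) (i j : Fin 10) : ℤ := P345S82.sq (P r) i * P345S82.sq (P r) j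

instance bdec (B M : ℕ) : (l S : ℕ) → Decidable (P345Fast.bnd B M l S)
  | 0, _ => isTrue trivial
  | l + 1, S => @instDecidableAnd _ _ (Nat.decLt _ _) (bdec B M l (S / B))

theorem hlen : ∀ r ∈ P345M82.Lp, P345Fast.bnd P345M82.B 1000081 10 r := by
  decide +kernel

theorem hchar (k : Type) [Field k] [CharP k 1000081] (u v : Fin 10 → k) (l : Fin 15 → k)
    (h : ∀ r, ∑ i, ∑ j, (nn r i j : k) * u i * v j = ∑ t, l t * (mm t r : k)) :
    u = 0 ∨ v = 0 := by
  refine P345Fast.pf_char (p := 1000081) (n := 20) (k := 10) (by norm_num) P345M82.B 1000081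
    (by decide +kernel) (by decide +kernel) P345M82.Lp (by decide +kernel) hlen P345M82.chk u v ?_
  intro i
  have h1 := h (Fin.natAdd 15 i)
  have h2 : ∀ t, (mm t (Fin.natAdd 15 i) : k) = 0 := by
    intro t
    have := cast_eq (k := k) (a := mm t (Fin.natAdd 15 i)) (b := 0) (by simpa using chkV t i)
    simpa using this
  simp only [h2, mul_zero, Finset.sum_const_zero] at h1
  have h3 : ∀ j : Fin 10, ((P345M82.Lp.getD i 0 / P345M82.B ^ (j : ℕ) % P345M82.B : ℕ) : k) =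
      ((P345S82.sq (P (Fin.natAdd 15 i)) j : ℤ) : k) := by
    intro j
    have := cast_eq (k := k) (chkS i j)
    rw [Int.cast_natCast] at this
    rw [this]
    rfl
  simp only [h3]
  rw [← h1, Finset.sum_mul_sum]
  refine Finset.sum_congr rfl fun a _ => Finset.sum_congr rfl fun b _ => ?_
  simp only [nn]
  push_cast
  ring

theorem mm_cast (t : Fin 15) (r : Fin 35) : ((mm t r : ℤ) : ℂ) =
    ((Matrix.of (Aw Cd (fun j => ((P r j : ℤ) : ℂ)))).submatrix (T t) id).det := by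
  rw [← D4_sub]
  have e : ∀ x e, Aw Cd (fun j => ((P r j : ℤ) : ℂ)) x e = ((az r x e : ℤ) : ℂ) := by
    intro x e
    simp only [Aw, az, Fin.sum_univ_four]
    push_cast
    rfl
  simp only [mm, D4, e]
  push_cast
  rfl

theorem hPF (u v : Fin 10 → ℂ) (c : (Fin 6 × Fin 6) × (Fin 6 × Fin 6) → ℂ)
    (hc : ∀ p : Fin 10 × Fin 10, u p.1 * v p.2 = ∑ a, c a * (L Cd a.1 * K Cd a.2) p.2 p.1) :
    u = 0 ∨ v = 0 := by
  choose cf hcf using exists_coef
  refine P345.Van92.pf_lift_span 1000081 nn mm (fun k _ _ l h => ind k l h)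
    (fun k _ _ u v l h => hchar k u v l h) u v
    (fun t => ∑ a, c a * (cf ![a.2.1, a.2.2, a.1.1, a.1.2] t : ℂ)) ?_
  intro r
  have h1 := uv_eval (K Cd) (L Cd) u v c hc (P345S82.sq (fun j => ((P r j : ℤ) : ℂ)))
    (P345S82.sq (fun j => ((P r j : ℤ) : ℂ)))
  have h2 : ∑ i, ∑ j, (nn r i j : ℂ) * u i * v j =
      (∑ i, u i * P345S82.sq (fun j => ((P r j : ℤ) : ℂ)) i) *
        (∑ j, v j * P345S82.sq (fun j => ((P r j : ℤ) : ℂ)) j) := by
    rw [Finset.sum_mul_sum]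
    refine Finset.sum_congr rfl fun a _ => Finset.sum_congr rfl fun b _ => ?_
    simp only [nn, P345S82.sq]
    push_cast
    ring
  rw [h2, h1]
  have h4 : ∀ a : (Fin 6 × Fin 6) × (Fin 6 × Fin 6),
      (∑ i, ∑ j, P345S82.sq (fun j => ((P r j : ℤ) : ℂ)) i *
        P345S82.sq (fun j => ((P r j : ℤ) : ℂ)) j * (L Cd a.1 * K Cd a.2) j i) =
      ∑ t, (cf ![a.2.1, a.2.2, a.1.1, a.1.2] t : ℂ) * ((mm t r : ℤ) : ℂ) := by
    intro a
    rw [LK_eval, hcf _ ℂ]
    exact Finset.sum_congr rfl fun t _ => by rw [mm_cast]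
  have h5 : ∀ t, (∑ a : (Fin 6 × Fin 6) × (Fin 6 × Fin 6),
      c a * (cf ![a.2.1, a.2.2, a.1.1, a.1.2] t : ℂ)) * ((mm t r : ℤ) : ℂ) =
      ∑ a : (Fin 6 × Fin 6) × (Fin 6 × Fin 6),
        c a * ((cf ![a.2.1, a.2.2, a.1.1, a.1.2] t : ℂ) * ((mm t r : ℤ) : ℂ)) := by
    intro t
    rw [Finset.sum_mul]
    exact Finset.sum_congr rfl fun a _ => by ring
  simp only [h5]
  rw [Finset.sum_comm]
  refine Finset.sum_congr rfl fun a _ => ?_
  rw [h4 a, Finset.mul_sum]

theorem hne : ∃ j i, L Cd j * K Cd i ≠ 0 := by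
  refine ⟨(2, 3), (0, 1), fun h0 => ?_⟩
  have h := LK_eval Cd (2, 3) (0, 1) (fun j => ((P 3 j : ℤ) : ℂ))
  rw [h0] at h
  have h2 := mm_cast 0 3
  have h3 : mm 0 3 = 1 := by decide +kernel
  have e : (![(0 : Fin 6), 1, 2, 3] : Fin 4 → Fin 6) = T 0 := rfl
  simp only [Matrix.zero_apply, mul_zero, Finset.sum_const_zero] at h
  rw [e, ← h2, h3] at h
  norm_num at h

end Crest.Agent.P345H82
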