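import Crest.Agent.P345.Inst29
import Crest.Agent.P345Mds10

set_option autoImplicit false

namespace Crest.Agent.P345Hk10

open Crest.Agent.P345D29 Crest.Agent.P345A29

theorem hk : HK := by
  intro k _ _ u v h
  refine Crest.Agent.P345Mds10.hmds_of
    (fun i a => w i (Crest.Agent.P345HK34.ma a) * w i (Crest.Agent.P345HK34.mb a)) id
    (by decide +kernel) k u v fun i => ?_
  exact h i

end Crest.Agent.P345Hk10
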