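import Crest.Agent.P345Val79

set_option autoImplicit false

namespace Crest.Agent.P345Ind63
open Crest.Agent.P345Val79

/-- product-freeness of a space spanned by finitely many integral forms whose reductions mod `p` are
independent: `(u·x_k)(v·x_k) = Σ_U c_U M k U` at the points `x_k`. -/
theorem val_ind (p : ℕ) [hp : Fact p.Prime] {I U κ ν : Type*} [Fintype I] [Fintype U] [Fintype κ]
    (X : κ → I → ℤ) (M : κ → U → ℤ) (N : U → κ → ℤ) [DecidableEq U]
    (hN : ∀ a b, ((∑ k, N a k * M k b : ℤ) : ZMod p) = if a = b then 1 else 0)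
    (Y : ν → I → ℤ) (m : ν → U → ℤ) (hm : ∀ i a, ((m i a : ℤ) : ZMod p) = 0)
    (H : ∀ (k : Type) [Field k] [CharP k p] (u v : I → k),
      (∀ i, (∑ s, u s * (Y i s : k)) * (∑ s, v s * (Y i s : k)) = 0) → u = 0 ∨ v = 0)
    (u v : I → ℂ) (c : U → ℂ)
    (h1 : ∀ k, (∑ s, u s * (X k s : ℂ)) * (∑ s, v s * (X k s : ℂ)) = ∑ a, c a * (M k a : ℂ))
    (h2 : ∀ i, (∑ s, u s * (Y i s : ℂ)) * (∑ s, v s * (Y i s : ℂ)) = ∑ a, c a * (m i a : ℂ)) :
    u = 0 ∨ v = 0 := by
  classical
  by_contra hcon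
  push Not at hcon
  obtain ⟨hu, hv⟩ := hcon
  obtain ⟨B, hB⟩ := exists_val p
  obtain ⟨i0, hi0, hui⟩ := scale B u hu
  obtain ⟨j0, hj0, hvj⟩ := scale B v hv
  let k := IsLocalRing.ResidueField B
  let π : B →+* k := IsLocalRing.residue B
  have hpk : (p : k) = 0 := by
    have h1 : (p : B) ∈ IsLocalRing.maximalIdeal B := by
      rw [ValuationSubring.mem_nonunits_iff_exists_mem_maximalIdeal] at hB
      obtain ⟨h2, h3⟩ := hB
      exact h3
    have h4 : π (p : B) = 0 := (IsLocalRing.residue_eq_zero_iff _).2 h1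
    rwa [map_natCast] at h4
  haveI : CharP k p := by
    have := CharP.exists k
    obtain ⟨q, hq⟩ := this
    have h1 : q ∣ p := (CharP.cast_eq_zero_iff k q p).1 hpk
    rcases (Nat.dvd_prime hp.out).1 h1 with h2 | h2
    · exfalso
      rw [h2] at hq
      have h5 : ((1 : ℕ) : k) = 0 := (CharP.cast_eq_zero_iff k 1 1).2 (dvd_refl 1)
      rw [Nat.cast_one] at h5
      exact one_ne_zero h5
    · rwa [h2] at hq
  let φ : ZMod p →+* k := ZMod.castHom (dvd_refl p) k
  let uu : I → B := fun i => ⟨u i / u i0, hui i⟩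
  let vv : I → B := fun j => ⟨v j / v j0, hvj j⟩
  -- rescaled coefficients
  let d : U → ℂ := fun a => c a / (u i0 * v j0)
  have e1 : ∀ k, (∑ s, (u s / u i0) * (X k s : ℂ)) * (∑ s, (v s / v j0) * (X k s : ℂ))
      = ∑ a, d a * (M k a : ℂ) := by
    intro k
    have ha : (∑ s, (u s / u i0) * (X k s : ℂ)) = (∑ s, u s * (X k s : ℂ)) / u i0 := by
      rw [Finset.sum_div]; exact Finset.sum_congr rfl fun s _ => by ring
    have hb : (∑ s, (v s / v j0) * (X k s : ℂ)) = (∑ s, v s * (X k s : ℂ)) / v j0 := by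
      rw [Finset.sum_div]; exact Finset.sum_congr rfl fun s _ => by ring
    have hc : ∑ a, d a * (M k a : ℂ) = (∑ a, c a * (M k a : ℂ)) / (u i0 * v j0) := by
      rw [Finset.sum_div]; exact Finset.sum_congr rfl fun s _ => by simp only [d]; ring
    rw [ha, hb, hc, ← h1 k]
    rw [div_mul_div_comm]
  have e2 : ∀ i, (∑ s, (u s / u i0) * (Y i s : ℂ)) * (∑ s, (v s / v j0) * (Y i s : ℂ))
      = ∑ a, d a * (m i a : ℂ) := by
    intro k
    have ha : (∑ s, (u s / u i0) * (Y k s : ℂ)) = (∑ s, u s * (Y k s : ℂ)) / u i0 := by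
      rw [Finset.sum_div]; exact Finset.sum_congr rfl fun s _ => by ring
    have hb : (∑ s, (v s / v j0) * (Y k s : ℂ)) = (∑ s, v s * (Y k s : ℂ)) / v j0 := by
      rw [Finset.sum_div]; exact Finset.sum_congr rfl fun s _ => by ring
    have hc : ∑ a, d a * (m k a : ℂ) = (∑ a, c a * (m k a : ℂ)) / (u i0 * v j0) := by
      rw [Finset.sum_div]; exact Finset.sum_congr rfl fun s _ => by simp only [d]; ring
    rw [ha, hb, hc, ← h2 k]
    rw [div_mul_div_comm]
  -- the `d a` lie in `B`
  have hd : ∀ a, d a ∈ B := by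
    by_contra hcon
    push Not at hcon
    obtain ⟨a1, ha1⟩ := hcon
    have hd0 : d ≠ 0 := by
      intro h
      apply ha1
      rw [h]
      exact B.zero_mem
    obtain ⟨a0, ha0, hda⟩ := scale B d hd0
    -- `d a0 ∉ B`
    have hn : d a0 ∉ B := by
      intro h
      apply ha1
      have : d a1 = (d a1 / d a0) * d a0 := by field_simp
      rw [this]
      exact B.mul_mem _ _ (hda a1) h
    have hinv : (d a0)⁻¹ ∈ B := (B.mem_or_inv_mem (d a0)).resolve_left hn
    let ε : B := ⟨(d a0)⁻¹, hinv⟩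
    have hε : π ε = 0 := by
      rw [IsLocalRing.residue_eq_zero_iff, IsLocalRing.mem_maximalIdeal, mem_nonunits_iff]
      intro hunit
      apply hn
      obtain ⟨w, hw⟩ := hunit.exists_right_inv
      have h3 : (d a0)⁻¹ * (w : ℂ) = 1 := congrArg Subtype.val hw
      have h4 : (w : ℂ) = d a0 := by
        have : d a0 * ((d a0)⁻¹ * (w : ℂ)) = d a0 * 1 := by rw [h3]
        rw [← mul_assoc, mul_inv_cancel₀ ha0, one_mul, mul_one] at this
        exact this
      rw [← h4]
      exact w.2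
    let dd : U → B := fun a => ⟨d a / d a0, hda a⟩
    have e3 : ∀ k, ε * ((∑ s, uu s * (X k s : B)) * (∑ s, vv s * (X k s : B)))
        = ∑ a, dd a * (M k a : B) := by
      intro k
      apply Subtype.val_injective
      have h3 : ((ε * ((∑ s, uu s * (X k s : B)) * (∑ s, vv s * (X k s : B))) : B) : ℂ)
          = (d a0)⁻¹ * ((∑ s, (u s / u i0) * (X k s : ℂ)) * (∑ s, (v s / v j0) * (X k s : ℂ))) := by
        push_cast
        rfl
      have h4 : ((∑ a, dd a * (M k a : B) : B) : ℂ) = ∑ a, (d a / d a0) * (M k a : ℂ) := by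
        push_cast
        rfl
      show ((ε * ((∑ s, uu s * (X k s : B)) * (∑ s, vv s * (X k s : B))) : B) : ℂ)
        = ((∑ a, dd a * (M k a : B) : B) : ℂ)
      rw [h3, h4, e1 k, Finset.mul_sum]
      exact Finset.sum_congr rfl fun a _ => by ring
    have e4 : ∀ k, ∑ a, π (dd a) * φ ((M k a : ℤ) : ZMod p) = 0 := by
      intro k
      have h3 := congrArg π (e3 k)
      rw [map_mul, hε, zero_mul, map_sum] at h3
      rw [h3]
      exact Finset.sum_congr rfl fun a _ => by rw [map_mul, map_intCast, map_intCast]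
    have e5 : π (dd a0) = 0 := by
      have h3 : ∑ k, φ ((N a0 k : ℤ) : ZMod p) * ∑ a, π (dd a) * φ ((M k a : ℤ) : ZMod p) = 0 := by
        simp only [e4, mul_zero, Finset.sum_const_zero]
      have h4 : ∑ k, φ ((N a0 k : ℤ) : ZMod p) * ∑ a, π (dd a) * φ ((M k a : ℤ) : ZMod p)
          = ∑ a, π (dd a) * φ (((∑ k, N a0 k * M k a : ℤ)) : ZMod p) := by
        calc _ = ∑ k, ∑ a, φ ((N a0 k : ℤ) : ZMod p) * (π (dd a) * φ ((M k a : ℤ) : ZMod p)) :=
              Finset.sum_congr rfl fun k _ => Finset.mul_sum _ _ _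
          _ = ∑ a, ∑ k, φ ((N a0 k : ℤ) : ZMod p) * (π (dd a) * φ ((M k a : ℤ) : ZMod p)) :=
              Finset.sum_comm
          _ = _ := by
              refine Finset.sum_congr rfl fun a _ => ?_
              rw [Int.cast_sum, map_sum, Finset.mul_sum]
              refine Finset.sum_congr rfl fun k _ => ?_
              rw [Int.cast_mul, map_mul]
              ring
      rw [h4] at h3
      simp only [hN, apply_ite φ, map_one, map_zero, mul_ite, mul_one, mul_zero,
        Finset.sum_ite_eq, Finset.mem_univ, if_true] at h3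
      exact h3
    have h6 : dd a0 = 1 := Subtype.ext (div_self ha0)
    rw [h6, map_one] at e5
    exact one_ne_zero e5
  let dd : U → B := fun a => ⟨d a, hd a⟩
  have e6 : ∀ i, (∑ s, π (uu s) * ((Y i s : ℤ) : k)) * (∑ s, π (vv s) * ((Y i s : ℤ) : k)) = 0 := by
    intro i
    have h3 : (∑ s, uu s * (Y i s : B)) * (∑ s, vv s * (Y i s : B)) = ∑ a, dd a * (m i a : B) := by
      apply Subtype.val_injective
      have h4 : (((∑ s, uu s * (Y i s : B)) * (∑ s, vv s * (Y i s : B)) : B) : ℂ)
          = (∑ s, (u s / u i0) * (Y i s : ℂ)) * (∑ s, (v s / v j0) * (Y i s : ℂ)) := by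
        push_cast
        rfl
      have h5 : ((∑ a, dd a * (m i a : B) : B) : ℂ) = ∑ a, d a * (m i a : ℂ) := by
        push_cast
        rfl
      show (((∑ s, uu s * (Y i s : B)) * (∑ s, vv s * (Y i s : B)) : B) : ℂ)
        = ((∑ a, dd a * (m i a : B) : B) : ℂ)
      rw [h4, h5, e2 i]
    have h4 := congrArg π h3
    rw [map_mul, map_sum, map_sum, map_sum] at h4
    have h5 : ∀ a, π (dd a * (m i a : B)) = 0 := by
      intro a
      rw [map_mul, map_intCast]
      have : ((m i a : ℤ) : k) = φ ((m i a : ℤ) : ZMod p) := by rw [map_intCast]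
      rw [this, hm, map_zero, mul_zero]
    simp only [h5, Finset.sum_const_zero, map_mul, map_intCast] at h4
    exact h4
  rcases H k (fun i => π (uu i)) (fun j => π (vv j)) e6 with h1 | h1
  · have h2 := congrFun h1 i0
    have h3 : uu i0 = 1 := Subtype.ext (div_self hi0)
    simp only [h3, map_one, Pi.zero_apply] at h2
    exact one_ne_zero h2
  · have h2 := congrFun h1 j0
    have h3 : vv j0 = 1 := Subtype.ext (div_self hj0)
    simp only [h3, map_one, Pi.zero_apply] at h2
    exact one_ne_zero h2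

end Crest.Agent.P345Ind63
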