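import Crest.Agent.P345Fast

set_option autoImplicit false

/-! Joining chunks of the packed check, to keep kernel memory small. -/

namespace Crest.Agent.P345Join

open Crest.Agent.P345Fast

theorem join (p B n k' R a : ℕ) (L' M : List ℕ) (ha : R % B % p = a) (ha0 : Nat.beq a 0 = false)
    (hM : mapK (step p B a (R / B)) L' (fun t => decide (t = M)) = true)
    (h1 : checkP p B n (k' + 1) M = true) (h2 : checkP p B n (k' + 2) L' = true) :
    checkP p B (n + 1) (k' + 2) (R :: L') = true := by
  rw [mapK_eq, decide_eq_true_eq] at hM
  rw [checkP_succ]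
  unfold bodyK
  cases hb : Nat.blt (n + 1) (k' + 2)
  · simp only [force_eq, mapK_eq, ha, ha0, hM, h1, h2, band]
  · rfl

end Crest.Agent.P345Join
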