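import Crest.Agent.P345HK34


set_option autoImplicit false
set_option maxHeartbeats 1000000

/-! Row 345: the composite Kraus matrices `L_j K_i` restrict to `±` the `4 x 4` minors of the pencil. -/

namespace Crest.Agent.P345Lap34

open Matrix Crest.Agent.P345Red Crest.Agent.P345HK34

def E2 (C : Fin 4 → Fin 6 → Fin 4 → ℤ) (r s : Fin 6) (k l a b : Fin 4) : ℤ :=
  C a r k * C b s l - C a r l * C b s k

theorem entry_eq (C : Fin 4 → Fin 6 → Fin 4 → ℤ) (r s : Fin 6) (k l a b : Fin 4) :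
    entry C r s k l a b = E2 C r s k l a b + (if a = b then 0 else E2 C r s k l b a) := rfl

theorem sum_mon {X : Type*} [AddCommGroup X] (F : Fin 4 → Fin 4 → X) :
    ∑ s : Fin 10, (F (ma s) (mb s) + (if ma s = mb s then 0 else F (mb s) (ma s)))
      = ∑ a, ∑ b, F a b := by
  simp [Fin.sum_univ_succ, ma, mb]
  abel

/-- `det` of four vectors by the Laplace expansion along the first two rows -/
def det4 (v1 v2 v3 v4 : Fin 4 → ℤ) : ℤ :=
  ∑ x : Fin 10, sg x * ((v1 (pk (co x)) * v2 (pl (co x)) - v1 (pl (co x)) * v2 (pk (co x))) *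
    (v3 (pk x) * v4 (pl x) - v3 (pl x) * v4 (pk x)))

theorem det4_12 (v1 v2 v3 v4 : Fin 4 → ℤ) : det4 v2 v1 v3 v4 = - det4 v1 v2 v3 v4 := by
  simp [det4, Fin.sum_univ_succ, pk, pl, co, sg]
  ring

theorem det4_23 (v1 v2 v3 v4 : Fin 4 → ℤ) : det4 v1 v3 v2 v4 = - det4 v1 v2 v3 v4 := by
  simp [det4, Fin.sum_univ_succ, pk, pl, co, sg]
  ring

theorem det4_34 (v1 v2 v3 v4 : Fin 4 → ℤ) : det4 v1 v2 v4 v3 = - det4 v1 v2 v3 v4 := by
  simp [det4, Fin.sum_univ_succ, pk, pl, co, sg]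
  ring

/-- the coefficient vector of the `4 x 4` minor with rows `r1 s1 r2 s2` -/
def D {Q : ℕ} (mon : Fin 4 → Fin 4 → Fin 4 → Fin 4 → Fin Q) (C : Fin 4 → Fin 6 → Fin 4 → ℤ)
    (r1 s1 r2 s2 : Fin 6) (q : Fin Q) : ℤ :=
  ∑ a, ∑ b, ∑ c, ∑ d, if mon a b c d = q then det4 (C a r1) (C b s1) (C c r2) (C d s2) else 0

section
variable {Q : ℕ} (mon : Fin 4 → Fin 4 → Fin 4 → Fin 4 → Fin Q) (C : Fin 4 → Fin 6 → Fin 4 → ℤ)
  (h12 : ∀ a b c d, mon b a c d = mon a b c d) (h23 : ∀ a b c d, mon a c b d = mon a b c d)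
  (h34 : ∀ a b c d, mon a b d c = mon a b c d)

include h12 in
theorem D12 (r1 s1 r2 s2 : Fin 6) (q : Fin Q) :
    D mon C s1 r1 r2 s2 q = - D mon C r1 s1 r2 s2 q := by
  unfold D
  rw [Finset.sum_comm]
  simp only [← Finset.sum_neg_distrib]
  refine Finset.sum_congr rfl fun a _ => Finset.sum_congr rfl fun b _ =>
    Finset.sum_congr rfl fun c _ => Finset.sum_congr rfl fun d _ => ?_
  rw [h12 a b c d, det4_12]
  split_ifs <;> simp

include h23 in
theorem D23 (r1 s1 r2 s2 : Fin 6) (q : Fin Q) :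
    D mon C r1 r2 s1 s2 q = - D mon C r1 s1 r2 s2 q := by
  unfold D
  simp only [← Finset.sum_neg_distrib]
  refine Finset.sum_congr rfl fun a _ => ?_
  rw [Finset.sum_comm]
  refine Finset.sum_congr rfl fun b _ =>
    Finset.sum_congr rfl fun c _ => Finset.sum_congr rfl fun d _ => ?_
  rw [h23 a b c d, det4_23]
  split_ifs <;> simp

include h34 in
theorem D34 (r1 s1 r2 s2 : Fin 6) (q : Fin Q) :
    D mon C r1 s1 s2 r2 q = - D mon C r1 s1 r2 s2 q := by
  unfold D
  simp only [← Finset.sum_neg_distrib]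
  refine Finset.sum_congr rfl fun a _ => Finset.sum_congr rfl fun b _ => ?_
  rw [Finset.sum_comm]
  refine Finset.sum_congr rfl fun c _ => Finset.sum_congr rfl fun d _ => ?_
  rw [h34 a b c d, det4_34]
  split_ifs <;> simp

def U : Fin 15 → Fin 6 × Fin 6 × Fin 6 × Fin 6 :=
  ![(0,1,2,3), (0,1,2,4), (0,1,2,5), (0,1,3,4), (0,1,3,5), (0,1,4,5), (0,2,3,4), (0,2,3,5),
    (0,2,4,5), (0,3,4,5), (1,2,3,4), (1,2,3,5), (1,2,4,5), (1,3,4,5), (2,3,4,5)]

/-- the 15 maximal minors (coefficient vectors) -/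
def mU (k : Fin 15) (q : Fin Q) : ℤ := D mon C (U k).1 (U k).2.1 (U k).2.2.1 (U k).2.2.2 q

def PP (r1 r2 r3 r4 : Fin 6) : Prop :=
  ∃ c : Fin 15 → ℤ, ∀ q, D mon C r1 r2 r3 r4 q = ∑ k, c k * mU mon C k q

include h12 in
theorem PP12 {r1 r2 r3 r4 : Fin 6} (h : PP mon C r2 r1 r3 r4) : PP mon C r1 r2 r3 r4 := by
  obtain ⟨c, hc⟩ := h
  refine ⟨fun k => - c k, fun q => ?_⟩
  rw [D12 mon C h12, hc q, ← Finset.sum_neg_distrib]
  exact Finset.sum_congr rfl fun _ _ => by ring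

include h23 in
theorem PP23 {r1 r2 r3 r4 : Fin 6} (h : PP mon C r1 r3 r2 r4) : PP mon C r1 r2 r3 r4 := by
  obtain ⟨c, hc⟩ := h
  refine ⟨fun k => - c k, fun q => ?_⟩
  rw [D23 mon C h23, hc q, ← Finset.sum_neg_distrib]
  exact Finset.sum_congr rfl fun _ _ => by ring

include h34 in
theorem PP34 {r1 r2 r3 r4 : Fin 6} (h : PP mon C r1 r2 r4 r3) : PP mon C r1 r2 r3 r4 := by
  obtain ⟨c, hc⟩ := h
  refine ⟨fun k => - c k, fun q => ?_⟩
  rw [D34 mon C h34, hc q, ← Finset.sum_neg_distrib]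
  exact Finset.sum_congr rfl fun _ _ => by ring

theorem U_surj : ∀ r1 r2 r3 r4 : Fin 6, r1 < r2 → r2 < r3 → r3 < r4 →
    ∃ k, U k = (r1, r2, r3, r4) := by decide +kernel

include h12 h23 h34 in
theorem PPsorted {r1 r2 r3 r4 : Fin 6} (a : r1 ≤ r2) (b : r2 ≤ r3) (c : r3 ≤ r4) :
    PP mon C r1 r2 r3 r4 := by
  rcases eq_or_lt_of_le a with rfl | a
  · refine ⟨fun _ => 0, fun q => ?_⟩
    have := D12 mon C h12 r1 r1 r3 r4 q
    simp only [zero_mul, Finset.sum_const_zero]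
    omega
  rcases eq_or_lt_of_le b with rfl | b
  · refine ⟨fun _ => 0, fun q => ?_⟩
    have := D23 mon C h23 r1 r2 r2 r4 q
    simp only [zero_mul, Finset.sum_const_zero]
    omega
  rcases eq_or_lt_of_le c with rfl | c
  · refine ⟨fun _ => 0, fun q => ?_⟩
    have := D34 mon C h34 r1 r2 r3 r3 q
    simp only [zero_mul, Finset.sum_const_zero]
    omega
  obtain ⟨k, hk⟩ := U_surj r1 r2 r3 r4 a b c
  refine ⟨fun k' => if k' = k then 1 else 0, fun q => ?_⟩
  simp only [ite_mul, one_mul, zero_mul, Finset.sum_ite_eq', Finset.mem_univ, if_true]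
  rw [mU, hk]

include h12 h23 h34 in
theorem PPa {r1 r2 r3 : Fin 6} (r4 : Fin 6) (a : r1 ≤ r2) (b : r2 ≤ r3) :
    PP mon C r1 r2 r3 r4 := by
  rcases le_total r3 r4 with h | h
  · exact PPsorted mon C h12 h23 h34 a b h
  refine PP34 mon C h34 ?_
  rcases le_total r2 r4 with h' | h'
  · exact PPsorted mon C h12 h23 h34 a h' h
  refine PP23 mon C h23 ?_
  rcases le_total r1 r4 with h'' | h''
  · exact PPsorted mon C h12 h23 h34 h'' h' b
  exact PP12 mon C h12 (PPsorted mon C h12 h23 h34 h'' a b)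

include h12 h23 h34 in
theorem PPb {r1 r2 : Fin 6} (r3 r4 : Fin 6) (a : r1 ≤ r2) : PP mon C r1 r2 r3 r4 := by
  rcases le_total r2 r3 with h | h
  · exact PPa mon C h12 h23 h34 r4 a h
  refine PP23 mon C h23 ?_
  rcases le_total r1 r3 with h' | h'
  · exact PPa mon C h12 h23 h34 r4 h' h
  exact PP12 mon C h12 (PPa mon C h12 h23 h34 r4 h' a)

include h12 h23 h34 in
theorem PPall (r1 r2 r3 r4 : Fin 6) : PP mon C r1 r2 r3 r4 := by
  rcases le_total r1 r2 with h | h
  · exact PPb mon C h12 h23 h34 r3 r4 h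
  exact PP12 mon C h12 (PPb mon C h12 h23 h34 r3 r4 h)

include h12 h34 in
/-- the quartic image of `L_j K_i` -/
theorem quart (idx : Fin 10 → Fin 10 → Fin Q)
    (hidx : ∀ s t, idx s t = mon (ma s) (mb s) (ma t) (mb t)) (j i : Fin 6 × Fin 6) (q : Fin Q) :
    ∑ s, ∑ t, (if idx s t = q then ∑ x, Lz C j s x * Kz C i x t else 0)
      = D mon C j.1 j.2 i.1 i.2 q := by
  have e0 : ∑ s, ∑ t, (if idx s t = q then ∑ x, Lz C j s x * Kz C i x t else 0)
      = ∑ x, ∑ s, ∑ t, (if idx s t = q then Lz C j s x * Kz C i x t else 0) := by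
    have a1 : ∀ s t, (if idx s t = q then ∑ x, Lz C j s x * Kz C i x t else 0)
        = ∑ x, (if idx s t = q then Lz C j s x * Kz C i x t else 0) := by
      intro s t
      split_ifs <;> simp
    simp only [a1]
    rw [Finset.sum_comm_cycle]
  have e1 : ∀ x, ∑ s, ∑ t, (if idx s t = q then Lz C j s x * Kz C i x t else 0)
      = ∑ a, ∑ b, ∑ c, ∑ d, (if mon a b c d = q then
        sg x * (E2 C j.1 j.2 (pk (co x)) (pl (co x)) a b * E2 C i.1 i.2 (pk x) (pl x) c d) else 0) := by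
    intro x
    let F : Fin 4 → Fin 4 → Fin 4 → Fin 4 → ℤ := fun a b c d => if mon a b c d = q then
        sg x * (E2 C j.1 j.2 (pk (co x)) (pl (co x)) a b * E2 C i.1 i.2 (pk x) (pl x) c d) else 0
    have b1 : ∀ a b, ∑ c, ∑ d, F a b c d
        = ∑ t : Fin 10, (F a b (ma t) (mb t) + (if ma t = mb t then 0 else F a b (mb t) (ma t))) :=
      fun a b => (sum_mon (F a b)).symm
    change _ = ∑ a, ∑ b, ∑ c, ∑ d, F a b c d
    simp only [b1]
    rw [← sum_mon (fun a b => ∑ t : Fin 10,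
      (F a b (ma t) (mb t) + (if ma t = mb t then 0 else F a b (mb t) (ma t))))]
    refine Finset.sum_congr rfl fun s _ => ?_
    have b2 : (if ma s = mb s then (0 : ℤ) else ∑ t : Fin 10, (F (mb s) (ma s) (ma t) (mb t)
        + (if ma t = mb t then 0 else F (mb s) (ma s) (mb t) (ma t))))
        = ∑ t : Fin 10, (if ma s = mb s then (0 : ℤ) else (F (mb s) (ma s) (ma t) (mb t)
        + (if ma t = mb t then 0 else F (mb s) (ma s) (mb t) (ma t)))) := by
      split_ifs <;> simp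
    rw [b2, ← Finset.sum_add_distrib]
    refine Finset.sum_congr rfl fun t _ => ?_
    rw [hidx s t]
    simp only [F, Lz, Kz, entry_eq, h12 (ma s) (mb s), h34 (ma s) (mb s) (ma t) (mb t)]
    by_cases c0 : mon (ma s) (mb s) (ma t) (mb t) = q
    · by_cases c1 : ma s = mb s
      · by_cases c2 : ma t = mb t
        · simp only [if_pos c0, if_pos c1, if_pos c2]; ring
        · simp only [if_pos c0, if_pos c1, if_neg c2]; ring
      · by_cases c2 : ma t = mb t
        · simp only [if_pos c0, if_neg c1, if_pos c2]; ring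
        · simp only [if_pos c0, if_neg c1, if_neg c2]; ring
    · simp only [if_neg c0]
      split_ifs <;> simp
  rw [e0]
  simp only [e1]
  unfold D
  rw [Finset.sum_comm]
  refine Finset.sum_congr rfl fun a _ => ?_
  rw [Finset.sum_comm]
  refine Finset.sum_congr rfl fun b _ => ?_
  rw [Finset.sum_comm]
  refine Finset.sum_congr rfl fun c _ => ?_
  rw [Finset.sum_comm]
  refine Finset.sum_congr rfl fun d _ => ?_
  by_cases c0 : mon a b c d = q
  · simp only [if_pos c0]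
    unfold det4 E2
    exact Finset.sum_congr rfl fun x _ => by ring
  · simp only [if_neg c0]
    simp

include h12 h23 h34 in
/-- `hk` of `rel_pair` -/
theorem hk (idx : Fin 10 → Fin 10 → Fin Q)
    (hidx : ∀ s t, idx s t = mon (ma s) (mb s) (ma t) (mb t)) (j i : Fin 6 × Fin 6) :
    ∃ c : Fin 15 → ℂ, ∀ q, ∑ s, ∑ t, (if idx s t = q then (L C j * K C i) s t else 0)
      = ∑ k, c k * ((mU mon C k q : ℤ) : ℂ) := by
  obtain ⟨c, hc⟩ := PPall mon C h12 h23 h34 j.1 j.2 i.1 i.2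
  refine ⟨fun k => ((c k : ℤ) : ℂ), fun q => ?_⟩
  have h1 := hc q
  rw [← quart mon C h12 h34 idx hidx j i q] at h1
  have h2 := congrArg (fun z : ℤ => (z : ℂ)) h1
  have h3 : ∀ s t, (L C j * K C i) s t = ((∑ x, Lz C j s x * Kz C i x t : ℤ) : ℂ) := by
    intro s t
    rw [Matrix.mul_apply]
    push_cast
    rfl
  simp only [h3]
  push_cast at h2 ⊢
  exact h2

end

end Crest.Agent.P345Lap34
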