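import Mathlib
import Crest.Agent.P345Val

set_option autoImplicit false
set_option maxHeartbeats 400000

namespace Crest.Agent.P345Q52

open Crest.Agent.P345Val

/-- Lift of "no product `u ⊗ v` lies in the span of the `M s`" from characteristic `p` to `ℂ`. -/
theorem quart_lift (p : ℕ) [Fact p.Prime] {m : ℕ} {X : Type*} (T : X → Fin 10 × Fin 10 → ℤ)
    (M : Fin m → X → ℤ)
    (hind : ∀ (k : Type) [Field k] [CharP k p] (g : Fin m → k),
      (∀ x, ∑ s, g s * (M s x : k) = 0) → g = 0)
    (h : ∀ (k : Type) [Field k] [CharP k p] (u v : Fin 10 → k) (g : Fin m → k),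
      (∀ x, ∑ q : Fin 10 × Fin 10, (T x q : k) * (u q.1 * v q.2) = ∑ s, g s * (M s x : k)) →
      u = 0 ∨ v = 0)
    (u v : Fin 10 → ℂ) (g : Fin m → ℂ)
    (hg : ∀ x, ∑ q : Fin 10 × Fin 10, (T x q : ℂ) * (u q.1 * v q.2) = ∑ s, g s * (M s x : ℂ)) :
    u = 0 ∨ v = 0 := by
  classical
  by_contra hne
  push Not at hne
  obtain ⟨hu, hv⟩ := hne
  obtain ⟨O, hO⟩ := exists_val p
  obtain ⟨cu, u', i₀, hcu, hu', hi₀⟩ := exists_scale O u hu
  obtain ⟨cv, v', j₀, hcv, hv', hj₀⟩ := exists_scale O v hv
  let k := IsLocalRing.ResidueField O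
  let res : O →+* k := IsLocalRing.residue O
  have hpO : (p : k) = 0 := by
    have h1 : ((p : O) : ℂ) ∈ O.nonunits := by simpa using hO
    have h2 : (p : O) ∈ IsLocalRing.maximalIdeal O := by
      rw [← ValuationSubring.coe_mem_nonunits_iff]
      exact h1
    have h3 : res (p : O) = 0 := (IsLocalRing.residue_eq_zero_iff _).mpr h2
    simpa using h3
  have hchar : CharP k p := by
    have hp := (Fact.out : p.Prime)
    exact ringChar.of_eq (CharP.ringChar_of_prime_eq_zero hp hpO)
  -- scaled relation
  let S : X → O := fun x => ∑ q : Fin 10 × Fin 10, ((T x q : ℤ) : O) * (u' q.1 * v' q.2)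
  let c : Fin m → ℂ := fun s => g s / (cu * cv)
  have hrel : ∀ x, ((S x : O) : ℂ) = ∑ s, c s * (M s x : ℂ) := by
    intro x
    have h1 := hg x
    have h2 : ∑ q : Fin 10 × Fin 10, (T x q : ℂ) * (u q.1 * v q.2)
        = (cu * cv) * ((S x : O) : ℂ) := by
      simp only [S]
      push_cast
      rw [Finset.mul_sum]
      refine Finset.sum_congr rfl fun q _ => ?_
      rw [hu' q.1, hv' q.2]
      ring
    have hcc : cu * cv ≠ 0 := mul_ne_zero hcu hcv
    have h3 : ((S x : O) : ℂ) = (∑ s, g s * (M s x : ℂ)) / (cu * cv) := by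
      rw [← h1, h2]; field_simp
    rw [h3, Finset.sum_div]
    refine Finset.sum_congr rfl fun s _ => ?_
    simp only [c]
    ring
  -- all `c s` are in `O`
  have hcO : ∀ s, c s ∈ O := by
    by_contra hcon
    push Not at hcon
    obtain ⟨s1, hs1⟩ := hcon
    have : Nonempty (Fin m) := ⟨s1⟩
    obtain ⟨s₀, hs₀⟩ := Finite.exists_max (fun s => O.valuation (c s))
    have hbig : 1 < O.valuation (c s₀) := by
      refine lt_of_lt_of_le ?_ (hs₀ s1)
      rw [← not_le, ValuationSubring.valuation_le_one_iff]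
      exact hs1
    have h0 : c s₀ ≠ 0 := by
      intro hh
      rw [hh, map_zero] at hbig
      exact absurd hbig (not_lt.mpr zero_le)
    have hmem : ∀ s, c s / c s₀ ∈ O := by
      intro s
      rw [← ValuationSubring.valuation_le_one_iff, map_div₀]
      exact div_le_one_of_le₀ (hs₀ s) zero_le
    have hinv : O.valuation ((c s₀)⁻¹) < 1 := by
      rw [map_inv₀]
      exact inv_lt_one_of_one_lt₀ hbig
    have hinvO : (c s₀)⁻¹ ∈ O := by
      rw [← ValuationSubring.valuation_le_one_iff]
      exact hinv.le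
    let d : Fin m → O := fun s => ⟨c s / c s₀, hmem s⟩
    let e : O := ⟨(c s₀)⁻¹, hinvO⟩
    have hres_e : res e = 0 := by
      refine (IsLocalRing.residue_eq_zero_iff _).mpr ?_
      rw [← ValuationSubring.coe_mem_nonunits_iff, ValuationSubring.mem_nonunits_iff]
      exact hinv
    have hde : ∀ x, ∑ s, d s * ((M s x : ℤ) : O) = e * S x := by
      intro x
      apply Subtype.ext
      push_cast
      rw [hrel x, Finset.mul_sum]
      refine Finset.sum_congr rfl fun s _ => ?_
      show c s / c s₀ * (M s x : ℂ) = (c s₀)⁻¹ * (c s * (M s x : ℂ))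
      ring
    have hz := hind k (fun s => res (d s)) (by
      intro x
      have h1 := congrArg res (hde x)
      rw [map_mul, hres_e, zero_mul] at h1
      simpa [map_sum, map_mul] using h1)
    have h1 := congrFun hz s₀
    have h2 : d s₀ = 1 := Subtype.ext (div_self h0)
    simp only [h2, map_one, Pi.zero_apply] at h1
    exact one_ne_zero h1
  have hk := h k (fun i => res (u' i)) (fun j => res (v' j)) (fun s => res ⟨c s, hcO s⟩) (by
    intro x
    have h1 : S x = ∑ s, (⟨c s, hcO s⟩ : O) * ((M s x : ℤ) : O) := by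
      apply Subtype.ext
      rw [hrel x]
      push_cast
      rfl
    have h2 := congrArg res h1
    simpa [S, map_sum, map_mul] using h2)
  rcases hk with hk | hk
  · have := congrFun hk i₀
    simp only [hi₀, map_one, Pi.zero_apply] at this
    exact one_ne_zero this
  · have := congrFun hk j₀
    simp only [hj₀, map_one, Pi.zero_apply] at this
    exact one_ne_zero this

end Crest.Agent.P345Q52
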