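import Mathlib

/-! Row 345 (helper67): robust (archimedean) version of the uniform matroid certificate.
All numbers are integers; `u` is a complex vector with entries of norm at most one. -/

set_option autoImplicit false

namespace Crest.Agent.P345Rob

def comb (h d0 : ℤ) : List ℤ → List ℤ → List ℤ
  | a :: as, b :: bs => ((h * b - d0 * a) / h) :: comb h d0 as bs
  | _, _ => []

def elim : List ℤ → List ℤ → List ℤ
  | h :: as, d0 :: bs => comb h d0 as bs
  | _, _ => []

def hd : List ℤ → ℤ
  | [] => 0
  | a :: _ => a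

/-- all entries of the list have absolute value at most `b` -/
def bd (b : ℕ) : List ℤ → Bool
  | [] => true
  | a :: as => Nat.ble a.natAbs b && bd b as

/-- all heads have absolute value at most `b` -/
def bh (b : ℕ) : List (List ℤ) → Bool
  | [] => true
  | c :: cs => Nat.ble (hd c).natAbs b && bh b cs

def rmds (R H : ℕ) : ℕ → ℕ → List (List ℤ) → Bool
  | 0, _, _ => true
  | _ + 1, 0, _ => true
  | _ + 1, _ + 1, [] => true
  | n + 1, k + 1, c :: cs =>
      Nat.ble (n + 1) k ||
        ((Nat.ble H (hd c).natAbs && (bd (R * (hd c).natAbs) c && bh (R * (hd c).natAbs) cs)) &&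
          (rmds R H n k (cs.map (elim c)) && rmds R H n (k + 1) cs))

def dot : List ℂ → List ℤ → ℂ
  | u :: us, c :: cs => u * (c : ℂ) + dot us cs
  | _, _ => 0

theorem bd_mem {b : ℕ} : ∀ {l : List ℤ}, bd b l = true → ∀ a ∈ l, a.natAbs ≤ b
  | [], _, a, ha => by simp at ha
  | x :: xs, h, a, ha => by
      simp only [bd, Bool.and_eq_true] at h
      rcases List.mem_cons.mp ha with h1 | h1
      · rw [h1]; exact Nat.le_of_ble_eq_true h.1
      · exact bd_mem h.2 a h1

theorem bh_mem {b : ℕ} : ∀ {l : List (List ℤ)}, bh b l = true → ∀ c ∈ l, (hd c).natAbs ≤ b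
  | [], _, a, ha => by simp at ha
  | x :: xs, h, a, ha => by
      simp only [bh, Bool.and_eq_true] at h
      rcases List.mem_cons.mp ha with h1 | h1
      · rw [h1]; exact Nat.le_of_ble_eq_true h.1
      · exact bh_mem h.2 a h1

theorem comb_length (h d0 : ℤ) : ∀ (as bs : List ℤ), as.length = bs.length →
    (comb h d0 as bs).length = as.length
  | [], [], _ => rfl
  | [], _ :: _, hh => by simp at hh
  | _ :: _, [], hh => by simp at hh
  | a :: as, b :: bs, hh => by
      simp only [List.length_cons, Nat.add_right_cancel_iff] at hh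
      simp [comb, comb_length h d0 as bs hh]

theorem floor_err (h x : ℤ) (hh : h ≠ 0) : ‖(((x / h : ℤ) : ℂ) - (x : ℂ) / (h : ℂ))‖ ≤ 1 := by
  have h0 : (h : ℂ) ≠ 0 := by exact_mod_cast hh
  have h1 : x = h * (x / h) + x % h := (Int.mul_ediv_add_emod x h).symm
  have h2 : ((x / h : ℤ) : ℂ) - (x : ℂ) / (h : ℂ) = -(((x % h : ℤ) : ℂ) / (h : ℂ)) := by
    have h3 : (x : ℂ) = (h : ℂ) * ((x / h : ℤ) : ℂ) + ((x % h : ℤ) : ℂ) := by
      exact_mod_cast congrArg (fun z : ℤ => (z : ℂ)) h1
    rw [h3]
    field_simp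
    ring
  rw [h2, norm_neg, norm_div, div_le_one (norm_pos_iff.mpr h0)]
  rw [Complex.norm_intCast, Complex.norm_intCast]
  have h4 := Int.emod_nonneg x hh
  have h5 := Int.emod_lt_abs x hh
  rw [abs_of_nonneg (by exact_mod_cast h4)]
  exact_mod_cast h5.le

/-- main estimate for the eliminated column -/
theorem dot_comb (h d0 : ℤ) (hh : h ≠ 0) : ∀ (us : List ℂ) (as bs : List ℤ),
    as.length = us.length → bs.length = us.length → (∀ a ∈ us, ‖a‖ ≤ 1) →
    ‖dot us (comb h d0 as bs) - (dot us bs - (d0 : ℂ) / (h : ℂ) * dot us as)‖ ≤ us.length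
  | [], as, bs, h1, h2, _ => by
      rw [List.length_nil, List.length_eq_zero_iff] at h1 h2
      subst h1; subst h2
      simp [dot, comb]
  | u :: us, [], _, h1, _, _ => by simp at h1
  | u :: us, _ :: _, [], _, h2, _ => by simp at h2
  | u :: us, a :: as, b :: bs, h1, h2, hu => by
      simp only [List.length_cons, Nat.add_right_cancel_iff] at h1 h2
      have ih := dot_comb h d0 hh us as bs h1 h2 (fun x hx => hu x (by simp [hx]))
      have h0 : (h : ℂ) ≠ 0 := by exact_mod_cast hh
      have hu1 : ‖u‖ ≤ 1 := hu u (by simp)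
      have hf := floor_err h (h * b - d0 * a) hh
      have e : dot (u :: us) (comb h d0 (a :: as) (b :: bs))
          - (dot (u :: us) (b :: bs) - (d0 : ℂ) / (h : ℂ) * dot (u :: us) (a :: as))
          = u * ((((h * b - d0 * a) / h : ℤ) : ℂ) - ((h * b - d0 * a : ℤ) : ℂ) / (h : ℂ))
            + (dot us (comb h d0 as bs) - (dot us bs - (d0 : ℂ) / (h : ℂ) * dot us as)) := by
        simp only [dot, comb]
        push_cast
        field_simp
        ring
      rw [e]
      refine (norm_add_le _ _).trans ?_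
      rw [norm_mul]
      have : ‖u‖ * ‖((((h * b - d0 * a) / h : ℤ) : ℂ) - ((h * b - d0 * a : ℤ) : ℂ) / (h : ℂ))‖
          ≤ 1 * 1 := mul_le_mul hu1 hf (norm_nonneg _) zero_le_one
      rw [List.length_cons, Nat.cast_add, Nat.cast_one]
      linarith

theorem dot_le (B t : ℝ) (hB : 0 ≤ B) : ∀ (us : List ℂ) (as : List ℤ),
    (∀ a ∈ us, ‖a‖ ≤ t) → (∀ c ∈ as, ‖(c : ℂ)‖ ≤ B) → 0 ≤ t → ‖dot us as‖ ≤ us.length * (B * t)
  | [], as, _, _, _ => by simp [dot]
  | _ :: _, [], _, _, ht => by simp only [dot, norm_zero]; positivity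
  | u :: us, a :: as, h1, h2, ht => by
      have ih := dot_le B t hB us as (fun x hx => h1 x (by simp [hx])) (fun x hx => h2 x (by simp [hx])) ht
      simp only [dot]
      refine (norm_add_le _ _).trans ?_
      rw [norm_mul]
      have : ‖u‖ * ‖(a : ℂ)‖ ≤ t * B := mul_le_mul (h1 u (by simp)) (h2 a (by simp)) (norm_nonneg _) ht
      simp only [List.length_cons]
      push_cast
      linarith

theorem rmds_sound (m R H : ℕ) (hH : 0 < H) (η τ : ℕ → ℝ) (hη0 : ∀ k, 0 ≤ η k)
    (hτ0 : ∀ k, 0 ≤ τ k)
    (hη : ∀ k < m, (R + 1) * η (k + 1) + k ≤ η k)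
    (hτ : ∀ k < m, R * k * τ k + η (k + 1) / H ≤ τ (k + 1)) (hmono : ∀ k, τ k ≤ τ (k + 1)) :
    ∀ (n k : ℕ) (cs : List (List ℤ)), k ≤ m → cs.length ≤ n → rmds R H n k cs = true →
    (∀ c ∈ cs, c.length = k) → ∀ u : List ℂ, u.length = k → (∀ a ∈ u, ‖a‖ ≤ 1) →
    k ≤ cs.countP (fun c => decide (‖dot u c‖ ≤ η k)) → ∀ a ∈ u, ‖a‖ ≤ τ k := by
  classical
  intro n
  induction n with
  | zero =>
    intro k cs _ hl _ _ u hu _ hcount a ha
    have : cs = [] := by simpa using hl
    subst this
    have : 0 < u.length := List.length_pos_of_mem ha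
    simp only [List.countP_nil] at hcount
    omega
  | succ n ih =>
    intro k cs hkm hl hm hc u hu hu1 hcount a ha
    have hupos : 0 < u.length := List.length_pos_of_mem ha
    match k, cs with
    | 0, _ => omega
    | k + 1, [] => simp at hcount
    | k + 1, c :: cs =>
      simp only [rmds, Bool.or_eq_true, Bool.and_eq_true] at hm
      rcases hm with hm | ⟨⟨h0, hb1, hb2⟩, h1, h2⟩
      · have : n + 1 ≤ k := Nat.le_of_ble_eq_true hm
        have h3 := List.countP_le_length (p := fun c => decide (‖dot u c‖ ≤ η (k + 1))) (l := c :: cs)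
        omega
      · have hcl : c.length = k + 1 := hc c (by simp)
        match c, hcl with
        | h :: as, hcl =>
        match u, hu with
        | u0 :: us, hu =>
        simp only [List.length_cons, Nat.add_right_cancel_iff] at hcl hu
        simp only [hd] at h0 hb1 hb2
        have hHh : H ≤ h.natAbs := Nat.le_of_ble_eq_true h0
        have hh : h ≠ 0 := by
          rintro rfl
          simp at hHh
          omega
        have hhC : (h : ℂ) ≠ 0 := by exact_mod_cast hh
        have hnorm : ∀ z : ℤ, ‖(z : ℂ)‖ = (z.natAbs : ℝ) := by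
          intro z
          rw [Complex.norm_intCast, Nat.cast_natAbs, Int.cast_abs]
        have hhpos : 0 < ‖(h : ℂ)‖ := norm_pos_iff.mpr hhC
        have hHR : (H : ℝ) ≤ ‖(h : ℂ)‖ := by rw [hnorm]; exact_mod_cast hHh
        have hl' : cs.length ≤ n := by
          simp only [List.length_cons] at hl
          omega
        by_cases hz : ‖dot (u0 :: us) (h :: as)‖ ≤ η (k + 1)
        · rw [List.countP_cons] at hcount
          simp only [hz, decide_true, if_true, Nat.add_le_add_iff_right] at hcount
          have h7 := ih k (cs.map (elim (h :: as))) (by omega) (by simpa using hl') h1 (by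
            intro d hd'
            rw [List.mem_map] at hd'
            obtain ⟨e, he, rfl⟩ := hd'
            have hel := hc e (by simp [he])
            match e, hel with
            | h' :: bs, hel =>
            simp only [List.length_cons, Nat.add_right_cancel_iff] at hel
            simp only [elim]
            rw [comb_length h h' as bs (by omega)]
            exact hcl) us hu (fun x hx => hu1 x (by simp [hx])) (by
            rw [List.countP_map]
            refine hcount.trans (List.countP_mono_left fun e he hdot => ?_)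
            have hel := hc e (by simp [he])
            have hbe := bh_mem hb2 e he
            match e, hel with
            | d0 :: bs, hel =>
            simp only [List.length_cons, Nat.add_right_cancel_iff] at hel
            simp only [decide_eq_true_eq] at hdot
            simp only [hd] at hbe
            refine decide_eq_true ?_
            change ‖dot us (comb h d0 as bs)‖ ≤ η k
            have hk := dot_comb h d0 hh us as bs (by omega) (by omega)
              (fun x hx => hu1 x (by simp [hx]))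
            have hratio : ‖(d0 : ℂ) / (h : ℂ)‖ ≤ R := by
              rw [norm_div, div_le_iff₀ hhpos, hnorm, hnorm]
              exact_mod_cast hbe
            have e1 : dot us bs - (d0 : ℂ) / (h : ℂ) * dot us as
                = dot (u0 :: us) (d0 :: bs) - (d0 : ℂ) / (h : ℂ) * dot (u0 :: us) (h :: as) := by
              simp only [dot]
              field_simp
              ring
            rw [e1] at hk
            have e2 : ‖dot (u0 :: us) (d0 :: bs) - (d0 : ℂ) / (h : ℂ) * dot (u0 :: us) (h :: as)‖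
                ≤ η (k + 1) + R * η (k + 1) := by
              refine (norm_sub_le _ _).trans (add_le_add hdot ?_)
              rw [norm_mul]
              exact mul_le_mul hratio hz (norm_nonneg _) (Nat.cast_nonneg _)
            have e3 := norm_sub_norm_le (dot us (comb h d0 as bs))
              (dot (u0 :: us) (d0 :: bs) - (d0 : ℂ) / (h : ℂ) * dot (u0 :: us) (h :: as))
            have e4 := hη k (by omega)
            rw [hu] at hk
            nlinarith [hk, e2, e3, e4])
          rcases List.mem_cons.mp ha with h8 | h8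
          · subst h8
            have e5 : ‖dot us as‖ ≤ us.length * ((R * h.natAbs : ℕ) * τ k) := by
              refine dot_le _ _ (by positivity) us as h7 (fun c hc' => ?_) (hτ0 k)
              rw [hnorm]
              exact_mod_cast bd_mem hb1 c (by simp [hc'])
            have e6 : a * (h : ℂ) = dot (a :: us) (h :: as) - dot us as := by
              simp only [dot]; ring
            have e7 : ‖a‖ * ‖(h : ℂ)‖ ≤ η (k + 1) + us.length * ((R * h.natAbs : ℕ) * τ k) := by
              rw [← norm_mul, e6]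
              exact (norm_sub_le _ _).trans (add_le_add hz e5)
            have e8 : η (k + 1) ≤ η (k + 1) / H * ‖(h : ℂ)‖ := by
              have hHp : (0 : ℝ) < H := by exact_mod_cast hH
              rw [div_mul_eq_mul_div, le_div_iff₀ hHp]
              exact mul_le_mul_of_nonneg_left hHR (hη0 _)
            have e9 : ‖a‖ * ‖(h : ℂ)‖ ≤ τ (k + 1) * ‖(h : ℂ)‖ := by
              refine e7.trans ?_
              have e10 := mul_le_mul_of_nonneg_right (hτ k (by omega)) hhpos.le
              refine le_trans ?_ e10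
              rw [hu, add_mul]
              have e11 : (k : ℝ) * (((R * h.natAbs : ℕ) : ℝ) * τ k) = R * k * τ k * ‖(h : ℂ)‖ := by
                rw [hnorm]; push_cast; ring
              rw [e11]
              linarith
            exact le_of_mul_le_mul_right e9 hhpos
          · exact (h7 a h8).trans (hmono k)
        · rw [List.countP_cons] at hcount
          simp only [hz, decide_false] at hcount
          exact ih (k + 1) cs hkm hl' h2 (fun c' hc' => hc c' (by simp [hc'])) (u0 :: us)
            (by simp [hu]) hu1 (by simpa using hcount) a ha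

theorem dot_ofFn : ∀ (k : ℕ) (u : Fin k → ℂ) (c : Fin k → ℤ),
    dot (List.ofFn u) (List.ofFn c) = ∑ i, u i * (c i : ℂ)
  | 0, u, c => by simp [dot]
  | k + 1, u, c => by
      rw [List.ofFn_succ, List.ofFn_succ, Fin.sum_univ_succ, dot, dot_ofFn k]

/-- a vector with entries at most one in norm, one of them exactly one, is `E`-killed by at most 9
columns. -/
theorem rmds_top (R H E : ℕ) (hE : 10 ≤ E) (hnum : E * (R + 2) ^ 10 * (10 * R + 1) ^ 10 < H)
    (x : Fin 20 → Fin 10 → ℤ)
    (hm : rmds R H 20 10 (List.ofFn fun i => List.ofFn (x i)) = true)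
    (u : Fin 10 → ℂ) (hu : ∀ i, ‖u i‖ ≤ 1) (j : Fin 10) (hj : ‖u j‖ = 1) (s : Finset (Fin 20))
    (hs : ∀ i ∈ s, ‖∑ t, u t * (x i t : ℂ)‖ ≤ E) : s.card < 10 := by
  classical
  by_contra hcon
  push Not at hcon
  have hH : 0 < H := by omega
  have hHR : (0 : ℝ) < H := by exact_mod_cast hH
  have hER : (10 : ℝ) ≤ E := by exact_mod_cast hE
  have hR0 : (0 : ℝ) ≤ R := Nat.cast_nonneg _
  set η : ℕ → ℝ := fun k => (E : ℝ) * (R + 2) ^ (10 - k) with hηdef
  set τ : ℕ → ℝ := fun k => (E : ℝ) * (R + 2) ^ 10 / H * (10 * R + 1) ^ k with hτdef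
  have hle0 : ∀ k, η k ≤ (E : ℝ) * (R + 2) ^ 10 := by
    intro k
    simp only [hηdef]
    refine mul_le_mul_of_nonneg_left ?_ (by positivity)
    exact pow_le_pow_right₀ (by linarith) (by omega)
  have h1 := rmds_sound 10 R H hH η τ (fun k => by simp only [hηdef]; positivity)
    (fun k => by simp only [hτdef]; positivity) (fun k hk => by
      simp only [hηdef]
      have e : 10 - k = (10 - (k + 1)) + 1 := by omega
      rw [e, pow_succ]
      have h2 : (1 : ℝ) ≤ (R + 2) ^ (10 - (k + 1)) := one_le_pow₀ (by linarith)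
      have h3 : (k : ℝ) ≤ 10 := by exact_mod_cast hk.le
      have h4 : (k : ℝ) ≤ (E : ℝ) * (R + 2) ^ (10 - (k + 1)) := by nlinarith
      nlinarith) (fun k hk => by
      have h2 : η (k + 1) / H ≤ (E : ℝ) * (R + 2) ^ 10 / H :=
        div_le_div_of_nonneg_right (hle0 _) hHR.le
      have h3 : (k : ℝ) ≤ 10 := by exact_mod_cast hk.le
      have h5 : 0 ≤ (E : ℝ) * (R + 2) ^ 10 / H := by positivity
      have h6 : (1 : ℝ) ≤ (10 * R + 1) ^ k := one_le_pow₀ (by linarith)
      have h7 : (E : ℝ) * (R + 2) ^ 10 / H ≤ τ k := by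
        simp only [hτdef]
        nlinarith
      have h8 : 0 ≤ τ k := by simp only [hτdef]; positivity
      have h9 : τ (k + 1) = τ k * (10 * R + 1) := by
        simp only [hτdef]; ring
      have h10 : R * k * τ k ≤ R * 10 * τ k :=
        mul_le_mul_of_nonneg_right (mul_le_mul_of_nonneg_left h3 hR0) h8
      rw [h9]
      nlinarith) (fun k => by
      simp only [hτdef]
      have h5 : 0 ≤ (E : ℝ) * (R + 2) ^ 10 / H := by positivity
      refine mul_le_mul_of_nonneg_left ?_ h5
      exact pow_le_pow_right₀ (by linarith) (by omega))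
    20 10 (List.ofFn fun i => List.ofFn (x i)) le_rfl (by simp) hm (by
      intro d hd
      rw [List.mem_ofFn] at hd
      obtain ⟨i, rfl⟩ := hd
      simp) (List.ofFn u) (by simp) (by
      intro a ha
      rw [List.mem_ofFn] at ha
      obtain ⟨i, rfl⟩ := ha
      exact hu i) (by
      have h8 : (List.ofFn fun i => List.ofFn (x i)) = (List.finRange 20).map
          (fun i => List.ofFn (x i)) := by
        rw [List.ofFn_eq_map]
      refine hcon.trans ?_
      rw [h8, List.countP_map, List.countP_eq_length_filter]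
      have h9 : s ⊆ ((List.finRange 20).filter
          ((fun c => decide (‖dot (List.ofFn u) c‖ ≤ η 10)) ∘
          fun i => List.ofFn (x i))).toFinset := by
        intro i hi
        rw [List.mem_toFinset, List.mem_filter]
        refine ⟨List.mem_finRange i, decide_eq_true ?_⟩
        change ‖dot (List.ofFn u) (List.ofFn (x i))‖ ≤ η 10
        rw [dot_ofFn]
        simpa [hηdef] using hs i hi
      exact (Finset.card_le_card h9).trans (List.toFinset_card_le _))
    (u j) (by rw [List.mem_ofFn]; exact ⟨j, rfl⟩)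
  rw [hj] at h1
  simp only [hτdef] at h1
  rw [div_mul_eq_mul_div, le_div_iff₀ hHR, one_mul] at h1
  have h2 : ((E * (R + 2) ^ 10 * (10 * R + 1) ^ 10 : ℕ) : ℝ) < (H : ℝ) := by exact_mod_cast hnum
  push_cast at h2
  linarith

theorem normalize (u : Fin 10 → ℂ) (hu : u ≠ 0) :
    ∃ c : ℂ, c ≠ 0 ∧ (∀ i, ‖c * u i‖ ≤ 1) ∧ ∃ j, ‖c * u j‖ = 1 := by
  obtain ⟨j, _, hj⟩ := Finset.exists_max_image (Finset.univ : Finset (Fin 10)) (fun i => ‖u i‖)
    ⟨0, Finset.mem_univ _⟩
  have hj0 : u j ≠ 0 := by
    intro h0
    apply hu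
    funext i
    have := hj i (Finset.mem_univ _)
    rw [h0, norm_zero] at this
    simpa using norm_le_zero_iff.1 this
  have hp : 0 < ‖u j‖ := norm_pos_iff.mpr hj0
  refine ⟨(u j)⁻¹, inv_ne_zero hj0, fun i => ?_, j, ?_⟩
  · rw [norm_mul, norm_inv, ← div_eq_inv_mul, div_le_one hp]
    exact hj i (Finset.mem_univ _)
  · rw [norm_mul, norm_inv, inv_mul_cancel₀ hp.ne']

/-- product-freeness from approximate real product vectors. -/
theorem pf_rob (R H E δ D : ℕ) (hE : 10 ≤ E) (hD : 0 < D)
    (hnum : E * (R + 2) ^ 10 * (10 * R + 1) ^ 10 < H) (hδ : 100 * δ ≤ D * E ^ 2)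
    (b : Fin 20 → Fin 10 → Fin 10 → ℤ) (x : Fin 20 → Fin 10 → ℤ) (c : Fin 20 → Fin 20 → ℤ)
    (hc : ∀ i s t, (D * (x i s * x i t) - ∑ r, c i r * b r s t).natAbs ≤ δ)
    (hm : rmds R H 20 10 (List.ofFn fun i => List.ofFn (x i)) = true)
    (u v : Fin 10 → ℂ)
    (h : ∀ r, ∑ q : Fin 10 × Fin 10, (b r q.1 q.2 : ℂ) * (u q.1 * v q.2) = 0) :
    u = 0 ∨ v = 0 := by
  classical
  by_contra hcon
  push Not at hcon
  obtain ⟨hu, hv⟩ := hcon
  obtain ⟨a, _, ha1, ja, hja⟩ := normalize u hu
  obtain ⟨a', _, ha1', ja', hja'⟩ := normalize v hv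
  set U : Fin 10 → ℂ := fun i => a * u i with hU
  set V : Fin 10 → ℂ := fun i => a' * v i with hV
  have h' : ∀ r, ∑ s, ∑ t, (b r s t : ℂ) * (U s * V t) = 0 := by
    intro r
    have h1 := h r
    rw [Fintype.sum_prod_type] at h1
    have h2 : ∑ s, ∑ t, (b r s t : ℂ) * (U s * V t)
        = (a * a') * ∑ s, ∑ t, (b r s t : ℂ) * (u s * v t) := by
      rw [Finset.mul_sum]
      refine Finset.sum_congr rfl fun s _ => ?_
      rw [Finset.mul_sum]
      refine Finset.sum_congr rfl fun t _ => ?_
      simp only [hU, hV]; ring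
    rw [h2]
    rw [show (∑ s, ∑ t, (b r s t : ℂ) * (u s * v t)) = 0 from h1, mul_zero]
  have hprod : ∀ i, ‖(∑ t, U t * (x i t : ℂ)) * (∑ t, V t * (x i t : ℂ))‖ ≤ (E : ℝ) ^ 2 := by
    intro i
    have e1 : (D : ℂ) * ((∑ s, U s * (x i s : ℂ)) * (∑ t, V t * (x i t : ℂ)))
        = ∑ s, ∑ t, (((D * (x i s * x i t) - ∑ r, c i r * b r s t : ℤ)) : ℂ) * (U s * V t) := by
      have e2 : ∑ s, ∑ t, ((∑ r, c i r * b r s t : ℤ) : ℂ) * (U s * V t) = 0 := by
        have e3 : ∀ s t, ((∑ r, c i r * b r s t : ℤ) : ℂ) * (U s * V t)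
            = ∑ r, (c i r : ℂ) * ((b r s t : ℂ) * (U s * V t)) := by
          intro s t
          push_cast
          rw [Finset.sum_mul]
          exact Finset.sum_congr rfl fun r _ => by ring
        simp only [e3]
        calc ∑ s, ∑ t, ∑ r, (c i r : ℂ) * ((b r s t : ℂ) * (U s * V t))
            = ∑ s, ∑ r, ∑ t, (c i r : ℂ) * ((b r s t : ℂ) * (U s * V t)) :=
              Finset.sum_congr rfl fun s _ => Finset.sum_comm
          _ = ∑ r, ∑ s, ∑ t, (c i r : ℂ) * ((b r s t : ℂ) * (U s * V t)) := Finset.sum_comm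
          _ = ∑ r, (c i r : ℂ) * ∑ s, ∑ t, ((b r s t : ℂ) * (U s * V t)) := by
              refine Finset.sum_congr rfl fun r _ => ?_
              rw [Finset.mul_sum]
              exact Finset.sum_congr rfl fun s _ => by rw [Finset.mul_sum]
          _ = 0 := by simp [h']
      have e4 : ∑ s, ∑ t, (((D * (x i s * x i t) - ∑ r, c i r * b r s t : ℤ)) : ℂ) * (U s * V t)
          = ∑ s, ∑ t, ((D : ℂ) * ((x i s : ℂ) * (x i t : ℂ))) * (U s * V t)
            - ∑ s, ∑ t, ((∑ r, c i r * b r s t : ℤ) : ℂ) * (U s * V t) := by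
        rw [← Finset.sum_sub_distrib]
        refine Finset.sum_congr rfl fun s _ => ?_
        rw [← Finset.sum_sub_distrib]
        refine Finset.sum_congr rfl fun t _ => ?_
        push_cast
        ring
      rw [e4, e2, sub_zero, Finset.sum_mul_sum, Finset.mul_sum]
      refine Finset.sum_congr rfl fun s _ => ?_
      rw [Finset.mul_sum]
      exact Finset.sum_congr rfl fun t _ => by ring
    have e5 : ‖∑ s, ∑ t, (((D * (x i s * x i t) - ∑ r, c i r * b r s t : ℤ)) : ℂ) * (U s * V t)‖
        ≤ ∑ _s : Fin 10, ∑ _t : Fin 10, (δ : ℝ) := by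
      refine (norm_sum_le _ _).trans (Finset.sum_le_sum fun s _ => ?_)
      refine (norm_sum_le _ _).trans (Finset.sum_le_sum fun t _ => ?_)
      rw [norm_mul, norm_mul]
      have e6 : ‖(((D * (x i s * x i t) - ∑ r, c i r * b r s t : ℤ)) : ℂ)‖ ≤ δ := by
        rw [Complex.norm_intCast, ← Int.cast_abs, ← Nat.cast_natAbs]
        exact_mod_cast hc i s t
      have e7 : ‖U s‖ * ‖V t‖ ≤ 1 * 1 :=
        mul_le_mul (ha1 s) (ha1' t) (norm_nonneg _) zero_le_one
      calc _ ≤ (δ : ℝ) * (1 * 1) := mul_le_mul e6 e7 (by positivity) (Nat.cast_nonneg _)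
        _ = δ := by ring
    rw [← e1, norm_mul, Complex.norm_natCast] at e5
    simp only [Finset.sum_const, Finset.card_univ, Fintype.card_fin, nsmul_eq_mul] at e5
    have hDR : (0 : ℝ) < D := by exact_mod_cast hD
    have hδR : (100 : ℝ) * δ ≤ D * (E : ℝ) ^ 2 := by exact_mod_cast hδ
    refine le_of_mul_le_mul_left (e5.trans ?_) hDR
    push_cast
    linarith
  set S : Finset (Fin 20) := Finset.univ.filter fun i => ‖∑ t, U t * (x i t : ℂ)‖ ≤ E
  set T : Finset (Fin 20) := Finset.univ.filter fun i => ‖∑ t, V t * (x i t : ℂ)‖ ≤ E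
  have hS := rmds_top R H E hE hnum x hm U ha1 ja hja S (fun i hi => (Finset.mem_filter.mp hi).2)
  have hT := rmds_top R H E hE hnum x hm V ha1' ja' hja' T
    (fun i hi => (Finset.mem_filter.mp hi).2)
  have hST : (Finset.univ : Finset (Fin 20)) ⊆ S ∪ T := by
    intro i _
    by_contra hno
    rw [Finset.mem_union, not_or] at hno
    simp only [S, T, Finset.mem_filter, Finset.mem_univ, true_and, not_le] at hno
    have := hprod i
    rw [norm_mul] at this
    have hE0 : (0 : ℝ) ≤ E := Nat.cast_nonneg _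
    nlinarith [hno.1, hno.2, mul_lt_mul'' hno.1 hno.2 hE0 hE0]
  have h2 := (Finset.card_le_card hST).trans (Finset.card_union_le S T)
  simp only [Finset.card_univ, Fintype.card_fin] at h2
  omega

end Crest.Agent.P345Rob
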