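import Crest.Agent.P345HK34
import Crest.Agent.P345.Dual26b
import Crest.Agent.P345.Van92

set_option autoImplicit false
set_option linter.unusedSectionVars false
namespace Crest.Agent.P345S82
open Matrix Crest.Agent.P345HK34 Crest.Agent.P345Red

section gen
variable {R : Type*} [CommRing R]

def sq (w : Fin 4 → R) (s : Fin 10) : R := w (ma s) * w (mb s)

def Aw (C : Fin 4 → Fin 6 → Fin 4 → ℤ) (w : Fin 4 → R) (r : Fin 6) (e : Fin 4) : R :=
  ∑ j, (C j r e : R) * w j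

theorem K_sq (C : Fin 4 → Fin 6 → Fin 4 → ℤ) (r s : Fin 6) (k l : Fin 4) (w : Fin 4 → R) :
    ∑ m, (entry C r s k l (ma m) (mb m) : R) * sq w m =
      Aw C w r k * Aw C w s l - Aw C w r l * Aw C w s k := by
  simp only [entry, sq, Aw, Fin.sum_univ_succ, Fin.sum_univ_zero, ma, mb]
  simp
  ring

/-- explicit 4x4 determinant -/
def D4 (p q r s : Fin 4 → R) : R :=
  (p 0 * q 1 - p 1 * q 0) * (r 2 * s 3 - r 3 * s 2)
  - (p 0 * q 2 - p 2 * q 0) * (r 1 * s 3 - r 3 * s 1)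
  + (p 0 * q 3 - p 3 * q 0) * (r 1 * s 2 - r 2 * s 1)
  + (p 1 * q 2 - p 2 * q 1) * (r 0 * s 3 - r 3 * s 0)
  - (p 1 * q 3 - p 3 * q 1) * (r 0 * s 2 - r 2 * s 0)
  + (p 2 * q 3 - p 3 * q 2) * (r 0 * s 1 - r 1 * s 0)

theorem D4_det (p q r s : Fin 4 → R) : D4 p q r s = (Matrix.of ![p, q, r, s]).det := by
  rw [Matrix.det_succ_row_zero]
  simp [Fin.sum_univ_succ, Matrix.det_fin_three, Fin.succAbove, D4]
  ring

theorem D4_sub (A : Fin 6 → Fin 4 → R) (f : Fin 4 → Fin 6) :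
    D4 (A (f 0)) (A (f 1)) (A (f 2)) (A (f 3)) = ((Matrix.of A).submatrix f id).det := by
  rw [D4_det]
  congr 1
  ext i j
  fin_cases i <;> rfl

end gen

def T (t : Fin 15) : Fin 4 → Fin 6 :=
  (![![0,1,2,3], ![0,1,2,4], ![0,1,2,5], ![0,1,3,4], ![0,1,3,5], ![0,1,4,5], ![0,2,3,4], ![0,2,3,5],
    ![0,2,4,5], ![0,3,4,5], ![1,2,3,4], ![1,2,3,5], ![1,2,4,5], ![1,3,4,5], ![2,3,4,5]] :
    Fin 15 → Fin 4 → Fin 6) t

theorem mono_T' : ∀ a b c d : Fin 6, (Nat.blt a.1 b.1 && (Nat.blt b.1 c.1 && Nat.blt c.1 d.1)) = true →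
    (List.finRange 15).any (fun t => (T t 0).1 == a.1 && ((T t 1).1 == b.1 && ((T t 2).1 == c.1 && (T t 3).1 == d.1))) = true := by
  decide +kernel

theorem mono_T (a b c d : Fin 6) (h1 : a < b) (h2 : b < c) (h3 : c < d) :
    ∃ t, T t 0 = a ∧ T t 1 = b ∧ T t 2 = c ∧ T t 3 = d := by
  have h := mono_T' a b c d (by simp [Nat.blt_eq]; exact ⟨h1, h2, h3⟩)
  rw [List.any_eq_true] at h
  obtain ⟨t, _, ht⟩ := h
  simp only [Bool.and_eq_true, beq_iff_eq] at ht
  exact ⟨t, Fin.ext ht.1, Fin.ext ht.2.1, Fin.ext ht.2.2.1, Fin.ext ht.2.2.2⟩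

theorem exists_coef (f : Fin 4 → Fin 6) : ∃ c : Fin 15 → ℤ, ∀ (R : Type) [CommRing R]
    (A : Matrix (Fin 6) (Fin 4) R),
    (A.submatrix f id).det = ∑ t, (c t : R) * (A.submatrix (T t) id).det := by
  by_cases hf : Function.Injective f
  · have hm := Tuple.monotone_sort f
    have hs : StrictMono (f ∘ Tuple.sort f) :=
      hm.strictMono_of_injective (hf.comp (Tuple.sort f).injective)
    obtain ⟨t, ht0, ht1, ht2, ht3⟩ := mono_T _ _ _ _ (hs (show (0 : Fin 4) < 1 by decide))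
      (hs (show (1 : Fin 4) < 2 by decide)) (hs (show (2 : Fin 4) < 3 by decide))
    have hT : f ∘ Tuple.sort f = T t := by
      ext i
      fin_cases i
      · exact congrArg _ ht0.symm
      · exact congrArg _ ht1.symm
      · exact congrArg _ ht2.symm
      · exact congrArg _ ht3.symm
    refine ⟨Pi.single t (Equiv.Perm.sign (Tuple.sort f) : ℤ), ?_⟩
    intro R _ A
    rw [Finset.sum_eq_single t]
    · rw [Pi.single_eq_same, ← hT]
      have h := Matrix.det_permute (Tuple.sort f) (A.submatrix f id)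
      have e : (A.submatrix f id).submatrix (Tuple.sort f) id = A.submatrix (f ∘ Tuple.sort f) id := rfl
      rw [e] at h
      rw [h, ← mul_assoc]
      have : (((Equiv.Perm.sign (Tuple.sort f) : ℤˣ) : ℤ) : R) * (((Equiv.Perm.sign (Tuple.sort f) : ℤˣ) : ℤ) : R) = 1 := by
        rw [← Int.cast_mul, Int.units_coe_mul_self, Int.cast_one]
      rw [this, one_mul]
    · intro b _ hb
      rw [Pi.single_eq_of_ne hb, Int.cast_zero, zero_mul]
    · intro h; exact absurd (Finset.mem_univ _) h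
  · refine ⟨0, ?_⟩
    intro R _ A
    simp only [Function.Injective, not_forall] at hf
    obtain ⟨i, j, hij, hne⟩ := hf
    rw [Matrix.det_zero_of_row_eq hne (by ext k; simp [hij])]
    simp

theorem LK_eval (C : Fin 4 → Fin 6 → Fin 4 → ℤ) (a b : Fin 6 × Fin 6) (w : Fin 4 → ℂ) :
    ∑ i, ∑ j, sq w i * sq w j * (L C a * K C b) j i =
      ((Matrix.of (Aw C w)).submatrix ![b.1, b.2, a.1, a.2] id).det := by
  have h1 : ∀ x, ∑ j, ((Lz C a j x : ℤ) : ℂ) * sq w j =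
      (sg x : ℂ) * (Aw C w a.1 (pk (co x)) * Aw C w a.2 (pl (co x))
        - Aw C w a.1 (pl (co x)) * Aw C w a.2 (pk (co x))) := by
    intro x
    rw [← K_sq C a.1 a.2, Finset.mul_sum]
    refine Finset.sum_congr rfl fun j _ => ?_
    simp only [Lz, Kz]
    push_cast
    ring
  have h2 : ∀ x, ∑ i, ((Kz C b x i : ℤ) : ℂ) * sq w i =
      (Aw C w b.1 (pk x) * Aw C w b.2 (pl x) - Aw C w b.1 (pl x) * Aw C w b.2 (pk x)) := by
    intro x
    rw [← K_sq C b.1 b.2]
    rfl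
  have h3 : ∑ i, ∑ j, sq w i * sq w j * (L C a * K C b) j i =
      ∑ x, (∑ j, ((Lz C a j x : ℤ) : ℂ) * sq w j) * (∑ i, ((Kz C b x i : ℤ) : ℂ) * sq w i) := by
    have e1 : ∀ i, ∑ j, sq w i * sq w j * (L C a * K C b) j i =
        ∑ x, ∑ j, (((Lz C a j x : ℤ) : ℂ) * sq w j) * (((Kz C b x i : ℤ) : ℂ) * sq w i) := by
      intro i
      rw [Finset.sum_comm]
      refine Finset.sum_congr rfl fun j _ => ?_
      rw [Matrix.mul_apply, Finset.mul_sum]
      refine Finset.sum_congr rfl fun x _ => ?_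
      simp only [L, K, Matrix.of_apply]
      ring
    simp only [e1]
    rw [Finset.sum_comm]
    refine Finset.sum_congr rfl fun x _ => ?_
    rw [Finset.sum_mul_sum, Finset.sum_comm]
  rw [h3]
  simp only [h1, h2]
  have h4 := D4_sub (Aw C w) ![b.1, b.2, a.1, a.2]
  rw [← h4]
  simp only [Fin.sum_univ_succ, Fin.sum_univ_zero, pk, pl, co, sg, D4]
  simp
  ring

end Crest.Agent.P345S82
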