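import Crest.Agent.P345Red
import Crest.Agent.P345Val79
import Crest.Agent.P345Fast

set_option autoImplicit false
set_option maxRecDepth 100000

namespace Crest.Agent.P345Sat

open Matrix Crest.Quantum Crest.Agent.P345Red

theorem exists_lift (p : ℕ) [hp : Fact p.Prime] {a b : ℕ} (M : Matrix (Fin a) (Fin b) ℤ)
    (B : Fin a → Fin b) (R : Matrix (Fin a) (Fin a) ℤ)
    (hR : ∀ i j, ((∑ k, R i k * M k (B j) : ℤ) : ZMod p) = if i = j then 1 else 0)
    (l0 : Fin b → ℤ) (h : ∀ q, ((∑ m, M q m * l0 m : ℤ) : ZMod p) = 0) :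
    ∃ l : Fin b → ℤ, (∀ q, ∑ m, M q m * l m = 0) ∧ ∀ m, ((l m : ℤ) : ZMod p) = (l0 m : ZMod p) := by
  classical
  let MB : Matrix (Fin a) (Fin a) ℤ := Matrix.of fun k j => M k (B j)
  have hdet : ((R.det * MB.det : ℤ) : ZMod p) = 1 := by
    rw [← Matrix.det_mul]
    have h1 : (Int.castRingHom (ZMod p)).mapMatrix (R * MB) = 1 := by
      ext i j
      rw [RingHom.mapMatrix_apply, Matrix.map_apply, Matrix.mul_apply, Matrix.one_apply, ← hR i j]
      rfl
    have h2 : (((R * MB).det : ℤ) : ZMod p) = ((Int.castRingHom (ZMod p)).mapMatrix (R * MB)).det :=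
      RingHom.map_det (Int.castRingHom (ZMod p)) (R * MB)
    rw [h2, h1, Matrix.det_one]
  have he : ∀ q, ∃ e : ℤ, ∑ m, M q m * l0 m = (p : ℤ) * e := by
    intro q
    exact (ZMod.intCast_zmod_eq_zero_iff_dvd _ p).1 (h q)
  choose e he using he
  let y : Fin a → ℤ := MB.adjugate *ᵥ e
  refine ⟨fun m => R.det * (MB.det * l0 m - (p : ℤ) * ∑ j, if B j = m then y j else 0), ?_, ?_⟩
  · intro q
    have h3 : ∑ m, M q m * ∑ j, (if B j = m then y j else 0) = MB.det * e q := by
      have h4 : ∀ m, M q m * ∑ j, (if B j = m then y j else 0) =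
          ∑ j, (if B j = m then M q m * y j else 0) := by
        intro m
        rw [Finset.mul_sum]
        refine Finset.sum_congr rfl fun j _ => ?_
        split_ifs <;> simp
      simp only [h4]
      rw [Finset.sum_comm]
      simp only [Finset.sum_ite_eq, Finset.mem_univ, if_true]
      have h5 : (MB *ᵥ y) q = MB.det * e q := by
        change (MB *ᵥ (MB.adjugate *ᵥ e)) q = _
        rw [Matrix.mulVec_mulVec, Matrix.mul_adjugate, Matrix.smul_mulVec, Matrix.one_mulVec]
        rfl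
      rw [← h5]
      rfl
    calc ∑ m, M q m * (R.det * (MB.det * l0 m - (p : ℤ) * ∑ j, if B j = m then y j else 0))
        = R.det * (MB.det * (∑ m, M q m * l0 m) -
            (p : ℤ) * ∑ m, M q m * ∑ j, (if B j = m then y j else 0)) := by
          rw [mul_sub, Finset.mul_sum, Finset.mul_sum, Finset.mul_sum, Finset.mul_sum,
            ← Finset.sum_sub_distrib]
          refine Finset.sum_congr rfl fun m _ => ?_
          ring
      _ = 0 := by rw [h3, he]; ring
  · intro m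
    simp only [Int.cast_mul, Int.cast_sub, Int.cast_natCast]
    rw [show ((p : ℕ) : ZMod p) = 0 from ZMod.natCast_self p]
    have h6 : (R.det : ZMod p) * (MB.det : ZMod p) = 1 := by
      rw [← hdet, Int.cast_mul]
    linear_combination (l0 m : ZMod p) * h6

def dotL : List ℤ → List ℤ → ℤ
  | a :: as, b :: bs => a * b + dotL as bs
  | _, _ => 0

theorem dotL_eq (n : ℕ) : ∀ u v : List ℤ, u.length ≤ n →
    ∑ i : Fin n, u.getD i 0 * v.getD i 0 = dotL u v := by
  induction n with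
  | zero =>
    intro u v h
    have : u = [] := List.length_eq_zero_iff.1 (Nat.le_zero.1 h)
    subst this
    simp [dotL]
  | succ n ih =>
    intro u v h
    rw [Fin.sum_univ_succ]
    cases u with
    | nil => simp [dotL]
    | cons a as =>
      cases v with
      | nil => simp [dotL]
      | cons b bs =>
        have := ih as bs (by simpa using h)
        simp only [dotL, ← this]
        simp

/-- vector (over the 15 row pairs) of the coefficients -/
def vec (KV : List (List (List ℤ))) (x I : ℕ) : List ℤ := (KV.getD x []).getD I []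
def kt (KV : List (List (List ℤ))) (S x I : ℕ) : ℤ := (vec KV x I).getD S 0
def sg (x : ℕ) : ℤ := if x = 1 ∨ x = 4 then -1 else 1
def lt (KV : List (List (List ℤ))) (S I x : ℕ) : ℤ := if x < 6 then sg x * kt KV S (5 - x) I else 0

def chkLen (KV : List (List (List ℤ))) : Bool :=
  (List.range 10).all fun x => (List.range 10).all fun I => decide ((vec KV x I).length ≤ 15)

def chkK (KV : List (List (List ℤ))) : Bool :=
  (List.range 10).all fun x => (List.range 10).all fun y => (List.range 10).all fun a =>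
    (List.range 10).all fun b =>
      decide (dotL (vec KV y a) (vec KV x b) = dotL (vec KV x a) (vec KV y b))

theorem all_range {n : ℕ} {f : ℕ → Bool} (h : (List.range n).all f = true) (i : Fin n) :
    f i = true := List.all_eq_true.1 h _ (List.mem_range.2 i.2)

noncomputable def K (KV : List (List (List ℤ))) (S : Fin 15) : Matrix (Fin 10) (Fin 10) ℂ :=
  Matrix.of fun x I => ((kt KV S x I : ℤ) : ℂ)
noncomputable def L (KV : List (List (List ℤ))) (S : Fin 15) : Matrix (Fin 10) (Fin 10) ℂ :=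
  Matrix.of fun I x => ((lt KV S I x : ℤ) : ℂ)

theorem ktSum (KV : List (List (List ℤ))) (hl : chkLen KV = true) (hK : chkK KV = true)
    (x y a b : Fin 10) : ∑ S : Fin 15, kt KV S y a * kt KV S x b =
      ∑ S : Fin 15, kt KV S x a * kt KV S y b := by
  have l : ∀ x a : Fin 10, (vec KV x a).length ≤ 15 := fun x a =>
    of_decide_eq_true (all_range (all_range hl x) a)
  simp only [kt]
  rw [dotL_eq 15 _ _ (l y a), dotL_eq 15 _ _ (l x a)]
  exact of_decide_eq_true (all_range (all_range (all_range (all_range hK x) y) a) b)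

theorem star_int (z : ℤ) : star ((z : ℤ) : ℂ) = (z : ℂ) := by
  simp

theorem hKK (KV : List (List (List ℤ))) (hl : chkLen KV = true) (hK : chkK KV = true) (M) :
    (kmap (K KV) M).transpose = kmap (K KV) M := by
  apply kmap_transpose_of
  intro x y a b
  simp only [K, Matrix.of_apply, star_int]
  exact_mod_cast ktSum KV hl hK x y a b

theorem hLL (KV : List (List (List ℤ))) (hl : chkLen KV = true) (hK : chkK KV = true) (M) :
    (kmap (L KV) M).transpose = kmap (L KV) M := by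
  apply kmap_transpose_of
  intro x y a b
  simp only [L, Matrix.of_apply, star_int]
  have key : ∑ S : Fin 15, lt KV S y a * lt KV S x b = ∑ S : Fin 15, lt KV S x a * lt KV S y b := by
    simp only [lt]
    by_cases ha : (a : ℕ) < 6
    · by_cases hb : (b : ℕ) < 6
      · simp only [ha, hb, if_true]
        have e := ktSum KV hl hK ⟨5 - b, by omega⟩ ⟨5 - a, by omega⟩ y x
        simp only at e
        have e1 : ∑ S : Fin 15, sg a * kt KV S (5 - a) y * (sg b * kt KV S (5 - b) x) =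
            sg a * sg b * ∑ S : Fin 15, kt KV S (5 - a) y * kt KV S (5 - b) x := by
          rw [Finset.mul_sum]
          refine Finset.sum_congr rfl fun S _ => by ring
        have e2 : ∑ S : Fin 15, sg a * kt KV S (5 - a) x * (sg b * kt KV S (5 - b) y) =
            sg a * sg b * ∑ S : Fin 15, kt KV S (5 - b) y * kt KV S (5 - a) x := by
          rw [Finset.mul_sum]
          refine Finset.sum_congr rfl fun S _ => by ring
        rw [e1, e2, e]
      · simp [hb]
    · simp [ha]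
  exact_mod_cast key

def MT : List (List ℕ) :=
  [[0, 1, 2, 3, 4, 5, 6, 7, 8, 9],
   [1, 4, 5, 6, 10, 11, 12, 13, 14, 15],
   [2, 5, 7, 8, 11, 13, 14, 16, 17, 18],
   [3, 6, 8, 9, 12, 14, 15, 17, 18, 19],
   [4, 10, 11, 12, 20, 21, 22, 23, 24, 25],
   [5, 11, 13, 14, 21, 23, 24, 26, 27, 28],
   [6, 12, 14, 15, 22, 24, 25, 27, 28, 29],
   [7, 13, 16, 17, 23, 26, 27, 30, 31, 32],
   [8, 14, 17, 18, 24, 27, 28, 31, 32, 33],
   [9, 15, 18, 19, 25, 28, 29, 32, 33, 34]]

def PL : List (List (ℕ × ℕ)) :=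
  [[(0, 0)],
   [(0, 1), (1, 0)],
   [(0, 2), (2, 0)],
   [(0, 3), (3, 0)],
   [(0, 4), (1, 1), (4, 0)],
   [(0, 5), (1, 2), (2, 1), (5, 0)],
   [(0, 6), (1, 3), (3, 1), (6, 0)],
   [(0, 7), (2, 2), (7, 0)],
   [(0, 8), (2, 3), (3, 2), (8, 0)],
   [(0, 9), (3, 3), (9, 0)],
   [(1, 4), (4, 1)],
   [(1, 5), (2, 4), (4, 2), (5, 1)],
   [(1, 6), (3, 4), (4, 3), (6, 1)],
   [(1, 7), (2, 5), (5, 2), (7, 1)],
   [(1, 8), (2, 6), (3, 5), (5, 3), (6, 2), (8, 1)],
   [(1, 9), (3, 6), (6, 3), (9, 1)],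
   [(2, 7), (7, 2)],
   [(2, 8), (3, 7), (7, 3), (8, 2)],
   [(2, 9), (3, 8), (8, 3), (9, 2)],
   [(3, 9), (9, 3)],
   [(4, 4)],
   [(4, 5), (5, 4)],
   [(4, 6), (6, 4)],
   [(4, 7), (5, 5), (7, 4)],
   [(4, 8), (5, 6), (6, 5), (8, 4)],
   [(4, 9), (6, 6), (9, 4)],
   [(5, 7), (7, 5)],
   [(5, 8), (6, 7), (7, 6), (8, 5)],
   [(5, 9), (6, 8), (8, 6), (9, 5)],
   [(6, 9), (9, 6)],
   [(7, 7)],
   [(7, 8), (8, 7)],
   [(7, 9), (8, 8), (9, 7)],
   [(8, 9), (9, 8)],
   [(9, 9)]]

/-- index of the quartic monomial `w^(I+J)` -/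
def mono (I J : ℕ) : ℕ := (MT.getD I []).getD J 0

def X (KV : List (List (List ℤ))) (S T I J : ℕ) : ℤ :=
  kt KV S 5 J * kt KV T 0 I - kt KV S 4 J * kt KV T 1 I + kt KV S 3 J * kt KV T 2 I
    + kt KV S 2 J * kt KV T 3 I - kt KV S 1 J * kt KV T 4 I + kt KV S 0 J * kt KV T 5 I

theorem LK (KV : List (List (List ℤ))) (S T : Fin 15) (I J : Fin 10) :
    (L KV S * K KV T) J I = ((X KV S T I J : ℤ) : ℂ) := by
  rw [Matrix.mul_apply]
  simp only [L, K, Matrix.of_apply, Fin.sum_univ_succ, Fin.sum_univ_zero, lt, sg, X]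
  norm_num [Fin.ext_iff]
  ring

theorem regroup (l : ℕ → ℤ) (f : ℕ → ℕ → ℤ) :
    ∑ I : Fin 10, ∑ J : Fin 10, l (mono I J) * f I J =
      ∑ m : Fin 35, l m * ((PL.getD m []).map fun q => f q.1 q.2).sum := by
  simp only [Fin.sum_univ_succ, Fin.sum_univ_zero, mono, MT, PL, List.getD_cons_zero,
    List.getD_cons_succ, List.getD_eq_getElem?_getD]
  simp
  ring

theorem nonempty_result (KV : List (List (List ℤ))) (MQ : List (List ℤ)) (eps : ℕ → ℕ → ℤ)
    (Qi : ℕ → ℕ → ℕ) (hQi : ∀ S T, Qi S T < 15) (Bc : Fin 15 → Fin 35) (Rt : List (List ℤ))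
    (Xt Lt : List (List ℕ)) (p : ℕ) [hp : Fact p.Prime] (Bb : ℕ) (hB0 : 0 < Bb) (Mb : ℕ)
    (hMB : Mb * (2 * p) ^ 10 ≤ Bb) (Lp : List ℕ) (hLp : Lp.length = 20)
    (hbnd : ∀ r ∈ Lp, P345Fast.bnd Bb Mb 10 r)
    (hc : P345Fast.checkP p Bb 20 10 Lp = true)
    (hpack : ∀ (i : Fin 20) (j : Fin 10), Lp.getD i 0 / Bb ^ (j : ℕ) % Bb = (Xt.getD i []).getD j 0)
    (hl : chkLen KV = true) (hK : chkK KV = true)
    (hP : ((List.range 15).all fun S => (List.range 15).all fun T => (List.range 35).all fun m =>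
      decide (((PL.getD m []).map fun q => X KV S T q.1 q.2).sum =
        eps S T * (MQ.getD (Qi S T) []).getD m 0)) = true)
    (hR : ∀ i j : Fin 15, (p : ℤ) ∣ (∑ k : Fin 15, (Rt.getD i []).getD k 0 *
      (MQ.getD k []).getD (Bc j) 0) - if i = j then 1 else 0)
    (hE : ∀ (i : Fin 20) (I J : Fin 10), (p : ℤ) ∣ (((Lt.getD i []).getD (mono I J) 0 : ℕ) : ℤ) -
      ((Xt.getD i []).getD I 0 : ℕ) * ((Xt.getD i []).getD J 0 : ℕ))
    (hmono : ∀ I J : Fin 10, mono I J < 35)
    (hZ : ∀ (i : Fin 20) (q : Fin 15), (p : ℤ) ∣ ∑ m : Fin 35, (MQ.getD q []).getD m 0 *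
      (((Lt.getD i []).getD m 0 : ℕ) : ℤ))
    (hne : ∃ (S T : Fin 15) (I J : Fin 10), X KV S T I J ≠ 0) :
    ∃ Φ₁ Φ₂ : Matrix (Fin 10) (Fin 10) ℂ → Matrix (Fin 10) (Fin 10) ℂ,
      IsLinearMap ℂ Φ₁ ∧ IsLinearMap ℂ Φ₂ ∧ IsPPT Φ₁ ∧ IsPPT Φ₂ ∧
      choiMatrix (Φ₂ ∘ Φ₁) ≠ 0 ∧
      (∀ u v : Fin 10 → ℂ, (∃ w, (choiMatrix (Φ₂ ∘ Φ₁)).mulVec w = fun p => u p.1 * v p.2) →
        u = 0 ∨ v = 0) ∧
      ¬ IsEntanglementBreaking (Φ₂ ∘ Φ₁) := by
  classical
  -- the integer lifts
  have hlift : ∀ i : Fin 20, ∃ l : Fin 35 → ℤ,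
      (∀ q : Fin 15, ∑ m : Fin 35, (MQ.getD q []).getD m 0 * l m = 0) ∧
      ∀ m, ((l m : ℤ) : ZMod p) = ((((Lt.getD i []).getD (m : ℕ) 0 : ℕ) : ℤ) : ZMod p) := by
    intro i
    refine exists_lift p (Matrix.of fun (q : Fin 15) (m : Fin 35) => (MQ.getD q []).getD m 0) Bc
      (Matrix.of fun (i k : Fin 15) => (Rt.getD i []).getD k 0) ?_
      (fun m => (((Lt.getD i []).getD (m : ℕ) 0 : ℕ) : ℤ)) ?_
    · intro i j
      have h1 := (ZMod.intCast_zmod_eq_zero_iff_dvd _ p).2 (hR i j)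
      rw [Int.cast_sub, sub_eq_zero] at h1
      simp only [Matrix.of_apply]
      rw [h1]
      split_ifs <;> simp
    · intro q
      exact (ZMod.intCast_zmod_eq_zero_iff_dvd _ p).2 (hZ i q)
  choose l hl1 hl2 using hlift
  let lN : Fin 20 → ℕ → ℤ := fun i m => if h : m < 35 then l i ⟨m, h⟩ else 0
  have hlN : ∀ i (m : Fin 35), lN i m = l i m := fun i m => by
    simp only [lN, m.2, dif_pos]
  let N : Fin 20 → Fin 10 → Fin 10 → ℤ := fun i I J => lN i (mono I J)
  have hrelZ : ∀ (r : Fin 20) (S T : Fin 15), ∑ I : Fin 10, ∑ J : Fin 10,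
      N r I J * X KV S T I J = 0 := by
    intro r S T
    have h1 := regroup (lN r) (fun I J => X KV S T I J)
    simp only [N]
    rw [h1]
    have h2 : ∀ m : Fin 35, ((PL.getD m []).map fun q => X KV S T q.1 q.2).sum =
        eps S T * (MQ.getD (Qi S T) []).getD m 0 := fun m =>
      of_decide_eq_true (all_range (all_range (all_range hP S) T) m)
    simp only [h2, hlN]
    have h3 := hl1 r ⟨Qi S T, hQi S T⟩
    simp only at h3
    calc ∑ m : Fin 35, l r m * (eps S T * (MQ.getD (Qi S T) []).getD m 0)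
        = eps S T * ∑ m : Fin 35, (MQ.getD (Qi S T) []).getD m 0 * l r m := by
          rw [Finset.mul_sum]
          refine Finset.sum_congr rfl fun m _ => by ring
      _ = 0 := by rw [h3, mul_zero]
  refine s0541_of (K KV) (K KV) (L KV) (L KV) (hKK KV hl hK) (hLL KV hl hK)
    (fun (r : Fin 20) (q : Fin 10 × Fin 10) => ((N r q.1 q.2 : ℤ) : ℂ)) ?_ ?_ ?_
  · intro r S T
    rw [Fintype.sum_prod_type]
    simp only [LK]
    exact_mod_cast hrelZ r S T
  · intro u v h
    refine P345Val79.val_transfer p N ?_ u v ?_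
    · intro k _ _ u v h
      refine P345Fast.pf_char (p := p) (n := 20) (k := 10) (by norm_num) Bb Mb hB0 hMB Lp hLp
        hbnd hc u v ?_
      intro i
      simp only [hpack]
      have hi := h i
      have hx : ∀ I J : Fin 10, ((N i I J : ℤ) : k) =
          (((Xt.getD i []).getD I 0 : ℕ) : k) * (((Xt.getD i []).getD J 0 : ℕ) : k) := by
        intro I J
        have e1 : ((N i I J : ℤ) : ZMod p) =
            ((((Lt.getD i []).getD (mono I J) 0 : ℕ) : ℤ) : ZMod p) := by
          have := hl2 i ⟨mono I J, hmono I J⟩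
          simp only at this
          rw [← this, ← hlN]
        have e2 := (ZMod.intCast_zmod_eq_zero_iff_dvd _ p).2 (hE i I J)
        rw [Int.cast_sub, sub_eq_zero] at e2
        rw [e2] at e1
        have e3 := congrArg (ZMod.castHom (dvd_refl p) k) e1
        rw [map_intCast, map_intCast] at e3
        rw [e3]
        push_cast
        rfl
      rw [Finset.sum_mul_sum]
      rw [← hi]
      refine Finset.sum_congr rfl fun I _ => Finset.sum_congr rfl fun J _ => ?_
      rw [hx]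
      ring
    · intro r
      have := h r
      rw [Fintype.sum_prod_type] at this
      exact this
  · obtain ⟨S, T, I, J, h⟩ := hne
    refine ⟨S, T, fun h0 => h ?_⟩
    have := LK KV S T I J
    rw [h0, Matrix.zero_apply] at this
    exact_mod_cast this.symm

end Crest.Agent.P345Sat
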