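import Crest.Agent.P345SatD
set_option autoImplicit false
set_option maxRecDepth 1000000
set_option maxHeartbeats 0
namespace Crest.Agent.P345SatD
open Crest.Agent.P345Sat

theorem hQi (S T : ℕ) : Qi S T < 15 := Nat.mod_lt _ (by norm_num)
theorem hLp : Lp.length = 20 := by decide +kernel
theorem hl : chkLen KV = true := by decide +kernel
theorem hmono : ∀ I J : Fin 10, mono I J < 35 := by decide +kernel
theorem hpack0 : ((List.range 20).all fun i => (List.range 10).all fun j =>
    decide (Lp.getD i 0 / (2 ^ 193) ^ j % (2 ^ 193) = (Xt.getD i []).getD j 0)) = true := by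
  decide +kernel
theorem hpack (i : Fin 20) (j : Fin 10) :
    Lp.getD i 0 / (2 ^ 193) ^ (j : ℕ) % (2 ^ 193) = (Xt.getD i []).getD j 0 :=
  of_decide_eq_true (all_range (all_range hpack0 i) j)
theorem hK : chkK KV = true := by decide +kernel
theorem hE0 : ((List.range 20).all fun i => (List.range 10).all fun I => (List.range 10).all fun J =>
    decide (((((Lt.getD i []).getD (mono I J) 0 : ℕ) : ℤ) -
      ((Xt.getD i []).getD I 0 : ℕ) * ((Xt.getD i []).getD J 0 : ℕ)) % 100151 = 0)) = true := by
  decide +kernel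
theorem hE (i : Fin 20) (I J : Fin 10) : ((100151 : ℕ) : ℤ) ∣
    (((Lt.getD i []).getD (mono I J) 0 : ℕ) : ℤ) -
      ((Xt.getD i []).getD I 0 : ℕ) * ((Xt.getD i []).getD J 0 : ℕ) :=
  Int.dvd_of_emod_eq_zero (of_decide_eq_true (all_range (all_range (all_range hE0 i) I) J))
theorem hP : ((List.range 15).all fun S => (List.range 15).all fun T => (List.range 35).all fun m =>
      decide (((PL.getD m []).map fun q => X KV S T q.1 q.2).sum =
        eps S T * (MQ.getD (Qi S T) []).getD m 0)) = true := by decide +kernel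
theorem hne : ∃ (S T : Fin 15) (I J : Fin 10), X KV S T I J ≠ 0 :=
  ⟨0, 0, 0, 7, by decide +kernel⟩

end Crest.Agent.P345SatD
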