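import Crest.Agent.P345SatD
set_option autoImplicit false
set_option maxRecDepth 1000000
set_option maxHeartbeats 0
namespace Crest.Agent.P345SatD
open Crest.Agent.P345Sat

def bndB (B M : ℕ) : ℕ → ℕ → Bool
  | 0, _ => true
  | l + 1, S => decide (S % B < M) && bndB B M l (S / B)

theorem bnd_of (B M : ℕ) : ∀ l S, bndB B M l S = true → P345Fast.bnd B M l S
  | 0, _, _ => trivial
  | l + 1, S, h => by
    rw [bndB, Bool.and_eq_true] at h
    exact ⟨of_decide_eq_true h.1, bnd_of B M l _ h.2⟩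

theorem hbnd0 : (Lp.all fun r => bndB (2 ^ 193) 100151 10 r) = true := by decide +kernel

theorem hbnd : ∀ r ∈ Lp, P345Fast.bnd (2 ^ 193) 100151 10 r := fun r hr =>
  bnd_of _ _ _ _ (List.all_eq_true.1 hbnd0 r hr)

theorem hMB : 100151 * (2 * 100151) ^ 10 ≤ 2 ^ 193 := by norm_num

theorem hR0 : ∀ i j : Fin 15, ((∑ k : Fin 15, (Rt.getD i []).getD k 0 *
      (MQ.getD k []).getD (Bc j) 0) - if i = j then 1 else 0) % 100151 = 0 := by decide +kernel

theorem hR (i j : Fin 15) : ((100151 : ℕ) : ℤ) ∣ (∑ k : Fin 15, (Rt.getD i []).getD k 0 *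
      (MQ.getD k []).getD (Bc j) 0) - if i = j then 1 else 0 :=
  Int.dvd_of_emod_eq_zero (hR0 i j)

theorem hZ0 : ∀ (i : Fin 20) (q : Fin 15), (∑ m : Fin 35, (MQ.getD q []).getD m 0 *
      (((Lt.getD i []).getD m 0 : ℕ) : ℤ)) % 100151 = 0 := by decide +kernel

theorem hZ (i : Fin 20) (q : Fin 15) : ((100151 : ℕ) : ℤ) ∣ ∑ m : Fin 35,
      (MQ.getD q []).getD m 0 * (((Lt.getD i []).getD m 0 : ℕ) : ℤ) :=
  Int.dvd_of_emod_eq_zero (hZ0 i q)

theorem hprime : Nat.Prime 100151 := by norm_num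

end Crest.Agent.P345SatD
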