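import Crest.Agent.P345SatD
set_option autoImplicit false
set_option maxRecDepth 1000000
set_option maxHeartbeats 0
namespace Crest.Agent.P345SatD

theorem hc : P345Fast.checkP 100151 (2 ^ 193) 20 10 Lp = true := by decide +kernel

end Crest.Agent.P345SatD
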