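import Crest.Agent.P345Sat
set_option autoImplicit false
set_option maxRecDepth 100000

namespace Crest.Agent.P345Sat

open Matrix Crest.Quantum Crest.Agent.P345Red

theorem both_result (KV : List (List (List ℤ))) (MQ : List (List ℤ)) (eps : ℕ → ℕ → ℤ)
    (Qi : ℕ → ℕ → ℕ) (hQi : ∀ S T, Qi S T < 15) (Bc : Fin 15 → Fin 35) (Rt : List (List ℤ))
    (Xt Lt : List (List ℕ)) (p : ℕ) [hp : Fact p.Prime] (Bb : ℕ) (hB0 : 0 < Bb) (Mb : ℕ)
    (hMB : Mb * (2 * p) ^ 10 ≤ Bb) (Lp : List ℕ) (hLp : Lp.length = 20)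
    (hbnd : ∀ r ∈ Lp, P345Fast.bnd Bb Mb 10 r)
    (hc : P345Fast.checkP p Bb 20 10 Lp = true)
    (hpack : ∀ (i : Fin 20) (j : Fin 10), Lp.getD i 0 / Bb ^ (j : ℕ) % Bb = (Xt.getD i []).getD j 0)
    (hl : chkLen KV = true) (hK : chkK KV = true)
    (hP : ((List.range 15).all fun S => (List.range 15).all fun T => (List.range 35).all fun m =>
      decide (((PL.getD m []).map fun q => X KV S T q.1 q.2).sum =
        eps S T * (MQ.getD (Qi S T) []).getD m 0)) = true)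
    (hR : ∀ i j : Fin 15, (p : ℤ) ∣ (∑ k : Fin 15, (Rt.getD i []).getD k 0 *
      (MQ.getD k []).getD (Bc j) 0) - if i = j then 1 else 0)
    (hE : ∀ (i : Fin 20) (I J : Fin 10), (p : ℤ) ∣ (((Lt.getD i []).getD (mono I J) 0 : ℕ) : ℤ) -
      ((Xt.getD i []).getD I 0 : ℕ) * ((Xt.getD i []).getD J 0 : ℕ))
    (hmono : ∀ I J : Fin 10, mono I J < 35)
    (hZ : ∀ (i : Fin 20) (q : Fin 15), (p : ℤ) ∣ ∑ m : Fin 35, (MQ.getD q []).getD m 0 *
      (((Lt.getD i []).getD m 0 : ℕ) : ℤ))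
    (hne : ∃ (S T : Fin 15) (I J : Fin 10), X KV S T I J ≠ 0) :
    (∃ Φ₁ Φ₂ : Matrix (Fin 10) (Fin 10) ℂ → Matrix (Fin 10) (Fin 10) ℂ,
      IsLinearMap ℂ Φ₁ ∧ IsLinearMap ℂ Φ₂ ∧ IsPPT Φ₁ ∧ IsPPT Φ₂ ∧
      choiMatrix (Φ₂ ∘ Φ₁) ≠ 0 ∧
      (∀ u v : Fin 10 → ℂ, (∃ w, (choiMatrix (Φ₂ ∘ Φ₁)).mulVec w = fun p => u p.1 * v p.2) →
        u = 0 ∨ v = 0) ∧
      ¬ IsEntanglementBreaking (Φ₂ ∘ Φ₁)) ∧
    (∃ Θ : Matrix (Fin 21) (Fin 21) ℂ → Matrix (Fin 21) (Fin 21) ℂ,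
      IsChannel Θ ∧ IsPPT Θ ∧ ¬ IsEntanglementBreaking (Θ ∘ Θ)) := by
  classical
  -- the integer lifts
  have hlift : ∀ i : Fin 20, ∃ l : Fin 35 → ℤ,
      (∀ q : Fin 15, ∑ m : Fin 35, (MQ.getD q []).getD m 0 * l m = 0) ∧
      ∀ m, ((l m : ℤ) : ZMod p) = ((((Lt.getD i []).getD (m : ℕ) 0 : ℕ) : ℤ) : ZMod p) := by
    intro i
    refine exists_lift p (Matrix.of fun (q : Fin 15) (m : Fin 35) => (MQ.getD q []).getD m 0) Bc
      (Matrix.of fun (i k : Fin 15) => (Rt.getD i []).getD k 0) ?_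
      (fun m => (((Lt.getD i []).getD (m : ℕ) 0 : ℕ) : ℤ)) ?_
    · intro i j
      have h1 := (ZMod.intCast_zmod_eq_zero_iff_dvd _ p).2 (hR i j)
      rw [Int.cast_sub, sub_eq_zero] at h1
      simp only [Matrix.of_apply]
      rw [h1]
      split_ifs <;> simp
    · intro q
      exact (ZMod.intCast_zmod_eq_zero_iff_dvd _ p).2 (hZ i q)
  choose l hl1 hl2 using hlift
  let lN : Fin 20 → ℕ → ℤ := fun i m => if h : m < 35 then l i ⟨m, h⟩ else 0
  have hlN : ∀ i (m : Fin 35), lN i m = l i m := fun i m => by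
    simp only [lN, m.2, dif_pos]
  let N : Fin 20 → Fin 10 → Fin 10 → ℤ := fun i I J => lN i (mono I J)
  have hrelZ : ∀ (r : Fin 20) (S T : Fin 15), ∑ I : Fin 10, ∑ J : Fin 10,
      N r I J * X KV S T I J = 0 := by
    intro r S T
    have h1 := regroup (lN r) (fun I J => X KV S T I J)
    simp only [N]
    rw [h1]
    have h2 : ∀ m : Fin 35, ((PL.getD m []).map fun q => X KV S T q.1 q.2).sum =
        eps S T * (MQ.getD (Qi S T) []).getD m 0 := fun m =>
      of_decide_eq_true (all_range (all_range (all_range hP S) T) m)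
    simp only [h2, hlN]
    have h3 := hl1 r ⟨Qi S T, hQi S T⟩
    simp only at h3
    calc ∑ m : Fin 35, l r m * (eps S T * (MQ.getD (Qi S T) []).getD m 0)
        = eps S T * ∑ m : Fin 35, (MQ.getD (Qi S T) []).getD m 0 * l r m := by
          rw [Finset.mul_sum]
          refine Finset.sum_congr rfl fun m _ => by ring
      _ = 0 := by rw [h3, mul_zero]
  suffices H : (∀ (r : Fin 20) j i, ∑ p : Fin 10 × Fin 10, ((N r p.1 p.2 : ℤ) : ℂ) *
        (L KV j * K KV i) p.2 p.1 = 0) ∧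
      (∀ (u : Fin 10 → ℂ) (v : Fin 10 → ℂ), (∀ r : Fin 20, ∑ p : Fin 10 × Fin 10,
        ((N r p.1 p.2 : ℤ) : ℂ) * (u p.1 * v p.2) = 0) → u = 0 ∨ v = 0) ∧
      (∃ j i, L KV j * K KV i ≠ 0) from
    ⟨s0541_of (K KV) (K KV) (L KV) (L KV) (hKK KV hl hK) (hLL KV hl hK)
      (fun (r : Fin 20) (q : Fin 10 × Fin 10) => ((N r q.1 q.2 : ℤ) : ℂ)) H.1 H.2.1 H.2.2,
     s0540_of (K KV) (K KV) (L KV) (L KV) (hKK KV hl hK) (hLL KV hl hK)
      (fun (r : Fin 20) (q : Fin 10 × Fin 10) => ((N r q.1 q.2 : ℤ) : ℂ)) H.1 H.2.1 H.2.2⟩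
  refine ⟨?_, ?_, ?_⟩
  · intro r S T
    rw [Fintype.sum_prod_type]
    simp only [LK]
    exact_mod_cast hrelZ r S T
  · intro u v h
    refine P345Val79.val_transfer p N ?_ u v ?_
    · intro k _ _ u v h
      refine P345Fast.pf_char (p := p) (n := 20) (k := 10) (by norm_num) Bb Mb hB0 hMB Lp hLp
        hbnd hc u v ?_
      intro i
      simp only [hpack]
      have hi := h i
      have hx : ∀ I J : Fin 10, ((N i I J : ℤ) : k) =
          (((Xt.getD i []).getD I 0 : ℕ) : k) * (((Xt.getD i []).getD J 0 : ℕ) : k) := by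
        intro I J
        have e1 : ((N i I J : ℤ) : ZMod p) =
            ((((Lt.getD i []).getD (mono I J) 0 : ℕ) : ℤ) : ZMod p) := by
          have := hl2 i ⟨mono I J, hmono I J⟩
          simp only at this
          rw [← this, ← hlN]
        have e2 := (ZMod.intCast_zmod_eq_zero_iff_dvd _ p).2 (hE i I J)
        rw [Int.cast_sub, sub_eq_zero] at e2
        rw [e2] at e1
        have e3 := congrArg (ZMod.castHom (dvd_refl p) k) e1
        rw [map_intCast, map_intCast] at e3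
        rw [e3]
        push_cast
        rfl
      rw [Finset.sum_mul_sum]
      rw [← hi]
      refine Finset.sum_congr rfl fun I _ => Finset.sum_congr rfl fun J _ => ?_
      rw [hx]
      ring
    · intro r
      have := h r
      rw [Fintype.sum_prod_type] at this
      exact this
  · obtain ⟨S, T, I, J, h⟩ := hne
    refine ⟨S, T, fun h0 => h ?_⟩
    have := LK KV S T I J
    rw [h0, Matrix.zero_apply] at this
    exact_mod_cast this.symm

end Crest.Agent.P345Sat
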