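import Crest.Agent.P345SatG
import Crest.Agent.P345SatC
import Crest.Agent.P345SatE
import Crest.Agent.P345SatF
set_option autoImplicit false
namespace Crest.Agent.P345SatD
open Crest.Quantum Crest.Agent.P345Sat

theorem both :
    (∃ Φ₁ Φ₂ : Matrix (Fin 10) (Fin 10) ℂ → Matrix (Fin 10) (Fin 10) ℂ,
      IsLinearMap ℂ Φ₁ ∧ IsLinearMap ℂ Φ₂ ∧ IsPPT Φ₁ ∧ IsPPT Φ₂ ∧
      choiMatrix (Φ₂ ∘ Φ₁) ≠ 0 ∧
      (∀ u v : Fin 10 → ℂ, (∃ w, (choiMatrix (Φ₂ ∘ Φ₁)).mulVec w = fun p => u p.1 * v p.2) →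
        u = 0 ∨ v = 0) ∧
      ¬ IsEntanglementBreaking (Φ₂ ∘ Φ₁)) ∧
    (∃ Θ : Matrix (Fin 21) (Fin 21) ℂ → Matrix (Fin 21) (Fin 21) ℂ,
      IsChannel Θ ∧ IsPPT Θ ∧ ¬ IsEntanglementBreaking (Θ ∘ Θ)) := by
  haveI : Fact (Nat.Prime 100151) := ⟨hprime⟩
  exact both_result KV MQ eps Qi hQi Bc Rt Xt Lt 100151 (2 ^ 193) (Nat.two_pow_pos 193) 100151
    hMB Lp hLp hbnd hc hpack hl hK hP hR hE hmono hZ hne

end Crest.Agent.P345SatD
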