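import Crest.Statements.S0217
import Crest.Agent.RS.Core
import Crest.Agent.RS.Efron
import Crest.Agent.RS.Incr
import Crest.Agent.RS.Tail

set_option autoImplicit false
open Crest Crest.ProbabilityR

namespace Crest.Agent.S0217

open Crest.Agent.RS Crest.ProbabilityR.RandomSAT in
/-- Fix a clause length `k ≥ 3`. Add independent uniformly random clauses, each with `k` literals of independent fair sign on `k` distinct variables among `n` (repetitions allowed); let `H` be the number of clauses present when the formula first becomes unsatisfiable. Then the variance of `H` is at most a constant multiple of `n`, for all `n ≥ k`, the constant depending only on `k`. Mean and second moment of `H` enter as tail sums of the probabilities that `m` random clauses are satisfiable. -/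
theorem result (k : ℕ) (hk : 3 ≤ k) :
    ∃ C : ℝ, ∀ n : ℕ, k ≤ n →
      Summable (fun m : ℕ => Crest.ProbabilityR.RandomSAT.satProb k n m) ∧
      Summable (fun m : ℕ => (2 * (m : ℝ) + 1) * Crest.ProbabilityR.RandomSAT.satProb k n m) ∧
      (∑' m : ℕ, (2 * (m : ℝ) + 1) * Crest.ProbabilityR.RandomSAT.satProb k n m)
          - (∑' m : ℕ, Crest.ProbabilityR.RandomSAT.satProb k n m) ^ 2 ≤ C * n := by
  obtain ⟨κ, rfl⟩ : ∃ κ, k = κ + 1 := ⟨k - 1, by omega⟩
  have hκ : 2 ≤ κ := by omega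
  obtain ⟨C0, C1, hC0, ht⟩ := tail (κ + 1) (by omega)
  obtain ⟨C, hC⟩ := core κ hκ (C0 + 1)
  refine ⟨(C0 + 1) * max C 0 + max C1 0, fun n hn => ?_⟩
  obtain ⟨hs1, hs2, htail⟩ := ht n hn
  refine ⟨hs1, hs2, ?_⟩
  obtain ⟨n', rfl⟩ : ∃ n', n = n' + 1 := ⟨n - 1, by omega⟩
  have hn1 : (1 : ℝ) ≤ ((n' + 1 : ℕ) : ℝ) := by
    push_cast
    have : (0 : ℝ) ≤ n' := Nat.cast_nonneg _
    linarith
  set N : ℝ := ((n' + 1 : ℕ) : ℝ) with hN
  set M : ℕ := ⌈C0 * N⌉₊ with hM
  have hM1 : C0 * N ≤ M := Nat.le_ceil _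
  have hM2 : (M : ℝ) ≤ (C0 + 1) * N := by
    have h1 : (M : ℝ) < C0 * N + 1 := Nat.ceil_lt_add_one (by positivity)
    nlinarith
  have hV : Vq κ n' 0 M 0 ≤ C := hC n' M 0 (by rw [hN] at hM2; push_cast at hM2; exact hM2)
  have : Nonempty (Clause (κ + 1) (n' + 1)) := nonempty_clause hn
  -- Efron-Stein for the truncated hitting time
  have hES := efron_stein (α := Clause (κ + 1) (n' + 1)) M (fun L => ((hit 0 L M : ℕ) : ℝ))
    (fun i L' => ((hitE 0 i L' M : ℕ) : ℝ))
  rw [lavg_hit hn, lavg_hit_sq hn] at hES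
  have hinc : ∑ i ∈ Finset.range M, lavg (Clause (κ + 1) (n' + 1)) M
      (fun L => (((hit 0 L M : ℕ) : ℝ) - ((hitE 0 i (L.eraseIdx i) M : ℕ) : ℝ)) ^ 2) ≤
      (C0 + 1) * max C 0 * N := by
    calc _ ≤ ∑ i ∈ Finset.range M, max C 0 :=
          Finset.sum_le_sum fun i hi =>
            ((incr_le hn 0 i M (Finset.mem_range.mp hi)).trans hV).trans (le_max_left _ _)
      _ = (M : ℝ) * max C 0 := by rw [Finset.sum_const, Finset.card_range, nsmul_eq_mul]
      _ ≤ (C0 + 1) * N * max C 0 := by gcongr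
      _ = _ := by ring
  -- splitting the series
  have hsplit2 := hs2.sum_add_tsum_nat_add M
  have hsum1 : ∑ m ∈ Finset.range M, satProb (κ + 1) (n' + 1) m ≤
      ∑' m, satProb (κ + 1) (n' + 1) m :=
    hs1.sum_le_tsum _ (fun m _ => satProb_nonneg _ _ _)
  have hsq : (∑ m ∈ Finset.range M, satProb (κ + 1) (n' + 1) m) ^ 2 ≤
      (∑' m, satProb (κ + 1) (n' + 1) m) ^ 2 := by
    have h0 : 0 ≤ ∑ m ∈ Finset.range M, satProb (κ + 1) (n' + 1) m :=
      Finset.sum_nonneg fun m _ => satProb_nonneg _ _ _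
    gcongr
  have ht2 := htail M hM1
  have h3 : C1 ≤ max C1 0 * N := by
    have : 0 ≤ max C1 0 := le_max_right _ _
    have : C1 ≤ max C1 0 := le_max_left _ _
    nlinarith
  have h4 := hES.trans hinc
  rw [← hsplit2]
  nlinarith

end Crest.Agent.S0217
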