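import Crest.Statements.S0010
import Crest.Agent.S0010aux.Stein
import Crest.Agent.S0010aux.FG

set_option autoImplicit false
open Crest.NumberTheoryR.MilnorK
open Crest Crest.NumberTheoryR

namespace Crest.Agent.S0010

section

variable {p : ℕ} [Fact p.Prime] {K : Type*} [Field K] [CharP K p]

theorem hdim4 (h : ∀ x : K, ∃ y : K, y ∉ Ad p x) (x y z : K) :
    ∃ u : K, ∀ a ∈ Kp p K, ∀ b ∈ Kp p K, ∀ c ∈ Kp p K, u ≠ a * x + b * y + c * z := by
  by_contra hcon
  push Not at hcon
  obtain ⟨ξ, hξ'⟩ := h 0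
  have hξ : ξ ∉ Kp p K := fun h => hξ' (Kp_le_Ad 0 h)
  obtain ⟨η, hη⟩ := h ξ
  have hli : LinearIndependent (Kp p K) ![1, ξ, η, ξ * η] := by
    rw [Fintype.linearIndependent_iff]
    intro g hg
    have hsum : (g 0 : K) * 1 + (g 1 : K) * ξ + (g 2 : K) * η + (g 3 : K) * (ξ * η) = 0 := by
      rw [Fin.sum_univ_four] at hg
      exact hg
    have i1 : Ind2 (Kp p K) 1 ξ := (ind2_iff _ one_ne_zero).2 (by simpa using hξ)
    have h23 : (g 2 : K) + (g 3 : K) * ξ = 0 := by
      by_contra hne
      apply hη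
      have hne' : (g 2 : K) + (g 3 : K) * ξ ≠ 0 := hne
      have : η = -(((g 0 : K) + (g 1 : K) * ξ) / ((g 2 : K) + (g 3 : K) * ξ)) := by
        rw [← neg_div, eq_div_iff hne']
        linear_combination hsum
      rw [this]
      have hm : ∀ a b : Kp p K, (a : K) + (b : K) * ξ ∈ Ad p ξ := fun a b =>
        (Ad p ξ).add_mem (Kp_le_Ad ξ a.2) ((Ad p ξ).mul_mem (Kp_le_Ad ξ b.2) (self_mem_Ad ξ))
      exact (Ad p ξ).neg_mem ((Ad p ξ).div_mem (hm _ _) (hm _ _))
    have h01 : (g 0 : K) + (g 1 : K) * ξ = 0 := by linear_combination hsum - η * h23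
    have a1 := i1 (g 2 : K) (g 2).2 (g 3 : K) (g 3).2 (by linear_combination h23)
    have a2 := i1 (g 0 : K) (g 0).2 (g 1 : K) (g 1).2 (by linear_combination h01)
    intro i
    fin_cases i
    · exact Subtype.ext a2.1
    · exact Subtype.ext a2.2
    · exact Subtype.ext a1.1
    · exact Subtype.ext a1.2
  have hspan : Submodule.span (Kp p K) (Set.range ![x, y, z]) = ⊤ := by
    rw [eq_top_iff]
    intro u _
    obtain ⟨a, ha, b, hb, c, hc, e⟩ := hcon u
    rw [Submodule.mem_span_range_iff_exists_fun]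
    refine ⟨![⟨a, ha⟩, ⟨b, hb⟩, ⟨c, hc⟩], ?_⟩
    rw [Fin.sum_univ_three, e]
    rfl
  have hfin : Module.Finite (Kp p K) K := Module.Finite.of_fg_top ⟨(Set.finite_range ![x, y, z]).toFinset, by simpa using hspan⟩
  have h1 := hli.fintype_card_le_finrank
  have h2 : Module.finrank (Kp p K) K ≤ 3 := by
    have := finrank_range_le_card (R := Kp p K) ![x, y, z]
    unfold Set.finrank at this
    rw [hspan, finrank_top] at this
    simpa using this
  simp at h1
  omega

theorem divis {M : Type*} [Field M] (m : Subfield M) [IsAlgClosed m] (a : M) (ha : a ∈ m)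
    (n : ℕ) (hn : 0 < n) : ∃ b ∈ m, b ^ n = a := by
  obtain ⟨z, hz⟩ := IsAlgClosed.exists_pow_nat_eq (⟨a, ha⟩ : m) hn
  exact ⟨z, z.2, congrArg (fun t : m => (t : M)) hz⟩

theorem cls_pow (u : Kˣ) (n : ℕ) : cls K p (u ^ n) = ((n : ℕ) : ZMod p) • cls K p u := by
  have h1 : ((n : ℕ) : ZMod p) • cls K p u = n • cls K p u := Nat.cast_smul_eq_nsmul _ n _
  rw [h1]; rfl

end

/-- Let K and L be fields of characteristic p that are finitely generated and of transcendence degree at least 2 over algebraically closed subfields k and l. Let Θ be a linear isomorphism, over the integers mod p, from Kˣ/(Kˣ)^p to Lˣ/(Lˣ)^p that maps the span of the Steinberg elements [f] ⊗ [1 - f] (f ≠ 0, 1) of K exactly onto that of L. Then there is exactly one field isomorphism α from K to L with α(k) = l such that, for some non-zero scalar c, Θ[u] = c · [α(u)] for every unit u of K. -/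
theorem result {p : ℕ} [Fact p.Prime]
    {K L : Type*} [Field K] [Field L] [CharP K p] [CharP L p] (k : Subfield K) (l : Subfield L)
    [IsAlgClosed k] [IsAlgClosed l]
    (hK : ∃ s : Finset K, Subfield.closure ((k : Set K) ∪ (s : Set K)) = ⊤)
    (hL : ∃ s : Finset L, Subfield.closure ((l : Set L) ∪ (s : Set L)) = ⊤)
    (hK2 : 2 ≤ Algebra.trdeg k K) (hL2 : 2 ≤ Algebra.trdeg l L)
    (Θ : KOne K p ≃ₗ[ZMod p] KOne L p) (hΘ : IsCompatible Θ) :
    ∃! α : K ≃+* L, k.map α.toRingHom = l ∧
      ∃ c : ZMod p, c ≠ 0 ∧ ∀ u : Kˣ, Θ (cls K p u) = c • cls L p (Units.map α.toRingHom.toMonoidHom u) := by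
  have hp : p.Prime := Fact.out
  have hK' := exists_not_mem_Ad (p := p) k hK hK2
  have hL' := exists_not_mem_Ad (p := p) l hL hL2
  have H := repMap_depIso hΘ
  obtain ⟨s, hs, hsp, HL⟩ := H.step3 hK' hL'
  obtain ⟨α, hα⟩ := HL.exists_ringEquiv (hdim4 hK')
  have hs0 : ((s : ℕ) : ZMod p) ≠ 0 := by
    intro h
    rw [ZMod.natCast_eq_zero_iff] at h
    exact absurd (Nat.le_of_dvd hs h) (by omega)
  have hα' : ∀ u : Kˣ, Θ (cls K p u) = (s : ZMod p)⁻¹ • cls L p (Units.map α.toRingHom.toMonoidHom u) := by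
    intro u
    obtain ⟨h1, e1⟩ := repMap_spec Θ u.ne_zero
    have e2 : Units.mk0 (u : K) u.ne_zero = u := by ext; rfl
    rw [e2] at e1
    have h3 : cls L p (Units.map α.toRingHom.toMonoidHom u) = cls L p ((Units.mk0 _ h1) ^ s) := by
      rw [cls_eq_iff]
      have := hα u u.ne_zero
      simpa using this
    rw [h3, cls_pow, e1, smul_smul, inv_mul_cancel₀ hs0, one_smul]
  refine ⟨α, ⟨?_, (s : ZMod p)⁻¹, inv_ne_zero hs0, ?_⟩, ?_⟩
  · -- α k = l
    apply le_antisymm
    · rintro _ ⟨a, ha, rfl⟩
      apply mem_of_divisible l hL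
      intro n hn
      obtain ⟨b, _, hb⟩ := divis k a ha n hn
      refine ⟨α b, ?_⟩
      rw [← map_pow, hb]; rfl
    · intro a ha
      refine ⟨α.symm a, ?_, α.apply_symm_apply a⟩
      apply mem_of_divisible k hK
      intro n hn
      obtain ⟨b, _, hb⟩ := divis l a ha n hn
      refine ⟨α.symm b, ?_⟩
      rw [← map_pow, hb]
  · exact hα'
  · -- uniqueness
    rintro β ⟨hβk, c, hc, hβ⟩
    -- n with n • cls α = cls β
    set d : ZMod p := c⁻¹ * (s : ZMod p)⁻¹ with hd
    have hd0 : d ≠ 0 := mul_ne_zero (inv_ne_zero hc) (inv_ne_zero hs0)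
    obtain ⟨n, hn⟩ := ZMod.natCast_zmod_surjective d
    have hn0 : ((n : ℕ) : L) ≠ 0 := by
      intro h
      rw [CharP.cast_eq_zero_iff L p] at h
      rw [← ZMod.natCast_eq_zero_iff, hn] at h
      exact hd0 h
    have hcls : ∀ u : Kˣ, cls L p (Units.map β.toRingHom.toMonoidHom u) =
        cls L p ((Units.map α.toRingHom.toMonoidHom u) ^ n) := by
      intro u
      have h5 := (hβ u).symm.trans (hα' u)
      rw [cls_pow, hn, hd, mul_smul, ← h5, smul_smul,
        inv_mul_cancel₀ hc, one_smul]
    have heqv : ∀ u : K, u ≠ 0 → Eqv (Kp p L) (β u) (α u ^ n) := by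
      intro u hu
      have := cls_eq_iff.1 (hcls (Units.mk0 u hu))
      simpa using this
    have hlog : ∀ (D : Derivation ℤ L L) (u : K), u ≠ 0 →
        D (β u) * α u = n * D (α u) * β u := by
      intro D u hu
      have hαu : α u ≠ 0 := by simpa using hu
      obtain ⟨g, hg, hg0, e⟩ := heqv u hu
      rw [e, Derivation.leibniz, deriv_Kp D hg, Derivation.leibniz_pow]
      simp only [smul_eq_mul, nsmul_eq_mul, mul_zero, add_zero]
      cases n with
      | zero => simp
      | succ m =>
        simp only [Nat.add_sub_cancel]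
        push_cast
        ring
    have hoff : ∀ u : K, α u ∉ Kp p L → β u = α u := by
      intro u hu
      obtain ⟨D, hD, hDu⟩ := exists_deriv (E := Kp p L) hKp hu
      have hu0 : u ≠ 0 := by
        rintro rfl
        apply hu
        simpa using (Kp p L).zero_mem
      have hu1 : 1 + u ≠ 0 := by
        intro h
        apply hu
        have : u = -1 := by linear_combination h
        rw [this, map_neg, map_one]
        exact neg_one_mem
      have l1 := hlog D u hu0
      have l2 := hlog D (1 + u) hu1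
      have b1 : β (1 + u) = 1 + β u := by rw [map_add, map_one]
      have a1 : α (1 + u) = 1 + α u := by rw [map_add, map_one]
      have b2 : D (1 + β u) = D (β u) := by rw [map_add, Derivation.map_one_eq_zero, zero_add]
      have a2 : D (1 + α u) = D (α u) := by rw [map_add, Derivation.map_one_eq_zero, zero_add]
      rw [b1, a1, b2, a2] at l2
      rw [hDu] at l1 l2
      -- D βu * αu = n βu; D βu * (1+αu) = n (1+βu)
      have l3 : D (β u) = n := by linear_combination l2 - l1
      rw [l3] at l1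
      have : (n : L) * (β u - α u) = 0 := by linear_combination -l1
      rcases mul_eq_zero.1 this with h | h
      · exact absurd h hn0
      · linear_combination h
    obtain ⟨w, hw'⟩ := hL' 0
    have hw : w ∉ Kp p L := fun h => hw' (Kp_le_Ad 0 h)
    ext u
    by_cases hu : α u ∈ Kp p L
    · obtain ⟨v, rfl⟩ := α.surjective w
      have h1 := hoff v hw
      have h2 := hoff (u + v) (by
        intro h
        rw [map_add] at h
        apply hw
        have := (Kp p L).sub_mem h hu
        simpa using this)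
      rw [map_add, map_add, h1] at h2
      linear_combination h2
    · exact hoff u hu

end Crest.Agent.S0010
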