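import Crest.Statements.S0066

set_option autoImplicit false
open Crest Crest.CombinatoricsR

namespace Crest.Agent.S0066

/-- The infinite zero-padded pattern. -/
def Hn (i j : ℕ) : Bool :=
  if i < 22 ∧ j < 22 then
    if 2 ≤ i ∧ 2 ≤ j then decide (i ≠ j)
    else if i = 0 ∧ j = 0 then true
    else if i = 0 then decide (j = 2)
    else if i = 1 then decide (j = 3)
    else if j = 0 then decide (i = 2)
    else decide (i = 3)
  else false

def lev (h t : ℕ) : ℕ := if t ≤ h then t else 2 * h + 1 - t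

def node (h t z : ℕ) : ℕ := z / 2 ^ (h - lev h t)

def bk (h b z : ℕ) : ℕ :=
  if b ≤ h then 2 * (node h b z * 2 ^ (h - lev h b)) + 1
  else if b ≤ 2 * h + 1 then 2 * ((node h b z + 1) * 2 ^ (h - lev h b))
  else 2 * 2 ^ h + 2

def FF (h t1 v t2 u : ℕ) : Bool :=
  if t1 = t2 then
    if t1 ≤ h then decide (2 ^ t1 ≤ v + u + 1) else decide (2 ^ (2 * h + 1 - t1) ≤ v + u)
  else if t1 = t2 + 1 then
    if t2 < h then decide (2 ^ t2 ≤ v / 2 + u + 1)
    else if t2 = h then decide (2 ^ h ≤ v + u + 1)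
    else decide (2 ^ (2 * h - t2) ≤ v + u / 2)
  else false

def gad (h b : ℕ) : ℕ := (b - (2 * h + 2)) / 22

def rol (h b : ℕ) : ℕ := (b - (2 * h + 2)) % 22

def rlo (G : ℕ) : ℕ := if G % 4 < 2 then 2 else 1

def clo (G : ℕ) : ℕ := if G % 4 < 2 then 1 else 2

theorem rlo_V {G : ℕ} (hG : G % 4 < 2) : rlo G = 2 := by unfold rlo; rw [if_pos hG]
theorem rlo_H {G : ℕ} (hG : 2 ≤ G % 4) : rlo G = 1 := by unfold rlo; rw [if_neg (by omega)]
theorem clo_V {G : ℕ} (hG : G % 4 < 2) : clo G = 1 := by unfold clo; rw [if_pos hG]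
theorem clo_H {G : ℕ} (hG : 2 ≤ G % 4) : clo G = 2 := by unfold clo; rw [if_neg (by omega)]
theorem rlo_pos (G : ℕ) : 1 ≤ rlo G := by unfold rlo; split_ifs <;> omega
theorem clo_pos (G : ℕ) : 1 ≤ clo G := by unfold clo; split_ifs <;> omega

def rowRole (h G b z : ℕ) : ℕ :=
  if b < 2 * h + 2 then
    if G % 4 < 2 then
      if b = G / 4 ∧ (b ≤ h ∨ node h b z % 2 = G % 4) then 0
      else if b = G / 4 + 1 then 1 else 22
    else
      if b = G / 4 + 1 ∧ (h ≤ G / 4 ∨ node h b z % 2 = G % 4 - 2) then 0 else 22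
  else
    if gad h b = G ∧ G < 8 * h + 4 ∧ rlo G ≤ rol h b then rol h b else 22

def colRole (h G b z : ℕ) : ℕ :=
  if b < 2 * h + 2 then
    if G % 4 < 2 then
      if b = G / 4 ∧ (b ≤ h ∨ (node h b z + G % 4) % 2 = 1) then 0 else 22
    else
      if b = G / 4 then 0
      else if b = G / 4 + 1 ∧ (h ≤ G / 4 ∨ (node h b z + (G % 4 - 2)) % 2 = 1) then 1 else 22
  else
    if gad h b = G ∧ G < 8 * h + 4 ∧ clo G ≤ rol h b then rol h b else 22

def M (h b z b' z' : ℕ) : Bool :=
  if b' < 2 * h + 2 then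
    if b < 2 * h + 2 then FF h b (node h b z) b' (node h b' z')
    else Hn (rowRole h (gad h b) b z) (colRole h (gad h b) b' z')
  else Hn (rowRole h (gad h b') b z) (colRole h (gad h b') b' z')

/-! ### Facts on `Hn` -/

theorem Hn_ge_left {i j : ℕ} (hi : 22 ≤ i) : Hn i j = false := by
  unfold Hn; rw [if_neg]; omega

theorem Hn_ge_right {i j : ℕ} (hj : 22 ≤ j) : Hn i j = false := by
  unfold Hn; rw [if_neg]; omega

theorem Hn_lt {i j : ℕ} (h : Hn i j = true) : i < 22 ∧ j < 22 := by
  by_contra hc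
  have : Hn i j = false := by unfold Hn; rw [if_neg hc]
  rw [this] at h; exact absurd h (by decide)

theorem Hn_zero_left {j : ℕ} (h : Hn 0 j = true) : j = 0 ∨ j = 2 := by
  have h1 := Hn_lt h
  have : ∀ j, j < 22 → Hn 0 j = true → j = 0 ∨ j = 2 := by decide
  exact this j h1.2 h

theorem Hn_one_left {j : ℕ} (h : Hn 1 j = true) : j = 3 := by
  have h1 := Hn_lt h
  have : ∀ j, j < 22 → Hn 1 j = true → j = 3 := by decide
  exact this j h1.2 h

theorem Hn_zero_right {j : ℕ} (h : Hn j 0 = true) : j = 0 ∨ j = 2 := by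
  have h1 := Hn_lt h
  have : ∀ j, j < 22 → Hn j 0 = true → j = 0 ∨ j = 2 := by decide
  exact this j h1.1 h

theorem Hn_one_right {j : ℕ} (h : Hn j 1 = true) : j = 3 := by
  have h1 := Hn_lt h
  have : ∀ j, j < 22 → Hn j 1 = true → j = 3 := by decide
  exact this j h1.1 h

theorem Hn_row_zero {r : ℕ} (h2 : Hn r 2 = true) (h3 : Hn r 3 = false) (h4 : Hn r 4 = false) :
    r = 0 := by
  have h1 := Hn_lt h2
  have : ∀ r, r < 22 → Hn r 2 = true → Hn r 3 = false → Hn r 4 = false → r = 0 := by decide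
  exact this r h1.1 h2 h3 h4

theorem Hn_row_one {r : ℕ} (h2 : Hn r 2 = false) (h3 : Hn r 3 = true) (h4 : Hn r 4 = false) :
    r = 1 := by
  have h1 := Hn_lt h3
  have : ∀ r, r < 22 → Hn r 2 = false → Hn r 3 = true → Hn r 4 = false → r = 1 := by decide
  exact this r h1.1 h2 h3 h4

theorem Hn_col_zero {r : ℕ} (h2 : Hn 2 r = true) (h3 : Hn 3 r = false) (h4 : Hn 4 r = false) :
    r = 0 := by
  have h1 := Hn_lt h2
  have : ∀ r, r < 22 → Hn 2 r = true → Hn 3 r = false → Hn 4 r = false → r = 0 := by decide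
  exact this r h1.2 h2 h3 h4

theorem Hn_col_one {r : ℕ} (h2 : Hn 2 r = false) (h3 : Hn 3 r = true) (h4 : Hn 4 r = false) :
    r = 1 := by
  have h1 := Hn_lt h3
  have : ∀ r, r < 22 → Hn 2 r = false → Hn 3 r = true → Hn 4 r = false → r = 1 := by decide
  exact this r h1.2 h2 h3 h4

/-! ### Facts on `FF` -/

theorem FF_mono {h t1 v t2 u v' u' : ℕ} (hF : FF h t1 v t2 u = true) (hv : v ≤ v') (hu : u ≤ u') :
    FF h t1 v' t2 u' = true := by
  unfold FF at *
  split_ifs at * <;> simp only [decide_eq_true_eq] at * <;> omega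

theorem FF_types {h t1 v t2 u : ℕ} (hF : FF h t1 v t2 u = true) : t1 = t2 ∨ t1 = t2 + 1 := by
  unfold FF at hF
  split_ifs at hF <;> omega

/-! ### nodes and order -/

theorem lev_le (h t : ℕ) (ht : t ≤ 2 * h + 1) : lev h t ≤ h := by
  unfold lev; split_ifs <;> omega

theorem bk_main_lt {h b z : ℕ} (hz : z < 2 ^ h) (hb : b < 2 * h + 2) : bk h b z < 2 * 2 ^ h + 2 := by
  have hl := lev_le h b (by omega)
  have hpow : 2 ^ h = 2 ^ (lev h b) * 2 ^ (h - lev h b) := by
    rw [← pow_add]; congr 1; omega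
  have hn : node h b z < 2 ^ (lev h b) := by
    unfold node
    rw [Nat.div_lt_iff_lt_mul (by positivity), ← hpow]; exact hz
  have h1 : (node h b z + 1) * 2 ^ (h - lev h b) ≤ 2 ^ (lev h b) * 2 ^ (h - lev h b) :=
    Nat.mul_le_mul_right _ hn
  have h2 : node h b z * 2 ^ (h - lev h b) ≤ (node h b z + 1) * 2 ^ (h - lev h b) :=
    Nat.mul_le_mul_right _ (by omega)
  unfold bk
  split_ifs <;> omega

theorem bk_nonmain {h b z : ℕ} (hb : 2 * h + 2 ≤ b) : bk h b z = 2 * 2 ^ h + 2 := by
  unfold bk; rw [if_neg (by omega), if_neg (by omega)]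

theorem node_le_of_bk_le {h b z z' : ℕ} (hb : b < 2 * h + 2) (hk : bk h b z ≤ bk h b z') :
    node h b z ≤ node h b z' := by
  unfold bk at hk
  split_ifs at hk with h1 h2
  · have : node h b z * 2 ^ (h - lev h b) ≤ node h b z' * 2 ^ (h - lev h b) := by omega
    exact Nat.le_of_mul_le_mul_right this (by positivity)
  · have : (node h b z + 1) * 2 ^ (h - lev h b) ≤ (node h b z' + 1) * 2 ^ (h - lev h b) := by omega
    have := Nat.le_of_mul_le_mul_right this (by positivity)
    omega
  · omega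

/-- order consequence for consecutive types, opening -/
theorem node_step_open {h t z z' : ℕ} (ht : t < h) (hk : bk h t z ≤ bk h (t + 1) z') :
    node h t z ≤ node h (t + 1) z' / 2 := by
  unfold bk at hk
  rw [if_pos (by omega), if_pos (by omega)] at hk
  have e1 : lev h t = t := by unfold lev; rw [if_pos (by omega)]
  have e2 : lev h (t + 1) = t + 1 := by unfold lev; rw [if_pos (by omega)]
  rw [e1, e2] at hk
  have e3 : 2 ^ (h - t) = 2 * 2 ^ (h - (t + 1)) := by
    rw [← pow_succ']; congr 1; omega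
  rw [e3] at hk
  have h4 : (node h t z * 2) * 2 ^ (h - (t + 1)) ≤ node h (t + 1) z' * 2 ^ (h - (t + 1)) := by
    have : node h t z * (2 * 2 ^ (h - (t + 1))) ≤ node h (t + 1) z' * 2 ^ (h - (t + 1)) := by omega
    rwa [← mul_assoc] at this
  have := Nat.le_of_mul_le_mul_right h4 (by positivity)
  omega

theorem node_step_mid {h z z' : ℕ} (hk : bk h h z ≤ bk h (h + 1) z') :
    node h h z ≤ node h (h + 1) z' := by
  unfold bk at hk
  rw [if_pos (by omega)] at hk
  rw [if_neg (by omega)] at hk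
  have e1 : lev h h = h := by unfold lev; rw [if_pos (by omega)]
  have e2 : lev h (h + 1) = h := by unfold lev; rw [if_neg (by omega)]; omega
  rw [e1, e2] at hk
  simp only [Nat.sub_self, pow_zero, mul_one] at hk
  split_ifs at hk
  · omega
  · omega

theorem node_step_close {h t z z' : ℕ} (ht : h < t) (ht2 : t ≤ 2 * h) (hk : bk h t z ≤ bk h (t + 1) z') :
    node h t z / 2 ≤ node h (t + 1) z' := by
  unfold bk at hk
  rw [if_neg (by omega), if_pos (by omega), if_neg (by omega), if_pos (by omega)] at hk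
  have e1 : lev h t = 2 * h + 1 - t := by unfold lev; rw [if_neg (by omega)]
  have e2 : lev h (t + 1) = 2 * h - t := by unfold lev; rw [if_neg (by omega)]; omega
  rw [e1, e2] at hk
  have e3 : 2 ^ (h - (2 * h - t)) = 2 * 2 ^ (h - (2 * h + 1 - t)) := by
    rw [← pow_succ']; congr 1; omega
  rw [e3] at hk
  have h4 : (node h t z + 1) * 2 ^ (h - (2 * h + 1 - t)) ≤
      ((node h (t + 1) z' + 1) * 2) * 2 ^ (h - (2 * h + 1 - t)) := by
    have : (node h t z + 1) * 2 ^ (h - (2 * h + 1 - t)) ≤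
      (node h (t + 1) z' + 1) * (2 * 2 ^ (h - (2 * h + 1 - t))) := by omega
    rwa [← mul_assoc] at this
  have := Nat.le_of_mul_le_mul_right h4 (by positivity)
  omega

/-! ### Roles -/

theorem rowRole_zero {h G b z : ℕ} (hr : rowRole h G b z = 0) :
    b < 2 * h + 2 ∧ ((G % 4 < 2 ∧ b = G / 4 ∧ (b ≤ h ∨ node h b z % 2 = G % 4)) ∨
      (2 ≤ G % 4 ∧ b = G / 4 + 1 ∧ (h ≤ G / 4 ∨ node h b z % 2 = G % 4 - 2))) := by
  have hp := rlo_pos G
  unfold rowRole at hr
  split_ifs at hr with h1 h2 h3 h4 h5 h6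
  · exact ⟨h1, Or.inl ⟨h2, h3⟩⟩
  · exact ⟨h1, Or.inr ⟨by omega, h5⟩⟩
  · omega

theorem rowRole_one {h G b z : ℕ} (hr : rowRole h G b z = 1) :
    (b < 2 * h + 2 ∧ G % 4 < 2 ∧ b = G / 4 + 1) ∨
      (2 * h + 2 ≤ b ∧ 2 ≤ G % 4 ∧ gad h b = G ∧ rol h b = 1) := by
  unfold rowRole at hr
  by_cases h1 : b < 2 * h + 2
  · rw [if_pos h1] at hr
    left
    by_cases h2 : G % 4 < 2
    · rw [if_pos h2] at hr
      split_ifs at hr with h3 h4
      · exact ⟨h1, h2, h4⟩
      · omega
    · rw [if_neg h2] at hr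
      split_ifs at hr with h3
      · omega
  · rw [if_neg h1] at hr
    right
    by_cases h6 : gad h b = G ∧ G < 8 * h + 4 ∧ rlo G ≤ rol h b
    · rw [if_pos h6] at hr
      refine ⟨by omega, ?_, h6.1, hr⟩
      by_contra hc
      have := rlo_V (G := G) (by omega)
      omega
    · rw [if_neg h6] at hr
      omega

theorem colRole_zero {h G b z : ℕ} (hr : colRole h G b z = 0) :
    b < 2 * h + 2 ∧ ((G % 4 < 2 ∧ b = G / 4 ∧ (b ≤ h ∨ (node h b z + G % 4) % 2 = 1)) ∨
      (2 ≤ G % 4 ∧ b = G / 4)) := by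
  have hp := clo_pos G
  unfold colRole at hr
  split_ifs at hr with h1 h2 h3 h4 h5 h6
  · exact ⟨h1, Or.inl ⟨h2, h3⟩⟩
  · exact ⟨h1, Or.inr ⟨by omega, h4⟩⟩
  · omega

theorem colRole_one {h G b z : ℕ} (hr : colRole h G b z = 1) :
    (b < 2 * h + 2 ∧ 2 ≤ G % 4 ∧ b = G / 4 + 1 ∧
      (h ≤ G / 4 ∨ (node h b z + (G % 4 - 2)) % 2 = 1)) ∨
      (2 * h + 2 ≤ b ∧ G % 4 < 2 ∧ gad h b = G ∧ rol h b = 1) := by
  unfold colRole at hr
  by_cases h1 : b < 2 * h + 2
  · rw [if_pos h1] at hr
    left
    by_cases h2 : G % 4 < 2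
    · rw [if_pos h2] at hr
      split_ifs at hr with h3
      · omega
    · rw [if_neg h2] at hr
      split_ifs at hr with h3 h4
      · exact ⟨h1, by omega, h4.1, h4.2⟩
      · omega
  · rw [if_neg h1] at hr
    right
    by_cases h6 : gad h b = G ∧ G < 8 * h + 4 ∧ clo G ≤ rol h b
    · rw [if_pos h6] at hr
      refine ⟨by omega, ?_, h6.1, hr⟩
      by_contra hc
      have := clo_H (G := G) (by omega)
      omega
    · rw [if_neg h6] at hr
      omega

theorem rowRole_main_cases {h G b z : ℕ} (hb : b < 2 * h + 2) :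
    rowRole h G b z = 0 ∨ rowRole h G b z = 1 ∨ rowRole h G b z = 22 := by
  unfold rowRole
  rw [if_pos hb]
  split_ifs <;> simp

theorem colRole_main_cases {h G b z : ℕ} (hb : b < 2 * h + 2) :
    colRole h G b z = 0 ∨ colRole h G b z = 1 ∨ colRole h G b z = 22 := by
  unfold colRole
  rw [if_pos hb]
  split_ifs <;> simp

theorem rowRole_aux_lt {h G b z : ℕ} (hb : 2 * h + 2 ≤ b) (hr : rowRole h G b z < 22) :
    gad h b = G ∧ G < 8 * h + 4 ∧ rlo G ≤ rol h b ∧ rowRole h G b z = rol h b := by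
  unfold rowRole at *
  rw [if_neg (by omega)] at *
  split_ifs at * with h1
  · exact ⟨h1.1, h1.2.1, h1.2.2, rfl⟩
  · omega

theorem colRole_aux_lt {h G b z : ℕ} (hb : 2 * h + 2 ≤ b) (hr : colRole h G b z < 22) :
    gad h b = G ∧ G < 8 * h + 4 ∧ clo G ≤ rol h b ∧ colRole h G b z = rol h b := by
  unfold colRole at *
  rw [if_neg (by omega)] at *
  split_ifs at * with h1
  · exact ⟨h1.1, h1.2.1, h1.2.2, rfl⟩
  · omega

/-! ### Matrix values -/

theorem M_main {h b z b' z' : ℕ} (hb : b < 2 * h + 2) (hb' : b' < 2 * h + 2) :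
    M h b z b' z' = FF h b (node h b z) b' (node h b' z') := by
  unfold M; rw [if_pos hb', if_pos hb]

theorem M_col {h b z b' z' : ℕ} (hb' : 2 * h + 2 ≤ b') :
    M h b z b' z' = Hn (rowRole h (gad h b') b z) (colRole h (gad h b') b' z') := by
  unfold M; rw [if_neg (by omega)]

theorem M_row {h b z b' z' : ℕ} (hb : 2 * h + 2 ≤ b) :
    M h b z b' z' = Hn (rowRole h (gad h b) b z) (colRole h (gad h b) b' z') := by
  by_cases hb' : b' < 2 * h + 2
  · unfold M; rw [if_pos hb', if_neg (by omega)]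
  · rw [M_col (by omega)]
    by_cases hg : gad h b = gad h b'
    · rw [hg]
    · rw [Bool.eq_iff_iff]
      constructor
      · intro h1
        have h2 := rowRole_aux_lt hb (Hn_lt h1).1
        exact absurd h2.1 hg
      · intro h1
        have h2 := colRole_aux_lt (by omega : 2 * h + 2 ≤ b') (Hn_lt h1).2
        exact absurd h2.1.symm hg

def cls (h b z : ℕ) : ℕ × ℕ := (b, if b < 2 * h + 2 then node h b z % 2 else 0)

theorem rowRole_congr {h G b z z' : ℕ} (hc : cls h b z = cls h b z') :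
    rowRole h G b z = rowRole h G b z' := by
  unfold rowRole
  by_cases hb : b < 2 * h + 2
  · have hn : node h b z % 2 = node h b z' % 2 := by
      unfold cls at hc; simp only [if_pos hb, Prod.mk.injEq] at hc; exact hc.2
    rw [if_pos hb, if_pos hb, hn]
  · rw [if_neg hb, if_neg hb]

theorem colRole_congr {h G b z z' : ℕ} (hc : cls h b z = cls h b z') :
    colRole h G b z = colRole h G b z' := by
  unfold colRole
  by_cases hb : b < 2 * h + 2
  · have hn : node h b z % 2 = node h b z' % 2 := by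
      unfold cls at hc; simp only [if_pos hb, Prod.mk.injEq] at hc; exact hc.2
    have e1 : (node h b z + G % 4) % 2 = (node h b z' + G % 4) % 2 := by omega
    have e2 : (node h b z + (G % 4 - 2)) % 2 = (node h b z' + (G % 4 - 2)) % 2 := by omega
    rw [if_pos hb, if_pos hb, e1, e2]
  · rw [if_neg hb, if_neg hb]

/-- rows of the same class are nested -/
theorem nested_rows {h b z1 z2 b' z' : ℕ} (hc : cls h b z1 = cls h b z2)
    (hk : bk h b z1 ≤ bk h b z2) (hM : M h b z1 b' z' = true) : M h b z2 b' z' = true := by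
  by_cases hb' : b' < 2 * h + 2
  · by_cases hb : b < 2 * h + 2
    · rw [M_main hb hb'] at *
      exact FF_mono hM (node_le_of_bk_le hb hk) le_rfl
    · rw [M_row (by omega)] at *
      rw [rowRole_congr hc] at hM; exact hM
  · rw [M_col (by omega)] at *
    rw [rowRole_congr hc] at hM; exact hM

theorem nested_cols {h b z b' z1 z2 : ℕ} (hc : cls h b' z1 = cls h b' z2)
    (hk : bk h b' z1 ≤ bk h b' z2) (hM : M h b z b' z1 = true) : M h b z b' z2 = true := by
  by_cases hb' : b' < 2 * h + 2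
  · by_cases hb : b < 2 * h + 2
    · rw [M_main hb hb'] at *
      exact FF_mono hM le_rfl (node_le_of_bk_le hb' hk)
    · rw [M_row (by omega)] at *
      rw [colRole_congr hc] at hM; exact hM
  · rw [M_col (by omega)] at *
    rw [colRole_congr hc] at hM; exact hM

def aux (h G j : ℕ) : ℕ := 2 * h + 2 + 22 * G + j

def Srow (h t : ℕ) : Finset (ℕ × ℕ) :=
  [(t, 0), (t, 1), (t - 1, 0), (t - 1, 1), (aux h (4 * t) 2, 0), (aux h (4 * t + 1) 2, 0),
    (aux h (4 * (t - 1)) 3, 0), (aux h (4 * (t - 1) + 1) 3, 0), (aux h (4 * (t - 1) + 2) 2, 0),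
    (aux h (4 * (t - 1) + 3) 2, 0)].toFinset

def Scol (h t : ℕ) : Finset (ℕ × ℕ) :=
  [(t, 0), (t, 1), (t + 1, 0), (t + 1, 1), (aux h (4 * t) 2, 0), (aux h (4 * t + 1) 2, 0),
    (aux h (4 * t + 2) 2, 0), (aux h (4 * t + 3) 2, 0), (aux h (4 * (t - 1) + 2) 3, 0),
    (aux h (4 * (t - 1) + 3) 3, 0)].toFinset

theorem Srow_card (h t : ℕ) : (Srow h t).card ≤ 10 := List.toFinset_card_le _

theorem Scol_card (h t : ℕ) : (Scol h t).card ≤ 10 := List.toFinset_card_le _

theorem aux_eq {h b : ℕ} (hb : 2 * h + 2 ≤ b) : b = aux h (gad h b) (rol h b) := by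
  unfold aux gad rol; omega

theorem mem_Srow {h t : ℕ} {p : ℕ × ℕ} : p ∈ Srow h t ↔ p = (t, 0) ∨ p = (t, 1) ∨
    p = (t - 1, 0) ∨ p = (t - 1, 1) ∨ p = (aux h (4 * t) 2, 0) ∨ p = (aux h (4 * t + 1) 2, 0) ∨
    p = (aux h (4 * (t - 1)) 3, 0) ∨ p = (aux h (4 * (t - 1) + 1) 3, 0) ∨
    p = (aux h (4 * (t - 1) + 2) 2, 0) ∨ p = (aux h (4 * (t - 1) + 3) 2, 0) := by
  simp only [Srow, List.mem_toFinset, List.mem_cons, List.not_mem_nil, or_false]

theorem mem_Scol {h t : ℕ} {p : ℕ × ℕ} : p ∈ Scol h t ↔ p = (t, 0) ∨ p = (t, 1) ∨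
    p = (t + 1, 0) ∨ p = (t + 1, 1) ∨ p = (aux h (4 * t) 2, 0) ∨ p = (aux h (4 * t + 1) 2, 0) ∨
    p = (aux h (4 * t + 2) 2, 0) ∨ p = (aux h (4 * t + 3) 2, 0) ∨
    p = (aux h (4 * (t - 1) + 2) 3, 0) ∨ p = (aux h (4 * (t - 1) + 3) 3, 0) := by
  simp only [Scol, List.mem_toFinset, List.mem_cons, List.not_mem_nil, or_false]

theorem see_row {h b z b' z' : ℕ} (hb : b < 2 * h + 2) (hM : M h b z b' z' = true) :
    cls h b' z' ∈ Srow h b := by
  rw [mem_Srow]
  by_cases hb' : b' < 2 * h + 2
  · rw [M_main hb hb'] at hM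
    have h1 := FF_types hM
    unfold cls
    rw [if_pos hb']
    rcases h1 with rfl | rfl
    · rcases Nat.mod_two_eq_zero_or_one (node h b z') with h2 | h2
      · rw [h2]; simp
      · rw [h2]; simp
    · rcases Nat.mod_two_eq_zero_or_one (node h b' z') with h2 | h2
      · rw [h2]; simp
      · rw [h2]; simp
  · have hb'' : 2 * h + 2 ≤ b' := by omega
    rw [M_col hb''] at hM
    have hl := Hn_lt hM
    obtain ⟨hg1, hg2, hg3, hg5⟩ := colRole_aux_lt hb'' hl.2
    have hp := clo_pos (gad h b')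
    rw [hg5] at hM
    have hcl : cls h b' z' = (b', 0) := by unfold cls; rw [if_neg hb']
    rw [hcl]
    have hb3 := aux_eq hb''
    rcases rowRole_main_cases (G := gad h b') (z := z) hb with hr | hr | hr
    · rw [hr] at hM
      have h2 := rowRole_zero hr
      have h3 : rol h b' = 2 := by
        rcases Hn_zero_left hM with h3 | h3 <;> omega
      rw [h3] at hb3
      have h4 : gad h b' = 4 * b ∨ gad h b' = 4 * b + 1 ∨ gad h b' = 4 * (b - 1) + 2 ∨
        gad h b' = 4 * (b - 1) + 3 := by omega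
      rcases h4 with h4 | h4 | h4 | h4 <;> (rw [h4] at hb3; rw [← hb3]; simp)
    · rw [hr] at hM
      have h2 := rowRole_one hr
      have h3 : rol h b' = 3 := Hn_one_left hM
      rw [h3] at hb3
      have h4 : gad h b' = 4 * (b - 1) ∨ gad h b' = 4 * (b - 1) + 1 := by omega
      rcases h4 with h4 | h4 <;> (rw [h4] at hb3; rw [← hb3]; simp)
    · rw [hr] at hl; omega

theorem see_col {h b z b' z' : ℕ} (hb : b' < 2 * h + 2) (hM : M h b z b' z' = true) :
    cls h b z ∈ Scol h b' := by
  rw [mem_Scol]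
  by_cases hb' : b < 2 * h + 2
  · rw [M_main hb' hb] at hM
    have h1 := FF_types hM
    unfold cls
    rw [if_pos hb']
    rcases h1 with rfl | rfl
    · rcases Nat.mod_two_eq_zero_or_one (node h b z) with h2 | h2
      · rw [h2]; simp
      · rw [h2]; simp
    · rcases Nat.mod_two_eq_zero_or_one (node h (b' + 1) z) with h2 | h2
      · rw [h2]; simp
      · rw [h2]; simp
  · have hb'' : 2 * h + 2 ≤ b := by omega
    rw [M_row hb''] at hM
    have hl := Hn_lt hM
    obtain ⟨hg1, hg2, hg3, hg5⟩ := rowRole_aux_lt hb'' hl.1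
    have hp := rlo_pos (gad h b)
    rw [hg5] at hM
    have hcl : cls h b z = (b, 0) := by unfold cls; rw [if_neg hb']
    rw [hcl]
    have hb3 := aux_eq hb''
    rcases colRole_main_cases (G := gad h b) (z := z') hb with hr | hr | hr
    · rw [hr] at hM
      have h2 := colRole_zero hr
      have h3 : rol h b = 2 := by
        rcases Hn_zero_right hM with h3 | h3 <;> omega
      rw [h3] at hb3
      have h4 : gad h b = 4 * b' ∨ gad h b = 4 * b' + 1 ∨ gad h b = 4 * b' + 2 ∨
        gad h b = 4 * b' + 3 := by omega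
      rcases h4 with h4 | h4 | h4 | h4 <;> (rw [h4] at hb3; rw [← hb3]; simp)
    · rw [hr] at hM
      have h2 := colRole_one hr
      have h3 : rol h b = 3 := Hn_one_right hM
      rw [h3] at hb3
      have h4 : gad h b = 4 * (b' - 1) + 2 ∨ gad h b = 4 * (b' - 1) + 3 := by omega
      rcases h4 with h4 | h4 <;> (rw [h4] at hb3; rw [← hb3]; simp)
    · rw [hr] at hl; omega

/-! ### No violations in the main part -/

theorem node_h (h z : ℕ) : node h h z = z := by
  unfold node lev; rw [if_pos le_rfl]; simp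

theorem node_h1 (h z : ℕ) : node h (h + 1) z = z := by
  unfold node lev; rw [if_neg (by omega)]
  have : h - (2 * h + 1 - (h + 1)) = 0 := by omega
  rw [this]; simp

theorem V_ok {h G b0 z0 b1 z1 c0 w0 : ℕ} (hG : G < 8 * h + 4) (hs : G % 4 < 2)
    (hb0 : b0 = G / 4 ∧ (b0 ≤ h ∨ node h b0 z0 % 2 = G % 4)) (hb1 : b1 = G / 4 + 1)
    (hc0 : c0 = G / 4 ∧ (c0 ≤ h ∨ (node h c0 w0 + G % 4) % 2 = 1))
    (hk : bk h b0 z0 ≤ bk h b1 z1)
    (hF : FF h b0 (node h b0 z0) c0 (node h c0 w0) = true) :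
    FF h b1 (node h b1 z1) c0 (node h c0 w0) = true := by
  obtain ⟨rfl, hb0'⟩ := hb0
  obtain ⟨rfl, hc0'⟩ := hc0
  subst hb1
  generalize ht : G / 4 = t at *
  have htle : t ≤ 2 * h := by omega
  rcases lt_trichotomy t h with h1 | h1 | h1
  · have h2 := node_step_open h1 hk
    unfold FF at *
    rw [if_pos rfl, if_pos (by omega)] at hF
    rw [if_neg (by omega), if_pos rfl, if_pos h1]
    simp only [decide_eq_true_eq] at *
    omega
  · subst h1
    have h2 := node_step_mid hk
    unfold FF at *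
    rw [if_pos rfl, if_pos (by omega)] at hF
    rw [if_neg (by omega), if_pos rfl, if_neg (by omega), if_pos rfl]
    simp only [decide_eq_true_eq] at *
    omega
  · have h2 := node_step_close h1 htle hk
    unfold FF at *
    rw [if_pos rfl, if_neg (by omega)] at hF
    rw [if_neg (by omega), if_pos rfl, if_neg (by omega), if_neg (by omega)]
    simp only [decide_eq_true_eq] at *
    have e : 2 ^ (2 * h + 1 - t) = 2 * 2 ^ (2 * h - t) := by
      rw [← pow_succ']; congr 1; omega
    rw [e] at hF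
    omega

theorem H_ok {h G b0 z0 c0 w0 c1 w1 : ℕ} (hG : G < 8 * h + 4) (hs : 2 ≤ G % 4)
    (hb0 : b0 = G / 4 + 1 ∧ (h ≤ G / 4 ∨ node h b0 z0 % 2 = G % 4 - 2))
    (hc0 : c0 = G / 4)
    (hc1 : c1 = G / 4 + 1 ∧ (h ≤ G / 4 ∨ (node h c1 w1 + (G % 4 - 2)) % 2 = 1))
    (hk : bk h c0 w0 ≤ bk h c1 w1)
    (hF : FF h b0 (node h b0 z0) c0 (node h c0 w0) = true)
    (hF' : FF h b0 (node h b0 z0) c1 (node h c1 w1) = false) :
    G / 4 = h ∧ w1 = w0 ∧ z0 + w0 + 1 = 2 ^ h := by
  obtain ⟨rfl, hb0'⟩ := hb0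
  obtain ⟨rfl, hc1'⟩ := hc1
  subst hc0
  generalize ht : G / 4 = t at *
  have htle : t ≤ 2 * h := by omega
  rcases lt_trichotomy t h with h1 | h1 | h1
  · exfalso
    have h2 := node_step_open h1 hk
    unfold FF at *
    rw [if_neg (by omega), if_pos rfl, if_pos h1] at hF
    rw [if_pos rfl, if_pos (by omega)] at hF'
    simp only [decide_eq_true_eq, decide_eq_false_iff_not] at *
    have e : 2 ^ (t + 1) = 2 * 2 ^ t := by rw [← pow_succ']
    rw [e] at hF'
    omega
  · subst h1
    have h2 := node_step_mid hk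
    rw [node_h, node_h1] at h2
    rw [node_h1, node_h] at hF
    rw [node_h1, node_h1] at hF'
    unfold FF at *
    rw [if_neg (by omega), if_pos rfl, if_neg (by omega), if_pos rfl] at hF
    rw [if_pos rfl, if_neg (by omega)] at hF'
    have e : 2 * t + 1 - (t + 1) = t := by omega
    rw [e] at hF'
    simp only [decide_eq_true_eq, decide_eq_false_iff_not] at hF hF'
    refine ⟨rfl, ?_, ?_⟩ <;> omega
  · exfalso
    have h2 := node_step_close h1 htle hk
    unfold FF at *
    rw [if_neg (by omega), if_pos rfl, if_neg (by omega), if_neg (by omega)] at hF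
    rw [if_pos rfl, if_neg (by omega)] at hF'
    have e : 2 * h + 1 - (t + 1) = 2 * h - t := by omega
    rw [e] at hF'
    simp only [decide_eq_true_eq, decide_eq_false_iff_not] at *
    omega

/-! ### Structure of copies -/

/-- the order on indices -/
def lt' (h b z b' z' : ℕ) : Prop :=
  bk h b z < bk h b' z' ∨ (bk h b z = bk h b' z' ∧ (b < b' ∨ (b = b' ∧ z < z')))

theorem squeeze (c : ℕ → ℕ) (h2 : 2 ≤ c 2) (hlt : ∀ i, 2 ≤ i → i < 21 → c i < c (i + 1))
    (h21 : c 21 < 22) : ∀ i, 2 ≤ i → i < 22 → c i = i := by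
  have lo : ∀ i, 2 ≤ i → i < 22 → i ≤ c i := by
    intro i hi
    induction i, hi using Nat.le_induction with
    | base => intro _; exact h2
    | succ n hn ih =>
      intro hlt'
      have h1 := ih (by omega)
      have h2 := hlt n hn (by omega)
      omega
  have hi : ∀ k, k ≤ 19 → c (21 - k) ≤ 21 - k := by
    intro k
    induction k with
    | zero => intro _; simp only [Nat.sub_zero]; omega
    | succ n ih =>
      intro hn
      have h1 := ih (by omega)
      have h2 := hlt (21 - (n + 1)) (by omega) (by omega)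
      have e : 21 - (n + 1) + 1 = 21 - n := by omega
      rw [e] at h2
      omega
  intro i h1 h2
  have h3 := lo i h1 h2
  have h4 := hi (21 - i) (by omega)
  have e : 21 - (21 - i) = i := by omega
  rw [e] at h4
  omega

theorem K_val {i j : ℕ} (hi : 2 ≤ i) (hi' : i < 22) (hj : 2 ≤ j) (hj' : j < 22) :
    Hn i j = decide (i ≠ j) := by
  unfold Hn; rw [if_pos ⟨hi', hj'⟩, if_pos ⟨hi, hj⟩]

theorem K_ne {i j : ℕ} (hi : 2 ≤ i) (hi' : i < 22) (hj : 2 ≤ j) (hj' : j < 22) (hij : i ≠ j) :
    Hn i j = true := by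
  rw [K_val hi hi' hj hj']; exact decide_eq_true hij

theorem K_eq {i : ℕ} (hi : 2 ≤ i) (hi' : i < 22) : Hn i i = false := by
  rw [K_val hi hi' hi hi']; simp

theorem lt'_bk {h b z b' z' : ℕ} (hl : lt' h b z b' z') : bk h b z ≤ bk h b' z' := by
  rcases hl with hl | hl
  · exact hl.le
  · exact hl.1.le

section copy

variable {h : ℕ} {fb fz gb gz : ℕ → ℕ}
  (hfz : ∀ i, fz i < 2 ^ h) (hgz : ∀ i, gz i < 2 ^ h)
  (hf : ∀ i j, i < j → j < 22 → lt' h (fb i) (fz i) (fb j) (fz j))
  (hg : ∀ i j, i < j → j < 22 → lt' h (gb i) (gz i) (gb j) (gz j))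
  (hM : ∀ i j, i < 22 → j < 22 → M h (fb i) (fz i) (gb j) (gz j) = Hn i j)

include hg hM in
theorem row_nonmain {i : ℕ} (hi : 2 ≤ i) (hi' : i < 22) : 2 * h + 2 ≤ fb i := by
  by_contra hc
  have hmain : fb i < 2 * h + 2 := by omega
  have hmaps : ∀ j ∈ (Finset.Ico 2 22).erase i, cls h (gb j) (gz j) ∈ Srow h (fb i) := by
    intro j hj
    rw [Finset.mem_erase, Finset.mem_Ico] at hj
    apply see_row hmain
    rw [hM i j hi' hj.2.2]
    exact K_ne hi hi' hj.2.1 hj.2.2 (Ne.symm hj.1)
  have hcard : (Srow h (fb i)).card < ((Finset.Ico 2 22).erase i).card := by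
    rw [Finset.card_erase_of_mem (Finset.mem_Ico.mpr ⟨hi, hi'⟩)]
    have := Srow_card h (fb i)
    simp only [Nat.card_Ico]
    omega
  obtain ⟨j, hj, j', hj', hne, heq⟩ :=
    Finset.exists_ne_map_eq_of_card_lt_of_maps_to hcard hmaps
  rw [Finset.mem_erase, Finset.mem_Ico] at hj hj'
  have key : ∀ a c : ℕ, 2 ≤ a → a < c → c < 22 →
      cls h (gb a) (gz a) = cls h (gb c) (gz c) → False := by
    intro a c ha hac hc' he
    have hbeq : gb a = gb c := by
      unfold cls at he; exact (Prod.mk.inj he).1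
    have hk := lt'_bk (hg a c hac hc')
    have h1 : M h (fb c) (fz c) (gb a) (gz a) = true := by
      rw [hM c a hc' (by omega)]
      exact K_ne (by omega) hc' ha (by omega) (by omega)
    have h2 : M h (fb c) (fz c) (gb c) (gz c) = false := by
      rw [hM c c hc' hc']; exact K_eq (by omega) hc'
    rw [hbeq] at h1 he hk
    have h3 := nested_cols he hk h1
    rw [h2] at h3; exact absurd h3 (by decide)
  rcases lt_or_gt_of_ne hne with hlt | hlt
  · exact key j j' hj.2.1 hlt hj'.2.2 heq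
  · exact key j' j hj'.2.1 hlt hj.2.2 heq.symm

include hf hM in
theorem col_nonmain {i : ℕ} (hi : 2 ≤ i) (hi' : i < 22) : 2 * h + 2 ≤ gb i := by
  by_contra hc
  have hmain : gb i < 2 * h + 2 := by omega
  have hmaps : ∀ j ∈ (Finset.Ico 2 22).erase i, cls h (fb j) (fz j) ∈ Scol h (gb i) := by
    intro j hj
    rw [Finset.mem_erase, Finset.mem_Ico] at hj
    apply see_col hmain
    rw [hM j i hj.2.2 hi']
    exact K_ne hj.2.1 hj.2.2 hi hi' hj.1
  have hcard : (Scol h (gb i)).card < ((Finset.Ico 2 22).erase i).card := by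
    rw [Finset.card_erase_of_mem (Finset.mem_Ico.mpr ⟨hi, hi'⟩)]
    have := Scol_card h (gb i)
    simp only [Nat.card_Ico]
    omega
  obtain ⟨j, hj, j', hj', hne, heq⟩ :=
    Finset.exists_ne_map_eq_of_card_lt_of_maps_to hcard hmaps
  rw [Finset.mem_erase, Finset.mem_Ico] at hj hj'
  have key : ∀ a c : ℕ, 2 ≤ a → a < c → c < 22 →
      cls h (fb a) (fz a) = cls h (fb c) (fz c) → False := by
    intro a c ha hac hc' he
    have hbeq : fb a = fb c := by
      unfold cls at he; exact (Prod.mk.inj he).1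
    have hk := lt'_bk (hf a c hac hc')
    have h1 : M h (fb a) (fz a) (gb c) (gz c) = true := by
      rw [hM a c (by omega) hc']
      exact K_ne ha (by omega) (by omega) hc' (by omega)
    have h2 : M h (fb c) (fz c) (gb c) (gz c) = false := by
      rw [hM c c hc' hc']; exact K_eq (by omega) hc'
    rw [hbeq] at h1 he hk
    have h3 := nested_rows he hk h1
    rw [h2] at h3; exact absurd h3 (by decide)
  rcases lt_or_gt_of_ne hne with hlt | hlt
  · exact key j j' hj.2.1 hlt hj'.2.2 heq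
  · exact key j' j hj'.2.1 hlt hj.2.2 heq.symm

include hf hg hM in
theorem same_gad {i j : ℕ} (hi : 2 ≤ i) (hi' : i < 22) (hj : 2 ≤ j) (hj' : j < 22) (hij : i ≠ j) :
    gad h (fb i) = gad h (gb j) ∧ gad h (gb j) < 8 * h + 4 ∧
      rlo (gad h (gb j)) ≤ rol h (fb i) ∧ clo (gad h (gb j)) ≤ rol h (gb j) := by
  have hfi := row_nonmain hg hM hi hi'
  have hgj := col_nonmain hf hM hj hj'
  have h1 : M h (fb i) (fz i) (gb j) (gz j) = true := by
    rw [hM i j hi' hj']; exact K_ne hi hi' hj hj' hij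
  rw [M_col hgj] at h1
  have h2 := Hn_lt h1
  have h3 := rowRole_aux_lt hfi h2.1
  have h4 := colRole_aux_lt hgj h2.2
  exact ⟨h3.1, h3.2.1, h3.2.2.1, h4.2.2.1⟩

include hf hg hM in
theorem gad_all : ∀ i, 2 ≤ i → i < 22 →
    gad h (fb i) = gad h (gb 2) ∧ gad h (gb i) = gad h (gb 2) := by
  have a2 := (same_gad hf hg hM (i := 3) (j := 2) (by omega) (by omega) (by omega) (by omega)
    (by omega)).1
  have a3 := (same_gad hf hg hM (i := 2) (j := 3) (by omega) (by omega) (by omega) (by omega)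
    (by omega)).1
  have a4 := (same_gad hf hg hM (i := 4) (j := 2) (by omega) (by omega) (by omega) (by omega)
    (by omega)).1
  have a5 := (same_gad hf hg hM (i := 4) (j := 3) (by omega) (by omega) (by omega) (by omega)
    (by omega)).1
  intro i hi hi'
  have r2 : gad h (fb 2) = gad h (gb 2) := by rw [a3, ← a5, a4]
  constructor
  · by_cases h2 : i = 2
    · subst h2; exact r2
    · exact (same_gad hf hg hM hi hi' (by omega) (by omega) h2).1
  · by_cases h2 : i = 2
    · subst h2; rfl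
    · rw [← (same_gad hf hg hM (i := 2) (j := i) (by omega) (by omega) hi hi' (Ne.symm h2)).1]
      exact r2

include hf hg hM in
theorem roles_id : ∀ i, 2 ≤ i → i < 22 →
    rowRole h (gad h (gb 2)) (fb i) (fz i) = i ∧ colRole h (gad h (gb 2)) (gb i) (gz i) = i := by
  have hga := gad_all hf hg hM
  set G := gad h (gb 2) with hG
  -- basic facts
  have hrow : ∀ i, 2 ≤ i → i < 22 → rowRole h G (fb i) (fz i) = rol h (fb i) ∧
      rol h (fb i) < 22 ∧ 1 ≤ rol h (fb i) := by
    intro i hi hi'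
    have hfi := row_nonmain hg hM hi hi'
    obtain ⟨j, hj, hj', hij⟩ : ∃ j, 2 ≤ j ∧ j < 22 ∧ i ≠ j := by
      by_cases h2 : i = 2
      · exact ⟨3, by omega, by omega, by omega⟩
      · exact ⟨2, by omega, by omega, by omega⟩
    have hs := same_gad hf hg hM hi hi' hj hj' hij
    rw [(hga j hj hj').2] at hs
    have hp := rlo_pos G
    refine ⟨?_, Nat.mod_lt _ (by omega), by omega⟩
    unfold rowRole
    rw [if_neg (by omega), if_pos ⟨hs.1, hs.2.1, hs.2.2.1⟩]
  have hcol : ∀ i, 2 ≤ i → i < 22 → colRole h G (gb i) (gz i) = rol h (gb i) ∧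
      rol h (gb i) < 22 ∧ 1 ≤ rol h (gb i) := by
    intro i hi hi'
    have hgi := col_nonmain hf hM hi hi'
    obtain ⟨j, hj, hj', hij⟩ : ∃ j, 2 ≤ j ∧ j < 22 ∧ j ≠ i := by
      by_cases h2 : i = 2
      · exact ⟨3, by omega, by omega, by omega⟩
      · exact ⟨2, by omega, by omega, by omega⟩
    have hs := same_gad hf hg hM hj hj' hi hi' hij
    rw [(hga i hi hi').2] at hs
    have hp := clo_pos G
    refine ⟨?_, Nat.mod_lt _ (by omega), by omega⟩
    unfold colRole
    rw [if_neg (by omega), if_pos ⟨(hga i hi hi').2, hs.2.1, hs.2.2.2⟩]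
  have hval : ∀ i j, 2 ≤ i → i < 22 → 2 ≤ j → j < 22 →
      Hn (rol h (fb i)) (rol h (gb j)) = Hn i j := by
    intro i j hi hi' hj hj'
    have h1 := hM i j hi' hj'
    rw [M_col (col_nonmain hf hM hj hj'), (hga j hj hj').2, (hrow i hi hi').1,
      (hcol j hj hj').1] at h1
    exact h1
  have hfb : ∀ i, 2 ≤ i → i < 22 → fb i = 2 * h + 2 + 22 * G + rol h (fb i) := by
    intro i hi hi'
    have h1 := aux_eq (row_nonmain hg hM hi hi')
    unfold aux at h1
    rw [(hga i hi hi').1] at h1
    exact h1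
  have hgb : ∀ i, 2 ≤ i → i < 22 → gb i = 2 * h + 2 + 22 * G + rol h (gb i) := by
    intro i hi hi'
    have h1 := aux_eq (col_nonmain hf hM hi hi')
    unfold aux at h1
    rw [(hga i hi hi').2] at h1
    exact h1
  have hrlt : ∀ i, 2 ≤ i → i < 21 → rol h (fb i) < rol h (fb (i + 1)) := by
    intro i hi hi'
    have h1 := hf i (i + 1) (by omega) (by omega)
    have h2 := hfb i hi (by omega)
    have h3 := hfb (i + 1) (by omega) (by omega)
    have hle : fb i ≤ fb (i + 1) := by
      unfold lt' at h1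
      rw [bk_nonmain (row_nonmain hg hM hi (by omega)),
        bk_nonmain (row_nonmain hg hM (by omega : 2 ≤ i + 1) (by omega))] at h1
      omega
    have hne : rol h (fb i) ≠ rol h (fb (i + 1)) := by
      intro he
      have h4 := hval i i hi (by omega) hi (by omega)
      have h5 := hval (i + 1) i (by omega) (by omega) hi (by omega)
      rw [he, h5, K_eq hi (by omega), K_ne (by omega) (by omega) hi (by omega) (by omega)] at h4
      exact absurd h4 (by decide)
    omega
  have hclt : ∀ i, 2 ≤ i → i < 21 → rol h (gb i) < rol h (gb (i + 1)) := by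
    intro i hi hi'
    have h1 := hg i (i + 1) (by omega) (by omega)
    have h2 := hgb i hi (by omega)
    have h3 := hgb (i + 1) (by omega) (by omega)
    have hle : gb i ≤ gb (i + 1) := by
      unfold lt' at h1
      rw [bk_nonmain (col_nonmain hf hM hi (by omega)),
        bk_nonmain (col_nonmain hf hM (by omega : 2 ≤ i + 1) (by omega))] at h1
      omega
    have hne : rol h (gb i) ≠ rol h (gb (i + 1)) := by
      intro he
      have h4 := hval i i hi (by omega) hi (by omega)
      have h5 := hval i (i + 1) hi (by omega) (by omega) (by omega)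
      rw [he, h5, K_eq hi (by omega), K_ne hi (by omega) (by omega) (by omega) (by omega)] at h4
      exact absurd h4 (by decide)
    omega
  have hr2 : 2 ≤ rol h (fb 2) := by
    by_contra hc
    have h1 : rol h (fb 2) = 1 := by
      have := (hrow 2 (by omega) (by omega)).2.2
      omega
    have h3 := hval 2 3 (by omega) (by omega) (by omega) (by omega)
    have h4 := hval 2 4 (by omega) (by omega) (by omega) (by omega)
    rw [h1] at h3 h4
    have h5 := Hn_one_left (h3.trans (by decide))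
    have h6 := Hn_one_left (h4.trans (by decide))
    have h7 := hclt 3 (by omega) (by omega)
    simp only [Nat.reduceAdd] at h7
    omega
  have hc2 : 2 ≤ rol h (gb 2) := by
    by_contra hc
    have h1 : rol h (gb 2) = 1 := by
      have := (hcol 2 (by omega) (by omega)).2.2
      omega
    have h3 := hval 3 2 (by omega) (by omega) (by omega) (by omega)
    have h4 := hval 4 2 (by omega) (by omega) (by omega) (by omega)
    rw [h1] at h3 h4
    have h5 := Hn_one_right (h3.trans (by decide))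
    have h6 := Hn_one_right (h4.trans (by decide))
    have h7 := hrlt 3 (by omega) (by omega)
    simp only [Nat.reduceAdd] at h7
    omega
  have sr := squeeze (fun i => rol h (fb i)) hr2 hrlt (hrow 21 (by omega) (by omega)).2.1
  have sc := squeeze (fun i => rol h (gb i)) hc2 hclt (hcol 21 (by omega) (by omega)).2.1
  intro i hi hi'
  exact ⟨(hrow i hi hi').1.trans (sr i hi hi'), (hcol i hi hi').1.trans (sc i hi hi')⟩

include hf hg hM in
theorem copy_structure : fb 0 = h + 1 ∧ gb 0 = h ∧ gb 1 = h + 1 ∧ gz 1 = gz 0 ∧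
    fz 0 + gz 0 + 1 = 2 ^ h := by
  have hid := roles_id hf hg hM
  have hga := gad_all hf hg hM
  have hG8 : gad h (gb 2) < 8 * h + 4 :=
    (same_gad hf hg hM (i := 3) (j := 2) (by omega) (by omega) (by omega) (by omega)
    (by omega)).2.1
  set G := gad h (gb 2) with hG
  have hrr : ∀ i j, i < 22 → 2 ≤ j → j < 22 → Hn (rowRole h G (fb i) (fz i)) j = Hn i j := by
    intro i j hi hj hj'
    have h1 := hM i j hi hj'
    rw [M_col (col_nonmain hf hM hj hj'), (hga j hj hj').2, (hid j hj hj').2] at h1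
    exact h1
  have hcc : ∀ i j, i < 22 → 2 ≤ j → j < 22 → Hn j (colRole h G (gb i) (gz i)) = Hn j i := by
    intro i j hi hj hj'
    have h1 := hM j i hj' hi
    rw [M_row (row_nonmain hg hM hj hj'), (hga j hj hj').1, (hid j hj hj').1] at h1
    exact h1
  have r0 : rowRole h G (fb 0) (fz 0) = 0 :=
    Hn_row_zero ((hrr 0 2 (by omega) (by omega) (by omega)).trans (by decide))
      ((hrr 0 3 (by omega) (by omega) (by omega)).trans (by decide))
      ((hrr 0 4 (by omega) (by omega) (by omega)).trans (by decide))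
  have r1 : rowRole h G (fb 1) (fz 1) = 1 :=
    Hn_row_one ((hrr 1 2 (by omega) (by omega) (by omega)).trans (by decide))
      ((hrr 1 3 (by omega) (by omega) (by omega)).trans (by decide))
      ((hrr 1 4 (by omega) (by omega) (by omega)).trans (by decide))
  have c0 : colRole h G (gb 0) (gz 0) = 0 :=
    Hn_col_zero ((hcc 0 2 (by omega) (by omega) (by omega)).trans (by decide))
      ((hcc 0 3 (by omega) (by omega) (by omega)).trans (by decide))
      ((hcc 0 4 (by omega) (by omega) (by omega)).trans (by decide))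
  have c1 : colRole h G (gb 1) (gz 1) = 1 :=
    Hn_col_one ((hcc 1 2 (by omega) (by omega) (by omega)).trans (by decide))
      ((hcc 1 3 (by omega) (by omega) (by omega)).trans (by decide))
      ((hcc 1 4 (by omega) (by omega) (by omega)).trans (by decide))
  have R0 := rowRole_zero r0
  have R1 := rowRole_one r1
  have C0 := colRole_zero c0
  have C1 := colRole_one c1
  have m00 := hM 0 0 (by omega) (by omega)
  rw [M_main R0.1 C0.1] at m00
  rw [show Hn 0 0 = true by decide] at m00
  by_cases hs : G % 4 < 2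
  · -- vertical gadget: impossible
    exfalso
    have R0' : fb 0 = G / 4 ∧ (fb 0 ≤ h ∨ node h (fb 0) (fz 0) % 2 = G % 4) := by
      rcases R0.2 with h1 | h1
      · exact h1.2
      · omega
    have R1' : fb 1 < 2 * h + 2 ∧ fb 1 = G / 4 + 1 := by
      rcases R1 with h1 | h1
      · exact ⟨h1.1, h1.2.2⟩
      · omega
    have C0' : gb 0 = G / 4 ∧ (gb 0 ≤ h ∨ (node h (gb 0) (gz 0) + G % 4) % 2 = 1) := by
      rcases C0.2 with h1 | h1
      · exact h1.2
      · omega
    have m10 := hM 1 0 (by omega) (by omega)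
    rw [M_main R1'.1 C0.1, show Hn 1 0 = false by decide] at m10
    have := V_ok hG8 hs R0' R1'.2 C0' (lt'_bk (hf 0 1 (by omega) (by omega))) m00
    rw [m10] at this; exact absurd this (by decide)
  · have hs' : 2 ≤ G % 4 := by omega
    have R0' : fb 0 = G / 4 + 1 ∧ (h ≤ G / 4 ∨ node h (fb 0) (fz 0) % 2 = G % 4 - 2) := by
      rcases R0.2 with h1 | h1
      · omega
      · exact h1.2
    have C0' : gb 0 = G / 4 := by
      rcases C0.2 with h1 | h1
      · omega
      · exact h1.2
    have C1' : gb 1 < 2 * h + 2 ∧ gb 1 = G / 4 + 1 ∧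
        (h ≤ G / 4 ∨ (node h (gb 1) (gz 1) + (G % 4 - 2)) % 2 = 1) := by
      rcases C1 with h1 | h1
      · exact ⟨h1.1, h1.2.2⟩
      · omega
    have m01 := hM 0 1 (by omega) (by omega)
    rw [M_main R0.1 C1'.1, show Hn 0 1 = false by decide] at m01
    obtain ⟨e1, e2, e3⟩ := H_ok hG8 hs' R0' C0' C1'.2 (lt'_bk (hg 0 1 (by omega) (by omega)))
      m00 m01
    refine ⟨by rw [R0'.1, e1], by rw [C0', e1], by rw [C1'.2.1, e1], e2, e3⟩

end copy

/-! ### The gadget copies -/

/-- type sequence of a gadget copy: `m` main types `s, s+1, ..`, then auxiliary types of gadget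
`G`, then zero types. -/
def typ (h m s G i : ℕ) : ℕ :=
  if i < m then s + i else if i < 22 then 2 * h + 2 + 22 * G + i else 178 * h + 68 + i

theorem typ_main {h m s G i : ℕ} (hi : i < m) : typ h m s G i = s + i := by
  unfold typ; rw [if_pos hi]

theorem typ_aux {h m s G i : ℕ} (hi : m ≤ i) (hi' : i < 22) :
    typ h m s G i = 2 * h + 2 + 22 * G + i := by
  unfold typ; rw [if_neg (by omega), if_pos hi']

theorem typ_zero {h m s G i : ℕ} (hm : m ≤ 2) (hi' : 22 ≤ i) :
    typ h m s G i = 178 * h + 68 + i := by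
  unfold typ; rw [if_neg (by omega), if_neg (by omega)]

theorem typ_lt {h m s G i : ℕ} (hh : 1 ≤ h) (hm : m ≤ 2) (hs : s + m ≤ 2 * h + 2)
    (hG : G < 8 * h + 4) (hi : i < 66) : typ h m s G i < 386 * h + 2 := by
  unfold typ; split_ifs <;> omega

theorem typ_nonmain {h m s G i : ℕ} (hi : m ≤ i) : 2 * h + 2 ≤ typ h m s G i := by
  unfold typ; split_ifs <;> omega

theorem typ_gad {h m s G i : ℕ} (hi : m ≤ i) (hi' : i < 22) : gad h (typ h m s G i) = G := by
  rw [typ_aux hi hi']; unfold gad; omega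

theorem typ_rol {h m s G i : ℕ} (hi : m ≤ i) (hi' : i < 22) : rol h (typ h m s G i) = i := by
  rw [typ_aux hi hi']; unfold rol; omega

theorem typ_gad_zero {h m s G i : ℕ} (hm : m ≤ 2) (hi' : 22 ≤ i) :
    8 * h + 4 ≤ gad h (typ h m s G i) := by
  rw [typ_zero hm hi']; unfold gad; omega

theorem typ_strict {h m s G : ℕ} (_hm : m ≤ 2) (hs : s + m ≤ 2 * h + 2)
    (hG : G < 8 * h + 4) (ζ : ℕ → ℕ) (hζ : ∀ b, ζ b < 2 ^ h)
    (hbk : ∀ t, t ≤ 2 * h → bk h t (ζ t) ≤ bk h (t + 1) (ζ (t + 1)))
    {i j : ℕ} (hij : i < j) :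
    lt' h (typ h m s G i) (ζ (typ h m s G i)) (typ h m s G j) (ζ (typ h m s G j)) := by
  by_cases hi : i < m
  · by_cases hj : j < m
    · -- i = 0, j = 1
      have e1 : typ h m s G i = s + i := typ_main hi
      have e2 : typ h m s G j = (s + i) + 1 := by rw [typ_main hj]; omega
      rw [e1, e2]
      have h1 := hbk (s + i) (by omega)
      unfold lt'
      omega
    · left
      rw [bk_nonmain (typ_nonmain (i := j) (by omega))]
      apply bk_main_lt (hζ _)
      rw [typ_main hi]; omega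
  · right
    rw [bk_nonmain (typ_nonmain (i := i) (by omega)), bk_nonmain (typ_nonmain (i := j) (by omega))]
    refine ⟨rfl, Or.inl ?_⟩
    unfold typ
    split_ifs <;> omega

theorem rowRole_typ {h m s G : ℕ} (hm : m ≤ 2) (hG : G < 8 * h + 4) (hlo : rlo G = m)
    (ζ : ℕ → ℕ)
    (hmain : ∀ i, i < m → rowRole h G (s + i) (ζ (s + i)) = i) (i : ℕ) :
    rowRole h G (typ h m s G i) (ζ (typ h m s G i)) = min i 22 := by
  by_cases hi : i < m
  · rw [typ_main hi, hmain i hi]; omega
  · by_cases hi' : i < 22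
    · have h1 := typ_nonmain (h := h) (m := m) (s := s) (G := G) (i := i) (by omega)
      unfold rowRole
      rw [if_neg (by omega), typ_gad (by omega) hi', typ_rol (by omega) hi', if_pos]
      · omega
      · exact ⟨rfl, hG, by omega⟩
    · have h1 := typ_nonmain (h := h) (m := m) (s := s) (G := G) (i := i) (by omega)
      have h2 := typ_gad_zero (h := h) (m := m) (s := s) (G := G) (i := i) hm (by omega)
      unfold rowRole
      rw [if_neg (by omega), if_neg (by omega)]
      omega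

theorem colRole_typ {h m s G : ℕ} (hm : m ≤ 2) (hG : G < 8 * h + 4) (hlo : clo G = m)
    (ζ : ℕ → ℕ)
    (hmain : ∀ i, i < m → colRole h G (s + i) (ζ (s + i)) = i) (i : ℕ) :
    colRole h G (typ h m s G i) (ζ (typ h m s G i)) = min i 22 := by
  by_cases hi : i < m
  · rw [typ_main hi, hmain i hi]; omega
  · by_cases hi' : i < 22
    · have h1 := typ_nonmain (h := h) (m := m) (s := s) (G := G) (i := i) (by omega)
      unfold colRole
      rw [if_neg (by omega), typ_gad (by omega) hi', typ_rol (by omega) hi', if_pos]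
      · omega
      · exact ⟨rfl, hG, by omega⟩
    · have h1 := typ_nonmain (h := h) (m := m) (s := s) (G := G) (i := i) (by omega)
      have h2 := typ_gad_zero (h := h) (m := m) (s := s) (G := G) (i := i) hm (by omega)
      unfold colRole
      rw [if_neg (by omega), if_neg (by omega)]
      omega

theorem M_typ {h m s G m' s' : ℕ} (hm : m ≤ 2) (hm' : m' ≤ 2)
    (ζ ζ' : ℕ → ℕ)
    (hrow : ∀ i, rowRole h G (typ h m s G i) (ζ (typ h m s G i)) = min i 22)
    (hcol : ∀ i, colRole h G (typ h m' s' G i) (ζ' (typ h m' s' G i)) = min i 22)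
    {i j : ℕ} (hij : m ≤ i ∨ m' ≤ j) :
    M h (typ h m s G i) (ζ (typ h m s G i)) (typ h m' s' G j) (ζ' (typ h m' s' G j)) = Hn i j := by
  by_cases hj : 22 ≤ j
  · rw [M_col (typ_nonmain (by omega)), Hn_ge_right hj]
    apply Hn_ge_right
    by_contra hc
    have h1 := colRole_aux_lt (typ_nonmain (by omega)) (not_le.mp hc)
    have h2 := typ_gad_zero (h := h) (m := m') (s := s') (G := G) (i := j) hm' hj
    omega
  · by_cases hi : 22 ≤ i
    · rw [M_row (typ_nonmain (by omega)), Hn_ge_left hi]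
      apply Hn_ge_left
      by_contra hc
      have h1 := rowRole_aux_lt (typ_nonmain (by omega)) (not_le.mp hc)
      have h2 := typ_gad_zero (h := h) (m := m) (s := s) (G := G) (i := i) hm hi
      omega
    · have e1 : min i 22 = i := by omega
      have e2 : min j 22 = j := by omega
      rcases hij with hij | hij
      · rw [M_row (typ_nonmain hij), typ_gad hij (by omega), hrow, hcol, e1, e2]
      · rw [M_col (typ_nonmain hij), typ_gad hij (by omega), hrow, hcol, e1, e2]

/-! ### arithmetic of nodes along a path -/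

theorem div_compl {m q z : ℕ} (hm : 0 < m) (hz : z < q * m) :
    z / m + (q * m - 1 - z) / m + 1 = q := by
  have h1 : z / m < q := by rw [Nat.div_lt_iff_lt_mul hm]; exact hz
  have h3 := Nat.div_add_mod z m
  have h4 := Nat.mod_lt z hm
  generalize z / m = a at *
  generalize z % m = r at *
  obtain ⟨d, hd⟩ : ∃ d, q = d + a + 1 := ⟨q - 1 - a, by omega⟩
  have h7 : q * m = m * d + m * a + m := by
    rw [hd]; ring
  have h5 : q * m - 1 - z = m * d + (m - 1 - r) := by omega
  have h8 : (m - 1 - r) / m = 0 := Nat.div_eq_of_lt (by omega)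
  rw [h5, Nat.mul_add_div hm, h8]
  omega

theorem node_compl {h z k : ℕ} (hz : z < 2 ^ h) (hk : k ≤ h) :
    z / 2 ^ k + (2 ^ h - 1 - z) / 2 ^ k + 1 = 2 ^ (h - k) := by
  have hpow : 2 ^ h = 2 ^ (h - k) * 2 ^ k := by rw [← pow_add]; congr 1; omega
  rw [hpow] at hz ⊢
  exact div_compl (by positivity) hz

theorem node_lt {h t z : ℕ} (ht : t ≤ 2 * h + 1) (hz : z < 2 ^ h) :
    node h t z < 2 ^ (lev h t) := by
  have hl := lev_le h t ht
  have hpow : 2 ^ h = 2 ^ (lev h t) * 2 ^ (h - lev h t) := by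
    rw [← pow_add]; congr 1; omega
  unfold node
  rw [Nat.div_lt_iff_lt_mul (by positivity), ← hpow]; exact hz

theorem node_add_compl {h t z : ℕ} (ht : t ≤ 2 * h + 1) (hz : z < 2 ^ h) :
    node h t z + node h t (2 ^ h - 1 - z) + 1 = 2 ^ (lev h t) := by
  have hl := lev_le h t ht
  unfold node
  rw [node_compl hz (by omega)]
  congr 1; omega

theorem parity_compl {h t z : ℕ} (ht : 1 ≤ t) (ht' : t ≤ 2 * h) (hz : z < 2 ^ h) :
    (node h t (2 ^ h - 1 - z) + node h t z % 2) % 2 = 1 := by
  have h1 := node_add_compl (t := t) (by omega) hz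
  have h2 : 1 ≤ lev h t := by unfold lev; split_ifs <;> omega
  have h3 : 2 ^ (lev h t) = 2 * 2 ^ (lev h t - 1) := by
    rw [← pow_succ']; congr 1; omega
  omega

theorem node_edge {h t z : ℕ} (ht : t = 0 ∨ t = 2 * h + 1) (hz : z < 2 ^ h) : node h t z = 0 := by
  have h1 := node_lt (t := t) (by omega) hz
  have h2 : lev h t = 0 := by unfold lev; split_ifs <;> omega
  rw [h2] at h1
  simpa using h1

theorem bk_of_node {h t z z' : ℕ} (hn : node h t z = node h t z') : bk h t z = bk h t z' := by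
  unfold bk; rw [hn]

theorem bk_path {h t z : ℕ} (ht : t ≤ 2 * h) : bk h t z ≤ bk h (t + 1) z := by
  rcases lt_trichotomy t h with h1 | h1 | h1
  · unfold bk
    rw [if_pos (by omega), if_pos (by omega)]
    have e1 : lev h t = t := by unfold lev; rw [if_pos (by omega)]
    have e2 : lev h (t + 1) = t + 1 := by unfold lev; rw [if_pos (by omega)]
    unfold node
    rw [e1, e2]
    have e3 : 2 ^ (h - t) = 2 ^ (h - (t + 1)) * 2 := by
      rw [← pow_succ]; congr 1; omega
    rw [e3, ← Nat.div_div_eq_div_mul]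
    have h4 : z / 2 ^ (h - (t + 1)) / 2 * (2 ^ (h - (t + 1)) * 2) ≤
        z / 2 ^ (h - (t + 1)) * 2 ^ (h - (t + 1)) := by
      have h5 : z / 2 ^ (h - (t + 1)) / 2 * (2 ^ (h - (t + 1)) * 2) =
        (z / 2 ^ (h - (t + 1)) / 2 * 2) * 2 ^ (h - (t + 1)) := by ring
      rw [h5]
      exact Nat.mul_le_mul_right _ (Nat.div_mul_le_self _ _)
    omega
  · subst h1
    unfold bk
    rw [if_pos le_rfl, if_neg (by omega), if_pos (by omega), node_h, node_h1]
    have e1 : lev t t = t := by unfold lev; rw [if_pos (by omega)]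
    have e2 : lev t (t + 1) = t := by unfold lev; rw [if_neg (by omega)]; omega
    rw [e1, e2]
    simp only [Nat.sub_self, pow_zero, mul_one]
    omega
  · unfold bk
    rw [if_neg (by omega), if_pos (by omega), if_neg (by omega), if_pos (by omega)]
    have e1 : lev h t = 2 * h + 1 - t := by unfold lev; rw [if_neg (by omega)]
    have e2 : lev h (t + 1) = 2 * h - t := by unfold lev; rw [if_neg (by omega)]; omega
    unfold node
    rw [e1, e2]
    have e3 : 2 ^ (h - (2 * h - t)) = 2 ^ (h - (2 * h + 1 - t)) * 2 := by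
      rw [← pow_succ]; congr 1; omega
    rw [e3, ← Nat.div_div_eq_div_mul]
    have h4 : (z / 2 ^ (h - (2 * h + 1 - t)) + 1) * 2 ^ (h - (2 * h + 1 - t)) ≤
        (z / 2 ^ (h - (2 * h + 1 - t)) / 2 + 1) * (2 ^ (h - (2 * h + 1 - t)) * 2) := by
      have h5 : (z / 2 ^ (h - (2 * h + 1 - t)) / 2 + 1) * (2 ^ (h - (2 * h + 1 - t)) * 2) =
        ((z / 2 ^ (h - (2 * h + 1 - t)) / 2 + 1) * 2) * 2 ^ (h - (2 * h + 1 - t)) := by ring
      rw [h5]
      exact Nat.mul_le_mul_right _ (by omega)
    omega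

/-- index of the row of type `b` in the structure `(z, w)` -/
def ir (h z w b : ℕ) : ℕ := if 1 ≤ b ∧ b ≤ 2 * h then z else w

/-- index of the column of type `b` in the structure `(z, w)` -/
def ic (h z w b : ℕ) : ℕ := if b < 2 * h + 2 then 2 ^ h - 1 - z else (z + w) % 2 ^ h

theorem ir_lt {h z w b : ℕ} (hz : z < 2 ^ h) (hw : w < 2 ^ h) : ir h z w b < 2 ^ h := by
  unfold ir; split_ifs <;> assumption

theorem ic_lt {h z w b : ℕ} : ic h z w b < 2 ^ h := by
  have : 0 < 2 ^ h := by positivity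
  unfold ic; split_ifs
  · omega
  · exact Nat.mod_lt _ this

theorem node_ir {h z w b : ℕ} (hz : z < 2 ^ h) (hw : w < 2 ^ h) (hb : b ≤ 2 * h + 1) :
    node h b (ir h z w b) = node h b z := by
  unfold ir
  split_ifs with h1
  · rfl
  · rw [node_edge (by omega) hz, node_edge (by omega) hw]

theorem bk_ir {h z w : ℕ} (hz : z < 2 ^ h) (hw : w < 2 ^ h) (t : ℕ) (ht : t ≤ 2 * h) :
    bk h t (ir h z w t) ≤ bk h (t + 1) (ir h z w (t + 1)) := by
  rw [bk_of_node (node_ir hz hw (by omega)), bk_of_node (node_ir hz hw (by omega))]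
  exact bk_path ht

theorem bk_ic {h z w : ℕ} (t : ℕ) (ht : t ≤ 2 * h) :
    bk h t (ic h z w t) ≤ bk h (t + 1) (ic h z w (t + 1)) := by
  unfold ic
  rw [if_pos (by omega), if_pos (by omega)]
  exact bk_path ht

/-! ### The index type -/

def Row (h : ℕ) : Type := Fin (386 * h + 2) × Fin (2 ^ h)

instance instFintypeRow (h : ℕ) : Fintype (Row h) :=
  inferInstanceAs (Fintype (Fin (386 * h + 2) × Fin (2 ^ h)))

def rb {h : ℕ} (x : Row h) : ℕ := x.1.val

def rz {h : ℕ} (x : Row h) : ℕ := x.2.val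

theorem row_ext {h : ℕ} {x y : Row h} (h1 : rb x = rb y) (h2 : rz x = rz y) : x = y := by
  unfold rb rz at *
  exact Prod.ext (Fin.ext h1) (Fin.ext h2)

theorem rb_lt {h : ℕ} (x : Row h) : rb x < 386 * h + 2 := x.1.2

theorem rz_lt {h : ℕ} (x : Row h) : rz x < 2 ^ h := x.2.2

def key {h : ℕ} (x : Row h) : ℕ ×ₗ (ℕ ×ₗ ℕ) := toLex (bk h (rb x) (rz x), toLex (rb x, rz x))

theorem key_inj {h : ℕ} : Function.Injective (key (h := h)) := by
  intro x y hxy
  unfold key at hxy
  have h1 := toLex.injective hxy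
  have h2 := (Prod.mk.inj h1).2
  have h3 := toLex.injective h2
  exact row_ext (Prod.mk.inj h3).1 (Prod.mk.inj h3).2

noncomputable instance instLinearOrderRow (h : ℕ) : LinearOrder (Row h) :=
  LinearOrder.lift' key key_inj

theorem lt_iff {h : ℕ} {x y : Row h} : x < y ↔ lt' h (rb x) (rz x) (rb y) (rz y) := by
  have h1 : x < y ↔ key x < key y := Iff.rfl
  rw [h1]
  unfold key lt'
  rw [Prod.Lex.lt_iff]
  simp only [ofLex_toLex]
  rw [Prod.Lex.lt_iff]
  simp only [ofLex_toLex]

theorem card_Row (h : ℕ) : Fintype.card (Row h) = (386 * h + 2) * 2 ^ h := by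
  have : Fintype.card (Row h) = Fintype.card (Fin (386 * h + 2) × Fin (2 ^ h)) := rfl
  rw [this]; simp

noncomputable def E (h : ℕ) : Fin ((386 * h + 2) * 2 ^ h) ≃o Row h :=
  monoEquivOfFin (Row h) (card_Row h)

def mk (h b z : ℕ) : Row h :=
  (⟨b % (386 * h + 2), Nat.mod_lt _ (by omega)⟩, ⟨z % 2 ^ h, Nat.mod_lt _ (by positivity)⟩)

theorem rb_mk {h b z : ℕ} (hb : b < 386 * h + 2) : rb (mk h b z) = b := Nat.mod_eq_of_lt hb

theorem rz_mk {h b z : ℕ} (hz : z < 2 ^ h) : rz (mk h b z) = z := Nat.mod_eq_of_lt hz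

/-! ### Free matrices are far -/

def PatFree {h : ℕ} (B : Row h → Row h → Bool) : Prop :=
  ∀ f g : Fin 66 → Row h, StrictMono f → StrictMono g →
    ¬ ∀ i j : Fin 66, B (f i) (g j) = Hn i.val j.val

def Rr (h z w b : ℕ) : Row h := mk h b (ir h z w b)

def Cc (h z w b : ℕ) : Row h := mk h b (ic h z w b)

def Rel (h b b' : ℕ) : Prop := b < 386 * h + 2 ∧ b' < 386 * h + 2 ∧
  ¬ (1 ≤ b ∧ b ≤ 2 * h ∧ b' < 2 * h + 2)

theorem gadget_contra {h : ℕ} (hh : 1 ≤ h) {B : Row h → Row h → Bool} (hfree : PatFree B)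
    {z w : ℕ} (hz : z < 2 ^ h) (hw : w < 2 ^ h)
    (hrel : ∀ b b', Rel h b b' →
      M h b (ir h z w b) b' (ic h z w b') = B (Rr h z w b) (Cc h z w b'))
    {m s m' s' G : ℕ} (hm : m ≤ 2) (hm' : m' ≤ 2) (hs : s + m ≤ 2 * h + 2)
    (hs' : s' + m' ≤ 2 * h + 2) (hG : G < 8 * h + 4) (hlo : rlo G = m) (hclo : clo G = m')
    (hmainr : ∀ i, i < m → rowRole h G (s + i) (ir h z w (s + i)) = i)
    (hmainc : ∀ i, i < m' → colRole h G (s' + i) (ic h z w (s' + i)) = i)
    (hval : ∀ i j, i < m → j < m' → B (Rr h z w (s + i)) (Cc h z w (s' + j)) = Hn i j) :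
    False := by
  refine hfree (fun i => Rr h z w (typ h m s G i.val)) (fun j => Cc h z w (typ h m' s' G j.val))
    ?_ ?_ ?_
  · intro i j hij
    rw [lt_iff]
    unfold Rr
    rw [rb_mk (typ_lt hh hm hs hG i.2), rb_mk (typ_lt hh hm hs hG j.2),
      rz_mk (ir_lt hz hw), rz_mk (ir_lt hz hw)]
    exact typ_strict hm hs hG (ir h z w) (fun b => ir_lt hz hw) (bk_ir hz hw) hij
  · intro i j hij
    rw [lt_iff]
    unfold Cc
    rw [rb_mk (typ_lt hh hm' hs' hG i.2), rb_mk (typ_lt hh hm' hs' hG j.2),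
      rz_mk ic_lt, rz_mk ic_lt]
    exact typ_strict hm' hs' hG (ic h z w) (fun b => ic_lt) bk_ic hij
  · intro i j
    by_cases hij : i.val < m ∧ j.val < m'
    · simp only [typ_main hij.1, typ_main hij.2]
      exact hval _ _ hij.1 hij.2
    · have hij' : m ≤ i.val ∨ m' ≤ j.val := by omega
      have hR : Rel h (typ h m s G i.val) (typ h m' s' G j.val) := by
        refine ⟨typ_lt hh hm hs hG i.2, typ_lt hh hm' hs' hG j.2, ?_⟩
        rcases hij' with h1 | h1
        · have := typ_nonmain (h := h) (m := m) (s := s) (G := G) h1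
          omega
        · have := typ_nonmain (h := h) (m := m') (s := s') (G := G) h1
          omega
      have h1 := hrel _ _ hR
      rw [M_typ hm hm' (ir h z w) (ic h z w) (rowRole_typ hm hG hlo (ir h z w) hmainr)
        (colRole_typ hm' hG hclo (ic h z w) hmainc) hij'] at h1
      exact h1.symm

theorem exists_modified {h : ℕ} (hh : 1 ≤ h) {B : Row h → Row h → Bool} (hfree : PatFree B)
    {z w : ℕ} (hz : z < 2 ^ h) (hw : w < 2 ^ h) :
    ∃ b b', Rel h b b' ∧
      M h b (ir h z w b) b' (ic h z w b') ≠ B (Rr h z w b) (Cc h z w b') := by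
  by_contra hcon
  push Not at hcon
  have hrel : ∀ b b', Rel h b b' →
      M h b (ir h z w b) b' (ic h z w b') = B (Rr h z w b) (Cc h z w b') := hcon
  have hnode : ∀ b, b ≤ 2 * h + 1 → node h b (ir h z w b) = node h b z := fun b hb =>
    node_ir hz hw hb
  have hic : ∀ b, b ≤ 2 * h + 1 → ic h z w b = 2 ^ h - 1 - z := by
    intro b hb; unfold ic; rw [if_pos (by omega)]
  have chain : ∀ t, t ≤ 2 * h + 1 → B (Rr h z w t) (Cc h z w t) = true := by
    intro t
    induction t with
    | zero =>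
      intro _
      rw [← hrel 0 0 ⟨by omega, by omega, by omega⟩, M_main (by omega) (by omega)]
      unfold FF
      rw [if_pos rfl, if_pos (by omega)]
      simp
    | succ t ih =>
      intro ht
      have h0 := ih (by omega)
      -- vertical step
      have hV : B (Rr h z w (t + 1)) (Cc h z w t) = true := by
        by_contra hne
        have hne' : B (Rr h z w (t + 1)) (Cc h z w t) = false := by
          simpa using hne
        obtain ⟨a, ha, ha2⟩ : ∃ a, a < 2 ∧ (h < t → a = node h t z % 2) := by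
          by_cases h1 : h < t
          · exact ⟨node h t z % 2, Nat.mod_lt _ (by omega), fun _ => rfl⟩
          · exact ⟨0, by omega, fun h2 => absurd h2 h1⟩
        have hGm : (4 * t + a) % 4 = a := by omega
        have hGd : (4 * t + a) / 4 = t := by omega
        refine gadget_contra hh hfree hz hw hrel (m := 2) (s := t) (m' := 1) (s' := t)
          (G := 4 * t + a) (by omega) (by omega) (by omega) (by omega) (by omega)
          (rlo_V (by omega)) (clo_V (by omega)) ?_ ?_ ?_
        · intro i hi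
          unfold rowRole
          rw [hGm, hGd]
          by_cases h1 : i = 0
          · subst h1
            rw [if_pos (by omega), if_pos (by omega), if_pos]
            refine ⟨rfl, ?_⟩
            by_cases h2 : h < t
            · right; rw [Nat.add_zero, hnode t (by omega), ha2 h2]
            · left; omega
          · have h2 : i = 1 := by omega
            subst h2
            rw [if_pos (by omega), if_pos (by omega), if_neg (by omega), if_pos rfl]
        · intro i hi
          have h1 : i = 0 := by omega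
          subst h1
          unfold colRole
          rw [hGm, hGd, if_pos (by omega), if_pos (by omega), if_pos]
          refine ⟨rfl, ?_⟩
          by_cases h2 : h < t
          · right
            rw [Nat.add_zero, hic t (by omega), ha2 h2]
            exact parity_compl (by omega) (by omega) hz
          · left; omega
        · intro i j hi hj
          have h1 : j = 0 := by omega
          subst h1
          by_cases h2 : i = 0
          · subst h2; simp only [Nat.add_zero]; rw [h0]; decide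
          · have h3 : i = 1 := by omega
            subst h3; simp only [Nat.add_zero]; rw [hne']; decide
      -- horizontal step
      by_contra hne
      have hne' : B (Rr h z w (t + 1)) (Cc h z w (t + 1)) = false := by
        simpa using hne
      obtain ⟨a, ha, ha2⟩ : ∃ a, a < 2 ∧ (t < h → a = node h (t + 1) z % 2) := by
        by_cases h1 : t < h
        · exact ⟨node h (t + 1) z % 2, Nat.mod_lt _ (by omega), fun _ => rfl⟩
        · exact ⟨0, by omega, fun h2 => absurd h2 h1⟩
      have hGm : (4 * t + 2 + a) % 4 = 2 + a := by omega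
      have hGd : (4 * t + 2 + a) / 4 = t := by omega
      refine gadget_contra hh hfree hz hw hrel (m := 1) (s := t + 1) (m' := 2) (s' := t)
        (G := 4 * t + 2 + a) (by omega) (by omega) (by omega) (by omega) (by omega)
        (rlo_H (by omega)) (clo_H (by omega)) ?_ ?_ ?_
      · intro i hi
        have h1 : i = 0 := by omega
        subst h1
        unfold rowRole
        rw [hGm, hGd, if_pos (by omega), if_neg (by omega), if_pos]
        refine ⟨rfl, ?_⟩
        by_cases h2 : t < h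
        · right; rw [Nat.add_zero, hnode (t + 1) (by omega)]
          have := ha2 h2
          omega
        · left; omega
      · intro i hi
        unfold colRole
        rw [hGm, hGd]
        by_cases h1 : i = 0
        · subst h1
          rw [if_pos (by omega), if_neg (by omega), if_pos (by omega)]
        · have h2 : i = 1 := by omega
          subst h2
          rw [if_pos (by omega), if_neg (by omega), if_neg (by omega), if_pos]
          refine ⟨rfl, ?_⟩
          by_cases h3 : t < h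
          · right
            rw [hic (t + 1) (by omega)]
            have h4 := parity_compl (h := h) (t := t + 1) (z := z) (by omega) (by omega) hz
            have h5 := ha2 h3
            have h6 : 2 + a - 2 = node h (t + 1) z % 2 := by omega
            rw [h6]; exact h4
          · left; omega
      · intro i j hi hj
        have h1 : i = 0 := by omega
        subst h1
        by_cases h2 : j = 0
        · subst h2; simp only [Nat.add_zero]; rw [hV]; decide
        · have h3 : j = 1 := by omega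
          subst h3; simp only [Nat.add_zero]; rw [hne']; decide
  have hend := chain (2 * h + 1) le_rfl
  rw [← hrel (2 * h + 1) (2 * h + 1) ⟨by omega, by omega, by omega⟩,
    M_main (by omega) (by omega)] at hend
  rw [hnode _ le_rfl, hic _ le_rfl, node_edge (Or.inr rfl) hz,
    node_edge (Or.inr rfl) (by omega : 2 ^ h - 1 - z < 2 ^ h)] at hend
  unfold FF at hend
  rw [if_pos rfl, if_neg (by omega)] at hend
  simp at hend

theorem mod_add_cancel {n z a b : ℕ} (ha : a < n) (hb : b < n)
    (he : (z + a) % n = (z + b) % n) : a = b := by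
  have h1 : z + a ≡ z + b [MOD n] := he
  have h2 : a ≡ b [MOD n] := Nat.ModEq.add_left_cancel' z h1
  exact Nat.ModEq.eq_of_lt_of_lt h2 ha hb

theorem dist_bound {h : ℕ} (hh : 1 ≤ h) {B : Row h → Row h → Bool} (hfree : PatFree B) :
    2 ^ h * 2 ^ h ≤ (Finset.univ.filter (fun xy : Row h × Row h =>
      M h (rb xy.1) (rz xy.1) (rb xy.2) (rz xy.2) ≠ B xy.1 xy.2)).card := by
  classical
  have hex : ∀ ω : Fin (2 ^ h) × Fin (2 ^ h), ∃ b b', Rel h b b' ∧
      M h b (ir h ω.1.val ω.2.val b) b' (ic h ω.1.val ω.2.val b') ≠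
        B (Rr h ω.1.val ω.2.val b) (Cc h ω.1.val ω.2.val b') :=
    fun ω => exists_modified hh hfree ω.1.2 ω.2.2
  choose p q hpq using hex
  let Φ : Fin (2 ^ h) × Fin (2 ^ h) → Row h × Row h := fun ω =>
    (Rr h ω.1.val ω.2.val (p ω), Cc h ω.1.val ω.2.val (q ω))
  have hcard : (Finset.univ : Finset (Fin (2 ^ h) × Fin (2 ^ h))).card = 2 ^ h * 2 ^ h := by
    rw [Finset.card_univ, Fintype.card_prod, Fintype.card_fin]
  rw [← hcard]
  apply Finset.card_le_card_of_injOn Φ
  · intro ω _
    obtain ⟨hR, hne⟩ := hpq ω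
    simp only [Finset.coe_filter, Finset.mem_univ, true_and, Set.mem_ofPred_eq]
    show M h (rb (Rr h ω.1.val ω.2.val (p ω))) (rz (Rr h ω.1.val ω.2.val (p ω)))
      (rb (Cc h ω.1.val ω.2.val (q ω))) (rz (Cc h ω.1.val ω.2.val (q ω))) ≠ _
    rw [show rb (Rr h ω.1.val ω.2.val (p ω)) = p ω from rb_mk hR.1,
      show rz (Rr h ω.1.val ω.2.val (p ω)) = ir h ω.1.val ω.2.val (p ω) from
        rz_mk (ir_lt ω.1.2 ω.2.2),
      show rb (Cc h ω.1.val ω.2.val (q ω)) = q ω from rb_mk hR.2.1,
      show rz (Cc h ω.1.val ω.2.val (q ω)) = ic h ω.1.val ω.2.val (q ω) from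
        rz_mk ic_lt]
    exact hne
  · intro ω _ ω' _ heq
    obtain ⟨hR, _⟩ := hpq ω
    obtain ⟨hR', _⟩ := hpq ω'
    have e1 : Rr h ω.1.val ω.2.val (p ω) = Rr h ω'.1.val ω'.2.val (p ω') := (Prod.mk.inj heq).1
    have e2 : Cc h ω.1.val ω.2.val (q ω) = Cc h ω'.1.val ω'.2.val (q ω') := (Prod.mk.inj heq).2
    have a1 : p ω = p ω' := by
      have := congrArg rb e1
      rwa [show rb (Rr h ω.1.val ω.2.val (p ω)) = p ω from rb_mk hR.1,
        show rb (Rr h ω'.1.val ω'.2.val (p ω')) = p ω' from rb_mk hR'.1] at this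
    have a2 : ir h ω.1.val ω.2.val (p ω) = ir h ω'.1.val ω'.2.val (p ω') := by
      have := congrArg rz e1
      rwa [show rz (Rr h ω.1.val ω.2.val (p ω)) = ir h ω.1.val ω.2.val (p ω) from
        rz_mk (ir_lt ω.1.2 ω.2.2),
        show rz (Rr h ω'.1.val ω'.2.val (p ω')) = ir h ω'.1.val ω'.2.val (p ω') from
        rz_mk (ir_lt ω'.1.2 ω'.2.2)] at this
    have a3 : q ω = q ω' := by
      have := congrArg rb e2
      rwa [show rb (Cc h ω.1.val ω.2.val (q ω)) = q ω from rb_mk hR.2.1,
        show rb (Cc h ω'.1.val ω'.2.val (q ω')) = q ω' from rb_mk hR'.2.1] at this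
    have a4 : ic h ω.1.val ω.2.val (q ω) = ic h ω'.1.val ω'.2.val (q ω') := by
      have := congrArg rz e2
      rwa [show rz (Cc h ω.1.val ω.2.val (q ω)) = ic h ω.1.val ω.2.val (q ω) from rz_mk ic_lt,
        show rz (Cc h ω'.1.val ω'.2.val (q ω')) = ic h ω'.1.val ω'.2.val (q ω') from
        rz_mk ic_lt] at this
    rw [← a1] at a2
    rw [← a3] at a4
    have l1 := ω.1.2
    have l2 := ω.2.2
    have l3 := ω'.1.2
    have l4 := ω'.2.2
    unfold ir at a2
    unfold ic at a4
    have hnr := hR.2.2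
    have hfin : ω.1.val = ω'.1.val ∧ ω.2.val = ω'.2.val := by
      by_cases h1 : 1 ≤ p ω ∧ p ω ≤ 2 * h
      · rw [if_pos h1, if_pos h1] at a2
        have h2 : ¬ (q ω < 2 * h + 2) := fun hc => hnr ⟨h1.1, h1.2, hc⟩
        rw [if_neg h2, if_neg h2, a2] at a4
        exact ⟨a2, mod_add_cancel l2 l4 a4⟩
      · rw [if_neg h1, if_neg h1] at a2
        by_cases h2 : q ω < 2 * h + 2
        · rw [if_pos h2, if_pos h2] at a4
          exact ⟨by omega, a2⟩
        · rw [if_neg h2, if_neg h2, a2, Nat.add_comm, Nat.add_comm ω'.1.val] at a4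
          exact ⟨mod_add_cancel l1 l3 a4, a2⟩
    exact Prod.ext (Fin.ext hfin.1) (Fin.ext hfin.2)

/-! ### The final count -/

theorem count_bound {h : ℕ} (H : Fin 66 → Fin 66 → Bool) (hH : ∀ i j, H i j = Hn i.val j.val)
    (A : Fin ((386 * h + 2) * 2 ^ h) → Fin ((386 * h + 2) * 2 ^ h) → Bool)
    (hA : ∀ i j, A i j = M h (rb (E h i)) (rz (E h i)) (rb (E h j)) (rz (E h j))) :
    Crest.CombinatoricsR.OrderedMatrix.orderedCopyCount H A ≤
      2 ^ h * (((386 * h + 2) * 2 ^ h) ^ 65 * ((386 * h + 2) * 2 ^ h) ^ 64) := by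
  classical
  unfold Crest.CombinatoricsR.OrderedMatrix.orderedCopyCount
  have hcard : Fintype.card (Fin (2 ^ h) × ((Fin 65 → Fin ((386 * h + 2) * 2 ^ h)) ×
      (Fin 64 → Fin ((386 * h + 2) * 2 ^ h)))) =
      2 ^ h * (((386 * h + 2) * 2 ^ h) ^ 65 * ((386 * h + 2) * 2 ^ h) ^ 64) := by
    rw [Fintype.card_prod, Fintype.card_prod, Fintype.card_fun, Fintype.card_fun]
    simp only [Fintype.card_fin]
  rw [← hcard]
  have key : ∀ rc : (Fin 66 → Fin ((386 * h + 2) * 2 ^ h)) ×
      (Fin 66 → Fin ((386 * h + 2) * 2 ^ h)),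
      (StrictMono rc.1 ∧ StrictMono rc.2 ∧ ∀ i j : Fin 66, A (rc.1 i) (rc.2 j) = H i j) →
      rb (E h (rc.1 0)) = h + 1 ∧ rb (E h (rc.2 0)) = h ∧ rb (E h (rc.2 1)) = h + 1 ∧
        rz (E h (rc.2 1)) = rz (E h (rc.2 0)) ∧
        rz (E h (rc.1 0)) + rz (E h (rc.2 0)) + 1 = 2 ^ h := by
    rintro ⟨f, g⟩ ⟨hf, hg, hfg⟩
    let nth : ℕ → Fin 66 := fun i => ⟨i % 66, Nat.mod_lt _ (by norm_num)⟩
    have hnth : ∀ i j, i < j → j < 22 → nth i < nth j := by
      intro i j hij hj
      rw [Fin.lt_def]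
      show i % 66 < j % 66
      omega
    have hcs := copy_structure (h := h) (fb := fun i => rb (E h (f (nth i))))
      (fz := fun i => rz (E h (f (nth i)))) (gb := fun i => rb (E h (g (nth i))))
      (gz := fun i => rz (E h (g (nth i))))
      (fun i j hij hj => lt_iff.mp ((E h).strictMono (hf (hnth i j hij hj))))
      (fun i j hij hj => lt_iff.mp ((E h).strictMono (hg (hnth i j hij hj))))
      (fun i j hi hj => by
        have h1 := hfg (nth i) (nth j)
        simp only at h1
        rw [hA, hH] at h1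
        rw [h1]
        show Hn (i % 66) (j % 66) = Hn i j
        rw [Nat.mod_eq_of_lt (by omega), Nat.mod_eq_of_lt (by omega)])
    exact hcs
  refine Fintype.card_le_of_injective
    (fun rc => ((E h (rc.1.2 0)).2, (fun i => rc.1.1 (Fin.succ i)),
      (fun i => rc.1.2 (Fin.succ (Fin.succ i))))) ?_
  rintro ⟨⟨f, g⟩, hfg⟩ ⟨⟨f', g'⟩, hfg'⟩ heq
  simp only [Prod.mk.injEq] at heq
  obtain ⟨e1, e2, e3⟩ := heq
  obtain ⟨k1, k2, k3, k4, k5⟩ := key _ hfg
  obtain ⟨k1', k2', k3', k4', k5'⟩ := key _ hfg'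
  simp only at k1 k2 k3 k4 k5 k1' k2' k3' k4' k5'
  have hz0 : rz (E h (g 0)) = rz (E h (g' 0)) := by
    unfold rz; exact congrArg Fin.val e1
  have hg0 : g 0 = g' 0 := (E h).injective (row_ext (by rw [k2, k2']) hz0)
  have hg1 : g 1 = g' 1 := (E h).injective (row_ext (by rw [k3, k3']) (by rw [k4, k4', hz0]))
  have hf0 : f 0 = f' 0 := (E h).injective (row_ext (by rw [k1, k1']) (by omega))
  have hff : f = f' := by
    funext i
    refine Fin.cases hf0 (fun j => ?_) i
    exact congrFun e2 j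
  have hgg : g = g' := by
    funext i
    refine Fin.cases hg0 (fun j => ?_) i
    refine Fin.cases hg1 (fun k => ?_) j
    exact congrFun e3 k
  subst hff
  subst hgg
  rfl

/-- There is a fixed 66 × 66 binary pattern H such that for every h ≥ 1, with n = (386h + 2) · 2^h and ε = (386h + 2)⁻², some n × n binary matrix A is ε-far from free of ordered copies of H (every n × n binary matrix without an ordered copy of H differs from A in at least ε · n² cells) while the number of ordered copies of H in A is at most ε · 2^(-h) · n^132. An ordered copy picks 66 rows and 66 columns in increasing order on which A coincides with H, zeros included. -/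
theorem result :
    ∃ H : Fin 66 → Fin 66 → Bool, ∀ h : ℕ, 1 ≤ h →
      ∃ A : Fin ((386 * h + 2) * 2 ^ h) → Fin ((386 * h + 2) * 2 ^ h) → Bool,
        (∀ B : Fin ((386 * h + 2) * 2 ^ h) → Fin ((386 * h + 2) * 2 ^ h) → Bool,
          Crest.CombinatoricsR.OrderedMatrix.orderedCopyCount H B = 0 →
            ((386 * (h : ℝ) + 2) ^ 2)⁻¹ * (((386 * h + 2) * 2 ^ h : ℕ) : ℝ) ^ 2 ≤
              ((Finset.univ.filter (fun rc : Fin ((386 * h + 2) * 2 ^ h) × Fin ((386 * h + 2) * 2 ^ h) =>
                A rc.1 rc.2 ≠ B rc.1 rc.2)).card : ℝ)) ∧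
        (Crest.CombinatoricsR.OrderedMatrix.orderedCopyCount H A : ℝ) /
            (((386 * h + 2) * 2 ^ h : ℕ) : ℝ) ^ 132 ≤
          ((386 * (h : ℝ) + 2) ^ 2)⁻¹ * (2 : ℝ)⁻¹ ^ h := by
  refine ⟨fun i j => Hn i.val j.val, fun h hh =>
    ⟨fun i j => M h (rb (E h i)) (rz (E h i)) (rb (E h j)) (rz (E h j)), ?_, ?_⟩⟩
  · intro B hB
    have hfree : PatFree (h := h) (fun x y => B ((E h).symm x) ((E h).symm y)) := by
      intro f g hf hg hfg
      unfold Crest.CombinatoricsR.OrderedMatrix.orderedCopyCount at hB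
      rw [Fintype.card_eq_zero_iff] at hB
      exact hB.false ⟨(fun i => (E h).symm (f i), fun i => (E h).symm (g i)),
        (E h).symm.strictMono.comp hf, (E h).symm.strictMono.comp hg, hfg⟩
    have hd := dist_bound hh hfree
    have hle : (Finset.univ.filter (fun xy : Row h × Row h =>
        M h (rb xy.1) (rz xy.1) (rb xy.2) (rz xy.2) ≠
          B ((E h).symm xy.1) ((E h).symm xy.2))).card ≤
        (Finset.univ.filter (fun rc : Fin ((386 * h + 2) * 2 ^ h) ×
          Fin ((386 * h + 2) * 2 ^ h) =>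
            M h (rb (E h rc.1)) (rz (E h rc.1)) (rb (E h rc.2)) (rz (E h rc.2)) ≠
              B rc.1 rc.2)).card := by
      apply Finset.card_le_card_of_injOn (fun xy => ((E h).symm xy.1, (E h).symm xy.2))
      · intro xy hxy
        simp only [Finset.coe_filter, Finset.mem_univ, true_and, Set.mem_ofPred_eq] at hxy ⊢
        simpa using hxy
      · intro xy _ xy' _ heq
        simp only [Prod.mk.injEq, EmbeddingLike.apply_eq_iff_eq] at heq
        exact Prod.ext heq.1 heq.2
    have h2 : (2 ^ h * 2 ^ h : ℕ) ≤ _ := hd.trans hle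
    have e : ((386 * (h : ℝ) + 2) ^ 2)⁻¹ * (((386 * h + 2) * 2 ^ h : ℕ) : ℝ) ^ 2 =
        ((2 ^ h * 2 ^ h : ℕ) : ℝ) := by
      have hpos : (386 * (h : ℝ) + 2) ≠ 0 := by positivity
      push_cast
      field_simp
    rw [e]
    exact_mod_cast h2
  · have hc := count_bound (h := h) (fun i j => Hn i.val j.val) (fun _ _ => rfl)
      (fun i j => M h (rb (E h i)) (rz (E h i)) (rb (E h j)) (rz (E h j))) (fun _ _ => rfl)
    have hc' : (Crest.CombinatoricsR.OrderedMatrix.orderedCopyCount
        (fun i j : Fin 66 => Hn i.val j.val)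
        (fun i j => M h (rb (E h i)) (rz (E h i)) (rb (E h j)) (rz (E h j))) : ℝ) ≤
        (2 : ℝ) ^ h * (((386 * (h : ℝ) + 2) * 2 ^ h) ^ 65 * ((386 * (h : ℝ) + 2) * 2 ^ h) ^ 64) := by
      exact_mod_cast hc
    have hcast : (((386 * h + 2) * 2 ^ h : ℕ) : ℝ) = (386 * (h : ℝ) + 2) * 2 ^ h := by
      push_cast; ring
    rw [hcast]
    have ha : (1 : ℝ) ≤ 386 * (h : ℝ) + 2 := by
      have : (0 : ℝ) ≤ h := Nat.cast_nonneg h
      linarith
    have ht : (1 : ℝ) ≤ 2 ^ h := one_le_pow₀ (by norm_num)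
    rw [inv_pow]
    generalize hA : (386 * (h : ℝ) + 2) = a at *
    generalize hT : (2 : ℝ) ^ h = t at *
    have hapos : 0 < a := by linarith
    have htpos : 0 < t := by linarith
    rw [div_le_iff₀ (by positivity)]
    refine hc'.trans ?_
    have e : (a ^ 2)⁻¹ * t⁻¹ * (a * t) ^ 132 = (a * t) * (t * ((a * t) ^ 65 * (a * t) ^ 64)) := by
      field_simp
    rw [e]
    have h1 : 1 ≤ a * t := one_le_mul_of_one_le_of_one_le ha ht
    have h2 : 0 ≤ t * ((a * t) ^ 65 * (a * t) ^ 64) := by positivity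
    nlinarith

end Crest.Agent.S0066
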