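import Crest.Statements.S0077
import Crest.Agent.Lib.VInfBool

set_option autoImplicit false
open Crest Crest.CombinatoricsR

namespace Crest.Agent.S0077

open Crest.CombinatoricsR.RandomGraph Crest.Agent.Lib.VInf Crest.FinProb

/-- endpoints of a slot -/
def inc {n : ℕ} (e : EdgeSlot n) : Finset (Fin n) := e.1.toFinset

lemma mem_inc {n : ℕ} (e : EdgeSlot n) (v : Fin n) : v ∈ inc e ↔ v ∈ e.1 := by
  unfold inc; exact Sym2.mem_toFinset

lemma inc_injective {n : ℕ} : Function.Injective (inc (n := n)) := by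
  intro e e' h
  apply Subtype.ext
  apply Sym2.ext
  intro v
  rw [← mem_inc, ← mem_inc, h]

lemma inc_card {n : ℕ} (e : EdgeSlot n) : (inc e).card = 2 :=
  Sym2.card_toFinset_of_not_isDiag e.1 e.2

/-- relabelling of slots -/
def slotPerm {n : ℕ} (σ : Equiv.Perm (Fin n)) : Equiv.Perm (EdgeSlot n) where
  toFun e := ⟨e.1.map σ, by
    rw [Sym2.isDiag_map σ.injective]; exact e.2⟩
  invFun e := ⟨e.1.map σ.symm, by
    rw [Sym2.isDiag_map σ.symm.injective]; exact e.2⟩
  left_inv e := by
    apply Subtype.ext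
    simp [Sym2.map_map]
  right_inv e := by
    apply Subtype.ext
    simp [Sym2.map_map]

lemma inc_slotPerm {n : ℕ} (σ : Equiv.Perm (Fin n)) (e : EdgeSlot n) :
    inc (slotPerm σ e) = (inc e).map σ.toEmbedding := by
  ext v
  rw [mem_inc, Finset.mem_map]
  change v ∈ e.1.map σ ↔ _
  rw [Sym2.mem_map]
  constructor
  · rintro ⟨a, ha, rfl⟩
    exact ⟨a, (mem_inc e a).2 ha, rfl⟩
  · rintro ⟨a, ha, rfl⟩
    exact ⟨a, (mem_inc e a).1 ha, rfl⟩

lemma graphOf_adj {n : ℕ} (x : EdgeSlot n → Bool) (a b : Fin n) :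
    (graphOf x).Adj a b ↔ ∃ h : ¬ s(a, b).IsDiag, x ⟨s(a, b), h⟩ = true := by
  unfold graphOf
  rw [SimpleGraph.fromEdgeSet_adj]
  constructor
  · rintro ⟨h, _⟩; exact h
  · intro h
    refine ⟨h, ?_⟩
    obtain ⟨h1, _⟩ := h
    simpa using h1

lemma graphOf_slotPerm {n : ℕ} (σ : Equiv.Perm (Fin n)) (x : EdgeSlot n → Bool) :
    graphOf x = (graphOf (fun e => x (slotPerm σ e))).map σ.toEmbedding := by
  ext a b
  rw [SimpleGraph.map_adj]
  constructor
  · intro h
    obtain ⟨h1, h2⟩ := (graphOf_adj x a b).1 h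
    refine ⟨σ.symm a, σ.symm b, ?_, by simp, by simp⟩
    rw [graphOf_adj]
    have h3 : ¬ s(σ.symm a, σ.symm b).IsDiag := by
      simp only [Sym2.mk_isDiag_iff] at h1 ⊢
      simpa using h1
    refine ⟨h3, ?_⟩
    rw [← h2]
    congr 1
    apply Subtype.ext
    change (s(σ.symm a, σ.symm b)).map σ = s(a, b)
    simp
  · rintro ⟨c, d, h, rfl, rfl⟩
    obtain ⟨h1, h2⟩ := (graphOf_adj _ c d).1 h
    rw [graphOf_adj]
    refine ⟨by simpa using h1, ?_⟩
    rw [← h2]
    rfl

/-- Let n ≥ 2 and let P be a family of simple graphs on n labelled vertices that is invariant under renaming vertices, closed under adding edges, non-empty and not everything; let 0 < ε < 1/2. If the binomial random graph with edge probability p ∈ [0, 1] lies in P with probability at least ε, then at every edge probability q ∈ [0, 1] with q ≥ p + 2^19 · log(1/(2ε)) / (log n)² it lies in P with probability at least 1 - ε: the threshold interval from ε to 1 - ε is at most that long. -/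
theorem result (n : ℕ) (hn : 2 ≤ n)
    (P : Set (SimpleGraph (Fin n)))
    (hsymm : ∀ σ : Equiv.Perm (Fin n), ∀ G : SimpleGraph (Fin n), G ∈ P → G.map σ.toEmbedding ∈ P)
    (hmono : ∀ G G' : SimpleGraph (Fin n), G ≤ G' → G ∈ P → G' ∈ P)
    (hne : P.Nonempty) (hnu : P ≠ Set.univ) (ε : ℝ) (hε0 : 0 < ε) (hε : ε < 1 / 2)
    (p q : ℝ) (hp0 : 0 ≤ p) (hp1 : p ≤ 1) (hq0 : 0 ≤ q) (hq1 : q ≤ 1)
    (hp : ε ≤ Crest.CombinatoricsR.RandomGraph.gnpProb n p P)
    (hq : p + 2 ^ 19 / Real.log n ^ 2 * Real.log (1 / (2 * ε)) ≤ q) :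
    1 - ε ≤ Crest.CombinatoricsR.RandomGraph.gnpProb n q P := by
  classical
  set f : (EdgeSlot n → Bool) → Bool := fun x => decide (graphOf x ∈ P) with hf
  have hprob : ∀ p : ℝ, gnpProb n p P = ex p (toR f) := by
    intro p
    unfold gnpProb
    refine bernoulliProb_eq_ex p _ _ (fun x => ?_) (toR_zero_or_one f)
    by_cases h : graphOf x ∈ P
    · simp [toR, hf, h]
    · simp [toR, hf, h]
  rw [hprob] at hp ⊢
  have hlog : 0 < Real.log n := Real.log_pos (by exact_mod_cast hn)
  have hsym : Symm (inc (n := n)) (toR f) := by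
    intro u v
    refine ⟨slotPerm (Equiv.swap u v), fun e => inc_slotPerm _ e, fun x => ?_⟩
    have hiff : graphOf (fun e => x (slotPerm (Equiv.swap u v) e)) ∈ P ↔ graphOf x ∈ P := by
      constructor
      · intro h
        rw [graphOf_slotPerm (Equiv.swap u v) x]
        exact hsymm _ _ h
      · intro h
        have h2 := hsymm (Equiv.swap u v).symm _ h
        rw [graphOf_slotPerm (Equiv.swap u v) x, SimpleGraph.map_map] at h2
        have h3 : (⇑(Equiv.symm (Equiv.swap u v)).toEmbedding ∘
            ⇑(Equiv.toEmbedding (Equiv.swap u v))) = id := by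
          funext w; simp
        rw [h3, SimpleGraph.map_id] at h2
        exact h2
    unfold toR
    simp only [hf, decide_eq_true_eq, hiff]
  have hmono' : ∀ x e, toR f (Function.update x e false) ≤ toR f (Function.update x e true) := by
    intro x e
    by_cases h : graphOf (Function.update x e false) ∈ P
    · have h2 : graphOf (Function.update x e true) ∈ P := by
        refine hmono _ _ ?_ h
        intro a b hab
        rw [graphOf_adj] at hab ⊢
        obtain ⟨h1, h2⟩ := hab
        refine ⟨h1, ?_⟩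
        by_cases he : (⟨s(a, b), h1⟩ : EdgeSlot n) = e
        · rw [he]; simp
        · rw [Function.update_of_ne he] at h2 ⊢; exact h2
      simp [toR, hf, h, h2]
    · have : toR f (Function.update x e false) = 0 := by simp [toR, hf, h]
      rw [this]
      rcases toR_zero_or_one f (Function.update x e true) with h3 | h3 <;> rw [h3]; norm_num
  refine threshold_interval (c := Real.log n ^ 2 / 2 ^ 17) hmono' (by positivity) ?_ hε0 hε hp0
    hq1 hp ?_
  · intro p h0 h1
    have key := influence_all h0 h1 f inc_injective hsym (le_refl 2) inc_card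
      (by rw [Fintype.card_fin]; exact hlog.le)
    rw [Fintype.card_fin] at key
    have e1 : ((2:ℕ) : ℝ) / (((2:ℕ) : ℝ) - 1) = ((2:ℕ) : ℝ) := by norm_num
    rw [e1, Real.rpow_natCast] at key
    have e2 : Real.log n ^ 2 / 2 ^ 17 * (ex p (toR f) * (1 - ex p (toR f))) =
        (Real.log n ^ 2 * (ex p (toR f) - ex p (toR f) ^ 2)) / 2 ^ 17 := by ring
    rw [e2, div_le_iff₀ (by positivity)]
    refine key.trans (le_of_eq ?_)
    norm_num; ring
  · refine le_trans (le_of_eq ?_) hq
    have : 4 / (Real.log n ^ 2 / 2 ^ 17) = 2 ^ 19 / Real.log n ^ 2 := by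
      field_simp; norm_num
    rw [this]

end Crest.Agent.S0077
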