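import Crest.Statements.S0078
import Crest.Agent.Lib.VInfBool

set_option autoImplicit false
open Crest Crest.CombinatoricsR

namespace Crest.Agent.S0078

open Crest.CombinatoricsR.HypergraphCube Crest.Agent.Lib.VInf Crest.FinProb

/-- the relabelling of slots as a permutation -/
def slotPerm {n r : ℕ} (σ : Equiv.Perm (Fin n)) : Equiv.Perm (HyperedgeSlot n r) where
  toFun := relabelSlot σ
  invFun := relabelSlot σ.symm
  left_inv e := by
    apply Subtype.ext
    ext v
    simp [relabelSlot]
  right_inv e := by
    apply Subtype.ext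
    ext v
    simp [relabelSlot]

lemma probTrue_eq {n r : ℕ} (p : ℝ) (f : (HyperedgeSlot n r → Bool) → Bool) :
    probTrue p f = ex p (toR f) := by
  unfold probTrue
  refine bernoulliProb_eq_ex p _ _ (fun x => ?_) (toR_zero_or_one f)
  simp only [toR, Set.mem_setOf_eq]
  split_ifs with h
  · simp [h]
  · simp [h]

lemma totalInfluence_eq {n r : ℕ} (p : ℝ) (f : (HyperedgeSlot n r → Bool) → Bool) :
    totalInfluence p f = ∑ e : HyperedgeSlot n r, ex p (piv f e) := by
  unfold totalInfluence
  refine Finset.sum_congr rfl fun e _ => ?_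
  unfold pivotalInfluence
  refine bernoulliProb_eq_ex p _ _ (fun x => ?_) (fun x => ?_)
  · simp only [piv, Set.mem_setOf_eq]
    split_ifs with h
    · simp only [true_iff]; exact h
    · simp only [zero_ne_one, false_iff]; exact h
  · unfold piv; split_ifs
    · right; rfl
    · left; rfl

/-- For every r ≥ 3 there is a real constant C such that for all n ≥ r, all 0 < p < 1 and every Boolean function f of the simple r-uniform hypergraph on n labelled vertices that is invariant under renaming the vertices (no monotonicity assumed), the variance of f under independent edge-coins of bias p, namely P(f = true) · (1 - P(f = true)), is at most C · (log n)^(-r/(r-1)) times the total pivotal influence of f at bias p (natural logarithm). -/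
theorem result (r : ℕ) (hr : 3 ≤ r) :
    ∃ C : ℝ, ∀ n : ℕ, r ≤ n → ∀ p : ℝ, 0 < p → p < 1 →
      ∀ f : (Crest.CombinatoricsR.HypergraphCube.HyperedgeSlot n r → Bool) → Bool,
        Crest.CombinatoricsR.HypergraphCube.IsSymmetric f →
          Crest.CombinatoricsR.HypergraphCube.probTrue p f *
              (1 - Crest.CombinatoricsR.HypergraphCube.probTrue p f) ≤
            C / Real.log n ^ ((r : ℝ) / ((r : ℝ) - 1)) *
              Crest.CombinatoricsR.HypergraphCube.totalInfluence p f := by
  refine ⟨32768 * (r : ℝ) ^ 2, fun n hn p h0 h1 f hf => ?_⟩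
  rw [probTrue_eq, totalInfluence_eq]
  have hn3 : (3:ℝ) ≤ n := by exact_mod_cast hr.trans hn
  have hlog : 0 < Real.log n := Real.log_pos (by linarith)
  have hinj : Function.Injective (fun e : HyperedgeSlot n r => e.1) := Subtype.val_injective
  have hsym : Symm (fun e : HyperedgeSlot n r => e.1) (toR f) := by
    intro u v
    refine ⟨slotPerm (Equiv.swap u v), fun e => rfl, fun x => ?_⟩
    unfold toR
    rw [show (fun e => x ((slotPerm (Equiv.swap u v)) e)) = relabel (Equiv.swap u v) x from rfl,
      hf (Equiv.swap u v) x]
  have key := influence_all h0 h1 f hinj hsym (by omega : 2 ≤ r) (fun e => e.2)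
    (by rw [Fintype.card_fin]; exact hlog.le)
  rw [Fintype.card_fin] at key
  have hpow : 0 < Real.log n ^ ((r : ℝ) / ((r : ℝ) - 1)) := Real.rpow_pos_of_pos hlog _
  rw [div_mul_eq_mul_div, le_div_iff₀ hpow]
  calc ex p (toR f) * (1 - ex p (toR f)) * Real.log n ^ ((r : ℝ) / ((r : ℝ) - 1))
      = Real.log n ^ ((r : ℝ) / ((r : ℝ) - 1)) * (ex p (toR f) - ex p (toR f) ^ 2) := by ring
    _ ≤ _ := key

end Crest.Agent.S0078
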