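import Crest.Statements.S0094
import Crest.Agent.EntDual.Final

set_option autoImplicit false
open Pointwise Crest.AnalysisR
open Crest Crest.AnalysisR

namespace Crest.Agent.S0094

/-- For all real a, b ≥ 1 there are n ≥ 1 and a compact convex set K in Euclidean n-space with nonempty interior, symmetric about 0, such that, with L the cube of points having all coordinates in [-1, 1] and polars taken for the standard inner product (the y pairing to at most 1 with each point of the set): some m translates of a⁻¹ • (polar of K) cover the polar of L, while any k translates of L covering K satisfy b * log m < log k. So log N(K, L) > b log N(L°, a⁻¹K°) for covering numbers N. -/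
theorem result
    (a b : ℝ) (ha : 1 ≤ a) (hb : 1 ≤ b) :
    ∃ n : ℕ, 0 < n ∧ ∃ K : Set (EuclideanSpace ℝ (Fin n)),
      Convex ℝ K ∧ IsCompact K ∧ (interior K).Nonempty ∧ (∀ x ∈ K, -x ∈ K) ∧
      ∃ t₁ : Finset (EuclideanSpace ℝ (Fin n)),
        polarSet {x : EuclideanSpace ℝ (Fin n) | ∀ i, |x i| ≤ 1} ⊆ ⋃ y ∈ t₁, (y +ᵥ a⁻¹ • polarSet K) ∧
        ∀ t₂ : Finset (EuclideanSpace ℝ (Fin n)),
          K ⊆ ⋃ x ∈ t₂, (x +ᵥ {z : EuclideanSpace ℝ (Fin n) | ∀ i, |z i| ≤ 1}) →
          b * Real.log t₁.card < Real.log t₂.card := by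
  exact Crest.Agent.EntDual.final a b ha hb

end Crest.Agent.S0094
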