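import Crest.Statements.S0110

set_option autoImplicit false
open MeasureTheory
open scoped ENNReal NNReal
open Crest.AnalysisR.OT
open Crest Crest.AnalysisR Crest.AnalysisR.OT

namespace Crest.Agent.S0110

/-- uniform probability on [-1,1] -/
noncomputable def U : Measure ℝ := (2 : ℝ≥0∞)⁻¹ • volume.restrict (Set.Icc (-1) 1)

theorem U_apply (s : Set ℝ) : U s = 2⁻¹ * volume.restrict (Set.Icc (-1 : ℝ) 1) s := by
  simp [U]

instance : IsProbabilityMeasure U := ⟨by
  rw [U_apply, Measure.restrict_apply_univ, Real.volume_Icc]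
  norm_num
  exact ENNReal.inv_mul_cancel (by norm_num) (by norm_num)⟩

/-- the cube -/
def Q (d : ℕ) : Set (EuclideanSpace ℝ (Fin d)) := {x | ∀ i, |x i| ≤ 1}

theorem Q_eq (d : ℕ) : Q d = (WithLp.ofLp (p := 2) : EuclideanSpace ℝ (Fin d) → (Fin d → ℝ)) ⁻¹'
    (Set.pi Set.univ fun _ => Set.Icc (-1 : ℝ) 1) := by
  ext x
  simp only [Q, abs_le, Set.mem_ofPred_eq, Set.mem_preimage, Set.mem_pi, Set.mem_univ, forall_true_left,
    Set.mem_Icc]

theorem measurableSet_Q' (d : ℕ) : MeasurableSet (Set.pi Set.univ fun _ : Fin d => Set.Icc (-1 : ℝ) 1) :=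
  MeasurableSet.univ_pi fun _ => measurableSet_Icc

theorem measurable_ofLp' (d : ℕ) :
    Measurable (WithLp.ofLp (p := 2) : EuclideanSpace ℝ (Fin d) → (Fin d → ℝ)) :=
  (PiLp.volume_preserving_ofLp (Fin d)).measurable

theorem measurableSet_Q (d : ℕ) : MeasurableSet (Q d) := by
  rw [Q_eq]
  exact measurable_ofLp' d (measurableSet_Q' d)

theorem volume_Q (d : ℕ) : volume (Q d) = 2 ^ d := by
  rw [Q_eq, (PiLp.volume_preserving_ofLp (Fin d)).measure_preimage
    (measurableSet_Q' d).nullMeasurableSet, volume_pi_pi]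
  norm_num [Real.volume_Icc]

noncomputable abbrev rho (d : ℕ) : Measure (EuclideanSpace ℝ (Fin d)) := uniformProbOn (Q d)

theorem rho_def (d : ℕ) : rho d = ((2 : ℝ≥0∞) ^ d)⁻¹ • volume.restrict (Q d) := by
  rw [rho, uniformProbOn, volume_Q]

theorem map_restrict (d : ℕ) :
    (volume.restrict (Q d)).map (WithLp.ofLp (p := 2) : EuclideanSpace ℝ (Fin d) → (Fin d → ℝ)) =
      Measure.pi (fun _ => (volume : Measure ℝ).restrict (Set.Icc (-1) 1)) := by
  rw [← Measure.restrict_pi_pi, Q_eq, ← Measure.restrict_map (measurable_ofLp' d) (measurableSet_Q' d),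
    (PiLp.volume_preserving_ofLp (Fin d)).map_eq]
  rfl

theorem map_rho (d : ℕ) :
    (rho d).map (WithLp.ofLp (p := 2) : EuclideanSpace ℝ (Fin d) → (Fin d → ℝ)) =
      Measure.pi (fun _ => U) := by
  symm
  apply Measure.pi_eq
  intro s hs
  rw [rho_def, Measure.map_smul, Measure.smul_apply, map_restrict, Measure.pi_pi]
  simp only [U_apply, Finset.prod_mul_distrib, Finset.prod_const, Finset.card_univ, Fintype.card_fin,
    smul_eq_mul]
  rw [ENNReal.inv_pow]

instance (d : ℕ) : IsProbabilityMeasure (rho d) := by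
  have h := map_rho d
  have : IsProbabilityMeasure ((rho d).map
    (WithLp.ofLp (p := 2) : EuclideanSpace ℝ (Fin d) → (Fin d → ℝ))) := by
    rw [h]; infer_instance
  refine ⟨?_⟩
  have h1 := this.measure_univ
  rwa [Measure.map_apply (measurable_ofLp' d) MeasurableSet.univ, Set.preimage_univ] at h1

/-- joint law of two coordinates -/
theorem map_pair (d : ℕ) (i j : Fin d) (hij : i ≠ j) :
    (rho d).map (fun x => (x i, x j)) = U.prod U := by
  have h1 : (fun x : EuclideanSpace ℝ (Fin d) => (x i, x j)) =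
      (fun y : Fin d → ℝ => (y i, y j)) ∘
        (WithLp.ofLp (p := 2) : EuclideanSpace ℝ (Fin d) → (Fin d → ℝ)) := rfl
  rw [h1, ← Measure.map_map (by fun_prop) (measurable_ofLp' d), map_rho]
  have hind : ProbabilityTheory.iIndepFun (fun (k : Fin d) (y : Fin d → ℝ) => y k)
      (Measure.pi (fun _ : Fin d => U)) :=
    ProbabilityTheory.iIndepFun_pi (X := fun _ x => x) (fun _ => aemeasurable_id)
  have h2 := hind.indepFun hij
  rw [ProbabilityTheory.indepFun_iff_map_prod_eq_prod_map_map (measurable_pi_apply i).aemeasurable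
    (measurable_pi_apply j).aemeasurable] at h2
  rw [h2, (measurePreserving_eval (fun _ : Fin d => U) i).map_eq,
    (measurePreserving_eval (fun _ : Fin d => U) j).map_eq]

theorem ae_U : ∀ᵐ t ∂U, t ∈ Set.Icc (-1 : ℝ) 1 := by
  rw [U]
  exact Measure.ae_smul_measure (ae_restrict_mem measurableSet_Icc) _

theorem integrable_U {f : ℝ → ℝ} (hf : Continuous f) : Integrable f U := by
  rw [U]
  refine Integrable.smul_measure ?_ (by norm_num)
  exact hf.continuousOn.integrableOn_Icc

theorem integral_U_affine (m a : ℝ) : ∫ t, (m + a * t) ∂U = m := by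
  rw [U, integral_smul_measure, integral_Icc_eq_integral_Ioc,
    ← intervalIntegral.integral_of_le (by norm_num)]
  rw [intervalIntegral.integral_add (by simp) (by apply Continuous.intervalIntegrable; fun_prop),
    intervalIntegral.integral_const, intervalIntegral.integral_const_mul, integral_id]
  norm_num [ENNReal.toReal_inv]
  ring

theorem U_Icc {r : ℝ} (_h0 : 0 ≤ r) (h1 : r ≤ 1) : U {s | |s| ≤ r} = ENNReal.ofReal r := by
  have : {s : ℝ | |s| ≤ r} = Set.Icc (-r) r := by
    ext s; simp [abs_le]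
  rw [this, U_apply, Measure.restrict_apply measurableSet_Icc,
    Set.inter_eq_left.mpr (Set.Icc_subset_Icc (by linarith) h1), Real.volume_Icc]
  rw [show (2 : ℝ≥0∞)⁻¹ = ENNReal.ofReal (1/2) by
    rw [ENNReal.ofReal_div_of_pos (by norm_num)]; simp, ← ENNReal.ofReal_mul (by norm_num)]
  congr 1; ring

theorem U_Ioi {r : ℝ} (h0 : -1 ≤ r) (_h1 : r ≤ 1) : U {s | r < s} = ENNReal.ofReal ((1 - r) / 2) := by
  have : {s : ℝ | r < s} = Set.Ioi r := rfl
  rw [this, U_apply, Measure.restrict_apply measurableSet_Ioi]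
  have h2 : Set.Ioi r ∩ Set.Icc (-1) 1 = Set.Ioc r 1 := by
    ext s
    simp only [Set.mem_inter_iff, Set.mem_Ioi, Set.mem_Icc, Set.mem_Ioc]
    constructor
    · rintro ⟨h, -, h'⟩; exact ⟨h, h'⟩
    · rintro ⟨h, h'⟩; exact ⟨h, by linarith, h'⟩
  rw [h2, Real.volume_Ioc]
  rw [show (2 : ℝ≥0∞)⁻¹ = ENNReal.ofReal (1/2) by
    rw [ENNReal.ofReal_div_of_pos (by norm_num)]; simp, ← ENNReal.ofReal_mul (by norm_num)]
  congr 1; ring

theorem U_Iio {r : ℝ} (h0 : -1 ≤ r) (_h1 : r ≤ 1) : U {s | s < -r} = ENNReal.ofReal ((1 - r) / 2) := by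
  have : {s : ℝ | s < -r} = Set.Iio (-r) := rfl
  rw [this, U_apply, Measure.restrict_apply measurableSet_Iio]
  have h2 : Set.Iio (-r) ∩ Set.Icc (-1) 1 = Set.Ico (-1) (-r) := by
    ext s
    simp only [Set.mem_inter_iff, Set.mem_Iio, Set.mem_Icc, Set.mem_Ico]
    constructor
    · rintro ⟨h, h', -⟩; exact ⟨h', h⟩
    · rintro ⟨h, h'⟩; exact ⟨h', h, by linarith⟩
  rw [h2, Real.volume_Ico]
  rw [show (2 : ℝ≥0∞)⁻¹ = ENNReal.ofReal (1/2) by
    rw [ENNReal.ofReal_div_of_pos (by norm_num)]; simp, ← ENNReal.ofReal_mul (by norm_num)]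
  congr 1; ring

theorem lintegral_U_affine {m a : ℝ} (h : ∀ t ∈ Set.Icc (-1 : ℝ) 1, 0 ≤ m + a * t) :
    ∫⁻ t, ENNReal.ofReal (m + a * t) ∂U = ENNReal.ofReal m := by
  rw [← ofReal_integral_eq_lintegral_ofReal (integrable_U (by fun_prop)), integral_U_affine]
  filter_upwards [ae_U] with t ht using h t ht

variable {m a : ℝ}

theorem prod_mid (hm : 0 < m) (ha : 0 ≤ a) (ham : a ≤ m) (hm1 : m ≤ 1 / 2) :
    (U.prod U) {p | |p.1| ≤ m + a * p.2} = ENNReal.ofReal m := by
  rw [Measure.prod_apply_symm (measurableSet_le (by fun_prop) (by fun_prop))]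
  rw [← lintegral_U_affine (m := m) (a := a) (fun t ht => by nlinarith [ht.1, ht.2])]
  refine lintegral_congr_ae ?_
  filter_upwards [ae_U] with t ht
  have := U_Icc (r := m + a * t) (by nlinarith [ht.1, ht.2]) (by nlinarith [ht.1, ht.2])
  exact this

theorem prod_plus (hm : 0 < m) (ha : 0 ≤ a) (ham : a ≤ m) (hm1 : m ≤ 1 / 2) :
    (U.prod U) {p | m + a * p.2 < p.1} = ENNReal.ofReal ((1 - m) / 2) := by
  rw [Measure.prod_apply_symm (measurableSet_lt (by fun_prop) (by fun_prop))]
  rw [← lintegral_U_affine (m := (1 - m) / 2) (a := - a / 2) (fun t ht => by nlinarith [ht.1, ht.2])]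
  refine lintegral_congr_ae ?_
  filter_upwards [ae_U] with t ht
  have := U_Ioi (r := m + a * t) (by nlinarith [ht.1, ht.2]) (by nlinarith [ht.1, ht.2])
  refine this.trans ?_
  congr 1; ring

theorem prod_minus (hm : 0 < m) (ha : 0 ≤ a) (ham : a ≤ m) (hm1 : m ≤ 1 / 2) :
    (U.prod U) {p | p.1 < -(m + a * p.2)} = ENNReal.ofReal ((1 - m) / 2) := by
  rw [Measure.prod_apply_symm (measurableSet_lt (by fun_prop) (by fun_prop))]
  rw [← lintegral_U_affine (m := (1 - m) / 2) (a := - a / 2) (fun t ht => by nlinarith [ht.1, ht.2])]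
  refine lintegral_congr_ae ?_
  filter_upwards [ae_U] with t ht
  have := U_Iio (r := m + a * t) (by nlinarith [ht.1, ht.2]) (by nlinarith [ht.1, ht.2])
  refine this.trans ?_
  congr 1; ring

section Euclid

variable {d : ℕ} (i j : Fin d)

/-- basis vectors -/
noncomputable abbrev e (i : Fin d) : EuclideanSpace ℝ (Fin d) := EuclideanSpace.single i (1 : ℝ)

/-- the three atoms -/
noncomputable def atom (a : ℝ) : Fin 3 → EuclideanSpace ℝ (Fin d) := ![-e i, a • e j, e i]

/-- the weights -/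
noncomputable def wt (m : ℝ) : Fin 3 → ℝ := ![(1 - m) / 2, m, (1 - m) / 2]

/-- the target measure -/
noncomputable def mu (m a : ℝ) : Measure (EuclideanSpace ℝ (Fin d)) :=
  ∑ k, ENNReal.ofReal (wt m k) • Measure.dirac (atom i j a k)

/-- the optimal map -/
noncomputable def T (m a : ℝ) (x : EuclideanSpace ℝ (Fin d)) : EuclideanSpace ℝ (Fin d) :=
  if m + a * x j < x i then e i else if x i < -(m + a * x j) then -e i else a • e j

/-- dual potential -/
noncomputable def phi (m a : ℝ) (x : EuclideanSpace ℝ (Fin d)) : ℝ := max (|x i| - m) (a * x j)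

/-- slack -/
noncomputable def slack (m a : ℝ) (x y : EuclideanSpace ℝ (Fin d)) : ℝ :=
  phi i j m a x - (inner ℝ x y - m * |y i|)

theorem measurable_coord (k : Fin d) : Measurable fun x : EuclideanSpace ℝ (Fin d) => x k := by
  exact (measurable_pi_apply k).comp (measurable_ofLp' d)

theorem continuous_coord (k : Fin d) : Continuous fun x : EuclideanSpace ℝ (Fin d) => x k := by
  fun_prop

theorem measurable_T (m a : ℝ) : Measurable (T i j m a) := by
  unfold T
  refine Measurable.ite ?_ measurable_const (Measurable.ite ?_ measurable_const measurable_const)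
  · exact measurableSet_lt (measurable_const.add ((measurable_coord j).const_mul a)) (measurable_coord i)
  · exact measurableSet_lt (measurable_coord i)
      (measurable_const.add ((measurable_coord j).const_mul a)).neg

theorem e_apply_self (i : Fin d) : (e i : EuclideanSpace ℝ (Fin d)) i = 1 := by simp [e]

theorem e_apply_ne {i j : Fin d} (h : j ≠ i) : (e i : EuclideanSpace ℝ (Fin d)) j = 0 := by
  simp [e, h]

theorem inner_e (x : EuclideanSpace ℝ (Fin d)) (i : Fin d) : inner ℝ x (e i) = x i := by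
  simp [e, EuclideanSpace.inner_single_right]

theorem phi_slack_plus (hij : i ≠ j) (m a : ℝ) (x : EuclideanSpace ℝ (Fin d)) :
    slack i j m a x (e i) = phi i j m a x - (x i - m) := by
  rw [slack, inner_e, e_apply_self]; simp

theorem phi_slack_minus (hij : i ≠ j) (m a : ℝ) (x : EuclideanSpace ℝ (Fin d)) :
    slack i j m a x (-e i) = phi i j m a x - (- x i - m) := by
  rw [slack, inner_neg_right, inner_e]
  simp [e_apply_self]

theorem phi_slack_mid (hij : i ≠ j) (m a : ℝ) (x : EuclideanSpace ℝ (Fin d)) :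
    slack i j m a x (a • e j) = phi i j m a x - a * x j := by
  rw [slack, inner_smul_right, inner_e]
  have : (a • e j : EuclideanSpace ℝ (Fin d)) i = 0 := by
    simp [hij]
  rw [this]; simp

theorem slack_nonneg (hij : i ≠ j) {m a : ℝ} (x : EuclideanSpace ℝ (Fin d)) (k : Fin 3) :
    0 ≤ slack i j m a x (atom i j a k) := by
  fin_cases k
  · show 0 ≤ slack i j m a x (-e i)
    rw [phi_slack_minus i j hij, phi]
    have := neg_le_abs (x i)
    have := le_max_left (|x i| - m) (a * x j)
    linarith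
  · show 0 ≤ slack i j m a x (a • e j)
    rw [phi_slack_mid i j hij, phi]
    have := le_max_right (|x i| - m) (a * x j)
    linarith
  · show 0 ≤ slack i j m a x (e i)
    rw [phi_slack_plus i j hij, phi]
    have := le_abs_self (x i)
    have := le_max_left (|x i| - m) (a * x j)
    linarith

theorem slack_T (hij : i ≠ j) {m a : ℝ} (hm : 0 < m) (ha : 0 ≤ a) (ham : a ≤ m)
    {x : EuclideanSpace ℝ (Fin d)} (hx : x ∈ Q d) : slack i j m a x (T i j m a x) = 0 := by
  have hxj := abs_le.mp (hx j)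
  have h0 : 0 ≤ m + a * x j := by nlinarith
  unfold T
  split_ifs with h1 h2
  · rw [phi_slack_plus i j hij, phi, abs_of_nonneg (by linarith), max_eq_left (by linarith)]; ring
  · rw [phi_slack_minus i j hij, phi, abs_of_nonpos (by linarith), max_eq_left (by linarith)]; ring
  · rw [phi_slack_mid i j hij, phi, max_eq_right]
    · ring
    · have : |x i| ≤ m + a * x j := abs_le.mpr ⟨by linarith, by linarith⟩
      linarith

theorem ae_rho_mem : ∀ᵐ x ∂(rho d), x ∈ Q d := by
  rw [rho_def]
  exact Measure.ae_smul_measure (ae_restrict_mem (measurableSet_Q d)) _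

theorem measurable_pair : Measurable fun x : EuclideanSpace ℝ (Fin d) => (x i, x j) :=
  (measurable_coord i).prodMk (measurable_coord j)

theorem rho_mid {m a : ℝ} (hij : i ≠ j) (hm : 0 < m) (ha : 0 ≤ a) (ham : a ≤ m) (hm1 : m ≤ 1 / 2) :
    rho d {x | |x i| ≤ m + a * x j} = ENNReal.ofReal m := by
  rw [← prod_mid hm ha ham hm1, ← map_pair d i j hij,
    Measure.map_apply (measurable_pair i j) (measurableSet_le (by fun_prop) (by fun_prop))]
  rfl

theorem rho_plus {m a : ℝ} (hij : i ≠ j) (hm : 0 < m) (ha : 0 ≤ a) (ham : a ≤ m) (hm1 : m ≤ 1 / 2) :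
    rho d {x | m + a * x j < x i} = ENNReal.ofReal ((1 - m) / 2) := by
  rw [← prod_plus hm ha ham hm1, ← map_pair d i j hij,
    Measure.map_apply (measurable_pair i j) (measurableSet_lt (by fun_prop) (by fun_prop))]
  rfl

theorem rho_minus {m a : ℝ} (hij : i ≠ j) (hm : 0 < m) (ha : 0 ≤ a) (ham : a ≤ m) (hm1 : m ≤ 1 / 2) :
    rho d {x | x i < -(m + a * x j)} = ENNReal.ofReal ((1 - m) / 2) := by
  rw [← prod_minus hm ha ham hm1, ← map_pair d i j hij,
    Measure.map_apply (measurable_pair i j) (measurableSet_lt (by fun_prop) (by fun_prop))]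
  rfl

theorem measurableSet_mid (m a : ℝ) : MeasurableSet {x : EuclideanSpace ℝ (Fin d) | |x i| ≤ m + a * x j} :=
  (measurable_pair i j) (measurableSet_le (f := fun p : ℝ × ℝ => |p.1|) (g := fun p => m + a * p.2)
    (by fun_prop) (by fun_prop))

theorem measurableSet_plus (m a : ℝ) : MeasurableSet {x : EuclideanSpace ℝ (Fin d) | m + a * x j < x i} :=
  (measurable_pair i j) (measurableSet_lt (f := fun p : ℝ × ℝ => m + a * p.2) (g := fun p => p.1)
    (by fun_prop) (by fun_prop))

theorem measurableSet_minus (m a : ℝ) :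
    MeasurableSet {x : EuclideanSpace ℝ (Fin d) | x i < -(m + a * x j)} :=
  (measurable_pair i j) (measurableSet_lt (f := fun p : ℝ × ℝ => p.1) (g := fun p => -(m + a * p.2))
    (by fun_prop) (by fun_prop))

theorem lintegral_mu (m a : ℝ) (f : EuclideanSpace ℝ (Fin d) → ℝ≥0∞) (hf : Measurable f) :
    ∫⁻ y, f y ∂(mu i j m a) = ENNReal.ofReal ((1 - m) / 2) * f (-e i) + ENNReal.ofReal m * f (a • e j) +
      ENNReal.ofReal ((1 - m) / 2) * f (e i) := by
  rw [mu, lintegral_finsetSum_measure, Fin.sum_univ_three]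
  simp only [lintegral_smul_measure, lintegral_dirac' _ hf, smul_eq_mul]
  rfl

theorem map_T {m a : ℝ} (hij : i ≠ j) (hm : 0 < m) (ha : 0 ≤ a) (ham : a ≤ m) (hm1 : m ≤ 1 / 2) :
    (rho d).map (T i j m a) = mu i j m a := by
  refine Measure.ext_of_lintegral _ fun f hf => ?_
  rw [lintegral_map hf (measurable_T i j m a), lintegral_mu i j m a f hf]
  have h1 : ∫⁻ x, f (T i j m a x) ∂(rho d) = ∫⁻ x,
      ({x : EuclideanSpace ℝ (Fin d) | x i < -(m + a * x j)}.indicator (fun _ => f (-e i)) x +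
      {x : EuclideanSpace ℝ (Fin d) | |x i| ≤ m + a * x j}.indicator (fun _ => f (a • e j)) x +
      {x : EuclideanSpace ℝ (Fin d) | m + a * x j < x i}.indicator (fun _ => f (e i)) x) ∂(rho d) := by
    refine lintegral_congr_ae ?_
    filter_upwards [ae_rho_mem (d := d)] with x hx
    have hxj := abs_le.mp (hx j)
    have h0 : 0 ≤ m + a * x j := by nlinarith
    by_cases h1 : m + a * x j < x i
    · have h2 : ¬ (x i < -(m + a * x j)) := by linarith
      have h3 : ¬ (|x i| ≤ m + a * x j) := by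
        rw [abs_le]; rintro ⟨-, h⟩; linarith
      simp only [T, Set.indicator, Set.mem_ofPred_eq, h1, h2, h3, if_true, if_false, zero_add]
    · by_cases h2 : x i < -(m + a * x j)
      · have h3 : ¬ (|x i| ≤ m + a * x j) := by
          rw [abs_le]; rintro ⟨h, -⟩; linarith
        simp only [T, Set.indicator, Set.mem_ofPred_eq, h1, h2, h3, if_true, if_false, add_zero]
      · have h3 : |x i| ≤ m + a * x j := abs_le.mpr ⟨by linarith, by linarith⟩
        simp only [T, Set.indicator, Set.mem_ofPred_eq, h1, h2, h3, if_true, if_false, add_zero, zero_add]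
  rw [h1, lintegral_add_left, lintegral_add_left, lintegral_indicator_const (measurableSet_minus i j m a),
    lintegral_indicator_const (measurableSet_mid i j m a),
    lintegral_indicator_const (measurableSet_plus i j m a), rho_mid i j hij hm ha ham hm1,
    rho_plus i j hij hm ha ham hm1, rho_minus i j hij hm ha ham hm1]
  · ring
  · exact measurable_const.indicator (measurableSet_minus i j m a)
  · exact (measurable_const.indicator (measurableSet_minus i j m a)).add
      (measurable_const.indicator (measurableSet_mid i j m a))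

theorem isProb_mu {m a : ℝ} (hij : i ≠ j) (hm : 0 < m) (ha : 0 ≤ a) (ham : a ≤ m) (hm1 : m ≤ 1 / 2) :
    IsProbabilityMeasure (mu i j m a) := by
  rw [← map_T i j hij hm ha ham hm1]
  exact Measure.isProbabilityMeasure_map (measurable_T i j m a).aemeasurable

theorem isCompact_Q (d : ℕ) : IsCompact (Q d) := by
  have h := (PiLp.homeomorph 2 (fun _ : Fin d => ℝ)).isCompact_preimage.mpr
    (isCompact_univ_pi fun _ : Fin d => isCompact_Icc (a := (-1 : ℝ)) (b := 1))
  rw [Q_eq]
  exact h

theorem integrable_rho {f : EuclideanSpace ℝ (Fin d) → ℝ} (hf : Continuous f) :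
    Integrable f (rho d) := by
  rw [rho_def]
  refine Integrable.smul_measure ?_ (by simp)
  exact hf.continuousOn.integrableOn_compact (isCompact_Q d)

theorem integrable_mu (m a : ℝ) {B : EuclideanSpace ℝ (Fin d) → ℝ} :
    Integrable B (mu i j m a) := by
  rw [mu, integrable_finsetSum_measure]
  intro k _
  refine Integrable.smul_measure ?_ ENNReal.ofReal_ne_top
  exact integrable_dirac (by simp)

theorem continuous_phi (m a : ℝ) : Continuous (phi i j m a : EuclideanSpace ℝ (Fin d) → ℝ) := by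
  unfold phi
  have h1 := continuous_coord i
  have h2 := continuous_coord j
  fun_prop

/-- x part of the cost -/
noncomputable def P (m a : ℝ) (x : EuclideanSpace ℝ (Fin d)) : ℝ := ‖x‖ ^ 2 - 2 * phi i j m a x

/-- y part of the cost -/
noncomputable def B (m : ℝ) (y : EuclideanSpace ℝ (Fin d)) : ℝ := ‖y‖ ^ 2 - 2 * (m * |y i|)

theorem cost_pointwise (m a : ℝ) (x y : EuclideanSpace ℝ (Fin d)) :
    ‖x - y‖ ^ 2 = 2 * slack i j m a x y + (P i j m a x + B i m y) := by
  rw [@norm_sub_sq_real, slack, P, B]; ring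

theorem integrable_P (m a : ℝ) : Integrable (P i j m a) (rho d) := by
  apply integrable_rho
  unfold P
  have := continuous_phi i j m a
  fun_prop

theorem integrable_B {m a : ℝ} {S : EuclideanSpace ℝ (Fin d) → EuclideanSpace ℝ (Fin d)}
    (hS : Measurable S) (hmap : (rho d).map S = mu i j m a) :
    Integrable (fun x => B i m (S x)) (rho d) := by
  have h := integrable_mu i j m a (B := B i m)
  rw [← hmap] at h
  exact h.comp_measurable hS

theorem integral_B {m a : ℝ} {S : EuclideanSpace ℝ (Fin d) → EuclideanSpace ℝ (Fin d)}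
    (hS : Measurable S) (hmap : (rho d).map S = mu i j m a) :
    ∫ x, B i m (S x) ∂(rho d) = ∫ y, B i m y ∂(mu i j m a) := by
  rw [← hmap, integral_map hS.aemeasurable]
  rw [hmap]
  exact (integrable_mu i j m a).aestronglyMeasurable

theorem integrable_cost {m a : ℝ} {S : EuclideanSpace ℝ (Fin d) → EuclideanSpace ℝ (Fin d)}
    (hS : Measurable S) (hmap : (rho d).map S = mu i j m a) :
    Integrable (fun x => ‖x - S x‖ ^ 2) (rho d) := by
  have h1 : Integrable (fun x => ‖S x‖ ^ 2) (rho d) := by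
    have h := integrable_mu i j m a (B := fun y => ‖y‖ ^ 2)
    rw [← hmap] at h
    exact h.comp_measurable hS
  have h2 : Integrable (fun x : EuclideanSpace ℝ (Fin d) => ‖x‖ ^ 2) (rho d) :=
    integrable_rho (by fun_prop)
  refine Integrable.mono' ((h2.const_mul 2).add (h1.const_mul 2)) ?_ ?_
  · exact ((measurable_id.sub hS).norm.pow_const 2).aestronglyMeasurable
  · refine Filter.Eventually.of_forall fun x => ?_
    simp only [norm_pow, norm_norm, Pi.add_apply]
    have := norm_sub_le x (S x)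
    have h3 := norm_nonneg (x - S x)
    nlinarith [sq_nonneg (‖x‖ - ‖S x‖), norm_nonneg x, norm_nonneg (S x)]

theorem integrable_slack {m a : ℝ} {S : EuclideanSpace ℝ (Fin d) → EuclideanSpace ℝ (Fin d)}
    (hS : Measurable S) (hmap : (rho d).map S = mu i j m a) :
    Integrable (fun x => slack i j m a x (S x)) (rho d) := by
  have h := ((integrable_cost i j hS hmap).sub
    ((integrable_P i j m a).add (integrable_B i j hS hmap))).const_mul (1 / 2)
  refine h.congr (Filter.Eventually.of_forall fun x => ?_)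
  simp only [Pi.sub_apply, Pi.add_apply]
  rw [cost_pointwise i j m a x (S x)]; ring

theorem integral_cost {m a : ℝ} {S : EuclideanSpace ℝ (Fin d) → EuclideanSpace ℝ (Fin d)}
    (hS : Measurable S) (hmap : (rho d).map S = mu i j m a) :
    ∫ x, ‖x - S x‖ ^ 2 ∂(rho d) = 2 * ∫ x, slack i j m a x (S x) ∂(rho d) +
      (∫ x, P i j m a x ∂(rho d) + ∫ y, B i m y ∂(mu i j m a)) := by
  rw [← integral_B i j hS hmap, ← integral_add (integrable_P i j m a) (integrable_B i j hS hmap),
    ← integral_const_mul, ← integral_add]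
  · exact integral_congr_ae (Filter.Eventually.of_forall fun x => cost_pointwise i j m a x (S x))
  · exact (integrable_slack i j hS hmap).const_mul 2
  · exact (integrable_P i j m a).add (integrable_B i j hS hmap)

theorem lintegral_cost {m a : ℝ} {S : EuclideanSpace ℝ (Fin d) → EuclideanSpace ℝ (Fin d)}
    (hS : Measurable S) (hmap : (rho d).map S = mu i j m a) :
    ∫⁻ x, ‖x - S x‖ₑ ^ 2 ∂(rho d) = ENNReal.ofReal (∫ x, ‖x - S x‖ ^ 2 ∂(rho d)) := by
  rw [ofReal_integral_eq_lintegral_ofReal (integrable_cost i j hS hmap)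
    (Filter.Eventually.of_forall fun x => by positivity)]
  refine lintegral_congr fun x => ?_
  rw [ENNReal.ofReal_pow (norm_nonneg _), ofReal_norm]

theorem ae_atom {m a : ℝ} {S : EuclideanSpace ℝ (Fin d) → EuclideanSpace ℝ (Fin d)}
    (hS : Measurable S) (hmap : (rho d).map S = mu i j m a) :
    ∀ᵐ x ∂(rho d), ∃ k, S x = atom i j a k := by
  have h : ∀ᵐ y ∂(mu i j m a), y ∈ Set.range (atom i j a) := by
    rw [ae_iff]
    have hms : MeasurableSet {y | ¬ (y ∈ Set.range (atom i j a))} :=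
      (Set.finite_range (atom i j a)).measurableSet.compl
    rw [mu, Measure.finsetSum_apply]
    refine Finset.sum_eq_zero fun k _ => ?_
    rw [Measure.smul_apply, Measure.dirac_apply' _ hms]
    simp
  rw [← hmap] at h
  have h2 := ae_of_ae_map hS.aemeasurable h
  filter_upwards [h2] with x hx
  obtain ⟨k, hk⟩ := hx
  exact ⟨k, hk.symm⟩

theorem slack_nonneg_ae {m a : ℝ} (hij : i ≠ j)
    {S : EuclideanSpace ℝ (Fin d) → EuclideanSpace ℝ (Fin d)}
    (hS : Measurable S) (hmap : (rho d).map S = mu i j m a) :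
    ∀ᵐ x ∂(rho d), 0 ≤ slack i j m a x (S x) := by
  filter_upwards [ae_atom i j hS hmap] with x hx
  obtain ⟨k, hk⟩ := hx
  rw [hk]
  exact slack_nonneg i j hij x k

theorem integral_slack_T {m a : ℝ} (hij : i ≠ j) (hm : 0 < m) (ha : 0 ≤ a) (ham : a ≤ m) :
    ∫ x, slack i j m a x (T i j m a x) ∂(rho d) = 0 := by
  refine integral_eq_zero_of_ae ?_
  filter_upwards [ae_rho_mem (d := d)] with x hx
  exact slack_T i j hij hm ha ham hx

theorem isOptimal_T {m a : ℝ} (hij : i ≠ j) (hm : 0 < m) (ha : 0 ≤ a) (ham : a ≤ m)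
    (hm1 : m ≤ 1 / 2) : IsOptimalMap (rho d) (mu i j m a) (T i j m a) := by
  have hT := map_T i j hij hm ha ham hm1
  refine ⟨measurable_T i j m a, hT, fun S hS hmap => ?_⟩
  rw [lintegral_cost i j hS hmap, lintegral_cost i j (measurable_T i j m a) hT]
  refine ENNReal.ofReal_le_ofReal ?_
  rw [integral_cost i j hS hmap, integral_cost i j (measurable_T i j m a) hT,
    integral_slack_T i j hij hm ha ham]
  have := integral_nonneg_of_ae (slack_nonneg_ae i j hij hS hmap)
  linarith

theorem slack_zero_of_optimal {m a : ℝ} (hij : i ≠ j) (hm : 0 < m) (ha : 0 ≤ a) (ham : a ≤ m)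
    (hm1 : m ≤ 1 / 2) {S : EuclideanSpace ℝ (Fin d) → EuclideanSpace ℝ (Fin d)}
    (hopt : IsOptimalMap (rho d) (mu i j m a) S) :
    ∀ᵐ x ∂(rho d), slack i j m a x (S x) = 0 := by
  obtain ⟨hS, hmap, hmin⟩ := hopt
  have hT := map_T i j hij hm ha ham hm1
  have h := hmin (T i j m a) (measurable_T i j m a) hT
  rw [lintegral_cost i j hS hmap, lintegral_cost i j (measurable_T i j m a) hT,
    ENNReal.ofReal_le_ofReal_iff (integral_nonneg fun x => by positivity),
    integral_cost i j hS hmap, integral_cost i j (measurable_T i j m a) hT,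
    integral_slack_T i j hij hm ha ham] at h
  have h0 := integral_nonneg_of_ae (slack_nonneg_ae i j hij hS hmap)
  have h1 : ∫ x, slack i j m a x (S x) ∂(rho d) = 0 := by linarith
  exact (integral_eq_zero_iff_of_nonneg_ae (slack_nonneg_ae i j hij hS hmap)
    (integrable_slack i j hS hmap)).mp h1

theorem wt_pos {m : ℝ} (hm : 0 < m) (hm1 : m ≤ 1 / 2) (k : Fin 3) : 0 < wt m k := by
  fin_cases k
  · show 0 < (1 - m) / 2
    linarith
  · exact hm
  · show 0 < (1 - m) / 2
    linarith

theorem atom_injective (a : ℝ) (hij : i ≠ j) : Function.Injective (atom i j a) := by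
  have h0 : (atom i j a 0) i = -1 := by simp [atom]
  have h1 : (atom i j a 1) i = 0 := by simp [atom, hij]
  have h2 : (atom i j a 2) i = 1 := by simp [atom]
  intro k l hkl
  have h := congrArg (fun v : EuclideanSpace ℝ (Fin d) => v i) hkl
  simp only at h
  fin_cases k <;> fin_cases l <;> first | rfl | (exfalso; revert h; simp only [Fin.zero_eta, Fin.mk_one, Fin.reduceFinMk, h0, h1, h2]; norm_num)

theorem isThreeAtomic_mu {m a : ℝ} (hij : i ≠ j) (hm : 0 < m) (hm1 : m ≤ 1 / 2) :
    IsThreeAtomic (mu i j m a) :=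
  ⟨atom i j a, atom_injective i j a hij, wt m, wt_pos hm hm1, rfl⟩

theorem atom_mem_Q {m a : ℝ} (ha : 0 ≤ a) (ham : a ≤ m) (hm1 : m ≤ 1 / 2)
    (k : Fin 3) : atom i j a k ∈ Q d := by
  intro l
  fin_cases k
  · show |(-e i : EuclideanSpace ℝ (Fin d)) l| ≤ 1
    by_cases h : l = i
    · subst h; simp
    · simp [h]
  · show |(a • e j : EuclideanSpace ℝ (Fin d)) l| ≤ 1
    by_cases h : l = j
    · subst h; simp only [PiLp.smul_apply, e_apply_self, smul_eq_mul, mul_one]
      rw [abs_le]; constructor <;> linarith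
    · simp [h]
  · show |(e i : EuclideanSpace ℝ (Fin d)) l| ≤ 1
    by_cases h : l = i
    · subst h; simp
    · simp [h]

theorem isProbabilityOn_mu {m a : ℝ} (hij : i ≠ j) (hm : 0 < m) (ha : 0 ≤ a) (ham : a ≤ m)
    (hm1 : m ≤ 1 / 2) : IsProbabilityOn (Q d) (mu i j m a) := by
  refine ⟨isProb_mu i j hij hm ha ham hm1, ?_⟩
  rw [mu, Measure.finsetSum_apply]
  refine Finset.sum_eq_zero fun k _ => ?_
  rw [Measure.smul_apply, Measure.dirac_apply' _ (measurableSet_Q d).compl]
  simp [atom_mem_Q i j ha ham hm1 k]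

/-- the coupling -/
noncomputable def cpl (m : ℝ) : Measure (EuclideanSpace ℝ (Fin d) × EuclideanSpace ℝ (Fin d)) :=
  ∑ k, ENNReal.ofReal (wt m k) • Measure.dirac (atom i j 0 k, atom i j m k)

theorem isPairCoupling_cpl (m : ℝ) : IsPairCoupling (mu i j m 0) (mu i j m m) (cpl i j m) := by
  constructor
  · rw [cpl, mu, Fin.sum_univ_three, Fin.sum_univ_three, Measure.map_add _ _ measurable_fst,
      Measure.map_add _ _ measurable_fst]
    simp only [Measure.map_smul, Measure.map_dirac' measurable_fst]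
  · rw [cpl, mu, Fin.sum_univ_three, Fin.sum_univ_three, Measure.map_add _ _ measurable_snd,
      Measure.map_add _ _ measurable_snd]
    simp only [Measure.map_smul, Measure.map_dirac' measurable_snd]

theorem quadCost_cpl {m : ℝ} (hm : 0 < m) : quadCost (cpl i j m) = ENNReal.ofReal (m ^ 3) := by
  have hmeas : Measurable fun p : EuclideanSpace ℝ (Fin d) × EuclideanSpace ℝ (Fin d) =>
      ‖p.1 - p.2‖ₑ ^ 2 := by fun_prop
  rw [quadCost, cpl, lintegral_finsetSum_measure, Fin.sum_univ_three]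
  simp only [lintegral_smul_measure, lintegral_dirac' _ hmeas, smul_eq_mul]
  have h0 : atom i j 0 0 - atom i j m 0 = 0 := by simp [atom]
  have h1 : atom i j 0 1 - atom i j m 1 = - (m • e j) := by simp [atom]
  have h2 : atom i j 0 2 - atom i j m 2 = 0 := by simp [atom]
  have hw : wt m 1 = m := rfl
  rw [h0, h1, h2, hw, enorm_neg, enorm_smul]
  have h3 : ‖(e j : EuclideanSpace ℝ (Fin d))‖ₑ = 1 := by
    rw [← ofReal_norm]; simp
  have h4 : ‖m‖ₑ = ENNReal.ofReal m := by rw [← ofReal_norm, Real.norm_of_nonneg hm.le]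
  rw [h3, mul_one, h4]
  simp only [enorm_zero, ne_eq, OfNat.ofNat_ne_zero, not_false_eq_true, zero_pow, mul_zero, zero_add,
    add_zero]
  rw [← ENNReal.ofReal_pow hm.le, ← ENNReal.ofReal_mul hm.le]
  congr 1; ring

theorem U_Ioo {r s : ℝ} (h0 : -1 ≤ r) (h1 : s ≤ 1) :
    U {t | r < t ∧ t < s} = ENNReal.ofReal ((s - r) / 2) := by
  have : {t : ℝ | r < t ∧ t < s} = Set.Ioo r s := rfl
  rw [this, U_apply, Measure.restrict_apply measurableSet_Ioo,
    Set.inter_eq_left.mpr (Set.Ioo_subset_Icc_self.trans (Set.Icc_subset_Icc h0 h1)), Real.volume_Ioo]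
  rw [show (2 : ℝ≥0∞)⁻¹ = ENNReal.ofReal (1/2) by
    rw [ENNReal.ofReal_div_of_pos (by norm_num)]; simp, ← ENNReal.ofReal_mul (by norm_num)]
  congr 1; ring

/-- the box -/
def Box (m : ℝ) : Set (EuclideanSpace ℝ (Fin d)) := {x | (m < x i ∧ x i < 3 / 2 * m) ∧ 1 / 2 < x j}

theorem measurableSet_Box (m : ℝ) : MeasurableSet (Box i j m) := by
  have h1 := measurable_coord i
  have h2 := measurable_coord j
  exact ((measurableSet_lt measurable_const h1).inter (measurableSet_lt h1 measurable_const)).inter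
    (measurableSet_lt measurable_const h2)

theorem rho_Box {m : ℝ} (hij : i ≠ j) (hm : 0 < m) (hm1 : m ≤ 1 / 2) :
    rho d (Box i j m) = ENNReal.ofReal (m / 16) := by
  have h : rho d (Box i j m) = (U.prod U) ({t | m < t ∧ t < 3 / 2 * m} ×ˢ {t | 1 / 2 < t}) := by
    rw [← map_pair d i j hij, Measure.map_apply (measurable_pair i j)]
    · rfl
    · exact ((measurableSet_lt measurable_const measurable_id).inter
        (measurableSet_lt measurable_id measurable_const)).prod
        (measurableSet_lt measurable_const measurable_id)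
  rw [h, Measure.prod_prod, U_Ioo (by linarith) (by linarith), U_Ioi (by norm_num) (by norm_num),
    ← ENNReal.ofReal_mul (by linarith)]
  congr 1; ring

theorem opt_zero {m : ℝ} (hij : i ≠ j) (hm : 0 < m) {x y : EuclideanSpace ℝ (Fin d)}
    (hx : x ∈ Box i j m) (hy : ∃ k, y = atom i j 0 k) (hs : slack i j m 0 x y = 0) : y = e i := by
  obtain ⟨⟨h1, h2⟩, h3⟩ := hx
  have hphi : phi i j m 0 x = x i - m := by
    rw [phi, abs_of_pos (by linarith), max_eq_left (by linarith)]
  obtain ⟨k, rfl⟩ := hy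
  fin_cases k
  · exfalso
    have : slack i j m 0 x (-e i) = 0 := hs
    rw [phi_slack_minus i j hij, hphi] at this
    linarith
  · exfalso
    have : slack i j m 0 x ((0 : ℝ) • e j) = 0 := hs
    rw [phi_slack_mid i j hij, hphi] at this
    linarith
  · rfl

theorem opt_m {m : ℝ} (hij : i ≠ j) (hm : 0 < m) {x y : EuclideanSpace ℝ (Fin d)}
    (hx : x ∈ Box i j m) (hy : ∃ k, y = atom i j m k) (hs : slack i j m m x y = 0) :
    y = m • e j := by
  obtain ⟨⟨h1, h2⟩, h3⟩ := hx
  have hphi : phi i j m m x = m * x j := by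
    rw [phi, abs_of_pos (by linarith), max_eq_right (by nlinarith)]
  obtain ⟨k, rfl⟩ := hy
  fin_cases k
  · exfalso
    have : slack i j m m x (-e i) = 0 := hs
    rw [phi_slack_minus i j hij, hphi] at this
    nlinarith
  · rfl
  · exfalso
    have : slack i j m m x (e i) = 0 := hs
    rw [phi_slack_plus i j hij, hphi] at this
    nlinarith

theorem lower_bound {m : ℝ} (hij : i ≠ j) (hm : 0 < m) (hm1 : m ≤ 1 / 2)
    {S S' : EuclideanSpace ℝ (Fin d) → EuclideanSpace ℝ (Fin d)}
    (hS : IsOptimalMap (rho d) (mu i j m 0) S) (hS' : IsOptimalMap (rho d) (mu i j m m) S') :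
    ENNReal.ofReal (m / 16) ≤ ∫⁻ x, ‖S x - S' x‖ₑ ^ 2 ∂(rho d) := by
  rw [← rho_Box i j hij hm hm1]
  calc rho d (Box i j m) = ∫⁻ x, (Box i j m).indicator (fun _ => 1) x ∂(rho d) := by
        rw [lintegral_indicator_const (measurableSet_Box i j m), one_mul]
    _ ≤ _ := by
        refine lintegral_mono_ae ?_
        filter_upwards [slack_zero_of_optimal i j hij hm le_rfl hm.le hm1 hS,
          slack_zero_of_optimal i j hij hm hm.le le_rfl hm1 hS',
          ae_atom i j hS.1 hS.2.1, ae_atom i j hS'.1 hS'.2.1] with x h1 h2 h3 h4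
        by_cases hx : x ∈ Box i j m
        · rw [Set.indicator_of_mem hx, opt_zero i j hij hm hx h3 h1, opt_m i j hij hm hx h4 h2]
          have h5 : (1 : ℝ) ≤ ‖(e i - m • e j : EuclideanSpace ℝ (Fin d))‖ := by
            have h6 := PiLp.norm_apply_le (e i - m • e j : EuclideanSpace ℝ (Fin d)) i
            have h7 : (e i - m • e j : EuclideanSpace ℝ (Fin d)) i = 1 := by
              simp [hij]
            rw [h7] at h6
            simpa using h6
          have h8 : (1 : ℝ≥0∞) ≤ ‖(e i - m • e j : EuclideanSpace ℝ (Fin d))‖ₑ := by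
            rw [← ofReal_norm, ← ENNReal.ofReal_one]
            exact ENNReal.ofReal_le_ofReal h5
          exact one_le_pow₀ h8
        · rw [Set.indicator_of_notMem hx]; exact bot_le

end Euclid

/-- choice of the small parameter -/
theorem exists_small (α : ℝ) (hα : 1 / 3 < α) (C : ℝ≥0) :
    ∃ m : ℝ, 0 < m ∧ m ≤ 1 / 2 ∧
      (C : ℝ≥0∞) * ENNReal.ofReal (m ^ 3) ^ α < ENNReal.ofReal (m / 16) := by
  have hβ : 0 < 3 * α - 1 := by linarith
  set β := 3 * α - 1 with hβdef
  set q : ℝ := 1 / (16 * (C + 1)) with hq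
  have hC : (0 : ℝ) ≤ C := C.2
  have hq0 : 0 < q := by positivity
  set m : ℝ := min (1 / 2) (q ^ (1 / β)) with hm
  have hm0 : 0 < m := lt_min (by norm_num) (Real.rpow_pos_of_pos hq0 _)
  have hm1 : m ≤ 1 / 2 := min_le_left _ _
  have hmβ : m ^ β ≤ q := by
    calc m ^ β ≤ (q ^ (1 / β)) ^ β := Real.rpow_le_rpow hm0.le (min_le_right _ _) hβ.le
      _ = q := by
        rw [← Real.rpow_mul hq0.le, one_div, inv_mul_cancel₀ hβ.ne', Real.rpow_one]
  refine ⟨m, hm0, hm1, ?_⟩
  rw [ENNReal.ofReal_rpow_of_pos (by positivity), ← ENNReal.ofReal_coe_nnreal,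
    ← ENNReal.ofReal_mul hC]
  have h1 : (m ^ 3) ^ α = m * m ^ β := by
    rw [← Real.rpow_natCast m 3, ← Real.rpow_mul hm0.le, hβdef]
    nth_rewrite 2 [← Real.rpow_one m]
    rw [← Real.rpow_add hm0]
    congr 1; push_cast; ring
  rw [h1]
  refine (ENNReal.ofReal_lt_ofReal_iff (by positivity)).mpr ?_
  have h2 : (C : ℝ) * m ^ β < 1 / 16 := by
    calc (C : ℝ) * m ^ β ≤ C * q := by gcongr
      _ < 1 / 16 := by
        rw [hq, mul_one_div, div_lt_div_iff₀ (by positivity) (by norm_num)]
        linarith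
  calc (C : ℝ) * (m * m ^ β) = m * (C * m ^ β) := by ring
    _ < m * (1 / 16) := by gcongr
    _ = m / 16 := by ring

/-- The exponent one third is optimal, even on the cube with three-atom targets: for d ≥ 2, ρ the uniform probability measure on the cube of points of ℝᵈ with all coordinates in [-1, 1], every α > 1/3 and every C ≥ 0, there are three-atomic probability measures μ, ν on that cube, each admitting a quadratic optimal transport map from ρ, such that for all such optimal maps Tμ, Tν some coupling π of μ, ν has C · (∫ ‖y - z‖² dπ)^α < ∫ ‖Tμ - Tν‖² dρ. Hence ‖Tμ - Tν‖_{L²(ρ)} > √C · W₂(μ, ν)^α. -/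
theorem result
    (d : ℕ) (hd : 2 ≤ d) (α : ℝ) (hα : 1 / 3 < α) (C : ℝ≥0) :
    ∃ μ ν : Measure (EuclideanSpace ℝ (Fin d)),
      IsProbabilityOn {x : EuclideanSpace ℝ (Fin d) | ∀ i, |x i| ≤ 1} μ ∧
      IsProbabilityOn {x : EuclideanSpace ℝ (Fin d) | ∀ i, |x i| ≤ 1} ν ∧
      IsThreeAtomic μ ∧ IsThreeAtomic ν ∧
      (∃ T, IsOptimalMap (uniformProbOn {x : EuclideanSpace ℝ (Fin d) | ∀ i, |x i| ≤ 1}) μ T) ∧
      (∃ T, IsOptimalMap (uniformProbOn {x : EuclideanSpace ℝ (Fin d) | ∀ i, |x i| ≤ 1}) ν T) ∧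
      ∀ Tμ Tν : EuclideanSpace ℝ (Fin d) → EuclideanSpace ℝ (Fin d),
        IsOptimalMap (uniformProbOn {x : EuclideanSpace ℝ (Fin d) | ∀ i, |x i| ≤ 1}) μ Tμ →
        IsOptimalMap (uniformProbOn {x : EuclideanSpace ℝ (Fin d) | ∀ i, |x i| ≤ 1}) ν Tν →
        ∃ π : Measure (EuclideanSpace ℝ (Fin d) × EuclideanSpace ℝ (Fin d)), IsPairCoupling μ ν π ∧
          (C : ℝ≥0∞) * quadCost π ^ α < ∫⁻ x, ‖Tμ x - Tν x‖ₑ ^ 2 ∂(uniformProbOn {x : EuclideanSpace ℝ (Fin d) | ∀ i, |x i| ≤ 1}) := by
  obtain ⟨m, hm, hm1, hlt⟩ := exists_small α hα C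
  let i : Fin d := ⟨0, by omega⟩
  let j : Fin d := ⟨1, by omega⟩
  have hij : i ≠ j := by
    intro h
    have := congrArg Fin.val h
    simp [i, j] at this
  refine ⟨mu i j m 0, mu i j m m, isProbabilityOn_mu i j hij hm le_rfl hm.le hm1,
    isProbabilityOn_mu i j hij hm hm.le le_rfl hm1, isThreeAtomic_mu i j hij hm hm1,
    isThreeAtomic_mu i j hij hm hm1, ⟨_, isOptimal_T i j hij hm le_rfl hm.le hm1⟩,
    ⟨_, isOptimal_T i j hij hm hm.le le_rfl hm1⟩, fun Tμ Tν hTμ hTν => ?_⟩
  refine ⟨cpl i j m, isPairCoupling_cpl i j m, ?_⟩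
  rw [quadCost_cpl i j hm]
  exact hlt.trans_le (lower_bound i j hij hm hm1 hTμ hTν)

end Crest.Agent.S0110
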