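import Mathlib
import Crest.Prelude.Def_ModularData

/-!
Helper file for S0112, part A: basic facts about `LineCalculus`.
-/

set_option autoImplicit false
open Filter MeasureTheory Crest.OpAlg
open scoped Topology BoundedContinuousFunction

namespace Crest.Agent.S0112

variable {H : Type*} [NormedAddCommGroup H] [InnerProductSpace ℂ H] [CompleteSpace H]

lemma apply_norm_le (D : LineCalculus H) (f : BoundedContinuousFunction ℝ ℂ) :
    ‖D.apply f‖ ≤ ‖f‖ :=
  NonUnitalStarAlgHom.norm_apply_le D.apply f

lemma apply_norm_le' (D : LineCalculus H) (f : BoundedContinuousFunction ℝ ℂ) (x : H) :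
    ‖D.apply f x‖ ≤ ‖f‖ * ‖x‖ :=
  ((D.apply f).le_opNorm x).trans
    (mul_le_mul_of_nonneg_right (apply_norm_le D f) (norm_nonneg _))

@[simp] lemma character_apply (t u : ℝ) :
    LineCalculus.character t u = Complex.exp (Complex.I * ((t * u : ℝ) : ℂ)) := rfl

lemma character_mul (s t : ℝ) :
    LineCalculus.character s * LineCalculus.character t = LineCalculus.character (s + t) := by
  ext u
  simp only [BoundedContinuousFunction.coe_mul, Pi.mul_apply, character_apply]
  rw [← Complex.exp_add]
  congr 1
  push_cast
  ring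

lemma character_zero : LineCalculus.character 0 = 1 := by
  ext u
  simp [character_apply]

lemma star_character (t : ℝ) : star (LineCalculus.character t) = LineCalculus.character (-t) := by
  ext u
  simp only [BoundedContinuousFunction.star_apply, character_apply]
  rw [Complex.star_def, ← Complex.exp_conj]
  congr 1
  simp

lemma norm_character_le (t : ℝ) : ‖LineCalculus.character t‖ ≤ 1 := by
  refine (BoundedContinuousFunction.norm_le zero_le_one).2 fun u => ?_
  rw [character_apply, Complex.norm_exp]
  simp

lemma wave_mul (D : LineCalculus H) (s t : ℝ) : D.wave s * D.wave t = D.wave (s + t) := by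
  unfold LineCalculus.wave
  rw [← map_mul, character_mul]

lemma wave_zero (D : LineCalculus H) : D.wave 0 = 1 := by
  unfold LineCalculus.wave
  rw [character_zero, map_one]

lemma star_wave (D : LineCalculus H) (t : ℝ) : star (D.wave t) = D.wave (-t) := by
  unfold LineCalculus.wave
  rw [← map_star, star_character]

lemma wave_wave (D : LineCalculus H) (s t : ℝ) (x : H) :
    D.wave s (D.wave t x) = D.wave (s + t) x := by
  rw [← wave_mul]; rfl

lemma wave_neg_wave (D : LineCalculus H) (t : ℝ) (x : H) :
    D.wave (-t) (D.wave t x) = x := by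
  rw [wave_wave, neg_add_cancel, wave_zero]; rfl

lemma wave_wave_neg (D : LineCalculus H) (t : ℝ) (x : H) :
    D.wave t (D.wave (-t) x) = x := by
  rw [wave_wave, add_neg_cancel, wave_zero]; rfl

lemma inner_wave_left (D : LineCalculus H) (t : ℝ) (x y : H) :
    inner ℂ (D.wave t x) y = inner ℂ x (D.wave (-t) y) := by
  rw [← star_wave, ContinuousLinearMap.star_eq_adjoint, ContinuousLinearMap.adjoint_inner_right]

lemma norm_wave (D : LineCalculus H) (t : ℝ) (x : H) : ‖D.wave t x‖ = ‖x‖ := by
  have h : ‖D.wave t x‖ ^ 2 = ‖x‖ ^ 2 := by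
    rw [← inner_self_eq_norm_sq (𝕜 := ℂ), ← inner_self_eq_norm_sq (𝕜 := ℂ),
      inner_wave_left, wave_neg_wave]
  exact (sq_eq_sq₀ (norm_nonneg _) (norm_nonneg _)).1 h

lemma norm_wave_le_one (D : LineCalculus H) (t : ℝ) : ‖D.wave t‖ ≤ 1 :=
  ContinuousLinearMap.opNorm_le_bound _ zero_le_one fun x => by rw [norm_wave, one_mul]

lemma apply_mul (D : LineCalculus H) (f g : BoundedContinuousFunction ℝ ℂ) (x : H) :
    D.apply (f * g) x = D.apply f (D.apply g x) := by
  rw [map_mul]; rfl

lemma apply_comm (D : LineCalculus H) (f g : BoundedContinuousFunction ℝ ℂ) (x : H) :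
    D.apply f (D.apply g x) = D.apply g (D.apply f x) := by
  rw [← apply_mul, ← apply_mul, mul_comm]

/-- For compactly supported `f`, the map `t ↦ character t * f` is continuous into the bounded
continuous functions. -/
lemma continuous_character_mul (f : BoundedContinuousFunction ℝ ℂ)
    (hf : HasCompactSupport (f : ℝ → ℂ)) :
    Continuous fun t : ℝ => LineCalculus.character t * f := by
  obtain ⟨R, hR⟩ := hf.isCompact.isBounded.subset_closedBall (0 : ℝ)
  have hlip : ∀ s t : ℝ, ‖LineCalculus.character s * f - LineCalculus.character t * f‖ ≤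
      (|R| * ‖f‖) * |s - t| := by
    intro s t
    refine (BoundedContinuousFunction.norm_le (by positivity)).2 fun u => ?_
    simp only [BoundedContinuousFunction.coe_sub, BoundedContinuousFunction.coe_mul,
      Pi.sub_apply, Pi.mul_apply, character_apply]
    rw [← sub_mul, norm_mul]
    by_cases hu : u ∈ tsupport (f : ℝ → ℂ)
    · have hu' : |u| ≤ |R| := by
        have := hR hu
        rw [Metric.mem_closedBall, dist_zero_right, Real.norm_eq_abs] at this
        exact this.trans (le_abs_self _)
      have h1 : ‖Complex.exp (Complex.I * ((s * u : ℝ) : ℂ)) -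
          Complex.exp (Complex.I * ((t * u : ℝ) : ℂ))‖ ≤ |s - t| * |u| := by
        have h2 : Complex.exp (Complex.I * ((s * u : ℝ) : ℂ)) -
            Complex.exp (Complex.I * ((t * u : ℝ) : ℂ)) =
            Complex.exp (Complex.I * ((t * u : ℝ) : ℂ)) *
              (Complex.exp (Complex.I * (((s - t) * u : ℝ) : ℂ)) - 1) := by
          rw [mul_sub, mul_one, ← Complex.exp_add]
          congr 2
          push_cast
          ring
        rw [h2, norm_mul]
        have h3 : ‖Complex.exp (Complex.I * ((t * u : ℝ) : ℂ))‖ = 1 := by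
          rw [Complex.norm_exp]; simp
        rw [h3, one_mul]
        have h4 := Real.norm_exp_I_mul_ofReal_sub_one_le (x := (s - t) * u)
        rw [Real.norm_eq_abs, abs_mul] at h4
        exact h4
      calc _ ≤ (|s - t| * |u|) * ‖f u‖ := mul_le_mul_of_nonneg_right h1 (norm_nonneg _)
        _ ≤ (|s - t| * |R|) * ‖f‖ := by
            gcongr
            exact BoundedContinuousFunction.norm_coe_le_norm f u
        _ = _ := by ring
    · rw [image_eq_zero_of_notMem_tsupport hu, norm_zero, mul_zero]
      positivity
  rw [Metric.continuous_iff]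
  intro t ε hε
  refine ⟨ε / (|R| * ‖f‖ + 1), by positivity, fun s hs => ?_⟩
  rw [dist_eq_norm]
  rw [Real.dist_eq] at hs
  have h0 : (0 : ℝ) ≤ |R| * ‖f‖ := by positivity
  calc _ ≤ (|R| * ‖f‖) * |s - t| := hlip s t
    _ ≤ (|R| * ‖f‖ + 1) * |s - t| := by
        refine mul_le_mul_of_nonneg_right (by linarith) (abs_nonneg _)
    _ < (|R| * ‖f‖ + 1) * (ε / (|R| * ‖f‖ + 1)) := by
        exact mul_lt_mul_of_pos_left hs (by positivity)
    _ = ε := by field_simp

/-- vectors of the form `f(D) x` with `f` compactly supported are dense -/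
lemma exists_window (D : LineCalculus H) (x : H) (ε : ℝ) (hε : 0 < ε) :
    ∃ f : BoundedContinuousFunction ℝ ℂ,
      HasCompactSupport (f : ℝ → ℂ) ∧ ‖D.apply f x - x‖ < ε := D.window x ε hε

/-- strong continuity of the wave group -/
lemma continuous_wave (D : LineCalculus H) (x : H) : Continuous fun t : ℝ => D.wave t x := by
  rw [Metric.continuous_iff]
  intro t ε hε
  obtain ⟨f, hf, hfx⟩ := D.window x (ε / 3) (by positivity)
  have hcont : Continuous fun t : ℝ => D.apply (LineCalculus.character t * f) x := by
    have h1 : Continuous fun g : BoundedContinuousFunction ℝ ℂ => D.apply g x := by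
      have h2 : LipschitzWith ‖x‖₊ fun g : BoundedContinuousFunction ℝ ℂ => D.apply g x := by
        refine LipschitzWith.of_dist_le_mul fun g g' => ?_
        rw [dist_eq_norm, dist_eq_norm]
        have : D.apply g x - D.apply g' x = D.apply (g - g') x := by
          rw [map_sub]; rfl
        rw [this, mul_comm]
        exact apply_norm_le' D _ x
      exact h2.continuous
    exact h1.comp (continuous_character_mul f hf)
  obtain ⟨δ, hδ, hδ'⟩ := Metric.continuous_iff.1 hcont t (ε / 3) (by positivity)
  refine ⟨δ, hδ, fun s hs => ?_⟩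
  have h1 := hδ' s hs
  have e : ∀ r : ℝ, D.apply (LineCalculus.character r * f) x = D.wave r (D.apply f x) := by
    intro r; rw [apply_mul]; rfl
  simp only [e] at h1
  rw [dist_eq_norm] at h1 ⊢
  have h2 : ‖D.wave s (x - D.apply f x)‖ < ε / 3 := by
    rw [norm_wave, norm_sub_rev]; exact hfx
  have h3 : ‖D.wave t (D.apply f x - x)‖ < ε / 3 := by
    rw [norm_wave]; exact hfx
  have h4 : D.wave s x - D.wave t x = D.wave s (x - D.apply f x) +
      (D.wave s (D.apply f x) - D.wave t (D.apply f x)) + D.wave t (D.apply f x - x) := by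
    rw [map_sub, map_sub]; abel
  rw [h4]
  calc _ ≤ ‖D.wave s (x - D.apply f x)‖ + ‖D.wave s (D.apply f x) - D.wave t (D.apply f x)‖
        + ‖D.wave t (D.apply f x - x)‖ := norm_add₃_le
    _ < ε / 3 + ε / 3 + ε / 3 := by gcongr
    _ = ε := by ring

/-- joint version: if `t ↦ y t` is continuous then so is `t ↦ wave t (y t)` -/
lemma continuous_wave_comp (D : LineCalculus H) (y : ℝ → H) (hy : Continuous y) :
    Continuous fun t : ℝ => D.wave t (y t) := by
  rw [continuous_iff_continuousAt]
  intro t
  have h1 : ContinuousAt (fun s : ℝ => D.wave s (y t)) t := (continuous_wave D (y t)).continuousAt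
  have h2 : Tendsto (fun s : ℝ => D.wave s (y s) - D.wave s (y t)) (𝓝 t) (𝓝 0) := by
    rw [tendsto_zero_iff_norm_tendsto_zero]
    have h3 : ∀ s : ℝ, ‖D.wave s (y s) - D.wave s (y t)‖ = ‖y s - y t‖ := by
      intro s
      rw [← map_sub, norm_wave]
    simp only [h3]
    have h4 : Tendsto (fun s : ℝ => y s - y t) (𝓝 t) (𝓝 (y t - y t)) :=
      (hy.tendsto t).sub tendsto_const_nhds
    rw [sub_self] at h4
    simpa using h4.norm
  have h5 := h2.add h1.tendsto
  simp only [sub_add_cancel, zero_add] at h5
  exact h5

end Crest.Agent.S0112
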