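import Mathlib
import Crest.Prelude.Def_ModularData
import Crest.Agent.S0112A

/-!
Helper file for S0112, part B: the vacuum is fixed by the wave group; estimate for `x⋆ ξ`;
density of the commutant orbit of the vacuum.
-/

set_option autoImplicit false
open Filter MeasureTheory Crest.OpAlg
open scoped Topology BoundedContinuousFunction

namespace Crest.Agent.S0112

variable {H : Type*} [NormedAddCommGroup H] [InnerProductSpace ℂ H] [CompleteSpace H]

lemma exists_bcf (f : ℝ → ℂ) (hc : Continuous f) (hs : HasCompactSupport f) :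
    ∃ F : BoundedContinuousFunction ℝ ℂ, (F : ℝ → ℂ) = f := by
  obtain ⟨C, hC⟩ := hc.bounded_above_of_compact_support hs
  exact ⟨BoundedContinuousFunction.ofNormedAddCommGroup f hc C hC, rfl⟩

/-- conjugate-linear isometries reverse inner products -/
lemma inner_J (J : H ≃ₗᵢ⋆[ℂ] H) (x y : H) : inner ℂ (J x) (J y) = inner ℂ y x := by
  have hre : ∀ a b : H, (inner ℂ (J a) (J b) : ℂ).re = (inner ℂ a b : ℂ).re := by
    intro a b
    have h1 : ‖J a + J b‖ ^ 2 = ‖a + b‖ ^ 2 := by rw [← map_add, J.norm_map]
    have h2 := norm_add_sq (𝕜 := ℂ) (J a) (J b)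
    have h3 := norm_add_sq (𝕜 := ℂ) a b
    rw [h1, h3, J.norm_map, J.norm_map] at h2
    simp only [RCLike.re_to_complex] at h2
    linarith
  have him : (inner ℂ (J x) (J y) : ℂ).im = -(inner ℂ x y : ℂ).im := by
    have h1 := hre (Complex.I • x) y
    rw [map_smulₛₗ, inner_smul_left, inner_smul_left] at h1
    simp at h1
    linarith
  rw [← inner_conj_symm y x]
  apply Complex.ext
  · rw [hre, Complex.conj_re]
  · rw [him, Complex.conj_im]

lemma halfExp_window (D : LineCalculus H) (f g : BoundedContinuousFunction ℝ ℂ)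
    (hfg : ∀ u : ℝ, g u = f u * ((Real.exp (u / 2) : ℝ) : ℂ)) (z : H) :
    D.HalfExp (D.apply f z) (D.apply g z) := by
  intro f' g' h'
  rw [← apply_mul, ← apply_mul]
  congr 2
  ext u
  simp only [BoundedContinuousFunction.coe_mul, Pi.mul_apply, hfg u, h' u]
  ring

variable (S : ModularDatum H)

lemma closure_inner (p : H × H)
    (hp : p ∈ closure (Set.range fun a : S.M =>
      ((a : H →L[ℂ] H) S.vac, star (a : H →L[ℂ] H) S.vac))) :
    inner ℂ S.vac p.1 = inner ℂ p.2 S.vac := by
  have hcl : IsClosed {p : H × H | inner ℂ S.vac p.1 = inner ℂ p.2 S.vac} :=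
    isClosed_eq (by fun_prop) (by fun_prop)
  refine hcl.closure_subset_iff.2 ?_ hp
  rintro _ ⟨a, rfl⟩
  show inner ℂ S.vac ((a : H →L[ℂ] H) S.vac) = inner ℂ (star (a : H →L[ℂ] H) S.vac) S.vac
  rw [ContinuousLinearMap.star_eq_adjoint, ContinuousLinearMap.adjoint_inner_left]

lemma vac_key (F : BoundedContinuousFunction ℝ ℂ) (hF : HasCompactSupport (F : ℝ → ℂ))
    (G : BoundedContinuousFunction ℝ ℂ) (hG : ∀ u : ℝ, G u = F u * ((Real.exp u : ℝ) : ℂ)) :
    S.D.apply F S.vac = S.D.apply G S.vac := by
  -- `f = star F`, `g = f e^{u/2}`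
  obtain ⟨g, hg⟩ := exists_bcf (fun u : ℝ => (star F) u * ((Real.exp (u / 2) : ℝ) : ℂ))
    (by fun_prop) (by
      refine HasCompactSupport.mul_right ?_
      have : ((star F : BoundedContinuousFunction ℝ ℂ) : ℝ → ℂ) = fun u => star (F u) := rfl
      rw [this]
      exact hF.comp_left (g := star) (star_zero ℂ))
  have hg' : ∀ u : ℝ, g u = (star F) u * ((Real.exp (u / 2) : ℝ) : ℂ) := fun u => by
    rw [hg]
  have h1 : ∀ z : H, inner ℂ S.vac (S.D.apply (star F) z) =
      inner ℂ (S.J S.vac) (S.D.apply g z) := by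
    intro z
    have hmem : ((S.D.apply (star F) z, S.J (S.D.apply g z)) : H × H) ∈
        closure (Set.range fun a : S.M =>
          ((a : H →L[ℂ] H) S.vac, star (a : H →L[ℂ] H) S.vac)) := by
      rw [S.tomita]
      show S.D.HalfExp (S.D.apply (star F) z) (S.J (S.J (S.D.apply g z)))
      rw [S.J_J]
      exact halfExp_window S.D _ _ hg' z
    have h2 := closure_inner S _ hmem
    simp only at h2
    rw [h2]
    conv_lhs => rw [← S.J_J S.vac]
    rw [inner_J]
  have h2 : S.D.apply F S.vac = S.D.apply (star g) (S.J S.vac) := by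
    refine ext_inner_right ℂ fun z => ?_
    have e1 : ∀ (f : BoundedContinuousFunction ℝ ℂ) (a b : H),
        inner ℂ (S.D.apply (star f) a) b = inner ℂ a (S.D.apply f b) := by
      intro f a b
      rw [map_star, ContinuousLinearMap.star_eq_adjoint, ContinuousLinearMap.adjoint_inner_left]
    have e2 := e1 (star F) S.vac z
    rw [star_star] at e2
    rw [e2, e1, h1]
  have h3 : S.D.HalfExp S.vac (S.J S.vac) := by
    have hmem : ((S.vac, S.vac) : H × H) ∈
        closure (Set.range fun a : S.M =>
          ((a : H →L[ℂ] H) S.vac, star (a : H →L[ℂ] H) S.vac)) := by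
      apply subset_closure
      refine ⟨⟨1, one_mem _⟩, ?_⟩
      simp
    rw [S.tomita] at hmem
    exact hmem
  rw [h2]
  refine h3 (star g) G fun u => ?_
  rw [hG, BoundedContinuousFunction.star_apply, hg', BoundedContinuousFunction.star_apply]
  rw [star_mul', star_star, mul_assoc]
  congr 1
  have : star ((Real.exp (u / 2) : ℝ) : ℂ) = ((Real.exp (u / 2) : ℝ) : ℂ) := by
    rw [Complex.star_def, Complex.conj_ofReal]
  rw [this, ← Complex.ofReal_mul, ← Real.exp_add]
  congr 2
  ring

lemma dslope_exp_ne_zero (u : ℝ) : dslope Real.exp 0 u ≠ 0 := by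
  by_cases hu : u = 0
  · subst hu
    rw [dslope_same]
    simp
  · intro h
    have h1 := sub_smul_dslope Real.exp 0 u
    rw [h, smul_zero, Real.exp_zero] at h1
    have : Real.exp u = 1 := by linarith
    exact hu (by simpa using this)

lemma continuous_dslope_of {E : Type*} [NormedAddCommGroup E] [NormedSpace ℝ E] (f : ℝ → E)
    (hf : Differentiable ℝ f) : Continuous (dslope f 0) := by
  rw [continuous_iff_continuousAt]
  intro u
  by_cases hu : u = 0
  · subst hu
    exact continuousAt_dslope_same.2 (hf 0)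
  · exact (continuousAt_dslope_of_ne hu).2 (hf u).continuousAt

lemma wave_vac (t : ℝ) : S.D.wave t S.vac = S.vac := by
  have key : ∀ f : BoundedContinuousFunction ℝ ℂ, HasCompactSupport (f : ℝ → ℂ) →
      S.D.wave t (S.D.apply f S.vac) = S.D.apply f S.vac := by
    intro f hf
    set e : ℝ → ℂ := fun u => Complex.exp (Complex.I * ((t * u : ℝ) : ℂ)) with he
    have hdiff : Differentiable ℝ e := by
      intro u
      have : DifferentiableAt ℝ (fun u : ℝ => Complex.I * ((t * u : ℝ) : ℂ)) u := by
        have h1 : DifferentiableAt ℝ (fun u : ℝ => ((t * u : ℝ) : ℂ)) u :=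
          (Complex.ofRealCLM.differentiable.comp (differentiable_id.const_mul t)) u
        exact h1.const_mul _
      exact this.cexp
    have hc1 := continuous_dslope_of e hdiff
    have hc2 := continuous_dslope_of Real.exp Real.differentiable_exp
    -- `q (e^u - 1) = e^{itu} - 1`
    set q : ℝ → ℂ := fun u => dslope e 0 u / ((dslope Real.exp 0 u : ℝ) : ℂ) with hq
    have hqc : Continuous q := by
      refine hc1.div (Complex.continuous_ofReal.comp hc2) fun u => ?_
      exact_mod_cast dslope_exp_ne_zero u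
    have hq1 : ∀ u : ℝ, q u * (((Real.exp u : ℝ) : ℂ) - 1) = e u - 1 := by
      intro u
      have h1 := sub_smul_dslope Real.exp 0 u
      have h2 := sub_smul_dslope e 0 u
      have h3 : ((Real.exp u : ℝ) : ℂ) - 1 = (u : ℂ) * ((dslope Real.exp 0 u : ℝ) : ℂ) := by
        rw [Real.exp_zero, sub_zero, smul_eq_mul] at h1
        rw [← Complex.ofReal_mul, h1]
        push_cast
        ring
      have h4 : e u - 1 = (u : ℂ) * dslope e 0 u := by
        have : e 0 = 1 := by simp [he]
        rw [this, sub_zero, Complex.real_smul] at h2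
        exact h2.symm
      rw [h3, h4, hq]
      have := dslope_exp_ne_zero u
      have h5 : ((dslope Real.exp 0 u : ℝ) : ℂ) ≠ 0 := by exact_mod_cast this
      field_simp
    obtain ⟨F, hF⟩ := exists_bcf (fun u => q u * f u) (hqc.mul f.continuous)
      (HasCompactSupport.mul_left hf)
    have hFs : HasCompactSupport (F : ℝ → ℂ) := by
      rw [hF]; exact HasCompactSupport.mul_left hf
    obtain ⟨G, hG⟩ := exists_bcf (fun u => F u * ((Real.exp u : ℝ) : ℂ)) (by fun_prop)
      (HasCompactSupport.mul_right hFs)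
    have h1 := vac_key S F hFs G (fun u => by rw [hG])
    have h2 : LineCalculus.character t * f - f = G - F := by
      ext u
      simp only [BoundedContinuousFunction.coe_sub, BoundedContinuousFunction.coe_mul,
        Pi.sub_apply, Pi.mul_apply, character_apply, hG]
      have : F u = q u * f u := by rw [hF]
      rw [this]
      have h5 := hq1 u
      have h6 : Complex.exp (Complex.I * ((t * u : ℝ) : ℂ)) = q u * (((Real.exp u : ℝ) : ℂ) - 1) + 1
        := by rw [h5]; simp [he]
      rw [h6]
      ring
    have h3 : S.D.apply (LineCalculus.character t * f - f) S.vac = 0 := by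
      rw [h2, map_sub]
      show S.D.apply G S.vac - S.D.apply F S.vac = 0
      rw [h1, sub_self]
    rw [map_sub] at h3
    have h4 : S.D.apply (LineCalculus.character t * f) S.vac - S.D.apply f S.vac = 0 := h3
    rw [apply_mul] at h4
    exact sub_eq_zero.1 h4
  -- pass to the limit
  have h0 : ∀ ε : ℝ, 0 < ε → ‖S.D.wave t S.vac - S.vac‖ ≤ 2 * ε := by
    intro ε hε
    obtain ⟨f, hf, hfx⟩ := S.D.window S.vac ε hε
    have h1 := key f hf
    have h2 : S.D.wave t S.vac - S.vac =
        -(S.D.wave t (S.D.apply f S.vac - S.vac)) + (S.D.apply f S.vac - S.vac) := by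
      rw [map_sub, h1]; abel
    rw [h2]
    calc _ ≤ ‖-(S.D.wave t (S.D.apply f S.vac - S.vac))‖ + ‖S.D.apply f S.vac - S.vac‖ :=
          norm_add_le _ _
      _ ≤ ε + ε := by
          rw [norm_neg, norm_wave]
          exact add_le_add hfx.le hfx.le
      _ = 2 * ε := by ring
  have h1 : ‖S.D.wave t S.vac - S.vac‖ ≤ 0 := by
    refine le_of_forall_pos_le_add fun ε hε => ?_
    have := h0 (ε / 2) (by positivity)
    linarith
  exact sub_eq_zero.1 (norm_le_zero_iff.1 h1)

/-- the estimate `‖x⋆ ξ‖ ≤ e^{b/2} ‖x ξ‖` when `x ξ` has spectral support in `(-∞, b]` -/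
lemma norm_star_vac_le (x : H →L[ℂ] H) (hx : x ∈ S.M) (a b : ℝ)
    (hsupp : S.D.SupportedIn (Set.Icc a b) (x S.vac)) :
    ‖star x S.vac‖ ≤ Real.exp (b / 2) * ‖x S.vac‖ := by
  set y := S.J (star x S.vac) with hy
  have hhalf : S.D.HalfExp (x S.vac) y := by
    have hmem : ((x S.vac, star x S.vac) : H × H) ∈
        closure (Set.range fun a : S.M =>
          ((a : H →L[ℂ] H) S.vac, star (a : H →L[ℂ] H) S.vac)) :=
      subset_closure ⟨⟨x, hx⟩, rfl⟩
    rw [S.tomita] at hmem
    exact hmem
  -- the bounded function `k(u) = exp(min u b / 2)`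
  set k : BoundedContinuousFunction ℝ ℂ := BoundedContinuousFunction.ofNormedAddCommGroup
    (fun u : ℝ => ((Real.exp (min u b / 2) : ℝ) : ℂ)) (by fun_prop) (Real.exp (b / 2))
    (fun u => by
      rw [Complex.norm_real, Real.norm_eq_abs, Real.abs_exp]
      exact Real.exp_le_exp.2 (by linarith [min_le_right u b])) with hk
  have hkn : ‖k‖ ≤ Real.exp (b / 2) :=
    BoundedContinuousFunction.norm_ofNormedAddCommGroup_le _ (Real.exp_pos _).le _
  have hyk : y = S.D.apply k (x S.vac) := by
    have key : ∀ f : BoundedContinuousFunction ℝ ℂ, HasCompactSupport (f : ℝ → ℂ) →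
        S.D.apply f (y - S.D.apply k (x S.vac)) = 0 := by
      intro f hf
      obtain ⟨g, hg⟩ := exists_bcf (fun u : ℝ => f u * ((Real.exp (u / 2) : ℝ) : ℂ))
        (by fun_prop) (HasCompactSupport.mul_right hf)
      have h1 := hhalf f g (fun u => by rw [hg])
      rw [map_sub, h1, ← apply_mul]
      have h2 : S.D.apply (g - f * k) (x S.vac) = 0 := by
        refine hsupp _ fun u hu => ?_
        simp only [BoundedContinuousFunction.coe_sub, BoundedContinuousFunction.coe_mul,
          Pi.sub_apply, Pi.mul_apply, hg]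
        have : k u = ((Real.exp (u / 2) : ℝ) : ℂ) := by
          simp only [hk, BoundedContinuousFunction.coe_ofNormedAddCommGroup]
          rw [min_eq_left hu.2]
        rw [this, sub_self]
      rw [map_sub] at h2
      exact h2
    have h0 : ∀ ε : ℝ, 0 < ε → ‖y - S.D.apply k (x S.vac)‖ ≤ 0 + ε := by
      intro ε hε
      obtain ⟨f, hf, hfx⟩ := S.D.window (y - S.D.apply k (x S.vac)) ε hε
      rw [key f hf, zero_sub, norm_neg] at hfx
      linarith
    exact sub_eq_zero.1 (norm_le_zero_iff.1 (le_of_forall_pos_le_add h0))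
  have h1 : ‖y‖ = ‖star x S.vac‖ := by rw [hy, S.J.norm_map]
  rw [← h1, hyk]
  exact (apply_norm_le' S.D k _).trans (mul_le_mul_of_nonneg_right hkn (norm_nonneg _))

/-- the orbit of the vacuum under the commutant is dense -/
lemma dense_commutant : Dense {z : H | ∃ a : H →L[ℂ] H, a ∈ S.M.commutant ∧ z = a S.vac} := by
  -- the closed subspace spanned by the orbit
  set L0 : Submodule ℂ H :=
    { carrier := {z : H | ∃ a : H →L[ℂ] H, a ∈ S.M.commutant ∧ z = a S.vac}
      add_mem' := by
        rintro _ _ ⟨a, ha, rfl⟩ ⟨b, hb, rfl⟩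
        exact ⟨a + b, add_mem ha hb, rfl⟩
      zero_mem' := ⟨0, zero_mem _, rfl⟩
      smul_mem' := by
        rintro c _ ⟨a, ha, rfl⟩
        exact ⟨c • a, S.M.commutant.toStarSubalgebra.smul_mem ha c, rfl⟩ } with hL0
  set L : Submodule ℂ H := L0.topologicalClosure with hL
  have : CompleteSpace L := (Submodule.isClosed_topologicalClosure L0).completeSpace_coe
  have hinv : ∀ b : H →L[ℂ] H, b ∈ S.M.commutant → ∀ z ∈ L, b z ∈ L := by
    intro b hb z hz
    have h1 : L0 ≤ L.comap (b : H →ₗ[ℂ] H) := by
      rintro _ ⟨a, ha, rfl⟩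
      show b (a S.vac) ∈ L
      exact Submodule.le_topologicalClosure L0 ⟨b * a, mul_mem hb ha, rfl⟩
    have h2 : IsClosed ((L.comap (b : H →ₗ[ℂ] H) : Submodule ℂ H) : Set H) :=
      (Submodule.isClosed_topologicalClosure L0).preimage b.continuous
    exact Submodule.topologicalClosure_minimal L0 h1 h2 hz
  set p : H →L[ℂ] H := L.starProjection with hp
  have hpM : p ∈ S.M := by
    rw [← S.M.commutant_commutant]
    rw [VonNeumannAlgebra.mem_commutant_iff]
    intro b hb
    have hbstar : star b ∈ S.M.commutant := star_mem hb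
    ext z
    show b (p z) = p (b z)
    -- decompose z
    have h1 : b (p z) ∈ L := hinv b hb _ (Submodule.starProjection_apply_mem L z)
    have h2 : b (z - p z) ∈ Lᗮ := by
      rw [Submodule.mem_orthogonal]
      intro w hw
      have h3 : inner ℂ w (b (z - p z)) = inner ℂ (star b w) (z - p z) := by
        rw [ContinuousLinearMap.star_eq_adjoint, ContinuousLinearMap.adjoint_inner_left]
      rw [h3]
      exact (Submodule.mem_orthogonal L _).1
        (Submodule.sub_starProjection_mem_orthogonal z) _ (hinv _ hbstar w hw)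
    have h3 : p (b z) = p (b (p z)) + p (b (z - p z)) := by
      rw [← map_add, ← map_add]
      congr 2
      abel
    have h4 : p (b (p z)) = b (p z) := Submodule.starProjection_eq_self_iff.2 h1
    have h5 : p (b (z - p z)) = 0 := by
      rw [hp, Submodule.starProjection_apply, Submodule.orthogonalProjectionOnto_apply_of_mem_orthogonal h2]
      rfl
    rw [h3, h4, h5, add_zero]
  have hvac : S.vac ∈ L := Submodule.le_topologicalClosure L0 ⟨1, one_mem _, rfl⟩
  have h1 : (1 - p) S.vac = 0 := by
    show S.vac - p S.vac = 0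
    rw [hp, Submodule.starProjection_eq_self_iff.2 hvac, sub_self]
  have h2 : (1 : H →L[ℂ] H) - p = 0 := S.separating _ (sub_mem (one_mem _) hpM) h1
  have h3 : L = ⊤ := by
    rw [eq_top_iff]
    intro z _
    have h4 : p z = z := by
      have : ((1 : H →L[ℂ] H) - p) z = 0 := by rw [h2]; rfl
      have h5 : z - p z = 0 := this
      exact (sub_eq_zero.1 h5).symm
    rw [← h4]
    exact Submodule.starProjection_apply_mem L z
  have h4 : Dense (L0 : Set H) := by
    rw [Submodule.dense_iff_topologicalClosure_eq_top]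
    exact h3
  exact h4

end Crest.Agent.S0112
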