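import Mathlib
import Crest.Prelude.Def_ModularData
import Crest.Agent.S0112B

/-!
Helper file for S0112, part C: smearing operators and the smoothing kernel.
-/

set_option autoImplicit false
open Filter MeasureTheory Crest.OpAlg
open scoped Topology BoundedContinuousFunction FourierTransform ContDiff

namespace Crest.Agent.S0112

variable {H : Type*} [NormedAddCommGroup H] [InnerProductSpace ℂ H] [CompleteSpace H]

lemma integrable_smul_bdd (G : ℝ → ℂ) (hG : Integrable G) (F : ℝ → H) (hF : Continuous F) (C : ℝ)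
    (hC : ∀ t, ‖F t‖ ≤ C) : Integrable fun t => G t • F t := by
  refine Integrable.mono' (hG.norm.mul_const C)
    (hG.aestronglyMeasurable.smul hF.aestronglyMeasurable) (ae_of_all _ fun t => ?_)
  rw [norm_smul]
  exact mul_le_mul_of_nonneg_left (hC t) (norm_nonneg _)

lemma norm_integral_smul_le (G : ℝ → ℂ) (hG : Integrable G) (F : ℝ → H) (C : ℝ)
    (hC : ∀ t, ‖F t‖ ≤ C) : ‖∫ t, G t • F t‖ ≤ (∫ t, ‖G t‖) * C := by
  rw [← integral_mul_const]
  refine norm_integral_le_of_norm_le (hG.norm.mul_const C) (ae_of_all _ fun t => ?_)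
  rw [norm_smul]
  exact mul_le_mul_of_nonneg_left (hC t) (norm_nonneg _)

lemma continuous_flow (D : LineCalculus H) (v : H →L[ℂ] H) (η : H) :
    Continuous fun t : ℝ => D.wave t (v (D.wave (-t) η)) := by
  refine continuous_wave_comp D _ (v.continuous.comp ?_)
  exact (continuous_wave D η).comp continuous_neg

lemma norm_flow_le (D : LineCalculus H) (v : H →L[ℂ] H) (η : H) (t : ℝ) :
    ‖D.wave t (v (D.wave (-t) η))‖ ≤ ‖v‖ * ‖η‖ := by
  rw [norm_wave]
  exact (v.le_opNorm _).trans (by rw [norm_wave])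

/-- the smeared operator `∫ G(t) σ_t(v) dt` -/
noncomputable def smear (D : LineCalculus H) (G : ℝ → ℂ) (hG : Integrable G) (v : H →L[ℂ] H) :
    H →L[ℂ] H :=
  LinearMap.mkContinuous
    { toFun := fun η => ∫ t, G t • D.wave t (v (D.wave (-t) η))
      map_add' := by
        intro a b
        rw [← integral_add
          (integrable_smul_bdd G hG _ (continuous_flow D v a) _ (norm_flow_le D v a))
          (integrable_smul_bdd G hG _ (continuous_flow D v b) _ (norm_flow_le D v b))]
        congr 1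
        ext t
        simp only [map_add, smul_add]
      map_smul' := by
        intro c a
        simp only [RingHom.id_apply]
        rw [← integral_smul]
        congr 1
        ext t
        simp only [map_smul]
        rw [smul_comm] }
    ((∫ t, ‖G t‖) * ‖v‖) (by
      intro η
      simp only [LinearMap.coe_mk, AddHom.coe_mk]
      rw [mul_assoc]
      exact norm_integral_smul_le G hG _ _ (norm_flow_le D v η))

lemma smear_apply (D : LineCalculus H) (G : ℝ → ℂ) (hG : Integrable G) (v : H →L[ℂ] H) (η : H) :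
    smear D G hG v η = ∫ t, G t • D.wave t (v (D.wave (-t) η)) := rfl

lemma norm_smear_le (D : LineCalculus H) (G : ℝ → ℂ) (hG : Integrable G) (v : H →L[ℂ] H) :
    ‖smear D G hG v‖ ≤ (∫ t, ‖G t‖) * ‖v‖ :=
  LinearMap.mkContinuous_norm_le _ (by positivity) _

lemma mem_of_comm (M : VonNeumannAlgebra H) (e : H →L[ℂ] H)
    (h : ∀ a ∈ M.commutant, a * e = e * a) : e ∈ M := by
  rw [← M.commutant_commutant, VonNeumannAlgebra.mem_commutant_iff]
  exact h

lemma comm_of_mem (M : VonNeumannAlgebra H) (e a : H →L[ℂ] H) (he : e ∈ M)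
    (ha : a ∈ M.commutant) (η : H) : a (e η) = e (a η) := by
  have := VonNeumannAlgebra.mem_commutant_iff.1 ha e he
  exact (congrArg (fun f : H →L[ℂ] H => f η) this).symm

variable (S : ModularDatum H)

lemma smear_mem (G : ℝ → ℂ) (hG : Integrable G) (v : H →L[ℂ] H) (hv : v ∈ S.M) :
    smear S.D G hG v ∈ S.M := by
  refine mem_of_comm _ _ fun a ha => ?_
  ext η
  show a (smear S.D G hG v η) = smear S.D G hG v (a η)
  rw [smear_apply, smear_apply]
  rw [← ContinuousLinearMap.integral_comp_comm a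
    (integrable_smul_bdd G hG _ (continuous_flow S.D v η) _ (norm_flow_le S.D v η))]
  congr 1
  ext t
  rw [map_smul]
  congr 1
  exact comm_of_mem S.M _ a (S.flow_mem t v hv) ha η

lemma smear_vac (G : ℝ → ℂ) (hG : Integrable G) (v : H →L[ℂ] H) :
    smear S.D G hG v S.vac = ∫ t, G t • S.D.wave t (v S.vac) := by
  rw [smear_apply]
  congr 1
  ext t
  rw [wave_vac]

/-- integrals of waves against `G` as a multiplier -/
lemma integral_wave_eq (D : LineCalculus H) (G : ℝ → ℂ) (hG : Integrable G)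
    (m : BoundedContinuousFunction ℝ ℂ)
    (hm : ∀ u : ℝ, ∫ t, G t * Complex.exp (Complex.I * ((t * u : ℝ) : ℂ)) = m u) (η : H) :
    ∫ t, G t • D.wave t η = D.apply m η := by
  have key : ∀ (f : BoundedContinuousFunction ℝ ℂ), HasCompactSupport (f : ℝ → ℂ) → ∀ ζ : H,
      ∫ t, G t • D.wave t (D.apply f ζ) = D.apply m (D.apply f ζ) := by
    intro f hf ζ
    have hcont := continuous_character_mul f hf
    have hint : Integrable fun t : ℝ => G t • (LineCalculus.character t * f) := by
      refine Integrable.mono' (hG.norm.mul_const ‖f‖)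
        (hG.aestronglyMeasurable.smul hcont.aestronglyMeasurable) (ae_of_all _ fun t => ?_)
      rw [norm_smul]
      refine mul_le_mul_of_nonneg_left ?_ (norm_nonneg _)
      calc _ ≤ ‖LineCalculus.character t‖ * ‖f‖ := norm_mul_le _ _
        _ ≤ 1 * ‖f‖ := mul_le_mul_of_nonneg_right (norm_character_le t) (norm_nonneg _)
        _ = ‖f‖ := one_mul _
    -- evaluation of the integral
    have hval : ∫ t, G t • (LineCalculus.character t * f) = m * f := by
      ext u
      have h1 : (∫ t, G t • (LineCalculus.character t * f)) u =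
          ∫ t, (G t • (LineCalculus.character t * f)) u := by
        have := ContinuousLinearMap.integral_comp_comm
          (BoundedContinuousFunction.evalCLM ℂ u : BoundedContinuousFunction ℝ ℂ →L[ℂ] ℂ) hint
        exact this.symm
      rw [h1, BoundedContinuousFunction.coe_mul, Pi.mul_apply, ← hm u, ← integral_mul_const]
      congr 1
      ext t
      simp only [BoundedContinuousFunction.coe_smul, BoundedContinuousFunction.coe_mul,
        Pi.mul_apply, character_apply, smul_eq_mul]
      ring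
    -- apply the calculus
    set L : BoundedContinuousFunction ℝ ℂ →L[ℂ] H := LinearMap.mkContinuous
      { toFun := fun g => D.apply g ζ
        map_add' := by intro a b; rw [map_add]; rfl
        map_smul' := by intro c a; rw [map_smul]; rfl } ‖ζ‖ (by
          intro g
          rw [mul_comm]
          exact apply_norm_le' D g ζ) with hL
    have hLa : ∀ g, L g = D.apply g ζ := fun g => rfl
    have h2 := ContinuousLinearMap.integral_comp_comm L hint
    rw [hval, hLa, apply_mul] at h2
    rw [← h2]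
    congr 1
    ext t
    rw [map_smul, hLa, apply_mul]
    rfl
  -- density
  have hbd : ∀ ζ : H, ‖∫ t, G t • D.wave t ζ‖ ≤ (∫ t, ‖G t‖) * ‖ζ‖ := fun ζ =>
    norm_integral_smul_le G hG _ _ fun t => (norm_wave D t ζ).le
  have hintw : ∀ ζ : H, Integrable fun t => G t • D.wave t ζ := fun ζ =>
    integrable_smul_bdd G hG _ (continuous_wave D ζ) ‖ζ‖ fun t => (norm_wave D t ζ).le
  have h0 : ∀ ε : ℝ, 0 < ε → ‖(∫ t, G t • D.wave t η) - D.apply m η‖ ≤
      0 + ((∫ t, ‖G t‖) + ‖m‖) * ε := by
    intro ε hε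
    obtain ⟨f, hf, hfx⟩ := D.window η ε hε
    have h1 : (∫ t, G t • D.wave t η) - D.apply m η =
        (∫ t, G t • D.wave t (η - D.apply f η)) - D.apply m (η - D.apply f η) := by
      have h2 : (∫ t, G t • D.wave t (η - D.apply f η)) =
          (∫ t, G t • D.wave t η) - ∫ t, G t • D.wave t (D.apply f η) := by
        rw [← integral_sub (hintw _) (hintw _)]
        congr 1
        ext t
        rw [map_sub, smul_sub]
      rw [h2, key f hf η, map_sub]
      abel
    rw [h1]
    have h3 : ‖η - D.apply f η‖ ≤ ε := by rw [norm_sub_rev]; exact hfx.le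
    calc _ ≤ ‖∫ t, G t • D.wave t (η - D.apply f η)‖ + ‖D.apply m (η - D.apply f η)‖ :=
          norm_sub_le _ _
      _ ≤ (∫ t, ‖G t‖) * ‖η - D.apply f η‖ + ‖m‖ * ‖η - D.apply f η‖ :=
          add_le_add (hbd _) (apply_norm_le' D m _)
      _ = ((∫ t, ‖G t‖) + ‖m‖) * ‖η - D.apply f η‖ := by ring
      _ ≤ ((∫ t, ‖G t‖) + ‖m‖) * ε := by
          refine mul_le_mul_of_nonneg_left h3 ?_
          exact add_nonneg (integral_nonneg fun t => norm_nonneg _) (norm_nonneg _)
      _ = _ := by ring
  have hnn : 0 ≤ (∫ t, ‖G t‖) + ‖m‖ :=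
    add_nonneg (integral_nonneg fun t => norm_nonneg _) (norm_nonneg _)
  have h1 : ‖(∫ t, G t • D.wave t η) - D.apply m η‖ ≤ 0 := by
    refine le_of_forall_pos_le_add fun ε hε => ?_
    have h2 := h0 (ε / ((∫ t, ‖G t‖) + ‖m‖ + 1)) (by positivity)
    refine h2.trans ?_
    rw [zero_add, zero_add, mul_div_assoc', div_le_iff₀ (by positivity)]
    nlinarith
  exact sub_eq_zero.1 (norm_le_zero_iff.1 h1)

/-- the fixed bump -/
noncomputable def bump : ContDiffBump (0 : ℝ) := ⟨1, 2, one_pos, one_lt_two⟩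

/-- the bump as a complex function -/
noncomputable def bumpC : ℝ → ℂ := fun u => ((bump u : ℝ) : ℂ)

lemma bumpC_contDiff : ContDiff ℝ ∞ bumpC :=
  Complex.ofRealCLM.contDiff.comp bump.contDiff

lemma bumpC_compact : HasCompactSupport bumpC :=
  bump.hasCompactSupport.comp_left (g := fun r : ℝ => (r : ℂ)) (by simp)

noncomputable def bumpS : SchwartzMap ℝ ℂ := bumpC_compact.toSchwartzMap bumpC_contDiff

lemma bumpS_coe : (bumpS : ℝ → ℂ) = bumpC := rfl

lemma fourier_bump_integrable : Integrable (𝓕 bumpC) := by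
  have := (𝓕 bumpS : SchwartzMap ℝ ℂ).integrable (μ := volume)
  rw [SchwartzMap.fourier_coe] at this
  exact this

lemma bump_eq (u : ℝ) :
    bumpC u = ∫ w : ℝ, Complex.exp (Complex.I * ((2 * Real.pi * w * u : ℝ) : ℂ)) * (𝓕 bumpC) w := by
  have h := Continuous.fourierInv_fourier_eq (f := bumpC) bumpC_contDiff.continuous
    (bumpC_contDiff.continuous.integrable_of_hasCompactSupport bumpC_compact)
    fourier_bump_integrable
  have h2 := congrFun h u
  rw [← h2, Real.fourierInv_eq']
  congr 1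
  ext w
  rw [smul_eq_mul]
  congr 2
  simp
  ring

/-- the `L¹` norm of the Fourier transform of the bump -/
noncomputable def CF : ℝ := ∫ w : ℝ, ‖(𝓕 bumpC) w‖

lemma CF_nonneg : 0 ≤ CF := integral_nonneg fun _ => norm_nonneg _

/-- the multiplier -/
noncomputable def mult (s δ : ℝ) : BoundedContinuousFunction ℝ ℂ :=
  BoundedContinuousFunction.ofNormedAddCommGroup (fun u : ℝ => bumpC ((u - s) / δ))
    (bumpC_contDiff.continuous.comp (by fun_prop)) 1 (fun u => by
      simp only [bumpC, Complex.norm_real, Real.norm_eq_abs]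
      rw [abs_of_nonneg bump.nonneg]
      exact bump.le_one)

lemma mult_apply (s δ u : ℝ) : mult s δ u = bumpC ((u - s) / δ) := rfl

lemma norm_mult_le (s δ : ℝ) : ‖mult s δ‖ ≤ 1 :=
  BoundedContinuousFunction.norm_ofNormedAddCommGroup_le _ zero_le_one _

lemma mult_one (s δ u : ℝ) (hδ : 0 < δ) (hu : u ∈ Set.Icc (s - δ) (s + δ)) : mult s δ u = 1 := by
  rw [mult_apply, bumpC]
  rw [bump.one_of_mem_closedBall]
  · simp
  · rw [Metric.mem_closedBall, dist_zero_right, Real.norm_eq_abs, abs_div, abs_of_pos hδ,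
      div_le_iff₀ hδ]
    show |u - s| ≤ 1 * δ
    rw [abs_le]
    constructor <;> [linarith [hu.1]; linarith [hu.2]]

lemma mult_zero (s δ u : ℝ) (hδ : 0 < δ) (hu : u ∉ Set.Icc (s - 2 * δ) (s + 2 * δ)) :
    mult s δ u = 0 := by
  rw [mult_apply, bumpC]
  rw [bump.zero_of_le_dist]
  · simp
  · rw [dist_zero_right, Real.norm_eq_abs, abs_div, abs_of_pos hδ, le_div_iff₀ hδ]
    show 2 * δ ≤ |u - s|
    by_contra hcon
    rw [not_le] at hcon
    rw [abs_lt] at hcon
    apply hu
    constructor <;> linarith [hcon.1, hcon.2]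

/-- the kernel with symbol `mult s δ` -/
lemma exists_kernel (s δ : ℝ) (hδ : 0 < δ) : ∃ G : ℝ → ℂ, Integrable G ∧
    (∫ t, ‖G t‖) = CF ∧
    ∀ u : ℝ, ∫ t, G t * Complex.exp (Complex.I * ((t * u : ℝ) : ℂ)) = mult s δ u := by
  have hpi := Real.pi_pos
  set c : ℝ := δ / (2 * Real.pi) with hc
  have hcpos : 0 < c := by positivity
  refine ⟨fun t => (c : ℂ) * Complex.exp (Complex.I * ((t * (-s) : ℝ) : ℂ)) * (𝓕 bumpC) (c * t),
    ?_, ?_, ?_⟩
  · have h1 : Integrable fun t : ℝ => (𝓕 bumpC) (c * t) :=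
      fourier_bump_integrable.comp_mul_left' hcpos.ne'
    have h2 : Integrable fun t : ℝ =>
        Complex.exp (Complex.I * ((t * (-s) : ℝ) : ℂ)) * (𝓕 bumpC) (c * t) := by
      refine h1.bdd_mul (c := 1) ?_ ?_
      · exact (by fun_prop : Continuous fun t : ℝ =>
          Complex.exp (Complex.I * ((t * (-s) : ℝ) : ℂ))).aestronglyMeasurable
      · refine ae_of_all _ fun t => ?_
        rw [Complex.norm_exp]
        simp
    have h3 := h2.const_mul (c : ℂ)
    refine h3.congr (ae_of_all _ fun t => ?_)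
    simp only
    ring
  · have h1 : ∀ t : ℝ, ‖(c : ℂ) * Complex.exp (Complex.I * ((t * (-s) : ℝ) : ℂ)) *
        (𝓕 bumpC) (c * t)‖ = c * ‖(𝓕 bumpC) (c * t)‖ := by
      intro t
      rw [norm_mul, norm_mul, Complex.norm_exp]
      simp [abs_of_pos hcpos]
    simp only [h1]
    have h5 : (∫ a : ℝ, ‖(𝓕 bumpC) (c * a)‖) = |c⁻¹| • ∫ y : ℝ, ‖(𝓕 bumpC) y‖ :=
      Measure.integral_comp_mul_left (fun t => ‖(𝓕 bumpC) t‖) c
    rw [integral_const_mul, h5]
    rw [abs_of_pos (inv_pos.2 hcpos), smul_eq_mul, ← mul_assoc, mul_inv_cancel₀ hcpos.ne', one_mul]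
    rfl
  · intro u
    have h1 : ∀ t : ℝ, (c : ℂ) * Complex.exp (Complex.I * ((t * (-s) : ℝ) : ℂ)) *
        (𝓕 bumpC) (c * t) * Complex.exp (Complex.I * ((t * u : ℝ) : ℂ)) =
        (c : ℂ) * ((fun w : ℝ => Complex.exp (Complex.I *
          ((2 * Real.pi * w * ((u - s) / δ) : ℝ) : ℂ)) * (𝓕 bumpC) w) (c * t)) := by
      intro t
      simp only
      have h2 : Complex.exp (Complex.I * ((2 * Real.pi * (c * t) * ((u - s) / δ) : ℝ) : ℂ)) =
          Complex.exp (Complex.I * ((t * (-s) : ℝ) : ℂ)) *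
            Complex.exp (Complex.I * ((t * u : ℝ) : ℂ)) := by
        rw [← Complex.exp_add, ← mul_add, ← Complex.ofReal_add]
        congr 3
        rw [hc]
        field_simp
        ring
      rw [h2]
      ring
    rw [integral_congr_ae (ae_of_all _ h1)]
    have h5 := Measure.integral_comp_mul_left (fun w : ℝ => Complex.exp (Complex.I *
          ((2 * Real.pi * w * ((u - s) / δ) : ℝ) : ℂ)) * (𝓕 bumpC) w) c
    rw [integral_const_mul, h5]
    rw [← bump_eq, abs_of_pos (inv_pos.2 hcpos), mult_apply]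
    rw [Complex.real_smul, ← mul_assoc, ← Complex.ofReal_mul, mul_inv_cancel₀ hcpos.ne']
    simp

/-- smoothing of elements of `M` -/
lemma exists_smooth (s δ : ℝ) (hδ : 0 < δ) (v : H →L[ℂ] H) (hv : v ∈ S.M) :
    ∃ w : H →L[ℂ] H, w ∈ S.M ∧ ‖w‖ ≤ CF * ‖v‖ ∧ w S.vac = S.D.apply (mult s δ) (v S.vac) := by
  obtain ⟨G, hG, hG1, hG2⟩ := exists_kernel s δ hδ
  refine ⟨smear S.D G hG v, smear_mem S G hG v hv, ?_, ?_⟩
  · rw [← hG1]; exact norm_smear_le _ _ _ _
  · rw [smear_vac]
    exact integral_wave_eq S.D G hG _ hG2 _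

lemma supportedIn_mult (D : LineCalculus H) (s δ : ℝ) (hδ : 0 < δ) (η : H) :
    D.SupportedIn (Set.Icc (s - 2 * δ) (s + 2 * δ)) (D.apply (mult s δ) η) := by
  intro f hf
  rw [← apply_mul]
  have : f * mult s δ = 0 := by
    ext u
    simp only [BoundedContinuousFunction.coe_mul, Pi.mul_apply,
      BoundedContinuousFunction.coe_zero, Pi.zero_apply]
    by_cases hu : u ∈ Set.Icc (s - 2 * δ) (s + 2 * δ)
    · rw [hf u hu, zero_mul]
    · rw [mult_zero s δ u hδ hu, mul_zero]
  rw [this, map_zero]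
  rfl

lemma mult_fix (D : LineCalculus H) (s δ : ℝ) (hδ : 0 < δ) (η : H)
    (hη : D.SupportedIn (Set.Icc (s - δ) (s + δ)) η) : D.apply (mult s δ) η = η := by
  have h1 := hη (mult s δ - 1) (fun u hu => by
    simp only [BoundedContinuousFunction.coe_sub, BoundedContinuousFunction.coe_one,
      Pi.sub_apply, Pi.one_apply]
    rw [mult_one s δ u hδ hu, sub_self])
  rw [map_sub, map_one] at h1
  exact sub_eq_zero.1 h1

end Crest.Agent.S0112
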