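import Mathlib
import Crest.Prelude.Def_ModularData
import Crest.Agent.S0112C

/-!
Helper file for S0112, part D: window averages and the ergodic theorem.
-/

set_option autoImplicit false
open Filter MeasureTheory Crest.OpAlg
open scoped Topology BoundedContinuousFunction

namespace Crest.Agent.S0112

variable {H : Type*} [NormedAddCommGroup H] [InnerProductSpace ℂ H] [CompleteSpace H]

/-- the window kernel -/
noncomputable def Gk (k : ℕ) : ℝ → ℂ :=
  (Set.Icc (-(k : ℝ)) (k : ℝ)).indicator (fun _ => (((2 * (k : ℝ))⁻¹ : ℝ) : ℂ))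

lemma Gk_integrable (k : ℕ) : Integrable (Gk k) := by
  unfold Gk
  rw [integrable_indicator_iff measurableSet_Icc]
  exact integrableOn_const (by simp [Real.volume_Icc])

lemma Gk_norm (k : ℕ) : (∫ t, ‖Gk k t‖) ≤ 1 := by
  have h1 : ∀ t, ‖Gk k t‖ = (Set.Icc (-(k : ℝ)) (k : ℝ)).indicator
      (fun _ => (2 * (k : ℝ))⁻¹) t := by
    intro t
    unfold Gk
    rw [norm_indicator_eq_indicator_norm]
    congr 1
    ext u
    rw [Complex.norm_real, Real.norm_eq_abs, abs_of_nonneg (by positivity)]
  simp only [h1]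
  rw [integral_indicator measurableSet_Icc, setIntegral_const, smul_eq_mul]
  have : volume.real (Set.Icc (-(k : ℝ)) (k : ℝ)) = 2 * k := by
    rw [Real.volume_real_Icc]
    rw [max_eq_left (by have := Nat.cast_nonneg (α := ℝ) k; linarith)]
    ring
  rw [this]
  by_cases hk : (k : ℝ) = 0
  · rw [hk]; norm_num
  · rw [mul_inv_cancel₀ (by simpa using hk)]

lemma avg_eq {E : Type*} [NormedAddCommGroup E] [NormedSpace ℂ E] (F : ℝ → E) (k : ℕ) :
    ∫ t, Gk k t • F t = ⨍ t in Set.Icc (-(k : ℝ)) (k : ℝ), F t := by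
  have h1 : ∀ t, Gk k t • F t = (Set.Icc (-(k : ℝ)) (k : ℝ)).indicator
      (fun t => (((2 * (k : ℝ))⁻¹ : ℝ) : ℂ) • F t) t := by
    intro t
    unfold Gk
    by_cases ht : t ∈ Set.Icc (-(k : ℝ)) (k : ℝ)
    · rw [Set.indicator_of_mem ht, Set.indicator_of_mem ht]
    · rw [Set.indicator_of_notMem ht, Set.indicator_of_notMem ht, zero_smul]
  simp only [h1]
  rw [integral_indicator measurableSet_Icc, integral_smul, setAverage_eq]
  have : volume.real (Set.Icc (-(k : ℝ)) (k : ℝ)) = 2 * k := by
    rw [Real.volume_real_Icc]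
    rw [max_eq_left (by have := Nat.cast_nonneg (α := ℝ) k; linarith)]
    ring
  rw [this]
  exact Complex.coe_smul _ _

variable (S : ModularDatum H)

/-- the window average of the orbit of a vector -/
noncomputable def A (D : LineCalculus H) (k : ℕ) (η : H) : H := ∫ t, Gk k t • D.wave t η

lemma A_norm_le (D : LineCalculus H) (k : ℕ) (η : H) : ‖A D k η‖ ≤ ‖η‖ := by
  have h := norm_integral_smul_le (Gk k) (Gk_integrable k) (fun t => D.wave t η) ‖η‖
    (fun t => (norm_wave D t η).le)
  exact h.trans (mul_le_of_le_one_left (norm_nonneg _) (Gk_norm k))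

lemma A_int (D : LineCalculus H) (k : ℕ) (η : H) : Integrable fun t => Gk k t • D.wave t η :=
  integrable_smul_bdd (Gk k) (Gk_integrable k) _ (continuous_wave D η) ‖η‖
    fun t => (norm_wave D t η).le

lemma A_add (D : LineCalculus H) (k : ℕ) (a b : H) : A D k (a + b) = A D k a + A D k b := by
  unfold A
  rw [← integral_add (A_int D k a) (A_int D k b)]
  congr 1; ext t
  rw [map_add, smul_add]

lemma A_sub (D : LineCalculus H) (k : ℕ) (a b : H) : A D k (a - b) = A D k a - A D k b := by
  unfold A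
  rw [← integral_sub (A_int D k a) (A_int D k b)]
  congr 1; ext t
  rw [map_sub, smul_sub]

lemma A_smul (D : LineCalculus H) (k : ℕ) (c : ℂ) (a : H) : A D k (c • a) = c • A D k a := by
  unfold A
  rw [← integral_smul]
  congr 1; ext t
  rw [map_smul, smul_comm]

lemma A_zero (D : LineCalculus H) (k : ℕ) : A D k (0 : H) = 0 := by
  have := A_smul D k 0 (0 : H)
  rwa [zero_smul, zero_smul] at this

lemma A_fixed (D : LineCalculus H) (k : ℕ) (hk : 1 ≤ k) (f : H) (hf : ∀ s, D.wave s f = f) :
    A D k f = f := by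
  unfold A
  simp only [hf]
  rw [avg_eq, setAverage_const]
  · have : (0 : ℝ) < k := by exact_mod_cast hk
    rw [Real.volume_Icc]
    simp only [ne_eq, ENNReal.ofReal_eq_zero, not_le]
    linarith
  · rw [Real.volume_Icc]
    exact ENNReal.ofReal_ne_top

lemma A_eq_interval (D : LineCalculus H) (k : ℕ) (η : H) :
    A D k η = ((2 * (k : ℝ))⁻¹ : ℝ) • ∫ t in (-(k : ℝ))..k, D.wave t η := by
  unfold A
  rw [avg_eq, setAverage_eq]
  have : volume.real (Set.Icc (-(k : ℝ)) (k : ℝ)) = 2 * k := by
    rw [Real.volume_real_Icc]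
    rw [max_eq_left (by have := Nat.cast_nonneg (α := ℝ) k; linarith)]
    ring
  rw [this, intervalIntegral.integral_of_le (by
    have : (0 : ℝ) ≤ k := Nat.cast_nonneg k
    linarith), integral_Icc_eq_integral_Ioc]

lemma A_coboundary (D : LineCalculus H) (s : ℝ) (η : H) :
    Tendsto (fun k : ℕ => A D k (D.wave s η - η)) atTop (𝓝 0) := by
  have hbound : ∀ k : ℕ, ‖A D k (D.wave s η - η)‖ ≤ (2 * (k : ℝ))⁻¹ * (2 * (|s| * ‖η‖)) := by
    intro k
    rw [A_eq_interval, norm_smul, Real.norm_eq_abs, abs_of_nonneg (by positivity)]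
    refine mul_le_mul_of_nonneg_left ?_ (by positivity)
    have hint : ∀ a b : ℝ, IntervalIntegrable (fun t => D.wave t η) volume a b := fun a b =>
      (continuous_wave D η).intervalIntegrable a b
    have h1 : (∫ t in (-(k : ℝ))..k, D.wave t (D.wave s η - η)) =
        (∫ t in (-(k : ℝ) + s)..(k + s), D.wave t η) - ∫ t in (-(k : ℝ))..k, D.wave t η := by
      rw [← intervalIntegral.integral_comp_add_right (fun t => D.wave t η) s,
        ← intervalIntegral.integral_sub]
      · congr 1; ext t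
        rw [map_sub, wave_wave]
      · exact ((continuous_wave D η).comp (by fun_prop)).intervalIntegrable _ _
      · exact hint _ _
    rw [h1, intervalIntegral.integral_interval_sub_interval_comm (hint _ _) (hint _ _) (hint _ _)]
    have h2 : ∀ a b : ℝ, ‖∫ t in a..b, D.wave t η‖ ≤ ‖η‖ * |b - a| := fun a b =>
      intervalIntegral.norm_integral_le_of_norm_le_const fun t _ => (norm_wave D t η).le
    calc _ ≤ ‖∫ t in (-(k : ℝ) + s)..(-(k : ℝ)), D.wave t η‖ +
          ‖∫ t in ((k : ℝ) + s)..k, D.wave t η‖ := norm_sub_le _ _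
      _ ≤ ‖η‖ * |(-(k : ℝ)) - (-(k : ℝ) + s)| + ‖η‖ * |(k : ℝ) - (k + s)| :=
          add_le_add (h2 _ _) (h2 _ _)
      _ = 2 * (|s| * ‖η‖) := by
          have e1 : (-(k : ℝ)) - (-(k : ℝ) + s) = -s := by ring
          have e2 : (k : ℝ) - (k + s) = -s := by ring
          rw [e1, e2, abs_neg]; ring
  have hlim : Tendsto (fun k : ℕ => (2 * (k : ℝ))⁻¹ * (2 * (|s| * ‖η‖))) atTop (𝓝 0) := by
    have h1 : Tendsto (fun k : ℕ => (2 * (k : ℝ))) atTop atTop :=
      Tendsto.const_mul_atTop (by norm_num) tendsto_natCast_atTop_atTop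
    simpa using (tendsto_inv_atTop_zero.comp h1).mul_const (2 * (|s| * ‖η‖))
  exact squeeze_zero_norm hbound hlim

/-- von Neumann's mean ergodic theorem for the wave group -/
lemma A_tendsto (D : LineCalculus H) (η : H) :
    ∃ ζ : H, (∀ s, D.wave s ζ = ζ) ∧ Tendsto (fun k : ℕ => A D k η) atTop (𝓝 ζ) := by
  -- the submodule of vectors with vanishing averages
  set N : Submodule ℂ H :=
    { carrier := {x : H | Tendsto (fun k : ℕ => A D k x) atTop (𝓝 0)}
      add_mem' := by
        intro a b ha hb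
        show Tendsto (fun k : ℕ => A D k (a + b)) atTop (𝓝 0)
        have h : Tendsto (fun k : ℕ => A D k a + A D k b) atTop (𝓝 (0 + 0)) :=
          Tendsto.add ha hb
        rw [add_zero] at h
        simpa only [A_add] using h
      zero_mem' := by
        show Tendsto (fun k : ℕ => A D k 0) atTop (𝓝 0)
        simp only [A_zero]
        exact tendsto_const_nhds
      smul_mem' := by
        intro c a ha
        show Tendsto (fun k : ℕ => A D k (c • a)) atTop (𝓝 0)
        have h : Tendsto (fun k : ℕ => c • A D k a) atTop (𝓝 (c • 0)) :=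
          Tendsto.const_smul ha c
        rw [smul_zero] at h
        simpa only [A_smul] using h } with hN
  have hmem : ∀ x : H, x ∈ N ↔ Tendsto (fun k : ℕ => A D k x) atTop (𝓝 0) := fun x => Iff.rfl
  have hclosed : IsClosed (N : Set H) := by
    rw [← isSeqClosed_iff_isClosed]
    intro x a hx hxa
    rw [SetLike.mem_coe, hmem, tendsto_zero_iff_norm_tendsto_zero, Metric.tendsto_atTop]
    intro ε hε
    obtain ⟨n, hn⟩ := (Metric.tendsto_atTop.1 hxa (ε / 2) (by positivity))
    have h1 := hx n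
    rw [SetLike.mem_coe, hmem, Metric.tendsto_atTop] at h1
    obtain ⟨k0, hk0⟩ := h1 (ε / 2) (by positivity)
    refine ⟨k0, fun k hk => ?_⟩
    have h2 := hk0 k hk
    have h3 := hn n le_rfl
    rw [dist_zero_right] at h2 ⊢
    rw [dist_eq_norm] at h3
    rw [norm_norm]
    have h4 : A D k a = A D k (x n) - A D k (x n - a) := by
      rw [A_sub]; abel
    rw [h4]
    calc _ ≤ ‖A D k (x n)‖ + ‖A D k (x n - a)‖ := norm_sub_le _ _
      _ ≤ ‖A D k (x n)‖ + ‖x n - a‖ := by gcongr; exact A_norm_le _ _ _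
      _ < ε / 2 + ε / 2 := by gcongr
      _ = ε := by ring
  have : CompleteSpace N := hclosed.completeSpace_coe
  set f : H := η - N.starProjection η with hf
  have hfN : f ∈ Nᗮ := Submodule.sub_starProjection_mem_orthogonal η
  have hfix : ∀ s, D.wave s f = f := by
    intro s
    -- `wave (-s)` version
    have h1 : ∀ z : H, inner ℂ (D.wave (-s) z - z) f = 0 := fun z =>
      (Submodule.mem_orthogonal N f).1 hfN _ (A_coboundary D (-s) z)
    refine ext_inner_left ℂ fun z => ?_
    have h2 := h1 z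
    rw [inner_sub_left, inner_wave_left, neg_neg, sub_eq_zero] at h2
    exact h2
  refine ⟨f, hfix, ?_⟩
  have h1 : Tendsto (fun k : ℕ => A D k (N.starProjection η)) atTop (𝓝 0) :=
    Submodule.starProjection_apply_mem N η
  have h2 : (fun k : ℕ => A D k η) =ᶠ[atTop] fun k => A D k (N.starProjection η) + f := by
    filter_upwards [eventually_ge_atTop 1] with k hk
    conv_lhs => rw [show η = N.starProjection η + f by rw [hf]; abel]
    rw [A_add, A_fixed D k hk f hfix]
  rw [tendsto_congr' h2]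
  simpa using h1.add (tendsto_const_nhds (x := f))

lemma wave_commutant (t : ℝ) (a : H →L[ℂ] H) (ha : a ∈ S.M.commutant) :
    S.D.wave t * a * S.D.wave (-t) ∈ S.M.commutant := by
  rw [VonNeumannAlgebra.mem_commutant_iff]
  intro g hg
  have h1 := VonNeumannAlgebra.mem_commutant_iff.1 ha _ (S.flow_mem (-t) g hg)
  rw [neg_neg] at h1
  have h2 : S.D.wave t * S.D.wave (-t) = 1 := by rw [wave_mul, add_neg_cancel, wave_zero]
  calc g * (S.D.wave t * a * S.D.wave (-t))
      = (S.D.wave t * S.D.wave (-t)) * g * (S.D.wave t * a * S.D.wave (-t)) := by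
        rw [h2, one_mul]
    _ = S.D.wave t * ((S.D.wave (-t) * g * S.D.wave t) * a) * S.D.wave (-t) := by
        simp only [mul_assoc]
    _ = S.D.wave t * (a * (S.D.wave (-t) * g * S.D.wave t)) * S.D.wave (-t) := by rw [h1]
    _ = (S.D.wave t * a * S.D.wave (-t)) * g * (S.D.wave t * S.D.wave (-t)) := by
        simp only [mul_assoc]
    _ = (S.D.wave t * a * S.D.wave (-t)) * g := by rw [h2, mul_one]

/-- the ergodic theorem in the algebra: the averages of `y ξ` converge to `⟨ξ, y ξ⟩ ξ` -/
lemma A_ergodic (herg : S.Ergodic) (y : H →L[ℂ] H) (hy : y ∈ S.M) :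
    Tendsto (fun k : ℕ => A S.D k (y S.vac)) atTop (𝓝 ((inner ℂ S.vac (y S.vac) : ℂ) • S.vac)) := by
  obtain ⟨ζ, hζ, hlim⟩ := A_tendsto S.D (y S.vac)
  -- the operators `E k`
  set E : ℕ → (H →L[ℂ] H) := fun k => smear S.D (Gk k) (Gk_integrable k) y with hE
  have hEn : ∀ k, ‖E k‖ ≤ ‖y‖ := fun k =>
    (norm_smear_le _ _ _ _).trans (mul_le_of_le_one_left (norm_nonneg _) (Gk_norm k))
  have hEM : ∀ k, E k ∈ S.M := fun k => smear_mem S _ _ y hy
  have hEvac : ∀ k, E k S.vac = A S.D k (y S.vac) := fun k => smear_vac S _ _ y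
  have hEa : ∀ a : H →L[ℂ] H, a ∈ S.M.commutant → Tendsto (fun k => E k (a S.vac)) atTop
      (𝓝 (a ζ)) := by
    intro a ha
    have h1 : ∀ k, E k (a S.vac) = a (A S.D k (y S.vac)) := by
      intro k
      rw [← hEvac, comm_of_mem S.M _ a (hEM k) ha]
    simp only [h1]
    exact (a.continuous.tendsto ζ).comp hlim
  -- pointwise convergence
  have hcauchy : ∀ η : H, CauchySeq fun k => E k η := by
    intro η
    rw [Metric.cauchySeq_iff]
    intro ε hε
    obtain ⟨z, hz, a, ha, rfl⟩ := (Metric.dense_iff.1 (dense_commutant S)) η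
      (ε / (4 * (‖y‖ + 1))) (by positivity)
    obtain ⟨k0, hk0⟩ := Metric.cauchySeq_iff.1 (hEa a ha).cauchySeq (ε / 4) (by positivity)
    refine ⟨k0, fun k hk l hl => ?_⟩
    have h1 := hk0 k hk l hl
    rw [Metric.mem_ball, dist_eq_norm, norm_sub_rev] at hz
    rw [dist_eq_norm] at h1 ⊢
    have h2 : ∀ j, ‖E j (η - a S.vac)‖ ≤ ε / 4 := by
      intro j
      calc _ ≤ ‖E j‖ * ‖η - a S.vac‖ := (E j).le_opNorm _
        _ ≤ (‖y‖ + 1) * (ε / (4 * (‖y‖ + 1))) := by
            gcongr
            linarith [hEn j]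
        _ = ε / 4 := by field_simp
    have h3 : E k η - E l η = E k (η - a S.vac) + (E k (a S.vac) - E l (a S.vac)) -
        E l (η - a S.vac) := by
      rw [map_sub, map_sub]; abel
    rw [h3]
    calc _ ≤ ‖E k (η - a S.vac)‖ + ‖E k (a S.vac) - E l (a S.vac)‖ + ‖E l (η - a S.vac)‖ :=
          (norm_sub_le _ _).trans (add_le_add_left (norm_add_le _ _) _)
      _ < ε / 4 + ε / 4 + ε / 4 + ε / 4 := by
          have := h2 k; have := h2 l; linarith
      _ = ε := by ring
  have hconv : ∀ η : H, ∃ w, Tendsto (fun k => E k η) atTop (𝓝 w) := fun η =>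
    cauchySeq_tendsto_of_complete (hcauchy η)
  choose e0 he0 using hconv
  set e : H →L[ℂ] H := continuousLinearMapOfTendsto E (tendsto_pi_nhds.2 he0) with he
  have hea : ∀ η, Tendsto (fun k => E k η) atTop (𝓝 (e η)) := he0
  have heζ : ∀ a : H →L[ℂ] H, a ∈ S.M.commutant → e (a S.vac) = a ζ := fun a ha =>
    tendsto_nhds_unique (hea _) (hEa a ha)
  have heM : e ∈ S.M := by
    refine mem_of_comm _ _ fun a ha => ?_
    ext η
    show a (e η) = e (a η)
    have h1 : Tendsto (fun k => a (E k η)) atTop (𝓝 (a (e η))) :=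
      (a.continuous.tendsto _).comp (hea η)
    have h2 : (fun k => a (E k η)) = fun k => E k (a η) := by
      ext k
      exact comm_of_mem S.M _ a (hEM k) ha η
    rw [h2] at h1
    exact tendsto_nhds_unique h1 (hea (a η))
  have hinv : ∀ t : ℝ, S.flow t e = e := by
    intro t
    have hdense := dense_commutant S
    have h1 : Set.EqOn (S.flow t e) e {z : H | ∃ a : H →L[ℂ] H, a ∈ S.M.commutant ∧ z = a S.vac} := by
      rintro _ ⟨a, ha, rfl⟩
      have hb := wave_commutant S (-t) a ha
      rw [neg_neg] at hb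
      show S.D.wave t (e (S.D.wave (-t) (a S.vac))) = e (a S.vac)
      have h2 : S.D.wave (-t) (a S.vac) = (S.D.wave (-t) * a * S.D.wave t) S.vac := by
        show _ = S.D.wave (-t) (a (S.D.wave t S.vac))
        rw [wave_vac]
      rw [h2, heζ _ hb, heζ a ha]
      show S.D.wave t (S.D.wave (-t) (a (S.D.wave t ζ))) = a ζ
      rw [wave_wave_neg, hζ]
    have h2 := Continuous.ext_on hdense (S.flow t e).continuous e.continuous h1
    exact DFunLike.coe_injective h2
  obtain ⟨c, hc⟩ := herg e heM hinv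
  have h1 : ζ = c • S.vac := by
    have h2 := heζ 1 (one_mem _)
    have h3 : e S.vac = ζ := h2
    rw [← h3, hc]
    rfl
  have h2 : (inner ℂ S.vac (y S.vac) : ℂ) = c := by
    have h3 : Tendsto (fun k : ℕ => (inner ℂ S.vac (A S.D k (y S.vac)) : ℂ)) atTop
        (𝓝 (inner ℂ S.vac ζ)) := Tendsto.inner tendsto_const_nhds hlim
    have h4 : (inner ℂ S.vac ζ : ℂ) = c := by
      rw [h1, inner_smul_right, inner_self_eq_norm_sq_to_K, S.norm_vac]
      simp
    have h5 : (fun k : ℕ => (inner ℂ S.vac (A S.D k (y S.vac)) : ℂ)) =ᶠ[atTop]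
        fun _ => inner ℂ S.vac (y S.vac) := by
      filter_upwards [eventually_ge_atTop 1] with k hk
      have h6 := ContinuousLinearMap.integral_comp_comm (innerSL ℂ S.vac)
        (A_int S.D k (y S.vac))
      simp only [innerSL_apply_apply] at h6
      unfold A
      rw [← h6]
      have h7 : ∀ t : ℝ, (inner ℂ S.vac (Gk k t • S.D.wave t (y S.vac)) : ℂ) =
          Gk k t • (inner ℂ S.vac (y S.vac) : ℂ) := by
        intro t
        rw [inner_smul_right, smul_eq_mul]
        congr 1
        have h8 := inner_wave_left S.D (-t) S.vac (y S.vac)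
        rw [wave_vac, neg_neg] at h8
        exact h8.symm
      simp only [h7]
      rw [avg_eq, setAverage_const]
      · have : (0 : ℝ) < k := by exact_mod_cast hk
        rw [Real.volume_Icc]
        simp only [ne_eq, ENNReal.ofReal_eq_zero, not_le]
        linarith
      · rw [Real.volume_Icc]
        exact ENNReal.ofReal_ne_top
    rw [h4] at h3
    exact (tendsto_nhds_unique (h3.congr' h5) tendsto_const_nhds).symm
  rw [h2, ← h1]
  exact hlim

end Crest.Agent.S0112
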