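import Mathlib
import Crest.Prelude.Def_ModularData
import Crest.Agent.S0112D

/-!
Helper file for S0112, part E: random signs.
-/

set_option autoImplicit false
open Filter MeasureTheory Crest.OpAlg
open scoped Topology BoundedContinuousFunction

namespace Crest.Agent.S0112

section Signs

variable {ι : Type*} [Fintype ι] [DecidableEq ι]

/-- the sign at an index -/
def sg (ω : ι → Bool) (i : ι) : ℝ := if ω i then 1 else -1

omit [Fintype ι] [DecidableEq ι] in
lemma sg_sq (ω : ι → Bool) (i : ι) : sg ω i * sg ω i = 1 := by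
  unfold sg; split_ifs <;> norm_num

/-- flip one coordinate -/
def flip (m : ι) : (ι → Bool) ≃ (ι → Bool) where
  toFun ω := Function.update ω m (!ω m)
  invFun ω := Function.update ω m (!ω m)
  left_inv ω := by ext i; by_cases h : i = m <;> simp [Function.update, h]
  right_inv ω := by ext i; by_cases h : i = m <;> simp [Function.update, h]

omit [Fintype ι] in
lemma sg_flip_same (m : ι) (ω : ι → Bool) : sg (flip m ω) m = -sg ω m := by
  simp only [sg, flip, Equiv.coe_fn_mk, Function.update_self]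
  cases ω m <;> simp

omit [Fintype ι] in
lemma sg_flip_ne (m i : ι) (h : i ≠ m) (ω : ι → Bool) : sg (flip m ω) i = sg ω i := by
  simp only [sg, flip, Equiv.coe_fn_mk, Function.update_of_ne h]

lemma sum_flip (m : ι) (F : (ι → Bool) → ℝ) (hF : ∀ ω, F (flip m ω) = -F ω) : ∑ ω, F ω = 0 := by
  have h1 : ∑ ω, F ω = ∑ ω, F (flip m ω) := (Equiv.sum_comp (flip m) F).symm
  simp only [hF, Finset.sum_neg_distrib] at h1
  linarith

lemma sum_two (i j : ι) (h : i ≠ j) : ∑ ω : ι → Bool, sg ω i * sg ω j = 0 := by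
  refine sum_flip i _ fun ω => ?_
  rw [sg_flip_same, sg_flip_ne _ _ h.symm]; ring

lemma sum_four (i j k l : ι) (h1 : i ≠ j) (h2 : i ≠ k) (h3 : i ≠ l) :
    ∑ ω : ι → Bool, (sg ω i * sg ω j) * (sg ω k * sg ω l) = 0 := by
  refine sum_flip i _ fun ω => ?_
  rw [sg_flip_same, sg_flip_ne _ _ h1.symm, sg_flip_ne _ _ h2.symm, sg_flip_ne _ _ h3.symm]; ring

end Signs

variable {H : Type*} [NormedAddCommGroup H] [InnerProductSpace ℂ H]

lemma norm_sq_sum {P : Type*} [Fintype P] (c : P → ℝ) (b : P → H) :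
    ‖∑ p, ((c p : ℝ) : ℂ) • b p‖ ^ 2 = ∑ p, ∑ q, (c p * c q) * (inner ℂ (b p) (b q) : ℂ).re := by
  rw [← inner_self_eq_norm_sq (𝕜 := ℂ), sum_inner]
  simp only [inner_sum, RCLike.re_to_complex, Complex.re_sum]
  refine Finset.sum_congr rfl fun p _ => Finset.sum_congr rfl fun q _ => ?_
  rw [inner_smul_left, inner_smul_right, Complex.conj_ofReal, ← mul_assoc, ← Complex.ofReal_mul,
    Complex.re_ofReal_mul]

lemma gram_sum {Ω P : Type*} [Fintype Ω] [Fintype P] (c : Ω → P → ℝ) (b : P → H) :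
    ∑ ω, ‖∑ p, ((c ω p : ℝ) : ℂ) • b p‖ ^ 2 =
      ∑ p, ∑ q, (∑ ω, c ω p * c ω q) * (inner ℂ (b p) (b q) : ℂ).re := by
  simp only [norm_sq_sum]
  rw [Finset.sum_comm]
  refine Finset.sum_congr rfl fun p _ => ?_
  rw [Finset.sum_comm]
  refine Finset.sum_congr rfl fun q _ => ?_
  rw [Finset.sum_mul]

variable {ι : Type*} [Fintype ι] [DecidableEq ι]

lemma sum_norm_sq_one (z : ι → H) :
    ∑ ω : ι → Bool, ‖∑ i, ((sg ω i : ℝ) : ℂ) • z i‖ ^ 2 =
      (Fintype.card (ι → Bool) : ℝ) * ∑ i, ‖z i‖ ^ 2 := by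
  rw [gram_sum, Finset.mul_sum]
  refine Finset.sum_congr rfl fun i _ => ?_
  rw [Finset.sum_eq_single i]
  · simp only [sg_sq, Finset.sum_const, Finset.card_univ, nsmul_eq_mul, mul_one]
    congr 1
    rw [← RCLike.re_to_complex, inner_self_eq_norm_sq]
  · intro j _ hj
    rw [sum_two i j hj.symm, zero_mul]
  · intro h; exact absurd (Finset.mem_univ i) h

/-- off-diagonal sign products -/
def sg2 (ω : ι → Bool) (p : ι × ι) : ℝ := if p.1 = p.2 then 0 else sg ω p.1 * sg ω p.2

lemma sum_sg2 (p q : ι × ι) : ∑ ω : ι → Bool, sg2 ω p * sg2 ω q =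
    if p.1 = p.2 then 0 else
      if q = p ∨ q = p.swap then (Fintype.card (ι → Bool) : ℝ) else 0 := by
  obtain ⟨i, j⟩ := p
  obtain ⟨k, l⟩ := q
  simp only [sg2, Prod.swap_prod_mk, Prod.mk.injEq]
  by_cases hij : i = j
  · simp [hij]
  simp only [hij, if_false]
  by_cases hkl : k = l
  · subst hkl
    simp only [if_true, mul_zero, Finset.sum_const_zero]
    rw [if_neg]
    rintro (⟨h1, h2⟩ | ⟨h1, h2⟩)
    · exact hij (h1.symm.trans h2)
    · exact hij (h2.symm.trans h1)
  simp only [hkl, if_false]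
  by_cases h1 : k = i ∧ l = j
  · obtain ⟨rfl, rfl⟩ := h1
    rw [if_pos (Or.inl ⟨rfl, rfl⟩)]
    have : ∀ ω : ι → Bool, sg ω k * sg ω l * (sg ω k * sg ω l) = 1 := by
      intro ω
      calc _ = (sg ω k * sg ω k) * (sg ω l * sg ω l) := by ring
        _ = 1 := by rw [sg_sq, sg_sq, one_mul]
    simp [this]
  by_cases h2 : k = j ∧ l = i
  · obtain ⟨rfl, rfl⟩ := h2
    rw [if_pos (Or.inr ⟨rfl, rfl⟩)]
    have : ∀ ω : ι → Bool, sg ω l * sg ω k * (sg ω k * sg ω l) = 1 := by
      intro ω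
      calc _ = (sg ω k * sg ω k) * (sg ω l * sg ω l) := by ring
        _ = 1 := by rw [sg_sq, sg_sq, one_mul]
    simp [this]
  rw [if_neg (by tauto)]
  by_cases h3 : i ≠ k ∧ i ≠ l
  · exact sum_four i j k l hij h3.1 h3.2
  · have h4 : j ≠ k ∧ j ≠ l := by
      constructor
      · intro hjk
        apply h3
        constructor
        · intro hik; exact hij (hik.trans hjk.symm)
        · intro hil; exact h2 ⟨hjk.symm, hil.symm⟩
      · intro hjl
        apply h3
        constructor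
        · intro hik; exact h1 ⟨hik.symm, hjl.symm⟩
        · intro hil; exact hij (hil.trans hjl.symm)
    have := sum_four j i k l (Ne.symm hij) h4.1 h4.2
    rw [← this]
    refine Finset.sum_congr rfl fun ω _ => ?_
    ring

lemma sum_norm_sq_two (b : ι × ι → H) :
    ∑ ω : ι → Bool, ‖∑ p, ((sg2 ω p : ℝ) : ℂ) • b p‖ ^ 2 ≤
      (Fintype.card (ι → Bool) : ℝ) * (2 * ∑ p, ‖b p‖ ^ 2) := by
  rw [gram_sum]
  simp only [sum_sg2]
  set N : ℝ := (Fintype.card (ι → Bool) : ℝ) with hN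
  have hN0 : 0 ≤ N := Nat.cast_nonneg _
  have h1 : ∀ p : ι × ι, ∑ q : ι × ι, (if p.1 = p.2 then 0 else
      if q = p ∨ q = p.swap then N else 0) * (inner ℂ (b p) (b q) : ℂ).re ≤
      N * (‖b p‖ ^ 2 + (‖b p‖ ^ 2 + ‖b p.swap‖ ^ 2) / 2) := by
    intro p
    by_cases hp : p.1 = p.2
    · simp only [hp, if_true, zero_mul, Finset.sum_const_zero]
      positivity
    · simp only [hp, if_false]
      have hne : p ≠ p.swap := by
        intro h
        apply hp
        have := congrArg Prod.fst h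
        simpa using this
      have h2 : ∀ q : ι × ι, (if q = p ∨ q = p.swap then N else 0) *
          (inner ℂ (b p) (b q) : ℂ).re =
          (if q = p then N * (inner ℂ (b p) (b q) : ℂ).re else 0) +
          (if q = p.swap then N * (inner ℂ (b p) (b q) : ℂ).re else 0) := by
        intro q
        by_cases h3 : q = p
        · subst h3
          simp [hne]
        · by_cases h4 : q = p.swap
          · subst h4
            simp [hne.symm]
          · simp [h3, h4]
      simp only [h2, Finset.sum_add_distrib, Finset.sum_ite_eq', Finset.mem_univ, if_true]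
      have h3 : (inner ℂ (b p) (b p) : ℂ).re = ‖b p‖ ^ 2 := by
        rw [← RCLike.re_to_complex, inner_self_eq_norm_sq]
      have h4 : (inner ℂ (b p) (b p.swap) : ℂ).re ≤ (‖b p‖ ^ 2 + ‖b p.swap‖ ^ 2) / 2 := by
        have h5 : (inner ℂ (b p) (b p.swap) : ℂ).re ≤ ‖b p‖ * ‖b p.swap‖ := by
          have := re_inner_le_norm (𝕜 := ℂ) (b p) (b p.swap)
          simpa using this
        nlinarith [sq_nonneg (‖b p‖ - ‖b p.swap‖)]
      rw [h3, mul_add]
      gcongr
  calc _ ≤ ∑ p : ι × ι, N * (‖b p‖ ^ 2 + (‖b p‖ ^ 2 + ‖b p.swap‖ ^ 2) / 2) :=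
        Finset.sum_le_sum fun p _ => h1 p
    _ = N * (2 * ∑ p, ‖b p‖ ^ 2) := by
        rw [← Finset.mul_sum, Finset.sum_add_distrib, ← Finset.sum_div, Finset.sum_add_distrib]
        have h5 : ∑ p : ι × ι, ‖b p.swap‖ ^ 2 = ∑ p : ι × ι, ‖b p‖ ^ 2 :=
          Equiv.sum_comp (Equiv.prodComm ι ι) fun p => ‖b p‖ ^ 2
        rw [h5]
        ring

end Crest.Agent.S0112
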