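import Mathlib
import Crest.Prelude.Def_ModularData
import Crest.Agent.S0112E

/-!
Helper file for S0112, part F: the fourth moment estimate and the choice of signs.
-/

set_option autoImplicit false
open Filter MeasureTheory Crest.OpAlg
open scoped Topology BoundedContinuousFunction

namespace Crest.Agent.S0112

variable {H : Type*} [NormedAddCommGroup H] [InnerProductSpace ℂ H] [CompleteSpace H]
variable (S : ModularDatum H)

lemma star_flow (D : LineCalculus H) (t : ℝ) (x : H →L[ℂ] H) :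
    star (D.wave t * x * D.wave (-t)) = D.wave t * star x * D.wave (-t) := by
  rw [star_mul, star_mul, star_wave, star_wave, neg_neg, mul_assoc]

lemma smul_mem_M (M : VonNeumannAlgebra H) (c : ℂ) (x : H →L[ℂ] H) (hx : x ∈ M) : c • x ∈ M :=
  M.toStarSubalgebra.smul_mem hx c

/-- the bound for the weighted sum of `‖σ_{t_i}(x⋆) U_s h‖²` -/
lemma second_term {ι : Type*} [Fintype ι] (p : ι → ℝ) (hp : ∀ i, 0 ≤ p i) (hp1 : ∑ i, p i = 1)
    (t : ι → ℝ) (x : H →L[ℂ] H) (hx : x ∈ S.M) (h : H) (a : H →L[ℂ] H) (ha : a ∈ S.M.commutant)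
    (s : ℝ) :
    ∑ i, p i * ‖S.D.wave (t i) (star x (S.D.wave (-(t i)) (S.D.wave s h)))‖ ^ 2 ≤
      ‖x * star x‖ * ‖h - a S.vac‖ * ‖h‖ + ‖star x S.vac‖ ^ 2 * ‖a S.vac‖ * ‖h‖ +
      ‖a‖ * ‖(∑ i, ((p i : ℝ) : ℂ) • S.D.wave (t i) (x (star x S.vac))) -
        ((‖star x S.vac‖ ^ 2 : ℝ) : ℂ) • S.vac‖ * ‖h‖ := by
  set y : H →L[ℂ] H := x * star x with hy
  have hyM : y ∈ S.M := mul_mem hx (star_mem hx)
  set E : H →L[ℂ] H := ∑ i, ((p i : ℝ) : ℂ) • (S.D.wave (t i) * y * S.D.wave (-(t i))) with hE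
  have hEM : E ∈ S.M := by
    rw [hE]
    exact sum_mem fun i _ => smul_mem_M _ _ _ (S.flow_mem (t i) y hyM)
  have hEa : ∀ z : H, E z = ∑ i, ((p i : ℝ) : ℂ) •
      (S.D.wave (t i) (y (S.D.wave (-(t i)) z))) := by
    intro z
    rw [hE, _root_.sum_apply]
    rfl
  have hEn : ∀ z : H, ‖E z‖ ≤ ‖y‖ * ‖z‖ := by
    intro z
    rw [hEa]
    calc _ ≤ ∑ i, ‖((p i : ℝ) : ℂ) • (S.D.wave (t i) (y (S.D.wave (-(t i)) z)))‖ :=
          norm_sum_le _ _
      _ ≤ ∑ i, p i * (‖y‖ * ‖z‖) := by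
          refine Finset.sum_le_sum fun i _ => ?_
          rw [norm_smul, Complex.norm_real, Real.norm_eq_abs, abs_of_nonneg (hp i)]
          exact mul_le_mul_of_nonneg_left (norm_flow_le S.D y z (t i)) (hp i)
      _ = ‖y‖ * ‖z‖ := by rw [← Finset.sum_mul, hp1, one_mul]
  set η : H := S.D.wave s h with hη
  have hηn : ‖η‖ = ‖h‖ := norm_wave _ _ _
  -- rewrite the left-hand side
  have hlhs : ∑ i, p i * ‖S.D.wave (t i) (star x (S.D.wave (-(t i)) η))‖ ^ 2 =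
      (inner ℂ η (E η) : ℂ).re := by
    rw [hEa, inner_sum, Complex.re_sum]
    refine Finset.sum_congr rfl fun i _ => ?_
    rw [inner_smul_right, Complex.re_ofReal_mul]
    congr 1
    rw [norm_wave, ← inner_self_eq_norm_sq (𝕜 := ℂ), RCLike.re_to_complex]
    congr 1
    have h1 : y (S.D.wave (-(t i)) η) = x (star x (S.D.wave (-(t i)) η)) := rfl
    rw [h1]
    have h2 := inner_wave_left S.D (-(t i)) η (x (star x (S.D.wave (-(t i)) η)))
    rw [neg_neg] at h2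
    rw [← h2]
    have h3 : ∀ w z : H, (inner ℂ w (x z) : ℂ) = inner ℂ (star x w) z := fun w z => by
      rw [ContinuousLinearMap.star_eq_adjoint, ContinuousLinearMap.adjoint_inner_left]
    rw [h3]
  rw [hlhs]
  -- split
  set as : H →L[ℂ] H := S.D.wave s * a * S.D.wave (-s) with has
  have hasM : as ∈ S.M.commutant := wave_commutant S s a ha
  have hasn : ‖as‖ ≤ ‖a‖ := by
    refine ContinuousLinearMap.opNorm_le_bound _ (norm_nonneg _) fun z => ?_
    exact norm_flow_le S.D a z s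
  have hvac : as S.vac = S.D.wave s (a S.vac) := by
    show S.D.wave s (a (S.D.wave (-s) S.vac)) = _
    rw [wave_vac]
  set κ : ℝ := ‖star x S.vac‖ ^ 2 with hκ
  have hκ0 : 0 ≤ κ := by positivity
  have hEvac : E S.vac = ∑ i, ((p i : ℝ) : ℂ) • S.D.wave (t i) (x (star x S.vac)) := by
    rw [hEa]
    refine Finset.sum_congr rfl fun i _ => ?_
    rw [wave_vac]
    rfl
  set r : H := E S.vac - ((κ : ℝ) : ℂ) • S.vac with hr
  have h1 : E η = E (S.D.wave s (h - a S.vac)) + (((κ : ℝ) : ℂ) • S.D.wave s (a S.vac) + as r) := by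
    have e1 : E η = E (S.D.wave s (h - a S.vac)) + E (as S.vac) := by
      rw [← map_add, hvac, ← map_add, sub_add_cancel]
    rw [e1, ← comm_of_mem S.M E as hEM hasM]
    congr 1
    rw [hr, map_sub, map_smul, hvac]
    abel
  rw [h1, inner_add_right, inner_add_right, Complex.add_re, Complex.add_re]
  have hle : ∀ a b : H, (inner ℂ a b : ℂ).re ≤ ‖a‖ * ‖b‖ := fun a b => by
    simpa using re_inner_le_norm (𝕜 := ℂ) a b
  have b1 : (inner ℂ η (E (S.D.wave s (h - a S.vac))) : ℂ).re ≤ ‖y‖ * ‖h - a S.vac‖ * ‖h‖ := by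
    refine (hle _ _).trans ?_
    rw [hηn, mul_comm]
    refine mul_le_mul_of_nonneg_right ?_ (norm_nonneg _)
    exact (hEn _).trans (by rw [norm_wave])
  have b2 : (inner ℂ η (((κ : ℝ) : ℂ) • S.D.wave s (a S.vac)) : ℂ).re ≤ κ * ‖a S.vac‖ * ‖h‖ := by
    refine (hle _ _).trans ?_
    rw [hηn, norm_smul, norm_wave, Complex.norm_real, Real.norm_eq_abs, abs_of_nonneg hκ0,
      mul_comm]
  have b3 : (inner ℂ η (as r) : ℂ).re ≤ ‖a‖ * ‖r‖ * ‖h‖ := by
    refine (hle _ _).trans ?_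
    rw [hηn, mul_comm]
    refine mul_le_mul_of_nonneg_right ?_ (norm_nonneg _)
    exact (as.le_opNorm _).trans (mul_le_mul_of_nonneg_right hasn (norm_nonneg _))
  rw [← hEvac]
  linarith

/-- the random combination -/
lemma exists_combination {ι : Type*} [Fintype ι] (p : ι → ℝ) (hp : ∀ i, 0 ≤ p i)
    (t : ι → ℝ) (x : H →L[ℂ] H) (hx : x ∈ S.M) (T : H →L[ℂ] H) (α K lam : ℝ)
    (hlam : 0 ≤ lam)
    (hα : α ≤ ∑ i, p i * ‖T (S.D.wave (t i) (x S.vac))‖ ^ 2)
    (hK : 2 * ‖∑ i, ((p i : ℝ) : ℂ) • S.D.wave (t i) (star x (x S.vac))‖ ^ 2 +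
      4 * ∑ j, p j * ∑ i, p i *
        ‖S.D.wave (t i) (star x (S.D.wave (-(t i)) (S.D.wave (t j) (x S.vac))))‖ ^ 2 ≤ K) :
    ∃ (V : H →L[ℂ] H) (c : ι → ℂ), V ∈ S.M ∧ V S.vac = ∑ i, c i • S.D.wave (t i) (x S.vac) ∧
      α - lam * K ≤ ‖T (V S.vac)‖ ^ 2 - lam * ‖star V (V S.vac)‖ ^ 2 := by
  classical
  set xi : ι → (H →L[ℂ] H) := fun i => S.D.wave (t i) * x * S.D.wave (-(t i)) with hxi
  have hxiM : ∀ i, xi i ∈ S.M := fun i => S.flow_mem (t i) x hx
  have hxivac : ∀ i, xi i S.vac = S.D.wave (t i) (x S.vac) := by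
    intro i
    show S.D.wave (t i) (x (S.D.wave (-(t i)) S.vac)) = _
    rw [wave_vac]
  set V : (ι → Bool) → (H →L[ℂ] H) := fun ω =>
    ∑ i, ((Real.sqrt (p i) * sg ω i : ℝ) : ℂ) • xi i with hV
  have hVvac : ∀ ω, V ω S.vac = ∑ i, ((Real.sqrt (p i) * sg ω i : ℝ) : ℂ) •
      S.D.wave (t i) (x S.vac) := by
    intro ω
    rw [hV]
    simp only [_root_.sum_apply, _root_.smul_apply, hxivac]
  -- first sum
  have hT : ∑ ω, ‖T (V ω S.vac)‖ ^ 2 =
      (Fintype.card (ι → Bool) : ℝ) * ∑ i, p i * ‖T (S.D.wave (t i) (x S.vac))‖ ^ 2 := by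
    have h1 : ∀ ω, T (V ω S.vac) = ∑ i, ((sg ω i : ℝ) : ℂ) •
        (((Real.sqrt (p i) : ℝ) : ℂ) • T (S.D.wave (t i) (x S.vac))) := by
      intro ω
      rw [hVvac, map_sum]
      refine Finset.sum_congr rfl fun i _ => ?_
      rw [map_smul, smul_smul]
      congr 1
      push_cast
      ring
    simp only [h1]
    rw [sum_norm_sq_one]
    congr 1
    refine Finset.sum_congr rfl fun i _ => ?_
    rw [norm_smul, mul_pow, Complex.norm_real, Real.norm_eq_abs, abs_of_nonneg (Real.sqrt_nonneg _),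
      Real.sq_sqrt (hp i)]
  -- second sum
  set a : ι × ι → H := fun q => star (xi q.1) (xi q.2 S.vac) with ha
  have hstar : ∀ ω, star (V ω) (V ω S.vac) =
      (∑ i, ((p i : ℝ) : ℂ) • a (i, i)) +
      ∑ q : ι × ι, ((sg2 ω q : ℝ) : ℂ) •
        (((Real.sqrt (p q.1) * Real.sqrt (p q.2) : ℝ) : ℂ) • a q) := by
    intro ω
    have h1 : star (V ω) = ∑ i, ((Real.sqrt (p i) * sg ω i : ℝ) : ℂ) • star (xi i) := by
      rw [hV]
      simp only [star_sum, star_smul]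
      refine Finset.sum_congr rfl fun i _ => ?_
      rw [Complex.star_def, Complex.conj_ofReal]
    have h2 : V ω S.vac = ∑ i, ((Real.sqrt (p i) * sg ω i : ℝ) : ℂ) • xi i S.vac := by
      rw [hV]
      simp only [_root_.sum_apply, _root_.smul_apply]
    have h3 : star (V ω) (V ω S.vac) = ∑ q : ι × ι,
        ((Real.sqrt (p q.1) * sg ω q.1 * (Real.sqrt (p q.2) * sg ω q.2) : ℝ) : ℂ) • a q := by
      rw [h1, h2, Fintype.sum_prod_type, _root_.sum_apply]
      refine Finset.sum_congr rfl fun i _ => ?_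
      rw [_root_.smul_apply, map_sum, Finset.smul_sum]
      refine Finset.sum_congr rfl fun j _ => ?_
      rw [map_smul, smul_smul]
      congr 1
      push_cast
      ring
    rw [h3]
    have h4 : ∀ q : ι × ι,
        ((Real.sqrt (p q.1) * sg ω q.1 * (Real.sqrt (p q.2) * sg ω q.2) : ℝ) : ℂ) • a q =
        (if q.1 = q.2 then ((p q.1 : ℝ) : ℂ) • a q else 0) +
        ((sg2 ω q : ℝ) : ℂ) • (((Real.sqrt (p q.1) * Real.sqrt (p q.2) : ℝ) : ℂ) • a q) := by
      rintro ⟨i, j⟩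
      simp only [sg2]
      by_cases hij : i = j
      · subst hij
        simp only [if_true]
        have h5 : Real.sqrt (p i) * sg ω i * (Real.sqrt (p i) * sg ω i) = p i := by
          calc _ = (Real.sqrt (p i) * Real.sqrt (p i)) * (sg ω i * sg ω i) := by ring
            _ = p i := by rw [Real.mul_self_sqrt (hp i), sg_sq, mul_one]
        rw [h5]
        simp
      · simp only [hij, if_false, zero_add]
        rw [smul_smul]
        congr 1
        push_cast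
        ring
    simp only [h4, Finset.sum_add_distrib]
    congr 1
    rw [Fintype.sum_prod_type]
    refine Finset.sum_congr rfl fun i _ => ?_
    simp
  have haii : ∀ i, a (i, i) = S.D.wave (t i) (star x (x S.vac)) := by
    intro i
    show star (S.D.wave (t i) * x * S.D.wave (-(t i)))
      (S.D.wave (t i) (x (S.D.wave (-(t i)) S.vac))) = _
    rw [star_flow, wave_vac]
    show S.D.wave (t i) (star x (S.D.wave (-(t i)) (S.D.wave (t i) (x S.vac)))) = _
    rw [wave_neg_wave]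
  have hanorm : ∀ i j, ‖a (i, j)‖ =
      ‖S.D.wave (t i) (star x (S.D.wave (-(t i)) (S.D.wave (t j) (x S.vac))))‖ := by
    intro i j
    show ‖star (S.D.wave (t i) * x * S.D.wave (-(t i))) (xi j S.vac)‖ = _
    rw [star_flow, hxivac]
    rfl
  have hS : ∑ ω, ‖star (V ω) (V ω S.vac)‖ ^ 2 ≤ (Fintype.card (ι → Bool) : ℝ) * K := by
    have h1 : ∀ ω, ‖star (V ω) (V ω S.vac)‖ ^ 2 ≤
        2 * ‖∑ i, ((p i : ℝ) : ℂ) • a (i, i)‖ ^ 2 + 2 * ‖∑ q : ι × ι, ((sg2 ω q : ℝ) : ℂ) •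
        (((Real.sqrt (p q.1) * Real.sqrt (p q.2) : ℝ) : ℂ) • a q)‖ ^ 2 := by
      intro ω
      rw [hstar ω]
      have h2 := norm_add_le (∑ i, ((p i : ℝ) : ℂ) • a (i, i))
        (∑ q : ι × ι, ((sg2 ω q : ℝ) : ℂ) •
        (((Real.sqrt (p q.1) * Real.sqrt (p q.2) : ℝ) : ℂ) • a q))
      have h3 := pow_le_pow_left₀ (norm_nonneg _) h2 2
      refine h3.trans ?_
      nlinarith [sq_nonneg (‖∑ i, ((p i : ℝ) : ℂ) • a (i, i)‖ - ‖∑ q : ι × ι, ((sg2 ω q : ℝ) : ℂ) •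
        (((Real.sqrt (p q.1) * Real.sqrt (p q.2) : ℝ) : ℂ) • a q)‖)]
    calc _ ≤ ∑ ω : ι → Bool, (2 * ‖∑ i, ((p i : ℝ) : ℂ) • a (i, i)‖ ^ 2 +
          2 * ‖∑ q : ι × ι, ((sg2 ω q : ℝ) : ℂ) •
          (((Real.sqrt (p q.1) * Real.sqrt (p q.2) : ℝ) : ℂ) • a q)‖ ^ 2) :=
          Finset.sum_le_sum fun ω _ => h1 ω
      _ = (Fintype.card (ι → Bool) : ℝ) * (2 * ‖∑ i, ((p i : ℝ) : ℂ) • a (i, i)‖ ^ 2) +
          2 * ∑ ω : ι → Bool, ‖∑ q : ι × ι, ((sg2 ω q : ℝ) : ℂ) •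
          (((Real.sqrt (p q.1) * Real.sqrt (p q.2) : ℝ) : ℂ) • a q)‖ ^ 2 := by
          rw [Finset.sum_add_distrib, Finset.sum_const, Finset.card_univ, nsmul_eq_mul,
            ← Finset.mul_sum]
      _ ≤ (Fintype.card (ι → Bool) : ℝ) * (2 * ‖∑ i, ((p i : ℝ) : ℂ) • a (i, i)‖ ^ 2) +
          2 * ((Fintype.card (ι → Bool) : ℝ) * (2 * ∑ q : ι × ι,
            ‖((Real.sqrt (p q.1) * Real.sqrt (p q.2) : ℝ) : ℂ) • a q‖ ^ 2)) := by
          gcongr
          exact sum_norm_sq_two _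
      _ = (Fintype.card (ι → Bool) : ℝ) * (2 * ‖∑ i, ((p i : ℝ) : ℂ) • a (i, i)‖ ^ 2 +
          4 * ∑ q : ι × ι,
            ‖((Real.sqrt (p q.1) * Real.sqrt (p q.2) : ℝ) : ℂ) • a q‖ ^ 2) := by ring
      _ ≤ (Fintype.card (ι → Bool) : ℝ) * K := by
          refine mul_le_mul_of_nonneg_left ?_ (Nat.cast_nonneg _)
          refine le_trans (le_of_eq ?_) hK
          congr 1
          · simp only [haii]
          · congr 1
            rw [Fintype.sum_prod_type_right]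
            refine Finset.sum_congr rfl fun j _ => ?_
            rw [Finset.mul_sum]
            refine Finset.sum_congr rfl fun i _ => ?_
            rw [norm_smul, mul_pow, Complex.norm_real, Real.norm_eq_abs,
              abs_of_nonneg (by positivity), mul_pow, Real.sq_sqrt (hp i), Real.sq_sqrt (hp j),
              hanorm]
            ring
  -- choose the outcome
  have hsum : ∑ ω : ι → Bool, (α - lam * K) ≤
      ∑ ω : ι → Bool, (‖T (V ω S.vac)‖ ^ 2 - lam * ‖star (V ω) (V ω S.vac)‖ ^ 2) := by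
    rw [Finset.sum_const, Finset.card_univ, nsmul_eq_mul, Finset.sum_sub_distrib,
      ← Finset.mul_sum, hT]
    have hc : (0 : ℝ) ≤ (Fintype.card (ι → Bool) : ℝ) := Nat.cast_nonneg _
    have h1 := mul_le_mul_of_nonneg_left hα hc
    have h2 := mul_le_mul_of_nonneg_left hS hlam
    nlinarith
  obtain ⟨ω, _, hω⟩ := Finset.exists_le_of_sum_le (Finset.univ_nonempty (α := ι → Bool)) hsum
  refine ⟨V ω, fun i => ((Real.sqrt (p i) * sg ω i : ℝ) : ℂ), ?_, hVvac ω, hω⟩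
  rw [hV]
  exact sum_mem fun i _ => smul_mem_M _ _ _ (hxiM i)

/-- truncation: for `κ > 0` the operator `V (1 + κ V⋆V)⁻¹` -/
lemma exists_truncation (M : VonNeumannAlgebra H) (V : H →L[ℂ] H) (hV : V ∈ M) (κ : ℝ)
    (hκ : 0 < κ) :
    ∃ v : H →L[ℂ] H, v ∈ M ∧ ‖v‖ ≤ 1 / Real.sqrt (2 * κ) ∧
      ∀ z : H, ‖V z - v z‖ ≤ κ / Real.sqrt (2 * κ) * ‖star V (V z)‖ := by
  set a : H →L[ℂ] H := star V * V with ha
  have haM : a ∈ M := mul_mem (star_mem hV) hV
  have hunit : IsUnit ((1 : H →L[ℂ] H) + ((κ : ℝ) : ℂ) • a) := by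
    have h1 : (-(κ⁻¹) : ℝ) ∉ spectrum ℝ a := by
      intro h
      have := spectrum_star_mul_self_nonneg (b := V) _ h
      have h2 : 0 < κ⁻¹ := inv_pos.2 hκ
      linarith
    have h2 : IsUnit (algebraMap ℝ (H →L[ℂ] H) (-(κ⁻¹)) - a) := by
      rw [spectrum.notMem_iff] at h1
      exact h1
    have h3 : (1 : H →L[ℂ] H) + ((κ : ℝ) : ℂ) • a =
        algebraMap ℝ (H →L[ℂ] H) (-κ) * (algebraMap ℝ (H →L[ℂ] H) (-(κ⁻¹)) - a) := by
      ext z
      simp only [_root_.add_apply, _root_.smul_apply,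
        _root_.one_apply_eq_self, _root_.mul_apply_eq_comp,
        _root_.sub_apply, Algebra.algebraMap_eq_smul_one, map_sub]
      simp only [smul_smul, Complex.coe_smul]
      rw [neg_mul_neg, mul_inv_cancel₀ hκ.ne', one_smul, neg_smul, sub_neg_eq_add]
    rw [h3]
    refine IsUnit.mul ?_ h2
    exact (isUnit_iff_ne_zero.2 (neg_ne_zero.2 hκ.ne')).map (algebraMap ℝ (H →L[ℂ] H))
  obtain ⟨U, hU⟩ := hunit
  set u : H →L[ℂ] H := ((U⁻¹ : (H →L[ℂ] H)ˣ) : H →L[ℂ] H) with hu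
  have hu1 : ((1 : H →L[ℂ] H) + ((κ : ℝ) : ℂ) • a) * u = 1 := by
    rw [← hU, hu]; exact U.mul_inv
  have hu2 : u * ((1 : H →L[ℂ] H) + ((κ : ℝ) : ℂ) • a) = 1 := by
    rw [← hU, hu]; exact U.inv_mul
  have hWM : (1 : H →L[ℂ] H) + ((κ : ℝ) : ℂ) • a ∈ M :=
    add_mem (one_mem _) (smul_mem_M _ _ _ haM)
  have huM : u ∈ M := by
    refine mem_of_comm _ _ fun b hb => ?_
    have h1 := VonNeumannAlgebra.mem_commutant_iff.1 hb _ hWM
    calc b * u = (u * ((1 : H →L[ℂ] H) + ((κ : ℝ) : ℂ) • a)) * b * u := by rw [hu2, one_mul]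
      _ = u * (((1 : H →L[ℂ] H) + ((κ : ℝ) : ℂ) • a) * b) * u := by simp only [mul_assoc]
      _ = u * (b * ((1 : H →L[ℂ] H) + ((κ : ℝ) : ℂ) • a)) * u := by rw [h1]
      _ = u * b * (((1 : H →L[ℂ] H) + ((κ : ℝ) : ℂ) • a) * u) := by simp only [mul_assoc]
      _ = u * b := by rw [hu1, mul_one]
  have hs : 0 < Real.sqrt (2 * κ) := Real.sqrt_pos.2 (by positivity)
  have hbound : ∀ z : H, ‖V (u z)‖ ≤ 1 / Real.sqrt (2 * κ) * ‖z‖ := by
    intro z
    set w : H := u z with hw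
    have h1 : z = w + ((κ : ℝ) : ℂ) • a w := by
      have := congrArg (fun f : H →L[ℂ] H => f z) hu1
      exact this.symm
    have h2 : (inner ℂ w (a w) : ℂ).re = ‖V w‖ ^ 2 := by
      have : a w = star V (V w) := rfl
      rw [this, ContinuousLinearMap.star_eq_adjoint, ContinuousLinearMap.adjoint_inner_right,
        ← RCLike.re_to_complex, inner_self_eq_norm_sq]
    have h3 : 2 * κ * ‖V w‖ ^ 2 ≤ ‖z‖ ^ 2 := by
      rw [h1, norm_add_sq (𝕜 := ℂ)]
      rw [inner_smul_right, RCLike.re_to_complex, Complex.re_ofReal_mul, h2]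
      nlinarith [sq_nonneg ‖w‖, sq_nonneg ‖((κ : ℝ) : ℂ) • a w‖]
    have h4 : (Real.sqrt (2 * κ) * ‖V w‖) ^ 2 ≤ ‖z‖ ^ 2 := by
      rw [mul_pow, Real.sq_sqrt (by positivity)]
      exact h3
    have h5 : Real.sqrt (2 * κ) * ‖V w‖ ≤ ‖z‖ :=
      (pow_le_pow_iff_left₀ (by positivity) (norm_nonneg _) two_ne_zero).1 h4
    rw [one_div, inv_mul_eq_div, le_div_iff₀ hs, mul_comm]
    exact h5
  refine ⟨V * u, mul_mem hV huM, ?_, ?_⟩
  · refine ContinuousLinearMap.opNorm_le_bound _ (by positivity) fun z => ?_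
    exact hbound z
  · intro z
    have h1 : V z - (V * u) z = ((κ : ℝ) : ℂ) • V (u (star V (V z))) := by
      have h2 : z = u z + ((κ : ℝ) : ℂ) • u (a z) := by
        have h3 := congrArg (fun f : H →L[ℂ] H => f z) hu2
        have h4 : u (z + ((κ : ℝ) : ℂ) • a z) = z := h3
        rw [map_add, map_smul] at h4
        exact h4.symm
      have h5 : V z = V (u z) + ((κ : ℝ) : ℂ) • V (u (a z)) := by
        conv_lhs => rw [h2]
        rw [map_add, map_smul]
      conv_lhs => rw [h5]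
      show V (u z) + ((κ : ℝ) : ℂ) • V (u (a z)) - V (u z) = _
      rw [add_sub_cancel_left]
      rfl
    rw [h1, norm_smul, Complex.norm_real, Real.norm_eq_abs, abs_of_pos hκ]
    calc _ ≤ κ * (1 / Real.sqrt (2 * κ) * ‖star V (V z)‖) :=
          mul_le_mul_of_nonneg_left (hbound _) hκ.le
      _ = _ := by ring

end Crest.Agent.S0112
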