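import Mathlib
import Crest.Prelude.Def_ModularData
import Crest.Agent.S0112F

/-!
Helper file for S0112, part G: choice of times and the uniform recovery estimate.
-/

set_option autoImplicit false
open Filter MeasureTheory Crest.OpAlg
open scoped Topology BoundedContinuousFunction

namespace Crest.Agent.S0112

variable {H : Type*} [NormedAddCommGroup H] [InnerProductSpace ℂ H] [CompleteSpace H]
variable (S : ModularDatum H)

/-- an ultralimit of averages is approached by some average, simultaneously with an eventual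
property -/
lemma exists_window_index (ω : Ultrafilter ℕ) (hω : (ω : Filter ℕ) ≤ Filter.atTop)
    (f : ℝ → ℝ) (hf : Continuous f) (B : ℝ) (hf0 : ∀ t, 0 ≤ f t) (hfB : ∀ t, f t ≤ B) (c : ℝ)
    (hc : c < ultraMean ω f) (P : ℕ → Prop) (hP : ∀ᶠ k in atTop, P k) :
    ∃ k : ℕ, 1 ≤ k ∧ P k ∧ c < ⨍ t in Set.Icc (-(k : ℝ)) (k : ℝ), f t := by
  have hB : 0 ≤ B := (hf0 0).trans (hfB 0)
  have hmem : ∀ k : ℕ, windowMean f k ∈ Set.Icc (0 : ℝ) B := by
    intro k
    unfold windowMean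
    rw [setAverage_eq, smul_eq_mul]
    have hint : IntegrableOn f (Set.Icc (-(k : ℝ)) (k : ℝ)) :=
      hf.continuousOn.integrableOn_compact isCompact_Icc
    constructor
    · exact mul_nonneg (inv_nonneg.2 measureReal_nonneg)
        (setIntegral_nonneg measurableSet_Icc fun t _ => hf0 t)
    · have h1 : ∫ t in Set.Icc (-(k : ℝ)) (k : ℝ), f t ≤
          volume.real (Set.Icc (-(k : ℝ)) (k : ℝ)) * B := by
        calc _ ≤ ∫ t in Set.Icc (-(k : ℝ)) (k : ℝ), B :=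
              setIntegral_mono_on hint (integrableOn_const (by simp [Real.volume_Icc]))
                measurableSet_Icc fun t _ => hfB t
          _ = _ := by rw [setIntegral_const, smul_eq_mul]
      by_cases h0 : volume.real (Set.Icc (-(k : ℝ)) (k : ℝ)) = 0
      · rw [h0, inv_zero, zero_mul]; exact hB
      · have h2 : 0 < volume.real (Set.Icc (-(k : ℝ)) (k : ℝ)) :=
          lt_of_le_of_ne measureReal_nonneg (Ne.symm h0)
        rw [inv_mul_le_iff₀ h2]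
        exact h1
  -- the limit exists
  have hle : (ω.map (windowMean f) : Filter ℝ) ≤ 𝓟 (Set.Icc (0 : ℝ) B) := by
    rw [le_principal_iff]
    exact Ultrafilter.mem_map.2 (Filter.univ_mem' hmem)
  obtain ⟨L, _, hL⟩ := (isCompact_Icc (a := (0 : ℝ)) (b := B)).ultrafilter_le_nhds _ hle
  have hL' : Tendsto (windowMean f) (ω : Filter ℕ) (𝓝 L) := hL
  have hmean : ultraMean ω f = L := by
    unfold ultraMean
    exact hL'.limUnder_eq
  rw [hmean] at hc
  have h1 : ∀ᶠ k in (ω : Filter ℕ), c < windowMean f k := hL'.eventually (lt_mem_nhds hc)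
  have h2 : ∀ᶠ k in (ω : Filter ℕ), P k := hω hP
  have h3 : ∀ᶠ k in (ω : Filter ℕ), 1 ≤ k := hω (eventually_ge_atTop 1)
  obtain ⟨k, hk1, hk2, hk3⟩ := (h1.and (h2.and h3)).exists
  exact ⟨k, hk3, hk2, hk1⟩

/-- choice of finitely many times -/
lemma exists_times (ω : Ultrafilter ℕ) (hω : (ω : Filter ℕ) ≤ Filter.atTop) (herg : S.Ergodic)
    (f : ℝ → ℝ) (hf : Continuous f) (B : ℝ) (hf0 : ∀ t, 0 ≤ f t) (hfB : ∀ t, f t ≤ B) (c : ℝ)
    (hc : c < ultraMean ω f) (y y' : H →L[ℂ] H) (hy : y ∈ S.M) (hy' : y' ∈ S.M) (ε : ℝ)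
    (hε : 0 < ε) :
    ∃ (ι : Type) (_ : Fintype ι) (p : ι → ℝ) (t : ι → ℝ), (∀ i, 0 ≤ p i) ∧ ∑ i, p i = 1 ∧
      c < ∑ i, p i * f (t i) ∧
      ‖(∑ i, ((p i : ℝ) : ℂ) • S.D.wave (t i) (y S.vac)) -
        (inner ℂ S.vac (y S.vac) : ℂ) • S.vac‖ < ε ∧
      ‖(∑ i, ((p i : ℝ) : ℂ) • S.D.wave (t i) (y' S.vac)) -
        (inner ℂ S.vac (y' S.vac) : ℂ) • S.vac‖ < ε := by
  have hP : ∀ᶠ k in atTop, ‖A S.D k (y S.vac) - (inner ℂ S.vac (y S.vac) : ℂ) • S.vac‖ < ε ∧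
      ‖A S.D k (y' S.vac) - (inner ℂ S.vac (y' S.vac) : ℂ) • S.vac‖ < ε := by
    have h1 := (A_ergodic S herg y hy).eventually (Metric.ball_mem_nhds _ hε)
    have h2 := (A_ergodic S herg y' hy').eventually (Metric.ball_mem_nhds _ hε)
    filter_upwards [h1, h2] with k hk1 hk2
    rw [dist_eq_norm] at hk1 hk2
    exact ⟨hk1, hk2⟩
  obtain ⟨k, hk, ⟨hk1, hk2⟩, hk3⟩ := exists_window_index ω hω f hf B hf0 hfB c hc _ hP
  set I : Set ℝ := Set.Icc (-(k : ℝ)) (k : ℝ) with hI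
  have hkpos : (0 : ℝ) < k := by exact_mod_cast hk
  have hvol0 : volume I ≠ 0 := by
    rw [hI, Real.volume_Icc]
    simp only [ne_eq, ENNReal.ofReal_eq_zero, not_le]
    linarith
  have hvol1 : volume I ≠ ⊤ := by
    rw [hI, Real.volume_Icc]; exact ENNReal.ofReal_ne_top
  set g1 : ℝ → H := fun t => S.D.wave t (y S.vac) with hg1
  set g2 : ℝ → H := fun t => S.D.wave t (y' S.vac) with hg2
  have hg1c : Continuous g1 := continuous_wave S.D _
  have hg2c : Continuous g2 := continuous_wave S.D _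
  set F : ℝ → ℝ × H × H := fun t => (f t, g1 t, g2 t) with hF
  have hFc : Continuous F := by fun_prop
  have hint : IntegrableOn F I := hFc.continuousOn.integrableOn_compact isCompact_Icc
  have hmem : (⨍ t in I, F t) ∈ closure (convexHull ℝ (Set.range F)) :=
    (convex_convexHull ℝ _).set_average_mem_closure hvol0 hvol1
      (ae_of_all _ fun t => subset_convexHull ℝ _ (Set.mem_range_self t)) hint
  have hpair : (⨍ t in I, F t) = (⨍ t in I, f t, ⨍ t in I, g1 t, ⨍ t in I, g2 t) := by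
    have h1 : IntegrableOn f I := hf.continuousOn.integrableOn_compact isCompact_Icc
    have h2 : IntegrableOn g1 I := hg1c.continuousOn.integrableOn_compact isCompact_Icc
    have h3 : IntegrableOn g2 I := hg2c.continuousOn.integrableOn_compact isCompact_Icc
    have h4 := average_pair h1 (h2.prodMk h3)
    have h5 := average_pair h2 h3
    rw [h5] at h4
    exact h4
  have hA1 : (⨍ t in I, g1 t) = A S.D k (y S.vac) := by
    unfold A; rw [avg_eq]
  have hA2 : (⨍ t in I, g2 t) = A S.D k (y' S.vac) := by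
    unfold A; rw [avg_eq]
  rw [hA1, hA2] at hpair
  -- an open neighbourhood
  set U : Set (ℝ × H × H) := {w | c < w.1 ∧
    ‖w.2.1 - (inner ℂ S.vac (y S.vac) : ℂ) • S.vac‖ < ε ∧
    ‖w.2.2 - (inner ℂ S.vac (y' S.vac) : ℂ) • S.vac‖ < ε} with hU
  have hUo : IsOpen U := by
    have hU1 : IsOpen {w : ℝ × H × H | c < w.1} := isOpen_lt continuous_const continuous_fst
    have hU2 : IsOpen {w : ℝ × H × H | ‖w.2.1 - (inner ℂ S.vac (y S.vac) : ℂ) • S.vac‖ < ε} :=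
      isOpen_lt (by fun_prop) continuous_const
    have hU3 : IsOpen {w : ℝ × H × H | ‖w.2.2 - (inner ℂ S.vac (y' S.vac) : ℂ) • S.vac‖ < ε} :=
      isOpen_lt (by fun_prop) continuous_const
    exact hU1.inter (hU2.inter hU3)
  have hUm : (⨍ t in I, F t) ∈ U := by
    rw [hpair]
    exact ⟨hk3, hk1, hk2⟩
  obtain ⟨w, hwU, hwc⟩ := mem_closure_iff.1 hmem U hUo hUm
  obtain ⟨ι, hι, p, z, hp0, hp1, hz, hw⟩ := mem_convexHull_iff_exists_fintype.1 hwc
  choose t ht using hz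
  have hw1 : w.1 = ∑ i, p i * f (t i) := by
    rw [← hw, Prod.fst_sum]
    refine Finset.sum_congr rfl fun i _ => ?_
    rw [← ht i]; rfl
  have hw2 : w.2.1 = ∑ i, ((p i : ℝ) : ℂ) • S.D.wave (t i) (y S.vac) := by
    rw [← hw, Prod.snd_sum, Prod.fst_sum]
    refine Finset.sum_congr rfl fun i _ => ?_
    rw [← ht i, Complex.coe_smul]; rfl
  have hw3 : w.2.2 = ∑ i, ((p i : ℝ) : ℂ) • S.D.wave (t i) (y' S.vac) := by
    rw [← hw, Prod.snd_sum, Prod.snd_sum]
    refine Finset.sum_congr rfl fun i _ => ?_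
    rw [← ht i, Complex.coe_smul]; rfl
  obtain ⟨hu1, hu2, hu3⟩ := hwU
  rw [hw1] at hu1
  rw [hw2] at hu2
  rw [hw3] at hu3
  exact ⟨ι, hι, p, t, hp0, hp1, hu1, hu2, hu3⟩

set_option maxHeartbeats 2000000 in
/-- the uniform recovery estimate -/
lemma recovery (herg : S.Ergodic) (ω : Ultrafilter ℕ) (hω : (ω : Filter ℕ) ≤ Filter.atTop)
    (T : H →L[ℂ] H) (s Δ c : ℝ) (hc : 0 < c) :
    ∃ C η : ℝ, 0 < η ∧ ∀ (δ : ℝ) (h : H), 0 < δ → δ ≤ Δ → ‖h‖ = 1 →
      S.D.SupportedIn (Set.Icc (s - δ) (s + δ)) h →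
      c ≤ ultraMean ω (fun t : ℝ => ‖T (S.D.wave t h)‖ ^ 2) →
      ∃ v : H →L[ℂ] H, v ∈ S.M ∧ ‖v‖ ≤ C ∧ η ≤ ‖T (v S.vac)‖ ∧
        S.D.SupportedIn (Set.Icc (s - 4 * δ) (s + 4 * δ)) (v S.vac) := by
  set MT : ℝ := ‖T‖ + 1 with hMT
  have hMT1 : 1 ≤ MT := by rw [hMT]; linarith [norm_nonneg T]
  have hTMT : ‖T‖ ≤ MT := by rw [hMT]; linarith
  set κ1 : ℝ := Real.exp ((s + 2 * Δ) / 2) * 2 with hκ1
  have hκ1pos : 0 < κ1 := by positivity
  set K : ℝ := 66 + 24 * κ1 ^ 2 with hK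
  have hKpos : 0 < K := by positivity
  set lam : ℝ := c / (4 * K) with hlam
  have hlampos : 0 < lam := by positivity
  set Λ : ℝ := MT ^ 2 / lam with hΛ
  have hΛpos : 0 < Λ := by positivity
  set θ : ℝ := Real.sqrt c / (4 * MT * Λ) with hθ
  have hsc : 0 < Real.sqrt c := Real.sqrt_pos.2 hc
  have hθpos : 0 < θ := by positivity
  refine ⟨CF * (1 / (2 * θ)), Real.sqrt c / 4, by positivity, ?_⟩
  intro δ h0 hδ hδΔ hh hband hpos
  set ε0 : ℝ := min 1 (c / (24 * MT ^ 2)) with hε0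
  have hε0pos : 0 < ε0 := by positivity
  -- choose x
  obtain ⟨z, hz, ⟨⟨x0, hx0M⟩, rfl⟩⟩ := Metric.dense_iff.1 S.cyclic h0 ε0 hε0pos
  rw [Metric.mem_ball, dist_eq_norm] at hz
  simp only at hz
  obtain ⟨x, hxM, -, hxvac⟩ := exists_smooth S s δ hδ x0 hx0M
  set h : H := x S.vac with hh'
  have hhh0 : ‖h - h0‖ ≤ ε0 := by
    have h1 : h - h0 = S.D.apply (mult s δ) (x0 S.vac - h0) := by
      rw [hxvac, map_sub, mult_fix S.D s δ hδ h0 hband]
    rw [h1]
    calc _ ≤ ‖mult s δ‖ * ‖x0 S.vac - h0‖ := apply_norm_le' _ _ _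
      _ ≤ 1 * ε0 := by
          gcongr
          exact norm_mult_le s δ
      _ = ε0 := one_mul _
  have hε01 : ε0 ≤ 1 := min_le_left _ _
  have hhn : ‖h‖ ≤ 2 := by
    calc ‖h‖ = ‖(h - h0) + h0‖ := by rw [sub_add_cancel]
      _ ≤ ‖h - h0‖ + ‖h0‖ := norm_add_le _ _
      _ ≤ 1 + 1 := add_le_add (hhh0.trans hε01) hh.le
      _ = 2 := by norm_num
  have hsupp : S.D.SupportedIn (Set.Icc (s - 2 * δ) (s + 2 * δ)) h := by
    rw [hxvac]; exact supportedIn_mult S.D s δ hδ _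
  -- the star estimate
  have hstar : ‖star x S.vac‖ ≤ κ1 := by
    have h1 := norm_star_vac_le S x hxM _ _ hsupp
    calc _ ≤ Real.exp ((s + 2 * δ) / 2) * ‖h‖ := h1
      _ ≤ Real.exp ((s + 2 * Δ) / 2) * 2 := by
          gcongr
  -- choose `a'`
  set y : H →L[ℂ] H := x * star x with hy
  have hyM : y ∈ S.M := mul_mem hxM (star_mem hxM)
  set g : H →L[ℂ] H := star x * x with hg
  have hgM : g ∈ S.M := mul_mem (star_mem hxM) hxM
  obtain ⟨z, hz2, a, haM, rfl⟩ := Metric.dense_iff.1 (dense_commutant S) h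
    (1 / (‖y‖ + 1)) (by positivity)
  rw [Metric.mem_ball, dist_eq_norm, norm_sub_rev] at hz2
  have hya : ‖y‖ * ‖h - a S.vac‖ ≤ 1 := by
    have hy0 := norm_nonneg y
    calc ‖y‖ * ‖h - a S.vac‖ ≤ (‖y‖ + 1) * (1 / (‖y‖ + 1)) := by
          gcongr
          linarith
      _ = 1 := by field_simp
  have ha3 : ‖a S.vac‖ ≤ 3 := by
    have h1 : (1 : ℝ) / (‖y‖ + 1) ≤ 1 := by
      rw [div_le_one (by positivity)]
      linarith [norm_nonneg y]
    calc ‖a S.vac‖ = ‖h - (h - a S.vac)‖ := by rw [sub_sub_cancel]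
      _ ≤ ‖h‖ + ‖h - a S.vac‖ := norm_sub_le _ _
      _ ≤ 2 + 1 := add_le_add hhn (hz2.le.trans h1)
      _ = 3 := by norm_num
  -- choose times
  set f : ℝ → ℝ := fun t => ‖T (S.D.wave t h0)‖ ^ 2 with hf
  have hfc : Continuous f := by
    have := continuous_wave S.D h0
    fun_prop
  have hTw : ∀ t, ‖T (S.D.wave t h0)‖ ≤ MT := by
    intro t
    calc _ ≤ ‖T‖ * ‖S.D.wave t h0‖ := T.le_opNorm _
      _ = ‖T‖ := by rw [norm_wave, hh, mul_one]
      _ ≤ MT := hTMT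
  obtain ⟨ι, hι, p, t, hp0, hp1, hpc, hpg, hpy⟩ := exists_times S ω hω herg f hfc (MT ^ 2)
    (fun t => by positivity) (fun t => pow_le_pow_left₀ (norm_nonneg _) (hTw t) 2)
    (3 * c / 4) (by linarith) g y hgM hyM (min 1 (1 / (‖a‖ + 1))) (by positivity)
  -- lower bound
  have hlow : c / 2 ≤ ∑ i, p i * ‖T (S.D.wave (t i) h)‖ ^ 2 := by
    have h1 : ∀ i, ‖T (S.D.wave (t i) h0)‖ ^ 2 - c / 4 ≤ ‖T (S.D.wave (t i) h)‖ ^ 2 := by
      intro i
      have h2 : ‖T (S.D.wave (t i) h0)‖ ≤ ‖T (S.D.wave (t i) h)‖ + MT * ε0 := by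
        calc _ = ‖T (S.D.wave (t i) h) - T (S.D.wave (t i) (h - h0))‖ := by
              rw [map_sub, map_sub]; congr 1; abel
          _ ≤ ‖T (S.D.wave (t i) h)‖ + ‖T (S.D.wave (t i) (h - h0))‖ := norm_sub_le _ _
          _ ≤ ‖T (S.D.wave (t i) h)‖ + MT * ε0 := by
              gcongr
              calc _ ≤ ‖T‖ * ‖S.D.wave (t i) (h - h0)‖ := T.le_opNorm _
                _ ≤ MT * ε0 := by
                    rw [norm_wave]
                    gcongr
      have h3 : MT * ε0 ≤ c / (24 * MT) := by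
        calc MT * ε0 ≤ MT * (c / (24 * MT ^ 2)) := by
              gcongr
              exact min_le_right _ _
          _ = c / (24 * MT) := by field_simp
      have h4 := hTw (t i)
      have h5 : ‖T (S.D.wave (t i) h0)‖ - MT * ε0 ≤ ‖T (S.D.wave (t i) h)‖ := by linarith
      have h6 : ‖T (S.D.wave (t i) h0)‖ * (MT * ε0) ≤ c / 24 := by
        calc _ ≤ MT * (c / (24 * MT)) := by gcongr
          _ = c / 24 := by field_simp
      by_cases h7 : 0 ≤ ‖T (S.D.wave (t i) h0)‖ - MT * ε0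
      · have h8 := pow_le_pow_left₀ h7 h5 2
        nlinarith [sq_nonneg (MT * ε0)]
      · have h9 : ‖T (S.D.wave (t i) h0)‖ ^ 2 ≤ c / 24 := by
          have h10 : ‖T (S.D.wave (t i) h0)‖ ≤ MT * ε0 := by linarith
          calc _ = ‖T (S.D.wave (t i) h0)‖ * ‖T (S.D.wave (t i) h0)‖ := by ring
            _ ≤ ‖T (S.D.wave (t i) h0)‖ * (MT * ε0) := by gcongr
            _ ≤ c / 24 := h6
        have h11 : 0 ≤ ‖T (S.D.wave (t i) h)‖ ^ 2 := by positivity
        linarith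
    have h2 : ∑ i, p i * (‖T (S.D.wave (t i) h0)‖ ^ 2 - c / 4) ≤
        ∑ i, p i * ‖T (S.D.wave (t i) h)‖ ^ 2 :=
      Finset.sum_le_sum fun i _ => mul_le_mul_of_nonneg_left (h1 i) (hp0 i)
    have h3 : ∑ i, p i * (‖T (S.D.wave (t i) h0)‖ ^ 2 - c / 4) =
        (∑ i, p i * f (t i)) - c / 4 := by
      simp only [mul_sub, Finset.sum_sub_distrib, ← Finset.sum_mul, hp1, one_mul, hf]
    linarith
  -- upper bound
  have hup : 2 * ‖∑ i, ((p i : ℝ) : ℂ) • S.D.wave (t i) (star x (x S.vac))‖ ^ 2 +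
      4 * ∑ j, p j * ∑ i, p i *
        ‖S.D.wave (t i) (star x (S.D.wave (-(t i)) (S.D.wave (t j) (x S.vac))))‖ ^ 2 ≤ K := by
    have h1 : ‖∑ i, ((p i : ℝ) : ℂ) • S.D.wave (t i) (star x (x S.vac))‖ ≤ 5 := by
      have e1 : ‖∑ i, ((p i : ℝ) : ℂ) • S.D.wave (t i) (g S.vac)‖ ≤
          ‖(∑ i, ((p i : ℝ) : ℂ) • S.D.wave (t i) (g S.vac)) -
            (inner ℂ S.vac (g S.vac) : ℂ) • S.vac‖ + ‖(inner ℂ S.vac (g S.vac) : ℂ) • S.vac‖ := by
        have := norm_add_le ((∑ i, ((p i : ℝ) : ℂ) • S.D.wave (t i) (g S.vac)) -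
            (inner ℂ S.vac (g S.vac) : ℂ) • S.vac) ((inner ℂ S.vac (g S.vac) : ℂ) • S.vac)
        rwa [sub_add_cancel] at this
      have e2 : ‖(inner ℂ S.vac (g S.vac) : ℂ) • S.vac‖ ≤ 4 := by
        rw [norm_smul, S.norm_vac, mul_one]
        have e3 : g S.vac = star x h := rfl
        have e4 : (inner ℂ S.vac (g S.vac) : ℂ) = inner ℂ h h := by
          rw [e3, ContinuousLinearMap.star_eq_adjoint, ContinuousLinearMap.adjoint_inner_right]
        rw [e4]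
        calc _ ≤ ‖h‖ * ‖h‖ := norm_inner_le_norm _ _
          _ ≤ 2 * 2 := by gcongr
          _ = 4 := by norm_num
      have e3 : ‖(∑ i, ((p i : ℝ) : ℂ) • S.D.wave (t i) (g S.vac)) -
            (inner ℂ S.vac (g S.vac) : ℂ) • S.vac‖ ≤ 1 := hpg.le.trans (min_le_left _ _)
      calc _ = ‖∑ i, ((p i : ℝ) : ℂ) • S.D.wave (t i) (g S.vac)‖ := rfl
        _ ≤ 1 + 4 := e1.trans (add_le_add e3 e2)
        _ = 5 := by norm_num
    have h2 : ∀ j, ∑ i, p i *
        ‖S.D.wave (t i) (star x (S.D.wave (-(t i)) (S.D.wave (t j) (x S.vac))))‖ ^ 2 ≤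
        4 + 6 * κ1 ^ 2 := by
      intro j
      refine (second_term S p hp0 hp1 t x hxM h a haM (t j)).trans ?_
      have e1 : ‖x * star x‖ * ‖h - a S.vac‖ * ‖h‖ ≤ 1 * 2 := by gcongr
      have e2 : ‖star x S.vac‖ ^ 2 * ‖a S.vac‖ * ‖h‖ ≤ κ1 ^ 2 * 3 * 2 := by gcongr
      have e4 : (inner ℂ S.vac (y S.vac) : ℂ) = ((‖star x S.vac‖ ^ 2 : ℝ) : ℂ) := by
        have e5 : y S.vac = x (star x S.vac) := rfl
        rw [e5]
        have e6 : ∀ w z : H, (inner ℂ w (x z) : ℂ) = inner ℂ (star x w) z := fun w z => by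
          rw [ContinuousLinearMap.star_eq_adjoint, ContinuousLinearMap.adjoint_inner_left]
        rw [e6, inner_self_eq_norm_sq_to_K]
        push_cast
        rfl
      have e3 : ‖a‖ * ‖(∑ i, ((p i : ℝ) : ℂ) • S.D.wave (t i) (x (star x S.vac))) -
        ((‖star x S.vac‖ ^ 2 : ℝ) : ℂ) • S.vac‖ * ‖h‖ ≤ 1 * 2 := by
        have e7 : ‖a‖ * ‖(∑ i, ((p i : ℝ) : ℂ) • S.D.wave (t i) (x (star x S.vac))) -
            ((‖star x S.vac‖ ^ 2 : ℝ) : ℂ) • S.vac‖ ≤ 1 := by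
          rw [← e4]
          have e8 : ‖(∑ i, ((p i : ℝ) : ℂ) • S.D.wave (t i) (y S.vac)) -
            (inner ℂ S.vac (y S.vac) : ℂ) • S.vac‖ ≤ 1 / (‖a‖ + 1) :=
            hpy.le.trans (min_le_right _ _)
          have ha0 := norm_nonneg a
          calc _ ≤ (‖a‖ + 1) * (1 / (‖a‖ + 1)) := by
                refine mul_le_mul (by linarith) e8 (norm_nonneg _) (by positivity)
            _ = 1 := by field_simp
        gcongr
      linarith
    have h3 : ∑ j, p j * ∑ i, p i *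
        ‖S.D.wave (t i) (star x (S.D.wave (-(t i)) (S.D.wave (t j) (x S.vac))))‖ ^ 2 ≤
        4 + 6 * κ1 ^ 2 := by
      calc _ ≤ ∑ j, p j * (4 + 6 * κ1 ^ 2) :=
            Finset.sum_le_sum fun j _ => mul_le_mul_of_nonneg_left (h2 j) (hp0 j)
        _ = 4 + 6 * κ1 ^ 2 := by rw [← Finset.sum_mul, hp1, one_mul]
    have h4 : ‖∑ i, ((p i : ℝ) : ℂ) • S.D.wave (t i) (star x (x S.vac))‖ ^ 2 ≤ 5 ^ 2 := by
      gcongr
    rw [hK]
    linarith
  -- the random combination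
  obtain ⟨V, cV, hVM, hVvac, hVineq⟩ := exists_combination S p hp0 t x hxM T (c / 2) K lam
    hlampos.le hlow hup
  have hlK : lam * K = c / 4 := by rw [hlam]; field_simp
  have hVineq2 : c / 4 ≤ ‖T (V S.vac)‖ ^ 2 - lam * ‖star V (V S.vac)‖ ^ 2 := by
    rw [hlK] at hVineq
    linarith
  set L' : ℝ := ‖star V (V S.vac)‖ with hL'
  have hL'0 : 0 ≤ L' := norm_nonneg _
  have hVn : ‖V S.vac‖ ^ 2 ≤ L' := by
    have h1 : (inner ℂ S.vac (star V (V S.vac)) : ℂ).re = ‖V S.vac‖ ^ 2 := by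
      rw [ContinuousLinearMap.star_eq_adjoint, ContinuousLinearMap.adjoint_inner_right,
        ← RCLike.re_to_complex, inner_self_eq_norm_sq]
    rw [← h1]
    have h2 : (inner ℂ S.vac (star V (V S.vac)) : ℂ).re ≤ ‖S.vac‖ * ‖star V (V S.vac)‖ := by
      simpa using re_inner_le_norm (𝕜 := ℂ) S.vac (star V (V S.vac))
    rwa [S.norm_vac, one_mul] at h2
  have hTV : ‖T (V S.vac)‖ ^ 2 ≤ MT ^ 2 * L' := by
    calc _ ≤ (‖T‖ * ‖V S.vac‖) ^ 2 := by gcongr; exact T.le_opNorm _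
      _ = ‖T‖ ^ 2 * ‖V S.vac‖ ^ 2 := by ring
      _ ≤ MT ^ 2 * L' := by gcongr
  have hL'Λ : L' ≤ Λ := by
    have h1 : lam * L' ^ 2 ≤ MT ^ 2 * L' := by linarith
    by_cases h2 : L' = 0
    · rw [h2]; exact hΛpos.le
    · have h3 : 0 < L' := lt_of_le_of_ne hL'0 (Ne.symm h2)
      rw [hΛ, le_div_iff₀ hlampos]
      have h4 : (L' * lam) * L' ≤ MT ^ 2 * L' := by
        have e : (L' * lam) * L' = lam * L' ^ 2 := by ring
        rw [e]; exact h1
      exact le_of_mul_le_mul_right h4 h3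
  -- truncation
  obtain ⟨v0, hv0M, hv0n, hv0d⟩ := exists_truncation S.M V hVM (2 * θ ^ 2) (by positivity)
  have hsq : Real.sqrt (2 * (2 * θ ^ 2)) = 2 * θ := by
    rw [show 2 * (2 * θ ^ 2) = (2 * θ) ^ 2 by ring, Real.sqrt_sq (by positivity)]
  rw [hsq] at hv0n hv0d
  have hv0d' : ‖V S.vac - v0 S.vac‖ ≤ θ * Λ := by
    refine (hv0d S.vac).trans ?_
    have : 2 * θ ^ 2 / (2 * θ) = θ := by field_simp
    rw [this]
    gcongr
  -- smoothing
  obtain ⟨v, hvM, hvn, hvvac⟩ := exists_smooth S s (2 * δ) (by positivity) v0 hv0M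
  have hVsupp : S.D.SupportedIn (Set.Icc (s - 2 * δ) (s + 2 * δ)) (V S.vac) := by
    intro F hF
    rw [hVvac, map_sum]
    refine Finset.sum_eq_zero fun i _ => ?_
    rw [map_smul]
    have h1 : S.D.apply F (S.D.wave (t i) h) = S.D.wave (t i) (S.D.apply F h) :=
      apply_comm S.D F _ h
    rw [h1, hsupp F hF, map_zero, smul_zero]
  have hVfix := mult_fix S.D s (2 * δ) (by positivity) (V S.vac) hVsupp
  have hvd : ‖V S.vac - v S.vac‖ ≤ θ * Λ := by
    have h1 : V S.vac - v S.vac = S.D.apply (mult s (2 * δ)) (V S.vac - v0 S.vac) := by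
      rw [map_sub, hVfix, hvvac]
    rw [h1]
    calc _ ≤ ‖mult s (2 * δ)‖ * ‖V S.vac - v0 S.vac‖ := apply_norm_le' _ _ _
      _ ≤ 1 * (θ * Λ) := by
          gcongr
          exact norm_mult_le _ _
      _ = θ * Λ := one_mul _
  refine ⟨v, hvM, ?_, ?_, ?_⟩
  · exact hvn.trans (mul_le_mul_of_nonneg_left hv0n CF_nonneg)
  · have h1 : Real.sqrt c / 2 ≤ ‖T (V S.vac)‖ := by
      have h2 : c / 4 ≤ ‖T (V S.vac)‖ ^ 2 := by
        have : 0 ≤ lam * L' ^ 2 := by positivity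
        linarith
      have h3 : Real.sqrt (c / 4) ≤ Real.sqrt (‖T (V S.vac)‖ ^ 2) := Real.sqrt_le_sqrt h2
      rw [Real.sqrt_sq (norm_nonneg _)] at h3
      have h4 : Real.sqrt (c / 4) = Real.sqrt c / 2 := by
        rw [show c / 4 = c / 2 ^ 2 by norm_num, Real.sqrt_div hc.le, Real.sqrt_sq (by norm_num)]
      rwa [h4] at h3
    have h2 : ‖T (V S.vac)‖ ≤ ‖T (v S.vac)‖ + Real.sqrt c / 4 := by
      calc _ = ‖T (v S.vac) + T (V S.vac - v S.vac)‖ := by
            rw [← map_add]; congr 2; abel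
        _ ≤ ‖T (v S.vac)‖ + ‖T (V S.vac - v S.vac)‖ := norm_add_le _ _
        _ ≤ ‖T (v S.vac)‖ + Real.sqrt c / 4 := by
            gcongr
            calc _ ≤ ‖T‖ * ‖V S.vac - v S.vac‖ := T.le_opNorm _
              _ ≤ MT * (θ * Λ) := by gcongr
              _ = Real.sqrt c / 4 := by rw [hθ]; field_simp
    linarith
  · have h1 := supportedIn_mult S.D s (2 * δ) (by positivity) (v0 S.vac)
    rw [← hvvac] at h1
    have e1 : s - 2 * (2 * δ) = s - 4 * δ := by ring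
    have e2 : s + 2 * (2 * δ) = s + 4 * δ := by ring
    rwa [e1, e2] at h1

end Crest.Agent.S0112
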