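import Crest.Statements.S0118
import Crest.Agent.FE.Free
import Crest.Agent.FE.Semi
import Crest.Agent.FE.FisherSum
import Crest.Agent.FE.ChiStarInt
import Crest.Agent.FE.ChiUpper
import Crest.Agent.FE.ChiLower
import Crest.Agent.FE.Bw
import Crest.Agent.FE.Numeric

set_option autoImplicit false
open Crest Crest.AnalysisR Crest.AnalysisR.OperatorAlgebra

namespace Crest.Agent.S0118

open Crest.Agent.FE

theorem words_herm {k n : ℕ} (e : Fin n → IX k) (d : ℕ)
    (M : Fin k → Matrix (Fin d) (Fin d) ℂ) (hM : ∀ j, (M j).IsHermitian) (i : Fin n) :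
    (evalWords M (wordsIX (e i))).IsHermitian := by
  rcases h : e i with j | ⟨p, q, s⟩
  · simpa [evalWords, wordsIX] using hM j
  · simp only [evalWords, wordsIX, List.map_cons, List.map_nil, List.prod_cons, List.prod_nil,
      mul_one, List.sum_cons, List.sum_nil, add_zero]
    unfold Matrix.IsHermitian
    rw [Matrix.conjTranspose_add, Matrix.conjTranspose_mul, Matrix.conjTranspose_mul,
      Matrix.conjTranspose_mul, Matrix.conjTranspose_mul, (hM p).eq, (hM q).eq, (hM s).eq,
      add_comm, mul_assoc, mul_assoc]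

theorem tau_cont (I : Type) [DecidableEq I] : Continuous (tau I) :=
  AddMonoidHomClass.continuous_of_bound (tau I) 1 (fun x => by simpa using norm_tau_le x)

theorem XA_mem {k n : ℕ} (words : Fin n → List (List (Fin k))) (t : Fin n → ℝ) (i : Fin n) :
    XA words t i ∈ Submodule.span ℂ {x : FA (LT k n) |
      ∃ w : List (Fin k ⊕ Fin n), x = (w.map fun l => gA (Sum.map id Sum.inl l)).prod} := by
  unfold XA yA evalWords
  refine Submodule.add_mem _ ?_ (Submodule.smul_mem _ _ (Submodule.subset_span ?_))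
  · refine list_sum_mem ?_
    intro x hx
    obtain ⟨w, _, rfl⟩ := List.mem_map.1 hx
    refine Submodule.subset_span ⟨w.map Sum.inl, ?_⟩
    rw [List.map_map]
    rfl
  · exact ⟨[Sum.inr i], by simp⟩

theorem hmom {k n : ℕ} (w : List (Fin k ⊕ Fin n)) :
    tau (LT k n) ((w.map (Sum.elim (fun j => (gA (Sum.inl j) : FA (LT k n)))
      (fun i => gA (Sum.inr (Sum.inl i))))).prod) = (mom w : ℂ) := by
  have h1 : (Sum.elim (fun j => (gA (Sum.inl j) : FA (LT k n)))
      (fun i => gA (Sum.inr (Sum.inl i)))) = gA ∘ (Sum.map id Sum.inl) := by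
    funext l; rcases l with j | i <;> rfl
  rw [h1, ← List.map_map, tau_word, mom_map]
  intro a b h
  rcases a with a | a <;> rcases b with b | b <;> simp_all

/-- The final statement. -/
theorem card_IX (k : ℕ) : Fintype.card (IX k) = k + k ^ 3 := by
  simp [Fintype.card_sum, Fintype.card_prod, pow_succ, mul_assoc]

/-- There are a unital complex C⋆-algebra with a faithful tracial state τ, an integer n ≥ 2, a self-adjoint n-tuple X and a standard semicircular n-tuple S (Catalan moments) such that X, S₁, …, S_n are free, the free Fisher information of X + √s S is finite for every s > 0 with s ↦ n/(1+s) − Φ*(X + √s S) integrable on (0, ∞), and the microstates free entropy χ(X) (operator-norm cutoff, limsup over matrix sizes) satisfies −∞ < χ(X) ≤ χ*(X) − 1/2, where χ* is the non-microstates free entropy. -/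
theorem result :
    ∃ (A : Type) (_ : CStarAlgebra A) (τ : A →ₗ[ℂ] ℂ) (n : ℕ) (X S : Fin n → A),
      Crest.OpAlg.IsFaithfulTracialState τ ∧ 2 ≤ n ∧ (∀ i, IsSelfAdjoint (X i)) ∧
      Crest.OpAlg.IsStandardSemicircular τ S ∧ Crest.OpAlg.IsFreeFamily τ (Crest.OpAlg.withNoise X S) ∧
      (∀ s : ℝ, 0 < s → Crest.OpAlg.freeFisher τ (Crest.OpAlg.heatTuple X S s) < ⊤) ∧
      MeasureTheory.IntegrableOn
        (fun s : ℝ => (n : ℝ) / (1 + s) - (Crest.OpAlg.freeFisher τ (Crest.OpAlg.heatTuple X S s)).toReal)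
        (Set.Ioi 0) ∧
      ⊥ < Crest.OpAlg.chi τ X ∧ Crest.OpAlg.chi τ X ≤ ((Crest.OpAlg.chiStar τ X S - 1 / 2 : ℝ) : EReal) := by
  obtain ⟨κ, hκ⟩ : ∃ κ : ℕ, κ = 10 ^ 8 := ⟨_, rfl⟩
  obtain ⟨t0, ht0⟩ : ∃ t0 : ℝ, t0 = ((κ : ℝ) ^ 12)⁻¹ := ⟨_, rfl⟩
  obtain ⟨n, hn⟩ : ∃ n : ℕ, n = Fintype.card (IX (κ ^ 4)) := ⟨_, rfl⟩
  have hn' : n = κ ^ 4 + (κ ^ 4) ^ 3 := by rw [hn, card_IX]
  obtain ⟨e, -⟩ : ∃ e : Fin n ≃ IX (κ ^ 4), True :=
    ⟨(finCongr hn).trans (Fintype.equivFin (IX (κ ^ 4))).symm, trivial⟩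
  have hκpos : (0 : ℝ) < κ := by rw [hκ]; norm_num
  have hκ1 : (1 : ℝ) ≤ κ := by rw [hκ]; norm_num
  have ht0pos : 0 < t0 := by rw [ht0]; positivity
  have ht01 : t0 ≤ 1 := by
    rw [ht0]; exact inv_le_one_of_one_le₀ (one_le_pow₀ hκ1)
  set words : Fin n → List (List (Fin (κ ^ 4))) := fun i => wordsIX (e i) with hwords
  set t : Fin n → ℝ := fun i => tt t0 (e i) with ht
  have htpos : ∀ i, 0 < t i := fun i => tt_pos ht0pos (e i)
  have hsa : ∀ i, IsSelfAdjoint (yA (n := n) words i) := fun i => yA_selfAdjoint e i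
  set X := XA words t with hX
  set S := SA (k := κ ^ 4) (n := n) with hS
  have hft := tau_faithfulTracial (LT (κ ^ 4) n)
  have hXsa : ∀ i, IsSelfAdjoint (X i) := by
    intro i
    have := heat_selfAdjoint words hsa t 0 i
    simpa [Crest.OpAlg.heatTuple] using this
  have hfin : ∀ s : ℝ, 0 < s →
      Crest.OpAlg.freeFisher (tau _) (Crest.OpAlg.heatTuple X S s) < ⊤ := fun s hs =>
    lt_of_le_of_lt (fisher_upperA words hsa t htpos s hs) ENNReal.ofReal_lt_top
  set v : Fin n → ℝ := fun i => (tau (LT (κ ^ 4) n) (yA words i * yA words i)).re with hv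
  have hv0 : ∀ i, 0 ≤ v i := by
    intro i
    have := (hft.2.1 (yA words i)).2
    rw [(hsa i).star_eq] at this
    exact this
  have hmeas := fisher_measurable (tau (LT (κ ^ 4) n)) (tau_cont _) X S
  have hL : ∀ s, 0 < s → ∑ i, 1 / (t i + s + v i) ≤
      (Crest.OpAlg.freeFisher (tau _) (Crest.OpAlg.heatTuple X S s)).toReal := by
    intro s hs
    exact (ENNReal.ofReal_le_iff_le_toReal (hfin s hs).ne).1 (fisher_lower' words hsa t htpos s hs)
  have hA : ∀ s, 0 < s →
      (Crest.OpAlg.freeFisher (tau _) (Crest.OpAlg.heatTuple X S s)).toReal ≤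
        ∑ i, 1 / (t i + s) := by
    intro s hs
    refine ENNReal.toReal_le_of_le_ofReal ?_ (fisher_upperA words hsa t htpos s hs)
    exact Finset.sum_nonneg fun i _ => by have := htpos i; positivity
  have hnpos : 0 < n := by
    rw [hn', hκ]; norm_num
  have hTpos : (0 : ℝ) < 73728 * (κ : ℝ) ^ 6 := by positivity
  have hB : ∀ s, 73728 * (κ : ℝ) ^ 6 ≤ s →
      (Crest.OpAlg.freeFisher (tau _) (Crest.OpAlg.heatTuple X S s)).toReal ≤
        (∑ i, 1 / (t i + s)) - (κ : ℝ) ^ 12 / (1 + s) ^ 2 := by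
    intro s hs
    have hs0 : 0 < s := lt_of_lt_of_le hTpos hs
    have h1 := fisher_upperB κ (by rw [hκ]) e t0 ht0pos s hs
    refine ENNReal.toReal_le_of_le_ofReal ?_ h1
    by_contra hneg
    push Not at hneg
    rw [ENNReal.ofReal_of_nonpos hneg.le] at h1
    have h2 := (fisher_lower' words hsa t htpos s hs0).trans h1
    have h3 : ∑ i, 1 / (t i + s + v i) ≤ 0 := by
      simpa using h2
    have h4 : 0 < ∑ i, 1 / (t i + s + v i) := by
      haveI : Nonempty (Fin n) := ⟨⟨0, hnpos⟩⟩
      refine Finset.sum_pos (fun i _ => ?_) Finset.univ_nonempty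
      have := htpos i; have := hv0 i; positivity
    linarith
  obtain ⟨hint, hge⟩ := chiStar_integral
    (fun s => (Crest.OpAlg.freeFisher (tau _) (Crest.OpAlg.heatTuple X S s)).toReal)
    hmeas.ennreal_toReal t v htpos hv0 ((κ : ℝ) ^ 12) (73728 * (κ : ℝ) ^ 6) (by positivity) hTpos
    hA hL hB
  refine ⟨FA (LT (κ ^ 4) n), inferInstance, tau _, n, X, S, hft, ?_, hXsa, SA_semicircular _ _,
    free_family X (fun i => XA_mem words t i), hfin, hint, ?_, ?_⟩
  · rw [hn', hκ]; norm_num
  · exact chi_gt_bot (tau (LT (κ ^ 4) n)) (fun j => gA (Sum.inl j)) (fun i => gA (Sum.inr (Sum.inl i)))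
      hmom words (fun d M hM i => words_herm e d M hM i) t htpos
  · choose b hb1 hb2 hb3 using fun i => bw_bound e t0 ht0pos ht01 i
    have hbpos : ∀ i, 0 < b i := by
      intro i
      rcases h : e i with j | w
      · rw [hb2 i j h]; linarith
      · exact lt_of_lt_of_le one_pos (hb3 i w h).1
    have hup := chi_upper (tau (LT (κ ^ 4) n)) e X b hbpos hb1
    refine hup.trans (EReal.coe_le_coe_iff.2 ?_)
    have hpe : 0 < 2 * Real.pi * Real.exp 1 := by positivity
    have hsum : ∑ i, 1 / 2 * Real.log (2 * Real.pi * Real.exp 1 * b i) ≤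
        (κ : ℝ) ^ 4 * (1 / 2 * Real.log (2 * Real.pi * Real.exp 1 * (1 + t0))) +
          (κ : ℝ) ^ 12 * (1 / 2 * Real.log (2 * Real.pi * Real.exp 1 * (1 + 36864 * t0))) := by
      calc ∑ i, 1 / 2 * Real.log (2 * Real.pi * Real.exp 1 * b i)
          ≤ ∑ i, Sum.elim (fun _ => 1 / 2 * Real.log (2 * Real.pi * Real.exp 1 * (1 + t0)))
              (fun _ => 1 / 2 * Real.log (2 * Real.pi * Real.exp 1 * (1 + 36864 * t0))) (e i) := by
            refine Finset.sum_le_sum fun i _ => ?_
            rcases h : e i with j | w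
            · rw [hb2 i j h]; exact le_rfl
            · simp only [Sum.elim_inr]
              have h1 := hb3 i w h
              have := Real.log_le_log (mul_pos hpe (hbpos i)) (mul_le_mul_of_nonneg_left h1.2 hpe.le)
              linarith
        _ = ∑ x : IX (κ ^ 4), Sum.elim
              (fun _ => 1 / 2 * Real.log (2 * Real.pi * Real.exp 1 * (1 + t0)))
              (fun _ => 1 / 2 * Real.log (2 * Real.pi * Real.exp 1 * (1 + 36864 * t0))) x :=
            Equiv.sum_comp e _
        _ = _ := by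
            rw [Fintype.sum_sum_type]
            simp only [Sum.elim_inl, Sum.elim_inr, Finset.sum_const, Finset.card_univ,
              Fintype.card_fin, Fintype.card_prod, nsmul_eq_mul]
            push_cast
            ring
    have hlog : ∑ i, Real.log (t i) = (κ : ℝ) ^ 4 * Real.log (((κ : ℝ) ^ 12)⁻¹) := by
      have : ∑ i, Real.log (t i) = ∑ x : IX (κ ^ 4), Real.log (tt t0 x) :=
        Equiv.sum_comp e (fun x => Real.log (tt t0 x))
      rw [this, Fintype.sum_sum_type]
      simp only [tt, Real.log_one, Finset.sum_const_zero, add_zero, Finset.sum_const,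
        Finset.card_univ, Fintype.card_fin, nsmul_eq_mul, ht0]
      push_cast
      ring
    have hnum := numeric (κ : ℝ) (by rw [hκ]; norm_num)
    have hncast : (n : ℝ) = (κ : ℝ) ^ 4 + (κ : ℝ) ^ 12 := by
      rw [hn']; push_cast; ring
    unfold Crest.OpAlg.chiStar
    rw [hlog] at hge
    rw [← ht0] at hnum hge
    rw [hncast] at hge ⊢
    linarith

end Crest.Agent.S0118
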