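import Mathlib

set_option autoImplicit false

namespace Crest.Agent.S0122

open Finset

/-! ### Rounding towards a separated set -/

/-- rounding function -/
noncomputable def rnd (Z : Set ℝ) (top E g : ℝ) : ℝ :=
  open Classical in
  if top - E ≤ g then top else if h : ∃ τ ∈ Z, |g - τ| ≤ E then h.choose else g

lemma rnd_cases (Z : Set ℝ) (top E g : ℝ) :
    (top - E ≤ g ∧ rnd Z top E g = top) ∨
    (g < top - E ∧ rnd Z top E g ∈ Z ∧ |g - rnd Z top E g| ≤ E) ∨
    (g < top - E ∧ rnd Z top E g = g ∧ ∀ τ ∈ Z, E < |g - τ|) := by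
  classical
  unfold rnd
  by_cases h1 : top - E ≤ g
  · left; exact ⟨h1, by rw [if_pos h1]⟩
  · right
    rw [if_neg h1]
    by_cases h2 : ∃ τ ∈ Z, |g - τ| ≤ E
    · left
      rw [dif_pos h2]
      exact ⟨not_le.mp h1, h2.choose_spec.1, h2.choose_spec.2⟩
    · right
      rw [dif_neg h2]
      push Not at h2
      exact ⟨not_le.mp h1, rfl, h2⟩

lemma rnd_of_le {Z : Set ℝ} {top E g : ℝ} (h : top - E ≤ g) : rnd Z top E g = top := by
  unfold rnd; rw [if_pos h]

lemma rnd_le_top {Z : Set ℝ} {top E : ℝ} (hE : 0 ≤ E) (g : ℝ) : rnd Z top E g ≤ top := by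
  rcases rnd_cases Z top E g with ⟨_, h2⟩ | ⟨h1, _, h3⟩ | ⟨h1, h2, _⟩
  · rw [h2]
  · have := (abs_le.mp h3).1; linarith
  · rw [h2]; linarith

lemma rnd_le_add {Z : Set ℝ} {top E : ℝ} (hE : 0 ≤ E) (g : ℝ) : rnd Z top E g ≤ g + E := by
  rcases rnd_cases Z top E g with ⟨_, h2⟩ | ⟨h1, _, h3⟩ | ⟨h1, h2, _⟩
  · rw [h2]; linarith
  · have := (abs_le.mp h3).1; linarith
  · rw [h2]; linarith

lemma le_rnd {Z : Set ℝ} {top E : ℝ} (hE : 0 ≤ E) (g : ℝ) : min top (g - E) ≤ rnd Z top E g := by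
  rcases rnd_cases Z top E g with ⟨_, h2⟩ | ⟨h1, _, h3⟩ | ⟨h1, h2, _⟩
  · rw [h2]; exact min_le_left _ _
  · have := (abs_le.mp h3).2
    exact (min_le_right _ _).trans (by linarith)
  · rw [h2]; exact (min_le_right _ _).trans (by linarith)

lemma rnd_mono {Z : Set ℝ} {top E : ℝ} (hE : 0 < E)
    (hsep : ∀ τ ∈ Z, ∀ τ' ∈ Z, τ ≠ τ' → 8 * E ≤ |τ - τ'|) : Monotone (rnd Z top E) := by
  intro g g' hgg
  rcases rnd_cases Z top E g' with ⟨_, h2'⟩ | ⟨h1', h2', h3'⟩ | ⟨h1', h2', h3'⟩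
  · rw [h2']; exact rnd_le_top hE.le g
  · rcases rnd_cases Z top E g with ⟨h1, h2⟩ | ⟨h1, h2, h3⟩ | ⟨h1, h2, h3⟩
    · linarith
    · by_contra hcon
      push Not at hcon
      have := hsep _ h2 _ h2' (ne_of_gt hcon)
      rw [abs_of_pos (by linarith)] at this
      have a1 := (abs_le.mp h3).1
      have a2 := (abs_le.mp h3').2
      linarith
    · rw [h2]
      by_contra hcon
      push Not at hcon
      have := h3 _ h2'
      rw [abs_of_pos (by linarith)] at this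
      have a2 := (abs_le.mp h3').2
      linarith
  · rcases rnd_cases Z top E g with ⟨h1, h2⟩ | ⟨h1, h2, h3⟩ | ⟨h1, h2, h3⟩
    · linarith
    · rw [h2']
      by_contra hcon
      push Not at hcon
      have := h3' _ h2
      rw [abs_of_neg (by linarith)] at this
      have a2 := (abs_le.mp h3).1
      linarith
    · rw [h2, h2']; exact hgg

lemma rnd_gap {Z : Set ℝ} {top E D : ℝ} (hE : 0 < E) (hD : D ≤ E) (htop : top ∈ Z)
    (hsep : ∀ τ ∈ Z, ∀ τ' ∈ Z, τ ≠ τ' → 8 * E ≤ |τ - τ'|) {g g' : ℝ} (hg : g + D ≤ g')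
    (hD0 : 0 ≤ D) (hne : rnd Z top E g ≠ rnd Z top E g') :
    D ≤ rnd Z top E g' - rnd Z top E g := by
  have hmono : rnd Z top E g ≤ rnd Z top E g' := rnd_mono hE hsep (by linarith)
  have hlt : rnd Z top E g < rnd Z top E g' := lt_of_le_of_ne hmono hne
  rcases rnd_cases Z top E g' with ⟨_, h2'⟩ | ⟨h1', h2', h3'⟩ | ⟨h1', h2', h3'⟩
  · rcases rnd_cases Z top E g with ⟨h1, h2⟩ | ⟨h1, h2, h3⟩ | ⟨h1, h2, h3⟩
    · rw [h2, h2'] at hne; exact absurd rfl hne
    · rw [h2'] at hne hlt ⊢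
      have := hsep _ htop _ h2 hne.symm
      rw [abs_of_pos (by linarith)] at this
      linarith
    · rw [h2, h2']; linarith
  · rcases rnd_cases Z top E g with ⟨h1, h2⟩ | ⟨h1, h2, h3⟩ | ⟨h1, h2, h3⟩
    · linarith
    · have := hsep _ h2' _ h2 hne.symm
      rw [abs_of_pos (by linarith)] at this
      linarith
    · have := h3 _ h2'
      rw [h2] at hlt ⊢
      rw [abs_of_neg (by linarith)] at this
      linarith
  · rcases rnd_cases Z top E g with ⟨h1, h2⟩ | ⟨h1, h2, h3⟩ | ⟨h1, h2, h3⟩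
    · linarith
    · have := h3' _ h2
      rw [h2'] at hlt ⊢
      rw [abs_of_pos (by linarith)] at this
      linarith
    · rw [h2, h2']; linarith

lemma rnd_free {Z : Set ℝ} {top E g : ℝ} (htop : top ∈ Z) (h : rnd Z top E g ∉ Z) :
    rnd Z top E g = g ∧ g < top - E ∧ ∀ τ ∈ Z, E < |g - τ| := by
  rcases rnd_cases Z top E g with ⟨_, h2⟩ | ⟨h1, h2, h3⟩ | ⟨h1, h2, h3⟩
  · rw [h2] at h; exact absurd htop h
  · exact absurd h2 h
  · exact ⟨h2, h1, h3⟩

lemma pow_aux {c : ℝ} (hc : 2 ≤ c) : c ≤ 4 * c ^ 4 ∧ 2 * c ^ 2 ≤ 4 * c ^ 4 := by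
  have h1 : c ≤ c ^ 2 := by nlinarith
  have h2 : 1 ≤ c ^ 2 := by nlinarith
  have h3 : c ^ 2 ≤ c ^ 4 := by
    have : c ^ 4 = c ^ 2 * c ^ 2 := by ring
    nlinarith
  constructor <;> linarith

/-! ### Parameters -/

/-- parameters of the construction -/
structure Par where
  d : ℕ
  c0 : ℕ
  B : ℝ
  σ : ℝ
  hc0 : 2 ≤ c0
  hσ : σ = 1 ∨ σ = -1
  hB : 3 ≤ B

namespace Par

variable (P : Par)

/-- the constants -/
def cc : ℕ → ℕ
  | 0 => P.c0
  | k + 1 => 4 * (cc k) ^ 4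

lemma two_le_cc (k : ℕ) : 2 ≤ P.cc k := by
  induction k with
  | zero => exact P.hc0
  | succ k ih =>
    show 2 ≤ 4 * (P.cc k) ^ 4
    have : 1 ≤ (P.cc k) ^ 4 := Nat.one_le_pow _ _ (by omega)
    omega

lemma cc_succ (k : ℕ) : P.cc (k + 1) = 4 * (P.cc k) ^ 4 := rfl

lemma c0_le_cc (k : ℕ) : P.c0 ≤ P.cc k := by
  induction k with
  | zero => exact le_rfl
  | succ k ih =>
    rw [cc_succ]
    have h2 := P.two_le_cc k
    have : P.cc k ≤ (P.cc k) ^ 4 := Nat.le_self_pow (by norm_num) _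
    omega

/-- the constant at level `l` -/
def cL (l : ℕ) : ℕ := P.cc (P.d - (l + 1))

lemma two_le_cL (l : ℕ) : (2 : ℝ) ≤ P.cL l := by exact_mod_cast P.two_le_cc _

lemma cL_pos (l : ℕ) : (0 : ℝ) < P.cL l := by linarith [P.two_le_cL l]

lemma cL_succ {l : ℕ} (h : l + 1 < P.d) : P.cL l = 4 * (P.cL (l + 1)) ^ 4 := by
  unfold cL
  have : P.d - (l + 1) = (P.d - (l + 1 + 1)) + 1 := by omega
  rw [this, cc_succ]

lemma cL_succ' {l : ℕ} (h : l + 1 < P.d) : (P.cL l : ℝ) = 4 * (P.cL (l + 1) : ℝ) ^ 4 := by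
  rw [P.cL_succ h]; push_cast; ring

/-- first width -/
noncomputable def rho1 : ℝ := 1 / (P.cL 0 : ℝ)

/-- grid spacing -/
noncomputable def D : ℝ := P.rho1 / 8

/-- grid points -/
noncomputable def grid (k : ℕ) : ℝ := -P.B + k * P.D

lemma rho1_pos : 0 < P.rho1 := by unfold rho1; have := P.cL_pos 0; positivity

lemma D_pos : 0 < P.D := by unfold D; have := P.rho1_pos; positivity

lemma rho1_eq : P.rho1 = 8 * P.D := by unfold D; ring

lemma rho1_le : P.rho1 ≤ 1 / 2 := by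
  unfold rho1
  exact one_div_le_one_div_of_le (by norm_num) (P.two_le_cL 0)

lemma grid_succ (k : ℕ) : P.grid (k + 1) = P.grid k + P.D := by
  unfold grid; push_cast; ring

lemma grid_zero : P.grid 0 = -P.B := by unfold grid; simp

lemma grid_mono : Monotone P.grid := by
  intro a b hab
  unfold grid
  have : (a : ℝ) ≤ b := by exact_mod_cast hab
  have := mul_le_mul_of_nonneg_right this P.D_pos.le
  linarith

lemma neg_B_le_grid (k : ℕ) : -P.B ≤ P.grid k := by
  rw [← P.grid_zero]; exact P.grid_mono (Nat.zero_le _)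

lemma grid_add_D_le {a b : ℕ} (h : a < b) : P.grid a + P.D ≤ P.grid b := by
  rw [← P.grid_succ]; exact P.grid_mono h

/-- last grid index -/
noncomputable def Lg : ℕ := ⌈(P.B + 3) / P.D⌉₊

lemma three_le_grid_Lg : 3 ≤ P.grid P.Lg := by
  unfold grid Lg
  have h := Nat.le_ceil ((P.B + 3) / P.D)
  rw [div_le_iff₀ P.D_pos] at h
  linarith

/-- candidates for snapping -/
def Zs (c : ℕ) (m : ℕ) (n : ℕ → ℝ) : Set ℝ :=
  {τ | ∃ u : ℕ → ℤ, (∀ i ≤ m, |u i| ≤ (c : ℤ)) ∧ u m ≠ 0 ∧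
    ∑ i ∈ range m, (u i : ℝ) * n i + (u m : ℝ) * τ = 0}

lemma Zs_congr {c m : ℕ} {n n' : ℕ → ℝ} (h : ∀ i < m, n i = n' i) : Zs c m n = Zs c m n' := by
  unfold Zs
  ext τ
  have : ∀ u : ℕ → ℤ, ∑ i ∈ range m, (u i : ℝ) * n i = ∑ i ∈ range m, (u i : ℝ) * n' i := by
    intro u
    exact sum_congr rfl (fun i hi => by rw [h i (mem_range.mp hi)])
  simp only [Set.mem_ofPred_eq, this]

/-- one step of the recursion -/
noncomputable def step (l : ℕ) (s : (ℕ → ℝ) × ℝ) (k : ℕ) : (ℕ → ℝ) × ℝ :=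
  open Classical in
  (Function.update s.1 (l + 1)
      (rnd (Zs (P.cL (l + 1)) (l + 1) s.1) (s.1 l) (P.cL (l + 1) * s.2) (P.grid k)),
    if rnd (Zs (P.cL (l + 1)) (l + 1) s.1) (s.1 l) (P.cL (l + 1) * s.2) (P.grid k) ∈
      Zs (P.cL (l + 1)) (l + 1) s.1 then 2 * (P.cL (l + 1) * s.2) else s.2)

/-- states -/
noncomputable def st (κ : ℕ → ℕ) : ℕ → (ℕ → ℝ) × ℝ
  | 0 => (fun _ => P.σ, P.rho1)
  | l + 1 => P.step l (st κ l) (κ (l + 1))

/-- coordinates of the normal vector -/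
noncomputable def N (κ : ℕ → ℕ) (i : ℕ) : ℝ := (P.st κ i).1 i

/-- widths -/
noncomputable def rho (κ : ℕ → ℕ) (l : ℕ) : ℝ := (P.st κ l).2

/-- snapping radius -/
noncomputable def E (κ : ℕ → ℕ) (l : ℕ) : ℝ := P.cL (l + 1) * P.rho κ l

/-- snapping set -/
noncomputable def Z (κ : ℕ → ℕ) (l : ℕ) : Set ℝ := Zs (P.cL (l + 1)) (l + 1) (P.N κ)

/-- possible values for coordinate `l+1` -/
noncomputable def val (κ : ℕ → ℕ) (l k : ℕ) : ℝ := rnd (P.Z κ l) (P.N κ l) (P.E κ l) (P.grid k)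

lemma st_fst (κ : ℕ → ℕ) : ∀ (l i : ℕ), i ≤ l → (P.st κ l).1 i = P.N κ i := by
  intro l
  induction l with
  | zero => intro i hi; obtain rfl : i = 0 := by omega
            rfl
  | succ l ih =>
    intro i hi
    rcases Nat.lt_or_ge i (l + 1) with h | h
    · have : (P.st κ (l + 1)).1 i = (P.st κ l).1 i := by
        show (P.step l (P.st κ l) (κ (l + 1))).1 i = _
        unfold step
        simp only
        rw [Function.update_of_ne (by omega)]
      rw [this]; exact ih i (by omega)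
    · obtain rfl : i = l + 1 := by omega
      rfl

lemma Zs_st (κ : ℕ → ℕ) (l : ℕ) : Zs (P.cL (l + 1)) (l + 1) (P.st κ l).1 = P.Z κ l := by
  unfold Z
  exact Zs_congr (fun i hi => P.st_fst κ l i (by omega))

@[simp] lemma N_zero (κ : ℕ → ℕ) : P.N κ 0 = P.σ := rfl

@[simp] lemma rho_zero (κ : ℕ → ℕ) : P.rho κ 0 = P.rho1 := rfl

lemma N_succ (κ : ℕ → ℕ) (l : ℕ) : P.N κ (l + 1) = P.val κ l (κ (l + 1)) := by
  show (P.step l (P.st κ l) (κ (l + 1))).1 (l + 1) = _
  unfold step val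
  simp only [Function.update_self]
  rw [P.Zs_st]
  rfl

lemma rho_succ_of_mem {κ : ℕ → ℕ} {l : ℕ} (h : P.N κ (l + 1) ∈ P.Z κ l) :
    P.rho κ (l + 1) = 2 * P.E κ l := by
  rw [N_succ] at h
  show (P.step l (P.st κ l) (κ (l + 1))).2 = _
  unfold step
  simp only
  rw [P.Zs_st]
  rw [if_pos]
  · rfl
  · exact h

lemma rho_succ_of_not_mem {κ : ℕ → ℕ} {l : ℕ} (h : P.N κ (l + 1) ∉ P.Z κ l) :
    P.rho κ (l + 1) = P.rho κ l := by
  rw [N_succ] at h
  show (P.step l (P.st κ l) (κ (l + 1))).2 = _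
  unfold step
  simp only
  rw [P.Zs_st]
  rw [if_neg]
  · rfl
  · exact h

lemma st_congr {κ κ' : ℕ → ℕ} : ∀ (l : ℕ), (∀ i, 1 ≤ i → i ≤ l → κ i = κ' i) →
    P.st κ l = P.st κ' l := by
  intro l
  induction l with
  | zero => intro _; rfl
  | succ l ih =>
    intro h
    show P.step l (P.st κ l) (κ (l + 1)) = P.step l (P.st κ' l) (κ' (l + 1))
    rw [ih (fun i h1 h2 => h i h1 (by omega)), h (l + 1) (by omega) le_rfl]

lemma rho_congr {κ κ' : ℕ → ℕ} {l : ℕ} (h : ∀ i, 1 ≤ i → i ≤ l → κ i = κ' i) :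
    P.rho κ l = P.rho κ' l := by
  unfold rho; rw [P.st_congr l h]

lemma N_congr {κ κ' : ℕ → ℕ} {l : ℕ} (h : ∀ i, 1 ≤ i → i ≤ l → κ i = κ' i) :
    P.N κ l = P.N κ' l := by
  unfold N; rw [P.st_congr l h]

lemma E_congr {κ κ' : ℕ → ℕ} {l : ℕ} (h : ∀ i, 1 ≤ i → i ≤ l → κ i = κ' i) :
    P.E κ l = P.E κ' l := by
  unfold E; rw [P.rho_congr h]

lemma Z_congr {κ κ' : ℕ → ℕ} {l : ℕ} (h : ∀ i, 1 ≤ i → i ≤ l → κ i = κ' i) :
    P.Z κ l = P.Z κ' l := by
  rw [← P.Zs_st, ← P.Zs_st, P.st_congr l h]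

lemma val_congr {κ κ' : ℕ → ℕ} {l : ℕ} (h : ∀ i, 1 ≤ i → i ≤ l → κ i = κ' i) (k : ℕ) :
    P.val κ l k = P.val κ' l k := by
  unfold val; rw [P.Z_congr h, P.N_congr h, P.E_congr h]

lemma rho1_le_rho (κ : ℕ → ℕ) (l : ℕ) : P.rho1 ≤ P.rho κ l ∧ P.rho κ l ≤ P.rho κ (l + 1) := by
  have key : ∀ l, P.rho1 ≤ P.rho κ l → P.rho κ l ≤ P.rho κ (l + 1) := by
    intro l h
    by_cases hm : P.N κ (l + 1) ∈ P.Z κ l
    · rw [P.rho_succ_of_mem hm]
      unfold E
      have h1 := P.two_le_cL (l + 1)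
      have h2 : 0 < P.rho κ l := P.rho1_pos.trans_le h
      nlinarith
    · rw [P.rho_succ_of_not_mem hm]
  have h1 : ∀ l, P.rho1 ≤ P.rho κ l := by
    intro l
    induction l with
    | zero => exact le_rfl
    | succ l ih => exact ih.trans (key l ih)
  exact ⟨h1 l, key l (h1 l)⟩

lemma rho_mono (κ : ℕ → ℕ) : Monotone (P.rho κ) :=
  monotone_nat_of_le_succ (fun l => (P.rho1_le_rho κ l).2)

lemma rho_pos (κ : ℕ → ℕ) (l : ℕ) : 0 < P.rho κ l :=
  P.rho1_pos.trans_le (P.rho1_le_rho κ l).1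

lemma two_rho_le_E (κ : ℕ → ℕ) (l : ℕ) : 2 * P.rho κ l ≤ P.E κ l := by
  unfold E
  exact mul_le_mul_of_nonneg_right (P.two_le_cL _) (P.rho_pos κ l).le

lemma sixteen_D_le_E (κ : ℕ → ℕ) (l : ℕ) : 16 * P.D ≤ P.E κ l := by
  have h1 := P.two_rho_le_E κ l
  have h2 := (P.rho1_le_rho κ l).1
  have h3 := P.rho1_eq
  linarith

lemma E_pos (κ : ℕ → ℕ) (l : ℕ) : 0 < P.E κ l := by
  linarith [P.sixteen_D_le_E κ l, P.D_pos]

lemma cL_mul_rho_le (κ : ℕ → ℕ) : ∀ (l : ℕ), l < P.d → P.cL l * P.rho κ l ≤ 1 := by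
  intro l
  induction l with
  | zero =>
    intro _
    rw [rho_zero]
    unfold rho1
    have := P.cL_pos 0
    rw [mul_one_div_cancel this.ne']
  | succ l ih =>
    intro h
    have ih' := ih (by omega)
    rw [P.cL_succ' h] at ih'
    set c : ℝ := (P.cL (l + 1) : ℝ) with hc
    have hc2 : 2 ≤ c := P.two_le_cL (l + 1)
    have hr := P.rho_pos κ l
    by_cases hm : P.N κ (l + 1) ∈ P.Z κ l
    · rw [P.rho_succ_of_mem hm]
      unfold E
      rw [← hc]
      refine le_trans ?_ ih'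
      have : c * (2 * (c * P.rho κ l)) = (2 * c ^ 2) * P.rho κ l := by ring
      rw [this]
      exact mul_le_mul_of_nonneg_right (pow_aux hc2).2 hr.le
    · rw [P.rho_succ_of_not_mem hm]
      refine le_trans ?_ ih'
      exact mul_le_mul_of_nonneg_right (pow_aux hc2).1 hr.le

lemma E_le_one (κ : ℕ → ℕ) {l : ℕ} (hl : l + 1 < P.d) : P.E κ l ≤ 1 := by
  have h := P.cL_mul_rho_le κ l (by omega)
  rw [P.cL_succ' hl] at h
  refine le_trans ?_ h
  unfold E
  have hc2 : 2 ≤ (P.cL (l + 1) : ℝ) := P.two_le_cL (l + 1)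
  exact mul_le_mul_of_nonneg_right (pow_aux hc2).1 (P.rho_pos κ l).le

lemma cLrho_anti (κ : ℕ → ℕ) {l : ℕ} (h : l + 1 < P.d) :
    P.cL (l + 1) * P.rho κ (l + 1) ≤ P.cL l * P.rho κ l := by
  rw [P.cL_succ' h]
  set c : ℝ := (P.cL (l + 1) : ℝ) with hc
  have hc2 : 2 ≤ c := P.two_le_cL (l + 1)
  have hr := P.rho_pos κ l
  by_cases hm : P.N κ (l + 1) ∈ P.Z κ l
  · rw [P.rho_succ_of_mem hm]
    unfold E
    rw [← hc]
    have : c * (2 * (c * P.rho κ l)) = (2 * c ^ 2) * P.rho κ l := by ring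
    rw [this]
    exact mul_le_mul_of_nonneg_right (pow_aux hc2).2 hr.le
  · rw [P.rho_succ_of_not_mem hm]
    exact mul_le_mul_of_nonneg_right (pow_aux hc2).1 hr.le

lemma top_mem (κ : ℕ → ℕ) (l : ℕ) : P.N κ l ∈ P.Z κ l := by
  unfold Z Zs
  refine ⟨fun i => if i = l then -1 else if i = l + 1 then 1 else 0, ?_, ?_, ?_⟩
  · intro i _
    have h2 : (2 : ℤ) ≤ (P.cL (l + 1) : ℤ) := by exact_mod_cast P.two_le_cc _
    simp only
    split_ifs
    · simp; omega
    · simp; omega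
    · simp
  · simp
  · rw [sum_range_succ]
    have : ∑ x ∈ range l, (((if x = l then -1 else if x = l + 1 then 1 else 0 : ℤ)) : ℝ) * P.N κ x
        = 0 := by
      apply sum_eq_zero
      intro x hx
      have := mem_range.mp hx
      rw [if_neg (by omega), if_neg (by omega)]
      simp
    rw [this]
    simp

lemma abs_comb_le {a b a' b' c : ℤ} (ha : |a| ≤ c) (hb : |b| ≤ c) (ha' : |a'| ≤ c)
    (hb' : |b'| ≤ c) : |a * b - a' * b'| ≤ 2 * c ^ 2 := by
  have h0 : 0 ≤ c := (abs_nonneg a).trans ha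
  calc |a * b - a' * b'| ≤ |a * b| + |a' * b'| := abs_sub _ _
    _ = |a| * |b| + |a'| * |b'| := by rw [abs_mul, abs_mul]
    _ ≤ c * c + c * c := by
        apply add_le_add
        · exact mul_le_mul ha hb (abs_nonneg _) h0
        · exact mul_le_mul ha' hb' (abs_nonneg _) h0
    _ = 2 * c ^ 2 := by ring

lemma int_pow_aux {c : ℤ} (hc : 2 ≤ c) : c ≤ 4 * c ^ 4 ∧ 2 * c ^ 2 ≤ 4 * c ^ 4 := by
  have h1 : c ≤ c ^ 2 := by nlinarith
  have h2 : 1 ≤ c ^ 2 := by nlinarith
  have h3 : c ^ 2 ≤ c ^ 4 := by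
    have : c ^ 4 = c ^ 2 * c ^ 2 := by ring
    nlinarith
  constructor <;> linarith

/-- non-resonance property -/
lemma H (κ : ℕ → ℕ) : ∀ l, l < P.d → ∀ w : ℕ → ℤ, (∀ i ≤ l, |w i| ≤ (P.cL l : ℤ)) →
    ∑ i ∈ range (l + 1), (w i : ℝ) * P.N κ i = 0 ∨
      P.cL l * P.rho κ l ≤ |∑ i ∈ range (l + 1), (w i : ℝ) * P.N κ i| := by
  intro l
  induction l with
  | zero =>
    intro h w hw
    by_cases h0 : w 0 = 0
    · left; simp [h0]
    · right
      have h1 : (1 : ℝ) ≤ |(w 0 : ℝ)| := by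
        have : (1 : ℤ) ≤ |w 0| := Int.one_le_abs h0
        exact_mod_cast this
      have h2 : |P.σ| = 1 := by
        rcases P.hσ with h | h <;> rw [h] <;> simp
      have h3 := P.cL_mul_rho_le κ 0 h
      simp only [zero_add, range_one, sum_singleton, N_zero]
      rw [abs_mul, h2]
      linarith
  | succ l ih =>
    intro h w hw
    have hcL := P.cL_succ h
    have hcL' := P.cL_succ' h
    set c : ℕ := P.cL (l + 1) with hc
    have hc2 : (2 : ℤ) ≤ (c : ℤ) := by exact_mod_cast P.two_le_cc _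
    have hc2' : (2 : ℝ) ≤ (c : ℝ) := by exact_mod_cast hc2
    have hcast : ((P.cL l : ℕ) : ℤ) = 4 * (c : ℤ) ^ 4 := by rw [hcL]; push_cast; ring
    have hρ := P.rho_pos κ l
    have ih' := ih (by omega)
    have hanti := P.cLrho_anti κ h
    rw [← hc] at hanti
    by_cases hw0 : w (l + 1) = 0
    · rw [sum_range_succ, hw0]
      simp only [Int.cast_zero, zero_mul, add_zero]
      rcases ih' w (fun i hi => (hw i (by omega)).trans (by rw [hcast]; exact (int_pow_aux hc2).1))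
        with h1 | h1
      · left; exact h1
      · right; exact hanti.trans h1
    · have hw1 : (1 : ℝ) ≤ |(w (l + 1) : ℝ)| := by
        have : (1 : ℤ) ≤ |w (l + 1)| := Int.one_le_abs hw0
        exact_mod_cast this
      by_cases hm : P.N κ (l + 1) ∈ P.Z κ l
      · rw [P.rho_succ_of_mem hm]
        obtain ⟨u, hu1, hu2, hu3⟩ := hm
        rw [← hc] at hu1
        have key : (u (l + 1) : ℝ) * ∑ i ∈ range (l + 1 + 1), (w i : ℝ) * P.N κ i =
            ∑ i ∈ range (l + 1), ((u (l + 1) * w i - w (l + 1) * u i : ℤ) : ℝ) * P.N κ i := by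
          have e1 : ∑ i ∈ range (l + 1), ((u (l + 1) * w i - w (l + 1) * u i : ℤ) : ℝ) * P.N κ i
              = (u (l + 1) : ℝ) * ∑ i ∈ range (l + 1), (w i : ℝ) * P.N κ i
                - (w (l + 1) : ℝ) * ∑ i ∈ range (l + 1), (u i : ℝ) * P.N κ i := by
            rw [mul_sum, mul_sum, ← sum_sub_distrib]
            apply sum_congr rfl
            intro i _
            push_cast; ring
          rw [e1, sum_range_succ]
          have e2 : ∑ i ∈ range (l + 1), (u i : ℝ) * P.N κ i = - (u (l + 1) : ℝ) * P.N κ (l + 1) := by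
            linarith
          rw [e2]; ring
        have hu0 : (u (l + 1) : ℝ) ≠ 0 := by exact_mod_cast hu2
        rcases ih' (fun i => u (l + 1) * w i - w (l + 1) * u i) (by
          intro i hi
          refine (abs_comb_le (hu1 (l + 1) le_rfl) (hw i (by omega)) (hw (l + 1) le_rfl)
            (hu1 i (by omega))).trans ?_
          rw [hcast]; exact (int_pow_aux hc2).2) with h1 | h1
        · left
          rw [h1] at key
          rcases mul_eq_zero.mp key with h | h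
          · exact absurd h hu0
          · exact h
        · right
          rw [← key, abs_mul, hcL'] at h1
          have h2 : |(u (l + 1) : ℝ)| ≤ c := by exact_mod_cast hu1 (l + 1) le_rfl
          set A := |∑ i ∈ range (l + 1 + 1), (w i : ℝ) * P.N κ i| with hA
          have hA0 : 0 ≤ A := abs_nonneg _
          have h3 : 4 * (c : ℝ) ^ 4 * P.rho κ l ≤ c * A :=
            h1.trans (mul_le_mul_of_nonneg_right h2 hA0)
          have h4 : (c : ℝ) * (4 * (c : ℝ) ^ 3 * P.rho κ l) ≤ c * A := by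
            calc (c : ℝ) * (4 * (c : ℝ) ^ 3 * P.rho κ l) = 4 * (c : ℝ) ^ 4 * P.rho κ l := by ring
              _ ≤ _ := h3
          have h5 : 4 * (c : ℝ) ^ 3 * P.rho κ l ≤ A := le_of_mul_le_mul_left h4 (by linarith)
          refine le_trans ?_ h5
          unfold E
          rw [← hc]
          have : (c : ℝ) * (2 * (c * P.rho κ l)) = (2 * (c : ℝ) ^ 2) * P.rho κ l := by ring
          rw [this]
          apply mul_le_mul_of_nonneg_right _ hρ.le
          have : (c : ℝ) ^ 3 = c ^ 2 * c := by ring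
          nlinarith [sq_nonneg (c : ℝ)]
      · right
        rw [P.rho_succ_of_not_mem hm]
        have hval := P.N_succ κ l
        have hm' := hm
        rw [hval] at hm'
        obtain ⟨f1, f2, f3⟩ := rnd_free (P.top_mem κ l) hm'
        have hw0' : (w (l + 1) : ℝ) ≠ 0 := by exact_mod_cast hw0
        set τ : ℝ := - (∑ i ∈ range (l + 1), (w i : ℝ) * P.N κ i) / (w (l + 1) : ℝ) with hτ
        have hτm : τ ∈ P.Z κ l := by
          refine ⟨w, hw, hw0, ?_⟩
          rw [hτ]; field_simp; ring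
        have h5 := f3 τ hτm
        have hN : P.N κ (l + 1) = P.grid (κ (l + 1)) := by rw [hval]; exact f1
        rw [← hN] at h5
        have e : ∑ i ∈ range (l + 1 + 1), (w i : ℝ) * P.N κ i =
            (w (l + 1) : ℝ) * (P.N κ (l + 1) - τ) := by
          rw [sum_range_succ, hτ]; field_simp; ring
        rw [e, abs_mul]
        have hE : (c : ℝ) * P.rho κ l = P.E κ l := rfl
        rw [hE]
        have : 0 ≤ |P.N κ (l + 1) - τ| := abs_nonneg _
        nlinarith

lemma Z_sep (κ : ℕ → ℕ) {l : ℕ} (hl : l + 1 < P.d) :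
    ∀ τ ∈ P.Z κ l, ∀ τ' ∈ P.Z κ l, τ ≠ τ' → 8 * P.E κ l ≤ |τ - τ'| := by
  rintro τ ⟨u, hu1, hu2, hu3⟩ τ' ⟨u', hu1', hu2', hu3'⟩ hne
  have hcL := P.cL_succ hl
  have hcL' := P.cL_succ' hl
  unfold E
  set c : ℕ := P.cL (l + 1) with hc
  have hc2 : (2 : ℤ) ≤ (c : ℤ) := by exact_mod_cast P.two_le_cc _
  have hc2' : (2 : ℝ) ≤ (c : ℝ) := by exact_mod_cast hc2
  have hcast : ((P.cL l : ℕ) : ℤ) = 4 * (c : ℤ) ^ 4 := by rw [hcL]; push_cast; ring
  have hρ := P.rho_pos κ l
  have h0 : (u (l + 1) : ℝ) ≠ 0 := by exact_mod_cast hu2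
  have h0' : (u' (l + 1) : ℝ) ≠ 0 := by exact_mod_cast hu2'
  have key : ∑ i ∈ range (l + 1), ((u' (l + 1) * u i - u (l + 1) * u' i : ℤ) : ℝ) * P.N κ i =
      - ((u (l + 1) : ℝ) * u' (l + 1)) * (τ - τ') := by
    have e1 : ∑ i ∈ range (l + 1), ((u' (l + 1) * u i - u (l + 1) * u' i : ℤ) : ℝ) * P.N κ i
        = (u' (l + 1) : ℝ) * ∑ i ∈ range (l + 1), (u i : ℝ) * P.N κ i
          - (u (l + 1) : ℝ) * ∑ i ∈ range (l + 1), (u' i : ℝ) * P.N κ i := by
      rw [mul_sum, mul_sum, ← sum_sub_distrib]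
      apply sum_congr rfl
      intro i _
      push_cast; ring
    have e2 : ∑ i ∈ range (l + 1), (u i : ℝ) * P.N κ i = - (u (l + 1) : ℝ) * τ := by linarith
    have e3 : ∑ i ∈ range (l + 1), (u' i : ℝ) * P.N κ i = - (u' (l + 1) : ℝ) * τ' := by linarith
    rw [e1, e2, e3]; ring
  rcases P.H κ l (by omega) (fun i => u' (l + 1) * u i - u (l + 1) * u' i) (by
      intro i hi
      refine (abs_comb_le (hu1' (l + 1) le_rfl) (hu1 i (by omega)) (hu1 (l + 1) le_rfl)
        (hu1' i (by omega))).trans ?_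
      rw [hcast]; exact (int_pow_aux hc2).2) with h1 | h1
  · exfalso
    rw [key] at h1
    have : τ - τ' ≠ 0 := sub_ne_zero.mpr hne
    have h2 : (u (l + 1) : ℝ) * u' (l + 1) ≠ 0 := mul_ne_zero h0 h0'
    rcases mul_eq_zero.mp h1 with h | h
    · exact h2 (neg_eq_zero.mp h)
    · exact this h
  · rw [key, abs_mul, abs_neg, abs_mul, hcL'] at h1
    have h2 : |(u (l + 1) : ℝ)| ≤ c := by exact_mod_cast hu1 (l + 1) le_rfl
    have h2' : |(u' (l + 1) : ℝ)| ≤ c := by exact_mod_cast hu1' (l + 1) le_rfl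
    have hA0 : 0 ≤ |τ - τ'| := abs_nonneg _
    set A := |τ - τ'| with hA
    have h3 : |(u (l + 1) : ℝ)| * |(u' (l + 1) : ℝ)| ≤ (c : ℝ) ^ 2 := by
      rw [pow_two]; exact mul_le_mul h2 h2' (abs_nonneg _) (by linarith)
    have h4 : 4 * (c : ℝ) ^ 4 * P.rho κ l ≤ (c : ℝ) ^ 2 * A :=
      h1.trans (mul_le_mul_of_nonneg_right h3 hA0)
    have h5 : (c : ℝ) ^ 2 * (4 * (c : ℝ) ^ 2 * P.rho κ l) ≤ (c : ℝ) ^ 2 * A := by
      calc (c : ℝ) ^ 2 * (4 * (c : ℝ) ^ 2 * P.rho κ l) = 4 * (c : ℝ) ^ 4 * P.rho κ l := by ring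
        _ ≤ _ := h4
    have h6 : 4 * (c : ℝ) ^ 2 * P.rho κ l ≤ A := le_of_mul_le_mul_left h5 (by positivity)
    refine le_trans ?_ h6
    have : 8 * ((c : ℝ) * P.rho κ l) = (8 * (c : ℝ)) * P.rho κ l := by ring
    rw [this]
    apply mul_le_mul_of_nonneg_right _ hρ.le
    nlinarith

lemma val_mono (κ : ℕ → ℕ) {l : ℕ} (hl : l + 1 < P.d) : Monotone (P.val κ l) :=
  (rnd_mono (P.E_pos κ l) (P.Z_sep κ hl)).comp P.grid_mono

lemma val_gap (κ : ℕ → ℕ) {l : ℕ} (hl : l + 1 < P.d) {a b : ℕ}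
    (h : P.val κ l a < P.val κ l b) : P.D ≤ P.val κ l b - P.val κ l a := by
  have hab : a < b := by
    by_contra hcon
    push Not at hcon
    exact absurd (P.val_mono κ hl hcon) (not_le.mpr h)
  exact rnd_gap (P.E_pos κ l) (by linarith [P.sixteen_D_le_E κ l, P.D_pos]) (P.top_mem κ l)
    (P.Z_sep κ hl) (P.grid_add_D_le hab) P.D_pos.le h.ne

lemma val_le_top (κ : ℕ → ℕ) (l k : ℕ) : P.val κ l k ≤ P.N κ l :=
  rnd_le_top (P.E_pos κ l).le _

lemma val_le_add (κ : ℕ → ℕ) (l k : ℕ) : P.val κ l k ≤ P.grid k + P.E κ l :=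
  rnd_le_add (P.E_pos κ l).le _

lemma le_val (κ : ℕ → ℕ) (l k : ℕ) : min (P.N κ l) (P.grid k - P.E κ l) ≤ P.val κ l k :=
  le_rnd (P.E_pos κ l).le _

lemma val_eq_top {κ : ℕ → ℕ} {l k : ℕ} (h : P.N κ l - P.E κ l ≤ P.grid k) :
    P.val κ l k = P.N κ l := rnd_of_le h

lemma N_anti (κ : ℕ → ℕ) : Antitone (P.N κ) :=
  antitone_nat_of_succ_le (fun l => by rw [P.N_succ]; exact P.val_le_top κ l _)

lemma N_le_sigma (κ : ℕ → ℕ) (l : ℕ) : P.N κ l ≤ P.σ := by
  have := P.N_anti κ (Nat.zero_le l)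
  simpa using this

lemma sigma_le_one : P.σ ≤ 1 := by rcases P.hσ with h | h <;> rw [h] <;> norm_num

lemma neg_one_le_sigma : -1 ≤ P.σ := by rcases P.hσ with h | h <;> rw [h] <;> norm_num

lemma N_ge (κ : ℕ → ℕ) : ∀ l, l < P.d → -P.B - 1 ≤ P.N κ l := by
  intro l
  induction l with
  | zero => intro _; rw [N_zero]; linarith [P.neg_one_le_sigma, P.hB]
  | succ l ih =>
    intro h
    rw [P.N_succ]
    refine le_trans (le_min (ih (by omega)) ?_) (P.le_val κ l _)
    linarith [P.neg_B_le_grid (κ (l + 1)), P.E_le_one κ h]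

lemma val_ge (κ : ℕ → ℕ) {l : ℕ} (h : l + 1 < P.d) (k : ℕ) : -P.B - 1 ≤ P.val κ l k := by
  refine le_trans (le_min (P.N_ge κ l (by omega)) ?_) (P.le_val κ l _)
  linarith [P.neg_B_le_grid k, P.E_le_one κ h]

/-- partial sums of the height -/
noncomputable def gm (S : ℝ) (κ : ℕ → ℕ) (l k : ℕ) : ℝ :=
  ∑ m ∈ range k, (P.val κ l (m + 1) - P.val κ l m) * Real.exp (S * P.grid (m + 1))

/-- height contribution of coordinate `l+1` -/
noncomputable def gam (S : ℝ) (κ : ℕ → ℕ) (l : ℕ) : ℝ := P.gm S κ l (κ (l + 1))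

lemma gm_succ (S : ℝ) (κ : ℕ → ℕ) (l k : ℕ) : P.gm S κ l (k + 1) = P.gm S κ l k +
    (P.val κ l (k + 1) - P.val κ l k) * Real.exp (S * P.grid (k + 1)) := by
  unfold gm; rw [sum_range_succ]

lemma gm_nonneg (S : ℝ) (κ : ℕ → ℕ) {l : ℕ} (hl : l + 1 < P.d) (k : ℕ) : 0 ≤ P.gm S κ l k := by
  unfold gm
  apply sum_nonneg
  intro m _
  exact mul_nonneg (sub_nonneg.mpr (P.val_mono κ hl (Nat.le_succ m))) (Real.exp_pos _).le

lemma gm_le {S : ℝ} (hS : 0 ≤ S) (κ : ℕ → ℕ) {l : ℕ} (hl : l + 1 < P.d) (k : ℕ) :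
    P.gm S κ l k ≤ (P.B + 2) * Real.exp (S * (P.N κ l - P.E κ l + P.D)) := by
  have h1 : P.gm S κ l k ≤ (P.val κ l k - P.val κ l 0) *
      Real.exp (S * (P.N κ l - P.E κ l + P.D)) := by
    induction k with
    | zero => simp [gm]
    | succ k ih =>
      rw [gm_succ]
      have hm := P.val_mono κ hl (Nat.le_succ k)
      by_cases h : P.N κ l - P.E κ l ≤ P.grid k
      · have e1 := P.val_eq_top h
        have e2 := P.val_eq_top (h.trans (P.grid_mono (Nat.le_succ k)))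
        have e3 : P.val κ l (k + 1) = P.val κ l k := by rw [e1]; exact e2
        rw [e3]; linarith
      · push Not at h
        have h2 : P.grid (k + 1) ≤ P.N κ l - P.E κ l + P.D := by rw [P.grid_succ]; linarith
        have h3 : Real.exp (S * P.grid (k + 1)) ≤
            Real.exp (S * (P.N κ l - P.E κ l + P.D)) :=
          Real.exp_le_exp.mpr (mul_le_mul_of_nonneg_left h2 hS)
        have h4 := mul_le_mul_of_nonneg_left h3 (sub_nonneg.mpr hm)
        have h5 : (P.val κ l (k + 1) - P.val κ l k) * Real.exp (S * P.grid (k + 1)) ≤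
          (P.val κ l (k + 1) - P.val κ l k) * Real.exp (S * (P.N κ l - P.E κ l + P.D)) := h4
        nlinarith
  refine h1.trans ?_
  apply mul_le_mul_of_nonneg_right _ (Real.exp_pos _).le
  linarith [P.val_ge κ hl 0, P.val_le_top κ l k, P.N_le_sigma κ l, P.sigma_le_one]

lemma gm_diff {S : ℝ} (hS : 0 ≤ S) (κ : ℕ → ℕ) {l : ℕ} (hl : l + 1 < P.d) (k k' : ℕ) :
    P.gm S κ l k' - P.gm S κ l k ≤ (P.val κ l k' - P.val κ l k) * Real.exp (S * P.grid k') := by
  rcases le_total k k' with h | h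
  · induction k', h using Nat.le_induction with
    | base => simp
    | succ k' hk ih =>
      rw [gm_succ]
      have h3 : Real.exp (S * P.grid k') ≤ Real.exp (S * P.grid (k' + 1)) :=
        Real.exp_le_exp.mpr (mul_le_mul_of_nonneg_left (P.grid_mono (Nat.le_succ k')) hS)
      have h4 := mul_le_mul_of_nonneg_left h3 (sub_nonneg.mpr (P.val_mono κ hl hk))
      nlinarith
  · induction k, h using Nat.le_induction with
    | base => simp
    | succ k hk ih =>
      rw [gm_succ]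
      have h3 : Real.exp (S * P.grid k') ≤ Real.exp (S * P.grid (k + 1)) :=
        Real.exp_le_exp.mpr (mul_le_mul_of_nonneg_left (P.grid_mono (hk.trans (Nat.le_succ k))) hS)
      have h4 := mul_le_mul_of_nonneg_left h3 (sub_nonneg.mpr (P.val_mono κ hl (Nat.le_succ k)))
      have h5 : (P.val κ l (k + 1) - P.val κ l k) * Real.exp (S * P.grid k') ≤
        (P.val κ l (k + 1) - P.val κ l k) * Real.exp (S * P.grid (k + 1)) := h4
      nlinarith

/-- the defining functional -/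
noncomputable def F (S : ℝ) (κ : ℕ → ℕ) (J : ℕ) (y : ℕ → ℝ) : ℝ :=
  ∑ i ∈ range (J + 1), P.N κ i * y i - ∑ l ∈ range J, P.gam S κ l

lemma F_eq (S : ℝ) (κ : ℕ → ℕ) (J : ℕ) (y : ℕ → ℝ) : P.F S κ J y =
    P.σ * y 0 + ∑ l ∈ range J, (P.N κ (l + 1) * y (l + 1) - P.gam S κ l) := by
  unfold F
  rw [sum_range_succ', sum_sub_distrib, N_zero]
  ring

/-- modify the index: `κ` below `q+1`, `k'` at `q+1`, ties above -/
noncomputable def md (κ : ℕ → ℕ) (q k' : ℕ) : ℕ → ℕ :=
  fun i => if i ≤ q then κ i else if i = q + 1 then k' else P.Lg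

lemma md_le {κ : ℕ → ℕ} {q k' : ℕ} (hκ : ∀ i, κ i ≤ P.Lg) (hk : k' ≤ P.Lg) (i : ℕ) :
    P.md κ q k' i ≤ P.Lg := by
  unfold md; split_ifs
  · exact hκ i
  · exact hk
  · exact le_rfl

lemma md_low {κ : ℕ → ℕ} {q k' i : ℕ} (h : i ≤ q) : P.md κ q k' i = κ i := by
  unfold md; rw [if_pos h]

lemma md_self {κ : ℕ → ℕ} {q k' : ℕ} : P.md κ q k' (q + 1) = k' := by
  unfold md; rw [if_neg (by omega), if_pos rfl]

lemma md_high {κ : ℕ → ℕ} {q k' i : ℕ} (h : q + 1 < i) : P.md κ q k' i = P.Lg := by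
  unfold md; rw [if_neg (by omega), if_neg (by omega)]

lemma val_Lg (κ : ℕ → ℕ) (l : ℕ) : P.val κ l P.Lg = P.N κ l := by
  apply P.val_eq_top
  linarith [P.three_le_grid_Lg, P.N_le_sigma κ l, P.sigma_le_one, P.E_pos κ l]

lemma N_md_low {κ : ℕ → ℕ} {q k' l : ℕ} (h : l ≤ q) : P.N (P.md κ q k') l = P.N κ l :=
  P.N_congr (fun i _ h2 => P.md_low (h2.trans h))

lemma val_md_low {κ : ℕ → ℕ} {q k' l : ℕ} (h : l ≤ q) (m : ℕ) :
    P.val (P.md κ q k') l m = P.val κ l m :=
  P.val_congr (fun i _ h2 => P.md_low (h2.trans h)) m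

lemma N_md_self {κ : ℕ → ℕ} {q k' : ℕ} : P.N (P.md κ q k') (q + 1) = P.val κ q k' := by
  rw [P.N_succ, P.val_md_low le_rfl, P.md_self]

lemma N_md_high {κ : ℕ → ℕ} {q k' l : ℕ} (h : q + 1 ≤ l) :
    P.N (P.md κ q k') l = P.val κ q k' := by
  induction l, h using Nat.le_induction with
  | base => exact P.N_md_self
  | succ l hl ih => rw [P.N_succ, P.md_high (by omega), P.val_Lg, ih]

lemma gm_congr {κ κ' : ℕ → ℕ} {l : ℕ} (S : ℝ) (h : ∀ i, 1 ≤ i → i ≤ l → κ i = κ' i) (k : ℕ) :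
    P.gm S κ l k = P.gm S κ' l k := by
  unfold gm
  exact sum_congr rfl (fun m _ => by rw [P.val_congr h, P.val_congr h])

lemma gam_md_low {κ : ℕ → ℕ} {q k' l : ℕ} (S : ℝ) (h : l < q) :
    P.gam S (P.md κ q k') l = P.gam S κ l := by
  unfold gam
  rw [P.md_low (show l + 1 ≤ q by omega)]
  exact P.gm_congr S (fun _ _ h2 => P.md_low (by omega)) _

lemma gam_md_self {κ : ℕ → ℕ} {q k' : ℕ} (S : ℝ) :
    P.gam S (P.md κ q k') q = P.gm S κ q k' := by
  unfold gam
  rw [P.md_self]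
  exact P.gm_congr S (fun _ _ h2 => P.md_low h2) _

lemma tail_bound (κ : ℕ → ℕ) (q k' : ℕ) {l : ℕ} (h : q + 1 ≤ l) :
    P.N (P.md κ q k') l - P.E (P.md κ q k') l + P.D ≤ P.grid k' - P.rho1 := by
  rw [P.N_md_high h]
  set κ' := P.md κ q k' with hκ'
  have h1 := P.two_rho_le_E κ' l
  have h2 := P.rho_mono κ' h
  have h3 : P.E κ' q = P.E κ q := P.E_congr (fun i _ h2 => P.md_low h2)
  have h4 := P.sixteen_D_le_E κ q
  have h5 := P.rho1_eq
  have h6 := P.D_pos
  by_cases hm : P.N κ' (q + 1) ∈ P.Z κ' q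
  · have h7 := P.rho_succ_of_mem hm
    have h8 := P.val_le_add κ q k'
    linarith
  · have h7 := P.N_md_self (κ := κ) (q := q) (k' := k')
    rw [← hκ'] at h7
    have hm' : rnd (P.Z κ' q) (P.N κ' q) (P.E κ' q) (P.grid k') ∉ P.Z κ' q := by
      intro h
      apply hm
      rw [h7, ← P.val_md_low (κ := κ) (q := q) (k' := k') le_rfl]
      exact h
    have h8 := (rnd_free (P.top_mem κ' q) hm').1
    have h9 : P.val κ q k' = P.grid k' := by
      rw [← P.val_md_low (κ := κ) (q := q) (k' := k') le_rfl]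
      exact h8
    rw [h9]
    have h10 := (P.rho1_le_rho κ' (q + 1)).1
    linarith

lemma gam_md_high (κ : ℕ → ℕ) (q k' : ℕ) {S : ℝ} (hS : 0 ≤ S) {l : ℕ} (h : q + 1 ≤ l)
    (hl : l + 1 < P.d) : P.gam S (P.md κ q k') l ≤
      (P.B + 2) * Real.exp (-(S * P.rho1)) * Real.exp (S * P.grid k') := by
  refine (P.gm_le hS _ hl _).trans ?_
  rw [mul_assoc, ← Real.exp_add]
  apply mul_le_mul_of_nonneg_left _ (by linarith [P.hB])
  apply Real.exp_le_exp.mpr
  have := mul_le_mul_of_nonneg_left (P.tail_bound κ q k' h) hS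
  linarith

lemma F_diff {S : ℝ} (hS : 0 ≤ S) (κ : ℕ → ℕ) {q k' J : ℕ} (hq : q < J) (hJ : J < P.d)
    (y : ℕ → ℝ) {b : ℝ} (hb : b ≤ 0)
    (h : ∀ l, q < l → l < J → b ≤ (P.N (P.md κ q k') (l + 1) * y (l + 1)
      - P.gam S (P.md κ q k') l) - (P.N κ (l + 1) * y (l + 1) - P.gam S κ l)) :
    (P.val κ q k' - P.N κ (q + 1)) * (y (q + 1) - Real.exp (S * P.grid k')) + J * b ≤
      P.F S (P.md κ q k') J y - P.F S κ J y := by
  rw [F_eq, F_eq]
  have e : (P.σ * y 0 + ∑ l ∈ range J, (P.N (P.md κ q k') (l + 1) * y (l + 1)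
      - P.gam S (P.md κ q k') l)) - (P.σ * y 0 + ∑ l ∈ range J, (P.N κ (l + 1) * y (l + 1)
      - P.gam S κ l)) = ∑ l ∈ range J, ((P.N (P.md κ q k') (l + 1) * y (l + 1)
      - P.gam S (P.md κ q k') l) - (P.N κ (l + 1) * y (l + 1) - P.gam S κ l)) := by
    rw [add_sub_add_left_eq_sub, ← sum_sub_distrib]
  rw [e]
  set X := (P.val κ q k' - P.N κ (q + 1)) * (y (q + 1) - Real.exp (S * P.grid k')) with hX
  have e2 : X + J * b = ∑ l ∈ range J, ((if l = q then X else 0) + b) := by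
    rw [sum_add_distrib, sum_ite_eq' (range J) q, if_pos (mem_range.mpr hq)]
    simp
  rw [e2]
  apply sum_le_sum
  intro l hl
  have hlJ := mem_range.mp hl
  rcases lt_trichotomy l q with h1 | h1 | h1
  · rw [if_neg h1.ne, P.N_md_low (show l + 1 ≤ q by omega), P.gam_md_low S h1]
    linarith
  · subst h1
    rw [if_pos rfl, P.N_md_self, P.gam_md_self]
    have := P.gm_diff hS κ (show l + 1 < P.d by omega) (κ (l + 1)) k'
    rw [← P.N_succ] at this
    unfold gam
    rw [hX]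
    nlinarith
  · rw [if_neg h1.ne']
    have := h l h1 hlJ
    linarith

lemma up {S : ℝ} (hS : 0 ≤ S)
    (hS1 : P.d * ((P.B + 2) * Real.exp (-(S * P.rho1))) ≤ P.D / 2) (κ : ℕ → ℕ) {q k' J : ℕ}
    (hq : q < J) (hJ : J < P.d) (y : ℕ → ℝ) (hy : ∀ i ≤ J, 0 < y i)
    (hF : P.F S (P.md κ q k') J y ≤ P.F S κ J y) (hv : P.N κ (q + 1) < P.val κ q k') :
    y (q + 1) ≤ 2 * Real.exp (S * P.grid k') := by
  have hB := P.hB
  set e := Real.exp (S * P.grid k') with he
  have he0 : 0 < e := Real.exp_pos _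
  have hr0 : 0 < Real.exp (-(S * P.rho1)) := Real.exp_pos _
  have h1 := P.F_diff hS κ (k' := k') hq hJ y (b := -((P.B + 2) * Real.exp (-(S * P.rho1)) * e))
    (by have : 0 ≤ (P.B + 2) * Real.exp (-(S * P.rho1)) * e := by positivity
        linarith) (by
    intro l h1 h2
    have h3 := P.gam_md_high κ q k' hS (show q + 1 ≤ l by omega) (show l + 1 < P.d by omega)
    have h4 : 0 ≤ P.gam S κ l := P.gm_nonneg S κ (by omega) _
    rw [P.N_md_high (show q + 1 ≤ l + 1 by omega)]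
    have h5 : P.N κ (l + 1) ≤ P.N κ (q + 1) := P.N_anti κ (by omega)
    have h6 := hy (l + 1) (by omega)
    have h7 : P.N κ (l + 1) * y (l + 1) ≤ P.val κ q k' * y (l + 1) :=
      mul_le_mul_of_nonneg_right (by linarith) h6.le
    linarith)
  have hgap : P.D ≤ P.val κ q k' - P.N κ (q + 1) := by
    rw [P.N_succ] at hv ⊢
    exact P.val_gap κ (by omega) hv
  rw [← he] at h1
  have hJd : (J : ℝ) ≤ P.d := by exact_mod_cast hJ.le
  have h2 : J * ((P.B + 2) * Real.exp (-(S * P.rho1)) * e) ≤ P.D / 2 * e := by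
    calc J * ((P.B + 2) * Real.exp (-(S * P.rho1)) * e)
        = (J * ((P.B + 2) * Real.exp (-(S * P.rho1)))) * e := by ring
      _ ≤ (P.d * ((P.B + 2) * Real.exp (-(S * P.rho1)))) * e := by
          apply mul_le_mul_of_nonneg_right _ he0.le
          apply mul_le_mul_of_nonneg_right hJd
          positivity
      _ ≤ _ := mul_le_mul_of_nonneg_right hS1 he0.le
  set w := P.val κ q k' - P.N κ (q + 1) with hw
  have hw0 : 0 < w := by linarith
  have h3 : w * (y (q + 1) - e) ≤ w * (e / 2) := by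
    have : P.D / 2 * e ≤ w * (e / 2) := by nlinarith
    linarith
  have h4 := le_of_mul_le_mul_left h3 hw0
  linarith

lemma down {S : ℝ} (hS : 0 ≤ S)
    (hS1 : P.d * ((P.B + 2) * Real.exp (-(S * P.rho1))) ≤ P.D / 2) (κ : ℕ → ℕ) {q k' J : ℕ}
    (hq : q < J) (hJ : J < P.d) (y : ℕ → ℝ) (hy : ∀ i ≤ J, 0 < y i)
    (hord : ∀ i, q + 1 < i → i ≤ J → y i ≤ y (q + 1))
    (hF : P.F S (P.md κ q k') J y ≤ P.F S κ J y) (hv : P.val κ q k' < P.N κ (q + 1)) :
    Real.exp (S * P.grid k') ≤ 2 * P.d * y (q + 1) := by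
  have hB := P.hB
  set e := Real.exp (S * P.grid k') with he
  have he0 : 0 < e := Real.exp_pos _
  have hr0 : 0 < Real.exp (-(S * P.rho1)) := Real.exp_pos _
  have hyq := hy (q + 1) (by omega)
  set w := P.N κ (q + 1) - P.val κ q k' with hw
  have hw0 : 0 < w := by linarith
  have h1 := P.F_diff hS κ (k' := k') hq hJ y
    (b := -((P.B + 2) * Real.exp (-(S * P.rho1)) * e) - w * y (q + 1))
    (by have : 0 ≤ (P.B + 2) * Real.exp (-(S * P.rho1)) * e := by positivity
        have : 0 ≤ w * y (q + 1) := by positivity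
        linarith) (by
    intro l h1 h2
    have h3 := P.gam_md_high κ q k' hS (show q + 1 ≤ l by omega) (show l + 1 < P.d by omega)
    have h4 : 0 ≤ P.gam S κ l := P.gm_nonneg S κ (by omega) _
    rw [P.N_md_high (show q + 1 ≤ l + 1 by omega)]
    have h5 : P.N κ (l + 1) ≤ P.N κ (q + 1) := P.N_anti κ (by omega)
    have h6 := hy (l + 1) (by omega)
    have h7 : (P.N κ (l + 1) - P.val κ q k') * y (l + 1) ≤ w * y (l + 1) :=
      mul_le_mul_of_nonneg_right (by linarith) h6.le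
    have h8 : w * y (l + 1) ≤ w * y (q + 1) :=
      mul_le_mul_of_nonneg_left (hord (l + 1) (by omega) (by omega)) hw0.le
    linarith)
  have hgap : P.D ≤ w := by
    rw [hw]
    rw [P.N_succ] at hv ⊢
    exact P.val_gap κ (by omega) hv
  rw [← he] at h1
  have hJd : (J : ℝ) ≤ P.d := by exact_mod_cast hJ.le
  have hJ1 : (J : ℝ) + 1 ≤ P.d := by exact_mod_cast hJ
  have h2 : J * ((P.B + 2) * Real.exp (-(S * P.rho1)) * e) ≤ P.D / 2 * e := by
    calc J * ((P.B + 2) * Real.exp (-(S * P.rho1)) * e)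
        = (J * ((P.B + 2) * Real.exp (-(S * P.rho1)))) * e := by ring
      _ ≤ (P.d * ((P.B + 2) * Real.exp (-(S * P.rho1)))) * e := by
          apply mul_le_mul_of_nonneg_right _ he0.le
          apply mul_le_mul_of_nonneg_right hJd
          positivity
      _ ≤ _ := mul_le_mul_of_nonneg_right hS1 he0.le
  have e1 : P.val κ q k' - P.N κ (q + 1) = -w := by rw [hw]; ring
  rw [e1] at h1
  have h3 : w * e ≤ w * ((J + 1) * y (q + 1) + e / 2) := by
    have : P.D / 2 * e ≤ w * (e / 2) := by nlinarith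
    nlinarith
  have h4 := le_of_mul_le_mul_left h3 hw0
  have h5 : ((J : ℝ) + 1) * y (q + 1) ≤ P.d * y (q + 1) :=
    mul_le_mul_of_nonneg_right hJ1 hyq.le
  linarith

lemma D_le : P.D ≤ 1 / 16 := by unfold D; linarith [P.rho1_le]

lemma exists_grid_above {a : ℝ} (ha : -P.B ≤ a) : ∃ k, a < P.grid k ∧ P.grid k ≤ a + P.D := by
  have hD := P.D_pos
  refine ⟨⌊(a + P.B) / P.D⌋₊ + 1, ?_, ?_⟩
  · have h := Nat.lt_floor_add_one ((a + P.B) / P.D)
    rw [div_lt_iff₀ hD] at h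
    unfold grid; push_cast; linarith
  · have h := Nat.floor_le (a := (a + P.B) / P.D) (div_nonneg (by linarith) hD.le)
    rw [le_div_iff₀ hD] at h
    unfold grid; push_cast; linarith

lemma exists_grid_below {b : ℝ} (hb : -P.B < b) : ∃ k, P.grid k < b ∧ b - P.D ≤ P.grid k := by
  have hD := P.D_pos
  have hpos : 0 < (b + P.B) / P.D := div_pos (by linarith) hD
  have hc := Nat.ceil_pos.mpr hpos
  obtain ⟨k, hk⟩ : ∃ k, ⌈(b + P.B) / P.D⌉₊ = k + 1 := ⟨_, (Nat.succ_pred_eq_of_pos hc).symm⟩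
  refine ⟨k, ?_, ?_⟩
  · have h : k < ⌈(b + P.B) / P.D⌉₊ := by omega
    rw [Nat.lt_ceil, lt_div_iff₀ hD] at h
    unfold grid; linarith
  · have h := Nat.le_ceil ((b + P.B) / P.D)
    rw [hk, div_le_iff₀ hD] at h
    push_cast at h
    unfold grid; linarith

lemma le_Lg {k : ℕ} (h : P.grid k ≤ 3) : k ≤ P.Lg := by
  by_contra hcon
  push Not at hcon
  have := P.grid_add_D_le hcon
  linarith [P.three_le_grid_Lg, P.D_pos]

lemma up_target (κ : ℕ → ℕ) {q : ℕ} (hq : q + 1 < P.d) (hlt : P.N κ (q + 1) < P.N κ q) :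
    ∃ k' ≤ P.Lg, P.N κ (q + 1) < P.val κ q k' ∧
      P.grid k' ≤ P.N κ (q + 1) + P.rho κ (q + 1) - 7 * P.D := by
  have hD := P.D_pos
  have hDle := P.D_le
  have hE1 := P.E_le_one κ hq
  have hE16 := P.sixteen_D_le_E κ q
  have hv1 : P.N κ (q + 1) ≤ 1 := (P.N_le_sigma κ _).trans P.sigma_le_one
  by_cases hm : P.N κ (q + 1) ∈ P.Z κ q
  · rw [P.rho_succ_of_mem hm]
    have h1 : -P.B ≤ P.N κ (q + 1) + P.E κ q := by
      have h2 := P.le_val κ q (κ (q + 1))
      rw [← P.N_succ] at h2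
      rcases min_le_iff.mp h2 with h3 | h3
      · linarith
      · linarith [P.neg_B_le_grid (κ (q + 1))]
    obtain ⟨k, hk1, hk2⟩ := P.exists_grid_above h1
    refine ⟨k, P.le_Lg (by linarith), ?_, by linarith⟩
    refine lt_of_lt_of_le (lt_min hlt ?_) (P.le_val κ q k)
    linarith
  · have hval := P.N_succ κ q
    have hm' := hm
    rw [hval] at hm'
    obtain ⟨f1, f2, f3⟩ := rnd_free (P.top_mem κ q) hm'
    have hg : P.N κ (q + 1) = P.grid (κ (q + 1)) := by rw [hval]; exact f1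
    have hrho := (P.rho1_le_rho κ (q + 1)).1
    have hr1 := P.rho1_eq
    have hgs := P.grid_succ (κ (q + 1))
    refine ⟨κ (q + 1) + 1, P.le_Lg (by linarith), ?_, by linarith⟩
    refine lt_of_le_of_ne ?_ ?_
    · rw [hval]; exact P.val_mono κ hq (Nat.le_succ _)
    · intro heq
      rcases rnd_cases (P.Z κ q) (P.N κ q) (P.E κ q) (P.grid (κ (q + 1) + 1)) with
        ⟨c1, c2⟩ | ⟨c1, c2, c3⟩ | ⟨c1, c2, c3⟩
      · have : P.val κ q (κ (q + 1) + 1) = P.N κ q := c2
        linarith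
      · apply hm; rw [heq]; exact c2
      · have : P.val κ q (κ (q + 1) + 1) = P.grid (κ (q + 1) + 1) := c2
        linarith

lemma down_target (κ : ℕ → ℕ) {q : ℕ} (hq : q + 1 < P.d) :
    (∃ k' ≤ P.Lg, P.val κ q k' < P.N κ (q + 1) ∧
      P.N κ (q + 1) - P.rho κ (q + 1) + 7 * P.D ≤ P.grid k') ∨ P.N κ (q + 1) ≤ -P.B + 1 := by
  have hD := P.D_pos
  have hDle := P.D_le
  have hE1 := P.E_le_one κ hq
  have hE16 := P.sixteen_D_le_E κ q
  have hv1 : P.N κ (q + 1) ≤ 1 := (P.N_le_sigma κ _).trans P.sigma_le_one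
  by_cases hm : P.N κ (q + 1) ∈ P.Z κ q
  · rw [P.rho_succ_of_mem hm]
    by_cases hb : P.N κ (q + 1) - P.E κ q ≤ -P.B
    · right; linarith
    · left
      push Not at hb
      obtain ⟨k, hk1, hk2⟩ := P.exists_grid_below hb
      refine ⟨k, P.le_Lg (by linarith), ?_, by linarith⟩
      linarith [P.val_le_add κ q k]
  · have hval := P.N_succ κ q
    have hm' := hm
    rw [hval] at hm'
    obtain ⟨f1, f2, f3⟩ := rnd_free (P.top_mem κ q) hm'
    have hg : P.N κ (q + 1) = P.grid (κ (q + 1)) := by rw [hval]; exact f1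
    have hrho := (P.rho1_le_rho κ (q + 1)).1
    have hr1 := P.rho1_eq
    rcases Nat.eq_zero_or_pos (κ (q + 1)) with h0 | h0
    · right
      rw [hg, h0, P.grid_zero]; linarith
    · left
      obtain ⟨k, hk⟩ : ∃ k, κ (q + 1) = k + 1 := ⟨_, (Nat.succ_pred_eq_of_pos h0).symm⟩
      have hgs := P.grid_succ k
      rw [← hk] at hgs
      refine ⟨k, P.le_Lg (by linarith), ?_, by linarith⟩
      refine lt_of_le_of_ne ?_ ?_
      · rw [hval]; exact P.val_mono κ hq (by omega)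
      · intro heq
        rcases rnd_cases (P.Z κ q) (P.N κ q) (P.E κ q) (P.grid k) with
          ⟨c1, c2⟩ | ⟨c1, c2, c3⟩ | ⟨c1, c2, c3⟩
        · linarith
        · apply hm; rw [← heq]; exact c2
        · have : P.val κ q k = P.grid k := c2
          linarith

lemma F_swap (S : ℝ) (κ : ℕ → ℕ) {J a b : ℕ} (ha : a ≤ J) (hb : b ≤ J) (y : ℕ → ℝ) :
    P.F S κ J (y ∘ Equiv.swap a b) = P.F S κ J y + (P.N κ a - P.N κ b) * (y b - y a) := by
  by_cases hab : a = b
  · subst hab; simp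
  have h1 : ∑ i ∈ range (J + 1), P.N κ i * (y ∘ Equiv.swap a b) i =
      ∑ i ∈ range (J + 1), P.N κ i * y i + (P.N κ a - P.N κ b) * (y b - y a) := by
    have h2 : ∑ i ∈ range (J + 1), (P.N κ i * (y ∘ Equiv.swap a b) i - P.N κ i * y i) =
        ∑ i ∈ ({a, b} : Finset ℕ), (P.N κ i * (y ∘ Equiv.swap a b) i - P.N κ i * y i) := by
      symm
      apply sum_subset
      · intro i hi
        simp only [mem_insert, mem_singleton] at hi
        rw [mem_range]; omega
      · intro i _ hi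
        simp only [mem_insert, mem_singleton, not_or] at hi
        simp [Equiv.swap_apply_of_ne_of_ne hi.1 hi.2]
    rw [sum_sub_distrib, sum_pair hab] at h2
    simp only [Function.comp, Equiv.swap_apply_left, Equiv.swap_apply_right] at h2 ⊢
    linarith
  unfold F
  rw [h1]; ring

section core

variable {P}
variable {J : ℕ} (hJ : J < P.d) {S : ℝ} (hS : 0 ≤ S)
  (hS1 : P.d * ((P.B + 2) * Real.exp (-(S * P.rho1))) ≤ P.D / 2)
  (hS2 : Real.log (2 * P.d) ≤ 7 * P.D * S)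
  {y : ℕ → ℝ} (hy : ∀ i ≤ J, 0 < y i) (hylow : ∀ i ≤ J, -(P.B - 2) * S ≤ Real.log (y i))
  (hall : ∀ a b, a ≤ J → b ≤ J → ∀ κ', (∀ i, κ' i ≤ P.Lg) →
    P.F S κ' J (y ∘ Equiv.swap a b) ≤ P.σ * Real.exp (P.σ * S))
  {κ : ℕ → ℕ} (hκ : ∀ i, κ i ≤ P.Lg) (hact : P.F S κ J y = P.σ * Real.exp (P.σ * S))

include hall hκ hact

lemma order {a b : ℕ} (ha : a ≤ J) (hb : b ≤ J) (h : P.N κ b < P.N κ a) : y b ≤ y a := by
  have h1 := hall a b ha hb κ hκ
  rw [P.F_swap S κ ha hb y, hact] at h1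
  by_contra hcon
  push Not at hcon
  have : 0 < (P.N κ a - P.N κ b) * (y b - y a) := mul_pos (by linarith) (by linarith)
  linarith

omit hκ hact in
include hJ hS hS1 hy in
lemma all_ties : P.σ * ∑ i ∈ range (J + 1), y i ≤
    (P.σ + P.D / 2) * Real.exp (P.σ * S) := by
  have h1 := hall 0 0 (Nat.zero_le _) (Nat.zero_le _) (fun _ => P.Lg) (fun _ => le_rfl)
  simp only [Equiv.swap_self, Equiv.coe_refl, Function.comp_id] at h1
  have hB := P.hB
  have hN : ∀ l, P.N (fun _ => P.Lg) l = P.σ := by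
    intro l
    induction l with
    | zero => rfl
    | succ l ih => rw [P.N_succ, P.val_Lg, ih]
  have h2 : ∑ l ∈ range J, P.gam S (fun _ => P.Lg) l ≤ P.D / 2 * Real.exp (P.σ * S) := by
    have h3 : ∀ l ∈ range J, P.gam S (fun _ => P.Lg) l ≤
        (P.B + 2) * Real.exp (-(S * P.rho1)) * Real.exp (P.σ * S) := by
      intro l hl
      have hlJ := mem_range.mp hl
      refine (P.gm_le hS _ (show l + 1 < P.d by omega) _).trans ?_
      rw [mul_assoc, ← Real.exp_add]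
      apply mul_le_mul_of_nonneg_left _ (by linarith)
      apply Real.exp_le_exp.mpr
      rw [hN]
      have h4 := P.sixteen_D_le_E (fun _ => P.Lg) l
      have h5 := P.rho1_eq
      have h6 := P.D_pos
      have h7 : P.σ - P.E (fun _ => P.Lg) l + P.D ≤ P.σ - P.rho1 := by linarith
      have := mul_le_mul_of_nonneg_left h7 hS
      linarith
    refine (sum_le_sum h3).trans ?_
    rw [sum_const, card_range, nsmul_eq_mul]
    calc (J : ℝ) * ((P.B + 2) * Real.exp (-(S * P.rho1)) * Real.exp (P.σ * S))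
        = (J * ((P.B + 2) * Real.exp (-(S * P.rho1)))) * Real.exp (P.σ * S) := by ring
      _ ≤ (P.d * ((P.B + 2) * Real.exp (-(S * P.rho1)))) * Real.exp (P.σ * S) := by
          apply mul_le_mul_of_nonneg_right _ (Real.exp_pos _).le
          apply mul_le_mul_of_nonneg_right (by exact_mod_cast hJ.le)
          positivity
      _ ≤ _ := mul_le_mul_of_nonneg_right hS1 (Real.exp_pos _).le
  unfold F at h1
  have h3 : ∑ i ∈ range (J + 1), P.N (fun _ => P.Lg) i * y i = P.σ * ∑ i ∈ range (J + 1), y i := by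
    rw [mul_sum]; exact sum_congr rfl (fun i _ => by rw [hN])
  rw [h3] at h1
  linarith

omit hall hκ in
include hJ in
lemma act_eq_le : P.σ * Real.exp (P.σ * S) ≤ ∑ i ∈ range (J + 1), P.N κ i * y i := by
  have h1 : 0 ≤ ∑ l ∈ range J, P.gam S κ l := sum_nonneg (fun l hl =>
    P.gm_nonneg S κ (by have := mem_range.mp hl; omega) _)
  unfold F at hact
  linarith

include hJ hS hS1 hy in
lemma upper0 {r : ℕ} (hr : r ≤ J) : y r ≤ 2 * Real.exp (P.σ * S) := by
  have hsingle : y r ≤ ∑ i ∈ range (J + 1), y i :=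
    single_le_sum (f := y) (fun i hi => (hy i (by have := mem_range.mp hi; omega)).le)
      (mem_range.mpr (by omega))
  have he := Real.exp_pos (P.σ * S)
  rcases P.hσ with hσ | hσ
  · have h1 := all_ties hJ hS hS1 hy hall
    have := P.D_le
    rw [hσ] at h1 he ⊢
    nlinarith
  · have h1 := act_eq_le hJ hact
    have h2 : ∑ i ∈ range (J + 1), P.N κ i * y i ≤ ∑ i ∈ range (J + 1), (-1) * y i := by
      apply sum_le_sum
      intro i hi
      have h3 := P.N_le_sigma κ i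
      rw [hσ] at h3
      exact mul_le_mul_of_nonneg_right h3 (hy i (by have := mem_range.mp hi; omega)).le
    rw [← mul_sum] at h2
    rw [hσ] at h1 he ⊢
    linarith

include hJ hS hS1 hy in
lemma lower0 (hlt : ∀ i, 1 ≤ i → i ≤ J → P.N κ i < P.N κ 0) :
    Real.exp (P.σ * S) ≤ 2 * P.d * y 0 := by
  have hle : ∑ i ∈ range (J + 1), y i ≤ P.d * y 0 := by
    have h1 : ∑ i ∈ range (J + 1), y i ≤ ∑ i ∈ range (J + 1), y 0 := by
      apply sum_le_sum
      intro i hi
      have hi' := mem_range.mp hi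
      rcases Nat.eq_zero_or_pos i with h0 | h0
      · rw [h0]
      · exact order hall hκ hact (Nat.zero_le _) (by omega) (hlt i h0 (by omega))
    rw [sum_const, card_range, nsmul_eq_mul] at h1
    refine h1.trans (mul_le_mul_of_nonneg_right ?_ (hy 0 (Nat.zero_le _)).le)
    exact_mod_cast hJ
  have he := Real.exp_pos (P.σ * S)
  have hy0 := hy 0 (Nat.zero_le _)
  have hd0 : (0 : ℝ) ≤ P.d * y 0 := by positivity
  rcases P.hσ with hσ | hσ
  · have h1 := act_eq_le hJ hact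
    have h2 : ∑ i ∈ range (J + 1), P.N κ i * y i ≤ ∑ i ∈ range (J + 1), 1 * y i := by
      apply sum_le_sum
      intro i hi
      have h3 := P.N_le_sigma κ i
      rw [hσ] at h3
      exact mul_le_mul_of_nonneg_right h3 (hy i (by have := mem_range.mp hi; omega)).le
    rw [← mul_sum] at h2
    rw [hσ] at h1 he ⊢
    linarith
  · have h1 := all_ties hJ hS hS1 hy hall
    have := P.D_le
    rw [hσ] at h1 he ⊢
    nlinarith

include hJ hS hS1 hS2 hy in
lemma core_upper {r : ℕ} (hr : r ≤ J) : Real.log (y r) ≤ S * (P.N κ r + P.rho κ J) := by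
  classical
  have hlog2 : Real.log 2 ≤ 7 * P.D * S := by
    refine le_trans (Real.log_le_log (by norm_num) ?_) hS2
    have : (1 : ℝ) ≤ P.d := by exact_mod_cast (show 1 ≤ P.d by omega)
    linarith
  have hyr := hy r hr
  have hex : ∃ r0, P.N κ r0 = P.N κ r := ⟨r, rfl⟩
  obtain ⟨hr0, hmin⟩ : P.N κ (Nat.find hex) = P.N κ r ∧
      ∀ m < Nat.find hex, P.N κ m ≠ P.N κ r :=
    ⟨Nat.find_spec hex, fun m hm => Nat.find_min hex hm⟩
  have hle : Nat.find hex ≤ r := Nat.find_min' hex rfl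
  generalize Nat.find hex = r0 at hr0 hmin hle
  rcases r0 with _ | q
  · rw [N_zero] at hr0
    have h1 := upper0 hJ hS hS1 hy hall hκ hact hr
    have h2 := Real.log_le_log hyr h1
    rw [Real.log_mul (by norm_num) (Real.exp_pos _).ne', Real.log_exp] at h2
    have h3 := (P.rho1_le_rho κ J).1
    rw [P.rho1_eq] at h3
    have h4 := P.D_pos
    have h5 : 7 * P.D * S ≤ P.rho κ J * S := mul_le_mul_of_nonneg_right (by linarith) hS
    rw [← hr0]
    nlinarith
  · have hqlt : P.N κ (q + 1) < P.N κ q :=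
      lt_of_le_of_ne (P.N_anti κ (Nat.le_succ q)) (by
        rw [hr0]; exact (hmin q (Nat.lt_succ_self q)).symm)
    obtain ⟨k', hk1, hk2, hk3⟩ := P.up_target κ (show q + 1 < P.d by omega) hqlt
    have hq1 : q + 1 ≤ J := by omega
    have h1 := P.up hS hS1 κ (k' := k') (show q < J by omega) hJ (y ∘ Equiv.swap (q + 1) r) (by
      intro i hi
      simp only [Function.comp]
      rcases eq_or_ne i (q + 1) with h | h
      · rw [h, Equiv.swap_apply_left]; exact hyr
      · rcases eq_or_ne i r with h' | h'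
        · rw [h', Equiv.swap_apply_right]; exact hy _ hq1
        · rw [Equiv.swap_apply_of_ne_of_ne h h']; exact hy i hi) (by
      rw [P.F_swap S κ hq1 hr y, hr0, sub_self, zero_mul, add_zero, hact]
      exact hall (q + 1) r hq1 hr _ (P.md_le hκ hk1)) hk2
    simp only [Function.comp, Equiv.swap_apply_left] at h1
    have h2 := Real.log_le_log hyr h1
    rw [Real.log_mul (by norm_num) (Real.exp_pos _).ne', Real.log_exp] at h2
    have h3 := P.rho_mono κ hq1
    have h5 : P.grid k' ≤ P.N κ r + P.rho κ J - 7 * P.D := by rw [← hr0]; linarith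
    have h6 := mul_le_mul_of_nonneg_left h5 hS
    linarith

include hJ hS hS1 hS2 hy hylow in
lemma core_lower {r : ℕ} (hr : r ≤ J) : S * (P.N κ r - P.rho κ J) ≤ Real.log (y r) := by
  classical
  have hyr := hy r hr
  have hd1 : (1 : ℝ) ≤ P.d := by exact_mod_cast (show 1 ≤ P.d by omega)
  have hspec : P.N κ (Nat.findGreatest (fun i => P.N κ i = P.N κ r) J) = P.N κ r :=
    Nat.findGreatest_spec (P := fun i => P.N κ i = P.N κ r) hr rfl
  have hrle : r ≤ Nat.findGreatest (fun i => P.N κ i = P.N κ r) J :=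
    Nat.le_findGreatest hr rfl
  have hleJ : Nat.findGreatest (fun i => P.N κ i = P.N κ r) J ≤ J := Nat.findGreatest_le J
  have hgt : ∀ i, Nat.findGreatest (fun i => P.N κ i = P.N κ r) J < i → i ≤ J →
      P.N κ i ≠ P.N κ r := fun i h1 h2 => Nat.findGreatest_is_greatest h1 h2
  generalize Nat.findGreatest (fun i => P.N κ i = P.N κ r) J = r1 at hspec hrle hleJ hgt
  have hlt : ∀ i, r1 < i → i ≤ J → P.N κ i < P.N κ r := by
    intro i h1 h2
    refine lt_of_le_of_ne ?_ (hgt i h1 h2)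
    rw [← hspec]; exact P.N_anti κ h1.le
  rcases r1 with _ | q
  · obtain rfl : r = 0 := by omega
    have h1 := lower0 hJ hS hS1 hy hall hκ hact (fun i h1 h2 => hlt i (by omega) h2)
    have h2 := Real.log_le_log (Real.exp_pos _) h1
    rw [Real.log_mul (by positivity) hyr.ne', Real.log_exp] at h2
    have h3 := (P.rho1_le_rho κ J).1
    rw [P.rho1_eq] at h3
    have h4 := P.D_pos
    have h5 : 7 * P.D * S ≤ P.rho κ J * S := mul_le_mul_of_nonneg_right (by linarith) hS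
    rw [N_zero]
    nlinarith
  · have hrho := (P.rho_pos κ J)
    rcases P.down_target κ (show q + 1 < P.d by omega) with ⟨k', hk1, hk2, hk3⟩ | hlow
    · have h1 := P.down hS hS1 κ (k' := k') (show q < J by omega) hJ
        (y ∘ Equiv.swap (q + 1) r) (by
        intro i hi
        simp only [Function.comp]
        rcases eq_or_ne i (q + 1) with h | h
        · rw [h, Equiv.swap_apply_left]; exact hyr
        · rcases eq_or_ne i r with h' | h'
          · rw [h', Equiv.swap_apply_right]; exact hy _ hleJ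
          · rw [Equiv.swap_apply_of_ne_of_ne h h']; exact hy i hi) (by
        intro i h1 h2
        simp only [Function.comp, Equiv.swap_apply_left]
        rw [Equiv.swap_apply_of_ne_of_ne (by omega) (by omega)]
        exact order hall hκ hact hr h2 (hlt i h1 h2)) (by
        rw [P.F_swap S κ hleJ hr y, hspec, sub_self, zero_mul, add_zero, hact]
        exact hall (q + 1) r hleJ hr _ (P.md_le hκ hk1)) hk2
      simp only [Function.comp, Equiv.swap_apply_left] at h1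
      have h2 := Real.log_le_log (Real.exp_pos _) h1
      rw [Real.log_mul (by positivity) hyr.ne', Real.log_exp] at h2
      have h3 := P.rho_mono κ hleJ
      have h5 : P.N κ r - P.rho κ J + 7 * P.D ≤ P.grid k' := by rw [← hspec]; linarith
      have h6 := mul_le_mul_of_nonneg_left h5 hS
      linarith
    · have h1 := hylow r hr
      rw [hspec] at hlow
      have h2 : P.N κ r - P.rho κ J ≤ -(P.B - 2) := by linarith
      have h3 := mul_le_mul_of_nonneg_left h2 hS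
      linarith

include hJ hS hS1 hS2 hy hylow in
/-- the main margin estimate -/
lemma core_margin {Λ : ℕ} (hΛ : 2 * P.d * Λ ≤ P.c0) (w : ℕ → ℤ)
    (hw : ∀ i ≤ J, |w i| ≤ (Λ : ℤ)) (hpos : 0 < ∑ i ∈ range (J + 1), (w i : ℝ) * P.N κ i) :
    S * P.rho1 ≤ ∑ i ∈ range (J + 1), (w i : ℝ) * Real.log (y i) := by
  have hd1 : 1 ≤ P.d := by omega
  have hΛc : Λ ≤ P.c0 := by nlinarith
  have hc0 := P.c0_le_cc (P.d - (J + 1))
  have hH := P.H κ J hJ w (fun i hi => (hw i hi).trans (by exact_mod_cast hΛc.trans hc0))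
  have hrho := P.rho_pos κ J
  have hrho1 := (P.rho1_le_rho κ J).1
  have h1 : (P.c0 : ℝ) * P.rho κ J ≤ ∑ i ∈ range (J + 1), (w i : ℝ) * P.N κ i := by
    rcases hH with h | h
    · linarith
    · rw [abs_of_pos hpos] at h
      refine le_trans ?_ h
      apply mul_le_mul_of_nonneg_right _ hrho.le
      exact_mod_cast hc0
  have h2 : ∑ i ∈ range (J + 1), (w i : ℝ) * Real.log (y i) =
      S * ∑ i ∈ range (J + 1), (w i : ℝ) * P.N κ i +
      ∑ i ∈ range (J + 1), (w i : ℝ) * (Real.log (y i) - S * P.N κ i) := by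
    rw [mul_sum, ← sum_add_distrib]
    apply sum_congr rfl
    intro i _; ring
  have h3 : -((P.d : ℝ) * (Λ * (S * P.rho κ J))) ≤
      ∑ i ∈ range (J + 1), (w i : ℝ) * (Real.log (y i) - S * P.N κ i) := by
    have h4 : ∀ i ∈ range (J + 1), -((Λ : ℝ) * (S * P.rho κ J)) ≤
        (w i : ℝ) * (Real.log (y i) - S * P.N κ i) := by
      intro i hi
      have hi' : i ≤ J := by have := mem_range.mp hi; omega
      have hu := core_upper hJ hS hS1 hS2 hy hall hκ hact hi'
      have hl := core_lower hJ hS hS1 hS2 hy hylow hall hκ hact hi'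
      have habs : |Real.log (y i) - S * P.N κ i| ≤ S * P.rho κ J := by
        rw [abs_le]; constructor <;> linarith
      have hwi : |(w i : ℝ)| ≤ Λ := by exact_mod_cast hw i hi'
      have : |(w i : ℝ) * (Real.log (y i) - S * P.N κ i)| ≤ (Λ : ℝ) * (S * P.rho κ J) := by
        rw [abs_mul]
        exact mul_le_mul hwi habs (abs_nonneg _) (by positivity)
      exact (abs_le.mp this).1
    have h5 := sum_le_sum h4
    rw [sum_const, card_range, nsmul_eq_mul] at h5
    refine le_trans ?_ h5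
    have hJd : ((J + 1 : ℕ) : ℝ) ≤ P.d := by exact_mod_cast hJ
    have h6 : 0 ≤ (Λ : ℝ) * (S * P.rho κ J) := by positivity
    nlinarith
  have hΛ' : 2 * (P.d : ℝ) * Λ ≤ P.c0 := by exact_mod_cast hΛ
  have hc2 : (2 : ℝ) ≤ P.c0 := by exact_mod_cast P.hc0
  have hSr : 0 ≤ S * P.rho κ J := by positivity
  have h6 : S * P.rho1 ≤ S * P.rho κ J := mul_le_mul_of_nonneg_left hrho1 hS
  have h7 : S * ((P.c0 : ℝ) * P.rho κ J) ≤ S * ∑ i ∈ range (J + 1), (w i : ℝ) * P.N κ i :=
    mul_le_mul_of_nonneg_left h1 hS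
  rw [h2]
  have h8 : 2 * (P.d : ℝ) * Λ * (S * P.rho κ J) ≤ P.c0 * (S * P.rho κ J) :=
    mul_le_mul_of_nonneg_right hΛ' hSr
  have h9 : 2 * (S * P.rho κ J) ≤ P.c0 * (S * P.rho κ J) :=
    mul_le_mul_of_nonneg_right hc2 hSr
  linarith

end core

lemma F_congr (S : ℝ) {κ κ' : ℕ → ℕ} {J : ℕ} (h : ∀ i ≤ J, κ i = κ' i) (y : ℕ → ℝ) :
    P.F S κ J y = P.F S κ' J y := by
  unfold F
  congr 1
  · apply sum_congr rfl
    intro i hi
    have hi' := mem_range.mp hi
    rw [P.N_congr (κ := κ) (κ' := κ') (fun j _ hj => h j (by omega))]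
  · apply sum_congr rfl
    intro l hl
    have hl' := mem_range.mp hl
    unfold gam
    rw [h (l + 1) (by omega)]
    exact P.gm_congr S (fun j _ hj => h j (by omega)) _

lemma cc_congr {P P' : Par} (h : P.c0 = P'.c0) (k : ℕ) : P.cc k = P'.cc k := by
  induction k with
  | zero => exact h
  | succ k ih => rw [cc_succ, cc_succ, ih]

lemma rho1_congr {P P' : Par} (h : P.c0 = P'.c0) (hd : P.d = P'.d) : P.rho1 = P'.rho1 := by
  unfold rho1 cL
  rw [hd, cc_congr h]

end Par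

/-! ### Positions -/

section positions

variable {d : ℕ}

/-- values along the positions of a permutation -/
def pos {α : Type} [Zero α] (z : Fin d → α) (π : Equiv.Perm (Fin d)) (i : ℕ) : α :=
  if h : i < d then z (π ⟨i, h⟩) else 0

lemma pos_of_lt {α : Type} [Zero α] (z : Fin d → α) (π : Equiv.Perm (Fin d)) {i : ℕ} (h : i < d) :
    pos z π i = z (π ⟨i, h⟩) := dif_pos h

lemma sum_univ_pos (z : Fin d → ℝ) (π : Equiv.Perm (Fin d)) :
    ∑ a, z a = ∑ i ∈ range d, pos z π i := by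
  rw [← Equiv.sum_comp π, ← Fin.sum_univ_eq_sum_range]
  apply sum_congr rfl
  intro i _
  rw [pos_of_lt _ _ i.2]

lemma sum_pos_nv {J : ℕ} (hJ : J < d) (π : Equiv.Perm (Fin d)) (n : ℕ → ℝ) (z : Fin d → ℝ) :
    ∑ a, (if (π.symm a : ℕ) ≤ J then n (π.symm a) else 0) * z a =
      ∑ i ∈ range (J + 1), n i * pos z π i := by
  rw [sum_univ_pos _ π]
  have h1 : range (J + 1) ⊆ range d := by
    intro i hi; rw [mem_range] at *; omega
  rw [← sum_subset h1 (f := fun i => pos (fun a => (if (π.symm a : ℕ) ≤ J then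
      n (π.symm a) else 0) * z a) π i)]
  · apply sum_congr rfl
    intro i hi
    have hi' := mem_range.mp hi
    rw [pos_of_lt _ _ (show i < d by omega), pos_of_lt _ _ (show i < d by omega)]
    simp only [Equiv.symm_apply_apply]
    rw [if_pos (by omega)]
  · intro i hi hi2
    rw [mem_range] at hi hi2
    rw [pos_of_lt _ _ hi]
    simp only [Equiv.symm_apply_apply]
    rw [if_neg (by omega), zero_mul]

lemma pos_swap {α : Type} [Zero α] (z : Fin d → α) (π : Equiv.Perm (Fin d)) {a b : ℕ}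
    (ha : a < d) (hb : b < d) :
    pos z ((Equiv.swap (⟨a, ha⟩ : Fin d) ⟨b, hb⟩).trans π) = pos z π ∘ Equiv.swap a b := by
  funext i
  simp only [Function.comp]
  by_cases hi : i < d
  · rw [pos_of_lt _ _ hi]
    simp only [Equiv.trans_apply]
    rcases eq_or_ne i a with h | h
    · subst h
      rw [Equiv.swap_apply_left, Equiv.swap_apply_left, pos_of_lt _ _ hb]
    · rcases eq_or_ne i b with h' | h'
      · subst h'
        rw [Equiv.swap_apply_right, Equiv.swap_apply_right, pos_of_lt _ _ ha]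
      · rw [Equiv.swap_apply_of_ne_of_ne h h', Equiv.swap_apply_of_ne_of_ne, pos_of_lt _ _ hi]
        · intro h2; exact h (Fin.mk.inj_iff.mp h2)
        · intro h2; exact h' (Fin.mk.inj_iff.mp h2)
  · have h1 : i ≠ a := by omega
    have h2 : i ≠ b := by omega
    rw [Equiv.swap_apply_of_ne_of_ne h1 h2]
    unfold pos
    rw [dif_neg hi, dif_neg hi]

/-- extend a finite index -/
def ext {L : ℕ} (κ : Fin d → Fin (L + 1)) (i : ℕ) : ℕ := if h : i < d then (κ ⟨i, h⟩ : ℕ) else 0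

lemma ext_le {L : ℕ} (κ : Fin d → Fin (L + 1)) (i : ℕ) : ext κ i ≤ L := by
  unfold ext
  split_ifs with h
  · exact Nat.lt_succ_iff.mp (κ ⟨i, h⟩).2
  · exact Nat.zero_le _

/-- normal vector of a constraint -/
noncomputable def nvec (P : Par) (J : ℕ) (π : Equiv.Perm (Fin d)) (κ : ℕ → ℕ) : Fin d → ℝ :=
  fun a => if (π.symm a : ℕ) ≤ J then P.N κ (π.symm a) else 0

/-- height of a constraint -/
noncomputable def hgt (P : Par) (J : ℕ) (κ : ℕ → ℕ) (S : ℝ) : ℝ :=
  P.σ * Real.exp (P.σ * S) + ∑ l ∈ range J, P.gam S κ l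

lemma con_eq (P : Par) {J : ℕ} (hJ : J < d) (π : Equiv.Perm (Fin d)) (κ : ℕ → ℕ) (S : ℝ)
    (x : Fin d → ℝ) : ∑ a, nvec P J π κ a * x a - hgt P J κ S =
      P.F S κ J (pos x π) - P.σ * Real.exp (P.σ * S) := by
  have h := sum_pos_nv hJ π (P.N κ) x
  unfold nvec hgt Par.F
  rw [h]; ring

lemma hgt_continuous (P : Par) (J : ℕ) (κ : ℕ → ℕ) : Continuous (hgt P J κ) := by
  unfold hgt Par.gam Par.gm
  fun_prop

/-- all constraints of a given level -/
def Con (P : Par) (J : ℕ) (S : ℝ) (x : Fin d → ℝ) : Prop :=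
  ∀ (π : Equiv.Perm (Fin d)) (κ : ℕ → ℕ), (∀ i, κ i ≤ P.Lg) →
    P.F S κ J (pos x π) ≤ P.σ * Real.exp (P.σ * S)

lemma con_of_idx (P : Par) {J : ℕ} (hJ : J < d) {S : ℝ} {x : Fin d → ℝ}
    (h : ∀ (π : Equiv.Perm (Fin d)) (κ : Fin d → Fin (P.Lg + 1)),
      ∑ a, nvec P J π (ext κ) a * x a ≤ hgt P J (ext κ) S) : Con P J S x := by
  intro π κ hκ
  have h1 := h π (fun i => ⟨κ i, Nat.lt_succ_iff.mpr (hκ i)⟩)
  have h2 := con_eq P hJ π (ext (fun i : Fin d => (⟨κ i, Nat.lt_succ_iff.mpr (hκ i)⟩ :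
    Fin (P.Lg + 1)))) S x
  rw [P.F_congr S (κ' := κ) (fun i hi => by unfold ext; rw [dif_pos (by omega)])] at h2
  linarith

lemma con_hall {P : Par} {J : ℕ} (hJ : J < d) {S : ℝ} {x : Fin d → ℝ} (h : Con P J S x)
    (π : Equiv.Perm (Fin d)) : ∀ a b, a ≤ J → b ≤ J → ∀ κ', (∀ i, κ' i ≤ P.Lg) →
    P.F S κ' J (pos x π ∘ Equiv.swap a b) ≤ P.σ * Real.exp (P.σ * S) := by
  intro a b ha hb κ' hκ'
  rw [← pos_swap x π (show a < d by omega) (show b < d by omega)]
  exact h _ κ' hκ'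

lemma con_low {P : Par} (hσ : P.σ = -1) {S : ℝ} {x : Fin d → ℝ} (h : Con P 0 S x) (a : Fin d) :
    Real.exp (-S) ≤ x a := by
  have hd : 0 < d := Fin.pos a
  have h1 := h (Equiv.swap ⟨0, hd⟩ a) (fun _ => 0) (fun _ => Nat.zero_le _)
  unfold Par.F at h1
  simp only [zero_add, range_one, sum_singleton, Par.N_zero, range_zero, sum_empty, sub_zero,
    hσ] at h1
  rw [pos_of_lt _ _ hd, Equiv.swap_apply_left] at h1
  have e : -1 * S = -S := by ring
  rw [e] at h1
  linarith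

lemma sum_pos_le {x : Fin d → ℝ} (hx : ∀ a, 0 < x a) (π : Equiv.Perm (Fin d)) {J : ℕ}
    (hJ : J < d) : ∑ i ∈ range (J + 1), pos x π i ≤ ∑ a, x a := by
  rw [sum_univ_pos x π]
  apply sum_le_sum_of_subset_of_nonneg
  · intro i hi; rw [mem_range] at *; omega
  · intro i hi _
    rw [pos_of_lt _ _ (mem_range.mp hi)]
    exact (hx _).le

lemma con_high {P : Par} (hPd : P.d = d) (hσ : P.σ = 1) {S : ℝ} (hS : 0 ≤ S)
    (hS1 : P.d * ((P.B + 2) * Real.exp (-(S * P.rho1))) ≤ P.D / 2) {x : Fin d → ℝ}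
    (hx : ∀ a, 0 < x a) (h : Con P (d - 1) S x) (a : Fin d) : x a ≤ 2 * Real.exp S := by
  have hd : 0 < d := Fin.pos a
  have h1 := Par.all_ties (P := P) (J := d - 1) (by omega) hS hS1 (y := pos x (Equiv.refl _))
    (fun i hi => by rw [pos_of_lt _ _ (show i < d by omega)]; exact hx _)
    (con_hall (by omega) h _)
  rw [hσ] at h1
  have h2 : d - 1 + 1 = d := by omega
  rw [h2, ← sum_univ_pos] at h1
  have h3 : x a ≤ ∑ b, x b := single_le_sum (f := x) (fun b _ => (hx b).le) (mem_univ a)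
  have h4 := P.D_le
  have h5 := Real.exp_pos S
  simp only [one_mul] at h1
  nlinarith

lemma con_outside {P : Par} (hPd : P.d = d) (hσ : P.σ = -1) {S S' : ℝ} (hS' : 0 ≤ S')
    (hSS : S' + 2 ≤ S)
    (hS1 : P.d * ((P.B + 2) * Real.exp (-(S' * P.rho1))) ≤ P.D / 2) {x : Fin d → ℝ}
    (hx : ∀ a, 0 < x a) {J : ℕ} (hJ : J + 1 < d) (h : Con P (J + 1) S' x)
    (π : Equiv.Perm (Fin d)) {κ : ℕ → ℕ}
    (hact : P.F S κ J (pos x π) = P.σ * Real.exp (P.σ * S)) {i : ℕ} (hi : J < i) (hid : i < d) :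
    -(S' + 2) ≤ Real.log (pos x π i) := by
  have hpos : ∀ (π : Equiv.Perm (Fin d)) (k : ℕ), k < d → 0 < pos x π k := by
    intro π k hk
    rw [pos_of_lt _ _ hk]; exact hx _
  set π' := (Equiv.swap (⟨J + 1, hJ⟩ : Fin d) ⟨i, hid⟩).trans π with hπ'
  have h1 := Par.all_ties (P := P) (J := J + 1) (by omega) hS' hS1 (y := pos x π')
    (fun i hi => hpos _ _ (by omega)) (con_hall hJ h _)
  have e1 : ∑ k ∈ range (J + 1 + 1), pos x π' k = ∑ k ∈ range (J + 1), pos x π k + pos x π i := by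
    rw [sum_range_succ, hπ', pos_swap x π hJ hid]
    congr 1
    · apply sum_congr rfl
      intro k hk
      have hk' := mem_range.mp hk
      simp only [Function.comp]
      rw [Equiv.swap_apply_of_ne_of_ne (by omega) (by omega)]
    · simp only [Function.comp, Equiv.swap_apply_left]
  have h2 : ∑ k ∈ range (J + 1), pos x π k ≤ Real.exp (-S) := by
    have h3 := Par.act_eq_le (P := P) (J := J) (by omega) hact
    have h4 : ∑ i ∈ range (J + 1), P.N κ i * pos x π i ≤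
        ∑ i ∈ range (J + 1), (-1) * pos x π i := by
      apply sum_le_sum
      intro i hi
      have h5 := P.N_le_sigma κ i
      rw [hσ] at h5
      exact mul_le_mul_of_nonneg_right h5 (hpos _ _ (by have := mem_range.mp hi; omega)).le
    rw [← mul_sum] at h4
    rw [hσ] at h3
    have e : -1 * S = -S := by ring
    rw [e] at h3
    linarith
  have h6 : Real.exp (-S) ≤ Real.exp (-(S' + 2)) := Real.exp_le_exp.mpr (by linarith)
  have h7 : Real.exp (-(S' + 2)) ≤ Real.exp (-S') / 4 := by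
    have : -(S' + 2) = -S' + -2 := by ring
    rw [this, Real.exp_add, Real.exp_neg 2]
    have h8 : (4 : ℝ) ≤ Real.exp 2 := by
      have h9 := Real.add_one_le_exp (1 : ℝ)
      have : Real.exp 2 = Real.exp 1 * Real.exp 1 := by rw [← Real.exp_add]; norm_num
      rw [this]; nlinarith
    have h10 := Real.exp_pos (-S')
    rw [div_eq_mul_inv]
    exact mul_le_mul_of_nonneg_left (inv_anti₀ (by norm_num) h8) h10.le
  have h11 : Real.exp (-(S' + 2)) ≤ pos x π i := by
    rw [e1, hσ] at h1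
    have e : -1 * S' = -S' := by ring
    rw [e] at h1
    have h4 := P.D_le
    have h5 := Real.exp_pos (-S')
    nlinarith
  have := Real.log_le_log (Real.exp_pos _) h11
  rwa [Real.log_exp] at this

lemma con_compat {P : Par} (hPd : P.d = d) {J : ℕ} (hJ : J < d) {S : ℝ} (hS : 0 ≤ S)
    (hS1 : P.d * ((P.B + 2) * Real.exp (-(S * P.rho1))) ≤ P.D / 2)
    (hS2 : Real.log (2 * P.d) ≤ 7 * P.D * S) {x : Fin d → ℝ} (hx : ∀ a, 0 < x a)
    (hlow : ∀ a, -(P.B - 2) * S ≤ Real.log (x a)) (h : Con P J S x)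
    (π : Equiv.Perm (Fin d)) {κ : ℕ → ℕ} (hκ : ∀ i, κ i ≤ P.Lg)
    (hact : P.F S κ J (pos x π) = P.σ * Real.exp (P.σ * S))
    {W : ℝ} (hW0 : 0 ≤ W) (hW : ∀ i, J < i → i < d → |Real.log (pos x π i)| ≤ W)
    {Λ : ℕ} (hΛ : 2 * P.d * Λ ≤ P.c0) (w : Fin d → ℤ)
    (hw : ∀ a, |w a| ≤ (Λ : ℤ)) (hpos : 0 < ∑ a, (w a : ℝ) * nvec P J π κ a) :
    S * P.rho1 - d * (Λ * W) ≤ ∑ a, (w a : ℝ) * Real.log (x a) := by
  have hposx : ∀ (k : ℕ), k < d → 0 < pos x π k := by
    intro k hk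
    rw [pos_of_lt _ _ hk]; exact hx _
  have hwpos : ∀ k, |pos w π k| ≤ (Λ : ℤ) := by
    intro k
    unfold pos
    split_ifs
    · exact hw _
    · simp
  have e1 : ∑ a, (w a : ℝ) * nvec P J π κ a =
      ∑ i ∈ range (J + 1), ((pos w π i : ℤ) : ℝ) * P.N κ i := by
    have h1 := sum_pos_nv hJ π (P.N κ) (fun a => (w a : ℝ))
    have h2 : ∑ a, (w a : ℝ) * nvec P J π κ a =
        ∑ a, (if (π.symm a : ℕ) ≤ J then P.N κ (π.symm a) else 0) * (w a : ℝ) := by
      apply sum_congr rfl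
      intro a _
      unfold nvec; ring
    rw [h2, h1]
    apply sum_congr rfl
    intro i hi
    have hi' := mem_range.mp hi
    rw [pos_of_lt _ _ (show i < d by omega), pos_of_lt _ _ (show i < d by omega)]
    ring
  rw [e1] at hpos
  have hm := Par.core_margin (P := P) (J := J) (by omega) hS hS1 hS2 (y := pos x π)
    (fun i hi => hposx i (by omega))
    (fun i hi => by rw [pos_of_lt _ _ (show i < d by omega)]; exact hlow _)
    (con_hall hJ h π) hκ hact hΛ (pos w π) (fun i _ => hwpos i) hpos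
  have e2 : ∑ a, (w a : ℝ) * Real.log (x a) =
      ∑ i ∈ range (J + 1), ((pos w π i : ℤ) : ℝ) * Real.log (pos x π i) +
      ∑ i ∈ Ico (J + 1) d, ((pos w π i : ℤ) : ℝ) * Real.log (pos x π i) := by
    rw [sum_univ_pos _ π, range_eq_Ico, range_eq_Ico, sum_Ico_consecutive _ (Nat.zero_le _) hJ]
    apply sum_congr rfl
    intro i hi
    have hi' := (mem_Ico.mp hi).2
    rw [pos_of_lt _ _ hi', pos_of_lt _ _ hi', pos_of_lt _ _ hi']
  have h3 : -((d : ℝ) * (Λ * W)) ≤
      ∑ i ∈ Ico (J + 1) d, ((pos w π i : ℤ) : ℝ) * Real.log (pos x π i) := by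
    have h4 : ∀ i ∈ Ico (J + 1) d, -((Λ : ℝ) * W) ≤ ((pos w π i : ℤ) : ℝ) * Real.log (pos x π i) := by
      intro i hi
      have hi' := mem_Ico.mp hi
      have hwi : |((pos w π i : ℤ) : ℝ)| ≤ Λ := by exact_mod_cast hwpos i
      have : |((pos w π i : ℤ) : ℝ) * Real.log (pos x π i)| ≤ (Λ : ℝ) * W := by
        rw [abs_mul]
        exact mul_le_mul hwi (hW i (by omega) hi'.2) (abs_nonneg _) (by positivity)
      exact (abs_le.mp this).1
    have h5 := sum_le_sum h4
    rw [sum_const, Nat.card_Ico, nsmul_eq_mul] at h5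
    refine le_trans ?_ h5
    have h6 : ((d - (J + 1) : ℕ) : ℝ) ≤ d := by exact_mod_cast Nat.sub_le _ _
    have h7 : 0 ≤ (Λ : ℝ) * W := by positivity
    nlinarith
  rw [e2]
  linarith

end positions

/-- eventual smallness conditions -/
lemma eventually_conditions (P : Par) : ∀ᶠ S in Filter.atTop,
    (P.d * ((P.B + 2) * Real.exp (-(S * P.rho1))) ≤ P.D / 2 ∧
      Real.log (2 * P.d) ≤ 7 * P.D * S) := by
  have hr := P.rho1_pos
  have hD := P.D_pos
  apply Filter.Eventually.and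
  · have h1 : Filter.Tendsto (fun S : ℝ => P.d * ((P.B + 2) * Real.exp (-(S * P.rho1))))
        Filter.atTop (nhds (P.d * ((P.B + 2) * 0))) := by
      apply Filter.Tendsto.const_mul
      apply Filter.Tendsto.const_mul
      apply Real.tendsto_exp_atBot.comp
      apply Filter.tendsto_neg_atTop_atBot.comp
      exact Filter.tendsto_id.atTop_mul_const hr
    simp only [mul_zero] at h1
    exact (h1.eventually (gt_mem_nhds (show (0 : ℝ) < P.D / 2 by linarith))).mono
      (fun S hS => hS.le)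
  · have h1 : Filter.Tendsto (fun S : ℝ => 7 * P.D * S) Filter.atTop Filter.atTop :=
      Filter.tendsto_id.const_mul_atTop (by positivity)
    exact h1.eventually_ge_atTop _

theorem geometry (d : ℕ) (Λ : ℕ) (δ : ℝ) :
    ∃ (ι : Type) (_ : Fintype ι) (nv : ι → Fin d → ℝ) (h : ι → ℝ → ℝ) (T0 : ℝ),
      (∀ i, Continuous (h i)) ∧
      (∀ T ≥ T0, ∃ lo hi : ℝ, 0 < lo ∧ ∀ x : Fin d → ℝ,
        (∀ i, ∑ a, nv i a * x a ≤ h i T) → ∀ a, lo ≤ x a ∧ x a ≤ hi) ∧
      (∀ x : Fin d → ℝ, (∀ a, 0 < x a) → ∃ T1, ∀ T ≥ T1, ∀ i, ∑ a, nv i a * x a < h i T) ∧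
      (∀ T ≥ T0, ∀ x : Fin d → ℝ, (∀ i, ∑ a, nv i a * x a ≤ h i T) → ∀ i,
        ∑ a, nv i a * x a = h i T → ∀ w : Fin d → ℤ, (∀ a, |w a| ≤ (Λ : ℤ)) →
        0 < ∑ a, (w a : ℝ) * nv i a → δ ≤ ∑ a, (w a : ℝ) * Real.log (x a)) := by
  rcases Nat.eq_zero_or_pos d with rfl | hd
  · exact ⟨Empty, inferInstance, fun i => i.elim, fun i => i.elim, 0, fun i => i.elim,
      fun T _ => ⟨1, 1, one_pos, fun x _ a => a.elim0⟩, fun x _ => ⟨0, fun T _ i => i.elim⟩,
      fun T _ x _ i => i.elim⟩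
  have hc0 : 2 ≤ 2 * d * (Λ + 1) := by nlinarith
  let P0 : Par := ⟨d, 2 * d * (Λ + 1), 3, -1, hc0, Or.inr rfl, le_rfl⟩
  have hρ0 : 0 < P0.rho1 := P0.rho1_pos
  obtain ⟨A, hA⟩ : ∃ A : ℝ, A * P0.rho1 = d * Λ + 1 :=
    ⟨(d * Λ + 1) / P0.rho1, div_mul_cancel₀ _ hρ0.ne'⟩
  have hdΛ : (0 : ℝ) ≤ d * Λ := by positivity
  have hA2 : 2 ≤ A := by
    by_contra hcon
    push Not at hcon
    have h1 := P0.rho1_le
    have : A * P0.rho1 < 1 := by nlinarith
    linarith
  have hB : 3 ≤ A ^ d + 3 := by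
    have : 0 ≤ A ^ d := by positivity
    linarith
  let Pp : Par := ⟨d, 2 * d * (Λ + 1), A ^ d + 3, 1, hc0, Or.inl rfl, hB⟩
  let Pm : Par := ⟨d, 2 * d * (Λ + 1), A ^ d + 3, -1, hc0, Or.inr rfl, hB⟩
  have hρp : Pp.rho1 = P0.rho1 := Par.rho1_congr rfl rfl
  have hρm : Pm.rho1 = P0.rho1 := Par.rho1_congr rfl rfl
  have hPp : Pp.d = d := rfl
  have hPm : Pm.d = d := rfl
  have hσp : Pp.σ = 1 := rfl
  have hσm : Pm.σ = -1 := rfl
  have hBp : Pp.B = A ^ d + 3 := rfl
  have hBm : Pm.B = A ^ d + 3 := rfl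
  have hcp : Pp.c0 = 2 * d * (Λ + 1) := rfl
  have hcm : Pm.c0 = 2 * d * (Λ + 1) := rfl
  have hevp := eventually_conditions Pp
  have hevm := eventually_conditions Pm
  clear_value Pp Pm P0
  obtain ⟨Tp, hTp⟩ := Filter.eventually_atTop.mp hevp
  obtain ⟨Tm, hTm⟩ := Filter.eventually_atTop.mp hevm
  have hpow1 : ∀ k : ℕ, 1 ≤ A ^ k := fun k => one_le_pow₀ (by linarith)
  have hdm : d - 1 < d := by omega
  -- facts from the constraints
  have facts : ∀ (T : ℝ) (x : Fin d → ℝ),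
      (∀ i : (Equiv.Perm (Fin d) × (Fin d → Fin (Pp.Lg + 1))) ⊕
        (Fin d × Equiv.Perm (Fin d) × (Fin d → Fin (Pm.Lg + 1))),
        ∑ a, (Sum.elim (fun p => nvec Pp (d - 1) p.1 (ext p.2))
          (fun p => nvec Pm p.1 p.2.1 (ext p.2.2)) i : Fin d → ℝ) a * x a ≤
        (Sum.elim (fun p T => hgt Pp (d - 1) (ext p.2) T)
          (fun p T => hgt Pm p.1 (ext p.2.2) (A ^ (d - (p.1 : ℕ)) * T)) i : ℝ → ℝ) T) →
      Con Pp (d - 1) T x ∧ ∀ J, J < d → Con Pm J (A ^ (d - J) * T) x := by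
    intro T x hx
    constructor
    · apply con_of_idx Pp hdm
      intro π κ
      exact hx (Sum.inl (π, κ))
    · intro J hJ
      apply con_of_idx Pm hJ
      intro π κ
      exact hx (Sum.inr (⟨J, hJ⟩, π, κ))
  have facts2 : ∀ (T : ℝ) (x : Fin d → ℝ), max (max Tp Tm) 2 ≤ T → Con Pp (d - 1) T x →
      (∀ J, J < d → Con Pm J (A ^ (d - J) * T) x) →
      ∀ a, Real.exp (-(A ^ d * T)) ≤ x a ∧ x a ≤ 2 * Real.exp T := by
    intro T x hT h1 h2
    have hTp' : Tp ≤ T := (le_max_left _ _).trans ((le_max_left _ _).trans hT)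
    have hT2 : 2 ≤ T := (le_max_right _ _).trans hT
    have hlo : ∀ a, Real.exp (-(A ^ d * T)) ≤ x a := by
      intro a
      have := con_low hσm (h2 0 hd) a
      rwa [Nat.sub_zero] at this
    intro a
    exact ⟨hlo a, con_high hPp hσp (by linarith) (hTp T hTp').1
      (fun a => (Real.exp_pos _).trans_le (hlo a)) h1 a⟩
  refine ⟨(Equiv.Perm (Fin d) × (Fin d → Fin (Pp.Lg + 1))) ⊕
    (Fin d × Equiv.Perm (Fin d) × (Fin d → Fin (Pm.Lg + 1))), inferInstance,
    Sum.elim (fun p => nvec Pp (d - 1) p.1 (ext p.2)) (fun p => nvec Pm p.1 p.2.1 (ext p.2.2)),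
    Sum.elim (fun p T => hgt Pp (d - 1) (ext p.2) T)
      (fun p T => hgt Pm p.1 (ext p.2.2) (A ^ (d - (p.1 : ℕ)) * T)),
    max (max (max Tp Tm) 2) (max (δ + 2 * (d * Λ)) (|δ| / Pp.rho1)), ?_, ?_, ?_, ?_⟩
  · rintro (p | p)
    · exact hgt_continuous _ _ _
    · exact (hgt_continuous _ _ _).comp (continuous_const.mul continuous_id)
  · intro T hT
    refine ⟨Real.exp (-(A ^ d * T)), 2 * Real.exp T, Real.exp_pos _, ?_⟩
    intro x hx
    obtain ⟨h1, h2⟩ := facts T x hx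
    exact facts2 T x ((le_max_left _ _).trans hT) h1 h2
  · intro x hx
    have hev : ∀ᶠ T : ℝ in Filter.atTop, ∀ a, Real.exp (-T) < x a := by
      rw [Filter.eventually_all]
      intro a
      have h1 : Filter.Tendsto (fun T : ℝ => Real.exp (-T)) Filter.atTop (nhds 0) :=
        Real.tendsto_exp_atBot.comp Filter.tendsto_neg_atTop_atBot
      exact h1.eventually (gt_mem_nhds (hx a))
    have hev2 : ∀ᶠ T : ℝ in Filter.atTop, ∑ a, x a < Real.exp T :=
      Real.tendsto_exp_atTop.eventually_gt_atTop _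
    obtain ⟨T1, hT1⟩ := Filter.eventually_atTop.mp
      (hev.and (hev2.and (Filter.eventually_ge_atTop 0)))
    refine ⟨T1, fun T hT => ?_⟩
    obtain ⟨g1, g2, g3⟩ := hT1 T hT
    have hposx : ∀ (π : Equiv.Perm (Fin d)) (k : ℕ), k < d → 0 < pos x π k := by
      intro π k hk
      rw [pos_of_lt _ _ hk]; exact hx _
    rintro (⟨π, κ⟩ | ⟨J, π, κ⟩)
    · simp only [Sum.elim_inl]
      have h1 := con_eq Pp hdm π (ext κ) T x
      have h2 : Pp.F T (ext κ) (d - 1) (pos x π) < Pp.σ * Real.exp (Pp.σ * T) := by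
        have h3 : 0 ≤ ∑ l ∈ range (d - 1), Pp.gam T (ext κ) l := sum_nonneg (fun l hl =>
          Pp.gm_nonneg T (ext κ) (by have := mem_range.mp hl; omega) _)
        have h4 : ∑ i ∈ range (d - 1 + 1), Pp.N (ext κ) i * pos x π i ≤
            ∑ i ∈ range (d - 1 + 1), pos x π i := by
          apply sum_le_sum
          intro i hi
          have h5 := Pp.N_le_sigma (ext κ) i
          rw [hσp] at h5
          have := hposx π i (by have := mem_range.mp hi; omega)
          nlinarith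
        have h5 := sum_pos_le hx π hdm
        unfold Par.F
        rw [hσp, one_mul, one_mul]
        linarith
      linarith
    · simp only [Sum.elim_inr]
      have h1 := con_eq Pm J.2 π (ext κ) (A ^ (d - (J : ℕ)) * T) x
      have h2 : Pm.F (A ^ (d - (J : ℕ)) * T) (ext κ) J (pos x π) <
          Pm.σ * Real.exp (Pm.σ * (A ^ (d - (J : ℕ)) * T)) := by
        have h3 : 0 ≤ ∑ l ∈ range (J : ℕ), Pm.gam (A ^ (d - (J : ℕ)) * T) (ext κ) l :=
          sum_nonneg (fun l hl =>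
          Pm.gm_nonneg _ (ext κ) (by have := mem_range.mp hl; have := J.2; omega) _)
        have h4 : ∑ i ∈ range ((J : ℕ) + 1), Pm.N (ext κ) i * pos x π i ≤
            ∑ i ∈ range ((J : ℕ) + 1), -pos x π i := by
          apply sum_le_sum
          intro i hi
          have h5 := Pm.N_le_sigma (ext κ) i
          rw [hσm] at h5
          have := hposx π i (by have := mem_range.mp hi; have := J.2; omega)
          nlinarith
        have h5 : pos x π 0 ≤ ∑ i ∈ range ((J : ℕ) + 1), pos x π i :=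
          single_le_sum (f := pos x π) (fun i hi => (hposx π i (by
            have := mem_range.mp hi; have := J.2; omega)).le) (mem_range.mpr (Nat.succ_pos _))
        rw [sum_neg_distrib] at h4
        have h6 : Real.exp (-(A ^ (d - (J : ℕ)) * T)) ≤ Real.exp (-T) := by
          apply Real.exp_le_exp.mpr
          have := mul_le_mul_of_nonneg_right (hpow1 (d - (J : ℕ))) g3
          linarith
        have h7 : Real.exp (-T) < pos x π 0 := by
          rw [pos_of_lt _ _ hd]; exact g1 _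
        unfold Par.F
        rw [hσm]
        have e : -1 * (A ^ (d - (J : ℕ)) * T) = -(A ^ (d - (J : ℕ)) * T) := by ring
        rw [e]
        linarith
      linarith
  · intro T hT x hx i hi w hw hwpos
    obtain ⟨h1, h2⟩ := facts T x hx
    have hTa : max (max Tp Tm) 2 ≤ T := (le_max_left _ _).trans hT
    have hTp' : Tp ≤ T := (le_max_left _ _).trans ((le_max_left _ _).trans hTa)
    have hTm' : Tm ≤ T := (le_max_right _ _).trans ((le_max_left _ _).trans hTa)
    have hT2 : 2 ≤ T := (le_max_right _ _).trans hTa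
    have hTδ : δ + 2 * (d * Λ) ≤ T := (le_max_left _ _).trans ((le_max_right _ _).trans hT)
    have hTδ' : |δ| / Pp.rho1 ≤ T := (le_max_right _ _).trans ((le_max_right _ _).trans hT)
    have hb := facts2 T x hTa h1 h2
    have hxpos : ∀ a, 0 < x a := fun a => (Real.exp_pos _).trans_le (hb a).1
    have hlog : ∀ a, -(A ^ d * T) ≤ Real.log (x a) := by
      intro a
      have := Real.log_le_log (Real.exp_pos _) (hb a).1
      rwa [Real.log_exp] at this
    have hlogu : ∀ a, Real.log (x a) ≤ T + 1 := by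
      intro a
      have := Real.log_le_log (hxpos a) (hb a).2
      rw [Real.log_mul (by norm_num) (Real.exp_pos _).ne', Real.log_exp] at this
      have h3 : Real.log 2 ≤ 1 := by
        have := Real.log_le_sub_one_of_pos (show (0 : ℝ) < 2 by norm_num)
        linarith
      linarith
    have hAd : 0 ≤ A ^ d := by positivity
    rcases i with ⟨π, κ⟩ | ⟨J, π, κ⟩
    · simp only [Sum.elim_inl] at hi hwpos
      have hact : Pp.F T (ext κ) (d - 1) (pos x π) = Pp.σ * Real.exp (Pp.σ * T) := by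
        have := con_eq Pp hdm π (ext κ) T x
        linarith
      have h3 := con_compat hPp hdm (by linarith) (hTp T hTp').1 (hTp T hTp').2 hxpos
        (fun a => by
          refine le_trans ?_ (hlog a)
          rw [hBp]; nlinarith) h1 π (ext_le κ) hact (le_refl (0 : ℝ))
        (fun i h1 h2 => by omega) (Λ := Λ) (by rw [hcp, hPp]; nlinarith) w hw hwpos
      rw [div_le_iff₀ Pp.rho1_pos] at hTδ'
      have := le_abs_self δ
      simp only [mul_zero, sub_zero] at h3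
      linarith
    · simp only [Sum.elim_inr] at hi hwpos
      have hact : Pm.F (A ^ (d - (J : ℕ)) * T) (ext κ) J (pos x π) =
          Pm.σ * Real.exp (Pm.σ * (A ^ (d - (J : ℕ)) * T)) := by
        have := con_eq Pm J.2 π (ext κ) (A ^ (d - (J : ℕ)) * T) x
        linarith
      obtain ⟨m, hm⟩ : ∃ m, d - (J : ℕ) = m + 1 := ⟨d - (J : ℕ) - 1, by have := J.2; omega⟩
      have hSm : T ≤ A ^ m * T := by
        have := mul_le_mul_of_nonneg_right (hpow1 m) (show 0 ≤ T by linarith)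
        linarith
      have hSJ : A ^ (d - (J : ℕ)) * T = A * (A ^ m * T) := by rw [hm]; ring
      have hSS : A ^ m * T + 2 ≤ A ^ (d - (J : ℕ)) * T := by
        rw [hSJ]; nlinarith
      have hTJ : Tm ≤ A ^ (d - (J : ℕ)) * T := by linarith
      have hTm1 : Tm ≤ A ^ m * T := by linarith
      have hW : ∀ i, (J : ℕ) < i → i < d → |Real.log (pos x π i)| ≤ A ^ m * T + 2 := by
        intro i hi1 hi2
        have hJ1 : (J : ℕ) + 1 < d := by omega
        have hc := h2 (J + 1) hJ1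
        have e : d - ((J : ℕ) + 1) = m := by omega
        rw [e] at hc
        have h5 := con_outside hPm hσm (by linarith) hSS (hTm _ hTm1).1 hxpos hJ1 hc π hact hi1 hi2
        rw [abs_le]
        refine ⟨h5, ?_⟩
        rw [pos_of_lt _ _ hi2]
        linarith [hlogu (π ⟨i, hi2⟩)]
      have h3 := con_compat hPm J.2 (by linarith) (hTm _ hTJ).1 (hTm _ hTJ).2 hxpos
        (fun a => by
          refine le_trans ?_ (hlog a)
          rw [hBm]
          nlinarith) (h2 J J.2) π (ext_le κ) hact (show 0 ≤ A ^ m * T + 2 by linarith)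
        hW (Λ := Λ) (by rw [hcm, hPm]; nlinarith) w hw hwpos
      have h4 : A ^ (d - (J : ℕ)) * T * Pm.rho1 = (d * Λ + 1) * (A ^ m * T) := by
        rw [hSJ, hρm]
        calc A * (A ^ m * T) * P0.rho1 = (A * P0.rho1) * (A ^ m * T) := by ring
          _ = _ := by rw [hA]
      rw [h4] at h3
      have h5 : ((d : ℝ) * Λ + 1) * (A ^ m * T) - d * (Λ * (A ^ m * T + 2)) =
          A ^ m * T - 2 * (d * Λ) := by ring
      rw [h5] at h3
      linarith

end Crest.Agent.S0122
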