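import Mathlib

set_option autoImplicit false

namespace Crest.Agent.S0122

open Set Filter Topology
open scoped NNReal

section ode

variable {d : ℕ}

/-- the linear functional `y ↦ ∑ a, n a * y a`. -/
noncomputable def ell (n : Fin d → ℝ) : (Fin d → ℝ) →L[ℝ] ℝ :=
  ∑ a, (n a) • (ContinuousLinearMap.proj a : (Fin d → ℝ) →L[ℝ] ℝ)

lemma ell_apply (n : Fin d → ℝ) (y : Fin d → ℝ) : ell n y = ∑ a, n a * y a := by
  simp [ell]

/-- forward solutions -/
def Sol (w : (Fin d → ℝ) → (Fin d → ℝ)) (x : ℝ → (Fin d → ℝ)) : Prop :=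
  ∀ t : ℝ, 0 ≤ t → HasDerivWithinAt x (w (x t)) (Ici 0) t

variable {w : (Fin d → ℝ) → (Fin d → ℝ)} {x : ℝ → (Fin d → ℝ)}

lemma Sol.continuousOn (h : Sol w x) : ContinuousOn x (Ici 0) :=
  fun t ht => (h t ht).continuousWithinAt

lemma Sol.comp_deriv (h : Sol w x) (f : (Fin d → ℝ) →L[ℝ] ℝ) {t : ℝ} (ht : 0 ≤ t) :
    HasDerivWithinAt (fun t => f (x t)) (f (w (x t))) (Ici t) t :=
  (f.hasFDerivAt.comp_hasDerivWithinAt t (h t ht)).mono (Ici_subset_Ici.2 ht)

lemma Sol.sub_mem (h : Sol w x) {S : Submodule ℝ (Fin d → ℝ)} (hS : ∀ y, w y ∈ S)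
    {c : Fin d → ℝ} (h0 : x 0 - c ∈ S) {t : ℝ} (ht : 0 ≤ t) : x t - c ∈ S := by
  by_contra hcon
  obtain ⟨f, hf1, hf2⟩ := Submodule.exists_le_ker_of_notMem hcon
  let F : (Fin d → ℝ) →L[ℝ] ℝ := LinearMap.toContinuousLinearMap f
  have hF : ∀ y, F y = f y := fun y => rfl
  have hcont : ContinuousOn (fun s => F (x s)) (Icc 0 t) :=
    F.continuous.comp_continuousOn (h.continuousOn.mono Icc_subset_Ici_self)
  have hder : ∀ s ∈ Ico (0:ℝ) t, HasDerivWithinAt (fun s => F (x s)) 0 (Ici s) s := by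
    intro s hs
    have := h.comp_deriv F hs.1
    have h2 : F (w (x s)) = 0 := by
      rw [hF]; exact LinearMap.mem_ker.1 (hf2 (hS _))
    rwa [h2] at this
  have key := constant_of_has_deriv_right_zero hcont hder t ⟨ht, le_rfl⟩
  apply hf1
  have h3 : f (x 0 - c) = 0 := LinearMap.mem_ker.1 (hf2 h0)
  simp only [hF] at key
  rw [map_sub] at h3 ⊢
  rw [key]; exact h3

/-- forward invariance of a polytope with inward pointing field -/
lemma invariant {S : Submodule ℝ (Fin d → ℝ)} {ι : Type} [Fintype ι] (n : ι → Fin d → ℝ)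
    (b : ι → ℝ) (c : Fin d → ℝ) (hwS : ∀ x, w x ∈ S)
    (hin : ∀ y, (∀ i, ell (n i) y ≤ b i) → y - c ∈ S → ∀ i, ell (n i) y = b i →
      ell (n i) (w y) < 0)
    (hx : Sol w x) (hc : x 0 - c ∈ S) {t0 : ℝ} (ht0 : 0 ≤ t0)
    (h0 : ∀ i, ell (n i) (x t0) ≤ b i) :
    ∀ t, t0 ≤ t → ∀ i, ell (n i) (x t) ≤ b i := by
  intro t ht
  have hcl : IsClosed {y : Fin d → ℝ | ∀ i, ell (n i) y ≤ b i} := by
    rw [Set.ofPred_forall]
    exact isClosed_iInter fun i => isClosed_le (ell (n i)).continuous continuous_const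
  have hcont : ContinuousOn x (Icc t0 t) :=
    hx.continuousOn.mono (fun s hs => mem_Ici.2 (ht0.trans hs.1))
  have h1 : IsClosed ({s | ∀ i, ell (n i) (x s) ≤ b i} ∩ Icc t0 t) := by
    have := hcont.preimage_isClosed_of_isClosed isClosed_Icc hcl
    rw [inter_comm]; exact this
  have h2 := h1.Icc_subset_of_forall_mem_nhdsWithin h0 (fun s hs => ?_)
  · exact h2 ⟨ht, le_rfl⟩
  · obtain ⟨hs1, hs2⟩ := hs
    have hs0 : 0 ≤ s := ht0.trans hs2.1
    have hmem : ∀ i, ∀ᶠ r in 𝓝[>] s, ell (n i) (x r) ≤ b i := by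
      intro i
      have hder := hx.comp_deriv (ell (n i)) hs0
      rcases lt_or_eq_of_le (hs1 i) with hlt | heq
      · have hc' : ContinuousWithinAt (fun r => ell (n i) (x r)) (Ici s) s :=
          hder.continuousWithinAt
        have := hc'.eventually_lt (continuousWithinAt_const (b := b i)) hlt
        exact (this.filter_mono (nhdsWithin_mono _ Ioi_subset_Ici_self)).mono
          fun r hr => hr.le
      · have hneg := hin (x s) hs1 (hx.sub_mem hwS hc hs0) i heq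
        have hder' : HasDerivWithinAt (fun r => ell (n i) (x r)) (ell (n i) (w (x s)))
            (Ioi s) s := hder.Ioi_of_Ici
        have hsl := (hasDerivWithinAt_iff_tendsto_slope' (self_notMem_Ioi)).1 hder'
        have hev := hsl.eventually (gt_mem_nhds hneg)
        filter_upwards [hev, self_mem_nhdsWithin] with r hr hr2
        have hr3 : 0 < r - s := sub_pos.2 hr2
        rw [slope_def_field, div_lt_iff₀ hr3] at hr
        simp only [zero_mul] at hr
        linarith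
    have := eventually_all.2 hmem
    exact this

/-- global existence for bounded Lipschitz fields -/
lemma exists_sol {K : ℝ≥0} (hw : LipschitzWith K w) {M : ℝ≥0} (hM : ∀ x, ‖w x‖ ≤ M)
    (x0 : Fin d → ℝ) : ∃ x : ℝ → (Fin d → ℝ), x 0 = x0 ∧ Sol w x := by
  have hex : ∀ N : ℕ, ∃ α : ℝ → (Fin d → ℝ), α 0 = x0 ∧
      ∀ t ∈ Icc (0:ℝ) N, HasDerivWithinAt α (w (α t)) (Icc (0:ℝ) N) t := by
    intro N
    have h0 : (0:ℝ) ∈ Icc (0:ℝ) N := ⟨le_rfl, Nat.cast_nonneg _⟩
    have hPL : IsPicardLindelof (fun _ ↦ w) (tmin := 0) (tmax := (N:ℝ)) ⟨0, h0⟩ x0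
        (M * N) 0 M K := by
      apply IsPicardLindelof.of_time_independent
      · intro y _; exact hM y
      · exact hw.lipschitzOnWith
      · simp
    obtain ⟨α, hα0, hα⟩ := hPL.exists_eq_forall_mem_Icc_hasDerivWithinAt₀
    exact ⟨α, hα0, hα⟩
  choose α hα0 hα using hex
  have huniq : ∀ N M : ℕ, N ≤ M → EqOn (α N) (α M) (Icc (0:ℝ) N) := by
    intro N M hNM
    have hNM' : (N:ℝ) ≤ M := by exact_mod_cast hNM
    apply ODE_solution_unique_of_mem_Icc_right (v := fun _ => w) (s := fun _ => univ) (K := K)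
    · intro t _; exact hw.lipschitzOnWith
    · intro t ht; exact (hα N t ht).continuousWithinAt
    · intro t ht
      refine (hα N t (Ico_subset_Icc_self ht)).mono_of_mem_nhdsWithin ?_
      exact Icc_mem_nhdsGE_of_mem ht
    · intro t _; trivial
    · intro t ht
      exact ((hα M t ⟨ht.1, ht.2.trans hNM'⟩).continuousWithinAt).mono
        (Icc_subset_Icc le_rfl hNM')
    · intro t ht
      refine (hα M t ⟨ht.1, ht.2.le.trans hNM'⟩).mono_of_mem_nhdsWithin ?_
      exact Icc_mem_nhdsGE_of_mem ⟨ht.1, ht.2.trans_le hNM'⟩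
    · intro t _; trivial
    · rw [hα0, hα0]
  refine ⟨fun t => α (⌈t⌉₊ + 1) t, by simp [hα0], ?_⟩
  intro t ht
  set N : ℕ := ⌈t⌉₊ + 2 with hN
  have htN : t + 1 < N := by
    have := Nat.le_ceil t
    have h2 : ((⌈t⌉₊ + 2 : ℕ) : ℝ) = (⌈t⌉₊ : ℝ) + 2 := by push_cast; ring
    rw [hN, h2]; linarith
  have heq : ∀ s ∈ Icc (0:ℝ) (t+1), α (⌈s⌉₊ + 1) s = α N s := by
    intro s hs
    have h1 : s ∈ Icc (0:ℝ) ((⌈s⌉₊ + 1 : ℕ) : ℝ) := by
      refine ⟨hs.1, ?_⟩
      have := Nat.le_ceil s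
      push_cast; linarith
    have h2 : ⌈s⌉₊ + 1 ≤ N := by
      have h3 : ⌈s⌉₊ ≤ ⌈t⌉₊ + 1 := by
        have h4 : ⌈s⌉₊ ≤ ⌈t + 1⌉₊ := Nat.ceil_mono hs.2
        rwa [Nat.ceil_add_one ht] at h4
      omega
    exact huniq _ _ h2 h1
  have hd : HasDerivWithinAt (α N) (w (α N t)) (Ici 0) t := by
    refine (hα N t ⟨ht, by linarith⟩).mono_of_mem_nhdsWithin ?_
    have : Iio (N:ℝ) ∈ 𝓝 t := Iio_mem_nhds (by linarith)
    have h2 : _ ∈ 𝓝[Ici (0:ℝ)] t := mem_nhdsWithin_of_mem_nhds this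
    filter_upwards [h2, self_mem_nhdsWithin] with r hr1 hr2
    exact ⟨hr2, le_of_lt hr1⟩
  have htt : α (⌈t⌉₊ + 1) t = α N t := heq t ⟨ht, by linarith⟩
  have hgoal : HasDerivWithinAt (fun t => α (⌈t⌉₊ + 1) t) (w (α N t)) (Ici 0) t := by
    refine hd.congr_of_eventuallyEq ?_ htt
    have : Iio (t + 1) ∈ 𝓝 t := Iio_mem_nhds (by linarith)
    have h2 : _ ∈ 𝓝[Ici (0:ℝ)] t := mem_nhdsWithin_of_mem_nhds this
    filter_upwards [h2, self_mem_nhdsWithin] with r hr1 hr2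
    exact heq r ⟨hr2, le_of_lt hr1⟩
  show HasDerivWithinAt _ (w (α (⌈t⌉₊ + 1) t)) (Ici 0) t
  rw [htt]; exact hgoal

/-- uniform boundedness of the polytopes -/
lemma bounded_aux {ι : Type} [Fintype ι] (n : ι → Fin d → ℝ) (g : ι → ℝ) (c : Fin d → ℝ)
    (hc : ∀ i, ell (n i) c < g i) {R : ℝ}
    (hR : ∀ y, (∀ i, ell (n i) y ≤ g i) → ‖y‖ ≤ R) (H : ℝ) :
    ∃ R' : ℝ, ∀ y, (∀ i, ell (n i) y ≤ H) → ‖y‖ ≤ R' := by
  have hs : ∀ i, ∀ᶠ s in 𝓝[>] (0:ℝ), s * (H - ell (n i) c) ≤ g i - ell (n i) c := by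
    intro i
    have hcont : Continuous fun s : ℝ => s * (H - ell (n i) c) := by fun_prop
    have h1 : ∀ᶠ s in 𝓝 (0:ℝ), s * (H - ell (n i) c) < g i - ell (n i) c := by
      have : (0:ℝ) * (H - ell (n i) c) < g i - ell (n i) c := by
        have := hc i; linarith
      exact hcont.continuousAt.eventually_lt continuousAt_const this
    exact (h1.filter_mono nhdsWithin_le_nhds).mono fun s hs => hs.le
  have hs1 : ∀ᶠ s in 𝓝[>] (0:ℝ), s ≤ 1 := by
    have : Iic (1:ℝ) ∈ 𝓝 (0:ℝ) := Iic_mem_nhds one_pos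
    exact mem_nhdsWithin_of_mem_nhds this
  obtain ⟨s, hs2, hs3, hs4⟩ := ((eventually_all.2 hs).and (hs1.and self_mem_nhdsWithin)).exists
  have hs5 : 0 < s := hs4
  refine ⟨(R + ‖c‖) / s + ‖c‖, fun y hy => ?_⟩
  have hmem : ∀ i, ell (n i) (c + s • (y - c)) ≤ g i := by
    intro i
    rw [map_add, map_smul, map_sub, smul_eq_mul]
    have h1 : s * (ell (n i) y - ell (n i) c) ≤ s * (H - ell (n i) c) :=
      mul_le_mul_of_nonneg_left (by linarith [hy i]) hs5.le
    linarith [hs2 i]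
  have hn := hR _ hmem
  have h2 : ‖s • (y - c)‖ ≤ R + ‖c‖ := by
    have : s • (y - c) = (c + s • (y - c)) - c := by abel
    rw [this]
    exact (norm_sub_le _ _).trans (by linarith)
  rw [norm_smul, Real.norm_of_nonneg hs5.le] at h2
  have h3 : ‖y - c‖ ≤ (R + ‖c‖) / s := by
    rw [le_div_iff₀ hs5]; linarith
  have h4 : y = (y - c) + c := by abel
  rw [h4]
  exact (norm_add_le _ _).trans (by linarith)

/-- the barrier step -/
lemma barrier (hx : Sol w x) (f : (Fin d → ℝ) →L[ℝ] ℝ) {t0 ε b : ℝ} (ht0 : 0 ≤ t0) (hε : 0 < ε)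
    (hle : f (x t0) ≤ b)
    (h : ∀ t, t0 ≤ t → ε ≤ b - f (x t) ∨ f (w (x t)) ≤ -ε) :
    f (x (t0 + 1)) ≤ b - ε / 2 := by
  have hcont : ContinuousOn (fun s => f (x s)) (Icc t0 (t0+1)) :=
    f.continuous.comp_continuousOn
      (hx.continuousOn.mono (fun s hs => mem_Ici.2 (ht0.trans hs.1)))
  have key := image_le_of_deriv_right_lt_deriv_boundary (f := fun s => f (x s))
    (f' := fun s => f (w (x s))) (a := t0) (b := t0 + 1)
    (B := fun s => b - ε / 2 * (s - t0)) (B' := fun _ => -(ε / 2)) hcont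
    (fun s hs => hx.comp_deriv f (ht0.trans hs.1)) (by simpa using hle)
    (fun s => by
      have h1 : HasDerivAt (fun s : ℝ => s - t0) 1 s := (hasDerivAt_id s).sub_const t0
      have h2 := (h1.const_mul (ε / 2)).const_sub b
      simpa using h2)
    (fun s hs heq => by
      rcases h s hs.1 with h1 | h1
      · exfalso
        rw [heq] at h1
        have h2 : s - t0 ≤ 1 := by linarith [hs.2]
        nlinarith
      · linarith)
  have := key (⟨by linarith, le_rfl⟩ : t0 + 1 ∈ Icc t0 (t0+1))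
  simpa using this

/-- main iteration: absorption -/
lemma absorb {S : Submodule ℝ (Fin d → ℝ)} {ι : Type} [Fintype ι] (n : ι → Fin d → ℝ)
    (h : ι → ℝ → ℝ) (hcont : ∀ i, Continuous (h i)) (c : Fin d → ℝ)
    (hw : Continuous w) (hwS : ∀ x, w x ∈ S) {T1 T' : ℝ} (hT : T1 ≤ T') {R : ℝ}
    (hR : ∀ T ∈ Icc T1 T', ∀ y, (∀ i, ell (n i) y ≤ h i T) → ‖y‖ ≤ R)
    (hin : ∀ T ∈ Icc T1 T', ∀ y, (∀ i, ell (n i) y ≤ h i T) → y - c ∈ S →
      ∀ i, ell (n i) y = h i T → ell (n i) (w y) < 0)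
    (hx : Sol w x) (hc : x 0 - c ∈ S) (h0 : ∀ i, ell (n i) (x 0) ≤ h i T') :
    ∃ T : ℝ, 0 ≤ T ∧ ∀ t, T ≤ t → ∀ i, ell (n i) (x t) ≤ h i T1 := by
  -- compact set
  set 𝒦 : Set (ℝ × (Fin d → ℝ)) :=
    {p | p.1 ∈ Icc T1 T' ∧ (∀ i, ell (n i) p.2 ≤ h i p.1) ∧ p.2 - c ∈ S} with h𝒦
  have hSc : IsClosed (S : Set (Fin d → ℝ)) := S.closed_of_finiteDimensional
  have hKc : IsClosed 𝒦 := by
    have e1 : IsClosed {p : ℝ × (Fin d → ℝ) | p.1 ∈ Icc T1 T'} :=
      isClosed_Icc.preimage continuous_fst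
    have e2 : IsClosed {p : ℝ × (Fin d → ℝ) | ∀ i, ell (n i) p.2 ≤ h i p.1} := by
      rw [Set.ofPred_forall]
      exact isClosed_iInter fun i =>
        isClosed_le ((ell (n i)).continuous.comp continuous_snd)
          ((hcont i).comp continuous_fst)
    have e3 : IsClosed {p : ℝ × (Fin d → ℝ) | p.2 - c ∈ S} :=
      hSc.preimage (continuous_snd.sub continuous_const)
    exact e1.inter (e2.inter e3)
  have hKb : Bornology.IsBounded 𝒦 := by
    refine Bornology.IsBounded.subset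
      ((Metric.isBounded_Icc T1 T').prod (Metric.isBounded_closedBall (x := (0 : Fin d → ℝ))
        (r := R))) ?_
    rintro ⟨T, y⟩ ⟨h1, h2, -⟩
    exact ⟨h1, by simpa using hR T h1 y h2⟩
  have hK : IsCompact 𝒦 := Metric.isCompact_of_isClosed_isBounded hKc hKb
  have hε1 : ∀ i, ∀ᶠ ε in 𝓝[>] (0:ℝ), ∀ p ∈ 𝒦, ε ≤ h i p.1 - ell (n i) p.2 ∨
      ell (n i) (w p.2) ≤ -ε := by
    intro i
    let F : ℝ × (Fin d → ℝ) → ℝ := fun p =>
      max (h i p.1 - ell (n i) p.2) (-(ell (n i) (w p.2)))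
    have hF : Continuous F := by
      refine Continuous.max ?_ ?_
      · exact ((hcont i).comp continuous_fst).sub ((ell (n i)).continuous.comp continuous_snd)
      · exact ((ell (n i)).continuous.comp (hw.comp continuous_snd)).neg
    have hpos : ∀ p ∈ 𝒦, 0 < F p := by
      rintro ⟨T, y⟩ ⟨h1, h2, h3⟩
      rcases lt_or_eq_of_le (h2 i) with hlt | heq
      · exact lt_max_of_lt_left (sub_pos.2 hlt)
      · exact lt_max_of_lt_right (neg_pos.2 (hin T h1 y h2 h3 i heq))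
    obtain ⟨ε0, hε0, hε0'⟩ : ∃ ε0 > 0, ∀ p ∈ 𝒦, ε0 ≤ F p := by
      rcases 𝒦.eq_empty_or_nonempty with he | hne
      · exact ⟨1, one_pos, by simp [he]⟩
      · obtain ⟨p0, hp0, hmin⟩ := hK.exists_isMinOn hne hF.continuousOn
        exact ⟨F p0, hpos p0 hp0, fun p hp => hmin hp⟩
    have : Ioc 0 ε0 ∈ 𝓝[>] (0:ℝ) := Ioc_mem_nhdsGT hε0
    filter_upwards [this] with ε hε p hp
    have h1 := hε.2.trans (hε0' p hp)
    rcases le_max_iff.1 h1 with h2 | h2
    · exact Or.inl h2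
    · exact Or.inr (by linarith)
  obtain ⟨ε, hε, hεpos'⟩ := ((eventually_all.2 hε1).and self_mem_nhdsWithin).exists
  have hεpos : 0 < ε := hεpos'
  have hη1 : ∀ i, ∀ᶠ η in 𝓝[>] (0:ℝ), ∀ T ∈ Icc T1 T', ∀ T'' ∈ Icc T1 T', |T - T''| ≤ η →
      h i T ≤ h i T'' + ε / 2 := by
    intro i
    have huc := isCompact_Icc.uniformContinuousOn_of_continuous
      ((hcont i).continuousOn (s := Icc T1 T'))
    rw [Metric.uniformContinuousOn_iff] at huc
    obtain ⟨δ, hδ, hδ'⟩ := huc (ε / 2) (by linarith)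
    filter_upwards [Ioo_mem_nhdsGT hδ] with η hη T hT T'' hT'' hd
    have := hδ' T hT T'' hT'' (by rw [Real.dist_eq]; exact hd.trans_lt hη.2)
    rw [Real.dist_eq] at this
    have := (abs_lt.1 this).2
    linarith
  obtain ⟨η, hη, hηpos'⟩ := ((eventually_all.2 hη1).and self_mem_nhdsWithin).exists
  have hηpos : 0 < η := hηpos'
  have hiter : ∀ m : ℕ, ∀ i, ell (n i) (x m) ≤ h i (max T1 (T' - m * η)) := by
    intro m
    induction m with
    | zero =>
      intro i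
      have : max T1 (T' - ((0:ℕ):ℝ) * η) = T' := by
        simp [hT]
      rw [this]
      simpa using h0 i
    | succ m ih =>
      intro i
      set T := max T1 (T' - m * η) with hTdef
      have hm0 : (0:ℝ) ≤ m := Nat.cast_nonneg m
      have hTm : T ∈ Icc T1 T' :=
        ⟨le_max_left _ _, max_le hT (by nlinarith [mul_nonneg hm0 hηpos.le])⟩
      have hstay := invariant n (fun i => h i T) c hwS (hin T hTm) hx hc hm0 ih
      have hb := barrier hx (ell (n i)) hm0 hεpos (ih i) (fun t ht =>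
        hε i ⟨T, x t⟩ ⟨hTm, hstay t ht, hx.sub_mem hwS hc (hm0.trans ht)⟩)
      have hm1 : ((m + 1 : ℕ) : ℝ) = (m : ℝ) + 1 := by push_cast; ring
      rw [hm1]
      set T'' := max T1 (T' - ((m:ℝ) + 1) * η) with hT''def
      have hm2 : (0:ℝ) ≤ (m:ℝ) + 1 := by positivity
      have hTm'' : T'' ∈ Icc T1 T' :=
        ⟨le_max_left _ _, max_le hT (by nlinarith [mul_nonneg hm2 hηpos.le])⟩
      have hd : |T - T''| ≤ η := by
        have := abs_max_sub_max_le_max T1 (T' - m * η) T1 (T' - ((m:ℝ) + 1) * η)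
        refine this.trans ?_
        have e1 : T' - m * η - (T' - ((m:ℝ) + 1) * η) = η := by ring
        rw [e1, sub_self, abs_zero, abs_of_pos hηpos]
        exact max_le hηpos.le le_rfl
      have := hη i T hTm T'' hTm'' hd
      linarith
  obtain ⟨m, hm⟩ := exists_nat_ge ((T' - T1) / η)
  rw [div_le_iff₀ hηpos] at hm
  have hmax : max T1 (T' - m * η) = T1 := max_eq_left (by linarith)
  have hfin := hiter m
  rw [hmax] at hfin
  exact ⟨m, Nat.cast_nonneg m, invariant n (fun i => h i T1) c hwS (hin T1 ⟨le_rfl, hT⟩) hx hc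
    (Nat.cast_nonneg m) hfin⟩

/-- clamp to a box -/
lemma clamp_lip (lo hi : ℝ) : LipschitzWith 1
    (fun (y : Fin d → ℝ) (a : Fin d) => max lo (min hi (y a))) := by
  intro y z
  refine edist_pi_le_iff.2 fun a => ?_
  have h1 : LipschitzWith 1 (fun y : Fin d → ℝ => y a) := LipschitzWith.eval a
  have h2 : LipschitzWith 1 (fun s : ℝ => max lo (min hi s)) := by
    have := (LipschitzWith.id (α := ℝ)).const_min hi
    exact this.const_max lo
  simpa using (h2.comp h1) y z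

end ode

theorem ode_main {d : ℕ} (v : (Fin d → ℝ) → (Fin d → ℝ)) (hv : ContDiff ℝ 1 v)
    (S : Submodule ℝ (Fin d → ℝ)) (hvS : ∀ x, v x ∈ S)
    {ι : Type} [Fintype ι] (n : ι → Fin d → ℝ) (h : ι → ℝ → ℝ) (T0 : ℝ)
    (hcont : ∀ i, Continuous (h i))
    (hpos : ∀ T ≥ T0, ∃ lo hi : ℝ, 0 < lo ∧ ∀ x : Fin d → ℝ, (∀ i, ∑ a, n i a * x a ≤ h i T) →
        ∀ a, lo ≤ x a ∧ x a ≤ hi)
    (hexh : ∀ x : Fin d → ℝ, (∀ a, 0 < x a) → ∃ T1, ∀ T ≥ T1, ∀ i, ∑ a, n i a * x a < h i T)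
    (hin : ∀ T ≥ T0, ∀ x : Fin d → ℝ, (∀ i, ∑ a, n i a * x a ≤ h i T) → ∀ i,
        ∑ a, n i a * x a = h i T →
          (∑ a, n i a * v x a < 0) ∨ (∀ y ∈ S, ∑ a, n i a * y a = 0))
    (c : Fin d → ℝ) (hc : ∀ a, 0 < c a) :
    ∃ K : Set (Fin d → ℝ), (∀ x ∈ K, (∀ a, 0 < x a) ∧ x - c ∈ S) ∧ K.Nonempty ∧ IsCompact K ∧
      Convex ℝ K ∧
      (∀ x : ℝ → (Fin d → ℝ), (∀ t : ℝ, 0 ≤ t → HasDerivWithinAt x (v (x t)) (Set.Ici 0) t) →
        x 0 ∈ K → ∀ t : ℝ, 0 ≤ t → x t ∈ K) ∧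
      (∀ x₀ : Fin d → ℝ, (∀ a, 0 < x₀ a) → x₀ - c ∈ S →
        (∃ x : ℝ → (Fin d → ℝ),
          (∀ t : ℝ, 0 ≤ t → HasDerivWithinAt x (v (x t)) (Set.Ici 0) t) ∧ x 0 = x₀) ∧
        (∀ x x' : ℝ → (Fin d → ℝ),
          (∀ t : ℝ, 0 ≤ t → HasDerivWithinAt x (v (x t)) (Set.Ici 0) t) →
          (∀ t : ℝ, 0 ≤ t → HasDerivWithinAt x' (v (x' t)) (Set.Ici 0) t) → x 0 = x₀ → x' 0 = x₀ →
          ∀ t : ℝ, 0 ≤ t → x t = x' t) ∧
        (∀ x : ℝ → (Fin d → ℝ),
          (∀ t : ℝ, 0 ≤ t → HasDerivWithinAt x (v (x t)) (Set.Ici 0) t) → x 0 = x₀ →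
          (∀ t : ℝ, 0 ≤ t → ∀ a, 0 < x t a) ∧ ∃ T : ℝ, 0 ≤ T ∧ ∀ t : ℝ, T ≤ t → x t ∈ K)) := by
  simp only [← ell_apply] at hpos hexh hin
  obtain ⟨Tc, hTc⟩ := hexh c hc
  set T1 := max T0 Tc with hT1
  have hT10 : T0 ≤ T1 := le_max_left _ _
  have hcT : ∀ T ≥ T1, ∀ i, ell (n i) c < h i T := fun T hT => hTc T ((le_max_right _ _).trans hT)
  -- inward condition without the perp case
  have hin' : ∀ T ≥ T1, ∀ y, (∀ i, ell (n i) y ≤ h i T) → y - c ∈ S → ∀ i, ell (n i) y = h i T →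
      ell (n i) (v y) < 0 := by
    intro T hT y hy hyc i hi
    rcases hin T (hT10.trans hT) y hy i hi with h1 | h1
    · exact h1
    · exfalso
      have h2 := h1 _ hyc
      rw [map_sub] at h2
      have h3 := hcT T hT i
      linarith
  have hSc : IsClosed (S : Set (Fin d → ℝ)) := S.closed_of_finiteDimensional
  have hCc : ∀ T, IsClosed {y : Fin d → ℝ | ∀ i, ell (n i) y ≤ h i T} := by
    intro T
    rw [Set.ofPred_forall]
    exact isClosed_iInter fun i => isClosed_le (ell (n i)).continuous continuous_const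
  -- norm bounds
  have hnorm : ∀ T ≥ T1, ∃ R, ∀ y : Fin d → ℝ, (∀ i, ell (n i) y ≤ h i T) → ‖y‖ ≤ R := by
    intro T hT
    obtain ⟨lo, hi, hlo, hb⟩ := hpos T (hT10.trans hT)
    refine ⟨max 0 hi, fun y hy => ?_⟩
    rw [pi_norm_le_iff_of_nonneg (le_max_left _ _)]
    intro a
    have := hb y hy a
    rw [Real.norm_of_nonneg (hlo.le.trans this.1)]
    exact this.2.trans (le_max_right _ _)
  set K : Set (Fin d → ℝ) := {y | (∀ i, ell (n i) y ≤ h i T1) ∧ y - c ∈ S} with hKdef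
  have hposK : ∀ T ≥ T1, ∀ y : Fin d → ℝ, (∀ i, ell (n i) y ≤ h i T) → ∀ a, 0 < y a := by
    intro T hT y hy a
    obtain ⟨lo, hi, hlo, hb⟩ := hpos T (hT10.trans hT)
    exact hlo.trans_le (hb y hy a).1
  have hT'ex : ∀ x₀ : Fin d → ℝ, (∀ a, 0 < x₀ a) → ∃ T' ≥ T1, ∀ i, ell (n i) x₀ ≤ h i T' := by
    intro x₀ hx₀
    obtain ⟨Tx, hTx⟩ := hexh x₀ hx₀
    exact ⟨max T1 Tx, le_max_left _ _, fun i => (hTx _ (le_max_right _ _) i).le⟩
  refine ⟨K, ?_, ?_, ?_, ?_, ?_, ?_⟩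
  · rintro y ⟨hy1, hy2⟩
    exact ⟨hposK T1 le_rfl y hy1, hy2⟩
  · exact ⟨c, fun i => (hcT T1 le_rfl i).le, by simp⟩
  · apply Metric.isCompact_of_isClosed_isBounded
    · exact (hCc T1).inter (hSc.preimage (continuous_id.sub continuous_const))
    · obtain ⟨R, hR⟩ := hnorm T1 le_rfl
      refine Bornology.IsBounded.subset (Metric.isBounded_closedBall (x := (0 : Fin d → ℝ))
        (r := R)) ?_
      rintro y ⟨hy, -⟩
      simpa using hR y hy
  · rintro y ⟨hy1, hy2⟩ z ⟨hz1, hz2⟩ a b ha hb hab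
    refine ⟨fun i => ?_, ?_⟩
    · rw [map_add, map_smul, map_smul, smul_eq_mul, smul_eq_mul]
      have e1 := mul_le_mul_of_nonneg_left (hy1 i) ha
      have e2 := mul_le_mul_of_nonneg_left (hz1 i) hb
      have e3 : a * h i T1 + b * h i T1 = h i T1 := by rw [← add_mul, hab, one_mul]
      linarith
    · have : a • y + b • z - c = a • (y - c) + b • (z - c) := by
        rw [smul_sub, smul_sub]
        have : c = a • c + b • c := by rw [← add_smul, hab, one_smul]
        nth_rw 1 [this]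
        abel
      rw [this]
      exact S.add_mem (S.smul_mem _ hy2) (S.smul_mem _ hz2)
  · intro x hx hx0 t ht
    have hx' : Sol v x := hx
    exact ⟨invariant n (fun i => h i T1) c hvS (hin' T1 le_rfl) hx' hx0.2 le_rfl hx0.1 t ht,
      hx'.sub_mem hvS hx0.2 ht⟩
  · intro x₀ hx₀ hx₀c
    obtain ⟨T', hT', hx₀T'⟩ := hT'ex x₀ hx₀
    obtain ⟨lo, hi, hlo, hb⟩ := hpos T' (hT10.trans hT')
    -- the box
    set B : Set (Fin d → ℝ) := Set.pi univ (fun _ => Icc lo hi) with hB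
    have hBc : IsCompact B := isCompact_univ_pi fun _ => isCompact_Icc
    have hBconv : Convex ℝ B := convex_pi fun _ _ => convex_Icc _ _
    have hmemB : ∀ y : Fin d → ℝ, (∀ i, ell (n i) y ≤ h i T') → y ∈ B := fun y hy a _ =>
      ⟨(hb y hy a).1, (hb y hy a).2⟩
    obtain ⟨L, hL⟩ : ∃ L : ℝ≥0, LipschitzOnWith L v B := by
      have := (hv.locallyLipschitz).locallyLipschitzOn (s := B)
      exact this.exists_lipschitzOnWith_of_compact hBc
    refine ⟨?_, ?_, ?_⟩
    · -- existence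
      set cl : (Fin d → ℝ) → (Fin d → ℝ) := fun y a => max lo (min hi (y a)) with hcl
      have hlohi : ∀ a : Fin d, lo ≤ hi := fun a =>
        (hb x₀ hx₀T' a).1.trans (hb x₀ hx₀T' a).2
      have hclB : ∀ y, cl y ∈ B := fun y a _ =>
        ⟨le_max_left _ _, max_le (hlohi a) (min_le_left _ _)⟩
      have hcl_eq : ∀ y ∈ B, cl y = y := by
        intro y hy
        funext a
        have := hy a trivial
        simp only [hcl]
        rw [min_eq_right this.2, max_eq_right this.1]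
      have hwlip : LipschitzWith L (fun y => v (cl y)) := by
        intro y z
        have h1 := hL (hclB y) (hclB z)
        have h2 := clamp_lip (d := d) lo hi y z
        refine h1.trans ?_
        have h3 : edist (cl y) (cl z) ≤ edist y z := by simpa using h2
        gcongr
      obtain ⟨M, hM⟩ : ∃ M : ℝ, ∀ y ∈ B, ‖v y‖ ≤ M := hBc.exists_bound_of_continuousOn
        hv.continuous.continuousOn
      obtain ⟨x, hx0, hx⟩ := exists_sol (w := fun y => v (cl y)) hwlip (M := M.toNNReal)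
        (fun y => (hM _ (hclB y)).trans (Real.le_coe_toNNReal M)) x₀
      have hstay := invariant (w := fun y => v (cl y)) n (fun i => h i T') c
        (fun y => hvS _) (fun y hy hyc i hi' => by
          have e := hcl_eq y (hmemB y hy)
          simp only [e]
          exact hin' T' hT' y hy hyc i hi') hx (by rw [hx0]; exact hx₀c) le_rfl
          (by rw [hx0]; exact hx₀T')
      refine ⟨x, fun t ht => ?_, hx0⟩
      have := hx t ht
      have e := hcl_eq (x t) (hmemB _ (hstay t ht))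
      simp only [e] at this
      exact this
    · -- uniqueness
      intro x x' hx hx' hx0 hx0' t ht
      have hs : Sol v x := hx
      have hs' : Sol v x' := hx'
      have hstay := invariant n (fun i => h i T') c hvS (hin' T' hT') hs
        (by rw [hx0]; exact hx₀c) le_rfl (by rw [hx0]; exact hx₀T')
      have hstay' := invariant n (fun i => h i T') c hvS (hin' T' hT') hs'
        (by rw [hx0']; exact hx₀c) le_rfl (by rw [hx0']; exact hx₀T')
      have key := ODE_solution_unique_of_mem_Icc_right (v := fun _ => v) (s := fun _ => B)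
        (K := L) (f := x) (g := x') (a := 0) (b := t)
        (fun _ _ => hL) (hs.continuousOn.mono Icc_subset_Ici_self)
        (fun s hs1 => (hx s hs1.1).mono (Ici_subset_Ici.2 hs1.1))
        (fun s hs1 => hmemB _ (hstay s hs1.1)) (hs'.continuousOn.mono Icc_subset_Ici_self)
        (fun s hs1 => (hx' s hs1.1).mono (Ici_subset_Ici.2 hs1.1))
        (fun s hs1 => hmemB _ (hstay' s hs1.1)) (by rw [hx0, hx0'])
      exact key ⟨ht, le_rfl⟩
    · intro x hx hx0
      have hs : Sol v x := hx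
      have hstay := invariant n (fun i => h i T') c hvS (hin' T' hT') hs
        (by rw [hx0]; exact hx₀c) le_rfl (by rw [hx0]; exact hx₀T')
      refine ⟨fun t ht a => hposK T' hT' _ (hstay t ht) a, ?_⟩
      -- uniform bound
      obtain ⟨H, hH⟩ : ∃ H : ℝ, ∀ i, ∀ T ∈ Icc T1 T', h i T ≤ H := by
        have : ∀ i, ∃ H : ℝ, ∀ T ∈ Icc T1 T', h i T ≤ H := by
          intro i
          obtain ⟨H, hH⟩ := (isCompact_Icc (a := T1) (b := T')).exists_bound_of_continuousOn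
            (hcont i).continuousOn
          exact ⟨H, fun T hT => (le_abs_self _).trans (hH T hT)⟩
        choose H hH using this
        refine ⟨∑ i, |H i|, fun i T hT => (hH i T hT).trans ((le_abs_self _).trans ?_)⟩
        exact Finset.single_le_sum (f := fun i => |H i|) (fun _ _ => abs_nonneg _)
          (Finset.mem_univ i)
      obtain ⟨R, hR⟩ := hnorm T1 le_rfl
      obtain ⟨R', hR'⟩ := bounded_aux n (fun i => h i T1) c (hcT T1 le_rfl) hR H
      obtain ⟨T, hT0, hT⟩ := absorb n h hcont c hv.continuous hvS hT'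
        (fun T hT y hy => hR' y fun i => (hy i).trans (hH i T hT))
        (fun T hT => hin' T hT.1) hs (by rw [hx0]; exact hx₀c) (by rw [hx0]; exact hx₀T')
      exact ⟨T, hT0, fun t ht => ⟨hT t ht, hs.sub_mem hvS (by rw [hx0]; exact hx₀c)
        (hT0.trans ht)⟩⟩

end Crest.Agent.S0122
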