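import Mathlib
import Crest.Prelude.Def_MassAction

/-!
Row 92 (S0122), chunk B: the toric differential inclusion lemma for weakly reversible networks.
-/

set_option autoImplicit false

namespace Crest.Agent.S0122

open Crest.AnalysisR.MassAction
open MeasureTheory Filter Topology

/-- a path from above the level `t` to below it has a step that crosses `t`. -/
lemma exists_cross {α : Type*} (ρ : α → α → Prop) (l : α → ℝ) (t : ℝ) {a b : α}
    (h : Relation.ReflTransGen ρ a b) (ha : t < l a) (hb : l b ≤ t) :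
    ∃ u u', ρ u u' ∧ t < l u ∧ l u' ≤ t := by
  induction h using Relation.ReflTransGen.head_induction_on with
  | refl => exact absurd ha (not_lt.2 hb)
  | @head a c hac _ ih =>
    rcases lt_or_ge t (l c) with hc | hc
    · exact ih hc
    · exact ⟨a, c, hac, ha, hc⟩

/-- the rise of a reaction is at most the total drop of the reactions with higher source. -/
lemma up_le {d : ℕ} (R : Network d) (hR : IsWeaklyReversible R) (l : (Fin d → ℕ) → ℝ)
    {r : (Fin d → ℕ) × (Fin d → ℕ)} (hr : r ∈ R) :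
    max (l r.2 - l r.1) 0 ≤ ∑ s ∈ R with l r.1 < l s.1, max (l s.1 - l s.2) 0 := by
  classical
  rcases le_or_gt (l r.2 - l r.1) 0 with h0 | h0
  · rw [max_eq_right h0]
    exact Finset.sum_nonneg fun s _ => le_max_right _ _
  rw [max_eq_left h0.le]
  have hcov : Set.Ico (l r.1) (l r.2) ⊆
      ⋃ s ∈ R.filter (fun s => l r.1 < l s.1), Set.Ico (l s.2) (l s.1) := by
    intro t ht
    obtain ⟨u, u', huu, hu, hu'⟩ := exists_cross _ l t (hR r hr) ht.2 ht.1
    simp only [Set.mem_iUnion]
    exact ⟨(u, u'), Finset.mem_filter.2 ⟨huu, lt_of_le_of_lt ht.1 hu⟩, hu', hu⟩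
  have h1 := (measure_mono hcov).trans (measure_biUnion_finset_le (μ := (volume : Measure ℝ)) _ _)
  simp only [Real.volume_Ico] at h1
  have h2 : ∑ s ∈ R with l r.1 < l s.1, ENNReal.ofReal (l s.1 - l s.2) =
      ENNReal.ofReal (∑ s ∈ R with l r.1 < l s.1, max (l s.1 - l s.2) 0) := by
    rw [ENNReal.ofReal_sum_of_nonneg fun s _ => le_max_right _ _]
    refine Finset.sum_congr rfl fun s _ => ?_
    rcases le_or_gt (l s.1 - l s.2) 0 with h | h
    · rw [max_eq_right h, ENNReal.ofReal_of_nonpos h, ENNReal.ofReal_zero]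
    · rw [max_eq_left h.le]
  rw [h2] at h1
  exact (ENNReal.ofReal_le_ofReal_iff (Finset.sum_nonneg fun s _ => le_max_right _ _)).1 h1

theorem tdi {d : ℕ} (R : Network d) (hR : IsWeaklyReversible R)
    (k : (Fin d → ℕ) × (Fin d → ℕ) → ℝ) (hk : ∀ r ∈ R, 0 < k r)
    (Λ : ℕ) (hΛ : ∀ r ∈ R, ∀ i, r.1 i ≤ Λ ∧ r.2 i ≤ Λ) :
    ∃ δ : ℝ, 0 ≤ δ ∧ ∀ x : Fin d → ℝ, (∀ i, 0 < x i) → ∀ n : Fin d → ℝ,
      (∀ w : Fin d → ℤ, (∀ i, |w i| ≤ (Λ : ℤ)) → 0 < ∑ i, (w i : ℝ) * n i →
        δ ≤ ∑ i, (w i : ℝ) * Real.log (x i)) →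
      (∑ i, n i * field R k x i < 0) ∨ (∀ y ∈ stoichSubspace R, ∑ i, n i * y i = 0) := by
  classical
  set K : ℝ := ∑ r ∈ R, k r with hK
  -- choice of `δ`
  obtain ⟨δ, hδ0, hδ⟩ : ∃ δ : ℝ, 0 ≤ δ ∧ ∀ s ∈ R, K * Real.exp (-δ) < k s := by
    have h1 : Tendsto (fun δ : ℝ => K * Real.exp (-δ)) atTop (𝓝 (K * 0)) :=
      (Real.tendsto_exp_neg_atTop_nhds_zero).const_mul K
    rw [mul_zero] at h1
    have h2 : ∀ᶠ δ : ℝ in atTop, ∀ s ∈ R, K * Real.exp (-δ) < k s := by
      rw [Filter.eventually_all_finset]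
      intro s hs
      exact h1.eventually_lt_const (hk s hs)
    obtain ⟨δ, h3, h4⟩ := (h2.and (eventually_ge_atTop (0 : ℝ))).exists
    exact ⟨δ, h4, h3⟩
  refine ⟨δ, hδ0, fun x hx n hn => ?_⟩
  set l : (Fin d → ℕ) → ℝ := fun y => ∑ i, n i * (y i : ℝ) with hl
  set X : (Fin d → ℕ) → ℝ := fun y => ∏ i, x i ^ (y i) with hX
  have hXpos : ∀ y, 0 < X y := fun y => Finset.prod_pos fun i _ => pow_pos (hx i) _
  have hXexp : ∀ y, X y = Real.exp (∑ i, (y i : ℝ) * Real.log (x i)) := by
    intro y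
    rw [Real.exp_sum]
    refine Finset.prod_congr rfl fun i _ => ?_
    rw [mul_comm, Real.exp_mul, Real.exp_log (hx i), Real.rpow_natCast]
  have hpair : ∀ r : (Fin d → ℕ) × (Fin d → ℕ),
      ∑ i, n i * reactionVector r i = l r.2 - l r.1 := by
    intro r
    simp only [hl, reactionVector, mul_sub, Finset.sum_sub_distrib]
  have hfield : ∑ i, n i * field R k x i = ∑ r ∈ R, k r * X r.1 * (l r.2 - l r.1) := by
    have : ∀ i, n i * field R k x i =
        ∑ r ∈ R, k r * X r.1 * (n i * reactionVector r i) := by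
      intro i
      simp only [field, Finset.sum_apply, Pi.smul_apply, smul_eq_mul, Finset.mul_sum, hX]
      exact Finset.sum_congr rfl fun r _ => by ring
    simp only [this]
    rw [Finset.sum_comm]
    refine Finset.sum_congr rfl fun r _ => ?_
    rw [← hpair r, Finset.mul_sum]
  -- comparison of monomials
  have hcmp : ∀ r ∈ R, ∀ s ∈ R, l r.1 < l s.1 → X r.1 ≤ Real.exp (-δ) * X s.1 := by
    intro r hr s hs hlt
    have h1 := hn (fun i => (s.1 i : ℤ) - (r.1 i : ℤ)) (fun i => by
      have h2 := (hΛ r hr i).1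
      have h3 := (hΛ s hs i).1
      rw [abs_le]
      constructor <;> omega) (by
      have h4 : ∑ i, (((s.1 i : ℤ) - (r.1 i : ℤ) : ℤ) : ℝ) * n i = l s.1 - l r.1 := by
        simp only [hl]
        rw [← Finset.sum_sub_distrib]
        refine Finset.sum_congr rfl fun i _ => ?_
        push_cast
        ring
      rw [h4]
      linarith)
    have h5 : ∑ i, (((s.1 i : ℤ) - (r.1 i : ℤ) : ℤ) : ℝ) * Real.log (x i) =
        ∑ i, (s.1 i : ℝ) * Real.log (x i) - ∑ i, (r.1 i : ℝ) * Real.log (x i) := by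
      rw [← Finset.sum_sub_distrib]
      refine Finset.sum_congr rfl fun i _ => ?_
      push_cast
      ring
    rw [h5] at h1
    rw [hXexp, hXexp, ← Real.exp_add]
    exact Real.exp_le_exp.2 (by linarith)
  -- the total rise is controlled by the total drop
  have hup : ∑ r ∈ R, k r * X r.1 * max (l r.2 - l r.1) 0 ≤
      ∑ s ∈ R, K * Real.exp (-δ) * X s.1 * max (l s.1 - l s.2) 0 := by
    have h1 : ∀ r ∈ R, k r * X r.1 * max (l r.2 - l r.1) 0 ≤
        ∑ s ∈ R, k r * (Real.exp (-δ) * X s.1 * max (l s.1 - l s.2) 0) := by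
      intro r hr
      have hkX : 0 ≤ k r * X r.1 := (mul_pos (hk r hr) (hXpos _)).le
      calc k r * X r.1 * max (l r.2 - l r.1) 0
          ≤ k r * X r.1 * ∑ s ∈ R with l r.1 < l s.1, max (l s.1 - l s.2) 0 :=
            mul_le_mul_of_nonneg_left (up_le R hR l hr) hkX
        _ = ∑ s ∈ R with l r.1 < l s.1, k r * (X r.1 * max (l s.1 - l s.2) 0) := by
            rw [Finset.mul_sum]
            exact Finset.sum_congr rfl fun s _ => by ring
        _ ≤ ∑ s ∈ R with l r.1 < l s.1,
              k r * (Real.exp (-δ) * X s.1 * max (l s.1 - l s.2) 0) := by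
            refine Finset.sum_le_sum fun s hs => ?_
            rw [Finset.mem_filter] at hs
            exact mul_le_mul_of_nonneg_left
              (mul_le_mul_of_nonneg_right (hcmp r hr s hs.1 hs.2) (le_max_right _ _)) (hk r hr).le
        _ ≤ _ := by
            refine Finset.sum_le_sum_of_subset_of_nonneg (Finset.filter_subset _ _) ?_
            intro s _ _
            exact mul_nonneg (hk r hr).le
              (mul_nonneg (mul_nonneg (Real.exp_pos _).le (hXpos _).le) (le_max_right _ _))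
    refine (Finset.sum_le_sum h1).trans (le_of_eq ?_)
    rw [Finset.sum_comm]
    refine Finset.sum_congr rfl fun s _ => ?_
    rw [← Finset.sum_mul, ← hK]
    ring
  have hsplit : ∑ r ∈ R, k r * X r.1 * (l r.2 - l r.1) =
      ∑ r ∈ R, k r * X r.1 * max (l r.2 - l r.1) 0 -
        ∑ r ∈ R, k r * X r.1 * max (l r.1 - l r.2) 0 := by
    rw [← Finset.sum_sub_distrib]
    refine Finset.sum_congr rfl fun r _ => ?_
    rw [← mul_sub]
    congr 1
    rcases le_total (l r.2 - l r.1) 0 with h | h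
    · rw [max_eq_right h, max_eq_left (by linarith)]; ring
    · rw [max_eq_left h, max_eq_right (by linarith)]; ring
  by_cases hdn : ∃ s ∈ R, 0 < l s.1 - l s.2
  · left
    obtain ⟨s, hs, hs0⟩ := hdn
    rw [hfield, hsplit]
    have h1 : ∑ s ∈ R, K * Real.exp (-δ) * X s.1 * max (l s.1 - l s.2) 0 <
        ∑ r ∈ R, k r * X r.1 * max (l r.1 - l r.2) 0 := by
      refine Finset.sum_lt_sum (fun r hr => ?_) ⟨s, hs, ?_⟩
      · exact mul_le_mul_of_nonneg_right
          (mul_le_mul_of_nonneg_right (hδ r hr).le (hXpos _).le) (le_max_right _ _)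
      · exact mul_lt_mul_of_pos_right (mul_lt_mul_of_pos_right (hδ s hs) (hXpos _))
          (lt_of_lt_of_le hs0 (le_max_left _ _))
    linarith
  · right
    have hdn' : ∀ s ∈ R, max (l s.1 - l s.2) 0 = 0 := fun s hs =>
      max_eq_right (not_lt.1 fun h => hdn ⟨s, hs, h⟩)
    have heq : ∀ r ∈ R, l r.2 - l r.1 = 0 := by
      intro r hr
      have h1 := up_le R hR l hr
      rw [Finset.sum_eq_zero fun s hs => hdn' s (Finset.mem_filter.1 hs).1] at h1
      have h2 := (le_max_left _ _).trans h1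
      have h3 := max_eq_right_iff.1 (hdn' r hr)
      linarith
    intro y hy
    unfold stoichSubspace at hy
    induction hy using Submodule.span_induction with
    | mem y hy =>
      obtain ⟨r, hr, rfl⟩ := hy
      rw [hpair r]
      exact heq r hr
    | zero => simp
    | add y z _ _ h1 h2 =>
      simp only [Pi.add_apply, mul_add, Finset.sum_add_distrib, h1, h2, add_zero]
    | smul c y _ h1 =>
      have : ∀ i, n i * (c • y) i = c * (n i * y i) := fun i => by
        simp only [Pi.smul_apply, smul_eq_mul]; ring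
      simp only [this, ← Finset.mul_sum, h1, mul_zero]

end Crest.Agent.S0122
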