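import Crest.Statements.S0122
import Crest.Agent.S0122_Tdi
import Crest.Agent.S0122_Ode
import Crest.Agent.S0122_Geom

set_option autoImplicit false
open Crest.AnalysisR.MassAction
open Crest Crest.AnalysisR Crest.AnalysisR.MassAction

namespace Crest.Agent.S0122

/-- the mass-action field is smooth -/
theorem contDiff_field {d : ℕ} (R : Network d) (k : (Fin d → ℕ) × (Fin d → ℕ) → ℝ) :
    ContDiff ℝ 1 (field R k) := by
  unfold field
  fun_prop

theorem field_mem {d : ℕ} (R : Network d) (k : (Fin d → ℕ) × (Fin d → ℕ) → ℝ) (x : Fin d → ℝ) :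
    field R k x ∈ stoichSubspace R := by
  unfold field
  refine Submodule.sum_mem _ fun r hr => ?_
  exact Submodule.smul_mem _ _ (Submodule.subset_span ⟨r, hr, rfl⟩)

/-- For a finite reaction network on `d ≥ 1` species that is weakly reversible, with positive rate constants and mass-action kinetics, every positive stoichiometric class `P` contains a nonempty compact convex set `K` that is forward invariant and absorbing: from every point of `P` there is a solution defined for all forward time, it is unique, it stays coordinatewise positive, and it lies in `K` from some finite time on. -/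
theorem result
    (d : ℕ) (hd : 1 ≤ d) (R : Network d) (hR : IsWeaklyReversible R)
    (k : (Fin d → ℕ) × (Fin d → ℕ) → ℝ) (hk : ∀ r ∈ R, 0 < k r)
    (c : Fin d → ℝ) (hc : ∀ i, 0 < c i) :
    ∃ K : Set (Fin d → ℝ), K ⊆ positiveClass R c ∧ K.Nonempty ∧ IsCompact K ∧ Convex ℝ K ∧
      (∀ x : ℝ → (Fin d → ℝ), IsForwardSolution (field R k) x → x 0 ∈ K →
        ∀ t : ℝ, 0 ≤ t → x t ∈ K) ∧
      (∀ x₀ ∈ positiveClass R c,
        (∃ x : ℝ → (Fin d → ℝ), IsForwardSolution (field R k) x ∧ x 0 = x₀) ∧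
        (∀ x x' : ℝ → (Fin d → ℝ), IsForwardSolution (field R k) x →
          IsForwardSolution (field R k) x' → x 0 = x₀ → x' 0 = x₀ →
          ∀ t : ℝ, 0 ≤ t → x t = x' t) ∧
        (∀ x : ℝ → (Fin d → ℝ), IsForwardSolution (field R k) x → x 0 = x₀ →
          (∀ t : ℝ, 0 ≤ t → ∀ i, 0 < x t i) ∧
          ∃ T : ℝ, 0 ≤ T ∧ ∀ t : ℝ, T ≤ t → x t ∈ K)) := by
  -- a bound for all entries of complexes
  obtain ⟨Λ, hΛ⟩ : ∃ Λ : ℕ, ∀ r ∈ R, ∀ i, r.1 i ≤ Λ ∧ r.2 i ≤ Λ := by
    refine ⟨∑ r ∈ R, ∑ i, (r.1 i + r.2 i), fun r hr i => ?_⟩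
    have h1 : r.1 i + r.2 i ≤ ∑ j, (r.1 j + r.2 j) :=
      Finset.single_le_sum (f := fun j => r.1 j + r.2 j) (fun _ _ => Nat.zero_le _)
        (Finset.mem_univ i)
    have h2 : ∑ j, (r.1 j + r.2 j) ≤ ∑ r ∈ R, ∑ i, (r.1 i + r.2 i) :=
      Finset.single_le_sum (f := fun r : (Fin d → ℕ) × (Fin d → ℕ) => ∑ i, (r.1 i + r.2 i))
        (fun _ _ => Nat.zero_le _) hr
    omega
  obtain ⟨δ, hδ0, hδ⟩ := tdi R hR k hk Λ hΛ
  obtain ⟨ι, _, nv, h, T0, hcont, hpos, hexh, hcompat⟩ := geometry d Λ δ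
  obtain ⟨K, hK1, hK2, hK3, hK4, hK5, hK6⟩ := ode_main (field R k) (contDiff_field R k)
    (stoichSubspace R) (field_mem R k) nv h T0 hcont hpos hexh (by
      intro T hT x hx i hi
      obtain ⟨lo, hi', hlo, hlohi⟩ := hpos T hT
      exact hδ x (fun a => lt_of_lt_of_le hlo (hlohi x hx a).1) (nv i)
        (hcompat T hT x hx i hi)) c hc
  refine ⟨K, fun x hx => hK1 x hx, hK2, hK3, hK4, hK5, ?_⟩
  intro x₀ hx₀
  exact hK6 x₀ hx₀.1 hx₀.2

end Crest.Agent.S0122
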