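import Crest.Statements.S0126
import Crest.Agent.GenII1.Baire
import Crest.Agent.GenII1.Bridge

set_option autoImplicit false
open Crest Crest.AnalysisR Crest.AnalysisR.OperatorAlgebra

namespace Crest.Agent.S0126

open Crest.Agent.GenII1 Filter Topology

variable {H : Type*} [NormedAddCommGroup H] [InnerProductSpace ℂ H] [CompleteSpace H]

theorem adjU_mem_of_le (M P N : VonNeumannAlgebra H) (u : MT M) (hPN : P ≤ N)
    (hu : (u : H →L[ℂ] H) ∈ N) (a : MT M)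
    (ha : a ∈ StarAlgebra.adjoin ℂ ((subVN M P : Set (MT M)) ∪ {u})) :
    (a : H →L[ℂ] H) ∈ N := by
  have hle : StarAlgebra.adjoin ℂ ((subVN M P : Set (MT M)) ∪ {u}) ≤ subVN M N := by
    apply StarAlgebra.adjoin_le
    rintro x (hx | hx)
    · exact hPN hx
    · rw [Set.mem_singleton_iff] at hx
      subst hx
      exact hu
  exact hle ha

theorem gen_iff (M P : VonNeumannAlgebra H) (hPM : P ≤ M) (ξ : ℕ → H)
    (hξ : Crest.OpAlg.IsFaithfulTracialVectorState M ξ) (u : MT M) :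
    letI := finVN M ξ hξ
    (∀ N : VonNeumannAlgebra H, P ≤ N → (u : H →L[ℂ] H) ∈ N → M ≤ N) ↔
      ∀ x : MT M, L2mem (adjU (subVN M P) u) x := by
  letI := finVN M ξ hξ
  constructor
  · intro h x
    rw [L2mem_iff]
    intro N' hN'
    apply h N' _ _ x.2
    · intro y hy
      exact hN' ⟨y, hPM hy⟩ (StarAlgebra.subset_adjoin ℂ _ (Or.inl hy))
    · exact hN' u (StarAlgebra.subset_adjoin ℂ _ (Or.inr rfl))
  · intro h N hPN huN y hy
    have h1 := (L2mem_iff M ξ hξ (adjU (subVN M P) u) ⟨y, hy⟩).mp (h ⟨y, hy⟩) N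
    exact h1 (fun a ha => adjU_mem_of_le M P N u hPN huN a ha)

theorem mem_unitary_iff (M : VonNeumannAlgebra H) (u : MT M) :
    u ∈ unitary (MT M) ↔ (u : H →L[ℂ] H) ∈ unitary (H →L[ℂ] H) := by
  rw [Unitary.mem_iff, Unitary.mem_iff]
  constructor
  · rintro ⟨h1, h2⟩
    exact ⟨congrArg Subtype.val h1, congrArg Subtype.val h2⟩
  · rintro ⟨h1, h2⟩
    exact ⟨Subtype.ext h1, Subtype.ext h2⟩

/-- Let P ≤ M be von Neumann algebras on a separable complex Hilbert space H, both factors of type II₁, with P irreducible in M (an element of M commuting with all of P is a scalar), and let ξ present a faithful normal tracial state of M, with squared trace 2-norm x ↦ ∑ ‖x (ξ n)‖². Then the unitaries u of M such that every von Neumann algebra on H containing P and u contains M form a countable intersection of relatively 2-norm-open subsets of the unitaries of M, 2-norm-dense in the unitaries of M. -/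
theorem result
    (H : Type*) [NormedAddCommGroup H] [InnerProductSpace ℂ H] [CompleteSpace H]
    [TopologicalSpace.SeparableSpace H] (P M : VonNeumannAlgebra H) (hPM : P ≤ M)
    (hP : Crest.OpAlg.IsTypeIIOneFactor P) (hM : Crest.OpAlg.IsTypeIIOneFactor M)
    (hPM' : ∀ x ∈ M, (∀ y ∈ P, x * y = y * x) → ∃ c : ℂ, x = c • (1 : H →L[ℂ] H))
    (ξ : ℕ → H) (hξ : Crest.OpAlg.IsFaithfulTracialVectorState M ξ) :
    (∃ O : ℕ → Set (H →L[ℂ] H),
      (∀ k : ℕ, ∀ u ∈ M, u ∈ unitary (H →L[ℂ] H) → u ∈ O k → ∃ δ : ℝ, 0 < δ ∧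
        ∀ v ∈ M, v ∈ unitary (H →L[ℂ] H) → Crest.OpAlg.traceNormSq ξ (v - u) < δ → v ∈ O k) ∧
      (∀ u ∈ M, u ∈ unitary (H →L[ℂ] H) →
        ((∀ N : VonNeumannAlgebra H, P ≤ N → u ∈ N → M ≤ N) ↔ ∀ k : ℕ, u ∈ O k))) ∧
    (∀ u ∈ M, u ∈ unitary (H →L[ℂ] H) → ∀ ε : ℝ, 0 < ε →
      ∃ v ∈ M, v ∈ unitary (H →L[ℂ] H) ∧ (∀ N : VonNeumannAlgebra H, P ≤ N → v ∈ N → M ≤ N) ∧
        Crest.OpAlg.traceNormSq ξ (v - u) < ε) := by
  letI := finVN M ξ hξ
  obtain ⟨s, hs⟩ := n2_separable M ξ hξ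
  have hirr : IsIrr (subVN M P) ⊤ := isIrr_subVN hPM ξ hξ hP.2.1 hPM'
  have hn2 : ∀ x : MT M, n2 x ^ 2 = Crest.OpAlg.traceNormSq ξ (x : H →L[ℂ] H) :=
    fun x => n2_sq_eq M ξ hξ x
  refine ⟨⟨fun k => {w | ∃ hw : w ∈ M, ∃ a ∈ adjU (subVN M P) (⟨w, hw⟩ : MT M),
      n2 (s (Nat.unpair k).1 - a) < 1 / (((Nat.unpair k).2 : ℝ) + 1)}, ?_, ?_⟩, ?_⟩
  · rintro k u hu huu ⟨hw, a, ha, hlt⟩
    have huu' : (⟨u, hw⟩ : MT M) ∈ unitary (MT M) := (mem_unitary_iff M ⟨u, hw⟩).mpr huu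
    obtain ⟨C, h⟩ := adjU_lsc huu' ha
    obtain ⟨δ, hδ, h'⟩ := h (1 / (((Nat.unpair k).2 : ℝ) + 1) - n2 (s (Nat.unpair k).1 - a))
      (by linarith)
    refine ⟨δ ^ 2, by positivity, fun v hv hvu hvd => ?_⟩
    have hvu' : (⟨v, hv⟩ : MT M) ∈ unitary (MT M) := (mem_unitary_iff M ⟨v, hv⟩).mpr hvu
    have hd : n2 ((⟨v, hv⟩ : MT M) - ⟨u, hw⟩) < δ := by
      have h1 := hn2 ((⟨v, hv⟩ : MT M) - ⟨u, hw⟩)
      have h2 : ((((⟨v, hv⟩ : MT M) - ⟨u, hw⟩ : MT M)) : H →L[ℂ] H) = v - u := rfl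
      rw [h2] at h1
      rw [← h1] at hvd
      exact lt_of_pow_lt_pow_left₀ 2 hδ.le hvd
    obtain ⟨y', hy', _, hyd⟩ := h' _ hvu' hd
    refine ⟨hv, y', hy', ?_⟩
    have := n2_triangle (s (Nat.unpair k).1) a y'
    rw [n2_sub_comm a y'] at this
    linarith
  · intro u hu huu
    have hgen := gen_iff M P hPM ξ hξ ⟨u, hu⟩
    rw [show ((⟨u, hu⟩ : MT M) : H →L[ℂ] H) = u from rfl] at hgen
    rw [hgen]
    constructor
    · intro h k
      obtain ⟨a, ha, hlt⟩ := h (s (Nat.unpair k).1) (1 / (((Nat.unpair k).2 : ℝ) + 1)) (by positivity)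
      exact ⟨hu, a, ha, hlt⟩
    · intro h x ε hε
      obtain ⟨n, hn⟩ := hs x (ε / 2) (by linarith)
      obtain ⟨m, hm⟩ := exists_nat_one_div_lt (show 0 < ε / 2 by linarith)
      obtain ⟨hw, a, ha, hlt⟩ := h (Nat.pair n m)
      rw [Nat.unpair_pair] at hlt
      refine ⟨a, ha, ?_⟩
      have := n2_triangle x (s n) a
      simp only at hlt
      linarith
  · intro u hu huu ε hε
    have huu' : (⟨u, hu⟩ : MT M) ∈ unitary (MT M) := (mem_unitary_iff M ⟨u, hu⟩).mpr huu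
    obtain ⟨v, hv, hvd, hvL⟩ := generic hirr ⟨s, hs⟩ huu' (√ε) (Real.sqrt_pos.mpr hε)
    refine ⟨v.1, v.2, (mem_unitary_iff M v).mp hv, (gen_iff M P hPM ξ hξ v).mpr hvL, ?_⟩
    have h1 := hn2 (v - ⟨u, hu⟩)
    have h2 : (((v - ⟨u, hu⟩ : MT M)) : H →L[ℂ] H) = v.1 - u := rfl
    rw [h2] at h1
    rw [← h1]
    calc n2 (v - ⟨u, hu⟩) ^ 2 < (√ε) ^ 2 := pow_lt_pow_left₀ hvd (n2_nonneg _) (by norm_num)
      _ = ε := Real.sq_sqrt hε.le

end Crest.Agent.S0126
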