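import Crest.Statements.S0137
import Crest.Agent.S0137.Classify
import Crest.Agent.S0137.Num
import Crest.Agent.S0137.Final

set_option autoImplicit false
open MeasureTheory Crest.AnalysisR
open Crest Crest.AnalysisR

namespace Crest.Agent.S0137

/-- Let β be a Salem number of degree four with 1 < β < 2: an algebraic integer whose minimal polynomial over ℚ has degree 4, has β⁻¹ as a root, and has its remaining complex roots on the unit circle. Then the unbiased Bernoulli convolution with parameter β⁻¹ — the distribution of ∑ₙ ±β⁻ⁿ with independent fair signs, built as the push-forward of the infinite product of fair coins — is singular with respect to Lebesgue measure on the line. -/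
theorem result
    (β : ℝ) (hβ : IsQuarticSalem β) (hβ₂ : β < 2) :
    (bernoulliConvolution β⁻¹).MutuallySingular (volume : Measure ℝ) := by
  obtain ⟨γ, γ', z, h1, h2, h3, h4, h5⟩ := classify β hβ hβ₂
  rcases h5 with ⟨h5, h6⟩ | ⟨h5, h6⟩
  · obtain ⟨hb, Y0, hst⟩ := state1 hβ.1 h1 h3 h4 h5 h6 h2
    exact singular_of_state hb h3 hst (by norm_num) (by norm_num)
  · obtain ⟨hb, Y0, hst⟩ := state2 hβ.1 h1 h3 h4 h5 h6 h2
    exact singular_of_state hb h3 hst (by norm_num) (by norm_num)

end Crest.Agent.S0137
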