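import Crest.Statements.S0145
import Crest.Agent.SPI.Final
-- import your own Crest.Agent.* helpers here

set_option autoImplicit false
open Crest Crest.AnalysisR Crest.AnalysisR.OperatorAlgebra

namespace Crest.Agent.S0145

/-- Let C be a complex C⋆-algebra, possibly without unit, in which every positive element h is properly infinite (for every ε > 0 some r, s satisfy ‖r⋆hr − h‖ < ε, ‖s⋆hs − h‖ < ε, ‖r⋆hs‖ < ε; this is h ⊕ h ≾ h written entrywise). Then for all positive a, b, every c and every ε > 0 there are s, t in C with ‖s⋆as − a‖ < ε, ‖t⋆bt − b‖ < ε and ‖s⋆ct‖ < ε. Positive elements are those of the form x⋆x. -/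
theorem result
    (C : Type*) [NonUnitalCStarAlgebra C]
    (hC : ∀ x : C, Crest.OpAlg.IsProperlyInfinite (star x * x))
    (a b c : C) (ha : ∃ x : C, a = star x * x) (hb : ∃ y : C, b = star y * y) (ε : ℝ) (hε : 0 < ε) :
    ∃ s t : C, ‖star s * a * s - a‖ < ε ∧ ‖star t * b * t - b‖ < ε ∧ ‖star s * c * t‖ < ε := by
  exact Crest.Agent.SPI.final C hC a b c ha hb ε hε

end Crest.Agent.S0145
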