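import Mathlib

/-!
# S0150: domination lemma for bilateral weighted shifts with two-sided growing costs

`C : ℤ → ℝ` is the cumulative cost; `C k - C (k-1)` is the cost of the step `k-1 → k`.
-/

set_option autoImplicit false

namespace Crest.Agent.S0150Seq

/-- costs at least `10`, increasing by at least `10` outward -/
structure CostHyp (C : ℤ → ℝ) : Prop where
  h1 : ∀ k : ℤ, 1 ≤ k → (C k - C (k-1)) + 10 ≤ C (k+1) - C k
  h1' : 10 ≤ C 1 - C 0
  h2 : ∀ k : ℤ, k ≤ 0 → (C k - C (k-1)) + 10 ≤ C (k-1) - C (k-2)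
  h2' : 10 ≤ C 0 - C (-1)

theorem CostHyp.refl {C : ℤ → ℝ} (h : CostHyp C) : CostHyp (fun k => - C (-k)) where
  h1 := by
    intro k hk
    have := h.h2 (1 - k) (by omega)
    have e1 : (1 - k - 1 : ℤ) = -k := by ring
    have e2 : (1 - k - 2 : ℤ) = -(k+1) := by ring
    have e3 : (-(k-1) : ℤ) = 1 - k := by ring
    rw [e1, e2] at this
    simp only [e3]
    linarith
  h1' := by
    have := h.h2'
    simp only [neg_zero]
    linarith
  h2 := by
    intro k hk
    have := h.h1 (1 - k) (by omega)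
    have e1 : (1 - k - 1 : ℤ) = -k := by ring
    have e2 : (1 - k + 1 : ℤ) = -(k-2) := by ring
    have e3 : (-(k-1) : ℤ) = 1 - k := by ring
    rw [e1, e2] at this
    simp only [e3]
    linarith
  h2' := by
    have := h.h1'
    simp only [neg_zero, neg_neg]
    linarith

section
variable {C : ℤ → ℝ} (h : CostHyp C)
include h

/-- costs on the right: `c k ≥ 10` for `k ≥ 1` -/
theorem step_ge_right (m : ℕ) : 10 * ((m:ℝ) + 1) ≤ C (m + 1) - C m := by
  induction m with
  | zero => simpa using h.h1'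
  | succ m ih =>
    have := h.h1 (m + 1) (by omega)
    have e : ((m:ℤ) + 1 - 1) = m := by ring
    rw [e] at this
    push_cast at *
    linarith

theorem step_pos (k : ℤ) : 10 ≤ C k - C (k - 1) := by
  rcases le_or_gt 1 k with hk | hk
  · obtain ⟨m, rfl⟩ : ∃ m : ℕ, k = m + 1 := ⟨(k-1).toNat, by omega⟩
    have := step_ge_right h m
    have e : ((m:ℤ) + 1 - 1) = m := by ring
    rw [e]
    have hm : (0:ℝ) ≤ m := by positivity
    linarith
  · obtain ⟨m, rfl⟩ : ∃ m : ℕ, k = -m := ⟨(-k).toNat, by omega⟩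
    have := step_ge_right h.refl m
    have e : (-(m:ℤ) - 1) = -(m + 1) := by ring
    rw [e]
    have hm : (0:ℝ) ≤ m := by positivity
    linarith

theorem strictMono_C : StrictMono C := by
  apply strictMono_int_of_lt_succ
  intro n
  have := step_pos h (n+1)
  rw [add_sub_cancel_right] at this
  linarith

theorem C_neg_le (m : ℕ) : C (-m) ≤ C 0 - 5 * (m:ℝ)^2 := by
  induction m with
  | zero => simp
  | succ m ih =>
    have := step_ge_right h.refl m
    push_cast at *
    nlinarith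

theorem step_mono {i k : ℤ} (hi : 1 ≤ i) (hik : i ≤ k) : C i - C (i-1) ≤ C k - C (k-1) := by
  induction k, hik using Int.leInduction with
  | base => exact le_rfl
  | succ k hk ih =>
    have := h.h1 k (by omega)
    rw [add_sub_cancel_right]
    linarith

/-- `C_{a+d} - C_a ≤ d * c_{a+d} - 5 d (d-1)` for `a ≥ 0` -/
theorem C_sub_le {a : ℤ} (ha : 0 ≤ a) (d : ℕ) :
    C (a + d) - C a ≤ d * (C (a + d) - C (a + d - 1)) - 5 * d * ((d:ℝ) - 1) := by
  induction d with
  | zero => simp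
  | succ d ih =>
    rcases Nat.eq_zero_or_pos d with rfl | hd
    · simp
    · have := h.h1 (a + d) (by omega)
      have e1 : (a + (d:ℤ) + 1 - 1) = a + d := by ring
      have hd0 : (0:ℝ) ≤ d := by positivity
      push_cast
      rw [← add_assoc, e1]
      nlinarith [mul_le_mul_of_nonneg_left this hd0]

theorem C_add_ge {k : ℤ} (hk : 1 ≤ k) (n : ℕ) :
    n * (C k - C (k-1)) ≤ C (k + n) - C k := by
  induction n with
  | zero => simp
  | succ n ih =>
    have := step_mono h hk (show k ≤ k + n + 1 by omega)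
    have e1 : (k + (n:ℤ) + 1 - 1) = k + n := by ring
    rw [e1] at this
    push_cast
    rw [← add_assoc]
    linarith

/-- tail bound -/
theorem tail_bound (F G : ℤ → ℝ) (A B : ℝ) (hF : ∀ k, 0 ≤ F k) (hG : ∀ k, 0 ≤ G k)
    (hFA : ∀ k, F k ≤ A) (hGB : ∀ k, G k ≤ B) (p0 q0 a : ℤ) (hp : 0 < F p0) (hq : 0 < G q0)
    (hpq : p0 < q0) (ha : 0 ≤ a) (hpa : p0 ≤ a) (ε : ℝ) (hε : 0 < ε) :
    ∃ Λ : ℝ, 0 ≤ Λ ∧ ∀ l : ℝ, Λ ≤ l → ∀ k : ℤ, a < k → ∀ n : ℕ, 1 ≤ n → ∀ M N : ℝ,
      F p0 * Real.exp (C p0 - l * p0) ≤ M → G q0 * Real.exp (- C q0 + l * q0) ≤ N →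
      G (k + n) * Real.exp (- C (k + n) + l * (k + n)) ≤ N →
      F k * Real.exp (C k - l * k) * (G (k + n) * Real.exp (- C (k + n) + l * (k + n))) ≤
        ε * (1/2) ^ (k - a).natAbs * (M * N) := by
  have hA : 0 < A := hp.trans_le (hFA p0)
  have hB : 0 < B := hq.trans_le (hGB q0)
  -- constants
  obtain ⟨L2, hL2⟩ : ∃ L2 : ℝ, 1 ≤ L2 ∧
      A / F p0 * Real.exp (C a - C p0) * Real.exp (-(L2 - 1)) ≤ ε := by
    refine ⟨max 1 (1 + Real.log (A / F p0 * Real.exp (C a - C p0) / ε)), le_max_left _ _, ?_⟩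
    set K := A / F p0 * Real.exp (C a - C p0) with hK
    have hK0 : 0 < K := by positivity
    have h1 : Real.log (K / ε) ≤ max 1 (1 + Real.log (K / ε)) - 1 := by
      have := le_max_right 1 (1 + Real.log (K / ε))
      linarith
    have h2 : Real.exp (-(max 1 (1 + Real.log (K / ε)) - 1)) ≤ Real.exp (- Real.log (K/ε)) := by
      apply Real.exp_le_exp.2; linarith
    rw [Real.exp_neg (Real.log _), Real.exp_log (by positivity)] at h2
    calc K * _ ≤ K * (K / ε)⁻¹ := by gcongr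
      _ = ε := by field_simp
  obtain ⟨L, hL⟩ : ∃ L : ℝ, 0 ≤ L ∧
      A * B * Real.exp (-L) ≤ ε * (F p0 * G q0 * Real.exp (C p0 - C q0)) := by
    set K := A * B / (ε * (F p0 * G q0 * Real.exp (C p0 - C q0))) with hK
    have hK0 : 0 < K := by positivity
    refine ⟨max 0 (Real.log K), le_max_left _ _, ?_⟩
    have h2 : Real.exp (-(max 0 (Real.log K))) ≤ Real.exp (- Real.log K) := by
      apply Real.exp_le_exp.2
      have := le_max_right 0 (Real.log K)
      linarith
    rw [Real.exp_neg (Real.log _), Real.exp_log hK0] at h2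
    calc A * B * _ ≤ A * B * K⁻¹ := by gcongr
      _ = ε * (F p0 * G q0 * Real.exp (C p0 - C q0)) := by rw [hK]; field_simp
  set D0 : ℕ := ⌈(L + L2 + 5) / 4⌉₊ with hD0
  have hD0' : (L + L2 + 5) / 4 ≤ D0 := Nat.le_ceil _
  set Λ := max 0 (C (a + D0) - C (a + D0 - 1) + L2) with hΛ
  refine ⟨Λ, le_max_left _ _, ?_⟩
  intro l hl k hk n hn M N hM hN hGN
  have hl0 : 0 ≤ l := (le_max_left _ _).trans hl
  obtain ⟨d, rfl⟩ : ∃ d : ℕ, k = a + d := ⟨(k-a).toNat, by omega⟩
  have hd1 : 1 ≤ d := by omega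
  have hd1' : (1:ℝ) ≤ d := by exact_mod_cast hd1
  have hnat : (a + (d:ℤ) - a).natAbs = d := by
    rw [add_sub_cancel_left]; simp
  rw [hnat]
  have hM0 : 0 < M := lt_of_lt_of_le (by positivity) hM
  have hN0 : 0 < N := lt_of_lt_of_le (by positivity) hN
  have hhalf : Real.exp (-(d:ℝ)) ≤ (1/2)^d := by
    have h1 : Real.exp (-(d:ℝ)) = (Real.exp (-1))^d := by
      rw [← Real.exp_nat_mul]; ring_nf
    rw [h1]
    apply pow_le_pow_left₀ (by positivity)
    rw [Real.exp_neg]
    have : (2:ℝ) ≤ Real.exp 1 := by linarith [Real.exp_one_gt_d9]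
    rw [one_div]
    gcongr
  have hn' : (1:ℝ) ≤ n := by exact_mod_cast hn
  by_cases hc : l + L + d ≤ C (a + d) - C (a + d - 1)
  · -- case (b)
    have h1 : (n:ℝ) * (l + L + d) ≤ C (a + d + n) - C (a + d) := by
      refine le_trans ?_ (C_add_ge h (show 1 ≤ a + d by omega) n)
      gcongr
    have h2 : C (a + d) - l * ((a + d : ℤ):ℝ) + (- C (a + d + n) + l * (((a + d : ℤ):ℝ) + n)) ≤ -(L + d) := by
      push_cast
      nlinarith
    have h3 : F (a + d) * Real.exp (C (a + d) - l * ((a + d : ℤ):ℝ)) *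
        (G (a + d + n) * Real.exp (- C (a + d + n) + l * (((a + d : ℤ):ℝ) + n))) ≤
        A * B * Real.exp (-(L + d)) := by
      calc _ = F (a + d) * G (a + d + n) * Real.exp (C (a + d) - l * ((a + d : ℤ):ℝ) + (- C (a + d + n) + l * (((a + d : ℤ):ℝ) + n))) := by
              rw [Real.exp_add (C (a + d) - l * ((a + d : ℤ):ℝ))]; ring
        _ ≤ A * B * Real.exp (-(L + d)) := by
            have := hF (a+d)
            have := hG (a+d+n)
            have h5 := hFA (a+d)
            have h6 := hGB (a+d+n)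
            gcongr
    have h4 : F p0 * G q0 * Real.exp (C p0 - C q0) ≤ M * N := by
      calc F p0 * G q0 * Real.exp (C p0 - C q0) 
          ≤ F p0 * G q0 * Real.exp ((C p0 - l * p0) + (- C q0 + l * q0)) := by
            have : (p0:ℝ) ≤ q0 := by exact_mod_cast hpq.le
            have h7 : C p0 - C q0 ≤ (C p0 - l * p0) + (- C q0 + l * q0) := by nlinarith
            gcongr
        _ = (F p0 * Real.exp (C p0 - l * p0)) * (G q0 * Real.exp (- C q0 + l * q0)) := by
            rw [Real.exp_add]; ring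
        _ ≤ M * N := by gcongr
    calc _ ≤ A * B * Real.exp (-(L + d)) := h3
      _ = (A * B * Real.exp (-L)) * Real.exp (-(d:ℝ)) := by
          rw [neg_add, Real.exp_add]; ring
      _ ≤ (ε * (F p0 * G q0 * Real.exp (C p0 - C q0))) * (1/2)^d := by
          have := hL.2
          gcongr
      _ ≤ (ε * (M * N)) * (1/2)^d := by gcongr
      _ = _ := by ring
  · -- case (a)
    push Not at hc
    have h1 : C (a + d) - C a - l * d ≤ - L2 * d := by
      have h2 := C_sub_le h ha d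
      have h3 : C (a + d) - C a - l * d ≤ d * (C (a + d) - C (a + d - 1) - l - 5 * ((d:ℝ) - 1)) := by
        nlinarith
      refine h3.trans ?_
      rw [mul_comm (-L2)]
      apply mul_le_mul_of_nonneg_left _ (by positivity)
      by_cases hdD : d ≤ D0
      · have h4 := step_mono h (show 1 ≤ a + d by omega) (show a + (d:ℤ) ≤ a + D0 by omega)
        have h5 := (le_max_right 0 (C (a + D0) - C (a + D0 - 1) + L2)).trans hl
        linarith
      · push Not at hdD
        have h6 : (D0:ℝ) + 1 ≤ d := by exact_mod_cast hdD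
        linarith
    have h2 : F (a + d) * Real.exp (C (a + d) - l * ((a + d : ℤ):ℝ)) ≤ ε * (1/2)^d * M := by
      have hpa' : (p0:ℝ) ≤ a := by exact_mod_cast hpa
      have e1 : C (a + d) - l * ((a + d : ℤ):ℝ) ≤ (C p0 - l * p0) + (C a - C p0) + (-(L2-1)) + (-(d:ℝ)) := by
        push_cast
        have : l * p0 ≤ l * a := by gcongr
        nlinarith [hL2.1]
      calc F (a + d) * Real.exp (C (a + d) - l * ((a + d : ℤ):ℝ))
          ≤ A * Real.exp ((C p0 - l * p0) + (C a - C p0) + (-(L2-1)) + (-(d:ℝ))) := by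
            have := hFA (a+d)
            gcongr
        _ = (A / F p0 * Real.exp (C a - C p0) * Real.exp (-(L2 - 1))) * Real.exp (-(d:ℝ)) *
            (F p0 * Real.exp (C p0 - l * p0)) := by
            rw [Real.exp_add, Real.exp_add, Real.exp_add]; field_simp
        _ ≤ ε * (1/2)^d * M := by
            have := hL2.2
            gcongr
    have hG0 : 0 ≤ G (a + d + n) * Real.exp (- C (a + d + n) + l * (((a + d : ℤ):ℝ) + n)) :=
      mul_nonneg (hG _) (Real.exp_pos _).le
    calc _ ≤ (ε * (1/2)^d * M) * N := by gcongr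
      _ = _ := by ring

end

/-- the weighted sequence -/
noncomputable def W (F C : ℤ → ℝ) (l : ℝ) (k : ℤ) : ℝ := F k * Real.exp (C k - l * k)

/-- `p` maximizes `W` over `k ≤ a` -/
def IsMaxAt (F C : ℤ → ℝ) (a : ℤ) (l : ℝ) (p : ℤ) : Prop :=
  p ≤ a ∧ ∀ k ≤ a, W F C l k ≤ W F C l p

theorem W_shift (F C : ℤ → ℝ) (l l' : ℝ) (k : ℤ) :
    W F C l' k = W F C l k * Real.exp (-(l' - l) * k) := by
  unfold W
  rw [mul_assoc, ← Real.exp_add]
  ring_nf

theorem lower {C : ℤ → ℝ} (h : CostHyp C) (F : ℤ → ℝ) (A : ℝ)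
    (hFA : ∀ k, F k ≤ A) (p0 : ℤ) (hp : 0 < F p0) :
    ∃ K : ℝ, 0 ≤ K ∧ ∀ l : ℝ, 0 ≤ l → ∀ k : ℤ, W F C l p0 ≤ W F C l k → -(l/5 + K) ≤ k := by
  have hA : 0 < A := hp.trans_le (hFA p0)
  set c := C 0 - C p0 + Real.log (A / F p0) with hc
  refine ⟨max |(p0:ℝ)| (1 + |c|), by positivity, ?_⟩
  intro l hl k hk
  set K := max |(p0:ℝ)| (1 + |c|) with hK
  have hK1 : |(p0:ℝ)| ≤ K := le_max_left _ _
  have hK2 : 1 + |c| ≤ K := le_max_right _ _
  have hc0 := abs_nonneg c
  have hK0 : 1 ≤ K := by linarith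
  by_contra hlt
  push Not at hlt
  have hkneg : (k:ℝ) < 0 := by
    have : 0 ≤ l / 5 := by positivity
    linarith
  have hkneg' : k < 0 := by exact_mod_cast hkneg
  obtain ⟨m, rfl⟩ : ∃ m : ℕ, k = -m := ⟨(-k).toNat, by omega⟩
  have hCm := C_neg_le h m
  unfold W at hk
  have h1 : F p0 * Real.exp (C p0 - l * p0) ≤ A * Real.exp (C (-m) - l * ((-(m:ℤ) : ℤ) : ℝ)) :=
    hk.trans (by gcongr; exact hFA _)
  have h2 : Real.exp (C p0 - l * p0) ≤ Real.exp (Real.log (A / F p0) + (C (-m) - l * ((-(m:ℤ) : ℤ) : ℝ))) := by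
    rw [Real.exp_add, Real.exp_log (by positivity)]
    rw [div_mul_eq_mul_div, le_div_iff₀ hp]
    linarith
  rw [Real.exp_le_exp] at h2
  push_cast at h2 hlt
  have h3 : 5 * (m:ℝ)^2 - l * m ≤ l * p0 + c := by
    rw [hc]; linarith
  have h4 : l / 5 + K < m := by linarith
  have h5 : K * l + 5 * K^2 ≤ 5 * (m:ℝ)^2 - l * m := by
    have : (5 * (m:ℝ)^2 - l * m) = m * (5 * m - l) := by ring
    rw [this]
    have h6 : 5 * K ≤ 5 * m - l := by linarith
    have h7 : (l/5 + K) * (5 * K) ≤ m * (5 * m - l) := by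
      apply mul_le_mul h4.le h6 (by positivity) (by positivity)
    linarith
  have h6 : l * p0 ≤ K * l := by
    rw [mul_comm]
    exact mul_le_mul_of_nonneg_right ((le_abs_self _).trans hK1) hl
  have h7 : c ≤ |c| := le_abs_self c
  nlinarith

theorem exists_isMaxAt {C : ℤ → ℝ} (h : CostHyp C) (F : ℤ → ℝ) (A : ℝ)
    (hFA : ∀ k, F k ≤ A) (p0 : ℤ) (hp : 0 < F p0) (a : ℤ) (hpa : p0 ≤ a) (l : ℝ) (hl : 0 ≤ l) :
    ∃ p, IsMaxAt F C a l p := by
  obtain ⟨K, hK0, hK⟩ := lower h F A hFA p0 hp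
  set b : ℤ := min p0 ⌊-(l/5 + K)⌋ with hb
  have hba : b ≤ a := (min_le_left _ _).trans hpa
  obtain ⟨p, hp1, hp2⟩ := Finset.exists_max_image (Finset.Icc b a) (W F C l)
    ⟨a, by simp [hba]⟩
  rw [Finset.mem_Icc] at hp1
  refine ⟨p, hp1.2, ?_⟩
  intro k hk
  by_cases hkb : b ≤ k
  · exact hp2 k (by simp [hkb, hk])
  · by_contra hlt
    push Not at hlt hkb
    have h1 : W F C l p0 ≤ W F C l k := by
      refine (hp2 p0 ?_).trans hlt.le
      simp [hpa, hb]
    have h2 := hK l hl k h1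
    have h3 : ⌊-(l/5 + K)⌋ ≤ k := by
      have := (Int.floor_le (-(l/5+K))).trans h2
      exact_mod_cast this
    have := (min_le_right p0 ⌊-(l/5 + K)⌋).trans h3
    omega

theorem IsMaxAt.W_pos {F C : ℤ → ℝ} {a : ℤ} {l : ℝ} {p : ℤ} (hm : IsMaxAt F C a l p)
    {p0 : ℤ} (hp : 0 < F p0) (hpa : p0 ≤ a) : 0 < W F C l p :=
  lt_of_lt_of_le (mul_pos hp (Real.exp_pos _)) (hm.2 p0 hpa)

theorem W_pos_iff_pos {F C : ℤ → ℝ} {l : ℝ} {p : ℤ} : 0 < W F C l p ↔ 0 < F p := by
  unfold W
  constructor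
  · intro h
    exact (pos_iff_pos_of_mul_pos h).2 (Real.exp_pos _)
  · intro h
    exact mul_pos h (Real.exp_pos _)

theorem IsMaxAt.anti {F C : ℤ → ℝ} {a : ℤ} {l l' : ℝ} {p p' : ℤ} (hm : IsMaxAt F C a l p)
    (hm' : IsMaxAt F C a l' p') (hll : l < l') (hpos : 0 < W F C l p) : p' ≤ p := by
  by_contra hlt
  push Not at hlt
  have h1 := hm'.2 p hm.1
  rw [W_shift F C l l' p, W_shift F C l l' p'] at h1
  have h2 := hm.2 p' hm'.1
  have hlt' : (p:ℝ) < p' := by exact_mod_cast hlt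
  have h3 : Real.exp (-(l'-l) * p') < Real.exp (-(l'-l) * p) := by
    apply Real.exp_lt_exp.2
    nlinarith
  have h4 : W F C l p' * Real.exp (-(l'-l) * p') ≤ W F C l p * Real.exp (-(l'-l) * p') := by
    gcongr
  have h5 : W F C l p * Real.exp (-(l'-l) * p') < W F C l p * Real.exp (-(l'-l) * p) := by
    gcongr
  linarith

theorem IsMaxAt.eventually_le {C : ℤ → ℝ} (h : CostHyp C) {F : ℤ → ℝ} {A : ℝ}
    (hFA : ∀ k, F k ≤ A) {p0 : ℤ} (hp : 0 < F p0) {a : ℤ} (hpa : p0 ≤ a) :
    ∃ Λ : ℝ, 0 ≤ Λ ∧ ∀ l, Λ ≤ l → ∀ p, IsMaxAt F C a l p → p ≤ p0 := by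
  have hA : 0 < A := hp.trans_le (hFA p0)
  refine ⟨max 0 (1 + Real.log (A / F p0) + (C a - C p0)), le_max_left _ _, ?_⟩
  intro l hl p hm
  have hl0 : 0 ≤ l := (le_max_left _ _).trans hl
  have hl1 := (le_max_right _ _).trans hl
  by_contra hlt
  push Not at hlt
  have h1 := hm.2 p0 hpa
  unfold W at h1
  have hCp : C p ≤ C a := (strictMono_C h).monotone hm.1
  have h2 : F p0 * Real.exp (C p0 - l * p0) ≤ A * Real.exp (C a - l * p) := by
    refine h1.trans ?_
    have := hFA p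
    gcongr
  have h3 : Real.exp (C p0 - l * p0) ≤ Real.exp (Real.log (A / F p0) + (C a - l * p)) := by
    rw [Real.exp_add, Real.exp_log (by positivity)]
    rw [div_mul_eq_mul_div, le_div_iff₀ hp]
    linarith
  rw [Real.exp_le_exp] at h3
  have h4 : (p0:ℝ) + 1 ≤ p := by exact_mod_cast hlt
  nlinarith

theorem peak {F C : ℤ → ℝ} {a : ℤ} {l : ℝ} {p : ℤ} (hm : IsMaxAt F C a l p)
    (hm' : IsMaxAt F C a (l+2) p) (k : ℤ) (hk : k ≤ a) :
    W F C (l+1) k ≤ W F C (l+1) p * Real.exp (-((k-p).natAbs : ℝ)) := by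
  rcases le_or_gt p k with hpk | hpk
  · rw [W_shift F C l (l+1) k, W_shift F C l (l+1) p]
    have h1 := hm.2 k hk
    obtain ⟨d, hd⟩ : ∃ d : ℕ, k - p = d := ⟨(k-p).toNat, by omega⟩
    have hk' : (k:ℝ) = p + d := by
      have : k = p + d := by omega
      rw [this]; push_cast; ring
    rw [hd, Int.natAbs_natCast, mul_assoc, ← Real.exp_add]
    have e : -(l + 1 - l) * (k:ℝ) = -(l + 1 - l) * (p:ℝ) + -(d:ℝ) := by rw [hk']; ring
    rw [e]
    gcongr
  · rw [W_shift F C (l+2) (l+1) k, W_shift F C (l+2) (l+1) p]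
    have h1 := hm'.2 k hk
    obtain ⟨d, hd⟩ : ∃ d : ℕ, k - p = -d := ⟨(p-k).toNat, by omega⟩
    have hk' : (k:ℝ) = p - d := by
      have : k = p - d := by omega
      rw [this]; push_cast; ring
    rw [hd, Int.natAbs_neg, Int.natAbs_natCast, mul_assoc, ← Real.exp_add]
    have e : -(l + 1 - (l+2)) * (k:ℝ) = -(l + 1 - (l+2)) * (p:ℝ) + -(d:ℝ) := by rw [hk']; ring
    rw [e]
    gcongr

theorem pigeon (u : ℕ → ℤ) (hu : ∀ i, u i ≤ u (i+1)) (K : ℝ)
    (hK : ∀ i, (u i : ℝ) ≤ 4/5 * i + K) (i0 : ℕ) : ∃ i, i0 ≤ i ∧ u (i+1) = u i := by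
  by_contra hcon
  push Not at hcon
  have h1 : ∀ m : ℕ, u i0 + m ≤ u (i0 + m) := by
    intro m
    induction m with
    | zero => simp
    | succ m ih =>
      have h2 := hcon (i0 + m) (by omega)
      have h3 := hu (i0 + m)
      have h4 : u (i0 + m) + 1 ≤ u (i0 + m + 1) := by omega
      push_cast
      rw [← add_assoc]
      have : i0 + (m + 1) = i0 + m + 1 := by ring
      rw [this]
      linarith
  obtain ⟨m, hm⟩ := exists_nat_gt (5 * (4/5 * (i0:ℝ) + K - u i0))
  have h2 := hK (i0 + m)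
  have h3 : ((u i0 : ℝ)) + m ≤ u (i0 + m) := by exact_mod_cast h1 m
  push_cast at h2
  linarith

theorem exp_neg_two_le : Real.exp (-2) ≤ 1/7 := by
  have h1 : Real.exp 2 = Real.exp 1 * Real.exp 1 := by rw [← Real.exp_add]; norm_num
  have h2 := Real.exp_one_gt_d9
  have h3 : (7:ℝ) ≤ Real.exp 2 := by rw [h1]; nlinarith
  rw [Real.exp_neg, one_div]
  gcongr

/-- The main domination lemma. -/
theorem dominate {C : ℤ → ℝ} (h : CostHyp C) (F G : ℤ → ℝ) (A B : ℝ) (hF : ∀ k, 0 ≤ F k)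
    (hG : ∀ k, 0 ≤ G k) (hFA : ∀ k, F k ≤ A) (hGB : ∀ k, G k ≤ B) (p0 q0 : ℤ) (hp : 0 < F p0)
    (hq : 0 < G q0) (hpq : p0 < q0) :
    ∃ n : ℕ, 1 ≤ n ∧ ∃ p a b : ℤ, 0 < F p * G (p + n) * Real.exp (-(C (p + n) - C p)) ∧
      ∀ k, k ≠ p → F k * G (k + n) * Real.exp (-(C (k + n) - C k)) ≤
        (F p * G (p + n) * Real.exp (-(C (p + n) - C p))) *
          ((1/7) ^ (k - p).natAbs + (1/18) * (1/2) ^ (k - a).natAbs +
            (1/18) * (1/2) ^ (k + n - b).natAbs) := by
  -- reflected data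
  set F' : ℤ → ℝ := fun k => G (-k) with hF'
  set G' : ℤ → ℝ := fun k => F (-k) with hG'
  set C' : ℤ → ℝ := fun k => - C (-k) with hC'
  have h' : CostHyp C' := h.refl
  set a : ℤ := max 0 p0 with ha
  set a' : ℤ := max 0 (-q0) with ha'
  have ha0 : 0 ≤ a := le_max_left _ _
  have ha0' : 0 ≤ a' := le_max_left _ _
  have hpa : p0 ≤ a := le_max_right _ _
  have hqa' : -q0 ≤ a' := le_max_right _ _
  have hp' : 0 < F' (-q0) := by simpa [hF'] using hq
  have hq' : 0 < G' (-p0) := by simpa [hG'] using hp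
  obtain ⟨K, hK0, hK⟩ := lower h F A hFA p0 hp
  obtain ⟨K', hK0', hK'⟩ := lower h' F' B (fun k => hGB _) (-q0) hp'
  obtain ⟨Λ1, hΛ1, ht1⟩ := tail_bound h F G A B hF hG hFA hGB p0 q0 a hp hq hpq ha0 hpa (1/18)
    (by norm_num)
  obtain ⟨Λ2, hΛ2, ht2⟩ := tail_bound h' F' G' B A (fun k => hG _) (fun k => hF _)
    (fun k => hGB _) (fun k => hFA _) (-q0) (-p0) a' hp' hq' (by omega) ha0' hqa' (1/18)
    (by norm_num)
  obtain ⟨Λ3, hΛ3, ht3⟩ := IsMaxAt.eventually_le h hFA hp hpa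
  obtain ⟨Λ4, hΛ4, ht4⟩ := IsMaxAt.eventually_le h' (F := F') (A := B) (fun k => hGB _) hp' hqa'
  -- maximizers
  choose P hP using fun i : ℕ => exists_isMaxAt h F A hFA p0 hp a hpa (2 * (i:ℝ)) (by positivity)
  choose Q hQ using fun i : ℕ => exists_isMaxAt h' F' B (fun k => hGB _) (-q0) hp' a' hqa'
    (2 * (i:ℝ)) (by positivity)
  have hPanti : ∀ i, P (i+1) ≤ P i := fun i =>
    (hP i).anti (hP (i+1)) (by push_cast; linarith) ((hP i).W_pos hp hpa)
  have hQanti : ∀ i, Q (i+1) ≤ Q i := fun i =>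
    (hQ i).anti (hQ (i+1)) (by push_cast; linarith) ((hQ i).W_pos hp' hqa')
  have hPlow : ∀ i : ℕ, -(2 * (i:ℝ) / 5 + K) ≤ P i := fun i =>
    hK _ (by positivity) _ ((hP i).2 _ hpa)
  have hQlow : ∀ i : ℕ, -(2 * (i:ℝ) / 5 + K') ≤ Q i := fun i =>
    hK' _ (by positivity) _ ((hQ i).2 _ hqa')
  obtain ⟨i0, hi0⟩ := exists_nat_ge (max (max Λ1 Λ2) (max Λ3 Λ4))
  obtain ⟨i, hi, hieq⟩ := pigeon (fun i => -(P i + Q i))
    (fun i => by have := hPanti i; have := hQanti i; linarith) (K + K')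
    (fun i => by
      have := hPlow i; have := hQlow i
      push_cast
      linarith) i0
  have hPe : P (i+1) = P i := by
    have := hPanti i; have := hQanti i
    omega
  have hQe : Q (i+1) = Q i := by
    have := hPanti i; have := hQanti i
    omega
  have hi' : (i0:ℝ) ≤ i := by exact_mod_cast hi
  have hiΛ1 : Λ1 ≤ 2 * (i:ℝ) := by
    have : Λ1 ≤ i := ((le_max_left _ _).trans ((le_max_left _ _).trans hi0)).trans hi'
    have : (0:ℝ) ≤ i := by positivity
    linarith
  have hiΛ2 : Λ2 ≤ 2 * (i:ℝ) := by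
    have : Λ2 ≤ i := ((le_max_right _ _).trans ((le_max_left _ _).trans hi0)).trans hi'
    have : (0:ℝ) ≤ i := by positivity
    linarith
  have hiΛ3 : Λ3 ≤ 2 * (i:ℝ) := by
    have : Λ3 ≤ i := ((le_max_left _ _).trans ((le_max_right _ _).trans hi0)).trans hi'
    have : (0:ℝ) ≤ i := by positivity
    linarith
  have hiΛ4 : Λ4 ≤ 2 * (i:ℝ) := by
    have : Λ4 ≤ i := ((le_max_right _ _).trans ((le_max_right _ _).trans hi0)).trans hi'
    have : (0:ℝ) ≤ i := by positivity
    linarith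
  have hPp0 : P i ≤ p0 := ht3 _ hiΛ3 _ (hP i)
  have hQq0 : Q i ≤ -q0 := ht4 _ hiΛ4 _ (hQ i)
  set l : ℝ := 2 * (i:ℝ) with hl
  have hPi := hP i
  have hPi' : IsMaxAt F C a (l+2) (P i) := by
    have := hP (i+1)
    rw [hPe] at this
    convert this using 1
    rw [hl]; push_cast; ring
  have hQi := hQ i
  have hQi' : IsMaxAt F' C' a' (l+2) (Q i) := by
    have := hQ (i+1)
    rw [hQe] at this
    convert this using 1
    rw [hl]; push_cast; ring
  generalize P i = p at *
  generalize Q i = q at *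
  -- n
  obtain ⟨n, hn⟩ : ∃ n : ℕ, -(p + q) = n := ⟨(-(p+q)).toNat, by omega⟩
  have hn1 : 1 ≤ n := by omega
  have hqn : q = -(p + n) := by omega
  have hpk1 := peak hPi hPi'
  have hpk2 := peak hQi hQi'
  -- maximality at l+1
  have hM : ∀ k ≤ a, W F C (l+1) k ≤ W F C (l+1) p := by
    intro k hk
    refine (hpk1 k hk).trans ?_
    have h1 : Real.exp (-((k-p).natAbs : ℝ)) ≤ 1 := by
      rw [Real.exp_le_one_iff]; simp
    have h2 : 0 < W F C (l+1) p := by
      rw [W_pos_iff_pos, ← W_pos_iff_pos (C := C) (l := l)]; exact hPi.W_pos hp hpa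
    nlinarith
  have hN : ∀ k ≤ a', W F' C' (l+1) k ≤ W F' C' (l+1) q := by
    intro k hk
    refine (hpk2 k hk).trans ?_
    have h1 : Real.exp (-((k-q).natAbs : ℝ)) ≤ 1 := by
      rw [Real.exp_le_one_iff]; simp
    have h2 : 0 < W F' C' (l+1) q := by
      rw [W_pos_iff_pos, ← W_pos_iff_pos (C := C') (l := l)]; exact hQi.W_pos hp' hqa'
    nlinarith
  have hMpos : 0 < W F C (l+1) p := by
    rw [W_pos_iff_pos, ← W_pos_iff_pos (C := C) (l := l)]; exact hPi.W_pos hp hpa
  have hNpos : 0 < W F' C' (l+1) q := by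
    rw [W_pos_iff_pos, ← W_pos_iff_pos (C := C') (l := l)]; exact hQi.W_pos hp' hqa'
  -- the term formula
  have hterm : ∀ k : ℤ, F k * G (k + n) * Real.exp (-(C (k + n) - C k)) =
      Real.exp (-((l+1) * n)) * (W F C (l+1) k * W F' C' (l+1) (-(k+n))) := by
    intro k
    unfold W
    simp only [hF', hC', neg_neg]
    have : Real.exp (-((l+1) * n)) * (F k * Real.exp (C k - (l+1) * k) *
      (G (k + n) * Real.exp (-C (k + n) - (l+1) * ((-(k + n) : ℤ) : ℝ)))) = F k * G (k + n) *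
      (Real.exp (-((l+1) * n)) * (Real.exp (C k - (l+1) * k) *
        Real.exp (-C (k + n) - (l+1) * ((-(k + n) : ℤ) : ℝ)))) := by ring
    rw [this, ← Real.exp_add, ← Real.exp_add]
    congr 2
    push_cast
    ring
  have hTp : F p * G (p + n) * Real.exp (-(C (p + n) - C p)) =
      Real.exp (-((l+1) * n)) * (W F C (l+1) p * W F' C' (l+1) q) := by
    rw [hterm, hqn]
  refine ⟨n, hn1, p, a, -a', ?_, ?_⟩
  · rw [hTp]; positivity
  · intro k hk
    rw [hTp, hterm]
    rw [mul_assoc]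
    apply mul_le_mul_of_nonneg_left _ (Real.exp_pos _).le
    set M := W F C (l+1) p with hMdef
    set N := W F' C' (l+1) q with hNdef
    have hpos1 : (0:ℝ) ≤ (1/7) ^ (k-p).natAbs := by positivity
    have hpos2 : (0:ℝ) ≤ 1/18 * (1/2) ^ (k-a).natAbs := by positivity
    have hpos3 : (0:ℝ) ≤ 1/18 * (1/2) ^ (k + n - -a').natAbs := by positivity
    have hMN : 0 < M * N := by positivity
    by_cases hk1 : a < k
    · have h1 := ht1 (l+1) (by linarith) k hk1 n hn1 M N (hM p0 hpa) ?_ ?_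
      · have h2 : W F C (l+1) k * W F' C' (l+1) (-(k+n)) ≤ 1/18 * (1/2) ^ (k-a).natAbs * (M * N) := by
          refine le_trans (le_of_eq ?_) h1
          unfold W
          simp only [hF', hC', neg_neg]
          push_cast
          ring_nf
        nlinarith
      · have := hN (-q0) hqa'
        refine le_trans (le_of_eq ?_) this
        unfold W
        simp only [hF', hC', neg_neg]
        push_cast
        ring_nf
      · have := hN (-(k+n)) (by omega)
        refine le_trans (le_of_eq ?_) this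
        unfold W
        simp only [hF', hC', neg_neg]
        push_cast
        ring_nf
    · push Not at hk1
      by_cases hk2 : a' < -(k+n)
      · have h1 := ht2 (l+1) (by linarith) (-(k+n)) hk2 n hn1 N M (hN (-q0) hqa') ?_ ?_
        · have h2 : W F C (l+1) k * W F' C' (l+1) (-(k+n)) ≤
              1/18 * (1/2) ^ (k + n - -a').natAbs * (M * N) := by
            refine le_trans (le_of_eq ?_) (h1.trans (le_of_eq ?_))
            · unfold W
              simp only [hF', hC', hG', neg_neg]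
              have e : -(-(k + (n:ℤ)) + n) = k := by ring
              rw [e]
              push_cast
              ring_nf
            · have e : (-(k+(n:ℤ)) - a').natAbs = (k + n - -a').natAbs := by omega
              rw [e]
              ring
          nlinarith
        · have := hM p0 hpa
          refine le_trans (le_of_eq ?_) this
          unfold W
          simp only [hG', hC', neg_neg]
          push_cast
          ring_nf
        · have := hM k hk1
          refine le_trans (le_of_eq ?_) this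
          unfold W
          simp only [hG', hC', neg_neg]
          have e : -(-(k + (n:ℤ)) + n) = k := by ring
          rw [e]
          push_cast
          ring_nf
      · push Not at hk2
        have h1 := hpk1 k hk1
        have h2 := hpk2 (-(k+n)) hk2
        have e : (-(k+(n:ℤ)) - q).natAbs = (k-p).natAbs := by omega
        rw [e] at h2
        have h3 : Real.exp (-((k-p).natAbs:ℝ)) * Real.exp (-((k-p).natAbs:ℝ)) ≤ (1/7)^(k-p).natAbs := by
          rw [← Real.exp_add]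
          have : -((k-p).natAbs:ℝ) + -((k-p).natAbs:ℝ) = (k-p).natAbs * (-2) := by ring
          rw [this, Real.exp_nat_mul]
          exact pow_le_pow_left₀ (Real.exp_pos _).le exp_neg_two_le _
        have h4 : 0 ≤ W F' C' (l+1) (-(k+n)) := mul_nonneg (hG _) (Real.exp_pos _).le
        calc W F C (l+1) k * W F' C' (l+1) (-(k+n)) 
            ≤ (M * Real.exp (-((k-p).natAbs:ℝ))) * (N * Real.exp (-((k-p).natAbs:ℝ))) := by
              gcongr
          _ = M * N * (Real.exp (-((k-p).natAbs:ℝ)) * Real.exp (-((k-p).natAbs:ℝ))) := by ring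
          _ ≤ M * N * (1/7)^(k-p).natAbs := by gcongr
          _ ≤ M * N * _ := by
              apply mul_le_mul_of_nonneg_left _ hMN.le
              linarith

end Crest.Agent.S0150Seq
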