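import Mathlib
import Crest.Prelude.Def_TwoAdicShift
import Crest.Agent.S0150_Seq

set_option autoImplicit false
open Crest.AnalysisR.TwoAdic MeasureTheory
attribute [local instance] Crest.AnalysisR.TwoAdic.borelTwoAdic Crest.AnalysisR.TwoAdic.borelSpace_twoAdic

namespace Crest.Agent.S0150Cost
open Crest.Agent.S0150Seq

/-! ### residues -/

theorem appr_unique (x : ℤ_[2]) (n a : ℕ) (ha : a < 2^n)
    (h : x - a ∈ Ideal.span {((2:ℕ) : ℤ_[2])^n}) : x.appr n = a := by
  have h1 := PadicInt.zmod_congr_of_sub_mem_span n x (x.appr n) a (PadicInt.appr_spec n x) h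
  rw [ZMod.natCast_eq_natCast_iff] at h1
  exact Nat.ModEq.eq_of_lt_of_lt h1 (PadicInt.appr_lt x n) ha

theorem appr_congr (x y : ℤ_[2]) (n : ℕ) (h : x - y ∈ Ideal.span {((2:ℕ) : ℤ_[2])^n}) :
    x.appr n = y.appr n := by
  apply appr_unique _ _ _ (PadicInt.appr_lt y n)
  have : x - (y.appr n : ℤ_[2]) = (x - y) + (y - (y.appr n : ℤ_[2])) := by ring
  rw [this]
  exact Ideal.add_mem _ h (PadicInt.appr_spec n y)

theorem appr_add_one (x : ℤ_[2]) (n : ℕ) (h : x + 1 ∉ Ideal.span {((2:ℕ) : ℤ_[2])^n}) :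
    (x + 1).appr n = x.appr n + 1 := by
  apply appr_unique
  · by_contra hlt
    push Not at hlt
    have h1 := PadicInt.appr_lt x n
    have h2 : x.appr n + 1 = 2^n := by omega
    apply h
    have h3 := PadicInt.appr_spec n x
    have : x + 1 = (x - (x.appr n : ℤ_[2])) + ((x.appr n + 1 : ℕ) : ℤ_[2]) := by push_cast; ring
    rw [this, h2]
    refine Ideal.add_mem _ h3 ?_
    push_cast
    exact Ideal.subset_span rfl
  · have : x + 1 - ((x.appr n + 1 : ℕ) : ℤ_[2]) = x - (x.appr n : ℤ_[2]) := by push_cast; ring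
    rw [this]
    exact PadicInt.appr_spec n x

theorem exists_notMem_span (x : ℤ_[2]) (hx : x ≠ 0) :
    ∃ n0 : ℕ, ∀ n, n0 ≤ n → x ∉ Ideal.span {((2:ℕ) : ℤ_[2])^n} := by
  have hpos : 0 < ‖x‖ := norm_pos_iff.2 hx
  obtain ⟨n0, hn0⟩ := exists_pow_lt_of_lt_one hpos (show (1/2:ℝ) < 1 by norm_num)
  refine ⟨n0, fun n hn hmem => ?_⟩
  rw [← PadicInt.norm_le_pow_iff_mem_span_pow] at hmem
  have h1 : ((2:ℕ):ℝ) ^ (-(n:ℤ)) = (1/2)^n := by
    rw [zpow_neg, zpow_natCast]; simp
  rw [h1] at hmem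
  have h2 : (1/2:ℝ)^n ≤ (1/2)^n0 := pow_le_pow_of_le_one (by norm_num) (by norm_num) hn
  linarith

theorem continuous_appr (n : ℕ) : Continuous (fun x : ℤ_[2] => (x.appr n : ℝ)) := by
  have : IsLocallyConstant (fun x : ℤ_[2] => (x.appr n : ℝ)) := by
    rw [IsLocallyConstant.iff_eventually_eq]
    intro x
    rw [Metric.eventually_nhds_iff]
    refine ⟨(1/2)^n, by positivity, fun y hy => ?_⟩
    congr 1
    apply appr_congr
    rw [← PadicInt.norm_le_pow_iff_mem_span_pow]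
    have h1 : ((2:ℕ):ℝ) ^ (-(n:ℤ)) = (1/2)^n := by
      rw [zpow_neg, zpow_natCast]; simp
    rw [h1, ← dist_eq_norm]
    exact hy.le
  exact this.continuous

/-! ### costs -/

/-- precision at height `k` -/
def mu (k : ℕ) : ℕ := Nat.log 2 (k/4 + 1)

theorem mu_mono : Monotone mu := fun a b hab =>
  Nat.log_mono_right (by have := Nat.div_le_div_right (c := 4) hab; omega)

theorem two_pow_mu_le (k : ℕ) : (2:ℝ) ^ mu k ≤ k/4 + 1 := by
  have h1 : 2 ^ mu k ≤ k/4 + 1 := Nat.pow_log_le_self 2 (by omega)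
  have h2 : ((2 ^ mu k : ℕ) : ℝ) ≤ ((k/4 + 1 : ℕ) : ℝ) := by exact_mod_cast h1
  push_cast at h2
  have h3 : ((k/4 : ℕ) : ℝ) ≤ k/4 := Nat.cast_div_le
  linarith

theorem mu_tendsto (n : ℕ) : ∃ k0 : ℕ, ∀ k, k0 ≤ k → n ≤ mu k := by
  refine ⟨4 * 2^n, fun k hk => ?_⟩
  unfold mu
  apply Nat.le_log_of_pow_le (by norm_num)
  omega

/-- residue of `y` at height `k` -/
noncomputable def rho (k : ℕ) (y : ℤ_[2]) : ℝ := (y.appr (mu k) : ℝ)

theorem rho_nonneg (k : ℕ) (y : ℤ_[2]) : 0 ≤ rho k y := by unfold rho; positivity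

theorem rho_le (k : ℕ) (y : ℤ_[2]) : rho k y ≤ k/4 + 1 := by
  refine le_trans ?_ (two_pow_mu_le k)
  unfold rho
  have := (PadicInt.appr_lt y (mu k)).le
  exact_mod_cast this

theorem rho_mono (y : ℤ_[2]) {k l : ℕ} (h : k ≤ l) : rho k y ≤ rho l y := by
  unfold rho
  exact_mod_cast PadicInt.appr_mono y (mu_mono h)

theorem rho_one (y : ℤ_[2]) : rho 1 y = 0 := by
  unfold rho
  have h0 : mu 1 = 0 := by
    unfold mu; simp
  rw [h0]
  have := PadicInt.appr_lt y 0
  have h1 : y.appr 0 = 0 := by simpa using this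
  rw [h1]; simp

theorem continuous_rho (k : ℕ) : Continuous (rho k) := continuous_appr (mu k)

theorem rho_add_one (x : ℤ_[2]) (hx : x + 1 ≠ 0) :
    ∃ k0 : ℕ, ∀ k, k0 ≤ k → rho k (x + 1) = rho k x + 1 := by
  obtain ⟨n0, hn0⟩ := exists_notMem_span (x+1) hx
  obtain ⟨k0, hk0⟩ := mu_tendsto n0
  refine ⟨k0, fun k hk => ?_⟩
  unfold rho
  rw [appr_add_one x _ (hn0 _ (hk0 k hk))]
  push_cast; ring

/-- cost of the step `k-1 → k` at `x` -/
noncomputable def cost (x : ℤ_[2]) (k : ℤ) : ℝ :=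
  if 1 ≤ k then 10 * k + 20 * rho k.toNat x else 10 * (1 - k) + 20 * rho (1 - k).toNat (-1 - x)

theorem cost_pos (x : ℤ_[2]) (k : ℕ) (hk : 1 ≤ k) : cost x k = 10 * k + 20 * rho k x := by
  unfold cost
  rw [if_pos (by omega)]; simp

theorem cost_neg (x : ℤ_[2]) (m : ℕ) : cost x (-m) = 10 * (m + 1) + 20 * rho (m+1) (-1 - x) := by
  unfold cost
  rw [if_neg (by omega)]
  have : (1 - -(m:ℤ)).toNat = m + 1 := by omega
  rw [this]; push_cast; ring

theorem continuous_cost (k : ℤ) : Continuous (fun x => cost x k) := by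
  unfold cost
  split_ifs
  · have := continuous_rho k.toNat
    fun_prop
  · have := continuous_rho (1-k).toNat
    fun_prop

/-- cumulative cost, `0` at height `0` -/
noncomputable def cum (x : ℤ_[2]) (k : ℤ) : ℝ :=
  ∑ i ∈ Finset.range k.toNat, cost x (i + 1) - ∑ i ∈ Finset.range (-k).toNat, cost x (-i)

theorem cum_sub (x : ℤ_[2]) (k : ℤ) : cum x k - cum x (k - 1) = cost x k := by
  unfold cum
  rcases le_or_gt 1 k with hk | hk
  · have h1 : k.toNat = (k-1).toNat + 1 := by omega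
    have h2 : (-k).toNat = 0 := by omega
    have h3 : (-(k-1)).toNat = 0 := by omega
    have h4 : (((k-1).toNat : ℕ) : ℤ) + 1 = k := by omega
    rw [h1, h2, h3, Finset.sum_range_succ, h4]; simp
  · have h1 : (-(k-1)).toNat = (-k).toNat + 1 := by omega
    have h2 : k.toNat = 0 := by omega
    have h3 : (k-1).toNat = 0 := by omega
    have h4 : -(((-k).toNat : ℕ) : ℤ) = k := by omega
    rw [h1, h2, h3, Finset.sum_range_succ, h4]; simp

theorem cum_succ (x : ℤ_[2]) (k : ℤ) : cum x (k + 1) = cum x k + cost x (k + 1) := by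
  have := cum_sub x (k+1)
  rw [add_sub_cancel_right] at this
  linarith

theorem continuous_cum (k : ℤ) : Continuous (fun x => cum x k) := by
  unfold cum
  have h1 : ∀ k, Continuous (fun x => cost x k) := continuous_cost
  fun_prop

theorem costHyp (x : ℤ_[2]) : CostHyp (cum x) where
  h1 := by
    intro k hk
    have e := cum_sub x (k+1)
    rw [add_sub_cancel_right] at e
    rw [cum_sub, e]
    obtain ⟨m, rfl⟩ : ∃ m : ℕ, k = m := ⟨k.toNat, by omega⟩
    rw [cost_pos x m (by omega)]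
    have e2 : ((m:ℤ) + 1) = ((m + 1 : ℕ) : ℤ) := by push_cast; ring
    rw [e2, cost_pos x (m+1) (by omega)]
    have := rho_mono x (show m ≤ m + 1 by omega)
    push_cast
    linarith
  h1' := by
    have e := cum_sub x 1
    norm_num at e
    rw [e]
    have := cost_pos x 1 le_rfl
    rw [rho_one] at this
    norm_num at this
    rw [this]
  h2 := by
    intro k hk
    have e := cum_sub x (k-1)
    have e' : k - 1 - 1 = k - 2 := by ring
    rw [e'] at e
    rw [cum_sub, e]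
    obtain ⟨m, rfl⟩ : ∃ m : ℕ, k = -m := ⟨(-k).toNat, by omega⟩
    have e2 : (-(m:ℤ) - 1) = -((m + 1 : ℕ) : ℤ) := by push_cast; ring
    rw [cost_neg, e2, cost_neg]
    have := rho_mono (-1 - x) (show m + 1 ≤ m + 1 + 1 by omega)
    push_cast
    linarith
  h2' := by
    have e := cum_sub x 0
    norm_num at e
    rw [e]
    have := cost_neg x 0
    rw [zero_add, rho_one] at this
    norm_num at this
    rw [this]

theorem cost_one (x : ℤ_[2]) : cost x 1 = 10 := by
  have := cost_pos x 1 le_rfl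
  rw [rho_one] at this
  norm_num at this
  exact this

/-! ### the backward weights -/

/-- `D_j(x) = Γ_{x+1}(j-1) - Γ_x(j)` -/
noncomputable def D (x : ℤ_[2]) (j : ℤ) : ℝ := cum (x + 1) (j - 1) - cum x j

theorem D_succ (x : ℤ_[2]) (j : ℤ) : D x (j + 1) = D x j + (cost (x + 1) j - cost x (j + 1)) := by
  unfold D
  have h1 := cum_sub (x+1) j
  have h2 := cum_succ x j
  rw [add_sub_cancel_right]
  linarith

theorem continuous_D (j : ℤ) : Continuous (fun x => D x j) := by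
  unfold D
  have h1 : ∀ k, Continuous (fun x => cum x k) := continuous_cum
  have h2 := (h1 (j-1)).comp (show Continuous (fun x : ℤ_[2] => x + 1) by fun_prop)
  exact h2.sub (h1 j)

theorem bddBelow_D (x : ℤ_[2]) (hx : x + 1 ≠ 0) : BddBelow (Set.range (D x)) := by
  -- right side
  obtain ⟨k0, hk0⟩ := rho_add_one x hx
  have hy : (-1 - x - 1) + 1 ≠ 0 := by
    intro hcon
    apply hx
    have : x + 1 = -((-1 - x - 1) + 1) := by ring
    rw [this, hcon, neg_zero]
  obtain ⟨m0, hm0⟩ := rho_add_one (-1 - x - 1) hy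
  -- right
  set k1 := k0 + 1 with hk1
  have hR : ∀ d : ℕ, D x ((k1 + d : ℕ) : ℤ) + 20 * rho (k1 + d) x =
      D x (k1 : ℤ) + 20 * rho k1 x + 10 * d := by
    intro d
    induction d with
    | zero => simp
    | succ d ih =>
      have e : ((k1 + (d + 1) : ℕ) : ℤ) = ((k1 + d : ℕ) : ℤ) + 1 := by push_cast; ring
      rw [e, D_succ]
      have e2 : ((k1 + d : ℕ) : ℤ) + 1 = ((k1 + d + 1 : ℕ) : ℤ) := by push_cast; ring
      rw [e2, cost_pos _ _ (by omega), cost_pos _ _ (by omega), hk0 _ (by omega)]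
      have e3 : k1 + (d + 1) = k1 + d + 1 := by ring
      rw [e3]
      push_cast at ih ⊢
      linarith
  have hR' : ∀ d : ℕ, D x (k1 : ℤ) - 5 * k1 - 20 ≤ D x ((k1 + d : ℕ) : ℤ) := by
    intro d
    have h1 := hR d
    have h2 := rho_le (k1 + d) x
    have h3 := rho_nonneg k1 x
    push_cast at h1 h2 ⊢
    have : (0:ℝ) ≤ d := by positivity
    linarith
  -- left
  have hL : ∀ d : ℕ, D x (-((m0 + d : ℕ) : ℤ)) + 20 * rho (m0 + d + 1) (-1 - x) =
      D x (-(m0 : ℤ)) + 20 * rho (m0 + 1) (-1 - x) + 10 * d := by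
    intro d
    induction d with
    | zero => simp
    | succ d ih =>
      have h1 := D_succ x (-((m0 + (d + 1) : ℕ) : ℤ))
      have e : -((m0 + (d + 1) : ℕ) : ℤ) + 1 = -((m0 + d : ℕ) : ℤ) := by push_cast; ring
      rw [e, cost_neg, cost_neg] at h1
      have e4 : (-1 - (x + 1)) = -1 - x - 1 := by ring
      have h2 := hm0 (m0 + (d + 1) + 1) (by omega)
      have e5 : (-1 - x - 1 + 1) = -1 - x := by ring
      rw [e5] at h2
      rw [e4] at h1
      push_cast at ih h1 h2 ⊢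
      linarith
  have hL' : ∀ d : ℕ, D x (-(m0 : ℤ)) - 5 * m0 - 30 ≤ D x (-((m0 + d : ℕ) : ℤ)) := by
    intro d
    have h1 := hL d
    have h2 := rho_le (m0 + d + 1) (-1 - x)
    have h3 := rho_nonneg (m0 + 1) (-1 - x)
    push_cast at h1 h2 ⊢
    have : (0:ℝ) ≤ d := by positivity
    linarith
  have hcover : Set.range (D x) ⊆ (D x '' Set.Ici (k1:ℤ)) ∪ (D x '' Set.Iic (-(m0:ℤ))) ∪
      (D x '' Set.Icc (-(m0:ℤ)) (k1:ℤ)) := by
    rintro _ ⟨j, rfl⟩
    by_cases h1 : (k1:ℤ) ≤ j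
    · exact Or.inl (Or.inl ⟨j, h1, rfl⟩)
    by_cases h2 : j ≤ -(m0:ℤ)
    · exact Or.inl (Or.inr ⟨j, h2, rfl⟩)
    · exact Or.inr ⟨j, ⟨by omega, by omega⟩, rfl⟩
  refine BddBelow.mono hcover ?_
  refine BddBelow.union (BddBelow.union ?_ ?_) ?_
  · refine ⟨D x (k1 : ℤ) - 5 * k1 - 20, ?_⟩
    rintro _ ⟨j, hj, rfl⟩
    obtain ⟨d, rfl⟩ : ∃ d : ℕ, j = ((k1 + d : ℕ) : ℤ) := ⟨(j - k1).toNat, by
      have := Set.mem_Ici.1 hj; push_cast; omega⟩
    exact hR' d
  · refine ⟨D x (-(m0 : ℤ)) - 5 * m0 - 30, ?_⟩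
    rintro _ ⟨j, hj, rfl⟩
    obtain ⟨d, rfl⟩ : ∃ d : ℕ, j = -((m0 + d : ℕ) : ℤ) := ⟨(-m0 - j).toNat, by
      have := Set.mem_Iic.1 hj; push_cast; omega⟩
    exact hL' d
  · exact ((Set.finite_Icc _ _).image _).bddBelow

/-- unnormalized backward weight -/
noncomputable def P (x : ℤ_[2]) (j : ℤ) : ENNReal := ENNReal.ofReal (Real.exp (- D x j))

theorem P_pos (x : ℤ_[2]) (j : ℤ) : 0 < P x j := by
  unfold P
  rw [ENNReal.ofReal_pos]
  exact Real.exp_pos _

theorem P_ne_top (x : ℤ_[2]) (j : ℤ) : P x j ≠ ⊤ := ENNReal.ofReal_ne_top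

theorem iSup_P_ne_top (x : ℤ_[2]) (hx : x + 1 ≠ 0) : (⨆ i, P x i) ≠ ⊤ := by
  obtain ⟨L, hL⟩ := bddBelow_D x hx
  apply ne_top_of_le_ne_top (b := ENNReal.ofReal (Real.exp (-L))) ENNReal.ofReal_ne_top
  apply iSup_le
  intro i
  apply ENNReal.ofReal_le_ofReal
  apply Real.exp_le_exp.2
  have := hL ⟨i, rfl⟩
  linarith

/-- the backward weights -/
noncomputable def b (j : ℤ) (x : ℤ_[2]) : ℝ := (P x j / ⨆ i, P x i).toReal

theorem b_nonneg (j : ℤ) (x : ℤ_[2]) : 0 ≤ b j x := ENNReal.toReal_nonneg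

theorem b_le_one (j : ℤ) (x : ℤ_[2]) : b j x ≤ 1 := by
  unfold b
  have h1 : P x j / ⨆ i, P x i ≤ 1 := by
    apply ENNReal.div_le_of_le_mul
    rw [one_mul]
    exact le_iSup (P x) j
  have := ENNReal.toReal_mono ENNReal.one_ne_top h1
  simpa using this

theorem b_pos (j : ℤ) (x : ℤ_[2]) (hx : x + 1 ≠ 0) : 0 < b j x := by
  unfold b
  apply ENNReal.toReal_pos
  · rw [ENNReal.div_ne_zero]
    exact ⟨(P_pos x j).ne', iSup_P_ne_top x hx⟩
  · apply ENNReal.div_ne_top (P_ne_top x j)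
    exact ((P_pos x j).trans_le (le_iSup (P x) j)).ne'

theorem measurable_b (j : ℤ) : Measurable (b j) := by
  unfold b
  have h1 : ∀ j, Measurable (fun x => P x j) := by
    intro j
    unfold P
    have := (continuous_D j).measurable
    fun_prop
  exact ((h1 j).div (Measurable.iSup h1)).ennreal_toReal

/-- the forward weights -/
noncomputable def beta (j : ℤ) (x : ℤ_[2]) : ℝ := Real.exp (-(cum x (j + 1) - cum x j))

theorem beta_pos (j : ℤ) (x : ℤ_[2]) : 0 < beta j x := Real.exp_pos _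

theorem measurable_beta (j : ℤ) : Measurable (beta j) := by
  unfold beta
  have h1 := continuous_cum (j+1)
  have h2 := continuous_cum j
  exact (show Continuous (fun x => Real.exp (-(cum x (j + 1) - cum x j))) by fun_prop).measurable

theorem P_succ_mul (x : ℤ_[2]) (j : ℤ) :
    P x (j + 1) * ENNReal.ofReal (beta j x) = P x j * ENNReal.ofReal (beta (j - 1) (x + 1)) := by
  unfold P beta
  rw [← ENNReal.ofReal_mul (Real.exp_pos _).le, ← ENNReal.ofReal_mul (Real.exp_pos _).le,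
    ← Real.exp_add, ← Real.exp_add]
  congr 2
  unfold D
  rw [add_sub_cancel_right, sub_add_cancel]
  ring

/-- the commutation relation of the weights -/
theorem b_succ_mul_beta (x : ℤ_[2]) (j : ℤ) :
    b (j + 1) x * beta j x = b j x * beta (j - 1) (x + 1) := by
  unfold b
  have h := P_succ_mul x j
  have h1 : (P x (j + 1) / ⨆ i, P x i) * ENNReal.ofReal (beta j x) =
      (P x j / ⨆ i, P x i) * ENNReal.ofReal (beta (j - 1) (x + 1)) := by
    rw [div_eq_mul_inv, div_eq_mul_inv, mul_right_comm, h, mul_right_comm]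
  have h2 := congrArg ENNReal.toReal h1
  rw [ENNReal.toReal_mul, ENNReal.toReal_mul, ENNReal.toReal_ofReal (beta_pos _ _).le,
    ENNReal.toReal_ofReal (beta_pos _ _).le] at h2
  exact h2

theorem beta_zero (x : ℤ_[2]) : beta 0 x = Real.exp (-10) := by
  unfold beta
  have := cum_sub x 1
  rw [cost_one] at this
  norm_num at this
  norm_num
  linarith

end Crest.Agent.S0150Cost
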