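import Mathlib
import Crest.Prelude.Def_TwoAdicShift
import Crest.Agent.S0150_Seq

set_option autoImplicit false
open Crest.AnalysisR.TwoAdic MeasureTheory
open scoped InnerProductSpace ComplexConjugate

namespace Crest.Agent.S0150Fibre
open Crest.Agent.S0150Seq

/-! ### geometric sums over `ℤ` -/

theorem hasSum_geom_int (r : ℝ) (hr0 : 0 ≤ r) (hr1 : r < 1) (a : ℤ) :
    HasSum (fun k : ℤ => r ^ (k - a).natAbs) ((1 + r) / (1 - r)) := by
  have h0 : HasSum (fun k : ℤ => r ^ k.natAbs) ((1 + r) / (1 - r)) := by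
    have h1 : HasSum (fun n : ℕ => r ^ ((n:ℤ)).natAbs) (1 - r)⁻¹ := by
      simpa using hasSum_geometric_of_lt_one hr0 hr1
    have h2 : HasSum (fun n : ℕ => r ^ (-((n:ℤ)+1)).natAbs) (r * (1 - r)⁻¹) := by
      have := (hasSum_geometric_of_lt_one hr0 hr1).mul_left r
      refine this.congr_fun ?_ 
      intro n
      have : (-((n:ℤ)+1)).natAbs = n + 1 := by omega
      rw [this, pow_succ]; ring
    have h3 := HasSum.of_nat_of_neg_add_one (f := fun k : ℤ => r ^ k.natAbs) h1 h2
    convert h3 using 1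
    have : (1 - r) ≠ 0 := by linarith
    field_simp
  have := (Equiv.subRight a).hasSum_iff.2 h0
  exact this

/-- **Key Lemma** (pure sequences). -/
theorem not_hasSum_zero {C : ℤ → ℝ} (h : CostHyp C) (f g : ℤ → ℂ) (A B : ℝ)
    (hfA : ∀ k, ‖f k‖ ≤ A) (hgB : ∀ k, ‖g k‖ ≤ B) (p0 q0 : ℤ) (hp : f p0 ≠ 0) (hq : g q0 ≠ 0)
    (hpq : p0 < q0) :
    ∃ n : ℕ, 1 ≤ n ∧
      ¬ HasSum (fun k => g (k + n) * ((Real.exp (-(C (k + n) - C k)) : ℂ) * f k)) 0 := by
  obtain ⟨n, hn, p, a, b, hpos, hbd⟩ := dominate h (fun k => ‖f k‖) (fun k => ‖g k‖) A B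
    (fun k => norm_nonneg _) (fun k => norm_nonneg _) hfA hgB p0 q0 (norm_pos_iff.2 hp)
    (norm_pos_iff.2 hq) hpq
  refine ⟨n, hn, ?_⟩
  intro hsum
  set t : ℤ → ℂ := fun k => g (k + n) * ((Real.exp (-(C (k + n) - C k)) : ℂ) * f k) with ht
  have hnorm : ∀ k, ‖t k‖ = ‖f k‖ * ‖g (k + n)‖ * Real.exp (-(C (k + n) - C k)) := by
    intro k
    rw [ht]
    simp only [norm_mul, Complex.norm_real, Real.norm_eq_abs, Real.abs_exp]
    ring
  set T := ‖f p‖ * ‖g (p + n)‖ * Real.exp (-(C (p + n) - C p)) with hT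
  have h1 : HasSum (fun k => t k - (if k = p then t p else 0)) (0 - t p) := by
    refine hsum.sub ?_
    exact hasSum_ite_eq p (t p)
  -- bound
  have hb1 : HasSum (fun k : ℤ => (1/7 : ℝ) ^ (k - p).natAbs - (if k = p then 1 else 0)) (1/3) := by
    have := (hasSum_geom_int (1/7) (by norm_num) (by norm_num) p).sub (hasSum_ite_eq p (1:ℝ))
    have e : ((1 + 1/7) / (1 - 1/7) - 1 : ℝ) = 1/3 := by norm_num
    rw [e] at this
    exact this
  have hb2 : HasSum (fun k : ℤ => (1/18:ℝ) * (1/2 : ℝ) ^ (k - a).natAbs) (1/6) := by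
    have := (hasSum_geom_int (1/2) (by norm_num) (by norm_num) a).mul_left (1/18)
    have e : (1/18 * ((1 + 1/2) / (1 - 1/2)) : ℝ) = 1/6 := by norm_num
    rw [e] at this
    exact this
  have hb3 : HasSum (fun k : ℤ => (1/18:ℝ) * (1/2 : ℝ) ^ (k + n - b).natAbs) (1/6) := by
    have := (hasSum_geom_int (1/2) (by norm_num) (by norm_num) (b - n)).mul_left (1/18)
    have e : (1/18 * ((1 + 1/2) / (1 - 1/2)) : ℝ) = 1/6 := by norm_num
    rw [e] at this
    refine this.congr_fun ?_
    intro k
    have : (k + n - b) = k - (b - n) := by ring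
    rw [this]
  have hb := ((hb1.add hb2).add hb3).mul_left T
  have h2 := h1.norm_le_of_bounded hb ?_
  · rw [zero_sub, norm_neg, hnorm] at h2
    rw [← hT] at h2
    have : T * (1/3 + 1/6 + 1/6) = T * (2/3) := by norm_num
    rw [this] at h2
    have hpos' : 0 < T := hpos
    linarith
  · intro k
    have hTpos : 0 < T := hpos
    by_cases hk : k = p
    · subst hk
      simp only [if_true, sub_self, norm_zero]
      have : (0:ℝ) ≤ 1/18 * (1/2)^(k-a).natAbs := by positivity
      have : (0:ℝ) ≤ 1/18 * (1/2)^(k+n-b).natAbs := by positivity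
      simp only [Int.natAbs_zero, pow_zero, sub_self, zero_add]
      positivity
    · simp only [if_neg hk, sub_zero]
      rw [hnorm]
      exact hbd k hk

/-! ### coordinates in `ℓ²(ℤ)` -/

theorem hasSum_norm_sq (f : seqHilbert) : HasSum (fun k => ‖f k‖^2) (‖f‖^2) := by
  have := lp.hasSum_norm (p := 2) (by norm_num) f
  simpa using this

theorem norm_coord_le (f : seqHilbert) (k : ℤ) : ‖f k‖ ≤ ‖f‖ :=
  lp.norm_apply_le_norm (by norm_num) f k

theorem hasSum_norm_sq_shift (f : seqHilbert) (s : ℤ) :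
    HasSum (fun k => ‖f (k + s)‖^2) (‖f‖^2) :=
  (Equiv.addRight s).hasSum_iff.2 (hasSum_norm_sq f)

theorem memlp_shift (w : ℤ → ℝ) (M : ℝ) (hM : ∀ k, |w k| ≤ M) (s : ℤ) (f : seqHilbert) :
    Memℓp (fun k => (w k : ℂ) * f (k + s)) 2 := by
  rw [memℓp_gen_iff (by norm_num)]
  have h1 := (hasSum_norm_sq_shift f s).summable.mul_left (M^2)
  have : (ENNReal.toReal 2) = ((2:ℕ):ℝ) := by norm_num
  simp only [this, Real.rpow_natCast]
  refine Summable.of_nonneg_of_le (fun k => by positivity) (fun k => ?_) h1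
  rw [norm_mul, mul_pow]
  have : ‖(w k : ℂ)‖ ≤ M := by simpa using hM k
  gcongr

/-- weighted translation -/
noncomputable def wshift (w : ℤ → ℝ) (M : ℝ) (hM : ∀ k, |w k| ≤ M) (s : ℤ) :
    seqHilbert →L[ℂ] seqHilbert :=
  LinearMap.mkContinuous
    { toFun := fun f => ⟨fun k => (w k : ℂ) * f (k + s), memlp_shift w M hM s f⟩
      map_add' := by
        intro f g
        ext k
        show (w k : ℂ) * (f (k + s) + g (k + s)) = (w k : ℂ) * f (k + s) + (w k : ℂ) * g (k + s)
        ring
      map_smul' := by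
        intro c f
        ext k
        show (w k : ℂ) * (c * f (k + s)) = c * ((w k : ℂ) * f (k + s))
        ring }
    M (by
      intro f
      have hM0 : 0 ≤ M := (abs_nonneg _).trans (hM 0)
      apply le_of_sq_le_sq _ (by positivity)
      have h1 := hasSum_norm_sq (⟨fun k => (w k : ℂ) * f (k + s), memlp_shift w M hM s f⟩ : seqHilbert)
      have h2 := (hasSum_norm_sq_shift f s).mul_left (M^2)
      rw [mul_pow]
      refine hasSum_le (fun k => ?_) h1 h2
      show ‖(w k : ℂ) * f (k + s)‖^2 ≤ _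
      rw [norm_mul, mul_pow]
      have : ‖(w k : ℂ)‖ ≤ M := by simpa using hM k
      gcongr)

theorem wshift_apply (w : ℤ → ℝ) (M : ℝ) (hM : ∀ k, |w k| ≤ M) (s : ℤ) (f : seqHilbert) (k : ℤ) :
    wshift w M hM s f k = (w k : ℂ) * f (k + s) := rfl

theorem norm_wshift_le (w : ℤ → ℝ) (M : ℝ) (hM : ∀ k, |w k| ≤ M) (s : ℤ) :
    ‖wshift w M hM s‖ ≤ M :=
  LinearMap.mkContinuous_norm_le _ ((abs_nonneg _).trans (hM 0)) _

theorem basisVec_apply (j k : ℤ) : basisVec j k = if k = j then 1 else 0 := by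
  unfold basisVec
  rw [lp.coeFn_single, Pi.single_apply]

theorem wshift_basisVec (w : ℤ → ℝ) (M : ℝ) (hM : ∀ k, |w k| ≤ M) (s j : ℤ) :
    wshift w M hM s (basisVec j) = (w (j - s) : ℂ) • basisVec (j - s) := by
  ext k
  rw [wshift_apply, lp.coeFn_smul, Pi.smul_apply, basisVec_apply, basisVec_apply]
  by_cases hk : k + s = j
  · have : k = j - s := by omega
    simp [this]
  · have : ¬ k = j - s := by omega
    simp [hk, this]

theorem norm_basisVec (j : ℤ) : ‖basisVec j‖ = 1 := by
  unfold basisVec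
  rw [lp.norm_single (by norm_num)]; simp

theorem hasSum_basisVec (f : seqHilbert) : HasSum (fun k => f k • basisVec k) f := by
  have := lp.hasSum_single (p := 2) (by norm_num) f
  convert this using 2 with k
  unfold basisVec
  rw [← lp.single_smul]; simp

theorem inner_basisVec_left (j : ℤ) (f : seqHilbert) : ⟪basisVec j, f⟫_ℂ = f j := by
  unfold basisVec
  rw [lp.inner_single_left]; simp

/-! ### tails -/

theorem mem_tailSpace_iff (h : ℤ) (v : seqHilbert) : v ∈ tailSpace h ↔ ∀ j, j < h → v j = 0 := by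
  constructor
  · intro hv
    let Z : Submodule ℂ seqHilbert := 
      { carrier := {v | ∀ j, j < h → v j = 0}
        add_mem' := by
          intro a b ha hb j hj
          rw [lp.coeFn_add, Pi.add_apply, ha j hj, hb j hj, add_zero]
        zero_mem' := by intro j hj; rfl
        smul_mem' := by
          intro c a ha j hj
          rw [lp.coeFn_smul, Pi.smul_apply, ha j hj, smul_zero] }
    have hZc : IsClosed (Z : Set seqHilbert) := by
      have : (Z : Set seqHilbert) = ⋂ j : ℤ, ⋂ _ : j < h, {v : seqHilbert | ⟪basisVec j, v⟫_ℂ = 0} := by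
        ext v
        simp only [Set.mem_iInter]
        constructor
        · intro hv j hj
          show ⟪basisVec j, v⟫_ℂ = 0
          rw [inner_basisVec_left]; exact hv j hj
        · intro hv j hj
          have := hv j hj
          rw [← inner_basisVec_left]
          exact this
      rw [this]
      refine isClosed_iInter fun j => isClosed_iInter fun _ => ?_
      exact isClosed_eq (by fun_prop) continuous_const
    have hle : tailSpace h ≤ Z := by
      unfold tailSpace
      apply Submodule.topologicalClosure_minimal _ _ hZc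
      rw [Submodule.span_le]
      rintro _ ⟨⟨j, hj⟩, rfl⟩
      intro k hk
      have hkj : ¬ k = j := by omega
      simp only
      rw [basisVec_apply, if_neg hkj]
    exact hle hv
  · intro hv
    have h1 := hasSum_basisVec v
    unfold tailSpace
    rw [← SetLike.mem_coe, Submodule.topologicalClosure_coe]
    apply mem_closure_of_tendsto h1
    refine Filter.Eventually.of_forall fun s => ?_
    apply Submodule.sum_mem
    intro k _
    by_cases hk : h ≤ k
    · exact Submodule.smul_mem _ _ (Submodule.subset_span ⟨⟨k, hk⟩, rfl⟩)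
    · rw [hv k (by omega), zero_smul]; exact Submodule.zero_mem _

theorem isClosed_tailSpace (h : ℤ) : IsClosed (tailSpace h : Set seqHilbert) :=
  Submodule.isClosed_topologicalClosure _

theorem basisVec_mem_tailSpace {h j : ℤ} (hj : h ≤ j) : basisVec j ∈ tailSpace h := by
  rw [mem_tailSpace_iff]
  intro k hk
  rw [basisVec_apply, if_neg (by omega)]

/-- a closed subspace containing all basis vectors of index at least `h` contains the tail. -/
theorem tailSpace_le {h : ℤ} {W : Submodule ℂ seqHilbert} (hW : IsClosed (W : Set seqHilbert))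
    (hm : ∀ j, h ≤ j → basisVec j ∈ W) : tailSpace h ≤ W := by
  unfold tailSpace
  apply Submodule.topologicalClosure_minimal _ _ hW
  rw [Submodule.span_le]
  rintro _ ⟨⟨j, hj⟩, rfl⟩
  exact hm j hj

theorem eq_top_of_basis {W : Submodule ℂ seqHilbert} (hW : IsClosed (W : Set seqHilbert))
    (hm : ∀ j, basisVec j ∈ W) : W = ⊤ := by
  rw [eq_top_iff]
  intro v _
  have h1 := hasSum_basisVec v
  apply hW.mem_of_tendsto h1
  refine Filter.Eventually.of_forall fun s => ?_
  apply Submodule.sum_mem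
  intro k _
  exact W.smul_mem _ (hm k)

/-! ### the fibre shift with cost function `C` -/

theorem exp_cost_le {C : ℤ → ℝ} (h : CostHyp C) (k : ℤ) :
    |Real.exp (-(C k - C (k - 1)))| ≤ Real.exp (-10) := by
  rw [Real.abs_exp]
  apply Real.exp_le_exp.2
  have := step_pos h k
  linarith

/-- the forward shift `δ_j ↦ exp(-(C (j+1) - C j)) δ_{j+1}` -/
noncomputable def fshift (C : ℤ → ℝ) (h : CostHyp C) : seqHilbert →L[ℂ] seqHilbert :=
  wshift (fun k => Real.exp (-(C k - C (k - 1)))) (Real.exp (-10)) (exp_cost_le h) (-1)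

theorem fshift_apply {C : ℤ → ℝ} (h : CostHyp C) (f : seqHilbert) (k : ℤ) :
    fshift C h f k = (Real.exp (-(C k - C (k - 1))) : ℂ) * f (k - 1) := by
  unfold fshift
  rw [wshift_apply, ← sub_eq_add_neg]

theorem fshift_pow_apply {C : ℤ → ℝ} (h : CostHyp C) (n : ℕ) (f : seqHilbert) (k : ℤ) :
    (fshift C h ^ n) f k = (Real.exp (-(C k - C (k - n))) : ℂ) * f (k - n) := by
  induction n generalizing k with
  | zero => simp
  | succ n ih =>
    rw [pow_succ', mul_apply_eq_comp, fshift_apply, ih, ← mul_assoc]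
    rw [← Complex.ofReal_mul, ← Real.exp_add]
    have e : k - ((n + 1 : ℕ) : ℤ) = k - 1 - n := by push_cast; ring
    rw [e]
    congr 3
    ring

theorem fshift_basisVec {C : ℤ → ℝ} (h : CostHyp C) (j : ℤ) :
    fshift C h (basisVec j) = (Real.exp (-(C (j + 1) - C j)) : ℂ) • basisVec (j + 1) := by
  unfold fshift
  rw [wshift_basisVec]
  simp

/-- **Unicellularity**, easy direction -/
theorem fshift_tail {C : ℤ → ℝ} (h : CostHyp C) (m : ℤ) (v : seqHilbert) (hv : v ∈ tailSpace m) :
    fshift C h v ∈ tailSpace m := by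
  rw [mem_tailSpace_iff] at *
  intro j hj
  rw [fshift_apply, hv (j-1) (by omega), mul_zero]

theorem key_support {C : ℤ → ℝ} (h : CostHyp C) (f g : seqHilbert)
    (horth : ∀ n : ℕ, 1 ≤ n → ⟪g, (fshift C h ^ n) f⟫_ℂ = 0) {p0 q0 : ℤ} (hp : f p0 ≠ 0)
    (hq : g q0 ≠ 0) : q0 ≤ p0 := by
  by_contra hlt
  push Not at hlt
  obtain ⟨n, hn, hns⟩ := not_hasSum_zero h (fun k => f k) (fun k => conj (g k)) ‖f‖ ‖g‖
    (fun k => norm_coord_le f k) (fun k => by rw [RCLike.norm_conj]; exact norm_coord_le g k)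
    p0 q0 hp (by simpa using hq) hlt
  apply hns
  have h1 : HasSum (fun i => ⟪g i, ((fshift C h ^ n) f) i⟫_ℂ) ⟪g, (fshift C h ^ n) f⟫_ℂ :=
    lp.hasSum_inner g ((fshift C h ^ n) f)
  rw [horth n hn] at h1
  have h2 := (Equiv.addRight (n:ℤ)).hasSum_iff.2 h1
  refine h2.congr_fun ?_
  intro k
  simp only [Function.comp, Equiv.coe_addRight]
  rw [fshift_pow_apply]
  simp [mul_comm]

theorem unicellular {C : ℤ → ℝ} (h : CostHyp C) (W : Submodule ℂ seqHilbert)
    (hW : IsClosed (W : Set seqHilbert)) :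
    (∀ v ∈ W, fshift C h v ∈ W) ↔ (W = ⊥ ∨ W = ⊤ ∨ ∃ m : ℤ, W = tailSpace m) := by
  constructor
  · intro hinv
    by_cases hbot : W = ⊥
    · exact Or.inl hbot
    by_cases htop : W = ⊤
    · exact Or.inr (Or.inl htop)
    refine Or.inr (Or.inr ?_)
    have : CompleteSpace W := hW.completeSpace_coe
    have hperp : Wᗮ ≠ ⊥ := by
      intro hcon
      apply htop
      rwa [Submodule.orthogonal_eq_bot_iff] at hcon
    obtain ⟨f, hf, hf0⟩ := Submodule.exists_mem_ne_zero_of_ne_bot hbot
    obtain ⟨g, hg, hg0⟩ := Submodule.exists_mem_ne_zero_of_ne_bot hperp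
    have hpow : ∀ n : ℕ, ∀ v ∈ W, (fshift C h ^ n) v ∈ W := by
      intro n
      induction n with
      | zero => intro v hv; simpa using hv
      | succ n ih => 
        intro v hv
        rw [pow_succ', mul_apply_eq_comp]
        exact hinv _ (ih v hv)
    have key : ∀ f ∈ W, ∀ g ∈ Wᗮ, ∀ p q : ℤ, f p ≠ 0 → g q ≠ 0 → q ≤ p := by
      intro f hf g hg p q hp hq
      refine key_support h f g ?_ hp hq
      intro n _
      exact Submodule.inner_left_of_mem_orthogonal (hpow n f hf) hg
    obtain ⟨p1, hp1⟩ : ∃ p, f p ≠ 0 := by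
      by_contra hcon
      push Not at hcon
      apply hf0
      ext k
      exact hcon k
    obtain ⟨q1, hq1⟩ : ∃ q, g q ≠ 0 := by
      by_contra hcon
      push Not at hcon
      apply hg0
      ext k
      exact hcon k
    obtain ⟨m, ⟨f1, hf1, hm⟩, hmin⟩ := Int.exists_least_of_bdd (P := fun p => ∃ f ∈ W, f p ≠ 0)
      ⟨q1, fun z ⟨f2, hf2, hz⟩ => key f2 hf2 g hg z q1 hz hq1⟩ ⟨p1, f, hf, hp1⟩
    have hsub1 : W ≤ tailSpace m := by
      intro v hv
      rw [mem_tailSpace_iff]
      intro j hj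
      by_contra hcon
      have := hmin j ⟨v, hv, hcon⟩
      omega
    have hsub2 : tailSpace (m+1) ≤ W := by
      apply tailSpace_le hW
      intro j hj
      rw [← Submodule.orthogonal_orthogonal W]
      rw [Submodule.mem_orthogonal]
      intro u hu
      have : u j = 0 := by
        by_contra hcon
        have := key f1 hf1 u hu m j hm hcon
        omega
      rw [← inner_conj_symm, inner_basisVec_left, this, map_zero]
    refine ⟨m, le_antisymm hsub1 ?_⟩
    apply tailSpace_le hW
    intro j hj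
    rcases hj.eq_or_lt with rfl | hj
    · have h1 : f1 - (f1 m) • basisVec m ∈ tailSpace (m+1) := by
        rw [mem_tailSpace_iff]
        intro j hj
        rw [lp.coeFn_sub, Pi.sub_apply, lp.coeFn_smul, Pi.smul_apply, basisVec_apply]
        rcases (show j ≤ m by omega).eq_or_lt with rfl | hj
        · simp
        · have h2 := hsub1 hf1
          rw [mem_tailSpace_iff] at h2
          rw [h2 j hj, if_neg (by omega)]; simp
      have h3 : (f1 m) • basisVec m ∈ W := by
        have := W.sub_mem hf1 (hsub2 h1)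
        simpa using this
      have h4 := W.smul_mem (f1 m)⁻¹ h3
      rwa [smul_smul, inv_mul_cancel₀ hm, one_smul] at h4
    · exact hsub2 (basisVec_mem_tailSpace (by omega))
  · rintro (rfl | rfl | ⟨m, rfl⟩) v hv
    · rw [Submodule.mem_bot] at *
      rw [hv, map_zero]
    · trivial
    · exact fshift_tail h m v hv

end Crest.Agent.S0150Fibre
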