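import Mathlib
import Crest.Prelude.Def_TwoAdicShift
import Crest.Agent.S0150_Seq
import Crest.Agent.S0150_Fibre
import Crest.Agent.S0150_Cost

set_option autoImplicit false
open Crest.AnalysisR.TwoAdic MeasureTheory Filter
open scoped InnerProductSpace ComplexConjugate Topology
attribute [local instance] Crest.AnalysisR.TwoAdic.borelTwoAdic Crest.AnalysisR.TwoAdic.borelSpace_twoAdic

namespace Crest.Agent.S0150Op
open Crest.Agent.S0150Seq Crest.Agent.S0150Fibre Crest.Agent.S0150Cost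

/-! ### decomposable operators -/

section decomp
variable {α : Type*} [MeasurableSpace α] {μ : Measure α}

/-- coordinatewise measurability suffices in `ℓ²(ℤ)` -/
theorem stronglyMeasurable_of_coord {F : α → seqHilbert} (h : ∀ k, Measurable (fun x => F x k)) :
    StronglyMeasurable F := by
  refine stronglyMeasurable_of_tendsto (atTop : Filter (Finset ℤ))
    (f := fun s x => ∑ k ∈ s, F x k • basisVec k) ?_ ?_
  · intro s
    apply Finset.stronglyMeasurable_fun_sum
    intro k _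
    exact (h k).stronglyMeasurable.smul_const _
  · rw [tendsto_pi_nhds]
    intro x
    exact hasSum_basisVec (F x)

theorem measurable_coord {f : α → seqHilbert} (hf : StronglyMeasurable f) (k : ℤ) :
    Measurable (fun x => f x k) := by
  have h1 : StronglyMeasurable (fun x => ⟪basisVec k, f x⟫_ℂ) :=
    (continuous_const.inner continuous_id).comp_stronglyMeasurable hf
  have h2 := h1.measurable
  simp only [inner_basisVec_left] at h2
  exact h2

theorem decomp_memLp (μ : Measure α) (B : α → seqHilbert →L[ℂ] seqHilbert) (M : ℝ) 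
    (hM : ∀ x, ‖B x‖ ≤ M)
    (hB : ∀ f : α → seqHilbert, StronglyMeasurable f → StronglyMeasurable (fun x => B x (f x)))
    (f : Lp seqHilbert 2 μ) : MemLp (fun x => B x (f x)) 2 μ := 
  MemLp.of_le_mul (c := M) (Lp.memLp f) (hB _ (Lp.stronglyMeasurable f)).aestronglyMeasurable
      (Eventually.of_forall fun x => ((B x).le_opNorm _).trans (by gcongr; exact hM x))

/-- the operator `(B f)(x) = B_x f(x)` on `L²(μ; ℓ²(ℤ))` -/
noncomputable def decomp (μ : Measure α) (B : α → seqHilbert →L[ℂ] seqHilbert) (M : ℝ) 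
    (hM : ∀ x, ‖B x‖ ≤ M)
    (hB : ∀ f : α → seqHilbert, StronglyMeasurable f → StronglyMeasurable (fun x => B x (f x))) :
    Lp seqHilbert 2 μ →L[ℂ] Lp seqHilbert 2 μ :=
  have hmem : ∀ f : Lp seqHilbert 2 μ, MemLp (fun x => B x (f x)) 2 μ := decomp_memLp μ B M hM hB
  LinearMap.mkContinuous
    { toFun := fun f => (hmem f).toLp _
      map_add' := by
        intro f g
        apply Lp.ext
        filter_upwards [(hmem (f+g)).coeFn_toLp, (hmem f).coeFn_toLp, (hmem g).coeFn_toLp,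
          Lp.coeFn_add f g, Lp.coeFn_add ((hmem f).toLp _) ((hmem g).toLp _)] with x h1 h2 h3 h4 h5
        rw [h1, h5, Pi.add_apply, h2, h3, h4, Pi.add_apply, map_add]
      map_smul' := by
        intro c f
        apply Lp.ext
        filter_upwards [(hmem (c • f)).coeFn_toLp, (hmem f).coeFn_toLp,
          Lp.coeFn_smul c f, Lp.coeFn_smul c ((hmem f).toLp _)] with x h1 h2 h4 h5
        rw [h1, RingHom.id_apply, h5, Pi.smul_apply, h2, h4, Pi.smul_apply, map_smul] }
    M (by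
      intro f
      apply Lp.norm_le_mul_norm_of_ae_le_mul
      filter_upwards [(hmem f).coeFn_toLp] with x h1
      show ‖(hmem f).toLp _ x‖ ≤ _
      rw [h1]
      exact ((B x).le_opNorm _).trans (by gcongr; exact hM x))

theorem decomp_ae (B : α → seqHilbert →L[ℂ] seqHilbert) (M : ℝ)
    (hM : ∀ x, ‖B x‖ ≤ M)
    (hB : ∀ f : α → seqHilbert, StronglyMeasurable f → StronglyMeasurable (fun x => B x (f x)))
    (f : Lp seqHilbert 2 μ) : decomp μ B M hM hB f =ᵐ[μ] fun x => B x (f x) :=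
  (decomp_memLp μ B M hM hB f).coeFn_toLp

/-- pointwise norm bounds give operator norm bounds -/
theorem opNorm_le_of_ae (T : Lp seqHilbert 2 μ →L[ℂ] Lp seqHilbert 2 μ) (M : ℝ) (hM0 : 0 ≤ M)
    (h : ∀ f, ∀ᵐ x ∂μ, ‖T f x‖ ≤ M * ‖f x‖) : ‖T‖ ≤ M :=
  T.opNorm_le_bound hM0 fun f => Lp.norm_le_mul_norm_of_ae_le_mul (h f)

theorem norm_decomp_le (B : α → seqHilbert →L[ℂ] seqHilbert) (M : ℝ) (hM0 : 0 ≤ M)
    (hM : ∀ x, ‖B x‖ ≤ M)
    (hB : ∀ f : α → seqHilbert, StronglyMeasurable f → StronglyMeasurable (fun x => B x (f x))) :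
    ‖decomp μ B M hM hB‖ ≤ M := by
  apply opNorm_le_of_ae _ _ hM0
  intro f
  filter_upwards [decomp_ae B M hM hB f] with x hx
  rw [hx]
  exact ((B x).le_opNorm _).trans (by gcongr; exact hM x)

theorem wshift_measurable (w : α → ℤ → ℝ) (M : ℝ) (hM : ∀ x k, |w x k| ≤ M) (s : ℤ)
    (hw : ∀ k, Measurable (fun x => w x k)) (f : α → seqHilbert) (hf : StronglyMeasurable f) :
    StronglyMeasurable (fun x => wshift (w x) M (hM x) s (f x)) := by
  apply stronglyMeasurable_of_coord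
  intro k
  simp only [wshift_apply]
  have h1 := hw k
  have h2 := measurable_coord hf (k + s)
  exact (Complex.measurable_ofReal.comp h1).mul h2

end decomp

/-! ### Haar measure on `ℤ₂` -/

instance : IsProbabilityMeasure haarTwoAdic := ⟨by
  unfold haarTwoAdic
  exact Measure.addHaarMeasure_self (K₀ := (⊤ : TopologicalSpace.PositiveCompacts ℤ_[2]))⟩

instance : haarTwoAdic.IsAddHaarMeasure := by
  unfold haarTwoAdic; infer_instance

theorem haar_singleton (x : ℤ_[2]) : haarTwoAdic {x} = 0 := by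
  have h0 : (𝓝[≠] (0 : ℤ_[2])).NeBot := by
    rw [← mem_closure_iff_nhdsWithin_neBot, Metric.mem_closure_iff]
    intro ε hε
    obtain ⟨n, hn⟩ := exists_pow_lt_of_lt_one hε (show (1/2:ℝ) < 1 by norm_num)
    refine ⟨((2:ℕ) : ℤ_[2])^n, ?_, ?_⟩
    · simp
    · rw [dist_zero_left, PadicInt.norm_p_pow]
      have h1 : ((2:ℕ):ℝ) ^ (-(n:ℤ)) = (1/2)^n := by
        rw [zpow_neg, zpow_natCast]; simp
      rw [h1]; exact hn
  have : NullSingletonClass haarTwoAdic := inferInstance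
  exact measure_singleton x

/-! ### the operators -/

theorem quarter_step (n : ℕ) : (n + 1 + 1)^2/4 = (n+1)^2/4 + (n+2)/2 := by
  rcases Nat.even_or_odd' n with ⟨m, rfl | rfl⟩
  · have e1 : (2*m + 1 + 1)^2 = 4 * (m+1)^2 := by ring
    have e2 : (2*m+1)^2 = 4 * (m^2 + m) + 1 := by ring
    have e3 : (2*m+2)/2 = m + 1 := by omega
    rw [e1, e2, e3, Nat.mul_div_cancel_left _ (by norm_num)]
    have e4 : (4 * (m^2+m) + 1)/4 = m^2 + m := by omega
    rw [e4]; ring
  · have e1 : (2*m + 1 + 1 + 1)^2 = 4 * (m^2 + 3*m + 2) + 1 := by ring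
    have e2 : (2*m+1+1)^2 = 4 * (m+1)^2 := by ring
    have e3 : (2*m+1+2)/2 = m + 1 := by omega
    rw [e1, e2, e3, Nat.mul_div_cancel_left _ (by norm_num)]
    have e4 : (4 * (m^2+3*m+2) + 1)/4 = m^2 + 3*m+2 := by omega
    rw [e4]; ring

theorem cost_n {C : ℤ → ℝ} (h : CostHyp C) (n : ℕ) (k : ℤ) :
    10 * (((n + 1)^2/4 : ℕ) : ℝ) ≤ C k - C (k - n) := by
  induction n generalizing k with
  | zero => simp
  | succ n ih =>
    rw [quarter_step]
    have hlow : ((n+2)/2 : ℕ) ≤ k ∨ ((n+2)/2 : ℕ) ≤ 1 - (k - n) := by omega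
    rcases hlow with hk | hk
    · obtain ⟨m, rfl⟩ : ∃ m : ℕ, k = m + 1 := ⟨(k-1).toNat, by omega⟩
      have h1 := step_ge_right h m
      have h2 := ih m
      have h3 : ((m:ℤ) + 1 - ((n + 1 : ℕ) : ℤ)) = m - n := by push_cast; ring
      rw [h3]
      have h4 : (((n+2)/2 : ℕ) : ℝ) ≤ m + 1 := by exact_mod_cast hk
      push_cast at *
      linarith
    · obtain ⟨m, hm⟩ : ∃ m : ℕ, k - n = -m := ⟨(n - k).toNat, by omega⟩
      have h1 := step_ge_right h.refl m
      have h2 := ih k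
      have h3 : k - ((n + 1 : ℕ) : ℤ) = -(m + 1) := by push_cast; linarith
      rw [h3]
      rw [hm] at h2 hk
      have h4 : (((n+2)/2 : ℕ) : ℝ) ≤ m + 1 := by
        have : (((n+2)/2 : ℕ) : ℤ) ≤ m + 1 := by linarith
        exact_mod_cast this
      push_cast at *
      linarith

theorem norm_fshift_pow_apply_le {C : ℤ → ℝ} (h : CostHyp C) (n : ℕ) (f : seqHilbert) :
    ‖(fshift C h ^ n) f‖ ≤ Real.exp (-10 * (((n + 1)^2/4 : ℕ) : ℝ)) * ‖f‖ := by
  have hw : ∀ k : ℤ, |Real.exp (-(C k - C (k - n)))| ≤ Real.exp (-10 * (((n + 1)^2/4 : ℕ) : ℝ)) := by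
    intro k
    rw [Real.abs_exp]
    apply Real.exp_le_exp.2
    have := cost_n h n k
    linarith
  have h1 : (fshift C h ^ n) f = wshift (fun k : ℤ => Real.exp (-(C k - C (k - n)))) _ hw (-n) f := by
    ext k
    rw [fshift_pow_apply, wshift_apply, ← sub_eq_add_neg]
  rw [h1]
  exact (ContinuousLinearMap.le_opNorm _ _).trans (by gcongr; exact norm_wshift_le _ _ _ _)

/-- the fibre shifts -/
noncomputable def Sfib (x : ℤ_[2]) : seqHilbert →L[ℂ] seqHilbert := fshift (cum x) (costHyp x)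

theorem abs_b_le (x : ℤ_[2]) (k : ℤ) : |b (k + 1) x| ≤ 1 := by
  rw [abs_of_nonneg (b_nonneg _ _)]; exact b_le_one _ _

/-- the fibre backward shifts -/
noncomputable def Vfib (x : ℤ_[2]) : seqHilbert →L[ℂ] seqHilbert :=
  wshift (fun k => b (k + 1) x) 1 (abs_b_le x) 1

theorem norm_Sfib_le (x : ℤ_[2]) : ‖Sfib x‖ ≤ Real.exp (-10) :=
  norm_wshift_le _ _ (exp_cost_le (costHyp x)) _

theorem norm_Vfib_le (x : ℤ_[2]) : ‖Vfib x‖ ≤ 1 := norm_wshift_le _ _ _ _

theorem Sfib_basisVec (x : ℤ_[2]) (j : ℤ) :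
    Sfib x (basisVec j) = (beta j x : ℂ) • basisVec (j + 1) :=
  fshift_basisVec (costHyp x) j

theorem Vfib_basisVec (x : ℤ_[2]) (j : ℤ) :
    Vfib x (basisVec j) = (b j x : ℂ) • basisVec (j - 1) := by
  unfold Vfib
  rw [wshift_basisVec]
  simp

theorem Sfib_meas (f : ℤ_[2] → seqHilbert) (hf : StronglyMeasurable f) :
    StronglyMeasurable (fun x => Sfib x (f x)) := by
  unfold Sfib fshift
  apply wshift_measurable (fun x k => Real.exp (-(cum x k - cum x (k-1)))) _ _ _ _ f hf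
  intro k
  have h1 := continuous_cum k
  have h2 := continuous_cum (k-1)
  exact (show Continuous (fun x => Real.exp (-(cum x k - cum x (k-1)))) by fun_prop).measurable

theorem Vfib_meas (f : ℤ_[2] → seqHilbert) (hf : StronglyMeasurable f) :
    StronglyMeasurable (fun x => Vfib x (f x)) := by
  unfold Vfib
  apply wshift_measurable (fun x k => b (k+1) x) _ _ _ _ f hf
  intro k
  exact measurable_b (k+1)

/-- the operator `S` -/
noncomputable def S : fibreSpace →L[ℂ] fibreSpace :=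
  decomp haarTwoAdic Sfib (Real.exp (-10)) norm_Sfib_le Sfib_meas

theorem S_ae (f : fibreSpace) :
    ∀ᵐ x ∂haarTwoAdic, (S f : ℤ_[2] → seqHilbert) x = Sfib x ((f : ℤ_[2] → seqHilbert) x) :=
  decomp_ae _ _ _ _ f

noncomputable def V0 : fibreSpace →L[ℂ] fibreSpace :=
  decomp haarTwoAdic Vfib 1 norm_Vfib_le Vfib_meas

theorem V0_ae (f : fibreSpace) :
    ∀ᵐ x ∂haarTwoAdic, (V0 f : ℤ_[2] → seqHilbert) x = Vfib x ((f : ℤ_[2] → seqHilbert) x) :=
  decomp_ae _ _ _ _ f

theorem mp (a : ℤ_[2]) : MeasurePreserving (fun x : ℤ_[2] => x + a) haarTwoAdic haarTwoAdic :=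
  measurePreserving_add_right _ a

/-- pulling an a.e. statement back along a translation -/
theorem ae_shift {p : ℤ_[2] → Prop} (a : ℤ_[2]) (h : ∀ᵐ x ∂haarTwoAdic, p x) :
    ∀ᵐ x ∂haarTwoAdic, p (x + a) :=
  (mp a).quasiMeasurePreserving.ae h

theorem ae_unshift {p : ℤ_[2] → Prop} (h : ∀ᵐ x ∂haarTwoAdic, p (x + 1)) :
    ∀ᵐ x ∂haarTwoAdic, p x := by
  have := ae_shift (-1) h
  filter_upwards [this] with x hx
  rwa [neg_add_cancel_right] at hx

/-- the operator `V` -/
noncomputable def V : fibreSpace →L[ℂ] fibreSpace :=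
  (Lp.compMeasurePreservingₗᵢ ℂ (fun x : ℤ_[2] => x + (-1)) (mp (-1))).toContinuousLinearMap ∘L V0

theorem V_ae (f : fibreSpace) :
    ∀ᵐ x ∂haarTwoAdic, (V f : ℤ_[2] → seqHilbert) (x + 1) = Vfib x ((f : ℤ_[2] → seqHilbert) x) := by
  have h1 : ∀ᵐ x ∂haarTwoAdic, (V f : ℤ_[2] → seqHilbert) x = (V0 f : ℤ_[2] → seqHilbert) (x + (-1)) :=
    Lp.coeFn_compMeasurePreserving (V0 f) (mp (-1))
  filter_upwards [ae_shift 1 h1, V0_ae f] with x h2 h3
  rw [h2, add_neg_cancel_right, h3]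

theorem norm_V_le : ‖V‖ ≤ 1 := by
  unfold V
  refine (ContinuousLinearMap.opNorm_comp_le _ _).trans ?_
  have h1 : ‖(Lp.compMeasurePreservingₗᵢ ℂ (fun x : ℤ_[2] => x + (-1)) 
      (mp (-1)) : fibreSpace →ₗᵢ[ℂ] fibreSpace).toContinuousLinearMap‖ ≤ 1 :=
    LinearIsometry.norm_toContinuousLinearMap_le _
  have h2 : ‖V0‖ ≤ 1 := norm_decomp_le _ _ zero_le_one _ _
  calc _ ≤ (1:ℝ) * 1 := by gcongr
    _ = 1 := one_mul 1

/-- the constant section `δ_j` -/
noncomputable def eC (j : ℤ) : fibreSpace := Lp.const 2 haarTwoAdic (basisVec j)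

theorem eC_ae (j : ℤ) : ∀ᵐ x ∂haarTwoAdic, (eC j : ℤ_[2] → seqHilbert) x = basisVec j :=
  Lp.coeFn_const 2 haarTwoAdic (basisVec j)

theorem norm_eC (j : ℤ) : ‖eC j‖ = 1 := by
  unfold eC
  rw [Lp.norm_const 2 haarTwoAdic (basisVec j) (by norm_num), norm_basisVec]
  simp

theorem S_eC_zero : S (eC 0) = (Real.exp (-10) : ℂ) • eC 1 := by
  apply Lp.ext
  filter_upwards [S_ae (eC 0), eC_ae 0, eC_ae 1, Lp.coeFn_smul (Real.exp (-10) : ℂ) (eC 1)] with
    x h1 h2 h3 h4
  rw [h1, h2, h4, Pi.smul_apply, h3, Sfib_basisVec, beta_zero]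
  simp

theorem norm_S : ‖S‖ = Real.exp (-10) := by
  apply le_antisymm
  · exact norm_decomp_le _ _ (Real.exp_pos _).le _ _
  · have h1 := S.le_opNorm (eC 0)
    rw [S_eC_zero, norm_smul, norm_eC, norm_eC, mul_one, mul_one] at h1
    rwa [Complex.norm_real, Real.norm_eq_abs, Real.abs_exp] at h1

theorem S_ne_zero : S ≠ 0 := by
  intro h
  have := norm_S
  rw [h, norm_zero] at this
  exact (Real.exp_pos _).ne this

theorem S_pow_ae (n : ℕ) (f : fibreSpace) :
    ∀ᵐ x ∂haarTwoAdic, ((S ^ n) f : ℤ_[2] → seqHilbert) x =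
      (Sfib x ^ n) ((f : ℤ_[2] → seqHilbert) x) := by
  induction n with
  | zero => exact Eventually.of_forall fun x => rfl
  | succ n ih =>
    rw [pow_succ']
    filter_upwards [S_ae ((S ^ n) f), ih] with x h1 h2
    rw [mul_apply_eq_comp, h1, h2, pow_succ', mul_apply_eq_comp]

theorem norm_S_pow_le (n : ℕ) : ‖S ^ n‖ ≤ Real.exp (-10 * (((n + 1)^2/4 : ℕ) : ℝ)) := by
  apply opNorm_le_of_ae _ _ (Real.exp_pos _).le
  intro f
  filter_upwards [S_pow_ae n f] with x hx
  rw [hx]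
  exact norm_fshift_pow_apply_le (costHyp x) n _

theorem Vfib_Sfib (x : ℤ_[2]) (f : seqHilbert) : Vfib x (Sfib x f) = Sfib (x + 1) (Vfib x f) := by
  ext k
  unfold Vfib Sfib
  rw [wshift_apply, fshift_apply, fshift_apply, wshift_apply]
  rw [add_sub_cancel_right, sub_add_cancel, ← mul_assoc, ← mul_assoc]
  congr 1
  rw [← Complex.ofReal_mul, ← Complex.ofReal_mul]
  congr 1
  have := b_succ_mul_beta x k
  unfold beta at this
  rw [sub_add_cancel] at this
  rw [this, mul_comm]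

theorem V_mul_S : V * S = S * V := by
  apply ContinuousLinearMap.ext
  intro f
  rw [mul_apply_eq_comp, mul_apply_eq_comp]
  apply Lp.ext
  apply ae_unshift
  filter_upwards [V_ae (S f), S_ae f, ae_shift 1 (S_ae (V f)), V_ae f] with x h1 h2 h3 h4
  rw [h1, h2, h3, h4, Vfib_Sfib]

end Crest.Agent.S0150Op
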