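import Mathlib
import Crest.Prelude.Def_TwoAdicShift
import Crest.Agent.S0150_Seq
import Crest.Agent.S0150_Fibre
import Crest.Agent.S0150_Cost
import Crest.Agent.S0150_Op

set_option autoImplicit false
open Crest.AnalysisR.TwoAdic MeasureTheory Filter
open scoped InnerProductSpace ComplexConjugate Topology
attribute [local instance] Crest.AnalysisR.TwoAdic.borelTwoAdic Crest.AnalysisR.TwoAdic.borelSpace_twoAdic

namespace Crest.Agent.S0150Trans
open Crest.Agent.S0150Seq Crest.Agent.S0150Fibre Crest.Agent.S0150Cost Crest.Agent.S0150Op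

/-! ### fibre facts -/

/-- splitting data in the fibre -/
structure Split (u v : ℤ → seqHilbert) : Prop where
  sum : ∀ j, u j + v j = basisVec j
  orth : ∀ i j, ⟪v j, u i⟫_ℂ = 0

/-- vectors orthogonal to all `v j` -/
noncomputable def Z (v : ℤ → seqHilbert) : Submodule ℂ seqHilbert :=
  (Submodule.span ℂ (Set.range v))ᗮ

theorem mem_Z_iff (v : ℤ → seqHilbert) (w : seqHilbert) : w ∈ Z v ↔ ∀ j, ⟪v j, w⟫_ℂ = 0 := by
  unfold Z
  rw [Submodule.mem_orthogonal]
  constructor
  · intro h j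
    exact h _ (Submodule.subset_span ⟨j, rfl⟩)
  · intro h u hu
    induction hu using Submodule.span_induction with
    | mem x hx => obtain ⟨j, rfl⟩ := hx; exact h j
    | zero => simp
    | add x y _ _ hx hy => rw [inner_add_left, hx, hy, add_zero]
    | smul a x _ hx => rw [inner_smul_left, hx, mul_zero]

theorem isClosed_Z (v : ℤ → seqHilbert) : IsClosed (Z v : Set seqHilbert) :=
  Submodule.isClosed_orthogonal _

theorem eq_zero_of_inner_basis {w : seqHilbert} (h : ∀ j, ⟪basisVec j, w⟫_ℂ = 0) : w = 0 := by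
  ext k
  have := h k
  rw [inner_basisVec_left] at this
  exact this

theorem Z_eq {u v : ℤ → seqHilbert} (h : Split u v) :
    Z v = (Submodule.span ℂ (Set.range u)).topologicalClosure := by
  set U := (Submodule.span ℂ (Set.range u)).topologicalClosure with hU
  have hUc : IsClosed (U : Set seqHilbert) := Submodule.isClosed_topologicalClosure _
  have : CompleteSpace U := hUc.completeSpace_coe
  have huU : ∀ i, u i ∈ U := fun i =>
    Submodule.le_topologicalClosure _ (Submodule.subset_span ⟨i, rfl⟩)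
  have hUZ : U ≤ Z v := by
    apply Submodule.topologicalClosure_minimal _ _ (isClosed_Z v)
    rw [Submodule.span_le]
    rintro _ ⟨i, rfl⟩
    rw [SetLike.mem_coe, mem_Z_iff]
    intro j
    exact h.orth i j
  refine le_antisymm ?_ hUZ
  intro w hw
  have h1 : w - U.starProjection w ∈ Uᗮ := Submodule.sub_starProjection_mem_orthogonal w
  have h2 : w - U.starProjection w ∈ Z v :=
    (Z v).sub_mem hw (hUZ (Submodule.starProjection_apply_mem U w))
  have h3 : w - U.starProjection w = 0 := by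
    apply eq_zero_of_inner_basis
    intro j
    rw [← h.sum j, inner_add_left]
    rw [mem_Z_iff] at h2
    rw [h2 j, Submodule.inner_right_of_mem_orthogonal (huU j) h1, add_zero]
  rw [sub_eq_zero] at h3
  rw [h3]
  exact Submodule.starProjection_apply_mem U w

theorem maps_Z {u v : ℤ → seqHilbert} (h : Split u v) (v' : ℤ → seqHilbert)
    (T : seqHilbert →L[ℂ] seqHilbert) (hT : ∀ i j, ⟪v' j, T (u i)⟫_ℂ = 0) :
    ∀ w ∈ Z v, T w ∈ Z v' := by
  have h1 : Z v ≤ (Z v').comap T.toLinearMap := by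
    rw [Z_eq h]
    apply Submodule.topologicalClosure_minimal
    · rw [Submodule.span_le]
      rintro _ ⟨i, rfl⟩
      show T (u i) ∈ Z v'
      rw [mem_Z_iff]
      exact fun j => hT i j
    · exact (isClosed_Z v').preimage T.continuous
  exact fun w hw => h1 hw

theorem basisVec_mem_Z_iff {u v : ℤ → seqHilbert} (h : Split u v) (n : ℤ) :
    basisVec n ∈ Z v ↔ v n = 0 := by
  rw [mem_Z_iff]
  constructor
  · intro hn
    have h1 := hn n
    rw [← h.sum n, inner_add_right, h.orth n n, zero_add] at h1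
    exact inner_self_eq_zero.1 h1
  · intro hn j
    have h1 := h.sum n
    rw [hn, add_zero] at h1
    rw [← h1]
    exact h.orth n j

theorem u_mem_Z {u v : ℤ → seqHilbert} (h : Split u v) (n : ℤ) : u n ∈ Z v := by
  rw [mem_Z_iff]
  exact fun j => h.orth n j

/-! ### the odometer is ergodic -/

theorem ergodic_odometer : Ergodic (fun x : ℤ_[2] => x + 1) haarTwoAdic := by
  have h1 : DenseRange (fun n : ℕ => n • (1 : ℤ_[2])) := by
    have := PadicInt.denseRange_natCast (p := 2)
    simpa [nsmul_eq_mul] using this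
  have h2 := ergodic_add_left_of_denseRange_nsmul h1 haarTwoAdic
  have h3 : (fun x : ℤ_[2] => x + 1) = (fun x => (1 : ℤ_[2]) + x) := by
    funext x; ring
  rw [h3]
  exact h2

/-! ### transitivity -/

theorem ae_orth {W : Submodule ℂ fibreSpace}
    (hmult : ∀ s : Set ℤ_[2], MeasurableSet s → ∀ f ∈ W, ∀ f' : fibreSpace,
      (∀ᵐ x ∂haarTwoAdic, (f' : ℤ_[2] → seqHilbert) x = s.indicator (f : ℤ_[2] → seqHilbert) x) → f' ∈ W)
    {f g : fibreSpace} (hf : f ∈ W) (hg : g ∈ Wᗮ) :
    ∀ᵐ x ∂haarTwoAdic, ⟪(g : ℤ_[2] → seqHilbert) x, (f : ℤ_[2] → seqHilbert) x⟫_ℂ = 0 := by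
  have hint : Integrable (fun x => ⟪(g : ℤ_[2] → seqHilbert) x, (f : ℤ_[2] → seqHilbert) x⟫_ℂ)
      haarTwoAdic := L2.integrable_inner g f
  refine hint.ae_eq_zero_of_forall_setIntegral_eq_zero ?_
  intro s hs _
  have hmem : MemLp (s.indicator (f : ℤ_[2] → seqHilbert)) 2 haarTwoAdic := (Lp.memLp f).indicator hs
  have h1 : hmem.toLp _ ∈ W := hmult s hs f hf _ hmem.coeFn_toLp
  have h2 : ⟪g, hmem.toLp _⟫_ℂ = 0 := Submodule.inner_left_of_mem_orthogonal h1 hg
  rw [L2.inner_def] at h2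
  rw [← integral_indicator hs, ← h2]
  apply integral_congr_ae
  filter_upwards [hmem.coeFn_toLp] with x hx
  rw [hx]
  by_cases hxs : x ∈ s
  · rw [Set.indicator_of_mem hxs, Set.indicator_of_mem hxs]
  · rw [Set.indicator_of_notMem hxs, Set.indicator_of_notMem hxs, inner_zero_right]

theorem fibre_zero {f : fibreSpace}
    (h : ∀ n : ℤ, ∀ᵐ x ∂haarTwoAdic, ⟪basisVec n, (f : ℤ_[2] → seqHilbert) x⟫_ℂ = 0) : f = 0 := by
  apply Lp.ext
  rw [← ae_all_iff] at h
  filter_upwards [h, Lp.coeFn_zero seqHilbert 2 haarTwoAdic] with x hx h0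
  rw [h0, eq_zero_of_inner_basis hx]; rfl

theorem transitive (W : Submodule ℂ fibreSpace) (hW : IsClosed (W : Set fibreSpace))
    (hS : ∀ f ∈ W, S f ∈ W) (hV : ∀ f ∈ W, V f ∈ W)
    (hmult : ∀ s : Set ℤ_[2], MeasurableSet s → ∀ f ∈ W, ∀ f' : fibreSpace,
      (∀ᵐ x ∂haarTwoAdic, (f' : ℤ_[2] → seqHilbert) x = s.indicator (f : ℤ_[2] → seqHilbert) x) → f' ∈ W) :
    W = ⊥ ∨ W = ⊤ := by
  have : CompleteSpace W := hW.completeSpace_coe
  obtain ⟨u, hu⟩ : ∃ u : ℤ → fibreSpace, u = fun j => W.starProjection (eC j) := ⟨_, rfl⟩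
  obtain ⟨v, hv⟩ : ∃ v : ℤ → fibreSpace, v = fun j => eC j - u j := ⟨_, rfl⟩
  have huW : ∀ j, u j ∈ W := fun j => by rw [hu]; exact Submodule.starProjection_apply_mem W _
  have hvW : ∀ j, v j ∈ Wᗮ := fun j => by
    rw [hv, hu]; exact Submodule.sub_starProjection_mem_orthogonal _
  -- almost everywhere facts
  have a1 : ∀ᵐ x ∂haarTwoAdic, ∀ i j, ⟪v j x, u i x⟫_ℂ = 0 := by
    rw [ae_all_iff]; intro i
    rw [ae_all_iff]; intro j
    exact ae_orth hmult (huW i) (hvW j)
  have a2 : ∀ᵐ x ∂haarTwoAdic, ∀ j, u j x + v j x = basisVec j := by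
    rw [ae_all_iff]; intro j
    filter_upwards [Lp.coeFn_sub (eC j) (u j), eC_ae j] with x h1 h2
    rw [hv]
    simp only
    rw [h1, Pi.sub_apply, h2]
    abel
  have asplit : ∀ᵐ x ∂haarTwoAdic, Split (fun j => u j x) (fun j => v j x) := by
    filter_upwards [a1, a2] with x h1 h2
    exact ⟨h2, h1⟩
  have a3 : ∀ᵐ x ∂haarTwoAdic, ∀ i j, ⟪v j x, Sfib x (u i x)⟫_ℂ = 0 := by
    rw [ae_all_iff]; intro i
    rw [ae_all_iff]; intro j
    filter_upwards [ae_orth hmult (hS _ (huW i)) (hvW j), S_ae (u i)] with x h1 h2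
    rw [← h2]; exact h1
  have a4 : ∀ᵐ x ∂haarTwoAdic, ∀ i j, ⟪v j (x + 1), Vfib x (u i x)⟫_ℂ = 0 := by
    rw [ae_all_iff]; intro i
    rw [ae_all_iff]; intro j
    filter_upwards [ae_shift 1 (ae_orth hmult (hV _ (huW i)) (hvW j)), V_ae (u i)] with x h1 h2
    rw [← h2]; exact h1
  have a5 : ∀ᵐ x ∂haarTwoAdic, x + 1 ≠ 0 := by
    have : haarTwoAdic {(-1 : ℤ_[2])} = 0 := haar_singleton _
    rw [measure_eq_zero_iff_ae_notMem] at this
    filter_upwards [this] with x hx hcon
    apply hx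
    rw [Set.mem_singleton_iff]
    exact eq_neg_of_add_eq_zero_left hcon
  -- invariance of the fibre spaces
  have aS : ∀ᵐ x ∂haarTwoAdic, ∀ w ∈ Z (fun j => v j x), Sfib x w ∈ Z (fun j => v j x) := by
    filter_upwards [asplit, a3] with x h1 h2
    exact maps_Z h1 _ (Sfib x) h2
  have aV : ∀ᵐ x ∂haarTwoAdic, ∀ w ∈ Z (fun j => v j x), Vfib x w ∈ Z (fun j => v j (x + 1)) := by
    filter_upwards [asplit, a4] with x h1 h2
    exact maps_Z h1 _ (Vfib x) h2
  -- the sets A n
  set A : ℤ → Set ℤ_[2] := fun n => {x | v n x = 0} with hA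
  have hAm : ∀ n, MeasurableSet (A n) := fun n =>
    (Lp.stronglyMeasurable (v n)).measurableSet_eq_fun stronglyMeasurable_const
  have inc : ∀ n, A n ≤ᵐ[haarTwoAdic] A (n + 1) := by
    intro n
    filter_upwards [asplit, aS] with x h1 h2 hx
    have h3 : basisVec n ∈ Z (fun j => v j x) := (basisVec_mem_Z_iff h1 n).2 hx
    have h4 := h2 _ h3
    rw [Sfib_basisVec] at h4
    have h5 := (Z (fun j => v j x)).smul_mem ((beta n x : ℂ))⁻¹ h4
    rw [smul_smul, inv_mul_cancel₀ (by exact_mod_cast (beta_pos n x).ne'), one_smul] at h5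
    exact (basisVec_mem_Z_iff h1 (n+1)).1 h5
  have trn : ∀ n, A n ≤ᵐ[haarTwoAdic] (fun x => x + 1) ⁻¹' (A (n - 1)) := by
    intro n
    filter_upwards [asplit, aV, ae_shift 1 asplit, a5] with x h1 h2 h1' h6 hx
    have h3 : basisVec n ∈ Z (fun j => v j x) := (basisVec_mem_Z_iff h1 n).2 hx
    have h4 := h2 _ h3
    rw [Vfib_basisVec] at h4
    have h5 := (Z (fun j => v j (x+1))).smul_mem ((b n x : ℂ))⁻¹ h4
    rw [smul_smul, inv_mul_cancel₀ (by exact_mod_cast (b_pos n x h6).ne'), one_smul] at h5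
    exact (basisVec_mem_Z_iff h1' (n-1)).1 h5
  have hle : ∀ n, haarTwoAdic (A n) ≤ haarTwoAdic (A (n - 1)) := by
    intro n
    have h1 := measure_mono_ae (trn n)
    rwa [(mp 1).measure_preimage (hAm _).nullMeasurableSet] at h1
  have heq : ∀ n, A n =ᵐ[haarTwoAdic] A (n + 1) := by
    intro n
    apply ae_eq_of_ae_subset_of_measure_ge (inc n) _ (hAm n).nullMeasurableSet (measure_ne_top _ _)
    have := hle (n + 1)
    rwa [add_sub_cancel_right] at this
  have hall : ∀ n, A n =ᵐ[haarTwoAdic] A 0 := by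
    intro n
    induction n using Int.induction_on with
    | zero => exact EventuallyEq.rfl
    | succ n ih => exact (heq n).symm.trans ih
    | pred n ih =>
      have := heq (-(n:ℤ) - 1)
      rw [sub_add_cancel] at this
      exact this.trans ih
  have hinv : A 0 ≤ᵐ[haarTwoAdic] (fun x => x + 1) ⁻¹' (A 0) := by
    have h1 := trn 1
    rw [sub_self] at h1
    exact (hall 1).symm.le.trans h1
  rcases ergodic_odometer.ae_empty_or_univ_of_ae_le_preimage (hAm 0).nullMeasurableSet hinv with h0 | h0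
  · -- all v n nonzero: W = ⊥
    left
    have hne : ∀ᵐ x ∂haarTwoAdic, ∀ n, v n x ≠ 0 := by
      rw [ae_all_iff]
      intro n
      have h1 : A n =ᵐ[haarTwoAdic] (∅ : Set ℤ_[2]) := (hall n).trans h0
      rw [ae_eq_empty, measure_eq_zero_iff_ae_notMem] at h1
      exact h1
    have hu0 : ∀ᵐ x ∂haarTwoAdic, ∀ i, u i x = 0 := by
      filter_upwards [asplit, aS, hne] with x h1 h2 h3 i
      have h4 := (unicellular (costHyp x) (Z (fun j => v j x)) (isClosed_Z _)).1 h2
      rcases h4 with h4 | h4 | ⟨m, h4⟩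
      · have := u_mem_Z h1 i
        rw [h4, Submodule.mem_bot] at this
        exact this
      · exfalso
        apply h3 0
        rw [← basisVec_mem_Z_iff h1 0, h4]
        trivial
      · exfalso
        apply h3 m
        rw [← basisVec_mem_Z_iff h1 m, h4]
        exact basisVec_mem_tailSpace le_rfl
    rw [Submodule.eq_bot_iff]
    intro f hf
    apply fibre_zero
    intro n
    filter_upwards [hu0, a2, ae_orth hmult hf (hvW n)] with x h1 h2 h3
    rw [← h2 n, h1 n, zero_add]
    exact h3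
  · -- all v n zero: W = ⊤
    right
    have hz : ∀ᵐ x ∂haarTwoAdic, ∀ n, v n x = 0 := by
      rw [ae_all_iff]
      intro n
      have h1 : A n =ᵐ[haarTwoAdic] (Set.univ : Set ℤ_[2]) := (hall n).trans h0
      filter_upwards [h1] with x hx
      have : (x ∈ A n) = True := by
        have h2 : (A n x) = (Set.univ x) := hx
        exact h2
      exact of_eq_true this
    rw [← Submodule.orthogonal_eq_bot_iff, Submodule.eq_bot_iff]
    intro g hg
    apply fibre_zero
    intro n
    filter_upwards [hz, a2, ae_orth hmult (huW n) hg] with x h1 h2 h3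
    rw [← h2 n, h1 n, add_zero, ← inner_conj_symm, h3, map_zero]

end Crest.Agent.S0150Trans
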