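import Mathlib
import Crest.Prelude.Def_TwoAdicShift
import Crest.Agent.S0150_Seq
import Crest.Agent.S0150_Fibre
import Crest.Agent.S0150_Cost
import Crest.Agent.S0150_Op
import Crest.Agent.S0150_Trans

set_option autoImplicit false
open Crest.AnalysisR.TwoAdic MeasureTheory Filter
open scoped InnerProductSpace ComplexConjugate Topology
attribute [local instance] Crest.AnalysisR.TwoAdic.borelTwoAdic Crest.AnalysisR.TwoAdic.borelSpace_twoAdic

namespace Crest.Agent.S0148Aux
open Crest.Agent.S0150Seq Crest.Agent.S0150Fibre Crest.Agent.S0150Cost Crest.Agent.S0150Op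

section general
variable {E : Type*} [NormedAddCommGroup E] [InnerProductSpace ℂ E]

theorem countable_of_orthonormal [TopologicalSpace.SeparableSpace E] {ι : Type*} {v : ι → E}
    (hv : Orthonormal ℂ v) : Countable ι := by
  have h1 : (Set.univ : Set ι).PairwiseDisjoint (fun i => Metric.ball (v i) (1/2)) := by
    intro i _ j _ hij
    apply Metric.ball_disjoint_ball
    have h2 : dist (v i) (v j) ^ 2 = 2 := by
      rw [dist_eq_norm]
      have h3 := @norm_sub_sq ℂ E _ _ _ (v i) (v j)
      rw [hv.1 i, hv.1 j, hv.2 hij] at h3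
      rw [h3]; norm_num
    have h4 : 0 ≤ dist (v i) (v j) := dist_nonneg
    nlinarith
  have h2 : (Set.univ : Set ι).Countable :=
    h1.countable_of_isOpen (fun i _ => Metric.isOpen_ball) (fun i _ => ⟨v i, by simp⟩)
  exact Set.countable_univ_iff.1 h2

theorem exists_equiv_nat [CompleteSpace E] [TopologicalSpace.SeparableSpace E]
    (hE : ¬ FiniteDimensional ℂ E) : Nonempty (E ≃ₗᵢ[ℂ] lp (fun _ : ℕ => ℂ) 2) := by
  obtain ⟨w, b, hb⟩ := exists_hilbertBasis ℂ E
  have hc : Countable w := countable_of_orthonormal b.orthonormal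
  have hi : Infinite w := by
    by_contra hcon
    rw [not_infinite_iff_finite] at hcon
    apply hE
    have hsp := b.dense_span
    have hfin : (Set.range b).Finite := Set.finite_range b
    have hfd : FiniteDimensional ℂ (Submodule.span ℂ (Set.range b)) :=
      FiniteDimensional.span_of_finite ℂ hfin
    have hcl : IsClosed ((Submodule.span ℂ (Set.range b)) : Set E) :=
      Submodule.closed_of_finiteDimensional _
    rw [hcl.submodule_topologicalClosure_eq] at hsp
    rw [hsp] at hfd
    exact LinearEquiv.finiteDimensional (Submodule.topEquiv (R := ℂ) (M := E))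
  obtain ⟨e⟩ : Nonempty (ℕ ≃ w) := nonempty_equiv_of_countable
  have ho : Orthonormal ℂ (fun n => b (e n)) := b.orthonormal.comp e e.injective
  have hr : Set.range (fun n => b (e n)) = Set.range b := by
    rw [show (fun n => b (e n)) = b ∘ e from rfl, e.surjective.range_comp]
  refine ⟨(HilbertBasis.mk ho ?_).repr⟩
  rw [hr]
  exact b.dense_span.ge

end general

theorem orthonormal_basisVec : Orthonormal ℂ basisVec := by
  rw [orthonormal_iff_ite]
  intro i j
  rw [inner_basisVec_left, basisVec_apply]

instance : TopologicalSpace.SeparableSpace seqHilbert := by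
  have h1 : TopologicalSpace.IsSeparable (Set.range basisVec) :=
    (Set.countable_range basisVec).isSeparable
  have h2 : TopologicalSpace.IsSeparable 
      (((Submodule.span ℂ (Set.range basisVec)).topologicalClosure : Submodule ℂ seqHilbert) : Set seqHilbert) := by
    rw [Submodule.topologicalClosure_coe]
    exact (h1.span (R := ℂ)).closure
  have h3 : (Submodule.span ℂ (Set.range basisVec)).topologicalClosure = ⊤ := by
    apply eq_top_of_basis (Submodule.isClosed_topologicalClosure _)
    intro j
    exact Submodule.le_topologicalClosure _ (Submodule.subset_span ⟨j, rfl⟩)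
  rw [h3, Submodule.top_coe] at h2
  exact TopologicalSpace.isSeparable_univ_iff.1 h2

theorem orthonormal_eC : Orthonormal ℂ eC := by
  rw [orthonormal_iff_ite]
  intro i j
  rw [L2.inner_def]
  have h1 : ∀ᵐ x ∂haarTwoAdic, ⟪(eC i : ℤ_[2] → seqHilbert) x, (eC j : ℤ_[2] → seqHilbert) x⟫_ℂ =
      (if i = j then (1:ℂ) else 0) := by
    filter_upwards [eC_ae i, eC_ae j] with x h1 h2
    rw [h1, h2, inner_basisVec_left, basisVec_apply]
  rw [integral_congr_ae h1]
  simp

theorem fibre_infinite : ¬ FiniteDimensional ℂ fibreSpace := by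
  intro h
  have h1 : LinearIndependent ℂ eC := orthonormal_eC.linearIndependent
  have := h1.finite
  exact not_finite ℤ

instance : TopologicalSpace.SeparableSpace fibreSpace := by
  have h0 : Fact ((2 : ENNReal) ≠ ⊤) := ⟨by norm_num⟩
  have : SecondCountableTopology (Lp seqHilbert 2 haarTwoAdic) := inferInstance
  infer_instance

theorem exists_unitary (H : Type*) [NormedAddCommGroup H] [InnerProductSpace ℂ H] [CompleteSpace H]
    [TopologicalSpace.SeparableSpace H] (hH : ¬ FiniteDimensional ℂ H) :
    Nonempty (H ≃ₗᵢ[ℂ] fibreSpace) := by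
  obtain ⟨U1⟩ := exists_equiv_nat hH
  obtain ⟨U2⟩ := exists_equiv_nat fibre_infinite
  exact ⟨U1.trans U2.symm⟩

/-! ### indicator multipliers -/

theorem mult_meas (s : Set ℤ_[2]) (hs : MeasurableSet s) (f : ℤ_[2] → seqHilbert)
    (hf : StronglyMeasurable f) :
    StronglyMeasurable (fun x => (s.indicator (fun _ => (1:ℂ)) x • ContinuousLinearMap.id ℂ seqHilbert) (f x)) := by
  have h1 : StronglyMeasurable (s.indicator (fun _ => (1:ℂ))) :=
    stronglyMeasurable_const.indicator hs
  exact h1.smul hf

noncomputable def Mult (s : Set ℤ_[2]) (hs : MeasurableSet s) : fibreSpace →L[ℂ] fibreSpace :=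
  decomp haarTwoAdic (fun x => s.indicator (fun _ => (1:ℂ)) x • ContinuousLinearMap.id ℂ seqHilbert) 1
    (by
      intro x
      rw [norm_smul]
      have h1 : ‖s.indicator (fun _ => (1:ℂ)) x‖ ≤ 1 := by
        by_cases hx : x ∈ s
        · rw [Set.indicator_of_mem hx]; simp
        · rw [Set.indicator_of_notMem hx]; simp
      have h2 := ContinuousLinearMap.norm_id_le (𝕜 := ℂ) (E := seqHilbert)
      calc _ ≤ (1:ℝ) * 1 := by gcongr
        _ = 1 := one_mul 1)
    (mult_meas s hs)

theorem Mult_ae (s : Set ℤ_[2]) (hs : MeasurableSet s) (f : fibreSpace) :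
    ∀ᵐ x ∂haarTwoAdic, (Mult s hs f : ℤ_[2] → seqHilbert) x =
      s.indicator (fun _ => (1:ℂ)) x • (f : ℤ_[2] → seqHilbert) x := by
  filter_upwards [decomp_ae (μ := haarTwoAdic) (fun x => s.indicator (fun _ => (1:ℂ)) x • ContinuousLinearMap.id ℂ seqHilbert) 1
    _ (mult_meas s hs) f] with x hx
  exact hx

theorem Mult_mul_S (s : Set ℤ_[2]) (hs : MeasurableSet s) : Mult s hs * S = S * Mult s hs := by
  apply ContinuousLinearMap.ext
  intro f
  rw [mul_apply_eq_comp, mul_apply_eq_comp]
  apply Lp.ext
  filter_upwards [Mult_ae s hs (S f), S_ae f, S_ae (Mult s hs f), Mult_ae s hs f] with x h1 h2 h3 h4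
  rw [h1, h2, h3, h4, map_smul]

theorem hyper (W : Submodule ℂ fibreSpace) (hW : IsClosed (W : Set fibreSpace))
    (h : ∀ A : fibreSpace →L[ℂ] fibreSpace, A * S = S * A → ∀ v ∈ W, A v ∈ W) :
    W = ⊥ ∨ W = ⊤ := by
  refine S0150Trans.transitive W hW (fun f hf => h S rfl f hf) (fun f hf => h V V_mul_S f hf) ?_
  intro s hs f hf f' hf'
  have h1 := h (Mult s hs) (Mult_mul_S s hs) f hf
  have h2 : f' = Mult s hs f := by
    apply Lp.ext
    filter_upwards [hf', Mult_ae s hs f] with x hx hx2
    rw [hx, hx2]
    by_cases hxs : x ∈ s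
    · rw [Set.indicator_of_mem hxs, Set.indicator_of_mem hxs, one_smul]
    · rw [Set.indicator_of_notMem hxs, Set.indicator_of_notMem hxs, zero_smul]
  rw [h2]; exact h1

end Crest.Agent.S0148Aux
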