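import Crest.Statements.S0148
import Crest.Agent.S0148_Aux

set_option autoImplicit false
open Filter Topology
open Crest Crest.AnalysisR Crest.AnalysisR.OperatorAlgebra

namespace Crest.Agent.S0148

/-- On every infinite-dimensional separable complex Hilbert space there is a nonzero bounded operator T with ‖Tⁿ‖^(1/n) → 0 as n → ∞ such that the only closed subspaces mapped into themselves by every bounded operator commuting with T are the zero subspace and the whole space. -/
theorem result
    (H : Type*) [NormedAddCommGroup H] [InnerProductSpace ℂ H] [CompleteSpace H]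
    [TopologicalSpace.SeparableSpace H] (hH : ¬ FiniteDimensional ℂ H) :
    ∃ T : H →L[ℂ] H, T ≠ 0 ∧
      Tendsto (fun n : ℕ => ‖T ^ n‖ ^ (1 / (n : ℝ))) atTop (𝓝 0) ∧
      ∀ V : Submodule ℂ H, IsClosed (V : Set H) →
        (∀ A : H →L[ℂ] H, A * T = T * A → ∀ v ∈ V, A v ∈ V) → V = ⊥ ∨ V = ⊤ := by
  obtain ⟨U⟩ := S0148Aux.exists_unitary H hH
  set F : (TwoAdic.fibreSpace →L[ℂ] TwoAdic.fibreSpace) → (H →L[ℂ] H) := fun B =>
    (U.symm.toContinuousLinearEquiv : TwoAdic.fibreSpace →L[ℂ] H) ∘L B ∘L
      (U.toContinuousLinearEquiv : H →L[ℂ] TwoAdic.fibreSpace) with hF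
  have hFa : ∀ B v, F B v = U.symm (B (U v)) := fun B v => rfl
  have hFmul : ∀ A B, F (A * B) = F A * F B := by
    intro A B
    apply ContinuousLinearMap.ext
    intro v
    rw [mul_apply_eq_comp, hFa, hFa, hFa, mul_apply_eq_comp, U.apply_symm_apply]
  have hFpow : ∀ B, ∀ n : ℕ, F (B ^ n) = F B ^ n := by
    intro B n
    induction n with
    | zero => 
      apply ContinuousLinearMap.ext
      intro v
      rw [hFa, pow_zero, pow_zero]
      simp
    | succ n ih => rw [pow_succ, pow_succ, hFmul, ih]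
  have hFn : ∀ B, ‖F B‖ ≤ ‖B‖ := by
    intro B
    apply ContinuousLinearMap.opNorm_le_bound _ (norm_nonneg _)
    intro v
    rw [hFa, U.symm.norm_map]
    have := B.le_opNorm (U v)
    rwa [U.norm_map] at this
  refine ⟨F S0150Op.S, ?_, ?_, ?_⟩
  · intro h0
    apply S0150Op.S_ne_zero
    apply ContinuousLinearMap.ext
    intro f
    have h1 : F S0150Op.S (U.symm f) = 0 := by rw [h0]; rfl
    rw [hFa, U.apply_symm_apply] at h1
    have h2 := congrArg U h1
    rw [U.apply_symm_apply, map_zero] at h2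
    rw [h2]; rfl
  · have hb : ∀ n : ℕ, 1 ≤ n → ‖F S0150Op.S ^ n‖ ^ (1 / (n : ℝ)) ≤ Real.exp (-(5/2) * n) := by
      intro n hn
      have hn' : (1:ℝ) ≤ n := by exact_mod_cast hn
      have h1 : ‖F S0150Op.S ^ n‖ ≤ Real.exp (-(5/2) * (n:ℝ)^2) := by
        rw [← hFpow]
        refine (hFn _).trans ((S0150Op.norm_S_pow_le n).trans ?_)
        apply Real.exp_le_exp.2
        have h2 : n^2 ≤ 4 * ((n+1)^2/4) := by
          have h3 : (n+1)^2 = n^2 + 2 * n + 1 := by ring
          have h4 := Nat.div_add_mod ((n+1)^2) 4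
          have h5 := Nat.mod_lt ((n+1)^2) (show 0 < 4 by norm_num)
          omega
        have h3 : ((n:ℝ))^2 ≤ 4 * (((n+1)^2/4 : ℕ) : ℝ) := by exact_mod_cast h2
        linarith
      calc ‖F S0150Op.S ^ n‖ ^ (1 / (n : ℝ)) ≤ (Real.exp (-(5/2) * (n:ℝ)^2)) ^ (1 / (n : ℝ)) := by
            apply Real.rpow_le_rpow (norm_nonneg _) h1 (by positivity)
        _ = Real.exp (-(5/2) * n) := by
            rw [← Real.exp_mul]
            congr 1
            field_simp
    have h0 : Tendsto (fun n : ℕ => Real.exp (-(5/2) * (n:ℝ))) atTop (𝓝 0) := by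
      apply Real.tendsto_exp_atBot.comp
      apply Tendsto.const_mul_atTop_of_neg (by norm_num) tendsto_natCast_atTop_atTop
    refine squeeze_zero' (Eventually.of_forall fun n => by positivity) ?_ h0
    filter_upwards [eventually_ge_atTop 1] with n hn
    exact hb n hn
  · intro V hV hinv
    set W : Submodule ℂ TwoAdic.fibreSpace :=
      V.comap (U.symm.toLinearEquiv : TwoAdic.fibreSpace →ₗ[ℂ] H) with hWdef
    have hmem : ∀ f, f ∈ W ↔ U.symm f ∈ V := fun f => Iff.rfl
    have hW : IsClosed (W : Set TwoAdic.fibreSpace) := hV.preimage U.symm.continuous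
    rcases S0148Aux.hyper W hW (by
      intro A hA f hf
      rw [hmem] at hf ⊢
      have h1 := hinv (F A) (by rw [← hFmul, ← hFmul, hA]) _ hf
      rwa [hFa, U.apply_symm_apply] at h1) with h | h
    · left
      rw [Submodule.eq_bot_iff]
      intro v hv
      have h1 : U v ∈ W := by rw [hmem, U.symm_apply_apply]; exact hv
      rw [h, Submodule.mem_bot] at h1
      simpa using h1
    · right
      rw [eq_top_iff]
      intro v _
      have h1 : U v ∈ W := by rw [h]; trivial
      rwa [hmem, U.symm_apply_apply] at h1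

end Crest.Agent.S0148
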