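import Crest.Statements.S0150
import Crest.Agent.S0150_Seq
import Crest.Agent.S0150_Fibre
import Crest.Agent.S0150_Cost
import Crest.Agent.S0150_Op
import Crest.Agent.S0150_Trans

set_option autoImplicit false
open Crest.AnalysisR.TwoAdic MeasureTheory
attribute [local instance] Crest.AnalysisR.TwoAdic.borelTwoAdic Crest.AnalysisR.TwoAdic.borelSpace_twoAdic
open Crest Crest.AnalysisR Crest.AnalysisR.TwoAdic

namespace Crest.Agent.S0150

/-- On L²(ℤ₂; ℓ²(ℤ)) (2-adic integers, Haar probability) measurable weights β_j > 0, b_j ∈ [0,1] give fibre shifts S_x δ_j = β_j(x) δ_{j+1} forming a bounded S and a contraction V commuting with S, acting along x ↦ x + 1 by V_x δ_j = b_j(x) δ_{j−1}, with: each S_x has exactly the tails, 0, ℓ²(ℤ) as closed invariant subspaces; ‖S‖ = e^{−10}, ‖Sⁿ‖ ≤ exp(−10⌊(n+1)²/4⌋); off a null set b_j > 0 and V_x maps each tail densely into the next lower one; S, V and bounded multipliers act transitively. -/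
theorem result :
    ∃ (β b : ℤ → ℤ_[2] → ℝ) (Sfib Vfib : ℤ_[2] → (seqHilbert →L[ℂ] seqHilbert))
      (S V : fibreSpace →L[ℂ] fibreSpace),
      (∀ j, Measurable (β j)) ∧ (∀ j x, 0 < β j x) ∧
      (∀ x j, Sfib x (basisVec j) = (β j x : ℂ) • basisVec (j + 1)) ∧
      (∀ f : fibreSpace, ∀ᵐ x ∂haarTwoAdic, (S f : ℤ_[2] → seqHilbert) x = Sfib x ((f : ℤ_[2] → seqHilbert) x)) ∧
      (∀ x, ∀ W : Submodule ℂ seqHilbert, IsClosed (W : Set seqHilbert) →
        ((∀ v ∈ W, Sfib x v ∈ W) ↔ (W = ⊥ ∨ W = ⊤ ∨ ∃ h : ℤ, W = tailSpace h))) ∧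
      S ≠ 0 ∧ ‖S‖ = Real.exp (-10) ∧
      (∀ n : ℕ, 1 ≤ n → ‖S ^ n‖ ≤ Real.exp (-10 * (((n + 1) ^ 2 / 4 : ℕ) : ℝ))) ∧
      ‖V‖ ≤ 1 ∧ V * S = S * V ∧
      (∀ j, Measurable (b j)) ∧ (∀ j x, 0 ≤ b j x ∧ b j x ≤ 1) ∧
      (∀ x j, Vfib x (basisVec j) = (b j x : ℂ) • basisVec (j - 1)) ∧
      (∀ f : fibreSpace, ∀ᵐ x ∂haarTwoAdic,
        (V f : ℤ_[2] → seqHilbert) (x + 1) = Vfib x ((f : ℤ_[2] → seqHilbert) x)) ∧
      (∃ N : Set ℤ_[2], haarTwoAdic N = 0 ∧ ∀ x, x ∉ N →
        (∀ j, 0 < b j x) ∧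
        (∀ h : ℤ, closure (Vfib x '' (tailSpace h : Set seqHilbert)) = (tailSpace (h - 1) : Set seqHilbert)) ∧
        closure (Set.range (Vfib x)) = Set.univ) ∧
      (∀ W : Submodule ℂ fibreSpace, IsClosed (W : Set fibreSpace) →
        (∀ f ∈ W, S f ∈ W) → (∀ f ∈ W, V f ∈ W) →
        (∀ g : ℤ_[2] → ℂ, Measurable g → (∃ C : ℝ, ∀ x, ‖g x‖ ≤ C) →
          ∀ f ∈ W, ∀ f' : fibreSpace,
            (∀ᵐ x ∂haarTwoAdic, (f' : ℤ_[2] → seqHilbert) x = g x • (f : ℤ_[2] → seqHilbert) x) → f' ∈ W) →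
        W = ⊥ ∨ W = ⊤) := by
  refine ⟨S0150Cost.beta, S0150Cost.b, S0150Op.Sfib, S0150Op.Vfib, S0150Op.S, S0150Op.V,
    S0150Cost.measurable_beta, S0150Cost.beta_pos, S0150Op.Sfib_basisVec, S0150Op.S_ae,
    fun x W hW => S0150Fibre.unicellular (S0150Cost.costHyp x) W hW, S0150Op.S_ne_zero,
    S0150Op.norm_S, fun n _ => S0150Op.norm_S_pow_le n, S0150Op.norm_V_le, S0150Op.V_mul_S,
    S0150Cost.measurable_b, fun j x => ⟨S0150Cost.b_nonneg j x, S0150Cost.b_le_one j x⟩,
    S0150Op.Vfib_basisVec, S0150Op.V_ae, ?_, ?_⟩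
  · refine ⟨{-1}, S0150Op.haar_singleton _, ?_⟩
    intro x hx
    have hx1 : x + 1 ≠ 0 := by
      intro hcon
      apply hx
      rw [Set.mem_singleton_iff]
      exact eq_neg_of_add_eq_zero_left hcon
    have hpre : ∀ j : ℤ, S0150Op.Vfib x ((((S0150Cost.b (j + 1) x : ℝ) : ℂ))⁻¹ • basisVec (j + 1)) =
        basisVec j := by
      intro j
      rw [map_smul, S0150Op.Vfib_basisVec, smul_smul, inv_mul_cancel₀
        (by exact_mod_cast (S0150Cost.b_pos (j+1) x hx1).ne'), one_smul, add_sub_cancel_right]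
    refine ⟨fun j => S0150Cost.b_pos j x hx1, ?_, ?_⟩
    · intro h
      apply Set.Subset.antisymm
      · apply closure_minimal _ (S0150Fibre.isClosed_tailSpace _)
        rintro _ ⟨v, hv, rfl⟩
        rw [SetLike.mem_coe, S0150Fibre.mem_tailSpace_iff] at *
        intro j hj
        unfold S0150Op.Vfib
        rw [S0150Fibre.wshift_apply, hv (j + 1) (by omega), mul_zero]
      · have h1 : tailSpace (h - 1) ≤
            ((tailSpace h).map (S0150Op.Vfib x).toLinearMap).topologicalClosure := by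
          apply S0150Fibre.tailSpace_le (Submodule.isClosed_topologicalClosure _)
          intro j hj
          apply Submodule.le_topologicalClosure
          refine ⟨_, ?_, hpre j⟩
          exact Submodule.smul_mem _ _ (S0150Fibre.basisVec_mem_tailSpace (by omega))
        intro v hv
        have h2 := h1 hv
        rw [← SetLike.mem_coe, Submodule.topologicalClosure_coe, Submodule.map_coe] at h2
        exact h2
    · rw [Set.eq_univ_iff_forall]
      intro v
      have h1 : ((⊤ : Submodule ℂ seqHilbert).map (S0150Op.Vfib x).toLinearMap).topologicalClosure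
          = ⊤ := by
        apply S0150Fibre.eq_top_of_basis (Submodule.isClosed_topologicalClosure _)
        intro j
        apply Submodule.le_topologicalClosure
        exact ⟨_, trivial, hpre j⟩
      have h2 : v ∈ ((⊤ : Submodule ℂ seqHilbert).map
          (S0150Op.Vfib x).toLinearMap).topologicalClosure := by
        rw [h1]; trivial
      rw [← SetLike.mem_coe, Submodule.topologicalClosure_coe, Submodule.map_coe,
        Submodule.top_coe, Set.image_univ] at h2
      exact h2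
  · intro W hW hS hV hmult
    refine S0150Trans.transitive W hW hS hV ?_
    intro s hs f hf f' hf'
    refine hmult (s.indicator (fun _ => (1:ℂ))) (measurable_const.indicator hs) ⟨1, ?_⟩ f hf f' ?_
    · intro x
      by_cases hx : x ∈ s
      · rw [Set.indicator_of_mem hx]; simp
      · rw [Set.indicator_of_notMem hx]; simp
    · filter_upwards [hf'] with x hx
      rw [hx]
      by_cases hxs : x ∈ s
      · rw [Set.indicator_of_mem hxs, Set.indicator_of_mem hxs, one_smul]
      · rw [Set.indicator_of_notMem hxs, Set.indicator_of_notMem hxs, zero_smul]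

end Crest.Agent.S0150
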