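import Mathlib
import Crest.Prelude.Def_ProductShift

set_option autoImplicit false
open MeasureTheory
open scoped ComplexOrder

namespace Crest.Agent.S0151

section Abstract

variable {H : Type*} [NormedAddCommGroup H] [InnerProductSpace ℂ H] [CompleteSpace H]

/-- vector state as a continuous linear map -/
noncomputable def tau (ξ : H) : (H →L[ℂ] H) →L[ℂ] ℂ :=
  (innerSL ℂ ξ) ∘L (ContinuousLinearMap.apply ℂ H ξ)

lemma tau_apply (ξ : H) (X : H →L[ℂ] H) : tau ξ X = inner ℂ ξ (X ξ) := rfl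

/-- data: trace-like structure -/
structure Tr (ξ : H) (T T' : H →L[ℂ] H) : Prop where
  nrm : ‖ξ‖ = 1
  h1 : T' ξ = T ξ
  h2 : (star T') ξ = (star T) ξ
  c1 : Commute T' T
  c2 : Commute T' (star T)
  vac : ∀ n : ℕ, inner ℂ ξ ((T ^ (n + 1)) ξ) = 0
  qn : ∀ r : ℝ, 0 < r → Summable (fun n : ℕ => r ^ n * ‖T ^ n‖)

/-- the commutant algebra -/
def Acal (T' : H →L[ℂ] H) : Set (H →L[ℂ] H) := {w | Commute T' w ∧ Commute (star T') w}

def Zcal (ξ : H) (T' : H →L[ℂ] H) : Set (H →L[ℂ] H) :=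
  {b | b ∈ Acal T' ∧ ∀ w ∈ Acal T', tau ξ (b * w) = tau ξ (w * b)}

variable {ξ : H} {T T' : H →L[ℂ] H}

lemma inner_star_left (X : H →L[ℂ] H) (a b : H) : inner ℂ ((star X) a) b = inner ℂ a (X b) := by
  rw [ContinuousLinearMap.star_eq_adjoint, ContinuousLinearMap.adjoint_inner_left]

lemma inner_star_right (X : H →L[ℂ] H) (a b : H) : inner ℂ a ((star X) b) = inner ℂ (X a) b := by
  rw [ContinuousLinearMap.star_eq_adjoint, ContinuousLinearMap.adjoint_inner_right]

lemma mem_A_add {a b : H →L[ℂ] H} (ha : a ∈ Acal T') (hb : b ∈ Acal T') : a + b ∈ Acal T' :=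
  ⟨ha.1.add_right hb.1, ha.2.add_right hb.2⟩

lemma mem_A_mul {a b : H →L[ℂ] H} (ha : a ∈ Acal T') (hb : b ∈ Acal T') : a * b ∈ Acal T' :=
  ⟨ha.1.mul_right hb.1, ha.2.mul_right hb.2⟩

lemma mem_A_smul {a : H →L[ℂ] H} (c : ℂ) (ha : a ∈ Acal T') : c • a ∈ Acal T' :=
  ⟨ha.1.smul_right c, ha.2.smul_right c⟩

lemma mem_A_sub {a b : H →L[ℂ] H} (ha : a ∈ Acal T') (hb : b ∈ Acal T') : a - b ∈ Acal T' :=
  ⟨ha.1.sub_right hb.1, ha.2.sub_right hb.2⟩

lemma mem_A_one : (1 : H →L[ℂ] H) ∈ Acal T' :=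
  ⟨Commute.one_right _, Commute.one_right _⟩

lemma mem_A_pow {a : H →L[ℂ] H} (ha : a ∈ Acal T') (n : ℕ) : a ^ n ∈ Acal T' :=
  ⟨ha.1.pow_right n, ha.2.pow_right n⟩

lemma mem_A_star {a : H →L[ℂ] H} (ha : a ∈ Acal T') : star a ∈ Acal T' := by
  refine ⟨?_, ?_⟩
  · have := ha.2.star_star
    simpa using this
  · exact ha.1.star_star

lemma mem_A_inv {a b : H →L[ℂ] H} (ha : a ∈ Acal T') (h1 : a * b = 1) (h2 : b * a = 1) :
    b ∈ Acal T' := by
  have key : ∀ x : H →L[ℂ] H, Commute x a → Commute x b := by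
    intro x hx
    have : x * b = b * x := by
      calc x * b = (b * a) * (x * b) := by rw [h2, one_mul]
        _ = b * (a * x) * b := by noncomm_ring
        _ = b * (x * a) * b := by rw [hx.eq]
        _ = b * x * (a * b) := by noncomm_ring
        _ = b * x := by rw [h1, mul_one]
    exact this
  exact ⟨key _ ha.1, key _ ha.2⟩

lemma mem_Z_add {a b : H →L[ℂ] H} (ha : a ∈ Zcal ξ T') (hb : b ∈ Zcal ξ T') :
    a + b ∈ Zcal ξ T' := by
  refine ⟨mem_A_add ha.1 hb.1, fun w hw => ?_⟩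
  rw [add_mul, mul_add, map_add, map_add, ha.2 w hw, hb.2 w hw]

lemma mem_Z_sub {a b : H →L[ℂ] H} (ha : a ∈ Zcal ξ T') (hb : b ∈ Zcal ξ T') :
    a - b ∈ Zcal ξ T' := by
  refine ⟨mem_A_sub ha.1 hb.1, fun w hw => ?_⟩
  rw [sub_mul, mul_sub, map_sub, map_sub, ha.2 w hw, hb.2 w hw]

lemma mem_Z_mul {a b : H →L[ℂ] H} (ha : a ∈ Zcal ξ T') (hb : b ∈ Zcal ξ T') :
    a * b ∈ Zcal ξ T' := by
  refine ⟨mem_A_mul ha.1 hb.1, fun w hw => ?_⟩
  rw [mul_assoc, ha.2 _ (mem_A_mul hb.1 hw), mul_assoc, hb.2 _ (mem_A_mul hw ha.1), mul_assoc]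

lemma mem_Z_smul {a : H →L[ℂ] H} (c : ℂ) (ha : a ∈ Zcal ξ T') : c • a ∈ Zcal ξ T' := by
  refine ⟨mem_A_smul c ha.1, fun w hw => ?_⟩
  rw [smul_mul_assoc, mul_smul_comm, map_smul, map_smul, ha.2 w hw]

lemma mem_Z_one : (1 : H →L[ℂ] H) ∈ Zcal ξ T' :=
  ⟨mem_A_one, fun w _ => by rw [one_mul, mul_one]⟩

lemma mem_Z_pow {a : H →L[ℂ] H} (ha : a ∈ Zcal ξ T') (n : ℕ) : a ^ n ∈ Zcal ξ T' := by
  induction n with
  | zero => simpa using mem_Z_one
  | succ n ih => rw [pow_succ]; exact mem_Z_mul ih ha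

lemma Tr.T_mem_A (h : Tr ξ T T') : T ∈ Acal T' := by
  refine ⟨h.c1, ?_⟩
  have := h.c2.star_star
  simpa using this

lemma Tr.T_mem_Z (h : Tr ξ T T') : T ∈ Zcal ξ T' := by
  refine ⟨h.T_mem_A, fun w hw => ?_⟩
  rw [tau_apply, tau_apply, mul_apply_eq_comp, mul_apply_eq_comp,
    ← inner_star_left, ← h.h2, inner_star_left, ← mul_apply_eq_comp, hw.1.eq,
    mul_apply_eq_comp, h.h1]

lemma Tr.sT_mem_Z (h : Tr ξ T T') : star T ∈ Zcal ξ T' := by
  refine ⟨mem_A_star h.T_mem_A, fun w hw => ?_⟩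
  rw [tau_apply, tau_apply, mul_apply_eq_comp, mul_apply_eq_comp,
    inner_star_right, ← h.h1, ← inner_star_right, ← mul_apply_eq_comp, hw.2.eq,
    mul_apply_eq_comp, h.h2]





/-! ### the homotopy -/

/-- the pencil -/
noncomputable def At (T : H →L[ℂ] H) (z : ℂ) (t : ℝ) : H →L[ℂ] H := (t : ℂ) • T - z • 1

noncomputable def at1 (T : H →L[ℂ] H) (z : ℂ) (t : ℝ) : H →L[ℂ] H := star (At T z t) * At T z t

noncomputable def atd (T : H →L[ℂ] H) (z : ℂ) (t : ℝ) : H →L[ℂ] H :=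
  star T * At T z t + star (At T z t) * T

lemma star_At (z : ℂ) (t : ℝ) :
    star (At T z t) = (t : ℂ) • star T - (starRingEnd ℂ z) • 1 := by
  unfold At
  rw [star_sub, star_smul, star_smul, star_one]
  simp

lemma hasDerivAt_At (z : ℂ) (t : ℝ) : HasDerivAt (fun t : ℝ => At T z t) T t := by
  unfold At
  have h1 : HasDerivAt (fun t : ℝ => (t : ℂ)) 1 t := by
    simpa using (hasDerivAt_id t).ofReal_comp
  have h2 := (h1.smul_const T).sub_const (z • (1 : H →L[ℂ] H))
  simpa using h2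

lemma hasDerivAt_star_At (z : ℂ) (t : ℝ) :
    HasDerivAt (fun t : ℝ => star (At T z t)) (star T) t := by
  simp_rw [star_At]
  have h1 : HasDerivAt (fun t : ℝ => (t : ℂ)) 1 t := by
    simpa using (hasDerivAt_id t).ofReal_comp
  have h2 := (h1.smul_const (star T)).sub_const ((starRingEnd ℂ z) • (1 : H →L[ℂ] H))
  simpa using h2

lemma hasDerivAt_at1 (z : ℂ) (t : ℝ) :
    HasDerivAt (fun t : ℝ => at1 T z t) (atd T z t) t :=
  (hasDerivAt_star_At z t).mul (hasDerivAt_At z t)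

lemma Tr.At_mem_Z (h : Tr ξ T T') (z : ℂ) (t : ℝ) : At T z t ∈ Zcal ξ T' :=
  mem_Z_sub (mem_Z_smul _ h.T_mem_Z) (mem_Z_smul _ mem_Z_one)

lemma Tr.sAt_mem_Z (h : Tr ξ T T') (z : ℂ) (t : ℝ) : star (At T z t) ∈ Zcal ξ T' := by
  rw [star_At]
  exact mem_Z_sub (mem_Z_smul _ h.sT_mem_Z) (mem_Z_smul _ mem_Z_one)

lemma Tr.at1_mem_Z (h : Tr ξ T T') (z : ℂ) (t : ℝ) : at1 T z t ∈ Zcal ξ T' :=
  mem_Z_mul (h.sAt_mem_Z z t) (h.At_mem_Z z t)

lemma Tr.atd_mem_A (h : Tr ξ T T') (z : ℂ) (t : ℝ) : atd T z t ∈ Acal T' :=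
  mem_A_add (mem_A_mul (mem_A_star h.T_mem_A) (h.At_mem_Z z t).1)
    (mem_A_mul (h.sAt_mem_Z z t).1 h.T_mem_A)

lemma Tr.hasDerivAt_pow (h : Tr ξ T T') (z : ℂ) (n : ℕ) (t : ℝ) :
    HasDerivAt (fun t : ℝ => tau ξ (at1 T z t ^ n))
      ((n : ℂ) * tau ξ (at1 T z t ^ (n - 1) * atd T z t)) t := by
  have h1 := (hasDerivAt_at1 (T := T) z t).fun_pow' n
  have h2 := ((tau ξ).restrictScalars ℝ).hasFDerivAt.comp_hasDerivAt t h1
  convert! h2 using 1
  rw [ContinuousLinearMap.coe_restrictScalars', map_sum]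
  rw [Finset.sum_congr rfl (g := fun _ => tau ξ (at1 T z t ^ (n - 1) * atd T z t))]
  · simp
  · intro i hi
    have hi' : i < n := Finset.mem_range.1 hi
    have hz := (mem_Z_pow (h.at1_mem_Z z t) i)
    rw [← hz.2 _ (mem_A_mul (mem_A_pow (h.at1_mem_Z z t).1 _) (h.atd_mem_A z t)), ← mul_assoc,
      ← pow_add]
    congr 3
    simp only [Nat.pred_eq_sub_one]
    omega

lemma Tr.hasDerivAt_poly (h : Tr ξ T T') (z : ℂ) (p : Polynomial ℝ) (t : ℝ) :
    HasDerivAt (fun t : ℝ => tau ξ (Polynomial.aeval (at1 T z t) p))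
      (tau ξ (Polynomial.aeval (at1 T z t) (Polynomial.derivative p) * atd T z t)) t := by
  induction p using Polynomial.induction_on' with
  | add p q hp hq =>
    simp only [map_add, add_mul]
    exact hp.add hq
  | monomial n c =>
    simp only [Polynomial.derivative_monomial, Polynomial.aeval_monomial, Algebra.algebraMap_eq_smul_one,
      smul_mul_assoc, one_mul]
    have h3 : ∀ X : H →L[ℂ] H, ∀ r : ℝ, tau ξ (r • X) = (r : ℂ) * tau ξ X := by
      intro X r
      have : r • X = (r : ℂ) • X := by ext; simp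
      rw [this, map_smul, smul_eq_mul]
    simp only [h3]
    have := (h.hasDerivAt_pow z n t).const_mul (c : ℂ)
    convert! this using 1
    push_cast
    ring





/-! ### the inverse of the pencil -/

/-- explicit inverse -/
noncomputable def Bt (T : H →L[ℂ] H) (z : ℂ) (t : ℝ) : H →L[ℂ] H :=
  (-z⁻¹) • ∑' n : ℕ, (((t : ℂ) * z⁻¹) • T) ^ n

lemma Tr.norm_term_le (z : ℂ) {t : ℝ} (ht : t ∈ Set.Icc (0 : ℝ) 1) (n : ℕ) :
    ‖(((t : ℂ) * z⁻¹) • T) ^ n‖ ≤ ‖z⁻¹‖ ^ n * ‖T ^ n‖ := by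
  rw [smul_pow, norm_smul, norm_pow, norm_mul]
  have : ‖(t : ℂ)‖ ≤ 1 := by
    rw [Complex.norm_real, Real.norm_eq_abs, abs_of_nonneg ht.1]; exact ht.2
  gcongr
  calc ‖(t : ℂ)‖ * ‖z⁻¹‖ ≤ 1 * ‖z⁻¹‖ := by gcongr
    _ = ‖z⁻¹‖ := one_mul _

lemma Tr.summable_norm (h : Tr ξ T T') {z : ℂ} (hz : z ≠ 0) {t : ℝ} (ht : t ∈ Set.Icc (0 : ℝ) 1) :
    Summable (fun n : ℕ => ‖(((t : ℂ) * z⁻¹) • T) ^ n‖) := by
  refine Summable.of_nonneg_of_le (fun n => norm_nonneg _) (fun n => Tr.norm_term_le z ht n)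
    (h.qn ‖z⁻¹‖ ?_)
  rw [norm_pos_iff]
  exact inv_ne_zero hz

lemma Tr.summable (h : Tr ξ T T') {z : ℂ} (hz : z ≠ 0) {t : ℝ} (ht : t ∈ Set.Icc (0 : ℝ) 1) :
    Summable (fun n : ℕ => (((t : ℂ) * z⁻¹) • T) ^ n) :=
  (h.summable_norm hz ht).of_norm

lemma Tr.At_eq {z : ℂ} (hz : z ≠ 0) (t : ℝ) :
    At T z t = (-z) • (1 - ((t : ℂ) * z⁻¹) • T) := by
  unfold At
  rw [smul_sub, smul_smul]
  have : -z * ((t : ℂ) * z⁻¹) = -(t : ℂ) := by field_simp
  rw [this]
  module

lemma Tr.Bt_mul_At (h : Tr ξ T T') {z : ℂ} (hz : z ≠ 0) {t : ℝ} (ht : t ∈ Set.Icc (0 : ℝ) 1) :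
    Bt T z t * At T z t = 1 := by
  rw [Tr.At_eq hz, Bt, smul_mul_smul_comm, (h.summable hz ht).tsum_pow_mul_one_sub]
  rw [neg_mul_neg, inv_mul_cancel₀ hz, one_smul]

lemma Tr.At_mul_Bt (h : Tr ξ T T') {z : ℂ} (hz : z ≠ 0) {t : ℝ} (ht : t ∈ Set.Icc (0 : ℝ) 1) :
    At T z t * Bt T z t = 1 := by
  rw [Tr.At_eq hz, Bt, smul_mul_smul_comm, (h.summable hz ht).one_sub_mul_tsum_pow]
  rw [neg_mul_neg, mul_inv_cancel₀ hz, one_smul]

lemma Tr.tau_Bt_T (h : Tr ξ T T') {z : ℂ} (hz : z ≠ 0) {t : ℝ} (ht : t ∈ Set.Icc (0 : ℝ) 1) :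
    tau ξ (Bt T z t * T) = 0 := by
  rw [Bt, smul_mul_assoc, map_smul]
  have h1 : HasSum (fun n : ℕ => tau ξ ((((t : ℂ) * z⁻¹) • T) ^ n * T))
      (tau ξ ((∑' n : ℕ, (((t : ℂ) * z⁻¹) • T) ^ n) * T)) :=
    ((h.summable hz ht).hasSum.mul_right T).mapL (tau ξ)
  have h2 : ∀ n : ℕ, tau ξ ((((t : ℂ) * z⁻¹) • T) ^ n * T) = 0 := by
    intro n
    rw [smul_pow, smul_mul_assoc, map_smul, ← pow_succ, tau_apply, h.vac, smul_zero]
  simp only [h2] at h1
  rw [h1.unique hasSum_zero, smul_zero]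

lemma tau_star (X : H →L[ℂ] H) : tau ξ (star X) = (starRingEnd ℂ) (tau ξ X) := by
  rw [tau_apply, tau_apply, inner_star_right, inner_conj_symm]

lemma Tr.key_zero (h : Tr ξ T T') {z : ℂ} (hz : z ≠ 0) {t : ℝ} (ht : t ∈ Set.Icc (0 : ℝ) 1) :
    tau ξ (Bt T z t * star (Bt T z t) * atd T z t) = 0 := by
  have hBA := h.Bt_mul_At hz ht
  have hAB := h.At_mul_Bt hz ht
  have hsBA : star (Bt T z t) * star (At T z t) = 1 := by
    rw [← star_mul, hAB, star_one]
  have hB : Bt T z t ∈ Acal T' := mem_A_inv (h.At_mem_Z z t).1 hAB hBA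
  have hcomm : Commute T (Bt T z t) := by
    have hc : Commute T (At T z t) := by
      unfold At
      exact ((Commute.refl T).smul_right _).sub_right ((Commute.one_right T).smul_right _)
    have : T * Bt T z t = Bt T z t * T := by
      calc T * Bt T z t = (Bt T z t * At T z t) * (T * Bt T z t) := by rw [hBA, one_mul]
        _ = Bt T z t * (At T z t * T) * Bt T z t := by noncomm_ring
        _ = Bt T z t * (T * At T z t) * Bt T z t := by rw [hc.eq]
        _ = Bt T z t * T * (At T z t * Bt T z t) := by noncomm_ring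
        _ = Bt T z t * T := by rw [hAB, mul_one]
    exact this
  unfold atd
  rw [mul_add, map_add]
  have e1 : tau ξ (Bt T z t * star (Bt T z t) * (star T * At T z t)) = 0 := by
    rw [← mul_assoc, ← (h.At_mem_Z z t).2 _ (mem_A_mul (mem_A_mul hB (mem_A_star hB))
      (mem_A_star h.T_mem_A)), ← mul_assoc, ← mul_assoc, hAB, one_mul, ← star_mul, tau_star,
      hcomm.eq, h.tau_Bt_T hz ht, map_zero]
  have e2 : tau ξ (Bt T z t * star (Bt T z t) * (star (At T z t) * T)) = 0 := by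
    have : Bt T z t * star (Bt T z t) * (star (At T z t) * T)
        = Bt T z t * (star (Bt T z t) * star (At T z t)) * T := by noncomm_ring
    rw [this, hsBA, mul_one, h.tau_Bt_T hz ht]
  rw [e1, e2, add_zero]





lemma norm_one_le' : ‖(1 : H →L[ℂ] H)‖ ≤ 1 := ContinuousLinearMap.norm_id_le

lemma norm_tau_le (hξ : ‖ξ‖ = 1) (X : H →L[ℂ] H) : ‖tau ξ X‖ ≤ ‖X‖ := by
  rw [tau_apply]
  calc ‖inner ℂ ξ (X ξ)‖ ≤ ‖ξ‖ * ‖X ξ‖ := norm_inner_le_norm _ _
    _ ≤ ‖ξ‖ * (‖X‖ * ‖ξ‖) := by gcongr; exact X.le_opNorm ξ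
    _ = ‖X‖ := by rw [hξ]; ring

noncomputable def Kb (T : H →L[ℂ] H) (z : ℂ) : ℝ := ‖z⁻¹‖ * ∑' n : ℕ, ‖z⁻¹‖ ^ n * ‖T ^ n‖

lemma Tr.norm_Bt_le (h : Tr ξ T T') {z : ℂ} (hz : z ≠ 0) {t : ℝ} (ht : t ∈ Set.Icc (0 : ℝ) 1) :
    ‖Bt T z t‖ ≤ Kb T z := by
  rw [Bt, Kb, norm_smul, norm_neg]
  gcongr
  refine (norm_tsum_le_tsum_norm (h.summable_norm hz ht)).trans ?_
  refine Summable.tsum_le_tsum (fun n => Tr.norm_term_le z ht n) (h.summable_norm hz ht)
    (h.qn ‖z⁻¹‖ ?_)
  rw [norm_pos_iff]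
  exact inv_ne_zero hz

lemma norm_At_le (z : ℂ) {t : ℝ} (ht : t ∈ Set.Icc (0 : ℝ) 1) :
    ‖At T z t‖ ≤ ‖T‖ + ‖z‖ := by
  unfold At
  refine (norm_sub_le _ _).trans ?_
  rw [norm_smul, norm_smul]
  have : ‖(t : ℂ)‖ ≤ 1 := by
    rw [Complex.norm_real, Real.norm_eq_abs, abs_of_nonneg ht.1]; exact ht.2
  have h1 : ‖(t : ℂ)‖ * ‖T‖ ≤ 1 * ‖T‖ := by gcongr
  have h2 : ‖z‖ * ‖(1 : H →L[ℂ] H)‖ ≤ ‖z‖ * 1 := by gcongr; exact norm_one_le'
  linarith

lemma norm_atd_le (z : ℂ) {t : ℝ} (ht : t ∈ Set.Icc (0 : ℝ) 1) :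
    ‖atd T z t‖ ≤ 2 * ‖T‖ * (‖T‖ + ‖z‖) := by
  unfold atd
  have h0 := norm_At_le (T := T) z ht
  have h1 : ‖star T * At T z t‖ ≤ ‖T‖ * (‖T‖ + ‖z‖) := by
    refine (norm_mul_le _ _).trans ?_
    rw [norm_star]; gcongr
  have h2 : ‖star (At T z t) * T‖ ≤ (‖T‖ + ‖z‖) * ‖T‖ := by
    refine (norm_mul_le _ _).trans ?_
    rw [norm_star]; gcongr
  refine (norm_add_le _ _).trans ?_
  linarith

lemma at1_nonneg (z : ℂ) (t : ℝ) : 0 ≤ at1 T z t := star_mul_self_nonneg _

lemma at1_sa (z : ℂ) (t : ℝ) : IsSelfAdjoint (at1 T z t) := IsSelfAdjoint.star_mul_self _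

lemma Tr.Kb_pos (h : Tr ξ T T') {z : ℂ} (hz : z ≠ 0) : 0 < Kb T z := by
  have h0 : (0 : ℝ) ∈ Set.Icc (0 : ℝ) 1 := ⟨le_refl _, zero_le_one⟩
  have h1 := h.norm_Bt_le hz h0
  have h2 : Bt T z 0 ≠ 0 := by
    intro h3
    have h4 := h.Bt_mul_At hz h0
    rw [h3, zero_mul] at h4
    have h5 : ξ = 0 := by
      have := congrArg (fun X : H →L[ℂ] H => X ξ) h4
      simpa using this.symm
    have := h.nrm
    rw [h5, norm_zero] at this
    exact zero_ne_one this
  exact (norm_pos_iff.2 h2).trans_le h1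

lemma Tr.spec_lower (h : Tr ξ T T') {z : ℂ} (hz : z ≠ 0) {t : ℝ} (ht : t ∈ Set.Icc (0 : ℝ) 1)
    {x : ℝ} (hx : x ∈ spectrum ℝ (at1 T z t)) : (Kb T z)⁻¹ ^ 2 ≤ x := by
  have hx0 : 0 ≤ x := spectrum_nonneg_of_nonneg (at1_nonneg z t) hx
  have hBA := h.Bt_mul_At hz ht
  set B := Bt T z t with hB
  have h1 := CStarAlgebra.star_left_conjugate_le_norm_smul (a := At T z t) (b := star B * B)
    (IsSelfAdjoint.star_mul_self _)
  have h2 : star (At T z t) * (star B * B) * At T z t = 1 := by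
    calc star (At T z t) * (star B * B) * At T z t
        = star (B * At T z t) * (B * At T z t) := by rw [star_mul]; noncomm_ring
      _ = 1 := by rw [hBA, star_one, one_mul]
  rw [h2] at h1
  have h3 : (algebraMap ℝ (H →L[ℂ] H)) 1 ≤ ‖star B * B‖ • (at1 T z t) := by
    rw [map_one]; exact h1
  have hsa : IsSelfAdjoint (‖star B * B‖ • (at1 T z t)) :=
    (IsSelfAdjoint.all _).smul (at1_sa z t)
  rw [algebraMap_le_iff_le_spectrum hsa] at h3
  have hK := h.Kb_pos hz
  have hBpos : ‖star B * B‖ ≠ 0 := by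
    intro h4
    rw [norm_eq_zero] at h4
    rw [h4] at h2
    simp only [mul_zero, zero_mul] at h2
    have h5 : ξ = 0 := by
      have := congrArg (fun X : H →L[ℂ] H => X ξ) h2
      simpa using this.symm
    have := h.nrm
    rw [h5, norm_zero] at this
    exact zero_ne_one this
  have h5 : ‖star B * B‖ * x ∈ spectrum ℝ (‖star B * B‖ • (at1 T z t)) := by
    have := (spectrum.smul_mem_smul_iff (a := at1 T z t) (s := x)
      (r := Units.mk0 _ hBpos)).2 hx
    simpa [Units.smul_def] using this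
  have h6 := h3 _ h5
  have h7 : ‖star B * B‖ ≤ (Kb T z) ^ 2 := by
    rw [CStarRing.norm_star_mul_self, sq]
    have := h.norm_Bt_le hz ht
    gcongr
  have h8 : 1 ≤ (Kb T z) ^ 2 * x := h6.trans (by gcongr)
  rw [inv_pow, inv_le_iff_one_le_mul₀ (by positivity), mul_comm]
  exact h8

lemma spec_upper {z : ℂ} {t : ℝ} (ht : t ∈ Set.Icc (0 : ℝ) 1)
    {x : ℝ} (hx : x ∈ spectrum ℝ (at1 T z t)) : x ≤ (‖T‖ + ‖z‖) ^ 2 := by
  have h1 := spectrum.norm_le_norm_mul_of_mem hx
  have h2 : ‖at1 T z t‖ ≤ (‖T‖ + ‖z‖) ^ 2 := by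
    unfold at1
    rw [CStarRing.norm_star_mul_self, sq]
    have := norm_At_le (T := T) z ht
    gcongr
  calc x ≤ ‖x‖ := Real.le_norm_self x
    _ ≤ ‖at1 T z t‖ * ‖(1 : H →L[ℂ] H)‖ := h1
    _ ≤ (‖T‖ + ‖z‖) ^ 2 * 1 := by gcongr; exact norm_one_le'
    _ = _ := mul_one _

/-- polynomial approximation of the logarithm in `C¹` -/
lemma exists_poly {m M x0 : ℝ} (hm : 0 < m) (hx0 : x0 ∈ Set.Icc m M) {δ : ℝ} (hδ : 0 < δ) :
    ∃ P : Polynomial ℝ, P.eval x0 = Real.log x0 ∧
      (∀ x ∈ Set.Icc m M, |P.eval x - Real.log x| ≤ δ * (M - m)) ∧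
      ∀ x ∈ Set.Icc m M, |(Polynomial.derivative P).eval x - x⁻¹| ≤ δ := by
  have hc : ContinuousOn (fun x : ℝ => x⁻¹) (Set.Icc m M) :=
    continuousOn_inv₀.mono fun x hx => (hm.trans_le hx.1).ne'
  obtain ⟨q, hq⟩ := exists_polynomial_near_of_continuousOn m M (fun x : ℝ => x⁻¹) hc δ hδ
  set P0 : Polynomial ℝ := q.sum fun n c => Polynomial.monomial (n + 1) (c / (n + 1)) with hP0
  have hder : Polynomial.derivative P0 = q := by
    rw [hP0, Polynomial.sum_def, map_sum]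
    conv_rhs => rw [q.as_sum_support]
    refine Finset.sum_congr rfl fun n _ => ?_
    rw [Polynomial.derivative_monomial]
    congr 1
    push_cast
    field_simp
  set P := P0 + Polynomial.C (Real.log x0 - P0.eval x0) with hP
  have hderP : Polynomial.derivative P = q := by
    rw [hP, map_add, Polynomial.derivative_C, add_zero, hder]
  have hPx0 : P.eval x0 = Real.log x0 := by
    rw [hP]; simp
  refine ⟨P, hPx0, ?_, ?_⟩
  · intro x hx
    have hdiff : ∀ y ∈ Set.Icc m M, HasDerivWithinAt (fun y => P.eval y - Real.log y)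
        (q.eval y - y⁻¹) (Set.Icc m M) y := by
      intro y hy
      have h1 := (P.hasDerivAt y).hasDerivWithinAt (s := Set.Icc m M)
      rw [hderP] at h1
      exact h1.sub (Real.hasDerivAt_log (hm.trans_le hy.1).ne').hasDerivWithinAt
    have h2 := Convex.norm_image_sub_le_of_norm_hasDerivWithin_le hdiff
      (fun y hy => (hq y hy).le) (convex_Icc m M) hx0 hx
    rw [hPx0, sub_self, sub_zero, Real.norm_eq_abs] at h2
    refine h2.trans ?_
    gcongr
    rw [Real.norm_eq_abs, abs_le]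
    constructor <;> linarith [hx.1, hx.2, hx0.1, hx0.2]
  · intro x hx
    rw [hderP]
    exact (hq x hx).le

lemma Tr.cfc_inv (h : Tr ξ T T') {z : ℂ} (hz : z ≠ 0) {t : ℝ} (ht : t ∈ Set.Icc (0 : ℝ) 1) :
    cfc (fun x : ℝ => x⁻¹) (at1 T z t) = Bt T z t * star (Bt T z t) := by
  have hBA := h.Bt_mul_At hz ht
  have hAB := h.At_mul_Bt hz ht
  have e1 : at1 T z t * (Bt T z t * star (Bt T z t)) = 1 := by
    unfold at1
    calc star (At T z t) * At T z t * (Bt T z t * star (Bt T z t))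
        = star (At T z t) * (At T z t * Bt T z t) * star (Bt T z t) := by noncomm_ring
      _ = star (Bt T z t * At T z t) := by rw [hAB, mul_one, star_mul]
      _ = 1 := by rw [hBA, star_one]
  have e2 : (Bt T z t * star (Bt T z t)) * at1 T z t = 1 := by
    unfold at1
    calc (Bt T z t * star (Bt T z t)) * (star (At T z t) * At T z t)
        = Bt T z t * (star (Bt T z t) * star (At T z t)) * At T z t := by noncomm_ring
      _ = Bt T z t * star (At T z t * Bt T z t) * At T z t := by rw [star_mul]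
      _ = 1 := by rw [hAB, star_one, mul_one, hBA]
  let u : (H →L[ℂ] H)ˣ := ⟨at1 T z t, Bt T z t * star (Bt T z t), e1, e2⟩
  have := cfc_inv_id (R := ℝ) u (at1_sa z t)
  exact this

theorem Tr.main (h : Tr ξ T T') {z : ℂ} (hz : z ≠ 0) :
    (tau ξ (cfc Real.log (at1 T z 1))).re = Real.log (‖z‖ ^ 2) := by
  have hzpos : 0 < ‖z‖ := norm_pos_iff.2 hz
  set m : ℝ := min ((Kb T z)⁻¹ ^ 2) (‖z‖ ^ 2) with hm
  set M : ℝ := (‖T‖ + ‖z‖) ^ 2 with hM
  have hmpos : 0 < m := by
    have := h.Kb_pos hz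
    exact lt_min (by positivity) (by positivity)
  have hx0 : ‖z‖ ^ 2 ∈ Set.Icc m M := by
    refine ⟨min_le_right _ _, ?_⟩
    rw [hM]
    gcongr
    linarith [norm_nonneg T]
  have hspec : ∀ t ∈ Set.Icc (0 : ℝ) 1, ∀ x ∈ spectrum ℝ (at1 T z t), x ∈ Set.Icc m M :=
    fun t ht x hx => ⟨(min_le_left _ _).trans (h.spec_lower hz ht hx), spec_upper ht hx⟩
  have h01 : (1 : ℝ) ∈ Set.Icc (0 : ℝ) 1 := ⟨zero_le_one, le_refl _⟩
  have hmM : m ≤ M := hx0.1.trans hx0.2
  -- main estimate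
  have key : ∀ δ : ℝ, 0 < δ → |(tau ξ (cfc Real.log (at1 T z 1))).re - Real.log (‖z‖ ^ 2)| ≤
      δ * ((M - m) + 2 * ‖T‖ * (‖T‖ + ‖z‖)) := by
    intro δ hδ
    obtain ⟨P, hP0, hP1, hP2⟩ := exists_poly hmpos hx0 hδ
    have s1 : ‖tau ξ (cfc Real.log (at1 T z 1)) - tau ξ (Polynomial.aeval (at1 T z 1) P)‖
        ≤ δ * (M - m) := by
      rw [← map_sub]
      refine (norm_tau_le h.nrm _).trans ?_
      rw [← cfc_polynomial P (at1 T z 1) (at1_sa z 1)]
      have hc : ContinuousOn Real.log (spectrum ℝ (at1 T z 1)) :=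
        Real.continuousOn_log.mono fun x hx => (hmpos.trans_le (hspec 1 h01 x hx).1).ne'
      rw [← cfc_sub _ _ (at1 T z 1) hc (P.continuous.continuousOn)]
      refine norm_cfc_le (by have : 0 ≤ M - m := by linarith
                             positivity) fun x hx => ?_
      rw [Real.norm_eq_abs, abs_sub_comm]
      exact hP1 x (hspec 1 h01 x hx)
    have s2 : ‖(tau ξ (Polynomial.aeval (at1 T z 1) P)).re -
        (tau ξ (Polynomial.aeval (at1 T z 0) P)).re‖ ≤ δ * (2 * ‖T‖ * (‖T‖ + ‖z‖)) := by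
      refine norm_image_sub_le_of_norm_deriv_le_segment_01'
        (f := fun t : ℝ => (tau ξ (Polynomial.aeval (at1 T z t) P)).re)
        (f' := fun t : ℝ => (tau ξ (Polynomial.aeval (at1 T z t) (Polynomial.derivative P)
          * atd T z t)).re) ?_ ?_
      · intro t _
        have := (Complex.reCLM.hasFDerivAt.comp_hasDerivAt t (h.hasDerivAt_poly z P t))
        exact this.hasDerivWithinAt
      · intro t ht
        have ht' : t ∈ Set.Icc (0 : ℝ) 1 := ⟨ht.1, ht.2.le⟩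
        have e1 : tau ξ (Polynomial.aeval (at1 T z t) (Polynomial.derivative P) * atd T z t)
            = tau ξ ((Polynomial.aeval (at1 T z t) (Polynomial.derivative P)
              - Bt T z t * star (Bt T z t)) * atd T z t) := by
          rw [sub_mul, map_sub, h.key_zero hz ht', sub_zero]
        rw [e1, Real.norm_eq_abs]
        refine (Complex.abs_re_le_norm _).trans ((norm_tau_le h.nrm _).trans
          ((norm_mul_le _ _).trans ?_))
        have e2 : ‖Polynomial.aeval (at1 T z t) (Polynomial.derivative P)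
              - Bt T z t * star (Bt T z t)‖ ≤ δ := by
          rw [← h.cfc_inv hz ht', ← cfc_polynomial _ (at1 T z t) (at1_sa z t)]
          have hc : ContinuousOn (fun x : ℝ => x⁻¹) (spectrum ℝ (at1 T z t)) :=
            continuousOn_inv₀.mono fun x hx => (hmpos.trans_le (hspec t ht' x hx).1).ne'
          rw [← cfc_sub _ _ (at1 T z t) (Polynomial.continuous _).continuousOn hc]
          exact norm_cfc_le hδ.le fun x hx => hP2 x (hspec t ht' x hx)
        exact mul_le_mul e2 (norm_atd_le z ht') (norm_nonneg _) hδ.le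
    have s3 : (tau ξ (Polynomial.aeval (at1 T z 0) P)).re = Real.log (‖z‖ ^ 2) := by
      have e0 : at1 T z 0 = algebraMap ℝ (H →L[ℂ] H) (‖z‖ ^ 2) := by
        unfold at1 At
        rw [Algebra.algebraMap_eq_smul_one]
        ext v
        simp only [Complex.ofReal_zero, zero_smul, zero_sub, star_neg, star_smul, star_one]
        simp only [neg_mul_neg, smul_mul_smul_comm, one_mul]
        rw [_root_.smul_apply, _root_.smul_apply]
        rw [one_apply_eq_self]
        rw [show (star z * z : ℂ) = ((‖z‖ ^ 2 : ℝ) : ℂ) by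
          rw [mul_comm]; exact_mod_cast Complex.mul_conj' z]
        rw [Complex.coe_smul]
      rw [e0, Polynomial.aeval_algebraMap_apply, Polynomial.aeval_def, Polynomial.eval₂_eq_eval_map]
      simp only [Algebra.algebraMap_self, Polynomial.map_id]
      rw [hP0, Algebra.algebraMap_eq_smul_one, tau_apply, _root_.smul_apply,
        one_apply_eq_self]
      rw [← Complex.coe_smul, inner_smul_right, inner_self_eq_norm_sq_to_K, h.nrm]
      simp
    have s1' := (Complex.abs_re_le_norm _).trans s1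
    rw [Complex.sub_re] at s1'
    rw [s3, Real.norm_eq_abs] at s2
    rw [mul_add]
    have := abs_add_le ((tau ξ (cfc Real.log (at1 T z 1))).re
      - (tau ξ (Polynomial.aeval (at1 T z 1) P)).re)
      ((tau ξ (Polynomial.aeval (at1 T z 1) P)).re - Real.log (‖z‖ ^ 2))
    rw [sub_add_sub_cancel] at this
    linarith
  by_contra hne
  have hpos : 0 < |(tau ξ (cfc Real.log (at1 T z 1))).re - Real.log (‖z‖ ^ 2)| :=
    abs_pos.2 (sub_ne_zero.2 hne)
  set D := |(tau ξ (cfc Real.log (at1 T z 1))).re - Real.log (‖z‖ ^ 2)| with hD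
  set C := (M - m) + 2 * ‖T‖ * (‖T‖ + ‖z‖) with hC
  have hC0 : 0 ≤ C := by
    have : 0 ≤ M - m := by linarith
    positivity
  have := key (D / (2 * (C + 1))) (by positivity)
  have h2 : D / (2 * (C + 1)) * C ≤ D / 2 := by
    rw [div_mul_eq_mul_div, div_le_div_iff₀ (by positivity) (by norm_num)]
    nlinarith
  linarith





lemma cfc_log_add (a : H →L[ℂ] H) (ha : 0 ≤ a) {ε : ℝ} (hε : 0 < ε) :
    cfc Real.log (a + ((ε : ℝ) : ℂ) • (1 : H →L[ℂ] H)) = cfc (fun x : ℝ => Real.log (x + ε)) a := by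
  have hsa : IsSelfAdjoint a := IsSelfAdjoint.of_nonneg ha
  have h1 : a + ((ε : ℝ) : ℂ) • (1 : H →L[ℂ] H) = cfc (fun x : ℝ => x + ε) a := by
    rw [cfc_add_const ε (fun x : ℝ => x) a, cfc_id' ℝ a, Algebra.algebraMap_eq_smul_one,
      Complex.coe_smul]
  have hpos : ∀ x ∈ spectrum ℝ a, 0 ≤ x := fun x hx => spectrum_nonneg_of_nonneg ha hx
  have hcont : ContinuousOn Real.log ((fun x : ℝ => x + ε) '' spectrum ℝ a) := by
    refine Real.continuousOn_log.mono ?_
    rintro _ ⟨x, hx, rfl⟩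
    have := hpos x hx
    simp only [Set.mem_compl_iff, Set.mem_singleton_iff]
    positivity
  rw [h1, ← cfc_comp' Real.log (fun x : ℝ => x + ε) a hcont]

lemma tau_re_mono {X Y : H →L[ℂ] H} (h : X ≤ Y) : (tau ξ X).re ≤ (tau ξ Y).re := by
  rw [ContinuousLinearMap.le_def] at h
  have h1 := h.re_inner_nonneg_right ξ
  rw [sub_apply, inner_sub_right] at h1
  simpa [tau_apply] using h1

theorem Tr.det (h : Tr ξ T T') {z : ℂ} (hz : z ≠ 0) :
    Crest.AnalysisR.ProductShift.vectorDet ξ (T - z • (1 : H →L[ℂ] H)) = ‖z‖ := by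
  have hzpos : 0 < ‖z‖ := norm_pos_iff.2 hz
  have hA : T - z • (1 : H →L[ℂ] H) = At T z 1 := by unfold At; simp
  unfold Crest.AnalysisR.ProductShift.vectorDet
  rw [hA]
  have hterm : ∀ ε : {r : ℝ // 0 < r},
      Real.exp (RCLike.re (inner ℂ ξ
        (cfc Real.log (star (At T z 1) * (At T z 1) + ((ε : ℝ) : ℂ) • (1 : H →L[ℂ] H)) ξ)) / 2)
      = Real.exp ((tau ξ (cfc (fun x : ℝ => Real.log (x + ε)) (at1 T z 1))).re / 2) := by
    intro ε
    rw [← cfc_log_add _ (at1_nonneg z 1) ε.2]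
    rfl
  simp only [hterm]
  have h01 : (1 : ℝ) ∈ Set.Icc (0 : ℝ) 1 := ⟨zero_le_one, le_refl _⟩
  have hKb := h.Kb_pos hz
  set m : ℝ := (Kb T z)⁻¹ ^ 2 with hm
  have hmpos : 0 < m := by positivity
  have hspec : ∀ x ∈ spectrum ℝ (at1 T z 1), m ≤ x := fun x hx => h.spec_lower hz h01 hx
  have hc0 : ContinuousOn Real.log (spectrum ℝ (at1 T z 1)) :=
    Real.continuousOn_log.mono fun x hx => (hmpos.trans_le (hspec x hx)).ne'
  have hcε : ∀ ε : ℝ, 0 < ε →
      ContinuousOn (fun x : ℝ => Real.log (x + ε)) (spectrum ℝ (at1 T z 1)) := by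
    intro ε hε
    refine ContinuousOn.log (by fun_prop) fun x hx => ?_
    have : 0 < x := hmpos.trans_le (hspec x hx)
    positivity
  have hlow : ∀ ε : {r : ℝ // 0 < r}, ‖z‖ ≤
      Real.exp ((tau ξ (cfc (fun x : ℝ => Real.log (x + ε)) (at1 T z 1))).re / 2) := by
    intro ε
    have h1 : (tau ξ (cfc Real.log (at1 T z 1))).re ≤
        (tau ξ (cfc (fun x : ℝ => Real.log (x + ε)) (at1 T z 1))).re := by
      refine tau_re_mono (cfc_mono (fun x hx => ?_) hc0 (hcε ε ε.2))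
      have := hspec x hx
      exact Real.log_le_log (by linarith) (by linarith [ε.2])
    rw [h.main hz, Real.log_pow] at h1
    push_cast at h1
    calc ‖z‖ = Real.exp (Real.log ‖z‖) := (Real.exp_log hzpos).symm
      _ ≤ _ := Real.exp_le_exp.2 (by linarith)
  have hup : ∀ ε : {r : ℝ // 0 < r},
      Real.exp ((tau ξ (cfc (fun x : ℝ => Real.log (x + ε)) (at1 T z 1))).re / 2) ≤
        ‖z‖ * Real.exp (ε / (2 * m)) := by
    intro ε
    have h1 : ‖tau ξ (cfc (fun x : ℝ => Real.log (x + ε)) (at1 T z 1))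
        - tau ξ (cfc Real.log (at1 T z 1))‖ ≤ ε / m := by
      rw [← map_sub, ← cfc_sub _ _ (at1 T z 1) (hcε ε ε.2) hc0]
      refine (norm_tau_le h.nrm _).trans (norm_cfc_le (by have := ε.2; positivity) fun x hx => ?_)
      have hxm := hspec x hx
      have hxpos : 0 < x := hmpos.trans_le hxm
      have hε := ε.2
      rw [← Real.log_div (by positivity) (by positivity), Real.norm_eq_abs, abs_of_nonneg]
      · have : Real.log ((x + ε) / x) ≤ (x + ε) / x - 1 := Real.log_le_sub_one_of_pos (by positivity)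
        refine this.trans ?_
        rw [add_div, div_self hxpos.ne', add_sub_cancel_left]
        gcongr
      · apply Real.log_nonneg
        rw [le_div_iff₀ hxpos]
        linarith
    have h2 := (Complex.abs_re_le_norm _).trans h1
    rw [Complex.sub_re, h.main hz, Real.log_pow, abs_le] at h2
    push_cast at h2
    calc _ ≤ Real.exp (Real.log ‖z‖ + ε / (2 * m)) := by
            apply Real.exp_le_exp.2
            have h3 : (ε : ℝ) / (2 * m) = (ε : ℝ) / m / 2 := by field_simp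
            rw [h3]
            linarith [h2.2]
      _ = _ := by rw [Real.exp_add, Real.exp_log hzpos]
  have hne : Nonempty {r : ℝ // 0 < r} := ⟨⟨1, one_pos⟩⟩
  have hbdd : BddBelow (Set.range fun ε : {r : ℝ // 0 < r} =>
      Real.exp ((tau ξ (cfc (fun x : ℝ => Real.log (x + ε)) (at1 T z 1))).re / 2)) :=
    ⟨0, by rintro _ ⟨ε, rfl⟩; positivity⟩
  refine le_antisymm ?_ (le_ciInf hlow)
  have hlim : Filter.Tendsto (fun ε : ℝ => ‖z‖ * Real.exp (ε / (2 * m)))
      (nhdsWithin 0 (Set.Ioi 0)) (nhds (‖z‖ * Real.exp (0 / (2 * m)))) := by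
    apply Filter.Tendsto.mono_left _ nhdsWithin_le_nhds
    apply Continuous.tendsto
    fun_prop
  rw [zero_div, Real.exp_zero, mul_one] at hlim
  refine ge_of_tendsto hlim ?_
  filter_upwards [self_mem_nhdsWithin] with ε hε
  exact (ciInf_le hbdd ⟨ε, hε⟩).trans (hup ⟨ε, hε⟩)





/-! ### the value at zero -/

lemma integrable_log {Ω : Type*} [MeasurableSpace Ω] (μ : Measure Ω) [IsProbabilityMeasure μ]
    {f : Ω → ℝ} (hf : Measurable f) (h0 : ∀ x, 0 ≤ f x) (h1 : ∀ x, f x ≤ 1) {ε : ℝ} (hε : 0 < ε) :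
    Integrable (fun x => Real.log (f x ^ 2 + ε)) μ := by
  refine Integrable.of_bound (C := max |Real.log ε| |Real.log (1 + ε)|)
    ((hf.pow_const 2).add_const ε).log.aestronglyMeasurable (Filter.Eventually.of_forall fun x => ?_)
  rw [Real.norm_eq_abs]
  refine abs_le_max_abs_abs ?_ ?_
  · exact Real.log_le_log hε (by nlinarith [h0 x])
  · exact Real.log_le_log (by have := h0 x; positivity) (by nlinarith [h0 x, h1 x])

lemma exists_small {Ω : Type*} [MeasurableSpace Ω] (μ : Measure Ω) [IsProbabilityMeasure μ]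
    {f : Ω → ℝ} (hf : Measurable f) (h0 : ∀ x, 0 ≤ f x) (h1 : ∀ x, f x ≤ 1)
    (hpos : ∀ᵐ x ∂μ, 0 < f x)
    (hlog : ∫⁻ x, ENNReal.ofReal (-Real.log (f x)) ∂μ = ⊤) (K : ℝ) :
    ∃ ε : ℝ, 0 < ε ∧ ∫ x, Real.log (f x ^ 2 + ε) ∂μ ≤ -K := by
  have hεpos : ∀ n : ℕ, (0 : ℝ) < 1 / ((n : ℝ) + 1) := fun n => by positivity
  have hmeas : ∀ n : ℕ, Measurable
      (fun x => ENNReal.ofReal (-Real.log (f x ^ 2 + 1 / ((n : ℝ) + 1)) / 2)) := by
    intro n
    exact ENNReal.measurable_ofReal.comp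
      ((((hf.pow_const 2).add_const _).log).neg.div_const 2)
  have hlim : Filter.Tendsto
      (fun n : ℕ => ∫⁻ x, ENNReal.ofReal (-Real.log (f x ^ 2 + 1 / ((n : ℝ) + 1)) / 2) ∂μ)
      Filter.atTop (nhds (∫⁻ x, ENNReal.ofReal (-Real.log (f x)) ∂μ)) := by
    refine lintegral_tendsto_of_tendsto_of_monotone (fun n => (hmeas n).aemeasurable) ?_ ?_
    · filter_upwards [hpos] with x hx
      intro n n' hnn
      apply ENNReal.ofReal_le_ofReal
      have h2 : (1 : ℝ) / ((n' : ℝ) + 1) ≤ 1 / ((n : ℝ) + 1) := by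
        apply one_div_le_one_div_of_le (by positivity)
        have : (n : ℝ) ≤ n' := by exact_mod_cast hnn
        linarith
      have h3 : Real.log (f x ^ 2 + 1 / ((n' : ℝ) + 1)) ≤ Real.log (f x ^ 2 + 1 / ((n : ℝ) + 1)) := by
        apply Real.log_le_log
        · have := hεpos n'
          positivity
        · linarith
      linarith
    · filter_upwards [hpos] with x hx
      have h2 : Filter.Tendsto (fun n : ℕ => f x ^ 2 + 1 / ((n : ℝ) + 1)) Filter.atTop
          (nhds (f x ^ 2 + 0)) :=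
        tendsto_const_nhds.add tendsto_one_div_add_atTop_nhds_zero_nat
      rw [add_zero] at h2
      have h3 := (h2.log (by positivity)).neg.div_const 2
      have h4 : -Real.log (f x ^ 2) / 2 = - Real.log (f x) := by
        rw [Real.log_pow]; push_cast; ring
      rw [h4] at h3
      exact (ENNReal.continuous_ofReal.tendsto _).comp h3
  rw [hlog] at hlim
  have hev := (hlim.eventually (lt_mem_nhds (ENNReal.ofReal_lt_top (r := (|K| + 1) / 2)))).exists
  obtain ⟨n, hn⟩ := hev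
  refine ⟨1 / ((n : ℝ) + 1), hεpos n, ?_⟩
  have hε1 : 1 / ((n : ℝ) + 1) ≤ 1 := by
    rw [div_le_one (by positivity)]
    have : (0 : ℝ) ≤ n := Nat.cast_nonneg n
    linarith
  set ε := 1 / ((n : ℝ) + 1) with hε
  have hεp : 0 < ε := hεpos n
  have hint := integrable_log μ hf h0 h1 hεp
  set hfun : Ω → ℝ := fun x => (-Real.log (f x ^ 2 + ε) + 1) / 2 with hhfun
  have hintf : Integrable hfun μ := (hint.neg.add (integrable_const 1)).div_const 2
  have hnn : ∀ x, 0 ≤ hfun x := by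
    intro x
    have : Real.log (f x ^ 2 + ε) ≤ f x ^ 2 + ε - 1 :=
      Real.log_le_sub_one_of_pos (by have := h0 x; positivity)
    have h3 : f x ^ 2 ≤ 1 := by nlinarith [h0 x, h1 x]
    simp only [hhfun]
    linarith
  have h5 : ENNReal.ofReal (∫ x, hfun x ∂μ) = ∫⁻ x, ENNReal.ofReal (hfun x) ∂μ :=
    ofReal_integral_eq_lintegral_ofReal hintf (Filter.Eventually.of_forall hnn)
  have h6 : ∫⁻ x, ENNReal.ofReal (-Real.log (f x ^ 2 + ε) / 2) ∂μ
      ≤ ENNReal.ofReal (∫ x, hfun x ∂μ) := by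
    rw [h5]
    refine lintegral_mono fun x => ENNReal.ofReal_le_ofReal ?_
    simp only [hhfun]
    linarith
  have h7 := hn.trans_le h6
  have h8 : (|K| + 1) / 2 < ∫ x, hfun x ∂μ := by
    by_contra hcon
    exact absurd h7 (not_lt.2 (ENNReal.ofReal_le_ofReal (not_lt.1 hcon)))
  have h9 : ∫ x, hfun x ∂μ = (-(∫ x, Real.log (f x ^ 2 + ε) ∂μ) + 1) / 2 := by
    simp only [hhfun]
    rw [integral_div, integral_add (by exact hint.neg) (integrable_const 1), integral_neg]
    simp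
  rw [h9] at h8
  have := le_abs_self K
  linarith

theorem det_zero {Ω : Type*} [MeasurableSpace Ω] (μ : Measure Ω) [IsProbabilityMeasure μ]
    {f : Ω → ℝ} (hf : Measurable f) (h0 : ∀ x, 0 ≤ f x) (h1 : ∀ x, f x ≤ 1)
    (hpos : ∀ᵐ x ∂μ, 0 < f x)
    (hlog : ∫⁻ x, ENNReal.ofReal (-Real.log (f x)) ∂μ = ⊤)
    (hξ : ‖ξ‖ = 1) (hT : ‖T‖ ≤ 1)
    (hmom : ∀ n : ℕ, tau ξ ((star T * T) ^ n) = ∫ x, (((f x ^ 2) ^ n : ℝ) : ℂ) ∂μ) :
    Crest.AnalysisR.ProductShift.vectorDet ξ T = 0 := by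
  set a := star T * T with ha
  have ha0 : 0 ≤ a := star_mul_self_nonneg _
  have hsa : IsSelfAdjoint a := IsSelfAdjoint.of_nonneg ha0
  have hfm : ∀ n : ℕ, Integrable (fun x => (((f x ^ 2) ^ n : ℝ) : ℂ)) μ := by
    intro n
    refine Integrable.of_bound (C := 1) ?_ (Filter.Eventually.of_forall fun x => ?_)
    · exact (Complex.measurable_ofReal.comp ((hf.pow_const 2).pow_const n)).aestronglyMeasurable
    · rw [Complex.norm_real, Real.norm_eq_abs, abs_of_nonneg (by have := h0 x; positivity)]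
      exact pow_le_one₀ (by positivity) (pow_le_one₀ (h0 x) (h1 x))
  have hpoly : ∀ p : Polynomial ℝ, Integrable (fun x => ((p.eval (f x ^ 2) : ℝ) : ℂ)) μ ∧
      tau ξ (Polynomial.aeval a p) = ∫ x, ((p.eval (f x ^ 2) : ℝ) : ℂ) ∂μ := by
    intro p
    induction p using Polynomial.induction_on' with
    | add p q hp hq =>
      simp only [map_add, Polynomial.eval_add, Complex.ofReal_add]
      refine ⟨hp.1.add hq.1, ?_⟩
      rw [integral_add hp.1 hq.1, hp.2, hq.2]
    | monomial n c =>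
      simp only [Polynomial.eval_monomial, Polynomial.aeval_monomial, Complex.ofReal_mul,
        Algebra.algebraMap_eq_smul_one, smul_mul_assoc, one_mul]
      refine ⟨(hfm n).const_mul _, ?_⟩
      have : (c • a ^ n : H →L[ℂ] H) = (c : ℂ) • a ^ n := by ext; simp
      rw [this, map_smul, hmom n, smul_eq_mul, ← integral_const_mul]
  have hspec : ∀ x ∈ spectrum ℝ a, x ∈ Set.Icc (0 : ℝ) 1 := by
    intro x hx
    refine ⟨spectrum_nonneg_of_nonneg ha0 hx, ?_⟩
    have h3 := spectrum.norm_le_norm_mul_of_mem hx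
    have h2 : ‖a‖ ≤ 1 := by
      rw [ha, CStarRing.norm_star_mul_self]
      nlinarith [norm_nonneg T]
    calc x ≤ ‖x‖ := Real.le_norm_self x
      _ ≤ ‖a‖ * ‖(1 : H →L[ℂ] H)‖ := h3
      _ ≤ 1 * 1 := by gcongr; exact norm_one_le'
      _ = _ := mul_one _
  have hval : ∀ ε : ℝ, 0 < ε → (tau ξ (cfc (fun x : ℝ => Real.log (x + ε)) a)).re =
      ∫ x, Real.log (f x ^ 2 + ε) ∂μ := by
    intro ε hε
    have hc : ContinuousOn (fun x : ℝ => Real.log (x + ε)) (Set.Icc 0 1) := by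
      refine ContinuousOn.log (by fun_prop) fun x hx => ?_
      have := hx.1
      positivity
    have hint := integrable_log μ hf h0 h1 hε
    have key : ∀ δ : ℝ, 0 < δ → |(tau ξ (cfc (fun x : ℝ => Real.log (x + ε)) a)).re -
      ∫ x, Real.log (f x ^ 2 + ε) ∂μ| ≤ 2 * δ := by
      intro δ hδ
      obtain ⟨p, hp⟩ := exists_polynomial_near_of_continuousOn 0 1 _ hc δ hδ
      have s1 : ‖tau ξ (cfc (fun x : ℝ => Real.log (x + ε)) a) - tau ξ (Polynomial.aeval a p)‖
          ≤ δ := by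
        rw [← map_sub, ← cfc_polynomial p a hsa,
          ← cfc_sub _ _ a (hc.mono hspec) p.continuous.continuousOn]
        refine (norm_tau_le hξ _).trans (norm_cfc_le hδ.le fun x hx => ?_)
        rw [Real.norm_eq_abs, abs_sub_comm]
        exact (hp x (hspec x hx)).le
      have s1' := (Complex.abs_re_le_norm _).trans s1
      rw [Complex.sub_re] at s1'
      have hpr : Integrable (fun x => p.eval (f x ^ 2)) μ := by
        have := (hpoly p).1.re
        simpa using this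
      have s2 : (tau ξ (Polynomial.aeval a p)).re = ∫ x, p.eval (f x ^ 2) ∂μ := by
        rw [(hpoly p).2, integral_complex_ofReal, Complex.ofReal_re]
      have s3 : |∫ x, p.eval (f x ^ 2) ∂μ - ∫ x, Real.log (f x ^ 2 + ε) ∂μ| ≤ δ := by
        rw [← integral_sub hpr hint]
        have := norm_integral_le_of_norm_le_const (μ := μ) (C := δ)
          (f := fun x => p.eval (f x ^ 2) - Real.log (f x ^ 2 + ε))
          (Filter.Eventually.of_forall fun x => by
            rw [Real.norm_eq_abs]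
            exact (hp (f x ^ 2) ⟨by positivity, pow_le_one₀ (h0 x) (h1 x)⟩).le)
        simpa using this
      rw [s2] at s1'
      have := abs_add_le ((tau ξ (cfc (fun x : ℝ => Real.log (x + ε)) a)).re -
        ∫ x, p.eval (f x ^ 2) ∂μ) (∫ x, p.eval (f x ^ 2) ∂μ - ∫ x, Real.log (f x ^ 2 + ε) ∂μ)
      rw [sub_add_sub_cancel] at this
      linarith
    by_contra hne
    have hpos' : 0 < |(tau ξ (cfc (fun x : ℝ => Real.log (x + ε)) a)).re -
      ∫ x, Real.log (f x ^ 2 + ε) ∂μ| := abs_pos.2 (sub_ne_zero.2 hne)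
    have := key (|(tau ξ (cfc (fun x : ℝ => Real.log (x + ε)) a)).re -
      ∫ x, Real.log (f x ^ 2 + ε) ∂μ| / 4) (by positivity)
    linarith
  unfold Crest.AnalysisR.ProductShift.vectorDet
  have hterm : ∀ ε : {r : ℝ // 0 < r},
      Real.exp (RCLike.re (inner ℂ ξ
        (cfc Real.log (star T * T + ((ε : ℝ) : ℂ) • (1 : H →L[ℂ] H)) ξ)) / 2)
      = Real.exp ((∫ x, Real.log (f x ^ 2 + ε) ∂μ) / 2) := by
    intro ε
    rw [cfc_log_add _ ha0 ε.2, ← hval ε ε.2]
    rfl
  simp only [hterm]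
  have hbdd : BddBelow (Set.range fun ε : {r : ℝ // 0 < r} =>
      Real.exp ((∫ x, Real.log (f x ^ 2 + ε) ∂μ) / 2)) :=
    ⟨0, by rintro _ ⟨ε, rfl⟩; positivity⟩
  refine le_antisymm ?_ (Real.iInf_nonneg fun ε => (Real.exp_pos _).le)
  refine le_of_forall_pos_le_add fun η hη => ?_
  rw [zero_add]
  obtain ⟨ε, hε, hε'⟩ := exists_small μ hf h0 h1 hpos hlog (-2 * Real.log η)
  refine (ciInf_le hbdd ⟨ε, hε⟩).trans ?_
  calc Real.exp ((∫ x, Real.log (f x ^ 2 + ε) ∂μ) / 2) ≤ Real.exp (Real.log η) :=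
        Real.exp_le_exp.2 (by linarith)
    _ = η := Real.exp_log hη

end Abstract



/-! ### weighted composition operators on `L²` -/

section WCO

variable {X : Type*} [MeasurableSpace X] {π : Measure X}

/-- `A` is the weighted composition operator `g ↦ φ · (g ∘ e)`. -/
def IsWCO (π : Measure X) (A : Lp ℂ 2 π →L[ℂ] Lp ℂ 2 π) (φ : X → ℂ) (e : X → X) : Prop :=
  ∀ g : Lp ℂ 2 π, (A g : X → ℂ) =ᵐ[π] fun p => φ p * (g : X → ℂ) (e p)

lemma wco_memLp {φ : X → ℂ} (hφ : AEStronglyMeasurable φ π) (hb : ∀ x, ‖φ x‖ ≤ 1)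
    {e : X → X} (he : MeasurePreserving e π π) (g : Lp ℂ 2 π) :
    MemLp (fun x => φ x * (g : X → ℂ) (e x)) 2 π := by
  have h1 : MemLp ((g : X → ℂ) ∘ e) 2 π := (Lp.memLp g).comp_measurePreserving he
  refine h1.of_le (hφ.mul h1.1) (Filter.Eventually.of_forall fun x => ?_)
  rw [norm_mul]
  calc ‖φ x‖ * ‖(g : X → ℂ) (e x)‖ ≤ 1 * ‖(g : X → ℂ) (e x)‖ := by
        gcongr; exact hb x
    _ = _ := by rw [one_mul]; rfl

/-- construction of weighted composition operators -/
noncomputable def wco {φ : X → ℂ} (hφ : AEStronglyMeasurable φ π) (hb : ∀ x, ‖φ x‖ ≤ 1)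
    {e : X → X} (he : MeasurePreserving e π π) : Lp ℂ 2 π →L[ℂ] Lp ℂ 2 π :=
  LinearMap.mkContinuous
    { toFun := fun g => (wco_memLp hφ hb he g).toLp _
      map_add' := by
        intro g h
        rw [← MemLp.toLp_add]
        apply MemLp.toLp_congr
        have := he.quasiMeasurePreserving.ae_eq_comp (Lp.coeFn_add g h)
        filter_upwards [this] with x hx
        simp only [Function.comp_apply, Pi.add_apply] at hx ⊢
        rw [hx, mul_add]
      map_smul' := by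
        intro c g
        rw [RingHom.id_apply, ← MemLp.toLp_const_smul]
        apply MemLp.toLp_congr
        have := he.quasiMeasurePreserving.ae_eq_comp (Lp.coeFn_smul c g)
        filter_upwards [this] with x hx
        simp only [Function.comp_apply, Pi.smul_apply] at hx ⊢
        rw [hx, smul_eq_mul, smul_eq_mul]
        ring } 1 (by
      intro g
      rw [one_mul, ← Lp.norm_compMeasurePreserving g he]
      refine Lp.norm_le_norm_of_ae_le ?_
      filter_upwards [(wco_memLp hφ hb he g).coeFn_toLp, Lp.coeFn_compMeasurePreserving g he]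
        with x hx1 hx2
      simp only [LinearMap.coe_mk, AddHom.coe_mk]
      rw [hx1, hx2, norm_mul]
      calc ‖φ x‖ * ‖(g : X → ℂ) (e x)‖ ≤ 1 * ‖(g : X → ℂ) (e x)‖ := by
            gcongr; exact hb x
        _ = _ := by rw [one_mul]; rfl)

lemma wco_isWCO {φ : X → ℂ} (hφ : AEStronglyMeasurable φ π) (hb : ∀ x, ‖φ x‖ ≤ 1)
    {e : X → X} (he : MeasurePreserving e π π) : IsWCO π (wco hφ hb he) φ e :=
  fun g => (wco_memLp hφ hb he g).coeFn_toLp

lemma IsWCO.mul {A B : Lp ℂ 2 π →L[ℂ] Lp ℂ 2 π} {φ ψ : X → ℂ} {e e' : X → X}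
    (hA : IsWCO π A φ e) (hB : IsWCO π B ψ e') (he : MeasurePreserving e π π) :
    IsWCO π (A * B) (fun p => φ p * ψ (e p)) (e' ∘ e) := by
  intro g
  have h1 := hA (B g)
  have h2 := he.quasiMeasurePreserving.ae_eq_comp (hB g)
  filter_upwards [h1, h2] with x hx1 hx2
  rw [mul_apply_eq_comp, hx1]
  simp only [Function.comp_apply] at hx2 ⊢
  rw [hx2, mul_assoc]

lemma IsWCO.ext {A B : Lp ℂ 2 π →L[ℂ] Lp ℂ 2 π} {φ ψ : X → ℂ} {e e' : X → X}
    (hA : IsWCO π A φ e) (hB : IsWCO π B ψ e') (h1 : φ = ψ) (h2 : e = e') : A = B := by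
  subst h1; subst h2
  ext1 g
  apply Lp.ext
  exact (hA g).trans (hB g).symm

lemma IsWCO.one : IsWCO π (1 : Lp ℂ 2 π →L[ℂ] Lp ℂ 2 π) (fun _ => 1) id := by
  intro g
  filter_upwards with x
  simp

lemma IsWCO.pow {A : Lp ℂ 2 π →L[ℂ] Lp ℂ 2 π} {φ : X → ℂ} {e : X → X}
    (hA : IsWCO π A φ e) (he : MeasurePreserving e π π) (n : ℕ) :
    IsWCO π (A ^ n) (fun p => ∏ j ∈ Finset.range n, φ (e^[j] p)) (e^[n]) := by
  induction n with
  | zero =>
    simpa using! (IsWCO.one (π := π))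
  | succ n ih =>
    have h1 := ih.mul hA (he.iterate n)
    rw [← pow_succ] at h1
    intro g
    filter_upwards [h1 g] with x hx
    rw [hx, Finset.prod_range_succ, Function.iterate_succ']

lemma IsWCO.norm_le {A : Lp ℂ 2 π →L[ℂ] Lp ℂ 2 π} {φ : X → ℂ} {e : X → X}
    (hA : IsWCO π A φ e) (he : MeasurePreserving e π π) {C : ℝ} (hC : 0 ≤ C)
    (hφ : ∀ x, ‖φ x‖ ≤ C) : ‖A‖ ≤ C := by
  refine A.opNorm_le_bound hC fun g => ?_
  rw [← Lp.norm_compMeasurePreserving g he]
  refine Lp.norm_le_mul_norm_of_ae_le_mul ?_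
  filter_upwards [hA g, Lp.coeFn_compMeasurePreserving g he] with x hx1 hx2
  rw [hx1, hx2, norm_mul]
  simp only [Function.comp_apply]
  gcongr
  exact hφ x

lemma IsWCO.adjoint {A B : Lp ℂ 2 π →L[ℂ] Lp ℂ 2 π} {φ ψ : X → ℂ} {e : X ≃ᵐ X}
    (hA : IsWCO π A φ e) (he : MeasurePreserving e π π)
    (hB : IsWCO π B ψ e.symm) (h : ∀ p, ψ (e p) = starRingEnd ℂ (φ p)) :
    star A = B := by
  rw [ContinuousLinearMap.star_eq_adjoint]
  symm
  rw [ContinuousLinearMap.eq_adjoint_iff]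
  intro x y
  rw [L2.inner_def, L2.inner_def]
  have h1 : ∫ a, inner ℂ ((B x : X → ℂ) a) ((y : X → ℂ) a) ∂π
      = ∫ a, inner ℂ (ψ a * (x : X → ℂ) (e.symm a)) ((y : X → ℂ) a) ∂π := by
    apply integral_congr_ae
    filter_upwards [hB x] with a ha
    rw [ha]
  have h2 : ∫ a, inner ℂ ((x : X → ℂ) a) ((A y : X → ℂ) a) ∂π
      = ∫ a, inner ℂ ((x : X → ℂ) a) (φ a * (y : X → ℂ) (e a)) ∂π := by
    apply integral_congr_ae
    filter_upwards [hA y] with a ha
    rw [ha]
  rw [h1, h2, ← he.integral_comp' (g := fun a => inner ℂ (ψ a * (x : X → ℂ) (e.symm a))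
    ((y : X → ℂ) a))]
  apply integral_congr_ae
  filter_upwards with a
  simp only [MeasurableEquiv.symm_apply_apply, h, RCLike.inner_apply, map_mul,
    Complex.conj_conj]
  ring

end WCO



/-! ### the concrete space -/

section Concrete

open Crest.AnalysisR.ProductShift

variable (θ c : ℕ → ℝ)

lemma orbit_comp (k l : ℤ) (x : ℕ → ℝ) :
    orbitPoint θ k (orbitPoint θ l x) = orbitPoint θ (k + l) x := by
  funext i
  unfold orbitPoint
  rw [Int.fract_eq_fract]
  refine ⟨-⌊x i + (l : ℝ) * θ i⌋, ?_⟩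
  have := Int.fract_add_floor (x i + (l : ℝ) * θ i)
  push_cast
  linarith

lemma measurable_orbit (k : ℤ) : Measurable (orbitPoint θ k) := by
  unfold orbitPoint
  refine measurable_pi_lambda _ fun i => ?_
  exact measurable_fract.comp ((measurable_pi_apply i).add_const _)

lemma measurable_dropCost : Measurable (dropCost θ c) := by
  unfold dropCost
  refine Measurable.ennreal_tsum fun i => ?_
  refine ENNReal.measurable_ofReal.comp (Measurable.const_mul ?_ _)
  have h1 : Measurable (fun x : ℕ → ℝ => ⌊x i + θ i⌋) :=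
    Int.measurable_floor.comp ((measurable_pi_apply i).add_const _)
  exact (measurable_from_top (f := fun n : ℤ => (n : ℝ))).comp h1

lemma measurable_weight : Measurable (weight θ c) := by
  unfold weight
  refine Measurable.ite ?_ measurable_const ?_
  · exact measurable_dropCost θ c (measurableSet_singleton _)
  · exact Real.measurable_exp.comp (measurable_dropCost θ c).ennreal_toReal.neg

lemma weight_nonneg (x : ℕ → ℝ) : 0 ≤ weight θ c x := by
  unfold weight
  split_ifs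
  · exact le_refl _
  · positivity

lemma weight_le_one (x : ℕ → ℝ) : weight θ c x ≤ 1 := by
  unfold weight
  split_ifs
  · exact zero_le_one
  · rw [Real.exp_le_one_iff]
    simp

lemma rot_one (a : ℝ) :
    unitLebesgue.map (fun t => Int.fract (t + a)) = unitLebesgue := by
  have hm : Measurable (fun t : ℝ => Int.fract (t + a)) :=
    measurable_fract.comp (measurable_id.add_const a)
  ext S hS
  rw [Measure.map_apply hm hS]
  unfold unitLebesgue
  rw [Measure.restrict_apply (hm hS), Measure.restrict_apply hS]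
  set b := Int.fract a with hb
  have hb0 : 0 ≤ b := Int.fract_nonneg a
  have hb1 : b < 1 := Int.fract_lt_one a
  have hfr : ∀ t : ℝ, Int.fract (t + a) = Int.fract (t + b) := by
    intro t
    rw [Int.fract_eq_fract]
    exact ⟨⌊a⌋, by rw [hb, Int.fract]; ring⟩
  have e1 : (fun t : ℝ => Int.fract (t + a)) ⁻¹' S ∩ Set.Ico (0 : ℝ) 1 =
      ((fun t : ℝ => t + b) ⁻¹' (S ∩ Set.Ico b 1)) ∪
      ((fun t : ℝ => t + (b - 1)) ⁻¹' (S ∩ Set.Ico 0 b)) := by
    ext t
    simp only [Set.mem_inter_iff, Set.mem_preimage, Set.mem_Ico, Set.mem_union, hfr]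
    constructor
    · rintro ⟨h1, h2, h3⟩
      by_cases h4 : t + b < 1
      · left
        have : Int.fract (t + b) = t + b := Int.fract_eq_self.2 ⟨by linarith, h4⟩
        rw [this] at h1
        exact ⟨h1, by linarith, h4⟩
      · right
        push Not at h4
        have : Int.fract (t + b) = t + (b - 1) := by
          rw [Int.fract_eq_iff]
          exact ⟨by linarith, by linarith, 1, by push_cast; ring⟩
        rw [this] at h1
        exact ⟨h1, by linarith, by linarith⟩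
    · rintro (⟨h1, h2, h3⟩ | ⟨h1, h2, h3⟩)
      · have : Int.fract (t + b) = t + b := Int.fract_eq_self.2 ⟨by linarith, h3⟩
        rw [this]
        exact ⟨h1, by linarith, by linarith⟩
      · have : Int.fract (t + b) = t + (b - 1) := by
          rw [Int.fract_eq_iff]
          exact ⟨by linarith, by linarith, 1, by push_cast; ring⟩
        rw [this]
        exact ⟨h1, by linarith, by linarith⟩
  have e2 : S ∩ Set.Ico (0 : ℝ) 1 = (S ∩ Set.Ico b 1) ∪ (S ∩ Set.Ico 0 b) := by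
    rw [← Set.inter_union_distrib_left, Set.union_comm, Set.Ico_union_Ico_eq_Ico hb0 hb1.le]
  have hd1 : Disjoint ((fun t : ℝ => t + b) ⁻¹' (S ∩ Set.Ico b 1))
      ((fun t : ℝ => t + (b - 1)) ⁻¹' (S ∩ Set.Ico 0 b)) := by
    rw [Set.disjoint_left]
    rintro t ⟨_, h2, h3⟩ ⟨_, h5, h6⟩
    linarith
  have hd2 : Disjoint (S ∩ Set.Ico b 1) (S ∩ Set.Ico 0 b) := by
    rw [Set.disjoint_left]
    rintro t ⟨_, h2, h3⟩ ⟨_, h5, h6⟩
    linarith
  have hm1 : MeasurableSet (S ∩ Set.Ico b 1) := hS.inter measurableSet_Ico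
  have hm2 : MeasurableSet (S ∩ Set.Ico 0 b) := hS.inter measurableSet_Ico
  rw [e1, e2, measure_union hd1 (measurable_id.add_const _ hm2), measure_union hd2 hm2,
    measure_preimage_add_right, measure_preimage_add_right]

lemma rot_cube (k : ℤ) : MeasurePreserving (orbitPoint θ k) cubeMeasure cubeMeasure := by
  refine ⟨measurable_orbit θ k, ?_⟩
  unfold cubeMeasure orbitPoint
  rw [Measure.infinitePi_map_pi (fun _ : ℕ => unitLebesgue)
    (f := fun i t => Int.fract (t + (k : ℝ) * θ i))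
    (fun i => measurable_fract.comp (measurable_id.add_const _))]
  congr 1
  funext i
  exact rot_one _

/-- the shift of the integer coordinate -/
def sh : ((ℕ → ℝ) × ℤ) ≃ᵐ ((ℕ → ℝ) × ℤ) where
  toFun p := (p.1, p.2 - 1)
  invFun p := (p.1, p.2 + 1)
  left_inv p := by simp
  right_inv p := by simp
  measurable_toFun := measurable_fst.prodMk (measurable_snd.sub_const 1)
  measurable_invFun := measurable_fst.prodMk (measurable_snd.add_const 1)

lemma sh_apply (p : (ℕ → ℝ) × ℤ) : sh p = (p.1, p.2 - 1) := rfl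

lemma sh_symm_apply (p : (ℕ → ℝ) × ℤ) : sh.symm p = (p.1, p.2 + 1) := rfl

lemma sh_mp : MeasurePreserving sh pairMeasure pairMeasure := by
  have h1 : MeasurePreserving (fun k : ℤ => k - 1) Measure.count Measure.count :=
    measurePreserving_sub_right _ 1
  exact (MeasurePreserving.id cubeMeasure).prod h1

/-- rotation combined with the shift -/
noncomputable def rt (p : (ℕ → ℝ) × ℤ) : (ℕ → ℝ) × ℤ := (orbitPoint θ 1 p.1, p.2 - 1)

lemma rt_mp : MeasurePreserving (rt θ) pairMeasure pairMeasure := by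
  have h1 : MeasurePreserving (fun k : ℤ => k - 1) Measure.count Measure.count :=
    measurePreserving_sub_right _ 1
  exact (rot_cube θ 1).prod h1

lemma sh_iterate (n : ℕ) (p : (ℕ → ℝ) × ℤ) : sh^[n] p = (p.1, p.2 - n) := by
  induction n generalizing p with
  | zero => simp
  | succ n ih =>
    rw [Function.iterate_succ_apply, ih, sh_apply]
    push_cast
    ext
    · rfl
    · simp only; ring

lemma integral_zero_fibre (F : (ℕ → ℝ) × ℤ → ℂ) (hF : Measurable F) :
    ∫ p, (if p.2 = 0 then F p else 0) ∂pairMeasure = ∫ x, F (x, 0) ∂cubeMeasure := by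
  have h1 : (fun p : (ℕ → ℝ) × ℤ => if p.2 = 0 then F p else 0)
      = Set.indicator ((Set.univ : Set (ℕ → ℝ)) ×ˢ {(0 : ℤ)}) F := by
    funext p
    by_cases hp : p.2 = 0
    · rw [if_pos hp, Set.indicator_of_mem]
      exact ⟨Set.mem_univ _, hp⟩
    · rw [if_neg hp, Set.indicator_of_notMem]
      exact fun h => hp h.2
  rw [h1, integral_indicator (MeasurableSet.univ.prod (measurableSet_singleton (0 : ℤ)))]
  unfold pairMeasure
  rw [← Measure.prod_restrict, Measure.restrict_univ, Measure.restrict_singleton,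
    Measure.count_singleton, one_smul, Measure.prod_dirac, integral_map]
  · exact (measurable_id.prodMk measurable_const).aemeasurable
  · exact hF.aestronglyMeasurable

lemma vac_ae : (vacuumVector : (ℕ → ℝ) × ℤ → ℂ) =ᵐ[pairMeasure]
    fun p => if p.2 = 0 then 1 else 0 := by
  unfold vacuumVector
  filter_upwards [indicatorConstLp_coeFn (p := 2) (μ := pairMeasure)
    (hs := (MeasurableSet.univ.prod (measurableSet_singleton (0 : ℤ)) :
      MeasurableSet ((Set.univ : Set (ℕ → ℝ)) ×ˢ {(0 : ℤ)})))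
    (hμs := (by
      rw [pairMeasure, Measure.prod_prod, measure_univ, Measure.count_singleton, one_mul]
      exact ENNReal.one_ne_top)) (c := (1 : ℂ))] with p hp
  rw [hp]
  by_cases h : p.2 = 0
  · rw [if_pos h, Set.indicator_of_mem]
    exact ⟨Set.mem_univ _, h⟩
  · rw [if_neg h, Set.indicator_of_notMem]
    exact fun h' => h h'.2

lemma vac_norm : ‖(vacuumVector : pairSpace)‖ = 1 := by
  unfold vacuumVector
  rw [norm_indicatorConstLp (by norm_num) (by norm_num)]
  unfold pairMeasure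
  simp [Measure.real, Measure.prod_prod]

lemma vac_comp_ae {e : (ℕ → ℝ) × ℤ → (ℕ → ℝ) × ℤ} (he : MeasurePreserving e pairMeasure pairMeasure) :
    (fun p => (vacuumVector : (ℕ → ℝ) × ℤ → ℂ) (e p)) =ᵐ[pairMeasure]
    fun p => if (e p).2 = 0 then 1 else 0 :=
  he.quasiMeasurePreserving.ae_eq_comp vac_ae

lemma tau_eq {A : pairSpace →L[ℂ] pairSpace} {φ : (ℕ → ℝ) × ℤ → ℂ}
    {e : (ℕ → ℝ) × ℤ → (ℕ → ℝ) × ℤ}
    (hA : IsWCO pairMeasure A φ e) (he : MeasurePreserving e pairMeasure pairMeasure)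
    (hφ : Measurable φ) :
    tau vacuumVector A = ∫ x, φ (x, 0) * (if (e (x, 0)).2 = 0 then 1 else 0) ∂cubeMeasure := by
  rw [tau_apply, L2.inner_def, ← integral_zero_fibre (fun p => φ p * (if (e p).2 = 0 then 1 else 0))]
  · apply integral_congr_ae
    filter_upwards [vac_ae, hA vacuumVector, vac_comp_ae he] with p h1 h2 h3
    rw [h2, h3, h1, RCLike.inner_apply]
    by_cases h : p.2 = 0
    · simp [h]
    · simp [h]
  · refine hφ.mul (Measurable.ite ?_ measurable_const measurable_const)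
    exact (measurable_snd.comp he.measurable) (measurableSet_singleton (0 : ℤ))


lemma floor_step (u θ : ℝ) : (⌊Int.fract u + θ⌋ : ℤ) = ⌊u + θ⌋ - ⌊u⌋ := by
  have h1 : Int.fract u + θ = (u + θ) - (⌊u⌋ : ℤ) := by
    rw [Int.fract]; ring
  rw [h1, Int.floor_sub_intCast]

lemma floor_sum (x θ : ℝ) (k : ℤ) (n : ℕ) :
    ∑ j ∈ Finset.range n, (⌊Int.fract (x + ((k - j - 1 : ℤ) : ℝ) * θ) + θ⌋ : ℤ)
      = ⌊x + (k : ℝ) * θ⌋ - ⌊x + ((k - n : ℤ) : ℝ) * θ⌋ := by
  induction n with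
  | zero => simp
  | succ n ih =>
    rw [Finset.sum_range_succ, ih, floor_step]
    have h1 : x + ((k - n - 1 : ℤ) : ℝ) * θ + θ = x + ((k - n : ℤ) : ℝ) * θ := by
      push_cast; ring
    have h2 : ((k - (n + 1 : ℕ) : ℤ) : ℝ) = ((k - n - 1 : ℤ) : ℝ) := by push_cast; ring
    rw [h1, h2]
    ring

lemma floor_sum_ge (x θ : ℝ) (k : ℤ) (n : ℕ) :
    (n : ℝ) * θ - 1 ≤
      ((∑ j ∈ Finset.range n, (⌊Int.fract (x + ((k - j - 1 : ℤ) : ℝ) * θ) + θ⌋ : ℤ) : ℤ) : ℝ) := by
  rw [floor_sum]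
  have h1 := Int.sub_one_lt_floor (x + (k : ℝ) * θ)
  have h2 := Int.floor_le (x + ((k - n : ℤ) : ℝ) * θ)
  push_cast at h2 ⊢
  linarith

variable {θ c}

lemma weight_le_partial (hθ : ∀ i, 0 < θ i ∧ θ i < 1) (hc : ∀ i, 0 ≤ c i) (m : ℕ)
    {y : ℕ → ℝ} (hy : ∀ i, 0 ≤ y i) :
    weight θ c y ≤ Real.exp (-∑ i ∈ Finset.range m, c i * (⌊y i + θ i⌋ : ℝ)) := by
  unfold weight
  split_ifs with h
  · positivity
  · apply Real.exp_le_exp.2
    apply neg_le_neg
    have hnn : ∀ i, 0 ≤ c i * (⌊y i + θ i⌋ : ℝ) := by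
      intro i
      apply mul_nonneg (hc i)
      have : 0 ≤ ⌊y i + θ i⌋ := Int.floor_nonneg.2 (by linarith [hy i, (hθ i).1])
      exact_mod_cast this
    rw [← ENNReal.ofReal_le_iff_le_toReal h]
    rw [ENNReal.ofReal_sum_of_nonneg (fun i _ => hnn i)]
    exact ENNReal.sum_le_tsum _

lemma prod_le (hθ : ∀ i, 0 < θ i ∧ θ i < 1) (hc : ∀ i, 0 ≤ c i) (m n : ℕ)
    (x : ℕ → ℝ) (k : ℤ) :
    ∏ j ∈ Finset.range n, weight θ c (orbitPoint θ (k - j - 1) x) ≤
      Real.exp (-∑ i ∈ Finset.range m, c i * (n * θ i - 1)) := by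
  have h1 : ∏ j ∈ Finset.range n, weight θ c (orbitPoint θ (k - j - 1) x) ≤
      ∏ j ∈ Finset.range n, Real.exp (-∑ i ∈ Finset.range m,
        c i * (⌊orbitPoint θ (k - j - 1) x i + θ i⌋ : ℝ)) := by
    refine Finset.prod_le_prod (fun j _ => weight_nonneg θ c _) fun j _ => ?_
    exact weight_le_partial hθ hc m fun i => Int.fract_nonneg _
  refine h1.trans ?_
  rw [← Real.exp_sum]
  apply Real.exp_le_exp.2
  rw [Finset.sum_neg_distrib]
  apply neg_le_neg
  rw [Finset.sum_comm]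
  refine Finset.sum_le_sum fun i _ => ?_
  rw [← Finset.mul_sum]
  apply mul_le_mul_of_nonneg_left _ (hc i)
  have := floor_sum_ge (x i) (θ i) k n
  rw [Int.cast_sum] at this
  exact this

lemma int_drop (hθ : ∀ i, 0 < θ i ∧ θ i < 1) (hc : ∀ i, 0 ≤ c i) (i : ℕ) :
    ∫⁻ x, ENNReal.ofReal (c i * (⌊x i + θ i⌋ : ℝ)) ∂cubeMeasure ≤
      ENNReal.ofReal (c i * θ i) := by
  have hmf : Measurable (fun t : ℝ => ENNReal.ofReal (c i * (⌊t + θ i⌋ : ℝ))) := by
    refine ENNReal.measurable_ofReal.comp (Measurable.const_mul ?_ _)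
    have h1 : Measurable (fun t : ℝ => ⌊t + θ i⌋) := Int.measurable_floor.comp (measurable_id.add_const _)
    exact (measurable_from_top (f := fun n : ℤ => (n : ℝ))).comp h1
  have h0 : ∫⁻ x, ENNReal.ofReal (c i * (⌊x i + θ i⌋ : ℝ)) ∂cubeMeasure
      = ∫⁻ t, ENNReal.ofReal (c i * (⌊t + θ i⌋ : ℝ)) ∂unitLebesgue :=
    (measurePreserving_eval_infinitePi (fun _ : ℕ => unitLebesgue) i).lintegral_comp hmf
  rw [h0]
  have h2 : ∫⁻ t, ENNReal.ofReal (c i * (⌊t + θ i⌋ : ℝ)) ∂unitLebesgue ≤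
      ∫⁻ t, Set.indicator (Set.Ico (1 - θ i) 1) (fun _ => ENNReal.ofReal (c i)) t ∂unitLebesgue := by
    unfold unitLebesgue
    refine setLIntegral_mono' measurableSet_Ico fun t ht => ?_
    by_cases h3 : 1 - θ i ≤ t
    · rw [Set.indicator_of_mem (show t ∈ Set.Ico (1 - θ i) 1 from ⟨h3, ht.2⟩)]
      apply ENNReal.ofReal_le_ofReal
      have h4 : ⌊t + θ i⌋ = 1 := by
        rw [Int.floor_eq_iff]
        push_cast
        exact ⟨by linarith, by linarith [ht.2, (hθ i).2]⟩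
      rw [h4]; simp
    · have h4 : ⌊t + θ i⌋ = 0 := by
        rw [Int.floor_eq_iff]
        push_cast
        push Not at h3
        exact ⟨by linarith [ht.1, (hθ i).1], by linarith⟩
      rw [h4]; simp
  refine h2.trans ?_
  rw [lintegral_indicator measurableSet_Ico, setLIntegral_const,
    ENNReal.ofReal_mul (hc i)]
  gcongr
  unfold unitLebesgue
  refine (Measure.restrict_apply_le _ _).trans ?_
  rw [Real.volume_Ico]
  apply ENNReal.ofReal_le_ofReal
  linarith

lemma diverge (hθ : ∀ i, 0 < θ i ∧ θ i < 1) (hc : ∀ i, 0 ≤ c i)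
    (hlog : ∫⁻ x, ENNReal.ofReal (- Real.log (weight θ c x)) ∂cubeMeasure = ⊤) (R : ℝ) :
    ∃ m : ℕ, R < ∑ i ∈ Finset.range m, c i * θ i := by
  by_contra hcon
  push Not at hcon
  have h1 : ∫⁻ x, ENNReal.ofReal (- Real.log (weight θ c x)) ∂cubeMeasure ≤
      ∫⁻ x, dropCost θ c x ∂cubeMeasure := by
    refine lintegral_mono fun x => ?_
    simp only [weight]
    split_ifs with h
    · simp
    · rw [Real.log_exp, neg_neg, ENNReal.ofReal_toReal h]
  have h2 : ∫⁻ x, dropCost θ c x ∂cubeMeasure ≤ ENNReal.ofReal R := by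
    unfold dropCost
    rw [lintegral_tsum]
    · refine ENNReal.tsum_le_of_sum_range_le fun n => ?_
      calc ∑ i ∈ Finset.range n, ∫⁻ x, ENNReal.ofReal (c i * (⌊x i + θ i⌋ : ℝ)) ∂cubeMeasure
          ≤ ∑ i ∈ Finset.range n, ENNReal.ofReal (c i * θ i) :=
            Finset.sum_le_sum fun i _ => int_drop hθ hc i
        _ = ENNReal.ofReal (∑ i ∈ Finset.range n, c i * θ i) :=
            (ENNReal.ofReal_sum_of_nonneg fun i _ => mul_nonneg (hc i) (hθ i).1.le).symm
        _ ≤ ENNReal.ofReal R := ENNReal.ofReal_le_ofReal (hcon n)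
    · intro i
      refine (ENNReal.measurable_ofReal.comp (Measurable.const_mul ?_ _)).aemeasurable
      have h1 : Measurable (fun x : ℕ → ℝ => ⌊x i + θ i⌋) :=
        Int.measurable_floor.comp ((measurable_pi_apply i).add_const _)
      exact (measurable_from_top (f := fun n : ℤ => (n : ℝ))).comp h1
  rw [hlog] at h1
  exact absurd (h1.trans h2) (by simp)

/-- the multiplier of the shift -/
noncomputable def wt (θ c : ℕ → ℝ) (p : (ℕ → ℝ) × ℤ) : ℂ :=
  (weight θ c (orbitPoint θ (p.2 - 1) p.1) : ℂ)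

noncomputable def wt2 (θ c : ℕ → ℝ) (p : (ℕ → ℝ) × ℤ) : ℂ :=
  (weight θ c (orbitPoint θ p.2 p.1) : ℂ)

noncomputable def wt0 (θ c : ℕ → ℝ) (p : (ℕ → ℝ) × ℤ) : ℂ :=
  (weight θ c (orbitPoint θ 0 p.1) : ℂ)

lemma norm_weight (y : ℕ → ℝ) : ‖(weight θ c y : ℂ)‖ ≤ 1 := by
  rw [Complex.norm_real, Real.norm_eq_abs, abs_of_nonneg (weight_nonneg θ c y)]
  exact weight_le_one θ c y

lemma measurable_wt2 : Measurable (wt2 θ c) := by
  refine measurable_from_prod_countable_left fun k => ?_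
  exact Complex.measurable_ofReal.comp ((measurable_weight θ c).comp (measurable_orbit θ k))

lemma measurable_wt : Measurable (wt θ c) := by
  refine measurable_from_prod_countable_left fun k => ?_
  exact Complex.measurable_ofReal.comp ((measurable_weight θ c).comp (measurable_orbit θ (k - 1)))

lemma measurable_wt0 : Measurable (wt0 θ c) :=
  Complex.measurable_ofReal.comp
    ((measurable_weight θ c).comp ((measurable_orbit θ 0).comp measurable_fst))

/-- adjoint of the shift -/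
noncomputable def Tadj (θ c : ℕ → ℝ) : pairSpace →L[ℂ] pairSpace :=
  wco (measurable_wt2 (θ := θ) (c := c)).aestronglyMeasurable (fun _ => norm_weight _)
    (e := sh.symm) (sh_mp.symm sh)

/-- the commuting companion -/
noncomputable def Tcom (θ c : ℕ → ℝ) : pairSpace →L[ℂ] pairSpace :=
  wco (measurable_wt0 (θ := θ) (c := c)).aestronglyMeasurable (fun _ => norm_weight _)
    (e := rt θ) (rt_mp θ)

lemma Tadj_wco : IsWCO pairMeasure (Tadj θ c) (wt2 θ c) sh.symm :=
  wco_isWCO (measurable_wt2 (θ := θ) (c := c)).aestronglyMeasurable (fun _ => norm_weight _)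
    (sh_mp.symm sh)

lemma Tcom_wco : IsWCO pairMeasure (Tcom θ c) (wt0 θ c) (rt θ) :=
  wco_isWCO (measurable_wt0 (θ := θ) (c := c)).aestronglyMeasurable (fun _ => norm_weight _)
    (rt_mp θ)

variable {T : pairSpace →L[ℂ] pairSpace}

lemma T_wco (hT : IsWeightedShift θ c T) : IsWCO pairMeasure T (wt θ c) sh := fun g => hT g

lemma star_T (hT : IsWeightedShift θ c T) : star T = Tadj θ c := by
  refine (T_wco hT).adjoint (e := sh) sh_mp Tadj_wco fun p => ?_
  simp [wt, wt2, sh_apply]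

lemma com_T (hT : IsWeightedShift θ c T) : Commute (Tcom θ c) T := by
  refine IsWCO.ext (Tcom_wco.mul (T_wco hT) (rt_mp θ)) ((T_wco hT).mul Tcom_wco sh_mp) ?_ ?_
  · funext p
    simp only [wt, wt0, rt, sh_apply, orbit_comp]
    rw [mul_comm]
    congr 4
    ring
  · funext p
    simp [rt, sh_apply]

lemma com_sT (hT : IsWeightedShift θ c T) : Commute (Tcom θ c) (star T) := by
  rw [star_T hT]
  refine IsWCO.ext (Tcom_wco.mul Tadj_wco (rt_mp θ)) (Tadj_wco.mul Tcom_wco (sh_mp.symm sh)) ?_ ?_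
  · funext p
    simp only [wt2, wt0, rt, sh_symm_apply, orbit_comp]
    rw [mul_comm]
    congr 4
    ring
  · funext p
    simp [rt, sh_symm_apply]

lemma h1_T (hT : IsWeightedShift θ c T) : Tcom θ c vacuumVector = T vacuumVector := by
  apply Lp.ext
  filter_upwards [Tcom_wco (θ := θ) (c := c) vacuumVector, T_wco hT vacuumVector,
    vac_comp_ae (rt_mp θ), vac_comp_ae sh_mp] with p h1 h2 h3 h4
  rw [h1, h2, h3, h4]
  simp only [wt0, wt, rt, sh_apply]
  by_cases h : p.2 - 1 = 0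
  · simp [h]
  · simp [h]

lemma h2_T (hT : IsWeightedShift θ c T) :
    (star (Tcom θ c)) vacuumVector = (star T) vacuumVector := by
  refine ext_inner_right ℂ fun g => ?_
  rw [inner_star_left, inner_star_left, L2.inner_def, L2.inner_def]
  set G : (ℕ → ℝ) × ℤ → ℂ := fun q =>
    (if q.2 = -1 then 1 else 0) * ((weight θ c (orbitPoint θ (-1) q.1) : ℂ) * (g : (ℕ → ℝ) × ℤ → ℂ) q)
    with hG
  have hGm : AEStronglyMeasurable G pairMeasure := by
    refine AEStronglyMeasurable.mul ?_ (AEStronglyMeasurable.mul ?_ (Lp.aestronglyMeasurable g))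
    · exact (Measurable.ite (measurable_snd (measurableSet_singleton (-1 : ℤ))) measurable_const
        measurable_const).aestronglyMeasurable
    · exact (Complex.measurable_ofReal.comp
        ((measurable_weight θ c).comp ((measurable_orbit θ (-1)).comp
          measurable_fst))).aestronglyMeasurable
  have hchg : ∀ e : (ℕ → ℝ) × ℤ → (ℕ → ℝ) × ℤ, MeasurePreserving e pairMeasure pairMeasure →
      ∫ p, G (e p) ∂pairMeasure = ∫ p, G p ∂pairMeasure := by
    intro e he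
    have hGm' : AEStronglyMeasurable G (Measure.map e pairMeasure) := by rw [he.map_eq]; exact hGm
    have := integral_map he.measurable.aemeasurable hGm'
    rw [he.map_eq] at this
    exact this.symm
  have e1 : ∫ a, inner ℂ ((vacuumVector : pairSpace) a) ((Tcom θ c g : pairSpace) a) ∂pairMeasure
      = ∫ p, G (rt θ p) ∂pairMeasure := by
    apply integral_congr_ae
    filter_upwards [vac_ae, Tcom_wco (θ := θ) (c := c) g] with p h1 h2
    rw [h1, h2, RCLike.inner_apply]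
    simp only [hG, wt0, rt, orbit_comp]
    by_cases h : p.2 = 0
    · simp [h]
    · have h' : ¬ (p.2 - 1 = -1) := by omega
      simp [h, h']
  have e2 : ∫ a, inner ℂ ((vacuumVector : pairSpace) a) ((T g : pairSpace) a) ∂pairMeasure
      = ∫ p, G (sh p) ∂pairMeasure := by
    apply integral_congr_ae
    filter_upwards [vac_ae, T_wco hT g] with p h1 h2
    rw [h1, h2, RCLike.inner_apply]
    simp only [hG, wt, sh_apply]
    by_cases h : p.2 = 0
    · simp [h]
    · have h' : ¬ (p.2 - 1 = -1) := by omega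
      simp [h, h']
  rw [e1, e2, hchg _ (rt_mp θ), hchg _ sh_mp]

lemma vac_T (hT : IsWeightedShift θ c T) (n : ℕ) :
    inner ℂ (vacuumVector : pairSpace) ((T ^ (n + 1)) vacuumVector) = 0 := by
  have h1 := (T_wco hT).pow sh_mp (n + 1)
  have h2 := tau_eq h1 (sh_mp.iterate (n + 1)) ?_
  · rw [tau_apply] at h2
    rw [h2]
    have : ∀ x : ℕ → ℝ, ¬ ((sh^[n + 1] (x, (0 : ℤ))).2 = 0) := by
      intro x
      rw [sh_iterate]
      simp only
      omega
    simp only [this, if_false, mul_zero, integral_zero]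
  · refine Finset.measurable_prod _ fun j _ => ?_
    exact measurable_wt.comp (sh.measurable.iterate j)

lemma norm_pow_le (hθ : ∀ i, 0 < θ i ∧ θ i < 1) (hc : ∀ i, 0 ≤ c i)
    (hT : IsWeightedShift θ c T) (m n : ℕ) :
    ‖T ^ n‖ ≤ Real.exp (-∑ i ∈ Finset.range m, c i * (n * θ i - 1)) := by
  refine ((T_wco hT).pow sh_mp n).norm_le (sh_mp.iterate n) (Real.exp_pos _).le fun p => ?_
  have h1 : ∏ j ∈ Finset.range n, wt θ c (sh^[j] p) =
      ((∏ j ∈ Finset.range n, weight θ c (orbitPoint θ (p.2 - j - 1) p.1) : ℝ) : ℂ) := by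
    push_cast
    refine Finset.prod_congr rfl fun j _ => ?_
    rw [sh_iterate]
    rfl
  rw [h1, Complex.norm_real, Real.norm_eq_abs, abs_of_nonneg
    (Finset.prod_nonneg fun j _ => weight_nonneg θ c _)]
  exact prod_le hθ hc m n p.1 p.2

lemma qn_T (hθ : ∀ i, 0 < θ i ∧ θ i < 1) (hc : ∀ i, 0 ≤ c i)
    (hlog : ∫⁻ x, ENNReal.ofReal (- Real.log (weight θ c x)) ∂cubeMeasure = ⊤)
    (hT : IsWeightedShift θ c T) (r : ℝ) (hr : 0 < r) :
    Summable (fun n : ℕ => r ^ n * ‖T ^ n‖) := by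
  obtain ⟨m, hm⟩ := diverge hθ hc hlog (Real.log r + 1)
  set D := ∑ i ∈ Finset.range m, c i * θ i with hD
  have hgeo : Summable (fun n : ℕ => Real.exp (∑ i ∈ Finset.range m, c i) * (Real.exp (-1)) ^ n) := by
    apply Summable.mul_left
    exact summable_geometric_of_lt_one (Real.exp_pos _).le (by rw [Real.exp_lt_one_iff]; norm_num)
  refine Summable.of_nonneg_of_le (fun n => by positivity) (fun n => ?_) hgeo
  have h1 := norm_pow_le hθ hc hT m n
  have h2 : -∑ i ∈ Finset.range m, c i * (n * θ i - 1) = ∑ i ∈ Finset.range m, c i - n * D := by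
    rw [hD, Finset.mul_sum, ← Finset.sum_sub_distrib, ← Finset.sum_neg_distrib]
    refine Finset.sum_congr rfl fun i _ => ?_
    ring
  rw [h2] at h1
  calc r ^ n * ‖T ^ n‖ ≤ (Real.exp (Real.log r)) ^ n * Real.exp (∑ i ∈ Finset.range m, c i - n * D) := by
        rw [Real.exp_log hr]
        gcongr
    _ = Real.exp (∑ i ∈ Finset.range m, c i) * Real.exp (n * (Real.log r - D)) := by
        rw [← Real.exp_nat_mul, ← Real.exp_add, ← Real.exp_add]
        congr 1
        ring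
    _ ≤ Real.exp (∑ i ∈ Finset.range m, c i) * (Real.exp (-1)) ^ n := by
        rw [← Real.exp_nat_mul]
        gcongr
        linarith

lemma mom_T (hT : IsWeightedShift θ c T) (n : ℕ) :
    tau (vacuumVector : pairSpace) ((star T * T) ^ n) =
      ∫ x, (((weight θ c (orbitPoint θ 0 x) ^ 2) ^ n : ℝ) : ℂ) ∂cubeMeasure := by
  have h0 : IsWCO pairMeasure (star T * T) (fun p => wt2 θ c p ^ 2) id := by
    rw [star_T hT]
    have := (Tadj_wco (θ := θ) (c := c)).mul (T_wco hT) (sh_mp.symm sh)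
    intro g
    filter_upwards [this g] with p hp
    rw [hp]
    simp only [Function.comp_apply, MeasurableEquiv.apply_symm_apply, id]
    rw [sq]
    congr 2
    simp [wt, wt2, sh_symm_apply]
  have h1 := h0.pow (MeasurePreserving.id _) n
  have h2 := tau_eq h1 ((MeasurePreserving.id pairMeasure).iterate n) ?_
  · rw [h2]
    apply integral_congr_ae
    filter_upwards with x
    simp [wt2]
  · refine Finset.measurable_prod _ fun j _ => ?_
    exact (measurable_wt2.pow_const 2).comp (measurable_id.iterate j)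

lemma tr_T (hθ : ∀ i, 0 < θ i ∧ θ i < 1) (hc : ∀ i, 0 ≤ c i)
    (hlog : ∫⁻ x, ENNReal.ofReal (- Real.log (weight θ c x)) ∂cubeMeasure = ⊤)
    (hT : IsWeightedShift θ c T) : Tr (vacuumVector : pairSpace) T (Tcom θ c) where
  nrm := vac_norm
  h1 := h1_T hT
  h2 := h2_T hT
  c1 := com_T hT
  c2 := com_sT hT
  vac := vac_T hT
  qn := qn_T hθ hc hlog hT

theorem main_result
    (hθ : ∀ i, 0 < θ i ∧ θ i < 1) (hc : ∀ i, 0 ≤ c i)
    (hpos : ∀ᵐ x ∂cubeMeasure, 0 < weight θ c x)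
    (hlog : ∫⁻ x, ENNReal.ofReal (- Real.log (weight θ c x)) ∂cubeMeasure = ⊤)
    (hT : IsWeightedShift θ c T) (z : ℂ) :
    vectorDet vacuumVector (T - z • (1 : pairSpace →L[ℂ] pairSpace)) = ‖z‖ := by
  by_cases hz : z = 0
  · subst hz
    rw [zero_smul, sub_zero, norm_zero]
    have hro := rot_cube θ 0
    refine det_zero cubeMeasure (f := fun x => weight θ c (orbitPoint θ 0 x))
      ((measurable_weight θ c).comp (measurable_orbit θ 0)) (fun x => weight_nonneg θ c _)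
      (fun x => weight_le_one θ c _) (hro.quasiMeasurePreserving.ae hpos) ?_ vac_norm ?_ (mom_T hT)
    · have hm : Measurable (fun x => ENNReal.ofReal (- Real.log (weight θ c x))) :=
        ENNReal.measurable_ofReal.comp (Real.measurable_log.comp (measurable_weight θ c)).neg
      rw [← hlog]
      exact hro.lintegral_comp hm
    · exact (T_wco hT).norm_le sh_mp zero_le_one fun p => norm_weight _
  · exact (tr_T hθ hc hlog hT).det hz

end Concrete

end Crest.Agent.S0151
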