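/-
S0163 (row 123): shared definitions and interfaces.  See `ideas` row 123 for the paper proof.
-/
import Mathlib

set_option autoImplicit false

open Real Set Filter Topology
open scoped Manifold ContDiff

namespace Crest.Agent.S0163

noncomputable section

/-- The fibre `ℂ × ℂ` (with Mathlib's sup norm as normed space; `nrm` is the Euclidean norm). -/
abbrev V : Type := ℂ × ℂ

/-- `|z|² = |z₁|² + |z₂|²`. -/
def nsq (z : V) : ℝ := Complex.normSq z.1 + Complex.normSq z.2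

/-- Euclidean norm. -/
def nrm (z : V) : ℝ := √(nsq z)

/-- `pw x = 16 ^ x`. -/
def pw (x : ℝ) : ℝ := Real.exp (x * Real.log 16)

/-- The phase `E(z) = -log₁₆ |z|` (junk `0` at `z = 0`). -/
def ph (z : V) : ℝ := -Real.log (nsq z) / (2 * Real.log 16)

/-- the level `n(z) = ⌊E(z) + 1/4⌋`. -/
def lev (z : V) : ℤ := ⌊ph z + 1 / 4⌋

/-- Base functions: `X E β`, `h E β`, `H E β`, all `2π`-periodic in the angle `β`;
the base dynamics is `β ↦ β + 1`. -/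
structure BaseData where
  X : ℝ → ℝ → ℝ
  h : ℝ → ℝ → ℝ
  H : ℝ → ℝ → ℝ
  C : ℝ
  X_contDiff : ContDiff ℝ 1 (fun p : ℝ × ℝ => X p.1 p.2)
  h_contDiff : ContDiff ℝ 1 (fun p : ℝ × ℝ => h p.1 p.2)
  H_contDiff : ContDiff ℝ 1 (fun p : ℝ × ℝ => H p.1 p.2)
  X_periodic : ∀ E β, X E (β + 2 * π) = X E β
  h_periodic : ∀ E β, h E (β + 2 * π) = h E β
  H_periodic : ∀ E β, H E (β + 2 * π) = H E β
  X_mem : ∀ E β, X E β ∈ Icc (0 : ℝ) 4
  /-- full collapse for small phases -/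
  X_eq_four : ∀ E ≤ 2, ∀ β, X E β = 4
  X_dE : ∀ E β, |deriv (fun e => X e β) E| ≤ C
  X_dβ : ∀ E β, 0 ≤ E → |deriv (fun b => X E b) β| ≤ C * pw (E / 16)
  h_nonneg : ∀ E β, 0 ≤ h E β
  h_eq_zero : ∀ E ≤ 2, ∀ β, h E β = 0
  /-- cocycle equation -/
  H_rec : ∀ E β, H E β = h E β + H (E - 1) (β + 1)
  H_eq_zero : ∀ E ≤ 2, ∀ β, H E β = 0
  H_nonneg : ∀ E β, 0 ≤ H E β
  H_le : ∀ E β, 0 ≤ E → H E β ≤ E / 16
  H_dE : ∀ E β, |deriv (fun e => H e β) E| ≤ 1 / 4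
  H_dβ : ∀ E β, 0 ≤ E → |deriv (fun b => H E b) β| ≤ C * pw (E / 8)
  /-- `h → ∞` at `(∞, b = 1)` -/
  h_large : ∀ R : ℝ, ∃ E₀ : ℝ, ∃ δ > 0, ∀ E ≥ E₀, ∀ β : ℝ, ‖(Circle.exp β : ℂ) - 1‖ < δ → R ≤ h E β
  /-- away from `b = 1` everything is linear for large `E` -/
  away : ∀ β₀ : ℝ, (Circle.exp β₀ : ℂ) ≠ 1 → ∃ E₀ : ℝ, ∀ᶠ β in 𝓝 β₀, ∀ E ≥ E₀, X E β = 0 ∧ h E β = h E₀ β
  /-- hitting property -/
  hit : ∀ Λ : ℝ, ∃ N : ℕ, ∀ β : ℝ, ∃ i : ℕ, 1 ≤ i ∧ i ≤ N ∧ ∀ E ≤ Λ + i, X E (β - i) = 4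

/-- Shell data: the family `R χ z` (`χ ∈ [0,4]`), the outer map `Fo`, the telescope `Tel`. -/
structure ShellData where
  R : ℝ → V → V
  Fo : V → V
  Tel : Set V
  C : ℝ
  R_contDiffOn : ContDiffOn ℝ 1 (fun p : ℝ × V => R p.1 p.2) {p | p.2 ≠ 0}
  R_zero : ∀ z : V, z ≠ 0 → R 0 z = (16 * z.2, 16 * z.1)
  R_nrm : ∀ χ ∈ Icc (0 : ℝ) 4, ∀ z : V, z ≠ 0 → nrm (R χ z) ≤ 16 * nrm z
  R_dz : ∀ χ ∈ Icc (0 : ℝ) 4, ∀ z : V, z ≠ 0 →
    ‖fderiv ℝ (fun z => R χ z) z‖ ≤ C * √(nrm (R χ z) / nrm z)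
  R_dχ : ∀ χ ∈ Icc (0 : ℝ) 4, ∀ z : V, z ≠ 0 →
    ‖deriv (fun c => R c z) χ‖ ≤ C * nrm z * √(nrm (R χ z) / nrm z)
  /-- the telescope -/
  Tel_ne : ∀ z ∈ Tel, z ≠ 0
  Tel_nrm : ∀ z ∈ Tel, nrm z ≤ 1
  /-- for phases `≥ 1` the telescope is preserved and the level drops by exactly one -/
  R_tel : ∀ χ ∈ Icc (0 : ℝ) 4, ∀ z ∈ Tel, nrm z ≤ 1 / 16 → R χ z ∈ Tel ∧ lev (R χ z) = lev z - 1
  R_four : ∀ z : V, z ≠ 0 → nrm z ≤ 1 / 16 → R 4 z = 0 ∨ R 4 z ∈ Tel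
  /-- outer map, used for `nrm z > 16^(-9/8)` -/
  Fo_contDiffOn : ContDiffOn ℝ 1 Fo {z | pw (-(9 / 8)) < nrm z}
  Fo_bound : ∀ z : V, pw (-(9 / 8)) < nrm z →
    ∃ C' : ℝ, ∀ᶠ z' in 𝓝 z, ‖fderiv ℝ Fo z'‖ ≤ C' * √(nrm (Fo z'))
  Fo_nrm : ∀ z : V, pw (-(9 / 8)) < nrm z → nrm (Fo z) ≤ 16 * nrm z
  Fo_eq : ∀ z : V, pw (-(9 / 8)) < nrm z → nrm z < pw (-(7 / 8)) → Fo z = R 4 z
  Fo_outer : ∀ z z' : V, 1 ≤ nrm z → 1 ≤ nrm z' → z.1 = z'.1 → Fo z = Fo z'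
  Fo_far : ∀ z : V, 1 ≤ nrm z → 1 / 2 ≤ Complex.normSq z.1 →
    Fo z = (pw (3 / 8) * z.1 ^ 2 / Complex.normSq z.1, 0)
  Fo_range : ∀ z : V, pw (-(9 / 8)) < nrm z →
    Fo z = 0 ∨ Fo z ∈ Tel ∨ (1 < ‖(Fo z).1‖ ∧ (Fo z).2 = 0)
  Fo_tel : ∀ z ∈ Tel, 1 / 16 < nrm z →
    (Fo z ∈ Tel ∧ lev (Fo z) = 0 ∧ lev z = 1) ∨ (1 < ‖(Fo z).1‖ ∧ (Fo z).2 = 0)

/-- The fibre map of the standard model (everything before conjugation by `Tm`). -/
def Phi (B : BaseData) (S : ShellData) (z : V) (β : ℝ) : V :=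
  open Classical in
  if z = 0 then 0 else if 1 / 16 ≤ nrm z then S.Fo z else S.R (B.X (ph z) β) z

/-- The conjugating map. -/
def Tm (B : BaseData) (z : V) (β : ℝ) : V := pw (B.H (ph z) β) • z

/-- the 2-sphere -/
abbrev S2 : Type := Metric.sphere (0 : EuclideanSpace ℝ (Fin 3)) 1

/-- clipped stereographic coordinate -/
def cl (v : S2) : ℂ :=
  open Classical in
  if (v : EuclideanSpace ℝ (Fin 3)) 2 ≤ 1 / 2 then
    ⟨(v : EuclideanSpace ℝ (Fin 3)) 0 / (1 - (v : EuclideanSpace ℝ (Fin 3)) 2),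
      (v : EuclideanSpace ℝ (Fin 3)) 1 / (1 - (v : EuclideanSpace ℝ (Fin 3)) 2)⟩
  else 2

/-- cutoff: `1` for `ρ ≤ 2`, `0` for `ρ ≥ 4` -/
def qcut (ρ : ℝ) : ℝ := 1 - Real.smoothTransition ((ρ - 2) / 2)

/-- unnormalised `ι` -/
def iotaVec (x : ℂ) : EuclideanSpace ℝ (Fin 3) :=
  !₂[2 * qcut (Complex.normSq x) * x.re, 2 * qcut (Complex.normSq x) * x.im, Complex.normSq x - 1]


theorem iotaVec_ne_zero (x : ℂ) : iotaVec x ≠ 0 := by
  intro h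
  have h0 : (iotaVec x) 0 = 0 := by rw [h]; rfl
  have h1 : (iotaVec x) 1 = 0 := by rw [h]; rfl
  have h2 : (iotaVec x) 2 = 0 := by rw [h]; rfl
  simp only [iotaVec, Fin.isValue, PiLp.toLp_apply, Matrix.cons_val_zero, Matrix.cons_val_one, Matrix.cons_val] at h0 h1 h2
  have hn : Complex.normSq x = 1 := by linarith
  have hq : qcut (Complex.normSq x) = 1 := by
    rw [hn, qcut, Real.smoothTransition.zero_of_nonpos (by norm_num)]; ring
  rw [hq] at h0 h1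
  have : Complex.normSq x = 0 := by
    rw [Complex.normSq_apply]
    have : x.re = 0 := by linarith
    have : x.im = 0 := by linarith
    simp [*]
  linarith

/-- `ι : ℂ → S²`: inverse stereographic projection for `|x|² ≤ 2`, the north pole for `|x| ≥ 2`. -/
def iota (x : ℂ) : S2 :=
  ⟨‖iotaVec x‖⁻¹ • iotaVec x, by
    have := iotaVec_ne_zero x
    rw [mem_sphere_zero_iff_norm, norm_smul, norm_inv, norm_norm]
    exact inv_mul_cancel₀ (norm_ne_zero_iff.2 this)⟩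

/-- the 5-manifold -/
abbrev Mt : Type := S2 × S2 × Circle

/-- the self-map of `Mt` defined by a fibre map `G z β` (`β` = angle) over the rotation by angle 1 -/
def liftM (G : V → ℝ → V) (p : Mt) : Mt :=
  (iota (G (cl p.1, cl p.2.1) (Complex.arg p.2.2)).1,
   iota (G (cl p.1, cl p.2.1) (Complex.arg p.2.2)).2,
   p.2.2 * Circle.exp 1)

/-- The conjugating map on `Mt`. -/
def TM (B : BaseData) (p : Mt) : Mt :=
  open Classical in
  if (p.1 : EuclideanSpace ℝ (Fin 3)) 2 ≤ 0 ∧ (p.2.1 : EuclideanSpace ℝ (Fin 3)) 2 ≤ 0 then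
    (iota (Tm B (cl p.1, cl p.2.1) (Complex.arg p.2.2)).1,
     iota (Tm B (cl p.1, cl p.2.1) (Complex.arg p.2.2)).2, p.2.2)
  else p

/-- south pole and north pole -/
def south : S2 := iota 0
def north : S2 := iota 2

/-- What the manifold level needs to know about the fibre map `G`. -/
structure FibreMap where
  G : V → ℝ → V
  contDiff : ContDiff ℝ 1 (fun p : V × ℝ => G p.1 p.2)
  periodic : ∀ z β, G z (β + 2 * π) = G z β
  outer : ∀ z z' : V, ∀ β, 1 ≤ nrm z → 1 ≤ nrm z' → z.1 = z'.1 → G z β = G z' β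
  far : ∀ z : V, ∀ β, 1 ≤ nrm z → 1 / 2 ≤ Complex.normSq z.1 →
    G z β = (pw (3 / 8) * z.1 ^ 2 / Complex.normSq z.1, 0)

/-- angle doubling `S² → S²` around the axis through the poles (underlying vector) -/
def dblVec (v : EuclideanSpace ℝ (Fin 3)) : EuclideanSpace ℝ (Fin 3) :=
  !₂[(v 0 ^ 2 - v 1 ^ 2) / √(v 0 ^ 2 + v 1 ^ 2), 2 * v 0 * v 1 / √(v 0 ^ 2 + v 1 ^ 2), v 2]

theorem dblVec_norm (v : S2) : ‖dblVec v‖ = 1 := by
  have hv : (v : EuclideanSpace ℝ (Fin 3)) 0 ^ 2 + (v : EuclideanSpace ℝ (Fin 3)) 1 ^ 2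
      + (v : EuclideanSpace ℝ (Fin 3)) 2 ^ 2 = 1 := by
    have := EuclideanSpace.real_norm_sq_eq (v : EuclideanSpace ℝ (Fin 3))
    rw [norm_eq_of_mem_sphere v, Fin.sum_univ_three] at this
    linarith
  have key : ‖dblVec v‖ ^ 2 = 1 := by
    rw [EuclideanSpace.real_norm_sq_eq, Fin.sum_univ_three]
    simp only [dblVec, Fin.isValue, PiLp.toLp_apply, Matrix.cons_val_zero, Matrix.cons_val_one, Matrix.cons_val]
    set a := (v : EuclideanSpace ℝ (Fin 3)) 0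
    set b := (v : EuclideanSpace ℝ (Fin 3)) 1
    set c := (v : EuclideanSpace ℝ (Fin 3)) 2
    by_cases h : a ^ 2 + b ^ 2 = 0
    · have ha : a = 0 := by nlinarith [sq_nonneg a, sq_nonneg b]
      have hb : b = 0 := by nlinarith [sq_nonneg a, sq_nonneg b]
      rw [ha, hb] at hv ⊢
      simp at hv ⊢
      exact hv
    · have hpos : 0 < a ^ 2 + b ^ 2 := lt_of_le_of_ne (by positivity) (Ne.symm h)
      rw [div_pow, div_pow, Real.sq_sqrt hpos.le, ← add_div]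
      have : ((a ^ 2 - b ^ 2) ^ 2 + (2 * a * b) ^ 2) / (a ^ 2 + b ^ 2) = a ^ 2 + b ^ 2 := by
        field_simp; ring
      rw [this]; exact hv
  have h0 : 0 ≤ ‖dblVec v‖ := norm_nonneg _
  nlinarith

theorem dblVec_continuous : Continuous dblVec := by
  have h01 : ∀ v : EuclideanSpace ℝ (Fin 3), |v 0 ^ 2 - v 1 ^ 2| ≤ v 0 ^ 2 + v 1 ^ 2 := by
    intro v; rw [abs_le]; constructor <;> nlinarith [sq_nonneg (v 0), sq_nonneg (v 1)]
  have h02 : ∀ v : EuclideanSpace ℝ (Fin 3), |2 * v 0 * v 1| ≤ v 0 ^ 2 + v 1 ^ 2 := by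
    intro v; rw [abs_le]; constructor <;> nlinarith [sq_nonneg (v 0 + v 1), sq_nonneg (v 0 - v 1)]
  have main : ∀ (N : EuclideanSpace ℝ (Fin 3) → ℝ), Continuous N →
      (∀ v, |N v| ≤ v 0 ^ 2 + v 1 ^ 2) → Continuous (fun v : EuclideanSpace ℝ (Fin 3) => N v / √(v 0 ^ 2 + v 1 ^ 2)) := by
    intro N hN hb
    rw [continuous_iff_continuousAt]
    intro v
    by_cases h : v 0 ^ 2 + v 1 ^ 2 = 0
    · have h0 : N v / √(v 0 ^ 2 + v 1 ^ 2) = 0 := by rw [h]; simp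
      rw [ContinuousAt, h0]
      have hlim : Tendsto (fun v : EuclideanSpace ℝ (Fin 3) => √(v 0 ^ 2 + v 1 ^ 2)) (𝓝 v) (𝓝 0) := by
        have : Continuous (fun v : EuclideanSpace ℝ (Fin 3) => √(v 0 ^ 2 + v 1 ^ 2)) := by fun_prop
        have h2 := this.tendsto v
        rwa [h, Real.sqrt_zero] at h2
      refine squeeze_zero_norm (fun w => ?_) hlim
      rw [Real.norm_eq_abs, abs_div, abs_of_nonneg (Real.sqrt_nonneg _)]
      by_cases hw : w 0 ^ 2 + w 1 ^ 2 = 0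
      · rw [hw]; simp
      · have hpos : 0 < w 0 ^ 2 + w 1 ^ 2 := lt_of_le_of_ne (by positivity) (Ne.symm hw)
        rw [div_le_iff₀ (Real.sqrt_pos.2 hpos), Real.mul_self_sqrt hpos.le]
        exact hb w
    · have h' : √(v 0 ^ 2 + v 1 ^ 2) ≠ 0 := by
        have hpos : 0 < v 0 ^ 2 + v 1 ^ 2 := lt_of_le_of_ne (by positivity) (Ne.symm h)
        exact (Real.sqrt_pos.2 hpos).ne'
      exact ContinuousAt.div hN.continuousAt (by fun_prop) h'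
  have c1 := main (fun v => v 0 ^ 2 - v 1 ^ 2) (by fun_prop) h01
  have c2 := main (fun v => 2 * v 0 * v 1) (by fun_prop) h02
  unfold dblVec
  refine (PiLp.continuous_toLp 2 _).comp (continuous_pi fun i => ?_)
  fin_cases i
  · exact c1
  · exact c2
  · show Continuous (fun v : EuclideanSpace ℝ (Fin 3) => v 2)
    fun_prop

/-- angle doubling as a continuous self-map of `S²` -/
def dbl : C(S2, S2) where
  toFun v := ⟨dblVec v, mem_sphere_zero_iff_norm.2 (dblVec_norm v)⟩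
  continuous_toFun := Continuous.subtype_mk (dblVec_continuous.comp continuous_subtype_val) _

end

end Crest.Agent.S0163
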