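/-
S0163 (row 123), package A1, part a: continuous logarithms and frames of the Hopf line bundle.
-/
import Mathlib
import Crest.Agent.S0163_Defs

set_option autoImplicit false

open Real Set Filter Topology

namespace Crest.Agent.S0163.A1

noncomputable section

/-! ### chopping a contraction -/

/-- contraction data of a space -/
structure Contr (T : Type*) [TopologicalSpace T] where
  H : unitInterval × T → T
  cont : Continuous H
  x0 : T
  H0 : ∀ x, H (0, x) = x0
  H1 : ∀ x, H (1, x) = x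

/-- the point `k/N` -/
def pt (N k : ℕ) : unitInterval := Set.projIcc 0 1 zero_le_one ((k : ℝ) / N)

theorem pt_zero (N : ℕ) : pt N 0 = 0 := by
  simp [pt, Set.projIcc_left]

theorem pt_self {N : ℕ} (hN : 0 < N) : pt N N = 1 := by
  have : (N : ℝ) / N = 1 := div_self (by positivity)
  simp [pt, this, Set.projIcc_right]

theorem dist_pt {N : ℕ} (hN : 0 < N) (k : ℕ) : dist (pt N k) (pt N (k + 1)) ≤ 1 / N := by
  have h1 : LipschitzWith 1 (Set.projIcc (0 : ℝ) 1 zero_le_one) := LipschitzWith.projIcc _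
  have h2 := h1.dist_le_mul ((k : ℝ) / N) (((k + 1 : ℕ) : ℝ) / N)
  have h3 : dist ((k : ℝ) / N) (((k + 1 : ℕ) : ℝ) / N) = 1 / N := by
    have hN' : (0 : ℝ) < N := by exact_mod_cast hN
    rw [Real.dist_eq, ← sub_div, abs_div, abs_of_pos hN']
    push_cast
    rw [show (k : ℝ) - (k + 1) = -1 by ring, abs_neg, abs_one]
  rw [h3] at h2
  simpa [pt] using h2

theorem chop {T M : Type*} [MetricSpace T] [CompactSpace T] [MetricSpace M] (c : Contr T)
    (f : T → M) (hf : Continuous f) (ε : ℝ) (hε : 0 < ε) :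
    ∃ N : ℕ, 0 < N ∧ ∀ k x, dist (f (c.H (pt N k, x))) (f (c.H (pt N (k + 1), x))) < ε := by
  have hg : Continuous (fun p : unitInterval × T => f (c.H p)) := hf.comp c.cont
  have huc := CompactSpace.uniformContinuous_of_continuous hg
  rw [Metric.uniformContinuous_iff] at huc
  obtain ⟨δ, hδ, h⟩ := huc ε hε
  obtain ⟨N, hN⟩ := exists_nat_gt (1 / δ)
  have hN0 : 0 < N := by
    have : (0 : ℝ) < N := lt_trans (by positivity) hN
    exact_mod_cast this
  refine ⟨N, hN0, fun k x => h ?_⟩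
  rw [Prod.dist_eq, dist_self, max_eq_left dist_nonneg]
  refine lt_of_le_of_lt (dist_pt hN0 k) ?_
  have hN' : (0 : ℝ) < N := by exact_mod_cast hN0
  rw [div_lt_iff₀ hN']
  rw [div_lt_iff₀ hδ] at hN
  linarith

/-! ### continuous logarithms -/

theorem exists_log {T : Type*} [MetricSpace T] [CompactSpace T] (c : Contr T)
    (u : T → ℂ) (hu : Continuous u) (hu0 : ∀ x, u x ≠ 0) :
    ∃ l : C(T, ℂ), ∀ x, Complex.exp (l x) = u x := by
  have : Nonempty T := ⟨c.x0⟩
  obtain ⟨x₁, -, hx₁⟩ := isCompact_univ.exists_isMinOn (univ_nonempty (α := T)) hu.norm.continuousOn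
  have hm : 0 < ‖u x₁‖ := norm_pos_iff.2 (hu0 x₁)
  obtain ⟨N, hN, h⟩ := chop c u hu ‖u x₁‖ hm
  have key : ∀ k : ℕ, ∃ l : C(T, ℂ), ∀ x, Complex.exp (l x) = u (c.H (pt N k, x)) := by
    intro k
    induction k with
    | zero =>
      refine ⟨ContinuousMap.const _ (Complex.log (u c.x0)), fun x => ?_⟩
      rw [pt_zero, c.H0, ContinuousMap.const_apply, Complex.exp_log (hu0 _)]
    | succ k ih =>
      obtain ⟨l, hl⟩ := ih
      have hc1 : Continuous (fun x => u (c.H (pt N k, x))) :=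
        hu.comp (c.cont.comp (by fun_prop))
      have hc2 : Continuous (fun x => u (c.H (pt N (k + 1), x))) :=
        hu.comp (c.cont.comp (by fun_prop))
      have hr : Continuous (fun x => u (c.H (pt N (k + 1), x)) / u (c.H (pt N k, x))) :=
        hc2.div hc1 (fun x => hu0 _)
      have hsl : ∀ x, u (c.H (pt N (k + 1), x)) / u (c.H (pt N k, x)) ∈ Complex.slitPlane := by
        intro x
        have h1 := h k x
        rw [dist_eq_norm] at h1
        have h2 : ‖u x₁‖ ≤ ‖u (c.H (pt N k, x))‖ := hx₁ (mem_univ _)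
        have h3 : ‖u (c.H (pt N (k + 1), x)) / u (c.H (pt N k, x)) - 1‖ < 1 := by
          have h0 := hu0 (c.H (pt N k, x))
          rw [div_sub_one h0, norm_div, div_lt_one (norm_pos_iff.2 h0), norm_sub_rev]
          linarith
        have h4 : u (c.H (pt N (k + 1), x)) / u (c.H (pt N k, x)) ∈ Metric.ball (1 : ℂ) 1 := by
          rw [Metric.mem_ball, dist_eq_norm]; exact h3
        exact Complex.ball_one_subset_slitPlane h4
      refine ⟨⟨fun x => l x + Complex.log (u (c.H (pt N (k + 1), x)) / u (c.H (pt N k, x))),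
        l.continuous.add (hr.clog hsl)⟩, fun x => ?_⟩
      rw [ContinuousMap.coe_mk, Complex.exp_add, hl,
        Complex.exp_log (div_ne_zero (hu0 _) (hu0 _)), mul_div_cancel₀ _ (hu0 _)]
  obtain ⟨l, hl⟩ := key N
  refine ⟨l, fun x => ?_⟩
  rw [hl, pt_self hN, c.H1]

/-- two continuous logs of the same function differ by a constant -/
theorem log_unique {T : Type*} [TopologicalSpace T] [PreconnectedSpace T]
    (l l' : C(T, ℂ)) (h : ∀ x, Complex.exp (l x) = Complex.exp (l' x)) (a b : T) :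
    l b - l a = l' b - l' a := by
  have h1 := Complex.isCoveringMap_exp.eq_of_comp_eq (A := T) (g₁ := fun x => l x)
    (g₂ := fun x => l' x + (l a - l' a)) l.continuous (by fun_prop) ?_ a (by ring)
  · have h2 : l b = l' b + (l a - l' a) := congrFun h1 b
    rw [h2]; ring
  · funext x
    apply Subtype.ext
    show Complex.exp (l x) = Complex.exp (l' x + (l a - l' a))
    rw [Complex.exp_add, Complex.exp_sub, h a, div_self (Complex.exp_ne_zero _), mul_one, h x]

open Classical in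
/-- increment of a continuous logarithm -/
def inc {T : Type*} [TopologicalSpace T] (u : T → ℂ) (a b : T) : ℂ :=
  if h : ∃ l : C(T, ℂ), ∀ x, Complex.exp (l x) = u x then h.choose b - h.choose a else 0

theorem inc_eq {T : Type*} [TopologicalSpace T] [PreconnectedSpace T] {u : T → ℂ}
    (l : C(T, ℂ)) (hl : ∀ x, Complex.exp (l x) = u x) (a b : T) : inc u a b = l b - l a := by
  have h : ∃ l : C(T, ℂ), ∀ x, Complex.exp (l x) = u x := ⟨l, hl⟩
  rw [inc, dif_pos h]
  exact log_unique _ _ (fun x => by rw [h.choose_spec, hl]) a b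

theorem inc_mul {T : Type*} [MetricSpace T] [CompactSpace T] [PreconnectedSpace T] (c : Contr T)
    {u v : T → ℂ} (hu : Continuous u) (hu0 : ∀ x, u x ≠ 0) (hv : Continuous v)
    (hv0 : ∀ x, v x ≠ 0) (a b : T) :
    inc (fun x => u x * v x) a b = inc u a b + inc v a b := by
  obtain ⟨l, hl⟩ := exists_log c u hu hu0
  obtain ⟨m, hm⟩ := exists_log c v hv hv0
  rw [inc_eq l hl, inc_eq m hm, inc_eq (l + m) (fun x => by
    rw [ContinuousMap.add_apply, Complex.exp_add, hl, hm])]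
  simp only [ContinuousMap.add_apply]
  ring

/-! ### spinors -/

/-- Pauli action of a vector -/
def sg (v : EuclideanSpace ℝ (Fin 3)) (s : ℂ × ℂ) : ℂ × ℂ :=
  ((v 2 : ℂ) * s.1 + ((v 0 : ℂ) - (v 1 : ℂ) * Complex.I) * s.2,
   ((v 0 : ℂ) + (v 1 : ℂ) * Complex.I) * s.1 - (v 2 : ℂ) * s.2)

theorem sg_sg (v : EuclideanSpace ℝ (Fin 3)) (s : ℂ × ℂ) :
    sg v (sg v s) = ((v 0 : ℂ) ^ 2 + (v 1 : ℂ) ^ 2 + (v 2 : ℂ) ^ 2) • s := by
  apply Prod.ext
  · simp only [sg, Prod.smul_fst, smul_eq_mul]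
    linear_combination (-(v 1 : ℂ) ^ 2 * s.1) * Complex.I_sq
  · simp only [sg, Prod.smul_snd, smul_eq_mul]
    linear_combination (-(v 1 : ℂ) ^ 2 * s.2) * Complex.I_sq

theorem sq_sum (v : S2) : ((v : EuclideanSpace ℝ (Fin 3)) 0 : ℂ) ^ 2 +
    ((v : EuclideanSpace ℝ (Fin 3)) 1 : ℂ) ^ 2 + ((v : EuclideanSpace ℝ (Fin 3)) 2 : ℂ) ^ 2 = 1 := by
  have := EuclideanSpace.real_norm_sq_eq (v : EuclideanSpace ℝ (Fin 3))
  rw [norm_eq_of_mem_sphere v, Fin.sum_univ_three] at this
  have h2 := congrArg (fun r : ℝ => (r : ℂ)) this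
  push_cast at h2
  rw [← h2]; ring

theorem sg_add_left (v w : EuclideanSpace ℝ (Fin 3)) (s : ℂ × ℂ) :
    sg (v + w) s = sg v s + sg w s := by
  apply Prod.ext <;> simp only [sg, PiLp.add_apply, Prod.fst_add, Prod.snd_add] <;> push_cast <;> ring

theorem sg_add_right (v : EuclideanSpace ℝ (Fin 3)) (s t : ℂ × ℂ) :
    sg v (s + t) = sg v s + sg v t := by
  apply Prod.ext <;> simp only [sg, Prod.fst_add, Prod.snd_add] <;> ring

/-- the line over `v` -/
def Ln (v : S2) : Set (ℂ × ℂ) := {s | sg v s = s}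

theorem mem_Ln_of (v : S2) (s : ℂ × ℂ) : s + sg v s ∈ Ln v := by
  show sg v (s + sg v s) = s + sg v s
  rw [sg_add_right, sg_sg, sq_sum, one_smul, add_comm]

/-- non-antipodal lines are not orthogonal -/
theorem proj_ne_zero (v w : S2) (hvw : dist v w < 2) (s : ℂ × ℂ) (hs : s ∈ Ln v) (hs0 : s ≠ 0) :
    s + sg w s ≠ 0 := by
  intro h
  have h1 : sg w s = -s := by rw [eq_neg_iff_add_eq_zero, add_comm]; exact h
  have h2 : sg ((v : EuclideanSpace ℝ (Fin 3)) + w) s = 0 := by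
    rw [sg_add_left, h1, show sg v s = s from hs, add_neg_cancel]
  have h3 := sg_sg ((v : EuclideanSpace ℝ (Fin 3)) + w) s
  rw [h2] at h3
  have h4 : sg ((v : EuclideanSpace ℝ (Fin 3)) + w) 0 = 0 := by
    apply Prod.ext <;> simp [sg]
  rw [h4] at h3
  have h5 := (smul_eq_zero.1 h3.symm).resolve_right hs0
  have h6 : (((v : EuclideanSpace ℝ (Fin 3)) + w) 0) ^ 2 + (((v : EuclideanSpace ℝ (Fin 3)) + w) 1) ^ 2
    + (((v : EuclideanSpace ℝ (Fin 3)) + w) 2) ^ 2 = 0 := by
    have h5' : (((((v : EuclideanSpace ℝ (Fin 3)) + w) 0) ^ 2 + (((v : EuclideanSpace ℝ (Fin 3)) + w) 1) ^ 2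
      + (((v : EuclideanSpace ℝ (Fin 3)) + w) 2) ^ 2 : ℝ) : ℂ) = 0 := by
      push_cast; exact h5
    exact Complex.ofReal_eq_zero.1 h5'
  have h7 : ‖(v : EuclideanSpace ℝ (Fin 3)) + w‖ ^ 2 = 0 := by
    rw [EuclideanSpace.real_norm_sq_eq, Fin.sum_univ_three]; exact h6
  have h8 : (v : EuclideanSpace ℝ (Fin 3)) = -w := by
    rw [eq_neg_iff_add_eq_zero]
    exact norm_eq_zero.1 (pow_eq_zero_iff (two_ne_zero) |>.1 h7)
  have h9 : dist v w = 2 := by
    rw [Subtype.dist_eq, dist_eq_norm, h8, ← neg_add', norm_neg, ← two_smul ℝ, norm_smul,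
      norm_eq_of_mem_sphere w]
    norm_num
  linarith

theorem sg_continuous : Continuous (fun p : EuclideanSpace ℝ (Fin 3) × (ℂ × ℂ) => sg p.1 p.2) := by
  unfold sg
  fun_prop

/-- A frame over a map to the sphere -/
structure Fr {T : Type*} [TopologicalSpace T] (f : T → S2) where
  s : T → ℂ × ℂ
  cont : Continuous s
  ne : ∀ x, s x ≠ 0
  mem : ∀ x, s x ∈ Ln (f x)

theorem exists_mem_Ln (v : S2) : ∃ s ∈ Ln v, s ≠ 0 := by
  by_cases h : ((1 : ℂ), (0 : ℂ)) + sg v (1, 0) = 0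
  · refine ⟨(0, 1) + sg v (0, 1), mem_Ln_of v _, fun h' => ?_⟩
    have h1 := congrArg Prod.fst h
    have h2 := congrArg Prod.snd h'
    simp [sg] at h1 h2
    have : (2 : ℂ) = 0 := by linear_combination h1 + h2
    norm_num at this
  · exact ⟨_, mem_Ln_of v _, h⟩

theorem exists_fr {T : Type*} [MetricSpace T] [CompactSpace T] (c : Contr T)
    (f : T → S2) (hf : Continuous f) : Nonempty (Fr f) := by
  obtain ⟨N, hN, h⟩ := chop c f hf 2 two_pos
  have key : ∀ k : ℕ, Nonempty (Fr (fun x => f (c.H (pt N k, x)))) := by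
    intro k
    induction k with
    | zero =>
      obtain ⟨s, hs, hs0⟩ := exists_mem_Ln (f c.x0)
      exact ⟨⟨fun _ => s, continuous_const, fun _ => hs0, fun x => by
        rw [pt_zero, c.H0]; exact hs⟩⟩
    | succ k ih =>
      obtain ⟨F⟩ := ih
      have hc2 : Continuous (fun x => (f (c.H (pt N (k + 1), x)) : EuclideanSpace ℝ (Fin 3))) :=
        continuous_subtype_val.comp (hf.comp (c.cont.comp (by fun_prop)))
      refine ⟨⟨fun x => F.s x + sg (f (c.H (pt N (k + 1), x))) (F.s x), ?_, fun x => ?_, fun x => ?_⟩⟩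
      · exact F.cont.add (sg_continuous.comp (hc2.prodMk F.cont))
      · exact proj_ne_zero _ _ (h k x) _ (F.mem x) (F.ne x)
      · exact mem_Ln_of _ _
  obtain ⟨F⟩ := key N
  refine ⟨⟨F.s, F.cont, F.ne, fun x => ?_⟩⟩
  have h1 := F.mem x
  have h2 : f (c.H (pt N N, x)) = f x := by rw [pt_self hN, c.H1]
  exact h2 ▸ h1

/-! ### ratios -/

/-- `s' = rat s s' • s` on a line -/
def rat (s s' : ℂ × ℂ) : ℂ :=
  ((starRingEnd ℂ) s.1 * s'.1 + (starRingEnd ℂ) s.2 * s'.2) / ((starRingEnd ℂ) s.1 * s.1 + (starRingEnd ℂ) s.2 * s.2)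

theorem den_ne {s : ℂ × ℂ} (hs : s ≠ 0) :
    (starRingEnd ℂ) s.1 * s.1 + (starRingEnd ℂ) s.2 * s.2 ≠ 0 := by
  intro h
  rw [mul_comm, Complex.mul_conj, mul_comm ((starRingEnd ℂ) s.2), Complex.mul_conj] at h
  have h' : Complex.normSq s.1 + Complex.normSq s.2 = 0 := by exact_mod_cast h
  have h1 : Complex.normSq s.1 = 0 := by
    nlinarith [Complex.normSq_nonneg s.1, Complex.normSq_nonneg s.2]
  have h2 : Complex.normSq s.2 = 0 := by
    nlinarith [Complex.normSq_nonneg s.1, Complex.normSq_nonneg s.2]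
  exact hs (Prod.ext (Complex.normSq_eq_zero.1 h1) (Complex.normSq_eq_zero.1 h2))

theorem rat_smul {s : ℂ × ℂ} (hs : s ≠ 0) (c : ℂ) : rat s (c • s) = c := by
  rw [rat, div_eq_iff (den_ne hs)]
  simp only [Prod.smul_fst, Prod.smul_snd, smul_eq_mul]
  ring

theorem det_zero {v : S2} {s s' : ℂ × ℂ} (hs : s ∈ Ln v) (hs' : s' ∈ Ln v) :
    s.1 * s'.2 = s.2 * s'.1 := by
  have h1 := congrArg Prod.fst (show sg v s = s from hs)
  have h2 := congrArg Prod.snd (show sg v s = s from hs)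
  have h1' := congrArg Prod.fst (show sg v s' = s' from hs')
  have h2' := congrArg Prod.snd (show sg v s' = s' from hs')
  simp only [sg] at h1 h2 h1' h2'
  have hv := sq_sum v
  set a : ℂ := ((v : EuclideanSpace ℝ (Fin 3)) 0 : ℂ)
  set b : ℂ := ((v : EuclideanSpace ℝ (Fin 3)) 1 : ℂ)
  set d : ℂ := ((v : EuclideanSpace ℝ (Fin 3)) 2 : ℂ)
  -- (1-d) s1 = (a - bi) s2,  (a+bi) s1 = (1+d) s2
  have e1 : (1 - d) * (s.1 * s'.2 - s.2 * s'.1) = 0 := by
    linear_combination (-s'.2) * h1 + s.2 * h1'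
  have e2 : (1 + d) * (s.1 * s'.2 - s.2 * s'.1) = 0 := by
    linear_combination s.1 * (-h2') + s'.1 * h2
  linear_combination (e1 + e2) / 2

theorem eq_rat_smul {v : S2} {s s' : ℂ × ℂ} (hs : s ∈ Ln v) (hs' : s' ∈ Ln v) (h0 : s ≠ 0) :
    s' = rat s s' • s := by
  have hd := det_zero hs hs'
  have hn := den_ne h0
  apply Prod.ext
  · simp only [Prod.smul_fst, smul_eq_mul, rat]
    rw [div_mul_eq_mul_div, eq_div_iff hn]
    linear_combination (-(starRingEnd ℂ) s.2) * hd
  · simp only [Prod.smul_snd, smul_eq_mul, rat]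
    rw [div_mul_eq_mul_div, eq_div_iff hn]
    linear_combination ((starRingEnd ℂ) s.1) * hd

theorem rat_ne {v : S2} {s s' : ℂ × ℂ} (hs : s ∈ Ln v) (hs' : s' ∈ Ln v) (h0 : s ≠ 0)
    (h0' : s' ≠ 0) : rat s s' ≠ 0 := by
  intro h
  have := eq_rat_smul hs hs' h0
  rw [h, zero_smul] at this
  exact h0' this

theorem rat_mul {v : S2} {s s' s'' : ℂ × ℂ} (hs : s ∈ Ln v) (hs' : s' ∈ Ln v) (hs'' : s'' ∈ Ln v)
    (h0 : s ≠ 0) (h0' : s' ≠ 0) : rat s s'' = rat s s' * rat s' s'' := by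
  obtain ⟨c, hc⟩ : ∃ c, s' = c • s := ⟨_, eq_rat_smul hs hs' h0⟩
  obtain ⟨d, hd⟩ : ∃ d, s'' = d • s' := ⟨_, eq_rat_smul hs' hs'' h0'⟩
  have e1 : rat s s' = c := by rw [hc, rat_smul h0]
  have e2 : rat s' s'' = d := by rw [hd, rat_smul h0']
  have e3 : rat s s'' = d * c := by rw [hd, hc, smul_smul, rat_smul h0]
  rw [e1, e2, e3, mul_comm]

theorem rat_continuous {T : Type*} [TopologicalSpace T] {s s' : T → ℂ × ℂ} (hs : Continuous s)
    (hs' : Continuous s') (h0 : ∀ x, s x ≠ 0) : Continuous (fun x => rat (s x) (s' x)) := by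
  unfold rat
  refine Continuous.div ?_ ?_ (fun x => den_ne (h0 x))
  · have := hs.fst; have := hs.snd; have := hs'.fst; have := hs'.snd
    have c1 := Complex.continuous_conj.comp hs.fst
    have c2 := Complex.continuous_conj.comp hs.snd
    exact (c1.mul hs'.fst).add (c2.mul hs'.snd)
  · have c1 := Complex.continuous_conj.comp hs.fst
    have c2 := Complex.continuous_conj.comp hs.snd
    exact (c1.mul hs.fst).add (c2.mul hs.snd)

end

end Crest.Agent.S0163.A1
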