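/-
S0163 (row 123), package A1, part b: the phase cocycle.
-/
import Mathlib
import Crest.Agent.S0163_A1a

set_option autoImplicit false

open Real Set Filter Topology

namespace Crest.Agent.S0163.A1

noncomputable section

/-- the topological simplex with `n` vertices -/
abbrev Dl (n : ℕ) : Type := stdSimplex ℝ (Fin n)

/-- straight line contraction onto vertex `0` -/
def contrDl (n : ℕ) : Contr (Dl (n + 1)) where
  H p := ⟨(1 - (p.1 : ℝ)) • (stdSimplex.vertex (S := ℝ) (0 : Fin (n + 1)) : Fin (n + 1) → ℝ) +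
      (p.1 : ℝ) • (p.2 : Fin (n + 1) → ℝ),
    convex_stdSimplex ℝ (Fin (n + 1)) (stdSimplex.vertex (S := ℝ) (0 : Fin (n + 1))).2 p.2.2
      (by have := p.1.2.2; linarith) p.1.2.1 (by ring)⟩
  cont := by
    refine Continuous.subtype_mk ?_ _
    fun_prop
  x0 := stdSimplex.vertex (S := ℝ) (0 : Fin (n + 1))
  H0 x := by
    apply Subtype.ext
    simp
  H1 x := by
    apply Subtype.ext
    simp
    rfl

/-- pull back along a map of vertices -/
def pull {a b : ℕ} {M : Type*} (m : Fin a → Fin b) (σ : Dl b → M) : Dl a → M :=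
  fun x => σ (stdSimplex.map m x)

theorem pull_pull {a b c : ℕ} {M : Type*} (m : Fin a → Fin b) (m' : Fin b → Fin c) (σ : Dl c → M) :
    pull m (pull m' σ) = pull (m' ∘ m) σ := by
  funext x
  simp only [pull]
  rw [stdSimplex.map_comp_apply]

theorem pull_cont {a b : ℕ} {M : Type*} [TopologicalSpace M] (m : Fin a → Fin b) {σ : Dl b → M}
    (hσ : Continuous σ) : Continuous (pull m σ) :=
  hσ.comp (stdSimplex.continuous_map m)

/-- pull back of frames -/
def Fr.pull {a b : ℕ} (m : Fin a → Fin b) {σ : Dl b → S2} (F : Fr σ) : Fr (pull m σ) where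
  s := A1.pull m F.s
  cont := pull_cont m F.cont
  ne _ := F.ne _
  mem _ := F.mem _

/-- phase difference of two frames along an edge -/
def dd {g : Dl 2 → S2} (F G : Fr g) : ℂ :=
  inc (fun x => rat (F.s x) (G.s x)) (stdSimplex.vertex (S := ℝ) (0 : Fin 2)) (stdSimplex.vertex (S := ℝ) (1 : Fin 2))

theorem dd_add {g : Dl 2 → S2} (F G H : Fr g) : dd F H = dd F G + dd G H := by
  have h : (fun x => rat (F.s x) (H.s x)) = fun x => rat (F.s x) (G.s x) * rat (G.s x) (H.s x) := by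
    funext x
    exact rat_mul (F.mem x) (G.mem x) (H.mem x) (F.ne x) (G.ne x)
  rw [dd, h]
  exact inc_mul (contrDl 1) (rat_continuous F.cont G.cont F.ne)
    (fun x => rat_ne (F.mem x) (G.mem x) (F.ne x) (G.ne x))
    (rat_continuous G.cont H.cont G.ne)
    (fun x => rat_ne (G.mem x) (H.mem x) (G.ne x) (H.ne x)) _ _

/-- chosen frame of an edge (junk if not continuous) -/
def fr {n : ℕ} (g : Dl (n + 1) → S2) (hg : Continuous g) : Fr g :=
  (exists_fr (contrDl n) g hg).some

/-- phase of an edge relative to the chosen frame -/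
def ph1 (g : Dl 2 → S2) (hg : Continuous g) (G : Fr g) : ℂ := dd (fr g hg) G

/-- face of a 2-simplex -/
def Phi2 (σ : Dl 3 → S2) (hσ : Continuous σ) (F : Fr σ) : ℂ :=
  ph1 (pull (0 : Fin 3).succAbove σ) (pull_cont _ hσ) (F.pull _)
    - ph1 (pull (1 : Fin 3).succAbove σ) (pull_cont _ hσ) (F.pull _)
    + ph1 (pull (2 : Fin 3).succAbove σ) (pull_cont _ hσ) (F.pull _)

theorem ph1_sub (g : Dl 2 → S2) (hg : Continuous g) (F G : Fr g) :
    ph1 g hg G - ph1 g hg F = dd F G := by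
  rw [ph1, ph1, dd_add (fr g hg) F G]; ring

theorem dd_pull {σ : Dl 3 → S2} (F G : Fr σ) (m : Fin 2 → Fin 3) (l : C(Dl 3, ℂ))
    (hl : ∀ x, Complex.exp (l x) = rat (F.s x) (G.s x)) :
    dd (F.pull m) (G.pull m) = l (stdSimplex.vertex (m 1)) - l (stdSimplex.vertex (m 0)) := by
  have h := inc_eq (u := fun x => rat ((F.pull m).s x) ((G.pull m).s x))
    (l.comp ⟨stdSimplex.map m, stdSimplex.continuous_map m⟩) (fun x => by
      rw [ContinuousMap.comp_apply, hl]; rfl) (stdSimplex.vertex (S := ℝ) (0 : Fin 2))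
      (stdSimplex.vertex (S := ℝ) (1 : Fin 2))
  rw [dd, h]
  simp only [ContinuousMap.comp_apply, ContinuousMap.coe_mk, stdSimplex.map_vertex]

theorem Phi2_indep (σ : Dl 3 → S2) (hσ : Continuous σ) (F G : Fr σ) :
    Phi2 σ hσ F = Phi2 σ hσ G := by
  obtain ⟨l, hl⟩ := exists_log (contrDl 2) (fun x => rat (F.s x) (G.s x))
    (rat_continuous F.cont G.cont F.ne) (fun x => rat_ne (F.mem x) (G.mem x) (F.ne x) (G.ne x))
  have h0 := ph1_sub _ (pull_cont (0 : Fin 3).succAbove hσ) (F.pull _) (G.pull _)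
  have h1 := ph1_sub _ (pull_cont (1 : Fin 3).succAbove hσ) (F.pull _) (G.pull _)
  have h2 := ph1_sub _ (pull_cont (2 : Fin 3).succAbove hσ) (F.pull _) (G.pull _)
  rw [dd_pull F G _ l hl] at h0 h1 h2
  have e1 : (0 : Fin 3).succAbove (0 : Fin 2) = 1 := by decide
  have e2 : (0 : Fin 3).succAbove (1 : Fin 2) = 2 := by decide
  have e3 : (1 : Fin 3).succAbove (0 : Fin 2) = 0 := by decide
  have e4 : (1 : Fin 3).succAbove (1 : Fin 2) = 2 := by decide
  have e5 : (2 : Fin 3).succAbove (0 : Fin 2) = 0 := by decide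
  have e6 : (2 : Fin 3).succAbove (1 : Fin 2) = 1 := by decide
  rw [e1, e2] at h0
  rw [e3, e4] at h1
  rw [e5, e6] at h2
  rw [Phi2, Phi2]
  linear_combination -h0 + h1 - h2

/-- the phase cocycle -/
def phc (σ : Dl 3 → S2) (hσ : Continuous σ) : ℂ := Phi2 σ hσ (fr σ hσ)

theorem phc_eq (σ : Dl 3 → S2) (hσ : Continuous σ) (F : Fr σ) : phc σ hσ = Phi2 σ hσ F :=
  Phi2_indep σ hσ _ F

/-- congruence for `ph1` -/
theorem ph1_congr {g g' : Dl 2 → S2} (hgg : g = g') (hg : Continuous g) (hg' : Continuous g')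
    (G : Fr g) (G' : Fr g') (h : G.s = G'.s) : ph1 g hg G = ph1 g' hg' G' := by
  subst hgg
  have : G = G' := by
    cases G; cases G'; simp only at h; subst h; rfl
  rw [this]

theorem phc_cocycle (ρ : Dl 4 → S2) (hρ : Continuous ρ) :
    phc (pull (0 : Fin 4).succAbove ρ) (pull_cont _ hρ)
      - phc (pull (1 : Fin 4).succAbove ρ) (pull_cont _ hρ)
      + phc (pull (2 : Fin 4).succAbove ρ) (pull_cont _ hρ)
      - phc (pull (3 : Fin 4).succAbove ρ) (pull_cont _ hρ) = 0 := by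
  have R := fr ρ hρ
  -- value of an edge
  let E : (Fin 2 → Fin 4) → ℂ := fun m => ph1 (pull m ρ) (pull_cont _ hρ) (R.pull m)
  have key : ∀ (i : Fin 4) (j : Fin 3),
      ph1 (pull j.succAbove (pull i.succAbove ρ)) (pull_cont _ (pull_cont _ hρ))
        ((R.pull i.succAbove).pull j.succAbove) = E (i.succAbove ∘ j.succAbove) := by
    intro i j
    refine ph1_congr (pull_pull _ _ _) _ _ _ _ ?_
    exact pull_pull _ _ _
  have hP : ∀ i : Fin 4, phc (pull i.succAbove ρ) (pull_cont _ hρ) =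
      E (i.succAbove ∘ (0 : Fin 3).succAbove) - E (i.succAbove ∘ (1 : Fin 3).succAbove)
        + E (i.succAbove ∘ (2 : Fin 3).succAbove) := by
    intro i
    rw [phc_eq _ _ (R.pull i.succAbove), Phi2, key, key, key]
  rw [hP, hP, hP, hP]
  have a1 : (0 : Fin 4).succAbove ∘ (0 : Fin 3).succAbove = (1 : Fin 4).succAbove ∘ (0 : Fin 3).succAbove := by
    decide
  have a2 : (0 : Fin 4).succAbove ∘ (1 : Fin 3).succAbove = (2 : Fin 4).succAbove ∘ (0 : Fin 3).succAbove := by
    decide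
  have a3 : (0 : Fin 4).succAbove ∘ (2 : Fin 3).succAbove = (3 : Fin 4).succAbove ∘ (0 : Fin 3).succAbove := by
    decide
  have a4 : (1 : Fin 4).succAbove ∘ (1 : Fin 3).succAbove = (2 : Fin 4).succAbove ∘ (1 : Fin 3).succAbove := by
    decide
  have a5 : (1 : Fin 4).succAbove ∘ (2 : Fin 3).succAbove = (3 : Fin 4).succAbove ∘ (1 : Fin 3).succAbove := by
    decide
  have a6 : (2 : Fin 4).succAbove ∘ (2 : Fin 3).succAbove = (3 : Fin 4).succAbove ∘ (2 : Fin 3).succAbove := by
    decide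
  rw [a1, a2, a3, a4, a5, a6]
  ring

end

end Crest.Agent.S0163.A1
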