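/-
S0163 (row 123), package A1, part c: explicit simplices.
-/
import Mathlib
import Crest.Agent.S0163_A1b

set_option autoImplicit false

open Real Set Filter Topology

namespace Crest.Agent.S0163.A1

noncomputable section

/-! ### polar coordinates on the sphere -/

/-- `sin (c r) * h (A / r)` is jointly continuous for bounded continuous `h` -/
theorem cont_aux (c : ℝ) (h : ℝ → ℂ) (hh : Continuous h) (hb : ∀ x, ‖h x‖ ≤ 1) :
    Continuous (fun p : ℝ × ℝ => ((Real.sin (c * p.1) : ℝ) : ℂ) * h (p.2 / p.1)) := by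
  rw [continuous_iff_continuousAt]
  rintro ⟨r, A⟩
  by_cases hr : r = 0
  · subst hr
    rw [ContinuousAt]
    simp only [mul_zero, Real.sin_zero, Complex.ofReal_zero, zero_mul]
    have hlim : Tendsto (fun p : ℝ × ℝ => |Real.sin (c * p.1)|) (𝓝 ((0 : ℝ), A)) (𝓝 0) := by
      have : Continuous (fun p : ℝ × ℝ => |Real.sin (c * p.1)|) := by fun_prop
      have h2 := this.tendsto ((0 : ℝ), A)
      simpa using h2
    refine squeeze_zero_norm (fun p => ?_) hlim
    rw [norm_mul, Complex.norm_real, Real.norm_eq_abs]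
    exact mul_le_of_le_one_right (abs_nonneg _) (hb _)
  · have h1 : ContinuousAt (fun p : ℝ × ℝ => p.2 / p.1) (r, A) :=
      ContinuousAt.div continuousAt_snd continuousAt_fst hr
    have h2 : ContinuousAt (fun p : ℝ × ℝ => ((Real.sin (c * p.1) : ℝ) : ℂ)) (r, A) := by
      have : Continuous (fun p : ℝ × ℝ => ((Real.sin (c * p.1) : ℝ) : ℂ)) := by fun_prop
      exact this.continuousAt
    exact h2.mul (hh.continuousAt.comp h1)

/-- polar coordinates -/
def KapVec (r A : ℝ) : EuclideanSpace ℝ (Fin 3) :=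
  !₂[Real.sin (π * r) * Real.cos (A / r), Real.sin (π * r) * Real.sin (A / r), -Real.cos (π * r)]

theorem KapVec_norm (r A : ℝ) : ‖KapVec r A‖ = 1 := by
  have key : ‖KapVec r A‖ ^ 2 = 1 := by
    rw [EuclideanSpace.real_norm_sq_eq, Fin.sum_univ_three]
    simp only [KapVec, Fin.isValue, PiLp.toLp_apply, Matrix.cons_val_zero, Matrix.cons_val_one, Matrix.cons_val]
    have h1 := Real.sin_sq_add_cos_sq (π * r)
    have h2 := Real.sin_sq_add_cos_sq (A / r)
    linear_combination h1 + (Real.sin (π * r)) ^ 2 * h2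
  have h0 : 0 ≤ ‖KapVec r A‖ := norm_nonneg _
  nlinarith

def Kap (r A : ℝ) : S2 := ⟨KapVec r A, mem_sphere_zero_iff_norm.2 (KapVec_norm r A)⟩

theorem Kap_continuous : Continuous (fun p : ℝ × ℝ => Kap p.1 p.2) := by
  refine Continuous.subtype_mk ?_ _
  have c1 := cont_aux π (fun x => ((Real.cos x : ℝ) : ℂ)) (by fun_prop) (fun x => by
    rw [Complex.norm_real]; exact Real.abs_cos_le_one x)
  have c2 := cont_aux π (fun x => ((Real.sin x : ℝ) : ℂ)) (by fun_prop) (fun x => by
    rw [Complex.norm_real]; exact Real.abs_sin_le_one x)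
  have c1' := Complex.continuous_re.comp c1
  have c2' := Complex.continuous_re.comp c2
  unfold KapVec
  refine (PiLp.continuous_toLp 2 _).comp (continuous_pi fun i => ?_)
  fin_cases i
  · refine c1'.congr fun p => ?_
    simp only [Function.comp, ← Complex.ofReal_mul, Complex.ofReal_re]
    rfl
  · refine c2'.congr fun p => ?_
    simp only [Function.comp, ← Complex.ofReal_mul, Complex.ofReal_re]
    rfl
  · show Continuous (fun p : ℝ × ℝ => -Real.cos (π * p.1))
    fun_prop

theorem Kap_ext {r A r' A' : ℝ} (h0 : Real.sin (π * r) * Real.cos (A / r) = Real.sin (π * r') * Real.cos (A' / r'))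
    (h1 : Real.sin (π * r) * Real.sin (A / r) = Real.sin (π * r') * Real.sin (A' / r'))
    (h2 : Real.cos (π * r) = Real.cos (π * r')) : Kap r A = Kap r' A' := by
  apply Subtype.ext
  show KapVec r A = KapVec r' A'
  rw [KapVec, KapVec, h0, h1, h2]

theorem Kap_add (r A : ℝ) : Kap r (A + r * (2 * π)) = Kap r A := by
  by_cases hr : r = 0
  · subst hr
    apply Kap_ext <;> simp
  · have : (A + r * (2 * π)) / r = A / r + 2 * π := by field_simp
    apply Kap_ext
    · rw [this, Real.cos_add_two_pi]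
    · rw [this, Real.sin_add_two_pi]
    · rfl

theorem Kap_one (A B : ℝ) : Kap 1 A = Kap 1 B := by
  apply Kap_ext <;> simp

theorem Kap_val0 (r A : ℝ) : ((Kap r A : S2) : EuclideanSpace ℝ (Fin 3)) 0 = Real.sin (π * r) * Real.cos (A / r) := rfl
theorem Kap_val1 (r A : ℝ) : ((Kap r A : S2) : EuclideanSpace ℝ (Fin 3)) 1 = Real.sin (π * r) * Real.sin (A / r) := rfl
theorem Kap_val2 (r A : ℝ) : ((Kap r A : S2) : EuclideanSpace ℝ (Fin 3)) 2 = -Real.cos (π * r) := rfl

theorem dbl_Kap {r : ℝ} (hr0 : 0 ≤ r) (hr1 : r ≤ 1) (A : ℝ) : dbl (Kap r A) = Kap r (2 * A) := by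
  have hs : 0 ≤ Real.sin (π * r) :=
    Real.sin_nonneg_of_nonneg_of_le_pi (by positivity) (by nlinarith [Real.pi_pos])
  apply Subtype.ext
  show dblVec (Kap r A) = KapVec r (2 * A)
  rw [dblVec, Kap_val0, Kap_val1, Kap_val2, KapVec]
  have h1 : (Real.sin (π * r) * Real.cos (A / r)) ^ 2 + (Real.sin (π * r) * Real.sin (A / r)) ^ 2
      = Real.sin (π * r) ^ 2 := by
    linear_combination (Real.sin (π * r)) ^ 2 * Real.sin_sq_add_cos_sq (A / r)
  rw [h1, Real.sqrt_sq hs]
  have h2 : (2 * A) / r = 2 * (A / r) := by ring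
  rw [h2, Real.cos_two_mul, Real.sin_two_mul]
  by_cases h0 : Real.sin (π * r) = 0
  · rw [h0]; simp
  · congr 1
    have e1 : ((Real.sin (π * r) * Real.cos (A / r)) ^ 2 - (Real.sin (π * r) * Real.sin (A / r)) ^ 2) /
        Real.sin (π * r) = Real.sin (π * r) * (2 * Real.cos (A / r) ^ 2 - 1) := by
      rw [div_eq_iff h0]
      linear_combination (-(Real.sin (π * r)) ^ 2) * Real.sin_sq_add_cos_sq (A / r)
    have e2 : 2 * (Real.sin (π * r) * Real.cos (A / r)) * (Real.sin (π * r) * Real.sin (A / r)) /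
        Real.sin (π * r) = Real.sin (π * r) * (2 * Real.sin (A / r) * Real.cos (A / r)) := by
      rw [div_eq_iff h0]; ring
    rw [e1, e2]

/-! ### spinors over `Kap` -/

def spin (r A : ℝ) : ℂ × ℂ :=
  (((Real.sin (π / 2 * r) : ℝ) : ℂ) * Complex.exp (-((A / r : ℝ) : ℂ) * Complex.I), ((Real.cos (π / 2 * r) : ℝ) : ℂ))

theorem spin_continuous : Continuous (fun p : ℝ × ℝ => spin p.1 p.2) := by
  refine Continuous.prodMk ?_ ?_
  · refine cont_aux (π / 2) (fun x => Complex.exp (-(x : ℂ) * Complex.I)) (by fun_prop) (fun x => ?_)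
    rw [Complex.norm_exp]
    simp
  · fun_prop

theorem spin_ne (r A : ℝ) : spin r A ≠ 0 := by
  intro h
  have h1 := congrArg Prod.fst h
  have h2 := congrArg Prod.snd h
  simp only [spin, Prod.fst_zero, Prod.snd_zero, mul_eq_zero, Complex.exp_ne_zero, or_false,
    Complex.ofReal_eq_zero] at h1 h2
  have := Real.sin_sq_add_cos_sq (π / 2 * r)
  rw [h1, h2] at this
  norm_num at this

theorem spin_alg1 (S C s c : ℝ) :
    ((-(2 * C ^ 2 - 1) : ℝ) : ℂ) * ((S : ℂ) * ((c : ℂ) - (s : ℂ) * Complex.I)) +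
      (((2 * S * C * c : ℝ) : ℂ) - ((2 * S * C * s : ℝ) : ℂ) * Complex.I) * (C : ℂ) =
    (S : ℂ) * ((c : ℂ) - (s : ℂ) * Complex.I) := by
  push_cast; ring

theorem spin_alg2 (S C s c : ℝ) (h3 : S ^ 2 + C ^ 2 = 1) (h5 : c ^ 2 + s ^ 2 = 1) :
    (((2 * S * C * c : ℝ) : ℂ) + ((2 * S * C * s : ℝ) : ℂ) * Complex.I) *
        ((S : ℂ) * ((c : ℂ) - (s : ℂ) * Complex.I)) -
      ((-(2 * C ^ 2 - 1) : ℝ) : ℂ) * (C : ℂ) = (C : ℂ) := by
  have h3' : (S : ℂ) ^ 2 + (C : ℂ) ^ 2 = 1 := by exact_mod_cast h3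
  have h5' : (c : ℂ) ^ 2 + (s : ℂ) ^ 2 = 1 := by exact_mod_cast h5
  push_cast
  linear_combination (2 * (S : ℂ) ^ 2 * C) * h5' + 2 * (C : ℂ) * h3' - (2 * (S : ℂ) ^ 2 * C * s ^ 2) * Complex.I_sq

theorem spin_mem (r A : ℝ) : spin r A ∈ Ln (Kap r A) := by
  show sg (Kap r A) (spin r A) = spin r A
  have hpr : π * r = 2 * (π / 2 * r) := by ring
  have h1 : Real.sin (π * r) = 2 * Real.sin (π / 2 * r) * Real.cos (π / 2 * r) := by
    rw [hpr, Real.sin_two_mul]
  have h2 : Real.cos (π * r) = 2 * Real.cos (π / 2 * r) ^ 2 - 1 := by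
    rw [hpr, Real.cos_two_mul]
  have h3 := Real.sin_sq_add_cos_sq (π / 2 * r)
  have h4 : Complex.exp (-((A / r : ℝ) : ℂ) * Complex.I) =
      ((Real.cos (A / r) : ℝ) : ℂ) - ((Real.sin (A / r) : ℝ) : ℂ) * Complex.I := by
    rw [Complex.exp_mul_I, Complex.cos_neg, Complex.sin_neg, Complex.ofReal_cos, Complex.ofReal_sin]
    ring
  have h5 := Real.cos_sq_add_sin_sq (A / r)
  apply Prod.ext
  · simp only [sg, spin, Kap_val0, Kap_val1, Kap_val2, h4]
    rw [h1, h2]
    exact spin_alg1 _ _ _ _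
  · simp only [sg, spin, Kap_val0, Kap_val1, Kap_val2, h4]
    rw [h1, h2]
    exact spin_alg2 _ _ _ _ h3 h5

theorem spin_add (r A : ℝ) : spin r (A + r * (2 * π)) = spin r A := by
  by_cases hr : r = 0
  · subst hr
    simp [spin]
  · have : (A + r * (2 * π)) / r = A / r + 2 * π := by field_simp
    have h2 : Complex.exp (-((A / r + 2 * π : ℝ) : ℂ) * Complex.I) =
        Complex.exp (-((A / r : ℝ) : ℂ) * Complex.I) := by
      rw [Complex.exp_eq_exp_iff_exists_int]
      refine ⟨-1, ?_⟩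
      push_cast; ring
    rw [spin, spin, this, h2]

theorem spin_one (A : ℝ) : spin 1 A = (Complex.exp (-(A : ℂ) * Complex.I), 0) := by
  simp [spin]

/-! ### affine simplices in polar coordinates -/

/-- linear functional on the simplex -/
def lin {n : ℕ} (b : Fin n → ℝ) (x : Dl n) : ℝ := ∑ i, x i * b i

theorem lin_continuous {n : ℕ} (b : Fin n → ℝ) : Continuous (lin b) := by
  unfold lin
  refine continuous_finsetSum _ fun i _ => ?_
  have : Continuous (fun x : Dl n => (x : Fin n → ℝ) i) :=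
    (continuous_apply i).comp continuous_subtype_val
  exact this.mul continuous_const

theorem lin_map {a n : ℕ} (m : Fin a → Fin n) (b : Fin n → ℝ) (x : Dl a) :
    lin b (stdSimplex.map m x) = lin (b ∘ m) x := by
  simp only [lin, stdSimplex.map_coe, FunOnFinite.linearMap_apply_apply, Finset.sum_mul]
  rw [← Finset.sum_fiberwise Finset.univ m (fun i => x i * (b ∘ m) i)]
  refine Finset.sum_congr rfl fun j _ => Finset.sum_congr ?_ fun i hi => ?_
  · ext; simp
  · simp only [Finset.mem_filter, Finset.mem_univ, true_and] at hi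
    simp [hi]

def sim {n : ℕ} (b a : Fin n → ℝ) (x : Dl n) : S2 := Kap (lin b x) (lin a x)

theorem lin2_continuous {n : ℕ} (b a : Fin n → ℝ) :
    Continuous (fun x : Dl n => ((lin b x, lin a x) : ℝ × ℝ)) :=
  (lin_continuous b).prodMk (lin_continuous a)

theorem sim_continuous {n : ℕ} (b a : Fin n → ℝ) : Continuous (sim b a) :=
  Continuous.comp (g := fun p : ℝ × ℝ => Kap p.1 p.2) (f := fun x : Dl n => (lin b x, lin a x))
    Kap_continuous (lin2_continuous b a)

theorem pull_sim {k n : ℕ} (m : Fin k → Fin n) (b a : Fin n → ℝ) :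
    pull m (sim b a) = sim (b ∘ m) (a ∘ m) := by
  funext x
  simp only [pull, sim, lin_map]

/-- the explicit frame -/
def simFr {n : ℕ} (b a : Fin n → ℝ) : Fr (sim b a) where
  s x := spin (lin b x) (lin a x)
  cont := Continuous.comp (g := fun p : ℝ × ℝ => spin p.1 p.2)
    (f := fun x : Dl n => (lin b x, lin a x)) spin_continuous (lin2_continuous b a)
  ne _ := spin_ne _ _
  mem _ := spin_mem _ _

theorem simFr_pull_s {k n : ℕ} (m : Fin k → Fin n) (b a : Fin n → ℝ) :
    ((simFr b a).pull m).s = (simFr (b ∘ m) (a ∘ m)).s := by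
  funext x
  show spin (lin b (stdSimplex.map m x)) (lin a (stdSimplex.map m x)) = _
  rw [lin_map, lin_map]
  rfl

theorem lin_add {n : ℕ} (a b : Fin n → ℝ) (x : Dl n) : lin (a + b) x = lin a x + lin b x := by
  simp only [lin, Pi.add_apply, mul_add, Finset.sum_add_distrib]

theorem lin_smul {n : ℕ} (c : ℝ) (b : Fin n → ℝ) (x : Dl n) : lin (c • b) x = c * lin b x := by
  simp only [lin, Pi.smul_apply, smul_eq_mul, Finset.mul_sum]
  refine Finset.sum_congr rfl fun i _ => by ring

theorem lin_one {n : ℕ} (x : Dl n) : lin (fun _ => 1) x = 1 := by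
  simp only [lin, mul_one]
  exact stdSimplex.sum_eq_one x

/-- adding `2π` times the radial function to the angle does not change anything -/
theorem sim_add {n : ℕ} (b a : Fin n → ℝ) : sim b (a + (2 * π) • b) = sim b a := by
  funext x
  rw [sim, sim, lin_add, lin_smul, mul_comm (2 * π), Kap_add]

theorem simFr_add_s {n : ℕ} (b a : Fin n → ℝ) : (simFr b (a + (2 * π) • b)).s = (simFr b a).s := by
  funext x
  show spin (lin b x) (lin (a + (2 * π) • b) x) = spin (lin b x) (lin a x)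
  rw [lin_add, lin_smul, mul_comm (2 * π), spin_add]

theorem sim_one {n : ℕ} (a a' : Fin n → ℝ) : sim (fun _ => 1) a = sim (fun _ => 1) a' := by
  funext x
  rw [sim, sim, lin_one]
  exact Kap_one _ _

theorem dbl_sim {n : ℕ} (b a : Fin n → ℝ) (hb : ∀ i, 0 ≤ b i ∧ b i ≤ 1) (x : Dl n) :
    dbl (sim b a x) = sim b ((2 : ℝ) • a) x := by
  rw [sim, sim, lin_smul]
  refine dbl_Kap ?_ ?_ _
  · exact Finset.sum_nonneg fun i _ => mul_nonneg (stdSimplex.zero_le x i) (hb i).1
  · calc lin b x ≤ ∑ i, x i := Finset.sum_le_sum fun i _ =>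
          mul_le_of_le_one_right (stdSimplex.zero_le x i) (hb i).2
      _ = 1 := stdSimplex.sum_eq_one x

/-! ### evaluation of the cocycle -/

/-- the basic 2-simplex -/
abbrev σb : Fin 3 → ℝ := ![0, 1, 1]
abbrev σa : Fin 3 → ℝ := ![0, 0, 2 * π]

theorem phc_sub : phc (sim σb σa) (sim_continuous _ _) -
    phc (sim (fun _ => 1) (fun _ : Fin 3 => 0)) (sim_continuous _ _) = -(2 * π * Complex.I) := by
  rw [phc_eq _ _ (simFr σb σa), phc_eq _ _ (simFr (fun _ => 1) (fun _ : Fin 3 => 0)), Phi2, Phi2]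
  -- faces 1 and 2 agree
  have e12 : ph1 (pull (1 : Fin 3).succAbove (sim σb σa)) (pull_cont _ (sim_continuous _ _))
      ((simFr σb σa).pull _) = ph1 (pull (2 : Fin 3).succAbove (sim σb σa))
      (pull_cont _ (sim_continuous _ _)) ((simFr σb σa).pull _) := by
    have hb : σb ∘ (1 : Fin 3).succAbove = σb ∘ (2 : Fin 3).succAbove := by
      funext i; fin_cases i <;> rfl
    have ha : σa ∘ (1 : Fin 3).succAbove = σa ∘ (2 : Fin 3).succAbove +
        (2 * π) • (σb ∘ (2 : Fin 3).succAbove) := by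
      funext i; fin_cases i
      · show (0 : ℝ) = 0 + (2 * π) * 0
        ring
      · show (2 * π : ℝ) = 0 + (2 * π) * 1
        ring
    apply ph1_congr
    · rw [pull_sim, pull_sim, hb, ha, sim_add]
    · rw [simFr_pull_s, simFr_pull_s, hb, ha, simFr_add_s]
  have e12' : ph1 (pull (1 : Fin 3).succAbove (sim (fun _ => 1) (fun _ : Fin 3 => 0)))
      (pull_cont _ (sim_continuous _ _))
      ((simFr (fun _ => 1) (fun _ : Fin 3 => 0)).pull _) =
      ph1 (pull (2 : Fin 3).succAbove (sim (fun _ => 1) (fun _ : Fin 3 => 0)))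
      (pull_cont _ (sim_continuous _ _)) ((simFr (fun _ => 1) (fun _ : Fin 3 => 0)).pull _) := by
    apply ph1_congr
    · rw [pull_sim, pull_sim]; rfl
    · rw [simFr_pull_s, simFr_pull_s]; rfl
  rw [e12, e12']
  -- face 0
  have hb : σb ∘ (0 : Fin 3).succAbove = fun _ => 1 := by
    funext i; fin_cases i <;> rfl
  have hg : pull (0 : Fin 3).succAbove (sim σb σa) = sim (fun _ => 1) (fun _ : Fin 2 => 0) := by
    rw [pull_sim, hb]; exact sim_one _ _
  let a1 : Fin 2 → ℝ := ![0, 2 * π]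
  let F0 : Fr (sim (fun _ => 1) (fun _ : Fin 2 => 0)) := simFr _ _
  let F1 : Fr (sim (fun _ => 1) (fun _ : Fin 2 => 0)) :=
    ⟨(simFr (fun _ => 1) a1).s, (simFr (fun _ => 1) a1).cont, (simFr (fun _ => 1) a1).ne, by
      rw [sim_one _ a1]; exact (simFr (fun _ => 1) a1).mem⟩
  have k1 : ph1 (pull (0 : Fin 3).succAbove (sim σb σa)) (pull_cont _ (sim_continuous _ _))
      ((simFr σb σa).pull _) = ph1 _ (sim_continuous _ _) F1 := by
    apply ph1_congr hg
    rw [simFr_pull_s, hb]
    have ha : σa ∘ (0 : Fin 3).succAbove = a1 := by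
      funext i; fin_cases i <;> rfl
    rw [ha]
  have k2 : ph1 (pull (0 : Fin 3).succAbove (sim (fun _ => 1) (fun _ : Fin 3 => 0)))
      (pull_cont _ (sim_continuous _ _))
      ((simFr (fun _ => 1) (fun _ : Fin 3 => 0)).pull _) = ph1 _ (sim_continuous _ _) F0 := by
    apply ph1_congr
    · rw [pull_sim]; rfl
    · rw [simFr_pull_s]; rfl
  rw [k1, k2]
  have k3 := ph1_sub _ (sim_continuous _ _) F0 F1
  have k4 : dd F0 F1 = -(2 * π * Complex.I) := by
    have hc : Continuous (fun x : Dl 2 => -((lin a1 x : ℝ) : ℂ) * Complex.I) := by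
      have := lin_continuous a1
      fun_prop
    rw [dd, inc_eq ⟨_, hc⟩ ?_]
    · simp only [ContinuousMap.coe_mk, lin, Fin.sum_univ_two, stdSimplex.vertex_coe, a1]
      simp
    · intro x
      have h1 : F0.s x = (1, 0) := by
        show spin (lin (fun _ => 1) x) (lin (fun _ => 0) x) = (1, 0)
        rw [lin_one, spin_one]
        simp [lin]
      have h2 : F1.s x = (Complex.exp (-((lin a1 x : ℝ) : ℂ) * Complex.I)) • ((1 : ℂ), (0 : ℂ)) := by
        show spin (lin (fun _ => 1) x) (lin a1 x) = _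
        rw [lin_one, spin_one]
        simp
      rw [h2, h1, rat_smul (by simp)]
      rfl
  rw [← k4, ← k3]
  ring

end

end Crest.Agent.S0163.A1
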