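/-
S0163 (row 123), package A1: `homology_dbl`.
-/
import Mathlib
import Crest.Agent.S0163_A1c

set_option autoImplicit false

open Real Set Filter Topology
open CategoryTheory CategoryTheory.Limits Simplicial Opposite

namespace Crest.Agent.S0163.A1

noncomputable section

/-- the singular simplicial set of `S²` -/
abbrev SS : SSet.{0} := TopCat.toSSet.obj (TopCat.of S2)

abbrev RR : ModuleCat.{0} ℝ := ModuleCat.of ℝ ℝ

/-- the chain complex -/
abbrev KK : ChainComplex (ModuleCat.{0} ℝ) ℕ := SSet.chainComplex SS RR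

/-- the singular simplex of a continuous map -/
def mk (n : ℕ) (σ : Dl (n + 1) → S2) (hσ : Continuous σ) : SS _⦋n⦌ :=
  (TopCat.toSSetObjEquiv (TopCat.of S2) (op ⦋n⦌)).symm ⟨σ, hσ⟩

/-- the underlying continuous map -/
def un {n : ℕ} (x : SS _⦋n⦌) : C(Dl (n + 1), S2) :=
  TopCat.toSSetObjEquiv (TopCat.of S2) (op ⦋n⦌) x

theorem un_mk (n : ℕ) (σ : Dl (n + 1) → S2) (hσ : Continuous σ) : un (mk n σ hσ) = ⟨σ, hσ⟩ :=
  Equiv.apply_symm_apply _ _

theorem mk_congr {n : ℕ} {σ σ' : Dl (n + 1) → S2} (h : σ = σ') (hσ : Continuous σ)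
    (hσ' : Continuous σ') : mk n σ hσ = mk n σ' hσ' := by
  subst h; rfl

theorem un_δ {n : ℕ} (x : SS _⦋n + 1⦌) (i : Fin (n + 2)) :
    (un (SS.δ i x) : Dl (n + 1) → S2) = pull i.succAbove (un x) := rfl

theorem δ_mk {n : ℕ} (σ : Dl (n + 2) → S2) (hσ : Continuous σ) (i : Fin (n + 2)) :
    SS.δ i (mk (n + 1) σ hσ) = mk n (pull i.succAbove σ) (pull_cont _ hσ) := rfl

/-- the map induced by `dbl` -/
abbrev dblS : SS ⟶ SS := TopCat.toSSet.map (TopCat.ofHom dbl)

theorem dblS_mk {n : ℕ} (σ : Dl (n + 1) → S2) (hσ : Continuous σ) :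
    dblS.app (op ⦋n⦌) (mk n σ hσ) = mk n (fun x => dbl (σ x)) (dbl.continuous.comp hσ) := rfl

/-- the cochain -/
def ψ : KK.X 2 ⟶ ModuleCat.of ℝ ℂ :=
  Cofan.IsColimit.desc (SS.isColimitChainComplexXCofan RR 2)
    (fun x => ModuleCat.ofHom (LinearMap.toSpanSingleton ℝ ℂ (phc (un x) (un x).continuous)))

theorem ι_ψ (x : SS _⦋2⦌) : SS.ιChainComplex (R := RR) x ≫ ψ =
    ModuleCat.ofHom (LinearMap.toSpanSingleton ℝ ℂ (phc (un x) (un x).continuous)) :=
  Cofan.IsColimit.fac _ _ _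

theorem d_ψ : KK.d 3 2 ≫ ψ = 0 := by
  apply SSet.chainComplex_hom_ext
  intro x
  rw [comp_zero, ← Category.assoc, SSet.ιChainComplex_d]
  rw [Preadditive.sum_comp, Fin.sum_univ_four]
  simp only [Preadditive.zsmul_comp, ι_ψ]
  have h := phc_cocycle (un x) (un x).continuous
  apply ModuleCat.hom_ext
  apply LinearMap.ext_ring
  have e : ∀ i : Fin 4, phc (un (SS.δ i x)) (un (SS.δ i x)).continuous =
      phc (pull i.succAbove (un x)) (pull_cont _ (un x).continuous) := fun i => rfl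
  simp only [e]
  simp [-Fin.succAbove_zero]
  linear_combination h

/-- the basic cycle -/
def zz : RR ⟶ KK.X 2 :=
  SS.ιChainComplex (mk 2 (sim σb σa) (sim_continuous _ _)) -
    SS.ιChainComplex (mk 2 (sim (fun _ => 1) (fun _ : Fin 3 => 0)) (sim_continuous _ _))

theorem zz_d : zz ≫ KK.d 2 1 = 0 := by
  rw [zz, Preadditive.sub_comp, SSet.ιChainComplex_d, SSet.ιChainComplex_d, Fin.sum_univ_three,
    Fin.sum_univ_three]
  have e0 : SS.δ 0 (mk 2 (sim σb σa) (sim_continuous _ _)) =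
      SS.δ 0 (mk 2 (sim (fun _ => 1) (fun _ : Fin 3 => 0)) (sim_continuous _ _)) := by
    rw [δ_mk, δ_mk]
    apply mk_congr
    rw [pull_sim, pull_sim]
    have hb : σb ∘ (0 : Fin 3).succAbove = fun _ => 1 := by
      funext i; fin_cases i <;> rfl
    rw [hb]
    exact sim_one _ _
  have e12 : SS.δ 1 (mk 2 (sim σb σa) (sim_continuous _ _)) =
      SS.δ 2 (mk 2 (sim σb σa) (sim_continuous _ _)) := by
    rw [δ_mk, δ_mk]
    apply mk_congr
    rw [pull_sim, pull_sim]
    have hb : σb ∘ (1 : Fin 3).succAbove = σb ∘ (2 : Fin 3).succAbove := by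
      funext i; fin_cases i <;> rfl
    have ha : σa ∘ (1 : Fin 3).succAbove = σa ∘ (2 : Fin 3).succAbove +
        (2 * π) • (σb ∘ (2 : Fin 3).succAbove) := by
      funext i; fin_cases i
      · show (0 : ℝ) = 0 + (2 * π) * 0
        ring
      · show (2 * π : ℝ) = 0 + (2 * π) * 1
        ring
    rw [hb, ha, sim_add]
  have f12 : SS.δ 1 (mk 2 (sim (fun _ => 1) (fun _ : Fin 3 => 0)) (sim_continuous _ _)) =
      SS.δ 2 (mk 2 (sim (fun _ => 1) (fun _ : Fin 3 => 0)) (sim_continuous _ _)) := by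
    rw [δ_mk, δ_mk]
    apply mk_congr
    rw [pull_sim, pull_sim]
    rfl
  rw [e0, e12, f12]
  simp

/-- the 3-simplex -/
abbrev τb : Fin 4 → ℝ := ![0, 1, 1, 1]
abbrev τa : Fin 4 → ℝ := ![0, 0, 2 * π, 4 * π]

def tt : RR ⟶ KK.X 3 := SS.ιChainComplex (mk 3 (sim τb τa) (sim_continuous _ _))

theorem zz_dbl : zz ≫ (SSet.chainComplexMap dblS RR).f 2 = (2 : ℕ) • zz + tt ≫ KK.d 3 2 := by
  have h1 : zz ≫ (SSet.chainComplexMap dblS RR).f 2 =
      SS.ιChainComplex (mk 2 (sim σb ((2 : ℝ) • σa)) (sim_continuous _ _)) -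
      SS.ιChainComplex (mk 2 (sim (fun _ => 1) (fun _ : Fin 3 => 0)) (sim_continuous _ _)) := by
    rw [zz, Preadditive.sub_comp, SSet.ι_chainComplexMap_f, SSet.ι_chainComplexMap_f, dblS_mk, dblS_mk]
    congr 2
    · apply mk_congr
      funext x
      exact dbl_sim _ _ (fun i => by fin_cases i <;> simp [σb]) x
    · apply mk_congr
      funext x
      rw [dbl_sim _ _ (fun i => by simp) x]
      rw [sim_one _ (fun _ : Fin 3 => 0)]
  rw [h1, tt, SSet.ιChainComplex_d, Fin.sum_univ_four]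
  have e0 : SS.δ 0 (mk 3 (sim τb τa) (sim_continuous _ _)) =
      mk 2 (sim (fun _ => 1) (fun _ : Fin 3 => 0)) (sim_continuous _ _) := by
    rw [δ_mk]
    apply mk_congr
    rw [pull_sim]
    have hb : τb ∘ (0 : Fin 4).succAbove = fun _ => 1 := by
      funext i; fin_cases i <;> rfl
    rw [hb]
    exact sim_one _ _
  have e1 : SS.δ 1 (mk 3 (sim τb τa) (sim_continuous _ _)) =
      mk 2 (sim σb σa) (sim_continuous _ _) := by
    rw [δ_mk]
    apply mk_congr
    rw [pull_sim]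
    have hb : τb ∘ (1 : Fin 4).succAbove = σb := by
      funext i; fin_cases i <;> rfl
    have ha : τa ∘ (1 : Fin 4).succAbove = σa + (2 * π) • σb := by
      funext i; fin_cases i
      · show (0 : ℝ) = 0 + (2 * π) * 0
        ring
      · show (2 * π : ℝ) = 0 + (2 * π) * 1
        ring
      · show (4 * π : ℝ) = 2 * π + (2 * π) * 1
        ring
    rw [hb, ha, sim_add]
  have e2 : SS.δ 2 (mk 3 (sim τb τa) (sim_continuous _ _)) =
      mk 2 (sim σb ((2 : ℝ) • σa)) (sim_continuous _ _) := by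
    rw [δ_mk]
    apply mk_congr
    rw [pull_sim]
    have hb : τb ∘ (2 : Fin 4).succAbove = σb := by
      funext i; fin_cases i <;> rfl
    have ha : τa ∘ (2 : Fin 4).succAbove = (2 : ℝ) • σa := by
      funext i; fin_cases i
      · show (0 : ℝ) = 2 * 0
        ring
      · show (0 : ℝ) = 2 * 0
        ring
      · show (4 * π : ℝ) = 2 * (2 * π)
        ring
    rw [hb, ha]
  have e3 : SS.δ 3 (mk 3 (sim τb τa) (sim_continuous _ _)) =
      mk 2 (sim σb σa) (sim_continuous _ _) := by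
    rw [δ_mk]
    apply mk_congr
    rw [pull_sim]
    have hb : τb ∘ (3 : Fin 4).succAbove = σb := by
      funext i; fin_cases i <;> rfl
    have ha : τa ∘ (3 : Fin 4).succAbove = σa := by
      funext i; fin_cases i <;> rfl
    rw [hb, ha]
  rw [e0, e1, e2, e3, zz]
  simp
  abel

theorem zz_ψ : (zz ≫ ψ).hom (1 : ℝ) = -(2 * π * Complex.I) := by
  rw [zz, Preadditive.sub_comp, ι_ψ, ι_ψ]
  have h := phc_sub
  rw [ModuleCat.hom_sub, LinearMap.sub_apply]
  simp only [ModuleCat.hom_ofHom, LinearMap.toSpanSingleton_apply, one_smul]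
  exact h

/-- homology class of a cycle -/
def cls {L : ChainComplex (ModuleCat.{0} ℝ) ℕ} (k : RR ⟶ L.X 2) (hk : k ≫ L.d 2 1 = 0) :
    RR ⟶ L.homology 2 := L.liftCycles k 1 (by simp) hk ≫ L.homologyπ 2

theorem cls_dbl : cls zz zz_d ≫ HomologicalComplex.homologyMap (SSet.chainComplexMap dblS RR) 2 =
    (2 : ℕ) • cls zz zz_d := by
  rw [cls, Category.assoc, HomologicalComplex.homologyπ_naturality, ← Category.assoc,
    HomologicalComplex.liftCycles_comp_cyclesMap]
  have hb := HomologicalComplex.liftCycles_homologyπ_eq_zero_of_boundary KK (tt ≫ KK.d 3 2) 1 (by simp)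
    (i' := 3) tt rfl
  have key : KK.liftCycles (zz ≫ (SSet.chainComplexMap dblS RR).f 2) 1 (by simp)
      (by rw [Category.assoc, HomologicalComplex.Hom.comm, ← Category.assoc, zz_d, zero_comp]) =
      (2 : ℕ) • KK.liftCycles zz 1 (by simp) zz_d +
        KK.liftCycles (tt ≫ KK.d 3 2) 1 (by simp) (by rw [Category.assoc, KK.d_comp_d, comp_zero]) := by
    rw [← cancel_mono (KK.iCycles 2)]
    rw [HomologicalComplex.liftCycles_i, Preadditive.add_comp, Preadditive.nsmul_comp,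
      HomologicalComplex.liftCycles_i, HomologicalComplex.liftCycles_i, zz_dbl]
  rw [key, Preadditive.add_comp, hb, add_zero, Preadditive.nsmul_comp]

theorem cls_ne : (cls zz zz_d).hom (1 : ℝ) ≠ 0 := by
  intro h
  have h1 : cls zz zz_d ≫ (KK.homologyι 2 ≫ KK.descOpcycles ψ 3 (by simp) d_ψ) = zz ≫ ψ := by
    rw [cls, Category.assoc, HomologicalComplex.homology_π_ι_assoc, ← Category.assoc,
      HomologicalComplex.liftCycles_i, ]
    rw [HomologicalComplex.p_descOpcycles]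
  have h2 := zz_ψ
  rw [← h1, ModuleCat.hom_comp, LinearMap.comp_apply, h, map_zero] at h2
  have h3 : (2 * π * Complex.I : ℂ) = 0 := by
    have := congrArg Neg.neg h2.symm
    rwa [neg_neg, neg_zero] at this
  simp [Real.pi_ne_zero] at h3

end

end Crest.Agent.S0163.A1

namespace Crest.Agent.S0163

open Crest.Agent.S0163.A1 in
open AlgebraicTopology in
/-- A1: eigenvector in `H₂(S²;ℝ)` -/
theorem homology_dbl :
    ∃ c : ((singularHomologyFunctor (ModuleCat.{0} ℝ) 2).obj (ModuleCat.of ℝ ℝ)).obj (TopCat.of S2),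
      c ≠ 0 ∧
      (((singularHomologyFunctor (ModuleCat.{0} ℝ) 2).obj (ModuleCat.of ℝ ℝ)).map
        (TopCat.ofHom dbl)).hom c = (2 : ℝ) • c := by
  have h := congrArg (fun k => ModuleCat.Hom.hom k (1 : ℝ)) cls_dbl
  simp only [ModuleCat.hom_comp, LinearMap.comp_apply] at h
  rw [ModuleCat.hom_nsmul, LinearMap.smul_apply, two_nsmul, ← two_smul ℝ] at h
  exact ⟨(cls zz zz_d).hom (1 : ℝ), cls_ne, h⟩

end Crest.Agent.S0163
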