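/-
S0163 (row 123), package A2: continuity of `liftM F.G` and transfer of the eigenvector.
-/
import Crest.Agent.S0163_Defs

set_option autoImplicit false

open Real Set Filter Topology
open scoped unitInterval

namespace Crest.Agent.S0163

/-! ### coordinates on `S²` -/

theorem S2_sum (v : S2) : (v : EuclideanSpace ℝ (Fin 3)) 0 ^ 2 +
    (v : EuclideanSpace ℝ (Fin 3)) 1 ^ 2 + (v : EuclideanSpace ℝ (Fin 3)) 2 ^ 2 = 1 := by
  have := EuclideanSpace.real_norm_sq_eq (v : EuclideanSpace ℝ (Fin 3))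
  rw [norm_eq_of_mem_sphere v, Fin.sum_univ_three] at this
  linarith

theorem S2_two_le (v : S2) : (v : EuclideanSpace ℝ (Fin 3)) 2 ≤ 1 := by
  have := S2_sum v
  nlinarith [sq_nonneg ((v : EuclideanSpace ℝ (Fin 3)) 0), sq_nonneg ((v : EuclideanSpace ℝ (Fin 3)) 1)]

theorem S2_neg_one_le (v : S2) : -1 ≤ (v : EuclideanSpace ℝ (Fin 3)) 2 := by
  have := S2_sum v
  nlinarith [sq_nonneg ((v : EuclideanSpace ℝ (Fin 3)) 0), sq_nonneg ((v : EuclideanSpace ℝ (Fin 3)) 1)]

/-- continuous version of `cl` -/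
noncomputable def clc (v : S2) : ℂ :=
  ⟨(v : EuclideanSpace ℝ (Fin 3)) 0 / (1 - min ((v : EuclideanSpace ℝ (Fin 3)) 2) (1 / 2)),
      (v : EuclideanSpace ℝ (Fin 3)) 1 / (1 - min ((v : EuclideanSpace ℝ (Fin 3)) 2) (1 / 2))⟩

theorem coord_continuous (i : Fin 3) :
    Continuous (fun v : S2 => (v : EuclideanSpace ℝ (Fin 3)) i) := by
  fun_prop

theorem clc_continuous : Continuous clc := by
  have hne : ∀ v : S2, 1 - min ((v : EuclideanSpace ℝ (Fin 3)) 2) (1 / 2) ≠ 0 := by
    intro v
    have := min_le_right ((v : EuclideanSpace ℝ (Fin 3)) 2) (1 / 2)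
    intro h
    linarith
  have c2 : Continuous (fun v : S2 => 1 - min ((v : EuclideanSpace ℝ (Fin 3)) 2) (1 / 2)) :=
    continuous_const.sub ((coord_continuous 2).min continuous_const)
  have e : clc = fun v : S2 =>
      (((v : EuclideanSpace ℝ (Fin 3)) 0 / (1 - min ((v : EuclideanSpace ℝ (Fin 3)) 2) (1 / 2)) : ℝ) : ℂ) +
        (((v : EuclideanSpace ℝ (Fin 3)) 1 / (1 - min ((v : EuclideanSpace ℝ (Fin 3)) 2) (1 / 2)) : ℝ) : ℂ)
          * Complex.I := by
    funext v
    unfold clc
    rw [Complex.mk_eq_add_mul_I]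
  rw [e]
  have c0 := (coord_continuous 0).div c2 hne
  have c1 := (coord_continuous 1).div c2 hne
  exact (Complex.continuous_ofReal.comp c0).add
    ((Complex.continuous_ofReal.comp c1).mul continuous_const)

theorem cl_eq_clc {v : S2} (hv : (v : EuclideanSpace ℝ (Fin 3)) 2 ≤ 1 / 2) : cl v = clc v := by
  unfold cl clc
  rw [if_pos hv, min_eq_left hv]

theorem normSq_cl {v : S2} (hv : (v : EuclideanSpace ℝ (Fin 3)) 2 ≤ 1 / 2) :
    Complex.normSq (cl v) = (1 + (v : EuclideanSpace ℝ (Fin 3)) 2) /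
      (1 - (v : EuclideanSpace ℝ (Fin 3)) 2) := by
  unfold cl
  rw [if_pos hv, Complex.normSq_mk]
  have h1 : (1 - (v : EuclideanSpace ℝ (Fin 3)) 2) ≠ 0 := by
    intro h
    linarith
  have h2 := S2_sum v
  field_simp
  nlinarith [h2]

theorem one_lt_normSq_cl {v : S2} (hv : 0 < (v : EuclideanSpace ℝ (Fin 3)) 2) :
    1 < Complex.normSq (cl v) := by
  by_cases h : (v : EuclideanSpace ℝ (Fin 3)) 2 ≤ 1 / 2
  · rw [normSq_cl h, lt_div_iff₀ (by linarith)]
    linarith
  · unfold cl
    rw [if_neg h]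
    norm_num [Complex.normSq_apply]

theorem normSq_cl_le {v : S2} (hv : (v : EuclideanSpace ℝ (Fin 3)) 2 ≤ 0) :
    Complex.normSq (cl v) ≤ 1 := by
  rw [normSq_cl (by linarith), div_le_one (by linarith)]
  linarith

theorem normSq_le_nsq_left (z : V) : Complex.normSq z.1 ≤ nsq z := by
  unfold nsq
  have := Complex.normSq_nonneg z.2
  linarith

theorem normSq_le_nsq_right (z : V) : Complex.normSq z.2 ≤ nsq z := by
  unfold nsq
  have := Complex.normSq_nonneg z.1
  linarith

theorem one_le_nrm_of_left {z : V} (h : 1 ≤ Complex.normSq z.1) : 1 ≤ nrm z := by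
  unfold nrm
  rw [Real.one_le_sqrt]
  exact h.trans (normSq_le_nsq_left z)

theorem one_le_nrm_of_right {z : V} (h : 1 ≤ Complex.normSq z.2) : 1 ≤ nrm z := by
  unfold nrm
  rw [Real.one_le_sqrt]
  exact h.trans (normSq_le_nsq_right z)

/-! ### `iota` -/

theorem qcut_continuous : Continuous qcut := by
  unfold qcut
  have := Real.smoothTransition.continuous
  fun_prop

theorem iotaVec_continuous : Continuous iotaVec := by
  unfold iotaVec
  have := qcut_continuous
  have h2 : Continuous (fun x : ℂ => Complex.normSq x) := Complex.continuous_normSq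
  refine (PiLp.continuous_toLp 2 _).comp (continuous_pi fun i => ?_)
  fin_cases i
  · show Continuous (fun x : ℂ => 2 * qcut (Complex.normSq x) * x.re)
    have h3 := this.comp h2
    have h4 := Complex.continuous_re
    exact (continuous_const.mul h3).mul h4
  · show Continuous (fun x : ℂ => 2 * qcut (Complex.normSq x) * x.im)
    have h3 := this.comp h2
    have h4 := Complex.continuous_im
    exact (continuous_const.mul h3).mul h4
  · show Continuous (fun x : ℂ => Complex.normSq x - 1)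
    exact h2.sub continuous_const

theorem iota_continuous : Continuous iota := by
  unfold iota
  refine Continuous.subtype_mk ?_ _
  exact (iotaVec_continuous.norm.inv₀ fun x => norm_ne_zero_iff.2 (iotaVec_ne_zero x)).smul
    iotaVec_continuous

theorem qcut_of_ge {ρ : ℝ} (h : 4 ≤ ρ) : qcut ρ = 0 := by
  unfold qcut
  rw [Real.smoothTransition.one_of_one_le (by linarith)]
  ring

theorem qcut_of_le {ρ : ℝ} (h : ρ ≤ 2) : qcut ρ = 1 := by
  unfold qcut
  rw [Real.smoothTransition.zero_of_nonpos (by linarith)]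
  ring

theorem qcut_nonneg (ρ : ℝ) : 0 ≤ qcut ρ := by
  unfold qcut
  have := Real.smoothTransition.le_one ((ρ - 2) / 2)
  linarith

theorem iota_of_ge {x : ℂ} (h : 4 ≤ Complex.normSq x) : iota x = north := by
  have key : ∀ y : ℂ, 4 ≤ Complex.normSq y →
      (iota y : EuclideanSpace ℝ (Fin 3)) = !₂[(0 : ℝ), 0, 1] := by
    intro y hy
    have hv : iotaVec y = (Complex.normSq y - 1) • !₂[(0 : ℝ), 0, 1] := by
      unfold iotaVec
      rw [qcut_of_ge hy]
      ext i
      fin_cases i <;> simp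
    show ‖iotaVec y‖⁻¹ • iotaVec y = _
    have hn : ‖(!₂[(0 : ℝ), 0, 1] : EuclideanSpace ℝ (Fin 3))‖ = 1 := by
      rw [EuclideanSpace.norm_eq]
      simp [Fin.sum_univ_three]
    have hpos : 0 < Complex.normSq y - 1 := by linarith
    rw [hv, norm_smul, hn, mul_one, Real.norm_eq_abs, abs_of_pos hpos, smul_smul,
      inv_mul_cancel₀ hpos.ne', one_smul]
  apply Subtype.ext
  rw [key x h]
  unfold north
  rw [key 2 (by norm_num [Complex.normSq_apply])]

theorem coe_north : (north : EuclideanSpace ℝ (Fin 3)) = !₂[(0 : ℝ), 0, 1] := by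
  have hv : iotaVec 2 = (3 : ℝ) • !₂[(0 : ℝ), 0, 1] := by
    unfold iotaVec
    rw [qcut_of_ge (by norm_num [Complex.normSq_apply])]
    ext i
    fin_cases i <;> norm_num [Complex.normSq_apply]
  show ‖iotaVec 2‖⁻¹ • iotaVec 2 = _
  have hn : ‖(!₂[(0 : ℝ), 0, 1] : EuclideanSpace ℝ (Fin 3))‖ = 1 := by
    rw [EuclideanSpace.norm_eq]
    simp [Fin.sum_univ_three]
  rw [hv, norm_smul, hn, mul_one, Real.norm_eq_abs, abs_of_pos (by norm_num), smul_smul,
    inv_mul_cancel₀ (by norm_num), one_smul]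

theorem coe_south : (south : EuclideanSpace ℝ (Fin 3)) = !₂[(0 : ℝ), 0, -1] := by
  have hv : iotaVec 0 = !₂[(0 : ℝ), 0, -1] := by
    unfold iotaVec
    ext i
    fin_cases i <;> simp
  show ‖iotaVec 0‖⁻¹ • iotaVec 0 = _
  have hn : ‖(!₂[(0 : ℝ), 0, -1] : EuclideanSpace ℝ (Fin 3))‖ = 1 := by
    rw [EuclideanSpace.norm_eq]
    simp [Fin.sum_univ_three]
  rw [hv, hn, inv_one, one_smul]

theorem cl_south : cl south = 0 := by
  unfold cl
  rw [coe_south]
  rw [if_pos (by simp; norm_num)]
  apply Complex.ext <;> simp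

theorem pw_sq : pw (3 / 8) ^ 2 = 8 := by
  unfold pw
  rw [← Real.exp_nat_mul]
  have : ((2 : ℕ) : ℝ) * (3 / 8 * Real.log 16) = Real.log 8 := by
    have h16 : (16 : ℝ) = 2 ^ 4 := by norm_num
    have h8 : (8 : ℝ) = 2 ^ 3 := by norm_num
    rw [h16, h8, Real.log_pow, Real.log_pow]
    push_cast
    ring
  rw [this, Real.exp_log (by norm_num)]

theorem pw_pos (x : ℝ) : 0 < pw x := Real.exp_pos _

/-- the far value is the north pole -/
theorem iota_far {x : ℂ} (hx : 1 / 2 ≤ Complex.normSq x) :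
    iota (pw (3 / 8) * x ^ 2 / Complex.normSq x) = north := by
  apply iota_of_ge
  have h0 : Complex.normSq x ≠ 0 := by
    intro h
    rw [h] at hx
    norm_num at hx
  rw [map_div₀, map_mul, map_pow, Complex.normSq_ofReal, Complex.normSq_ofReal]
  have : pw (3 / 8) * pw (3 / 8) = 8 := by rw [← pow_two, pw_sq]
  rw [this]
  field_simp
  norm_num

/-! ### continuity of the fibre map over the circle -/

theorem FibreMap.G_arg (F : FibreMap) (z : V) (β : ℝ) :
    F.G z (Complex.arg (Circle.exp β)) = F.G z β := by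
  have h := Circle.exp_arg (Circle.exp β)
  obtain ⟨m, hm⟩ := Circle.exp_eq_exp.1 h
  have hp : Function.Periodic (F.G z) (2 * π) := F.periodic z
  rw [hm, hp.int_mul m β]

theorem FibreMap.continuous_arg (F : FibreMap) :
    Continuous (fun p : V × Circle => F.G p.1 (Complex.arg p.2)) := by
  have hq : IsQuotientMap (Prod.map (id : V → V) (Circle.exp : ℝ → Circle)) := by
    refine (IsOpenMap.id.prodMap isLocalHomeomorph_circleExp.isOpenMap).isQuotientMap
      (continuous_id.prodMap Circle.exp.continuous) ?_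
    exact Function.surjective_id.prodMap Circle.leftInverse_exp_arg.surjective
  rw [hq.continuous_iff]
  refine F.contDiff.continuous.congr fun p => ?_
  exact (F.G_arg p.1 p.2).symm

/-! ### continuity of `liftM` -/

theorem liftM_of_north (F : FibreMap) {p : Mt} (hp : 0 < (p.1 : EuclideanSpace ℝ (Fin 3)) 2) :
    liftM F.G p = (north, south, p.2.2 * Circle.exp 1) := by
  have h1 := one_lt_normSq_cl hp
  have h2 := F.far (cl p.1, cl p.2.1) (Complex.arg p.2.2)
    (one_le_nrm_of_left h1.le) (by show 1 / 2 ≤ Complex.normSq (cl p.1); linarith)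
  unfold liftM
  rw [h2]
  have h3 : iota (pw (3 / 8) * (cl p.1) ^ 2 / Complex.normSq (cl p.1)) = north :=
    iota_far (by linarith)
  exact Prod.ext h3 rfl

theorem liftM_continuous (F : FibreMap) : Continuous (liftM F.G) := by
  rw [continuous_iff_continuousAt]
  intro p
  have hc1 : Continuous (fun p : Mt => (p.1 : EuclideanSpace ℝ (Fin 3)) 2) := by fun_prop
  have hc2 : Continuous (fun p : Mt => (p.2.1 : EuclideanSpace ℝ (Fin 3)) 2) := by fun_prop
  have hb : Continuous (fun p : Mt => p.2.2 * Circle.exp 1) := by fun_prop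
  have gen : ∀ (c : Mt → V), Continuous c →
      Continuous (fun p : Mt => ((iota (F.G (c p) (Complex.arg p.2.2)).1,
        iota (F.G (c p) (Complex.arg p.2.2)).2, p.2.2 * Circle.exp 1) : Mt)) := by
    intro c hc
    have h1 : Continuous (fun p : Mt => F.G (c p) (Complex.arg p.2.2)) :=
      F.continuous_arg.comp (hc.prodMk (continuous_snd.comp continuous_snd))
    exact (iota_continuous.comp (continuous_fst.comp h1)).prodMk
      ((iota_continuous.comp (continuous_snd.comp h1)).prodMk hb)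
  rcases lt_or_ge 0 ((p.1 : EuclideanSpace ℝ (Fin 3)) 2) with h | h
  · have h1 : ∀ᶠ q in 𝓝 p, liftM F.G q = (north, south, q.2.2 * Circle.exp 1) := by
      filter_upwards [(isOpen_lt continuous_const hc1).mem_nhds h] with q hq
      exact liftM_of_north F hq
    refine ContinuousAt.congr ?_ (h1.mono fun q hq => hq.symm)
    exact (continuous_const.prodMk (continuous_const.prodMk hb)).continuousAt
  have h' : (p.1 : EuclideanSpace ℝ (Fin 3)) 2 < 1 / 2 := by linarith
  rcases lt_or_ge 0 ((p.2.1 : EuclideanSpace ℝ (Fin 3)) 2) with h2 | h2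
  · have h1 : ∀ᶠ q in 𝓝 p, liftM F.G q = ((iota (F.G (clc q.1, 2) (Complex.arg q.2.2)).1,
        iota (F.G (clc q.1, 2) (Complex.arg q.2.2)).2, q.2.2 * Circle.exp 1) : Mt) := by
      filter_upwards [(isOpen_lt continuous_const hc2).mem_nhds h2,
        (isOpen_lt hc1 continuous_const).mem_nhds h'] with q hq hq'
      have e1 : cl q.1 = clc q.1 := cl_eq_clc (le_of_lt hq')
      have e2 := F.outer (clc q.1, cl q.2.1) (clc q.1, 2) (Complex.arg q.2.2)
        (one_le_nrm_of_right (one_lt_normSq_cl hq).le)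
        (one_le_nrm_of_right (by norm_num [Complex.normSq_apply])) rfl
      unfold liftM
      rw [e1, e2]
    refine ContinuousAt.congr ?_ (h1.mono fun q hq => hq.symm)
    exact (gen (fun q => (clc q.1, 2))
      ((clc_continuous.comp continuous_fst).prodMk continuous_const)).continuousAt
  · have h2' : (p.2.1 : EuclideanSpace ℝ (Fin 3)) 2 < 1 / 2 := by linarith
    have h1 : ∀ᶠ q in 𝓝 p, liftM F.G q = ((iota (F.G (clc q.1, clc q.2.1) (Complex.arg q.2.2)).1,
        iota (F.G (clc q.1, clc q.2.1) (Complex.arg q.2.2)).2, q.2.2 * Circle.exp 1) : Mt) := by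
      filter_upwards [(isOpen_lt hc2 continuous_const).mem_nhds h2',
        (isOpen_lt hc1 continuous_const).mem_nhds h'] with q hq hq'
      unfold liftM
      rw [cl_eq_clc (le_of_lt hq'), cl_eq_clc (le_of_lt hq)]
    refine ContinuousAt.congr ?_ (h1.mono fun q hq => hq.symm)
    exact (gen (fun q => (clc q.1, clc q.2.1))
      ((clc_continuous.comp continuous_fst).prodMk
        (clc_continuous.comp (continuous_fst.comp continuous_snd)))).continuousAt

/-! ### the homotopy `f ∘ i ≃ i ∘ dbl` -/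

/-- `x² / |x|` -/
noncomputable def dq (x : ℂ) : ℂ := x ^ 2 / (‖x‖ : ℂ)

theorem dq_zero : dq 0 = 0 := by simp [dq]

theorem norm_dq (x : ℂ) : ‖dq x‖ = ‖x‖ := by
  unfold dq
  rw [norm_div, norm_pow, Complex.norm_real, norm_norm]
  by_cases hx : x = 0
  · simp [hx]
  · have : ‖x‖ ≠ 0 := norm_ne_zero_iff.2 hx
    field_simp

theorem dq_continuous : Continuous dq := by
  rw [continuous_iff_continuousAt]
  intro x
  by_cases hx : x = 0
  · subst hx
    rw [ContinuousAt, dq_zero]
    refine squeeze_zero_norm (a := fun x => ‖x‖) (fun y => (norm_dq y).le) ?_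
    simpa using (continuous_norm (E := ℂ)).tendsto 0
  · refine ContinuousAt.div (continuous_pow 2).continuousAt
      (Complex.continuous_ofReal.comp continuous_norm).continuousAt ?_
    simpa using hx

/-- interpolation in the fibre -/
noncomputable def zt (F : FibreMap) (p : I × S2) : V :=
  (1 - (p.1 : ℝ)) • F.G (clc p.2, 0) 0 + (p.1 : ℝ) • ((pw (3 / 8) : ℂ) * dq (clc p.2), (0 : ℂ))

theorem zt_continuous (F : FibreMap) : Continuous (zt F) := by
  unfold zt
  have h1 : Continuous (fun p : I × S2 => F.G (clc p.2, 0) 0) :=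
    F.contDiff.continuous.comp
      (((clc_continuous.comp continuous_snd).prodMk continuous_const).prodMk continuous_const)
  have h2 : Continuous (fun p : I × S2 => (((pw (3 / 8) : ℂ) * dq (clc p.2), (0 : ℂ)) : V)) :=
    (continuous_const.mul (dq_continuous.comp (clc_continuous.comp continuous_snd))).prodMk
      continuous_const
  have h3 : Continuous (fun p : I × S2 => (p.1 : ℝ)) := by fun_prop
  exact ((continuous_const.sub h3).smul h1).add (h3.smul h2)

theorem iota_zero : iota 0 = south := rfl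

/-- the inclusion of the sphere -/
noncomputable def incS : C(S2, Mt) where
  toFun v := (v, south, 1)
  continuous_toFun := by fun_prop

/-- the intermediate map -/
noncomputable def Dfun (v : S2) : S2 :=
  if (v : EuclideanSpace ℝ (Fin 3)) 2 ≤ 0 then iota ((pw (3 / 8) : ℂ) * dq (clc v)) else north

theorem normSq_eq_one_of {v : S2} (hv : (v : EuclideanSpace ℝ (Fin 3)) 2 = 0) :
    Complex.normSq (clc v) = 1 := by
  rw [← cl_eq_clc (by rw [hv]; norm_num), normSq_cl (by rw [hv]; norm_num), hv]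
  norm_num

theorem dq_of_normSq {x : ℂ} (hx : Complex.normSq x = 1) :
    (pw (3 / 8) : ℂ) * dq x = pw (3 / 8) * x ^ 2 / Complex.normSq x := by
  have h1 : ‖x‖ = 1 := by
    have := Complex.normSq_eq_norm_sq x
    rw [hx] at this
    nlinarith [norm_nonneg x]
  unfold dq
  rw [h1, hx]
  simp

theorem Dfun_continuous : Continuous Dfun := by
  unfold Dfun
  refine Continuous.if_le ?_ continuous_const (coord_continuous 2) continuous_const ?_
  · exact iota_continuous.comp (continuous_const.mul (dq_continuous.comp clc_continuous))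
  · intro v hv
    have h1 := normSq_eq_one_of hv
    rw [dq_of_normSq h1]
    exact iota_far (by rw [h1]; norm_num)

noncomputable def Dmap : C(S2, S2) := ⟨Dfun, Dfun_continuous⟩

noncomputable def H1fun (F : FibreMap) (p : I × S2) : Mt :=
  if (p.2 : EuclideanSpace ℝ (Fin 3)) 2 ≤ 0 then
    (iota (zt F p).1, iota (zt F p).2, Circle.exp (1 - (p.1 : ℝ)))
  else (north, south, Circle.exp (1 - (p.1 : ℝ)))

theorem H1fun_continuous (F : FibreMap) : Continuous (H1fun F) := by
  unfold H1fun
  have h3 : Continuous (fun p : I × S2 => Circle.exp (1 - (p.1 : ℝ))) := by fun_prop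
  refine Continuous.if_le ?_ ?_ ((coord_continuous 2).comp continuous_snd) continuous_const ?_
  · exact (iota_continuous.comp (continuous_fst.comp (zt_continuous F))).prodMk
      ((iota_continuous.comp (continuous_snd.comp (zt_continuous F))).prodMk h3)
  · exact continuous_const.prodMk (continuous_const.prodMk h3)
  · rintro ⟨t, v⟩ hv
    change (v : EuclideanSpace ℝ (Fin 3)) 2 = 0 at hv
    have h1 := normSq_eq_one_of hv
    have h2 := F.far (clc v, 0) 0 (one_le_nrm_of_left (by rw [h1])) (by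
      show 1 / 2 ≤ Complex.normSq (clc v)
      rw [h1]; norm_num)
    have h4 : zt F (t, v) = (pw (3 / 8) * clc v ^ 2 / Complex.normSq (clc v), 0) := by
      unfold zt
      rw [h2]
      simp only
      rw [dq_of_normSq h1, ← add_smul, sub_add_cancel, one_smul]
    rw [h4]
    refine Prod.ext ?_ rfl
    exact iota_far (by rw [h1]; norm_num)

theorem H1_homotopic (F : FibreMap) (f : C(Mt, Mt)) (hf : ⇑f = liftM F.G) :
    ContinuousMap.Homotopic (f.comp incS) (incS.comp Dmap) := by
  refine ⟨⟨⟨H1fun F, H1fun_continuous F⟩, fun v => ?_, fun v => ?_⟩⟩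
  · change H1fun F (0, v) = f (incS v)
    rw [hf]
    have harg : Complex.arg ((1 : Circle) : ℂ) = 0 := by simp
    unfold H1fun
    by_cases hv : (v : EuclideanSpace ℝ (Fin 3)) 2 ≤ 0
    · rw [if_pos hv]
      have hz : zt F (0, v) = F.G (clc v, 0) 0 := by
        unfold zt
        simp
      rw [hz]
      show _ = (iota (F.G (cl v, cl south) (Complex.arg ((1 : Circle) : ℂ))).1,
        iota (F.G (cl v, cl south) (Complex.arg ((1 : Circle) : ℂ))).2, 1 * Circle.exp 1)
      rw [harg, cl_south, cl_eq_clc (by linarith), one_mul]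
      simp
    · rw [if_neg hv]
      push Not at hv
      rw [liftM_of_north F (p := incS v) hv]
      show _ = (north, south, 1 * Circle.exp 1)
      rw [one_mul]
      simp
  · change H1fun F (1, v) = (Dfun v, south, 1)
    unfold H1fun Dfun
    by_cases hv : (v : EuclideanSpace ℝ (Fin 3)) 2 ≤ 0
    · rw [if_pos hv, if_pos hv]
      have hz : zt F (1, v) = ((pw (3 / 8) : ℂ) * dq (clc v), 0) := by
        unfold zt
        simp
      rw [hz]
      simp [iota_zero]
    · rw [if_neg hv, if_neg hv]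
      simp

/-- coordinates of `iota` -/
theorem iota_coord (x : ℂ) : ∃ k : ℝ, 0 ≤ k ∧
    (iota x : EuclideanSpace ℝ (Fin 3)) 0 = k * x.re ∧
    (iota x : EuclideanSpace ℝ (Fin 3)) 1 = k * x.im := by
  refine ⟨‖iotaVec x‖⁻¹ * (2 * qcut (Complex.normSq x)), ?_, ?_, ?_⟩
  · have := qcut_nonneg (Complex.normSq x)
    positivity
  · show (‖iotaVec x‖⁻¹ • iotaVec x) 0 = _
    simp [iotaVec]
    ring
  · show (‖iotaVec x‖⁻¹ • iotaVec x) 1 = _
    simp [iotaVec]
    ring

theorem D_ne_neg_dbl (v : S2) : (Dfun v : EuclideanSpace ℝ (Fin 3)) ≠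
    -(dbl v : EuclideanSpace ℝ (Fin 3)) := by
  intro h
  have hd : (dbl v : EuclideanSpace ℝ (Fin 3)) = dblVec v := rfl
  rw [hd] at h
  have g0 := congrArg (fun w : EuclideanSpace ℝ (Fin 3) => w 0) h
  have g1 := congrArg (fun w : EuclideanSpace ℝ (Fin 3) => w 1) h
  have g2 := congrArg (fun w : EuclideanSpace ℝ (Fin 3) => w 2) h
  simp only [PiLp.neg_apply] at g0 g1 g2
  have d0 : (dblVec v) 0 = ((v : EuclideanSpace ℝ (Fin 3)) 0 ^ 2 -
      (v : EuclideanSpace ℝ (Fin 3)) 1 ^ 2) /
      √((v : EuclideanSpace ℝ (Fin 3)) 0 ^ 2 + (v : EuclideanSpace ℝ (Fin 3)) 1 ^ 2) := by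
    simp [dblVec]
  have d1 : (dblVec v) 1 = 2 * (v : EuclideanSpace ℝ (Fin 3)) 0 *
      (v : EuclideanSpace ℝ (Fin 3)) 1 /
      √((v : EuclideanSpace ℝ (Fin 3)) 0 ^ 2 + (v : EuclideanSpace ℝ (Fin 3)) 1 ^ 2) := by
    simp [dblVec]
  have d2 : (dblVec v) 2 = (v : EuclideanSpace ℝ (Fin 3)) 2 := by
    simp [dblVec]
  rw [d0] at g0
  rw [d1] at g1
  rw [d2] at g2
  unfold Dfun at g0 g1 g2
  by_cases hv : (v : EuclideanSpace ℝ (Fin 3)) 2 ≤ 0
  · rw [if_pos hv] at g0 g1 g2
    set a := (v : EuclideanSpace ℝ (Fin 3)) 0 with ha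
    set b := (v : EuclideanSpace ℝ (Fin 3)) 1 with hb
    set c := (v : EuclideanSpace ℝ (Fin 3)) 2 with hc
    obtain ⟨k, hk, k0, k1⟩ := iota_coord ((pw (3 / 8) : ℂ) * dq (clc v))
    have hsum : a ^ 2 + b ^ 2 + c ^ 2 = 1 := S2_sum v
    have hclc : clc v = ⟨a / (1 - c), b / (1 - c)⟩ := by
      rw [← cl_eq_clc (by linarith)]
      unfold cl
      rw [if_pos (by linarith)]
    by_cases hs : a ^ 2 + b ^ 2 = 0
    · have ha0 : a = 0 := by nlinarith [sq_nonneg a, sq_nonneg b]
      have hb0 : b = 0 := by nlinarith [sq_nonneg a, sq_nonneg b]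
      have hx : clc v = 0 := by
        rw [hclc, ha0, hb0]
        apply Complex.ext <;> simp
      have hc1 : c = -1 := by nlinarith
      rw [hx, dq_zero, mul_zero, iota_zero, coe_south, hc1] at g2
      simp at g2
      norm_num at g2
    · have hpos : 0 < a ^ 2 + b ^ 2 := lt_of_le_of_ne (by positivity) (Ne.symm hs)
      have hsq : 0 < √(a ^ 2 + b ^ 2) := Real.sqrt_pos.2 hpos
      have hc' : 0 < 1 - c := by linarith
      -- the coordinates of `pw * dq x`
      have hn : 0 < ‖clc v‖ := by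
        rw [norm_pos_iff, hclc]
        intro h0
        have h1 := congrArg Complex.re h0
        have h2 := congrArg Complex.im h0
        simp at h1 h2
        rcases h1 with h1 | h1
        · rcases h2 with h2 | h2
          · apply hs
            rw [h1, h2]
            norm_num
          · linarith
        · linarith
      have hre : ((pw (3 / 8) : ℂ) * dq (clc v)).re =
          pw (3 / 8) / ((1 - c) ^ 2 * ‖clc v‖) * (a ^ 2 - b ^ 2) := by
        unfold dq
        rw [← mul_div_assoc, Complex.div_ofReal_re, Complex.re_ofReal_mul, pow_two,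
          Complex.mul_re, hclc]
        simp only
        field_simp
      have him : ((pw (3 / 8) : ℂ) * dq (clc v)).im =
          pw (3 / 8) / ((1 - c) ^ 2 * ‖clc v‖) * (2 * a * b) := by
        unfold dq
        rw [← mul_div_assoc, Complex.div_ofReal_im, Complex.im_ofReal_mul, pow_two,
          Complex.mul_im, hclc]
        simp only
        field_simp
        ring
      rw [k0, hre] at g0
      rw [k1, him] at g1
      set L := pw (3 / 8) / ((1 - c) ^ 2 * ‖clc v‖) with hL
      have hLpos : 0 < L := by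
        have := pw_pos (3 / 8)
        positivity
      have hfac : 0 < k * L + 1 / √(a ^ 2 + b ^ 2) := by positivity
      have e0 : (a ^ 2 - b ^ 2) * (k * L + 1 / √(a ^ 2 + b ^ 2)) = 0 := by
        have : (a ^ 2 - b ^ 2) * (k * L + 1 / √(a ^ 2 + b ^ 2)) =
          k * (L * (a ^ 2 - b ^ 2)) + (a ^ 2 - b ^ 2) / √(a ^ 2 + b ^ 2) := by ring
        rw [this, g0]
        ring
      have e1 : (2 * a * b) * (k * L + 1 / √(a ^ 2 + b ^ 2)) = 0 := by
        have : (2 * a * b) * (k * L + 1 / √(a ^ 2 + b ^ 2)) =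
          k * (L * (2 * a * b)) + (2 * a * b) / √(a ^ 2 + b ^ 2) := by ring
        rw [this, g1]
        ring
      have f0 : a ^ 2 - b ^ 2 = 0 := (mul_eq_zero.1 e0).resolve_right hfac.ne'
      have f1 : 2 * a * b = 0 := (mul_eq_zero.1 e1).resolve_right hfac.ne'
      have : (a ^ 2 + b ^ 2) ^ 2 = 0 := by
        have : (a ^ 2 + b ^ 2) ^ 2 = (a ^ 2 - b ^ 2) ^ 2 + (2 * a * b) ^ 2 := by ring
        rw [this, f0, f1]
        norm_num
      exact hs (pow_eq_zero_iff (by norm_num) |>.1 this)
  · rw [if_neg hv, coe_north] at g2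
    push Not at hv
    simp at g2
    linarith

theorem interp_ne_zero (t : ℝ) (a b : EuclideanSpace ℝ (Fin 3)) (ha : ‖a‖ = 1)
    (hb : ‖b‖ = 1) (ht0 : 0 ≤ t) (ht1 : t ≤ 1) (hab : a ≠ -b) : (1 - t) • a + t • b ≠ 0 := by
  intro h
  have h1 : (1 - t) • a = -(t • b) := eq_neg_of_add_eq_zero_left h
  have h2 := congrArg norm h1
  rw [norm_neg, norm_smul, norm_smul, ha, hb, mul_one, mul_one, Real.norm_eq_abs,
    Real.norm_eq_abs, abs_of_nonneg ht0, abs_of_nonneg (by linarith)] at h2
  have h3 : t = 1 / 2 := by linarith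
  rw [h3] at h1
  apply hab
  have h4 : (1 - 1 / 2 : ℝ) = 1 / 2 := by norm_num
  rw [h4, ← smul_neg] at h1
  exact smul_right_injective _ (by norm_num : (1 / 2 : ℝ) ≠ 0) h1

/-- the straight line in `ℝ³` -/
noncomputable def w2 (p : I × S2) : EuclideanSpace ℝ (Fin 3) :=
  (1 - (p.1 : ℝ)) • (Dfun p.2 : EuclideanSpace ℝ (Fin 3)) +
    (p.1 : ℝ) • (dbl p.2 : EuclideanSpace ℝ (Fin 3))

theorem w2_ne (p : I × S2) : w2 p ≠ 0 :=
  interp_ne_zero _ _ _ (norm_eq_of_mem_sphere _) (norm_eq_of_mem_sphere _) p.1.2.1 p.1.2.2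
    (D_ne_neg_dbl p.2)

theorem w2_continuous : Continuous w2 := by
  unfold w2
  have h1 : Continuous (fun p : I × S2 => (Dfun p.2 : EuclideanSpace ℝ (Fin 3))) :=
    continuous_subtype_val.comp (Dfun_continuous.comp continuous_snd)
  have h2 : Continuous (fun p : I × S2 => (dbl p.2 : EuclideanSpace ℝ (Fin 3))) :=
    continuous_subtype_val.comp (dbl.continuous.comp continuous_snd)
  have h3 : Continuous (fun p : I × S2 => (p.1 : ℝ)) := by fun_prop
  exact ((continuous_const.sub h3).smul h1).add (h3.smul h2)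

noncomputable def H2fun (p : I × S2) : S2 :=
  ⟨‖w2 p‖⁻¹ • w2 p, by
    have := w2_ne p
    rw [mem_sphere_zero_iff_norm, norm_smul, norm_inv, norm_norm]
    exact inv_mul_cancel₀ (norm_ne_zero_iff.2 this)⟩

theorem H2_homotopic : ContinuousMap.Homotopic Dmap dbl := by
  refine ⟨⟨⟨H2fun, ?_⟩, fun v => ?_, fun v => ?_⟩⟩
  · unfold H2fun
    refine Continuous.subtype_mk ?_ _
    exact (w2_continuous.norm.inv₀ fun x => norm_ne_zero_iff.2 (w2_ne x)).smul w2_continuous
  · apply Subtype.ext
    change ‖w2 (0, v)‖⁻¹ • w2 (0, v) = (Dfun v : EuclideanSpace ℝ (Fin 3))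
    have : w2 (0, v) = (Dfun v : EuclideanSpace ℝ (Fin 3)) := by
      unfold w2
      simp
    rw [this, norm_eq_of_mem_sphere, inv_one, one_smul]
  · apply Subtype.ext
    change ‖w2 (1, v)‖⁻¹ • w2 (1, v) = (dbl v : EuclideanSpace ℝ (Fin 3))
    have : w2 (1, v) = (dbl v : EuclideanSpace ℝ (Fin 3)) := by
      unfold w2
      simp
    rw [this, norm_eq_of_mem_sphere, inv_one, one_smul]

theorem liftM_homotopic (F : FibreMap) (f : C(Mt, Mt)) (hf : ⇑f = liftM F.G) :
    ContinuousMap.Homotopic (f.comp incS) (incS.comp dbl) :=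
  (H1_homotopic F f hf).trans (ContinuousMap.Homotopic.comp (ContinuousMap.Homotopic.refl incS)
    H2_homotopic)

/-! ### transfer of the eigenvector -/

open CategoryTheory AlgebraicTopology

/-- second homology with real coefficients -/
noncomputable abbrev H2R : TopCat.{0} ⥤ ModuleCat.{0} ℝ :=
  (singularHomologyFunctor (ModuleCat.{0} ℝ) 2).obj (ModuleCat.of ℝ ℝ)

theorem H2R_map_eq_of_homotopic {X Y : Type} [TopologicalSpace X] [TopologicalSpace Y]
    {f g : C(X, Y)} (h : ContinuousMap.Homotopic f g) :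
    H2R.map (TopCat.ofHom f) = H2R.map (TopCat.ofHom g) := by
  obtain ⟨H⟩ := h
  exact TopCat.Homotopy.congr_homologyMap_singularChainComplexFunctor
    (f := TopCat.ofHom f) (g := TopCat.ofHom g) H (ModuleCat.of ℝ ℝ) 2

theorem hasEigenvalue_liftM_of
    (hdbl : ∃ c : ((singularHomologyFunctor (ModuleCat.{0} ℝ) 2).obj (ModuleCat.of ℝ ℝ)).obj
        (TopCat.of S2), c ≠ 0 ∧
      (((singularHomologyFunctor (ModuleCat.{0} ℝ) 2).obj (ModuleCat.of ℝ ℝ)).map
        (TopCat.ofHom dbl)).hom c = (2 : ℝ) • c)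
    (F : FibreMap) (f : C(Mt, Mt)) (hf : ⇑f = liftM F.G) :
    Module.End.HasEigenvalue
      (((singularHomologyFunctor (ModuleCat.{0} ℝ) 2).obj (ModuleCat.of ℝ ℝ)).map
        (TopCat.ofHom f)).hom (2 : ℝ) := by
  obtain ⟨c, hc, hc2⟩ := hdbl
  let pr : C(Mt, S2) := ⟨fun p => p.1, continuous_fst⟩
  have hpr : H2R.map (TopCat.ofHom incS) ≫ H2R.map (TopCat.ofHom pr) = 𝟙 _ := by
    rw [← H2R.map_comp, ← H2R.map_id]
    rfl
  have hcomp : H2R.map (TopCat.ofHom incS) ≫ H2R.map (TopCat.ofHom f) =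
      H2R.map (TopCat.ofHom dbl) ≫ H2R.map (TopCat.ofHom incS) := by
    rw [← H2R.map_comp, ← H2R.map_comp]
    exact H2R_map_eq_of_homotopic (liftM_homotopic F f hf)
  refine Module.End.hasEigenvalue_of_hasEigenvector (x := (H2R.map (TopCat.ofHom incS)).hom c)
    ⟨Module.End.mem_eigenspace_iff.2 ?_, fun h0 => hc ?_⟩
  · have h1 := congrArg (fun g => g.hom c) hcomp
    change (H2R.map (TopCat.ofHom f)).hom ((H2R.map (TopCat.ofHom incS)).hom c) =
      (H2R.map (TopCat.ofHom incS)).hom ((H2R.map (TopCat.ofHom dbl)).hom c) at h1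
    refine h1.trans ?_
    rw [hc2]
    exact map_smul _ _ _
  · have h1 := congrArg (fun g => g.hom c) hpr
    change (H2R.map (TopCat.ofHom pr)).hom ((H2R.map (TopCat.ofHom incS)).hom c) = c at h1
    rw [← h1, h0, map_zero]

end Crest.Agent.S0163
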