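/-
S0163 (row 123), package B: the base functions.  See `ideas` row 123, section 2.
-/
import Crest.Agent.S0163_Defs

set_option autoImplicit false

open Real Set Filter Topology
open scoped ContDiff

namespace Crest.Agent.S0163.BD

noncomputable section

/-! ### the smooth transition -/

/-- abbreviation for the smooth transition -/
abbrev st : ℝ → ℝ := Real.smoothTransition

theorem st_contDiff : ContDiff ℝ 1 st := Real.smoothTransition.contDiff (n := 1)

theorem st_differentiable : Differentiable ℝ st := st_contDiff.differentiable (by norm_num)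

theorem st_deriv_continuous : Continuous (deriv st) := st_contDiff.continuous_deriv (by norm_num)

theorem st_deriv_of_nonpos {x : ℝ} (hx : x ≤ 0) : deriv st x = 0 := by
  refine IsLocalMin.deriv_eq_zero (Filter.Eventually.of_forall fun y => ?_)
  show st x ≤ st y
  have : st x = 0 := Real.smoothTransition.zero_of_nonpos hx
  rw [this]
  exact Real.smoothTransition.nonneg y

theorem st_deriv_of_one_le {x : ℝ} (hx : 1 ≤ x) : deriv st x = 0 := by
  refine IsLocalMax.deriv_eq_zero (Filter.Eventually.of_forall fun y => ?_)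
  show st y ≤ st x
  have : st x = 1 := Real.smoothTransition.one_of_one_le hx
  rw [this]
  exact Real.smoothTransition.le_one y

theorem exists_st_bound : ∃ C : ℕ, 1 ≤ C ∧ ∀ x, |deriv st x| ≤ C := by
  obtain ⟨C, hC⟩ := (isCompact_Icc (a := (0:ℝ)) (b := 1)).exists_bound_of_continuousOn
    st_deriv_continuous.continuousOn
  obtain ⟨N, hN⟩ := exists_nat_ge C
  refine ⟨N + 1, by omega, fun x => ?_⟩
  push_cast
  rcases le_total x 0 with h | h
  · rw [st_deriv_of_nonpos h, abs_zero]; positivity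
  rcases le_total 1 x with h' | h'
  · rw [st_deriv_of_one_le h', abs_zero]; positivity
  have := hC x ⟨h, h'⟩
  rw [Real.norm_eq_abs] at this
  linarith

/-- the bound of the derivative of the smooth transition -/
def Cs : ℕ := exists_st_bound.choose

theorem one_le_Cs : 1 ≤ Cs := exists_st_bound.choose_spec.1

theorem abs_deriv_st_le (x : ℝ) : |deriv st x| ≤ Cs := exists_st_bound.choose_spec.2 x

theorem one_le_Cs' : (1 : ℝ) ≤ Cs := by exact_mod_cast one_le_Cs

theorem st_nonneg (x : ℝ) : 0 ≤ st x := Real.smoothTransition.nonneg x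
theorem st_le_one (x : ℝ) : st x ≤ 1 := Real.smoothTransition.le_one x
theorem st_zero {x : ℝ} (hx : x ≤ 0) : st x = 0 := Real.smoothTransition.zero_of_nonpos hx
theorem st_one {x : ℝ} (hx : 1 ≤ x) : st x = 1 := Real.smoothTransition.one_of_one_le hx
theorem st_mono : Monotone st := Real.smoothTransition.monotone

theorem st_le_mul {x : ℝ} (hx : 0 ≤ x) : st x ≤ Cs * x := by
  have := Convex.norm_image_sub_le_of_norm_deriv_le (f := st) (C := Cs) (s := univ)
    (x := 0) (y := x) (fun x _ => st_differentiable x)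
    (fun x _ => by rw [Real.norm_eq_abs]; exact abs_deriv_st_le x) convex_univ
    (mem_univ _) (mem_univ _)
  rw [st_zero (le_refl 0), sub_zero, sub_zero, Real.norm_eq_abs, Real.norm_eq_abs,
    abs_of_nonneg (st_nonneg x), abs_of_nonneg hx] at this
  exact this

/-! ### distance to `1` on the circle -/

/-- `|e^{iβ} - 1|` -/
def dd (β : ℝ) : ℝ := ‖(Circle.exp β : ℂ) - 1‖

theorem dd_nonneg (β : ℝ) : 0 ≤ dd β := norm_nonneg _

theorem dd_sq (β : ℝ) : dd β ^ 2 = 2 - 2 * Real.cos β := by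
  unfold dd
  rw [← Complex.normSq_eq_norm_sq, Circle.coe_exp, Complex.normSq_apply]
  have h1 : (Complex.exp (β * Complex.I)).re = Real.cos β := Complex.exp_ofReal_mul_I_re β
  have h2 : (Complex.exp (β * Complex.I)).im = Real.sin β := Complex.exp_ofReal_mul_I_im β
  rw [Complex.sub_re, Complex.sub_im, h1, h2, Complex.one_re, Complex.one_im]
  nlinarith [Real.sin_sq_add_cos_sq β]

theorem dd_le_abs (β : ℝ) : dd β ≤ |β| := by
  have := Real.norm_exp_I_mul_ofReal_sub_one_le (x := β)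
  rw [mul_comm] at this
  unfold dd
  rw [Circle.coe_exp]
  exact this

theorem dd_sub_int (β : ℝ) (l : ℤ) : dd (β - l * (2 * π)) = dd β := by
  have h1 := dd_sq (β - l * (2 * π))
  rw [Real.cos_sub_int_mul_two_pi, ← dd_sq β] at h1
  exact (sq_eq_sq₀ (dd_nonneg _) (dd_nonneg _)).1 h1

theorem dd_add_le (β m : ℝ) : dd m ≤ dd (β + m) + dd β := by
  unfold dd
  have h1 : ‖(Circle.exp m : ℂ) - 1‖ = ‖((Circle.exp (β + m) : ℂ) - 1) - ((Circle.exp β : ℂ) - 1)‖ := by
    rw [Circle.exp_add, Circle.coe_mul]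
    have : (Circle.exp β : ℂ) * Circle.exp m - 1 - ((Circle.exp β : ℂ) - 1)
      = (Circle.exp β : ℂ) * ((Circle.exp m : ℂ) - 1) := by ring
    rw [this, norm_mul, Circle.norm_coe, one_mul]
  rw [h1]
  exact norm_sub_le _ _

theorem dd_pos {m : ℕ} (hm : 1 ≤ m) : 0 < dd m := by
  rw [lt_iff_le_and_ne]
  refine ⟨dd_nonneg _, fun h => ?_⟩
  have h1 := dd_sq m
  rw [← h] at h1
  have h2 : Real.cos m = 1 := by linarith
  obtain ⟨n, hn⟩ := (Real.cos_eq_one_iff (m : ℝ)).1 h2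
  have hm0 : (m : ℝ) ≠ 0 := by positivity
  have hn0 : (n : ℝ) ≠ 0 := by
    rintro h0
    rw [h0, zero_mul] at hn
    exact hm0 hn.symm
  apply irrational_pi
  refine ⟨(m : ℚ) / (2 * n), ?_⟩
  push_cast
  rw [← hn]
  field_simp

theorem exists_hit {ζ : ℝ} (hζ : 0 < ζ) : ∃ T : ℕ, ∀ β : ℝ, ∃ i : ℕ, 1 ≤ i ∧ i ≤ T ∧
    dd (β - i) ≤ ζ := by
  -- Dirichlet
  have hpi : (0:ℝ) < 2 * π := by positivity
  obtain ⟨n, hn⟩ := exists_nat_ge (2 * π / ζ)
  have hnpos : 0 < n := by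
    have : 0 < 2 * π / ζ := by positivity
    exact_mod_cast lt_of_lt_of_le this hn
  obtain ⟨j, k, hk0, hkn, hjk⟩ := Real.exists_int_int_abs_mul_sub_le (1 / (2 * π)) hnpos
  obtain ⟨θ, hθ⟩ : ∃ θ : ℝ, θ = k - 2 * π * j := ⟨_, rfl⟩
  have hk : ∃ k' : ℕ, (k' : ℤ) = k := ⟨k.toNat, Int.toNat_of_nonneg hk0.le⟩
  obtain ⟨k', hk'⟩ := hk
  have hkr : (k : ℝ) = k' := by exact_mod_cast hk'.symm
  have hk1 : 1 ≤ k' := by
    have : 0 < (k' : ℤ) := by rw [hk']; exact hk0
    exact_mod_cast this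
  have hθle : |θ| ≤ ζ := by
    have e : θ = 2 * π * (k * (1 / (2 * π)) - j) := by
      rw [hθ]; field_simp
    rw [e, abs_mul, abs_of_pos hpi]
    have h1 : 2 * π * |(k:ℝ) * (1 / (2 * π)) - j| ≤ 2 * π * (1 / (n + 1)) :=
      mul_le_mul_of_nonneg_left hjk hpi.le
    refine h1.trans ?_
    rw [mul_one_div, div_le_iff₀ (by positivity)]
    rw [div_le_iff₀ hζ] at hn
    nlinarith
  have hθ0 : θ ≠ 0 := by
    intro h0
    have h1 : dd (k' : ℝ) = 0 := by
      have h2 := dd_sub_int (k' : ℝ) j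
      have h3 : (k' : ℝ) - j * (2 * π) = θ := by rw [hθ, hkr]; ring
      rw [h3, h0] at h2
      rw [← h2]
      have := dd_le_abs 0
      rw [abs_zero] at this
      exact le_antisymm this (dd_nonneg _)
    exact (dd_pos hk1).ne' h1
  have hθpos : 0 < |θ| := abs_pos.2 hθ0
  have hp : 0 < 2 * π / |θ| := by positivity
  refine ⟨(⌈2 * π / |θ|⌉₊ + 1) * k', fun β => ?_⟩
  obtain ⟨y, hy⟩ : ∃ y, y = toIcoMod hp 1 (β / θ) := ⟨_, rfl⟩
  have hymem : y ∈ Set.Ico 1 (1 + 2 * π / |θ|) := hy ▸ toIcoMod_mem_Ico hp 1 (β / θ)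
  have hysub : β / θ - y = (toIcoDiv hp 1 (β / θ) : ℝ) * (2 * π / |θ|) := by
    rw [hy]
    have := self_sub_toIcoMod hp 1 (β / θ)
    rw [this, zsmul_eq_mul]
  obtain ⟨m, hm⟩ : ∃ m, m = ⌊y⌋₊ := ⟨_, rfl⟩
  have hy0 : 0 ≤ y := by linarith [hymem.1]
  have hm1 : 1 ≤ m := by
    rw [hm]; exact Nat.le_floor (by exact_mod_cast hymem.1)
  have hmy : (m : ℝ) ≤ y := hm ▸ Nat.floor_le hy0
  have hym : y < m + 1 := hm ▸ Nat.lt_floor_add_one y
  have hmT : m ≤ ⌈2 * π / |θ|⌉₊ + 1 := by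
    have h1 : (m : ℝ) < 1 + 2 * π / |θ| := lt_of_le_of_lt hmy hymem.2
    have h2 : 2 * π / |θ| ≤ ⌈2 * π / |θ|⌉₊ := Nat.le_ceil _
    have h3 : (m : ℝ) < (⌈2 * π / |θ|⌉₊ + 1 : ℕ) := by push_cast; linarith
    exact (by exact_mod_cast h3 : m < ⌈2 * π / |θ|⌉₊ + 1).le
  refine ⟨m * k', Nat.one_le_iff_ne_zero.2 (by positivity), Nat.mul_le_mul_right _ hmT, ?_⟩
  -- β - m k' = (β - m θ) - 2π (m j)
  have hsgn : ∃ s : ℤ, θ / |θ| = s := by
    rcases lt_or_gt_of_ne hθ0 with h | h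
    · refine ⟨-1, ?_⟩
      rw [abs_of_neg h]; push_cast; field_simp
    · refine ⟨1, ?_⟩
      rw [abs_of_pos h]; push_cast; field_simp
  obtain ⟨s, hs⟩ := hsgn
  have key : β - ((m * k' : ℕ) : ℝ) - ((toIcoDiv hp 1 (β / θ) * s - m * j : ℤ) : ℝ) * (2 * π)
      = θ * (y - m) := by
    have e1 : β = θ * (β / θ) := by field_simp
    have e2 : β / θ = y + (toIcoDiv hp 1 (β / θ) : ℝ) * (2 * π / |θ|) := by linarith
    have e3 : (k' : ℝ) = θ + 2 * π * j := by rw [hθ, hkr]; ring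
    have e4 : θ * (2 * π / |θ|) = s * (2 * π) := by rw [← hs]; ring
    push_cast
    rw [e3]
    have e5 : β = θ * y + (toIcoDiv hp 1 (β / θ) : ℝ) * (s * (2 * π)) := by
      rw [← e4]
      calc β = θ * (β / θ) := e1
        _ = θ * (y + (toIcoDiv hp 1 (β / θ) : ℝ) * (2 * π / |θ|)) := by rw [← e2]
        _ = _ := by ring
    obtain ⟨D, hD⟩ : ∃ D : ℝ, D = (toIcoDiv hp 1 (β / θ) : ℝ) := ⟨_, rfl⟩
    rw [← hD] at e5 ⊢
    rw [e5]
    ring
  rw [← dd_sub_int _ (toIcoDiv hp 1 (β / θ) * s - m * j), key]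
  refine (dd_le_abs _).trans ?_
  rw [abs_mul]
  have : |y - m| ≤ 1 := by rw [abs_le]; constructor <;> linarith
  calc |θ| * |y - m| ≤ |θ| * 1 := mul_le_mul_of_nonneg_left this hθpos.le
    _ ≤ ζ := by rw [mul_one]; exact hθle

/-! ### the cutoff functions -/

/-- `1` for `|e^{iβ} - 1| ≤ ζ`, `0` for `≥ 2ζ` -/
def psi (ζ β : ℝ) : ℝ := 1 - st ((2 - 2 * Real.cos β - ζ ^ 2) / (3 * ζ ^ 2))

theorem psi_contDiff (ζ : ℝ) : ContDiff ℝ 1 (psi ζ) := by
  unfold psi
  refine contDiff_const.sub (st_contDiff.comp (ContDiff.div_const ?_ _))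
  exact (contDiff_const.sub (contDiff_const.mul Real.contDiff_cos)).sub contDiff_const

theorem psi_differentiable (ζ : ℝ) : Differentiable ℝ (psi ζ) :=
  (psi_contDiff ζ).differentiable (by norm_num)

theorem psi_periodic (ζ β : ℝ) : psi ζ (β + 2 * π) = psi ζ β := by
  unfold psi
  rw [Real.cos_add_two_pi]

theorem psi_nonneg (ζ β : ℝ) : 0 ≤ psi ζ β := sub_nonneg.2 (st_le_one _)
theorem psi_le_one (ζ β : ℝ) : psi ζ β ≤ 1 := sub_le_self _ (st_nonneg _)

theorem psi_eq_one {ζ β : ℝ} (hζ : 0 < ζ) (h : dd β ≤ ζ) : psi ζ β = 1 := by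
  unfold psi
  rw [← dd_sq, st_zero, sub_zero]
  have : dd β ^ 2 ≤ ζ ^ 2 := pow_le_pow_left₀ (dd_nonneg _) h 2
  exact div_nonpos_of_nonpos_of_nonneg (by linarith) (by positivity)

theorem psi_eq_zero {ζ β : ℝ} (hζ : 0 < ζ) (h : 2 * ζ ≤ dd β) : psi ζ β = 0 := by
  unfold psi
  rw [← dd_sq, st_one, sub_self]
  have : (2 * ζ) ^ 2 ≤ dd β ^ 2 := pow_le_pow_left₀ (by positivity) h 2
  rw [le_div_iff₀ (by positivity)]
  linarith

theorem psi_mono {ζ ζ' : ℝ} (hζ : 0 < ζ) (h : ζ ≤ ζ') (β : ℝ) : psi ζ β ≤ psi ζ' β := by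
  unfold psi
  refine sub_le_sub_left (st_mono ?_) 1
  have hζ' : 0 < ζ' := hζ.trans_le h
  rw [← dd_sq]
  have e1 : ∀ z : ℝ, 0 < z → (dd β ^ 2 - z ^ 2) / (3 * z ^ 2) = dd β ^ 2 / (3 * z ^ 2) - 1 / 3 := by
    intro z hz
    field_simp
  rw [e1 _ hζ, e1 _ hζ']
  have : dd β ^ 2 / (3 * ζ' ^ 2) ≤ dd β ^ 2 / (3 * ζ ^ 2) := by
    apply div_le_div_of_nonneg_left (by positivity) (by positivity)
    have : ζ ^ 2 ≤ ζ' ^ 2 := pow_le_pow_left₀ hζ.le h 2
    linarith
  linarith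

theorem abs_deriv_psi_le {ζ : ℝ} (hζ : 0 < ζ) (β : ℝ) : |deriv (psi ζ) β| ≤ Cs / ζ ^ 2 := by
  have h1 : HasDerivAt (fun β => (2 - 2 * Real.cos β - ζ ^ 2) / (3 * ζ ^ 2))
      (2 * Real.sin β / (3 * ζ ^ 2)) β := by
    have := (((Real.hasDerivAt_cos β).const_mul 2).const_sub 2).sub_const (ζ ^ 2)
    have h2 := this.div_const (3 * ζ ^ 2)
    have e : -(2 * -Real.sin β) / (3 * ζ ^ 2) = 2 * Real.sin β / (3 * ζ ^ 2) := by ring
    rw [e] at h2
    exact h2
  have h2 : HasDerivAt (psi ζ)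
      (-(deriv st ((2 - 2 * Real.cos β - ζ ^ 2) / (3 * ζ ^ 2)) * (2 * Real.sin β / (3 * ζ ^ 2)))) β :=
    ((st_differentiable _).hasDerivAt.comp β h1).const_sub 1
  rw [h2.deriv, abs_neg, abs_mul, abs_div, abs_mul]
  have h3 := abs_deriv_st_le ((2 - 2 * Real.cos β - ζ ^ 2) / (3 * ζ ^ 2))
  have h4 := Real.abs_sin_le_one β
  have h5 : |(2:ℝ)| * |Real.sin β| / |3 * ζ ^ 2| ≤ 1 / ζ ^ 2 := by
    rw [abs_of_pos (by positivity : 0 < 3 * ζ ^ 2), abs_of_pos (by norm_num : (0:ℝ) < 2)]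
    rw [div_le_div_iff₀ (by positivity) (by positivity)]
    nlinarith [sq_nonneg ζ]
  calc _ ≤ (Cs : ℝ) * (1 / ζ ^ 2) := mul_le_mul h3 h5 (by positivity) (by positivity)
    _ = _ := by ring

/-! ### locally finite sums -/

/-- `∑_j f_j(E,β)`, when `f_j(E,·) = 0` for `E ≤ j`. -/
def lsum (f : ℕ → ℝ → ℝ → ℝ) (E β : ℝ) : ℝ := ∑ j ∈ Finset.range ⌈E⌉₊, f j E β

section lsum
variable {f : ℕ → ℝ → ℝ → ℝ} (hf : ∀ (j : ℕ) (E β : ℝ), E ≤ j → f j E β = 0)
include hf

theorem lsum_eq {n : ℕ} {E : ℝ} (hn : E ≤ n) (β : ℝ) : lsum f E β = ∑ j ∈ Finset.range n, f j E β := by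
  unfold lsum
  apply Finset.sum_subset (Finset.range_mono (Nat.ceil_le.2 hn))
  intro j _ hj
  apply hf
  rw [Finset.mem_range, not_lt] at hj
  exact Nat.ceil_le.1 hj

theorem lsum_contDiff (hc : ∀ j, ContDiff ℝ 1 (fun p : ℝ × ℝ => f j p.1 p.2)) :
    ContDiff ℝ 1 (fun p : ℝ × ℝ => lsum f p.1 p.2) := by
  rw [contDiff_iff_contDiffAt]
  intro p
  obtain ⟨n, hn⟩ := exists_nat_gt p.1
  have h1 : ContDiff ℝ 1 (fun p : ℝ × ℝ => ∑ j ∈ Finset.range n, f j p.1 p.2) :=
    ContDiff.sum fun j _ => hc j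
  refine h1.contDiffAt.congr_of_eventuallyEq ?_
  have : {q : ℝ × ℝ | q.1 < n} ∈ 𝓝 p := (isOpen_lt continuous_fst continuous_const).mem_nhds hn
  filter_upwards [this] with q hq
  exact lsum_eq hf hq.le q.2

theorem lsum_deriv_E {n : ℕ} {E : ℝ} (hn : E < n) (β : ℝ)
    (hd : ∀ j, DifferentiableAt ℝ (fun e => f j e β) E) :
    deriv (fun e => lsum f e β) E = ∑ j ∈ Finset.range n, deriv (fun e => f j e β) E := by
  have h1 : (fun e => lsum f e β) =ᶠ[𝓝 E] fun e => ∑ j ∈ Finset.range n, f j e β := by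
    filter_upwards [isOpen_Iio.mem_nhds hn] with e he
    exact lsum_eq hf (le_of_lt he) β
  rw [h1.deriv_eq]
  exact deriv_fun_sum fun j _ => hd j

theorem lsum_deriv_β {n : ℕ} {E : ℝ} (hn : E ≤ n) (β : ℝ)
    (hd : ∀ j, DifferentiableAt ℝ (fun b => f j E b) β) :
    deriv (fun b => lsum f E b) β = ∑ j ∈ Finset.range n, deriv (fun b => f j E b) β := by
  have h1 : (fun b => lsum f E b) = fun b => ∑ j ∈ Finset.range n, f j E b := by
    funext b
    exact lsum_eq hf hn b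
  rw [h1]
  exact deriv_fun_sum fun j _ => hd j

end lsum

/-! ### the parameters -/

/-- the sequences `M_j, ζ_j, E_j` -/
structure Par where
  M : ℕ → ℕ
  ζ : ℕ → ℝ
  e : ℕ → ℝ
  M_pos : ∀ j, 1 ≤ M j
  M_large : ∀ j, ((Cs : ℝ) + 1) * 32 * 2 ^ j ≤ M j
  ζ_pos : ∀ j, 0 < ζ j
  ζ_anti : Antitone ζ
  ζ_lim : ∀ ε > 0, ∃ j, ζ j < ε
  ζ_sep : ∀ j (m : ℕ), 1 ≤ m → m ≤ M j → 8 * ζ j ≤ dd m
  e_mono : Monotone e
  e_ge : ∀ j : ℕ, (j : ℝ) + 3 ≤ e j
  e_hit : ∀ j : ℕ, ∃ T : ℕ, (T : ℝ) + j ≤ e j ∧ ∀ β : ℝ, ∃ i : ℕ, 1 ≤ i ∧ i ≤ T ∧ dd (β - i) ≤ ζ j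
  e_exp : ∀ j, 2 ^ j / ζ j ^ 2 ≤ pw (e j / 16)

theorem exists_par : Nonempty Par := by
  -- M
  obtain ⟨M, hM⟩ : ∃ M : ℕ → ℕ, ∀ j, M j = (Cs + 1) * 32 * 2 ^ j := ⟨_, fun j => rfl⟩
  have hM1 : ∀ j, 1 ≤ M j := fun j => by rw [hM]; exact Nat.one_le_iff_ne_zero.2 (by positivity)
  -- eta
  have h1 : ∀ j, ∃ η : ℝ, 0 < η ∧ η ≤ 1 / 2 ∧ ∀ m : ℕ, 1 ≤ m → m ≤ M j → 8 * η ≤ dd m := by
    intro j
    have : ∀ n : ℕ, ∃ η : ℝ, 0 < η ∧ η ≤ 1 / 2 ∧ ∀ m : ℕ, 1 ≤ m → m ≤ n → 8 * η ≤ dd m := by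
      intro n
      induction n with
      | zero => exact ⟨1 / 2, by norm_num, le_refl _, fun m h1 h2 => by omega⟩
      | succ n ih =>
        obtain ⟨η, h1, h2, h3⟩ := ih
        have h4 : 0 < dd ((n + 1 : ℕ) : ℝ) := dd_pos (by omega)
        refine ⟨min η (dd ((n + 1 : ℕ) : ℝ) / 8), lt_min h1 (by positivity),
          (min_le_left _ _).trans h2, fun m h5 h6 => ?_⟩
        rcases Nat.lt_or_ge n m with h7 | h7
        · have : m = n + 1 := by omega
          rw [this]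
          have := min_le_right η (dd ((n + 1 : ℕ) : ℝ) / 8)
          linarith
        · have := min_le_left η (dd ((n + 1 : ℕ) : ℝ) / 8)
          have := h3 m h5 h7
          linarith
    exact this (M j)
  choose η hη0 hη1 hη2 using h1
  obtain ⟨ζ, hζ⟩ : ∃ ζ : ℕ → ℝ, ∀ j, ζ j = ∏ i ∈ Finset.range (j + 1), η i := ⟨_, fun j => rfl⟩
  have hζpos : ∀ j, 0 < ζ j := fun j => by rw [hζ]; exact Finset.prod_pos fun i _ => hη0 i
  have hζs : ∀ j, ζ (j + 1) = ζ j * η (j + 1) := fun j => by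
    rw [hζ, hζ, Finset.prod_range_succ]
  have hζanti : Antitone ζ := antitone_nat_of_succ_le fun j => by
    rw [hζs]
    have := hη1 (j + 1)
    nlinarith [hζpos j]
  have hζle : ∀ j, ζ j ≤ η j := fun j => by
    rw [hζ, Finset.prod_range_succ]
    have : ∏ i ∈ Finset.range j, η i ≤ 1 :=
      Finset.prod_le_one (fun i _ => (hη0 i).le) fun i _ => (hη1 i).trans (by norm_num)
    nlinarith [hη0 j]
  have hζpow : ∀ j, ζ j ≤ (1 / 2) ^ (j + 1) := fun j => by
    rw [hζ]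
    calc ∏ i ∈ Finset.range (j + 1), η i ≤ ∏ i ∈ Finset.range (j + 1), (1 / 2 : ℝ) :=
          Finset.prod_le_prod (fun i _ => (hη0 i).le) fun i _ => hη1 i
      _ = _ := by rw [Finset.prod_const, Finset.card_range]
  -- e
  have h2 : ∀ j : ℕ, ∃ A : ℝ, (j : ℝ) + 3 ≤ A ∧ (∃ T : ℕ, (T : ℝ) + j ≤ A ∧
      ∀ β : ℝ, ∃ i : ℕ, 1 ≤ i ∧ i ≤ T ∧ dd (β - i) ≤ ζ j) ∧ 2 ^ j / ζ j ^ 2 ≤ pw (A / 16) := by
    intro j
    obtain ⟨T, hT⟩ := exists_hit (hζpos j)
    have hlim : Tendsto (fun A : ℝ => pw (A / 16)) atTop atTop := by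
      unfold pw
      refine Real.tendsto_exp_atTop.comp ?_
      refine Tendsto.atTop_mul_const (Real.log_pos (by norm_num)) ?_
      exact Tendsto.atTop_div_const (by norm_num) tendsto_id
    obtain ⟨A, h3, h4, h5⟩ := ((hlim.eventually_ge_atTop (2 ^ j / ζ j ^ 2)).and
      ((eventually_ge_atTop ((j : ℝ) + 3)).and (eventually_ge_atTop ((T : ℝ) + j)))).exists
    exact ⟨A, h4, ⟨T, h5, hT⟩, h3⟩
  choose A hA1 hA2 hA3 using h2
  have hA0 : ∀ j, 0 ≤ A j := fun j => by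
    have := hA1 j
    have : (0:ℝ) ≤ j := by positivity
    linarith
  obtain ⟨e, he⟩ : ∃ e : ℕ → ℝ, ∀ j, e j = ∑ i ∈ Finset.range (j + 1), A i := ⟨_, fun j => rfl⟩
  have heA : ∀ j, A j ≤ e j := fun j => by
    rw [he, Finset.sum_range_succ]
    have : 0 ≤ ∑ i ∈ Finset.range j, A i := Finset.sum_nonneg fun i _ => hA0 i
    linarith
  have hemono : Monotone e := monotone_nat_of_le_succ fun j => by
    rw [he, he, Finset.sum_range_succ _ (j + 1)]
    linarith [hA0 (j + 1)]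
  refine ⟨⟨M, ζ, e, hM1, ?_, hζpos, hζanti, ?_, ?_, hemono, fun j => (hA1 j).trans (heA j), ?_, ?_⟩⟩
  · intro j
    rw [hM]; push_cast; exact le_refl _
  · intro ε hε
    obtain ⟨j, hj⟩ := exists_pow_lt_of_lt_one hε (by norm_num : (1 / 2 : ℝ) < 1)
    refine ⟨j, (hζpow j).trans_lt (lt_of_le_of_lt ?_ hj)⟩
    exact pow_le_pow_of_le_one (by norm_num) (by norm_num) (by omega)
  · intro j m h3 h4
    have := hη2 j m h3 h4
    linarith [hζle j]
  · intro j
    obtain ⟨T, hT1, hT2⟩ := hA2 j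
    exact ⟨T, hT1.trans (heA j), hT2⟩
  · intro j
    refine (hA3 j).trans ?_
    unfold pw
    apply Real.exp_le_exp.2
    have : 0 < Real.log 16 := Real.log_pos (by norm_num)
    have := heA j
    gcongr

/-! ### scaled steps -/

theorem step_contDiff (a c : ℝ) : ContDiff ℝ 1 (fun e : ℝ => st ((e - a) / c)) :=
  st_contDiff.comp ((contDiff_id.sub contDiff_const).div_const _)

theorem step_hasDerivAt (a c E : ℝ) :
    HasDerivAt (fun e : ℝ => st ((e - a) / c)) (deriv st ((E - a) / c) * (1 / c)) E :=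
  (st_differentiable _).hasDerivAt.comp E (((hasDerivAt_id E).sub_const a).div_const c)

theorem step_mul_le {a c ζ : ℝ} {j : ℕ} (hc : 0 < c) (h : 2 ^ j / ζ ^ 2 ≤ pw (a / 16)) (E : ℝ) :
    st ((E - a) / c) * (1 / ζ ^ 2) ≤ (1 / 2) ^ j * pw (E / 16) := by
  have hlog : 0 < Real.log 16 := Real.log_pos (by norm_num)
  have hpw : 0 < pw (E / 16) := Real.exp_pos _
  rcases le_total E a with h1 | h1
  · rw [st_zero (div_nonpos_of_nonpos_of_nonneg (by linarith) hc.le), zero_mul]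
    positivity
  · have h2 : pw (a / 16) ≤ pw (E / 16) := by
      unfold pw
      apply Real.exp_le_exp.2
      gcongr
    have h3 : st ((E - a) / c) * (1 / ζ ^ 2) ≤ 1 * (1 / ζ ^ 2) :=
      mul_le_mul_of_nonneg_right (st_le_one _) (by positivity)
    refine h3.trans ?_
    rw [one_mul]
    have h4 : 1 / ζ ^ 2 = (1 / 2) ^ j * (2 ^ j / ζ ^ 2) := by
      rw [← mul_div_assoc, ← mul_pow]
      norm_num
    rw [h4]
    exact mul_le_mul_of_nonneg_left (h.trans h2) (by positivity)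

theorem sum_half_le (n : ℕ) : ∑ j ∈ Finset.range n, ((1:ℝ) / 2) ^ j ≤ 2 := by
  have := geom_sum_eq (by norm_num : (1 / 2 : ℝ) ≠ 1) n
  rw [this]
  have h : (0:ℝ) ≤ (1 / 2) ^ n := by positivity
  have e : (((1:ℝ) / 2) ^ n - 1) / (1 / 2 - 1) = 2 - 2 * (1 / 2) ^ n := by ring
  rw [e]
  linarith

/-! ### the separated sums -/

/-- counting lemma: the sum over a `M`-separated set -/
theorem sep_sum_le {M : ℕ} (hM : 1 ≤ M) (n : ℕ) : ∀ (χ : ℝ → ℝ), (∀ β, 0 ≤ χ β) → (∀ β, χ β ≤ 1) →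
    (∀ β, χ β ≠ 0 → ∀ m : ℕ, 1 ≤ m → m ≤ M → χ (β + m) = 0) →
    ∀ E β : ℝ, ∑ k ∈ Finset.range n, st ((E - k) / M) * χ (β + k) ≤ (Cs + 1) * max E 0 / M := by
  induction n using Nat.strong_induction_on with
  | _ n ih =>
  intro χ h0 h1 hsep E β
  have hMr : (0 : ℝ) < M := by exact_mod_cast hM
  have hCs := one_le_Cs'
  rcases Nat.eq_zero_or_pos n with hn | hn
  · rw [hn, Finset.sum_range_zero]
    positivity
  obtain ⟨n', rfl⟩ := Nat.exists_eq_succ_of_ne_zero hn.ne'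
  by_cases hχ : χ β = 0
  · -- shift by one
    have e1 : ∑ k ∈ Finset.range (n' + 1), st ((E - k) / M) * χ (β + k)
        = ∑ k ∈ Finset.range n', st ((E - 1 - k) / M) * χ (β + 1 + k) := by
      rw [Finset.sum_range_succ']
      have : χ (β + ((0 : ℕ) : ℝ)) = 0 := by rw [Nat.cast_zero, add_zero]; exact hχ
      rw [this, mul_zero, add_zero]
      apply Finset.sum_congr rfl
      intro k _
      have e2 : E - ((k + 1 : ℕ) : ℝ) = E - 1 - k := by push_cast; ring
      have e3 : β + ((k + 1 : ℕ) : ℝ) = β + 1 + k := by push_cast; ring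
      rw [e2, e3]
    rw [e1]
    refine (ih n' (by omega) χ h0 h1 hsep (E - 1) (β + 1)).trans ?_
    have : max (E - 1) 0 ≤ max E 0 := max_le_max (by linarith) le_rfl
    gcongr
  · -- the terms 1..M vanish
    have hz : ∀ m : ℕ, 1 ≤ m → m ≤ M → χ (β + m) = 0 := hsep β hχ
    have hfirst : st (E / M) * χ β ≤ min 1 (Cs * (max E 0 / M)) := by
      apply le_min
      · exact mul_le_one₀ (st_le_one _) (h0 _) (h1 _)
      · rcases le_total E 0 with hE | hE
        · rw [st_zero (div_nonpos_of_nonpos_of_nonneg hE hMr.le), zero_mul]; positivity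
        · have h2 := st_le_mul (x := E / M) (by positivity)
          rw [max_eq_left hE]
          have h3 : st (E / M) * χ β ≤ st (E / M) * 1 :=
            mul_le_mul_of_nonneg_left (h1 _) (st_nonneg _)
          linarith
    rcases Nat.lt_or_ge M (n' + 1) with hMn | hMn
    · -- n' + 1 = (M + 1) + n''
      obtain ⟨n'', hn''⟩ : ∃ n'', n' + 1 = (M + 1) + n'' := ⟨n' - M, by omega⟩
      have e1 : ∑ k ∈ Finset.range (n' + 1), st ((E - k) / M) * χ (β + k)
          = st (E / M) * χ β + ∑ k ∈ Finset.range n'',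
            st ((E - (M + 1) - k) / M) * χ (β + (M + 1) + k) := by
        rw [hn'', Finset.sum_range_add]
        congr 1
        · rw [Finset.sum_range_succ', Finset.sum_eq_zero, zero_add]
          · simp
          · intro k hk
            rw [Finset.mem_range] at hk
            rw [hz (k + 1) (by omega) (by omega), mul_zero]
        · apply Finset.sum_congr rfl
          intro k _
          have e2 : E - ((M + 1 + k : ℕ) : ℝ) = E - (M + 1) - k := by push_cast; ring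
          have e3 : β + ((M + 1 + k : ℕ) : ℝ) = β + (M + 1) + k := by push_cast; ring
          rw [e2, e3]
      rw [e1]
      have h2 := ih n'' (by omega) χ h0 h1 hsep (E - (M + 1)) (β + (M + 1))
      rcases le_total E (M + 1) with hE | hE
      · rw [max_eq_right (by linarith : E - (M + 1) ≤ 0)] at h2
        have h3 := hfirst.trans (min_le_right _ _)
        have h4 : 0 ≤ max E 0 / M := by positivity
        have h5 : (Cs + 1) * max E 0 / M = Cs * (max E 0 / M) + max E 0 / M := by ring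
        rw [h5]
        simp only [mul_zero, zero_div] at h2
        linarith
      · rw [max_eq_left (by linarith : 0 ≤ E - (M + 1))] at h2
        have h3 := hfirst.trans (min_le_left _ _)
        have hE0 : 0 ≤ E := by linarith
        rw [max_eq_left hE0]
        have h5 : (Cs + 1) * (E - (M + 1)) / M = (Cs + 1) * E / M - (Cs + 1) * (M + 1) / M := by ring
        have h6 : 1 ≤ ((Cs : ℝ) + 1) * (M + 1) / M := by
          rw [le_div_iff₀ hMr]
          nlinarith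
        linarith
    · -- only the first term
      have e1 : ∑ k ∈ Finset.range (n' + 1), st ((E - k) / M) * χ (β + k) = st (E / M) * χ β := by
        rw [Finset.sum_range_succ', Finset.sum_eq_zero, zero_add]
        · simp
        · intro k hk
          rw [Finset.mem_range] at hk
          rw [hz (k + 1) (by omega) (by omega), mul_zero]
      rw [e1]
      have h3 := hfirst.trans (min_le_right _ _)
      have h4 : 0 ≤ max E 0 / M := by positivity
      have h5 : (Cs + 1) * max E 0 / M = Cs * (max E 0 / M) + max E 0 / M := by ring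
      rw [h5]
      linarith

/-- the derivative sum has at most one non-zero term -/
theorem sep_sum_deriv_le {M : ℕ} (hM : 1 ≤ M) (n : ℕ) {χ : ℝ → ℝ}
    (h1 : ∀ β, χ β ≤ 1)
    (hsep : ∀ β, χ β ≠ 0 → ∀ m : ℕ, 1 ≤ m → m ≤ M → χ (β + m) = 0) (E β : ℝ) :
    ∑ k ∈ Finset.range n, |deriv st ((E - k) / M) * (1 / M)| * χ (β + k) ≤ Cs / M := by
  have hMr : (0 : ℝ) < M := by exact_mod_cast hM
  have hterm : ∀ k : ℕ, |deriv st ((E - k) / M) * (1 / M)| * χ (β + k) ≤ Cs / M := by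
    intro k
    have h2 : |deriv st ((E - k) / M) * (1 / M)| ≤ Cs / M := by
      rw [abs_mul, abs_of_pos (by positivity : (0:ℝ) < 1 / M), mul_one_div]
      exact div_le_div_of_nonneg_right (abs_deriv_st_le _) hMr.le
    calc _ ≤ |deriv st ((E - k) / M) * (1 / M)| * 1 :=
          mul_le_mul_of_nonneg_left (h1 _) (abs_nonneg _)
      _ ≤ _ := by rw [mul_one]; exact h2
  have huniq : ∀ k l : ℕ, |deriv st ((E - k) / M) * (1 / M)| * χ (β + k) ≠ 0 →
      |deriv st ((E - l) / M) * (1 / M)| * χ (β + l) ≠ 0 → k < l → False := by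
    intro k l hk hl hkl
    have hk1 : χ (β + k) ≠ 0 := fun h => hk (by rw [h, mul_zero])
    have hl1 : χ (β + l) ≠ 0 := fun h => hl (by rw [h, mul_zero])
    have hk2 : deriv st ((E - k) / M) ≠ 0 := fun h => hk (by rw [h]; simp)
    have hl2 : deriv st ((E - l) / M) ≠ 0 := fun h => hl (by rw [h]; simp)
    have hk3 : (E - k) / M < 1 := by
      by_contra hcon
      exact hk2 (st_deriv_of_one_le (not_lt.1 hcon))
    have hl3 : 0 < (E - l) / M := by
      by_contra hcon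
      exact hl2 (st_deriv_of_nonpos (not_lt.1 hcon))
    rw [div_lt_one hMr] at hk3
    have hl4 : 0 < E - l := by
      by_contra hcon
      have := div_nonpos_of_nonpos_of_nonneg (not_lt.1 hcon) hMr.le
      linarith
    have hlk : (l : ℝ) < k + M := by linarith
    have hlk' : l < k + M := by exact_mod_cast hlk
    have := hsep (β + k) hk1 (l - k) (by omega) (by omega)
    rw [Nat.cast_sub hkl.le] at this
    have e : β + (k : ℝ) + ((l : ℝ) - k) = β + l := by ring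
    rw [e] at this
    exact hl1 this
  by_cases hex : ∃ k ∈ Finset.range n, |deriv st ((E - k) / M) * (1 / M)| * χ (β + k) ≠ 0
  · obtain ⟨k, hk, hk0⟩ := hex
    rw [Finset.sum_eq_single_of_mem k hk]
    · exact hterm k
    · intro l hl hlk
      by_contra hl0
      rcases lt_or_gt_of_ne hlk with h | h
      · exact huniq l k hl0 hk0 h
      · exact huniq k l hk0 hl0 h
  · push Not at hex
    rw [Finset.sum_eq_zero hex]
    positivity

/-! ### the functions -/

namespace Par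

variable (P : Par)

theorem M_pos' (j : ℕ) : (0 : ℝ) < P.M j := by exact_mod_cast P.M_pos j

/-- `X_{j-1}` with `X_{-1} = 1` -/
def Xp : ℕ → ℝ → ℝ
  | 0, _ => 1
  | j + 1, β => psi (P.ζ j) β

theorem Xp_nonneg (j : ℕ) (β : ℝ) : 0 ≤ P.Xp j β := by
  cases j with
  | zero => exact zero_le_one
  | succ j => exact psi_nonneg _ _

theorem Xp_contDiff (j : ℕ) : ContDiff ℝ 1 (P.Xp j) := by
  cases j with
  | zero => exact contDiff_const
  | succ j => exact psi_contDiff _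

theorem Xp_succ_le (j : ℕ) (β : ℝ) : P.Xp (j + 1) β ≤ P.Xp j β := by
  cases j with
  | zero => exact psi_le_one _ _
  | succ j => exact psi_mono (P.ζ_pos _) (P.ζ_anti (Nat.le_succ j)) β

theorem Xp_periodic (j : ℕ) (β : ℝ) : P.Xp j (β + 2 * π) = P.Xp j β := by
  cases j with
  | zero => rfl
  | succ j => exact psi_periodic _ _

theorem inv_sq_mono (j : ℕ) : 1 / P.ζ j ^ 2 ≤ 1 / P.ζ (j + 1) ^ 2 := by
  have h1 := P.ζ_pos j
  have h2 := P.ζ_pos (j + 1)
  have h3 := P.ζ_anti (Nat.le_succ j)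
  apply one_div_le_one_div_of_le (by positivity)
  exact pow_le_pow_left₀ h2.le h3 2

theorem Xp_deriv_le (j : ℕ) (β : ℝ) : |deriv (P.Xp j) β| ≤ Cs * (1 / P.ζ j ^ 2) := by
  cases j with
  | zero =>
    have h1 := P.ζ_pos 0
    have : P.Xp 0 = fun _ => 1 := rfl
    rw [this, deriv_const, abs_zero]
    positivity
  | succ j =>
    have h1 := abs_deriv_psi_le (P.ζ_pos j) β
    have h2 : P.Xp (j + 1) = psi (P.ζ j) := rfl
    rw [h2]
    have h3 := P.inv_sq_mono j
    calc _ ≤ Cs / P.ζ j ^ 2 := h1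
      _ = Cs * (1 / P.ζ j ^ 2) := by ring
      _ ≤ _ := mul_le_mul_of_nonneg_left h3 (by positivity)

/-- the weights `X_{j-1} - X_j` -/
def W (j : ℕ) (β : ℝ) : ℝ := P.Xp j β - P.Xp (j + 1) β

theorem W_nonneg (j : ℕ) (β : ℝ) : 0 ≤ P.W j β := sub_nonneg.2 (P.Xp_succ_le j β)

theorem W_contDiff (j : ℕ) : ContDiff ℝ 1 (P.W j) := (P.Xp_contDiff j).sub (P.Xp_contDiff (j + 1))

theorem W_periodic (j : ℕ) (β : ℝ) : P.W j (β + 2 * π) = P.W j β := by
  unfold W; rw [P.Xp_periodic, P.Xp_periodic]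

theorem sum_W (n : ℕ) (β : ℝ) : ∑ j ∈ Finset.range n, P.W j β = 1 - P.Xp n β :=
  Finset.sum_range_sub' (fun j => P.Xp j β) n

theorem sum_W_le (n : ℕ) (β : ℝ) : ∑ j ∈ Finset.range n, P.W j β ≤ 1 := by
  rw [sum_W]; linarith [P.Xp_nonneg n β]

theorem W_deriv_le (j : ℕ) (β : ℝ) : |deriv (P.W j) β| ≤ 2 * Cs * (1 / P.ζ j ^ 2) := by
  have hd : ∀ i, DifferentiableAt ℝ (P.Xp i) β := fun i =>
    (P.Xp_contDiff i).differentiable (by norm_num) β
  have e : deriv (P.W j) β = deriv (P.Xp j) β - deriv (P.Xp (j + 1)) β :=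
    deriv_fun_sub (hd j) (hd (j + 1))
  have h1 := P.Xp_deriv_le j β
  have h2 : |deriv (P.Xp (j + 1)) β| ≤ Cs * (1 / P.ζ j ^ 2) := by
    have := abs_deriv_psi_le (P.ζ_pos j) β
    calc _ ≤ Cs / P.ζ j ^ 2 := this
      _ = Cs * (1 / P.ζ j ^ 2) := by ring
  rw [e]
  calc _ ≤ |deriv (P.Xp j) β| + |deriv (P.Xp (j + 1)) β| := abs_sub _ _
    _ ≤ _ := by linarith

/-- the summands of `X` -/
def fX (j : ℕ) (E β : ℝ) : ℝ := st ((E - P.e j) / 1) * P.W j β

theorem fX_zero (j : ℕ) (E β : ℝ) (h : E ≤ j) : P.fX j E β = 0 := by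
  unfold fX
  rw [st_zero, zero_mul]
  have := P.e_ge j
  rw [div_one]
  linarith

theorem fX_contDiff (j : ℕ) : ContDiff ℝ 1 (fun p : ℝ × ℝ => P.fX j p.1 p.2) :=
  ((step_contDiff (P.e j) 1).comp contDiff_fst).mul ((P.W_contDiff j).comp contDiff_snd)

/-- the function `X` -/
def X (E β : ℝ) : ℝ := 4 * (1 - lsum P.fX E β)

/-- the cutoffs of `h` -/
def Z (j : ℕ) (β : ℝ) : ℝ := psi (2 * P.ζ j) β

theorem Z_sep (j : ℕ) (β : ℝ) (h : P.Z j β ≠ 0) (m : ℕ) (hm : 1 ≤ m) (hmM : m ≤ P.M j) :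
    P.Z j (β + m) = 0 := by
  have hζ := P.ζ_pos j
  have h1 : dd β < 2 * (2 * P.ζ j) := by
    by_contra hcon
    exact h (psi_eq_zero (by positivity) (not_lt.1 hcon))
  apply psi_eq_zero (by positivity)
  have h2 := P.ζ_sep j m hm hmM
  have h3 := dd_add_le β m
  linarith

/-- the summands of `h` -/
def fh (j : ℕ) (E β : ℝ) : ℝ := st ((E - P.e j) / P.M j) * P.Z j β

theorem fh_zero' (j : ℕ) (E β : ℝ) (h : E ≤ P.e j) : P.fh j E β = 0 := by
  unfold fh
  rw [st_zero, zero_mul]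
  exact div_nonpos_of_nonpos_of_nonneg (by linarith) (P.M_pos' j).le

theorem fh_zero (j : ℕ) (E β : ℝ) (h : E ≤ j) : P.fh j E β = 0 :=
  P.fh_zero' j E β (by have := P.e_ge j; linarith)

theorem fh_nonneg (j : ℕ) (E β : ℝ) : 0 ≤ P.fh j E β := mul_nonneg (st_nonneg _) (psi_nonneg _ _)

theorem fh_contDiff (j : ℕ) : ContDiff ℝ 1 (fun p : ℝ × ℝ => P.fh j p.1 p.2) :=
  ((step_contDiff (P.e j) (P.M j)).comp contDiff_fst).mul ((psi_contDiff _).comp contDiff_snd)

/-- the function `h` -/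
def h (E β : ℝ) : ℝ := lsum P.fh E β

theorem h_contDiff : ContDiff ℝ 1 (fun p : ℝ × ℝ => P.h p.1 p.2) :=
  lsum_contDiff P.fh_zero P.fh_contDiff

theorem h_eq (n : ℕ) (E β : ℝ) (hn : E ≤ n) : P.h E β = ∑ j ∈ Finset.range n, P.fh j E β :=
  lsum_eq P.fh_zero hn β

theorem h_nonneg (E β : ℝ) : 0 ≤ P.h E β := by
  unfold h lsum
  exact Finset.sum_nonneg fun j _ => P.fh_nonneg j E β

theorem h_zero (E β : ℝ) (hE : E ≤ 3) : P.h E β = 0 := by
  unfold h lsum
  exact Finset.sum_eq_zero fun j _ => P.fh_zero' j E β (by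
    have := P.e_ge j
    have : (0:ℝ) ≤ j := by positivity
    linarith)

/-- the summands of `H` -/
def fH (k : ℕ) (E β : ℝ) : ℝ := P.h (E - k) (β + k)

theorem fH_zero (k : ℕ) (E β : ℝ) (h : E ≤ k) : P.fH k E β = 0 :=
  P.h_zero _ _ (by linarith)

theorem fH_contDiff (k : ℕ) : ContDiff ℝ 1 (fun p : ℝ × ℝ => P.fH k p.1 p.2) :=
  P.h_contDiff.comp ((contDiff_fst.sub contDiff_const).prodMk (contDiff_snd.add contDiff_const))

/-- the function `H` -/
def H (E β : ℝ) : ℝ := lsum P.fH E β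

theorem X_contDiff : ContDiff ℝ 1 (fun p : ℝ × ℝ => P.X p.1 p.2) :=
  contDiff_const.mul (contDiff_const.sub (lsum_contDiff P.fX_zero P.fX_contDiff))

theorem H_contDiff : ContDiff ℝ 1 (fun p : ℝ × ℝ => P.H p.1 p.2) :=
  lsum_contDiff P.fH_zero P.fH_contDiff

theorem X_eq (n : ℕ) (E β : ℝ) (hn : E ≤ n) :
    P.X E β = 4 * (1 - ∑ j ∈ Finset.range n, P.fX j E β) := by
  unfold X; rw [lsum_eq P.fX_zero hn β]

theorem X_periodic (E β : ℝ) : P.X E (β + 2 * π) = P.X E β := by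
  unfold X lsum fX
  simp only [P.W_periodic]

theorem fh_periodic (j : ℕ) (E β : ℝ) : P.fh j E (β + 2 * π) = P.fh j E β := by
  unfold fh Z; rw [psi_periodic]

theorem h_periodic (E β : ℝ) : P.h E (β + 2 * π) = P.h E β := by
  unfold h lsum
  simp only [P.fh_periodic]

theorem H_periodic (E β : ℝ) : P.H E (β + 2 * π) = P.H E β := by
  unfold H lsum fH
  refine Finset.sum_congr rfl fun k _ => ?_
  have : β + 2 * π + k = β + k + 2 * π := by ring
  rw [this, P.h_periodic]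

theorem fX_nonneg (j : ℕ) (E β : ℝ) : 0 ≤ P.fX j E β := mul_nonneg (st_nonneg _) (P.W_nonneg _ _)

theorem fX_le (j : ℕ) (E β : ℝ) : P.fX j E β ≤ P.W j β := by
  unfold fX
  calc _ ≤ 1 * P.W j β := mul_le_mul_of_nonneg_right (st_le_one _) (P.W_nonneg _ _)
    _ = _ := one_mul _

theorem X_mem (E β : ℝ) : P.X E β ∈ Icc (0 : ℝ) 4 := by
  have h1 : 0 ≤ lsum P.fX E β := Finset.sum_nonneg fun j _ => P.fX_nonneg j E β
  have h2 : lsum P.fX E β ≤ 1 :=
    (Finset.sum_le_sum fun j _ => P.fX_le j E β).trans (P.sum_W_le _ β)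
  unfold X
  constructor <;> linarith

theorem fX_zero' (j : ℕ) (E β : ℝ) (h : E ≤ P.e j) : P.fX j E β = 0 := by
  unfold fX
  rw [st_zero, zero_mul]
  rw [div_one]
  linarith

theorem X_eq_four (E : ℝ) (hE : E ≤ 2) (β : ℝ) : P.X E β = 4 := by
  have : lsum P.fX E β = 0 := Finset.sum_eq_zero fun j _ => P.fX_zero' j E β (by
    have := P.e_ge j
    have : (0:ℝ) ≤ j := by positivity
    linarith)
  unfold X; rw [this]; ring

theorem fX_hasDerivAt_E (j : ℕ) (E β : ℝ) :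
    HasDerivAt (fun e => P.fX j e β) (deriv st ((E - P.e j) / 1) * (1 / 1) * P.W j β) E :=
  (step_hasDerivAt (P.e j) 1 E).mul_const _

theorem fX_hasDerivAt_β (j : ℕ) (E β : ℝ) :
    HasDerivAt (fun b => P.fX j E b) (st ((E - P.e j) / 1) * deriv (P.W j) β) β :=
  (((P.W_contDiff j).differentiable (by norm_num) β).hasDerivAt).const_mul _

theorem X_dE (E β : ℝ) : |deriv (fun e => P.X e β) E| ≤ 4 * Cs := by
  obtain ⟨n, hn⟩ := exists_nat_gt E
  have h1 := lsum_deriv_E P.fX_zero hn β (fun j => (P.fX_hasDerivAt_E j E β).differentiableAt)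
  have hd : DifferentiableAt ℝ (fun e => lsum P.fX e β) E :=
    ((lsum_contDiff P.fX_zero P.fX_contDiff).comp
      (contDiff_id.prodMk contDiff_const)).differentiable (by norm_num) E
  have h2 : deriv (fun e => P.X e β) E = -4 * ∑ j ∈ Finset.range n,
      (deriv st ((E - P.e j) / 1) * (1 / 1) * P.W j β) := by
    have := ((hd.hasDerivAt.const_sub 1).const_mul 4).deriv
    have e : (fun e => P.X e β) = fun e => 4 * (1 - lsum P.fX e β) := rfl
    rw [e, this, h1]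
    rw [Finset.sum_congr rfl fun j _ => (P.fX_hasDerivAt_E j E β).deriv]
    ring
  rw [h2, abs_mul]
  have h3 : |∑ j ∈ Finset.range n, (deriv st ((E - P.e j) / 1) * (1 / 1) * P.W j β)| ≤ Cs := by
    calc _ ≤ ∑ j ∈ Finset.range n, |deriv st ((E - P.e j) / 1) * (1 / 1) * P.W j β| :=
          Finset.abs_sum_le_sum_abs _ _
      _ ≤ ∑ j ∈ Finset.range n, Cs * P.W j β := by
          refine Finset.sum_le_sum fun j _ => ?_
          rw [abs_mul, abs_mul, abs_of_nonneg (P.W_nonneg j β)]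
          refine mul_le_mul_of_nonneg_right ?_ (P.W_nonneg j β)
          simp only [div_one, abs_one, mul_one]
          exact abs_deriv_st_le _
      _ = Cs * ∑ j ∈ Finset.range n, P.W j β := by rw [Finset.mul_sum]
      _ ≤ Cs * 1 := mul_le_mul_of_nonneg_left (P.sum_W_le n β) (by positivity)
      _ = _ := mul_one _
  have : |(-4 : ℝ)| = 4 := by norm_num
  rw [this]
  linarith

theorem X_dβ (E β : ℝ) : |deriv (fun b => P.X E b) β| ≤ 16 * Cs * pw (E / 16) := by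
  obtain ⟨n, hn⟩ := exists_nat_ge E
  have h1 := lsum_deriv_β P.fX_zero hn β (fun j => (P.fX_hasDerivAt_β j E β).differentiableAt)
  have hd : DifferentiableAt ℝ (fun b => lsum P.fX E b) β :=
    ((lsum_contDiff P.fX_zero P.fX_contDiff).comp
      (contDiff_const.prodMk contDiff_id)).differentiable (by norm_num) β
  have h2 : deriv (fun b => P.X E b) β = -4 * ∑ j ∈ Finset.range n,
      (st ((E - P.e j) / 1) * deriv (P.W j) β) := by
    have := ((hd.hasDerivAt.const_sub 1).const_mul 4).deriv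
    have e : (fun b => P.X E b) = fun b => 4 * (1 - lsum P.fX E b) := rfl
    rw [e, this, h1]
    rw [Finset.sum_congr rfl fun j _ => (P.fX_hasDerivAt_β j E β).deriv]
    ring
  have hpw : 0 < pw (E / 16) := Real.exp_pos _
  rw [h2, abs_mul]
  have h3 : |∑ j ∈ Finset.range n, (st ((E - P.e j) / 1) * deriv (P.W j) β)|
      ≤ 4 * Cs * pw (E / 16) := by
    calc _ ≤ ∑ j ∈ Finset.range n, |st ((E - P.e j) / 1) * deriv (P.W j) β| :=
          Finset.abs_sum_le_sum_abs _ _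
      _ ≤ ∑ j ∈ Finset.range n, 2 * Cs * ((1 / 2) ^ j * pw (E / 16)) := by
          refine Finset.sum_le_sum fun j _ => ?_
          rw [abs_mul, abs_of_nonneg (st_nonneg _)]
          have h4 := P.W_deriv_le j β
          have h5 := step_mul_le (c := 1) one_pos (P.e_exp j) E
          calc _ ≤ st ((E - P.e j) / 1) * (2 * Cs * (1 / P.ζ j ^ 2)) :=
                mul_le_mul_of_nonneg_left h4 (st_nonneg _)
            _ = 2 * Cs * (st ((E - P.e j) / 1) * (1 / P.ζ j ^ 2)) := by ring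
            _ ≤ _ := mul_le_mul_of_nonneg_left h5 (by positivity)
      _ = 2 * Cs * pw (E / 16) * ∑ j ∈ Finset.range n, (1 / 2) ^ j := by
          rw [Finset.mul_sum]
          exact Finset.sum_congr rfl fun j _ => by ring
      _ ≤ 2 * Cs * pw (E / 16) * 2 := mul_le_mul_of_nonneg_left (sum_half_le n) (by positivity)
      _ = _ := by ring
  have : |(-4 : ℝ)| = 4 := by norm_num
  rw [this]
  linarith

end Par

end

end Crest.Agent.S0163.BD
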