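/-
S0163 (row 123), package B: `exists_baseData`.  See `ideas` row 123, section 2.
-/
import Crest.Agent.S0163_B1

set_option autoImplicit false

open Real Set Filter Topology
open scoped ContDiff

namespace Crest.Agent.S0163.BD

noncomputable section

namespace Par

variable (P : Par)

theorem dd_continuous : Continuous dd := by
  unfold dd
  exact ((continuous_subtype_val.comp Circle.exp.continuous).sub continuous_const).norm

theorem fh_hasDerivAt_E (j : ℕ) (E β : ℝ) :
    HasDerivAt (fun e => P.fh j e β)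
      (deriv st ((E - P.e j) / P.M j) * (1 / P.M j) * P.Z j β) E :=
  (step_hasDerivAt (P.e j) (P.M j) E).mul_const _

theorem fh_hasDerivAt_β (j : ℕ) (E β : ℝ) :
    HasDerivAt (fun b => P.fh j E b) (st ((E - P.e j) / P.M j) * deriv (P.Z j) β) β :=
  ((psi_differentiable (2 * P.ζ j) β).hasDerivAt).const_mul _

theorem Z_deriv_le (j : ℕ) (β : ℝ) : |deriv (P.Z j) β| ≤ Cs * (1 / P.ζ j ^ 2) := by
  have hζ := P.ζ_pos j
  have h1 := abs_deriv_psi_le (ζ := 2 * P.ζ j) (by positivity) β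
  refine h1.trans ?_
  rw [mul_one_div]
  apply div_le_div_of_nonneg_left (by positivity) (by positivity)
  nlinarith

theorem h_dβ (E β : ℝ) : |deriv (fun b => P.h E b) β| ≤ 2 * Cs * pw (E / 16) := by
  obtain ⟨n, hn⟩ := exists_nat_ge E
  have h1 := lsum_deriv_β P.fh_zero hn β (fun j => (P.fh_hasDerivAt_β j E β).differentiableAt)
  have hpw : 0 < pw (E / 16) := Real.exp_pos _
  have e : (fun b => P.h E b) = fun b => lsum P.fh E b := rfl
  rw [e, h1, Finset.sum_congr rfl fun j _ => (P.fh_hasDerivAt_β j E β).deriv]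
  calc _ ≤ ∑ j ∈ Finset.range n, |st ((E - P.e j) / P.M j) * deriv (P.Z j) β| :=
        Finset.abs_sum_le_sum_abs _ _
    _ ≤ ∑ j ∈ Finset.range n, Cs * ((1 / 2) ^ j * pw (E / 16)) := by
        refine Finset.sum_le_sum fun j _ => ?_
        rw [abs_mul, abs_of_nonneg (st_nonneg _)]
        have h4 := P.Z_deriv_le j β
        have h5 := step_mul_le (P.M_pos' j) (P.e_exp j) E
        calc _ ≤ st ((E - P.e j) / P.M j) * (Cs * (1 / P.ζ j ^ 2)) :=
              mul_le_mul_of_nonneg_left h4 (st_nonneg _)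
          _ = Cs * (st ((E - P.e j) / P.M j) * (1 / P.ζ j ^ 2)) := by ring
          _ ≤ _ := mul_le_mul_of_nonneg_left h5 (by positivity)
    _ = Cs * pw (E / 16) * ∑ j ∈ Finset.range n, (1 / 2) ^ j := by
        rw [Finset.mul_sum]
        exact Finset.sum_congr rfl fun j _ => by ring
    _ ≤ Cs * pw (E / 16) * 2 := mul_le_mul_of_nonneg_left (sum_half_le n) (by positivity)
    _ = _ := by ring

theorem log16 : 1 ≤ Real.log 16 := by
  rw [Real.le_log_iff_exp_le (by norm_num)]
  have := Real.exp_one_lt_d9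
  linarith

theorem pw_mono {x y : ℝ} (h : x ≤ y) : pw x ≤ pw y := by
  unfold pw
  apply Real.exp_le_exp.2
  have := log16
  gcongr

theorem h_hasDerivAt_β (E β : ℝ) : HasDerivAt (fun b => P.h E b) (deriv (fun b => P.h E b) β) β :=
  ((P.h_contDiff.comp (contDiff_const.prodMk contDiff_id)).differentiable (by norm_num)
    β).hasDerivAt

theorem h_hasDerivAt_E (E β : ℝ) : HasDerivAt (fun e => P.h e β) (deriv (fun e => P.h e β) E) E :=
  ((P.h_contDiff.comp (contDiff_id.prodMk contDiff_const)).differentiable (by norm_num)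
    E).hasDerivAt

theorem fH_hasDerivAt_β (k : ℕ) (E β : ℝ) : HasDerivAt (fun b => P.fH k E b)
    (deriv (fun b => P.h (E - k) b) (β + k)) β := by
  have h1 := P.h_hasDerivAt_β (E - k) (β + k)
  exact h1.comp_add_const β (k : ℝ)

theorem fH_hasDerivAt_E (k : ℕ) (E β : ℝ) : HasDerivAt (fun e => P.fH k e β)
    (deriv (fun e => P.h e (β + k)) (E - k)) E := by
  have h1 := P.h_hasDerivAt_E (E - k) (β + k)
  exact h1.comp_sub_const E (k : ℝ)

theorem H_dβ (E β : ℝ) (hE : 0 ≤ E) : |deriv (fun b => P.H E b) β| ≤ 32 * Cs * pw (E / 8) := by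
  have h1 := lsum_deriv_β P.fH_zero (Nat.le_ceil E) β
    (fun j => (P.fH_hasDerivAt_β j E β).differentiableAt)
  have hpw : 0 < pw (E / 16) := Real.exp_pos _
  have e : (fun b => P.H E b) = fun b => lsum P.fH E b := rfl
  rw [e, h1, Finset.sum_congr rfl fun j _ => (P.fH_hasDerivAt_β j E β).deriv]
  have hn : (⌈E⌉₊ : ℝ) ≤ 16 * pw (E / 16) := by
    have h2 : (⌈E⌉₊ : ℝ) < E + 1 := Nat.ceil_lt_add_one hE
    have h3 : E / 16 * Real.log 16 + 1 ≤ pw (E / 16) := Real.add_one_le_exp _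
    have h4 := log16
    have h5 : E / 16 ≤ E / 16 * Real.log 16 := by
      have : 0 ≤ E / 16 := by positivity
      nlinarith
    linarith
  have hsq : pw (E / 8) = pw (E / 16) * pw (E / 16) := by
    unfold pw
    rw [← Real.exp_add]
    congr 1
    ring
  calc _ ≤ ∑ k ∈ Finset.range ⌈E⌉₊, |deriv (fun b => P.h (E - k) b) (β + k)| :=
        Finset.abs_sum_le_sum_abs _ _
    _ ≤ ∑ k ∈ Finset.range ⌈E⌉₊, 2 * Cs * pw (E / 16) := by
        refine Finset.sum_le_sum fun k _ => (P.h_dβ _ _).trans ?_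
        refine mul_le_mul_of_nonneg_left (pw_mono ?_) (by positivity)
        have : (0:ℝ) ≤ k := by positivity
        linarith
    _ = ⌈E⌉₊ * (2 * Cs * pw (E / 16)) := by
        rw [Finset.sum_const, Finset.card_range, nsmul_eq_mul]
    _ ≤ 16 * pw (E / 16) * (2 * Cs * pw (E / 16)) :=
        mul_le_mul_of_nonneg_right hn (by positivity)
    _ = _ := by rw [hsq]; ring

theorem sum_M_le (n : ℕ) : ∑ j ∈ Finset.range n, ((Cs : ℝ) + 1) / P.M j ≤ 1 / 16 := by
  calc _ ≤ ∑ j ∈ Finset.range n, 1 / 32 * (1 / 2 : ℝ) ^ j := by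
        refine Finset.sum_le_sum fun j _ => ?_
        have h1 := P.M_pos' j
        have h2 := P.M_large j
        rw [div_le_iff₀ h1]
        have h3 : (1:ℝ) / 32 * (1 / 2) ^ j * (((Cs : ℝ) + 1) * 32 * 2 ^ j) = (Cs : ℝ) + 1 := by
          have : (1 / 2 : ℝ) ^ j * 2 ^ j = 1 := by rw [← mul_pow]; norm_num
          calc _ = ((Cs : ℝ) + 1) * ((1 / 2 : ℝ) ^ j * 2 ^ j) := by ring
            _ = _ := by rw [this, mul_one]
        calc (Cs : ℝ) + 1 = 1 / 32 * (1 / 2) ^ j * (((Cs : ℝ) + 1) * 32 * 2 ^ j) := h3.symm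
          _ ≤ _ := mul_le_mul_of_nonneg_left h2 (by positivity)
    _ = 1 / 32 * ∑ j ∈ Finset.range n, (1 / 2 : ℝ) ^ j := by rw [Finset.mul_sum]
    _ ≤ 1 / 32 * 2 := mul_le_mul_of_nonneg_left (sum_half_le n) (by norm_num)
    _ = _ := by norm_num

theorem H_dE (E β : ℝ) : |deriv (fun e => P.H e β) E| ≤ 1 / 4 := by
  obtain ⟨n, hn⟩ := exists_nat_gt E
  have h1 := lsum_deriv_E P.fH_zero hn β (fun j => (P.fH_hasDerivAt_E j E β).differentiableAt)
  have e : (fun e => P.H e β) = fun e => lsum P.fH e β := rfl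
  rw [e, h1, Finset.sum_congr rfl fun j _ => (P.fH_hasDerivAt_E j E β).deriv]
  have h2 : ∀ k : ℕ, deriv (fun e => P.h e (β + k)) (E - k) = ∑ j ∈ Finset.range n,
      deriv st ((E - k - P.e j) / P.M j) * (1 / P.M j) * P.Z j (β + k) := by
    intro k
    have hn' : E - k < n := by
      have : (0:ℝ) ≤ k := by positivity
      linarith
    have h3 := lsum_deriv_E P.fh_zero hn' (β + k)
      (fun j => (P.fh_hasDerivAt_E j (E - k) (β + k)).differentiableAt)
    have e : (fun e => P.h e (β + k)) = fun e => lsum P.fh e (β + k) := rfl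
    rw [e, h3, Finset.sum_congr rfl fun j _ => (P.fh_hasDerivAt_E j (E - k) (β + k)).deriv]
  simp_rw [h2]
  calc _ ≤ ∑ k ∈ Finset.range n, ∑ j ∈ Finset.range n,
        |deriv st ((E - k - P.e j) / P.M j) * (1 / P.M j)| * P.Z j (β + k) := by
        refine (Finset.abs_sum_le_sum_abs _ _).trans (Finset.sum_le_sum fun k _ => ?_)
        refine (Finset.abs_sum_le_sum_abs _ _).trans (Finset.sum_le_sum fun j _ => ?_)
        have hZ : 0 ≤ P.Z j (β + k) := psi_nonneg _ _
        rw [abs_mul, abs_of_nonneg hZ]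
    _ = ∑ j ∈ Finset.range n, ∑ k ∈ Finset.range n,
        |deriv st ((E - P.e j - k) / P.M j) * (1 / P.M j)| * P.Z j (β + k) := by
        rw [Finset.sum_comm]
        refine Finset.sum_congr rfl fun j _ => Finset.sum_congr rfl fun k _ => ?_
        rw [sub_right_comm]
    _ ≤ ∑ j ∈ Finset.range n, ((Cs : ℝ) + 1) / P.M j := by
        refine Finset.sum_le_sum fun j _ => ?_
        have h3 := sep_sum_deriv_le (P.M_pos j) n (χ := P.Z j) (fun β => psi_le_one _ _)
          (fun β h m h1 h2 => P.Z_sep j β h m h1 h2) (E - P.e j) β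
        refine h3.trans ?_
        have := P.M_pos' j
        gcongr
        linarith
    _ ≤ 1 / 16 := P.sum_M_le n
    _ ≤ 1 / 4 := by norm_num

theorem H_le (E β : ℝ) (hE : 0 ≤ E) : P.H E β ≤ E / 16 := by
  obtain ⟨n, hn⟩ := exists_nat_ge E
  have h1 : P.H E β = ∑ k ∈ Finset.range n, P.fH k E β := lsum_eq P.fH_zero hn β
  have h2 : ∀ k : ℕ, P.fH k E β = ∑ j ∈ Finset.range n,
      st ((E - k - P.e j) / P.M j) * P.Z j (β + k) := by
    intro k
    exact P.h_eq n _ _ (by
      have : (0:ℝ) ≤ k := by positivity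
      linarith)
  rw [h1]
  simp_rw [h2]
  calc _ = ∑ j ∈ Finset.range n, ∑ k ∈ Finset.range n,
        st ((E - P.e j - k) / P.M j) * P.Z j (β + k) := by
        rw [Finset.sum_comm]
        refine Finset.sum_congr rfl fun j _ => Finset.sum_congr rfl fun k _ => ?_
        rw [sub_right_comm]
    _ ≤ ∑ j ∈ Finset.range n, ((Cs : ℝ) + 1) / P.M j * E := by
        refine Finset.sum_le_sum fun j _ => ?_
        have h3 := sep_sum_le (P.M_pos j) n (P.Z j) (fun β => psi_nonneg _ _)
          (fun β => psi_le_one _ _) (fun β h m h1 h2 => P.Z_sep j β h m h1 h2) (E - P.e j) β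
        refine h3.trans ?_
        have h4 := P.M_pos' j
        have h5 : max (E - P.e j) 0 ≤ E := by
          apply max_le _ hE
          have := P.e_ge j
          have : (0:ℝ) ≤ j := by positivity
          linarith
        rw [div_mul_eq_mul_div]
        gcongr
    _ = (∑ j ∈ Finset.range n, ((Cs : ℝ) + 1) / P.M j) * E := by rw [Finset.sum_mul]
    _ ≤ 1 / 16 * E := mul_le_mul_of_nonneg_right (P.sum_M_le n) hE
    _ = _ := by ring

theorem H_rec (E β : ℝ) : P.H E β = P.h E β + P.H (E - 1) (β + 1) := by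
  obtain ⟨n, hn⟩ := exists_nat_ge E
  have h1 : P.H E β = ∑ k ∈ Finset.range (n + 1), P.fH k E β :=
    lsum_eq P.fH_zero (by push_cast; linarith) β
  have h2 : P.H (E - 1) (β + 1) = ∑ k ∈ Finset.range n, P.fH k (E - 1) (β + 1) :=
    lsum_eq P.fH_zero (by linarith) (β + 1)
  rw [h1, h2, Finset.sum_range_succ', add_comm]
  congr 1
  · unfold fH
    simp
  · refine Finset.sum_congr rfl fun k _ => ?_
    unfold fH
    have e2 : E - ((k + 1 : ℕ) : ℝ) = E - 1 - k := by push_cast; ring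
    have e3 : β + ((k + 1 : ℕ) : ℝ) = β + 1 + k := by push_cast; ring
    rw [e2, e3]

theorem H_nonneg (E β : ℝ) : 0 ≤ P.H E β := by
  unfold H lsum
  exact Finset.sum_nonneg fun k _ => P.h_nonneg _ _

theorem H_eq_zero (E : ℝ) (hE : E ≤ 2) (β : ℝ) : P.H E β = 0 := by
  unfold H lsum
  exact Finset.sum_eq_zero fun k _ => P.h_zero _ _ (by
    have : (0:ℝ) ≤ k := by positivity
    linarith)

theorem e_nonneg (j : ℕ) : 0 ≤ P.e j := by
  have := P.e_ge j
  have : (0:ℝ) ≤ j := by positivity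
  linarith

/-- a large `E` -/
def big (n : ℕ) : ℝ := ∑ j ∈ Finset.range n, (P.e j + P.M j)

theorem le_big {n j : ℕ} (h : j < n) : P.e j + P.M j ≤ P.big n := by
  unfold big
  exact Finset.single_le_sum (f := fun j => P.e j + (P.M j : ℝ))
    (fun i _ => by have := P.e_nonneg i; positivity) (Finset.mem_range.2 h)

theorem big_nonneg (n : ℕ) : 0 ≤ P.big n := by
  unfold big
  exact Finset.sum_nonneg fun i _ => by have := P.e_nonneg i; positivity

theorem h_large (R : ℝ) : ∃ E₀ : ℝ, ∃ δ > 0, ∀ E ≥ E₀, ∀ β : ℝ, dd β < δ → R ≤ P.h E β := by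
  obtain ⟨n, hn⟩ := exists_nat_ge R
  refine ⟨P.big n, 2 * P.ζ n, by have := P.ζ_pos n; positivity, fun E hE β hβ => ?_⟩
  obtain ⟨m, hm⟩ := exists_nat_ge (max E n)
  have hmE : E ≤ m := (le_max_left _ _).trans hm
  have hmn : n ≤ m := by exact_mod_cast (le_max_right _ _).trans hm
  rw [P.h_eq m E β hmE]
  calc R ≤ n := hn
    _ = ∑ j ∈ Finset.range n, (1 : ℝ) := by rw [Finset.sum_const, Finset.card_range]; simp
    _ ≤ ∑ j ∈ Finset.range n, P.fh j E β := by
        refine Finset.sum_le_sum fun j hj => ?_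
        rw [Finset.mem_range] at hj
        have h1 := P.le_big hj
        have h2 := P.M_pos' j
        have h3 := P.ζ_anti hj.le
        unfold fh Z
        rw [st_one (by rw [le_div_iff₀ h2]; linarith), psi_eq_one (by have := P.ζ_pos j; positivity)
          (by linarith), mul_one]
    _ ≤ _ := Finset.sum_le_sum_of_subset_of_nonneg (Finset.range_mono hmn)
        fun j _ _ => P.fh_nonneg j E β

theorem away (β₀ : ℝ) (h0 : dd β₀ ≠ 0) : ∃ E₀ : ℝ, ∀ᶠ β in 𝓝 β₀, ∀ E ≥ E₀,
    P.X E β = 0 ∧ P.h E β = P.h E₀ β := by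
  have hpos : 0 < dd β₀ := lt_of_le_of_ne (dd_nonneg _) (Ne.symm h0)
  obtain ⟨J, hJ⟩ := P.ζ_lim (dd β₀ / 8) (by positivity)
  obtain ⟨E₀, hE₀⟩ : ∃ E₀, E₀ = P.big (J + 1) := ⟨_, rfl⟩
  refine ⟨E₀, ?_⟩
  have hev : ∀ᶠ β in 𝓝 β₀, dd β₀ / 2 < dd β :=
    (dd_continuous.tendsto β₀).eventually (lt_mem_nhds (by linarith))
  filter_upwards [hev] with β hβ
  have hζ : ∀ j, J ≤ j → P.ζ j ≤ P.ζ J := fun j hj => P.ζ_anti hj
  have hZ0 : ∀ j, J ≤ j → P.Z j β = 0 := fun j hj =>
    psi_eq_zero (by have := P.ζ_pos j; positivity) (by have := hζ j hj; linarith)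
  have hX0 : ∀ j, J < j → P.Xp j β = 0 := by
    intro j hj
    obtain ⟨i, rfl⟩ := Nat.exists_eq_succ_of_ne_zero (by omega : j ≠ 0)
    exact psi_eq_zero (P.ζ_pos i) (by
      have := hζ i (by omega)
      have := P.ζ_pos i
      linarith)
  have hh : ∀ E ≥ E₀, P.h E β = ∑ j ∈ Finset.range J, P.Z j β := by
    intro E hE
    obtain ⟨m, hm⟩ := exists_nat_ge (max E J)
    have hmE : E ≤ m := (le_max_left _ _).trans hm
    have hmn : J ≤ m := by exact_mod_cast (le_max_right _ _).trans hm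
    rw [P.h_eq m E β hmE]
    rw [← Finset.sum_subset (Finset.range_mono hmn)]
    · refine Finset.sum_congr rfl fun j hj => ?_
      rw [Finset.mem_range] at hj
      have h1 := P.le_big (show j < J + 1 by omega)
      have h2 := P.M_pos' j
      unfold fh
      rw [st_one (by rw [le_div_iff₀ h2]; linarith), one_mul]
    · intro j _ hj
      rw [Finset.mem_range, not_lt] at hj
      unfold fh
      rw [hZ0 j hj, mul_zero]
  intro E hE
  refine ⟨?_, by rw [hh E hE, hh E₀ (le_refl _)]⟩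
  obtain ⟨m, hm⟩ := exists_nat_ge (max E ((J + 1 : ℕ) : ℝ))
  have hmE : E ≤ m := (le_max_left _ _).trans hm
  have hmn : J + 1 ≤ m := by exact_mod_cast (le_max_right _ _).trans hm
  rw [P.X_eq m E β hmE]
  have : ∑ j ∈ Finset.range m, P.fX j E β = ∑ j ∈ Finset.range (J + 1), P.W j β := by
    rw [← Finset.sum_subset (Finset.range_mono hmn)]
    · refine Finset.sum_congr rfl fun j hj => ?_
      rw [Finset.mem_range] at hj
      have h1 := P.le_big hj
      have h2 : (1 : ℝ) ≤ P.M j := by exact_mod_cast P.M_pos j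
      unfold fX
      rw [st_one (by rw [div_one]; linarith), one_mul]
    · intro j _ hj
      rw [Finset.mem_range, not_lt] at hj
      unfold fX W
      rw [hX0 j (by omega), hX0 (j + 1) (by omega), sub_zero, mul_zero]
  rw [this, P.sum_W, hX0 (J + 1) (by omega)]
  ring

theorem hit (Λ : ℝ) : ∃ N : ℕ, ∀ β : ℝ, ∃ i : ℕ, 1 ≤ i ∧ i ≤ N ∧ ∀ E ≤ Λ + i,
    P.X E (β - i) = 4 := by
  obtain ⟨J, hJ⟩ := exists_nat_ge Λ
  obtain ⟨T, hT, hT2⟩ := P.e_hit J
  refine ⟨T, fun β => ?_⟩
  obtain ⟨i, hi1, hiT, hi⟩ := hT2 β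
  refine ⟨i, hi1, hiT, fun E hE => ?_⟩
  have hiT' : (i : ℝ) ≤ T := by exact_mod_cast hiT
  have hEe : E ≤ P.e J := by linarith
  have hX1 : ∀ j, j ≤ J → P.Xp j (β - i) = 1 := by
    intro j hj
    cases j with
    | zero => rfl
    | succ j =>
      exact psi_eq_one (P.ζ_pos j) (hi.trans (P.ζ_anti (by omega)))
  obtain ⟨n, hn⟩ := exists_nat_ge E
  rw [P.X_eq n E _ hn, Finset.sum_eq_zero]
  · ring
  · intro j _
    rcases Nat.lt_or_ge j J with h | h
    · unfold fX W
      rw [hX1 j (by omega), hX1 (j + 1) (by omega), sub_self, mul_zero]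
    · exact P.fX_zero' j E _ (hEe.trans (P.e_mono h))

end Par

end

end Crest.Agent.S0163.BD

namespace Crest.Agent.S0163

open BD

theorem exists_baseData : Nonempty BaseData := by
  obtain ⟨P⟩ := exists_par
  have hC : (1 : ℝ) ≤ Cs := one_le_Cs'
  refine ⟨{
    X := P.X, h := P.h, H := P.H, C := 32 * Cs
    X_contDiff := P.X_contDiff
    h_contDiff := P.h_contDiff
    H_contDiff := P.H_contDiff
    X_periodic := P.X_periodic
    h_periodic := P.h_periodic
    H_periodic := P.H_periodic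
    X_mem := P.X_mem
    X_eq_four := P.X_eq_four
    X_dE := fun E β => (P.X_dE E β).trans (by linarith)
    X_dβ := fun E β _ => (P.X_dβ E β).trans (by
      have : 0 < pw (E / 16) := Real.exp_pos _
      nlinarith [mul_pos (lt_of_lt_of_le one_pos hC) this])
    h_nonneg := P.h_nonneg
    h_eq_zero := fun E hE β => P.h_zero E β (by linarith)
    H_rec := P.H_rec
    H_eq_zero := P.H_eq_zero
    H_nonneg := P.H_nonneg
    H_le := P.H_le
    H_dE := P.H_dE
    H_dβ := P.H_dβ
    h_large := P.h_large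
    away := fun β₀ h0 => P.away β₀ (by
      unfold dd
      rw [ne_eq, norm_eq_zero, sub_eq_zero]
      exact h0)
    hit := P.hit }⟩

end Crest.Agent.S0163
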