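/-
S0163 package C, part 0: basic facts on `nsq, nrm, pw, ph`, the linear map `sg = 16⁻¹ S`,
the lemma L1 (C¹ across the zero set), cutoffs.
-/
import Crest.Agent.S0163_Defs

set_option autoImplicit false

open Real Set Filter Topology
open scoped Manifold ContDiff

namespace Crest.Agent.S0163

noncomputable section

/-! ### scalar exponentials -/

theorem log16_pos : 0 < Real.log 16 := Real.log_pos (by norm_num)

theorem pw_pos (x : ℝ) : 0 < pw x := Real.exp_pos _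
theorem pw_zero : pw 0 = 1 := by simp [pw]
theorem pw_one : pw 1 = 16 := by
  simp only [pw, one_mul]
  exact Real.exp_log (by norm_num)
theorem pw_add (x y : ℝ) : pw (x + y) = pw x * pw y := by
  simp only [pw]; rw [← Real.exp_add]; congr 1; ring
theorem pw_neg (x : ℝ) : pw (-x) = (pw x)⁻¹ := by
  simp only [pw]; rw [← Real.exp_neg]; congr 1; ring
theorem pw_sub (x y : ℝ) : pw (x - y) = pw x / pw y := by
  rw [sub_eq_add_neg, pw_add, pw_neg]; rfl
theorem pw_ne_zero (x : ℝ) : pw x ≠ 0 := (pw_pos x).ne'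
theorem pw_le_pw {x y : ℝ} : pw x ≤ pw y ↔ x ≤ y := by
  simp only [pw, Real.exp_le_exp]
  exact mul_le_mul_iff_left₀ log16_pos
theorem pw_lt_pw {x y : ℝ} : pw x < pw y ↔ x < y := by
  simp only [pw, Real.exp_lt_exp]
  exact mul_lt_mul_iff_left₀ log16_pos
theorem pw_inj {x y : ℝ} : pw x = pw y ↔ x = y :=
  ⟨fun h => le_antisymm (pw_le_pw.1 h.le) (pw_le_pw.1 h.ge), fun h => h ▸ rfl⟩
theorem pw_mul_nat (x : ℝ) (n : ℕ) : pw (n * x) = pw x ^ n := by
  simp only [pw]; rw [← Real.exp_nat_mul]; congr 1; ring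
theorem contDiff_pw {n : WithTop ℕ∞} : ContDiff ℝ n pw := by
  unfold pw; exact Real.contDiff_exp.comp (contDiff_id.mul contDiff_const)
theorem continuous_pw : Continuous pw := (contDiff_pw (n := 0)).continuous
theorem log_pw (x : ℝ) : Real.log (pw x) = x * Real.log 16 := Real.log_exp _
theorem one_le_pw {x : ℝ} : 1 ≤ pw x ↔ 0 ≤ x := by rw [← pw_zero, pw_le_pw]
theorem pw_le_one {x : ℝ} : pw x ≤ 1 ↔ x ≤ 0 := by rw [← pw_zero, pw_le_pw]

/-! ### the norm -/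

theorem nsq_nonneg (z : V) : 0 ≤ nsq z := add_nonneg (Complex.normSq_nonneg _) (Complex.normSq_nonneg _)
theorem nsq_eq_zero {z : V} : nsq z = 0 ↔ z = 0 := by
  unfold nsq
  constructor
  · intro h
    have h1 : Complex.normSq z.1 = 0 := by
      have := Complex.normSq_nonneg z.1; have := Complex.normSq_nonneg z.2; linarith
    have h2 : Complex.normSq z.2 = 0 := by
      have := Complex.normSq_nonneg z.1; have := Complex.normSq_nonneg z.2; linarith
    exact Prod.ext (Complex.normSq_eq_zero.1 h1) (Complex.normSq_eq_zero.1 h2)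
  · rintro rfl; simp
theorem nsq_pos {z : V} (hz : z ≠ 0) : 0 < nsq z :=
  lt_of_le_of_ne (nsq_nonneg z) (fun h => hz (nsq_eq_zero.1 h.symm))
theorem nrm_nonneg (z : V) : 0 ≤ nrm z := Real.sqrt_nonneg _
theorem nrm_pos {z : V} (hz : z ≠ 0) : 0 < nrm z := Real.sqrt_pos.2 (nsq_pos hz)
theorem nrm_zero : nrm 0 = 0 := by simp [nrm, nsq]
theorem nrm_eq_zero {z : V} : nrm z = 0 ↔ z = 0 :=
  ⟨fun h => by by_contra hz; exact (nrm_pos hz).ne' h, fun h => h ▸ nrm_zero⟩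
theorem nrm_pos_iff {z : V} : 0 < nrm z ↔ z ≠ 0 :=
  ⟨fun h hz => by rw [hz, nrm_zero] at h; exact lt_irrefl _ h, nrm_pos⟩
theorem nrm_sq (z : V) : nrm z ^ 2 = nsq z := Real.sq_sqrt (nsq_nonneg z)
theorem nsq_smul (c : ℝ) (z : V) : nsq (c • z) = c ^ 2 * nsq z := by
  simp only [nsq, Prod.smul_fst, Prod.smul_snd, Complex.real_smul, map_mul, Complex.normSq_ofReal]; ring
theorem nrm_smul (c : ℝ) (z : V) : nrm (c • z) = |c| * nrm z := by
  unfold nrm; rw [nsq_smul, Real.sqrt_mul (sq_nonneg c), Real.sqrt_sq_eq_abs]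

theorem contDiff_normSq {n : WithTop ℕ∞} : ContDiff ℝ n (fun w : ℂ => Complex.normSq w) := by
  have : (fun w : ℂ => Complex.normSq w) = fun w => w.re * w.re + w.im * w.im := by
    funext w; exact Complex.normSq_apply w
  rw [this]
  have h1 : ContDiff ℝ n (fun w : ℂ => w.re) := Complex.reCLM.contDiff
  have h2 : ContDiff ℝ n (fun w : ℂ => w.im) := Complex.imCLM.contDiff
  exact (h1.mul h1).add (h2.mul h2)
theorem contDiff_nsq {n : WithTop ℕ∞} : ContDiff ℝ n nsq :=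
  (contDiff_normSq.comp contDiff_fst).add (contDiff_normSq.comp contDiff_snd)
theorem continuous_nsq : Continuous nsq := (contDiff_nsq (n := 0)).continuous
theorem continuous_nrm : Continuous nrm := continuous_nsq.sqrt
theorem contDiffAt_nrm {n : WithTop ℕ∞} {z : V} (hz : z ≠ 0) : ContDiffAt ℝ n nrm z :=
  (Real.contDiffAt_sqrt (nsq_pos hz).ne').comp z contDiff_nsq.contDiffAt
theorem contDiffAt_ph {n : WithTop ℕ∞} {z : V} (hz : z ≠ 0) : ContDiffAt ℝ n ph z := by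
  unfold ph
  exact (((Real.contDiffAt_log.2 (nsq_pos hz).ne').comp z contDiff_nsq.contDiffAt).neg).div_const _

theorem nrm_eq_pw {z : V} (hz : z ≠ 0) : nrm z = pw (-ph z) := by
  unfold nrm pw ph
  rw [Real.sqrt_eq_rpow, Real.rpow_def_of_pos (nsq_pos hz)]
  congr 1
  have := log16_pos.ne'
  field_simp
theorem ph_eq {z : V} (hz : z ≠ 0) {x : ℝ} (h : nrm z = pw (-x)) : ph z = x := by
  rw [nrm_eq_pw hz, pw_inj] at h; linarith
theorem ph_smul {z : V} (hz : z ≠ 0) (x : ℝ) : ph (pw x • z) = ph z - x := by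
  refine ph_eq (smul_ne_zero (pw_ne_zero x) hz) ?_
  rw [nrm_smul, abs_of_pos (pw_pos x), nrm_eq_pw hz, ← pw_add]; congr 1; ring

theorem norm_le_nrm (z : V) : ‖z‖ ≤ nrm z := by
  rw [Prod.norm_def]
  refine max_le ?_ ?_
  · refine Real.le_sqrt_of_sq_le ?_
    rw [nsq, Complex.normSq_eq_norm_sq, Complex.normSq_eq_norm_sq]; nlinarith [sq_nonneg ‖z.2‖]
  · refine Real.le_sqrt_of_sq_le ?_
    rw [nsq, Complex.normSq_eq_norm_sq, Complex.normSq_eq_norm_sq]; nlinarith [sq_nonneg ‖z.1‖]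
theorem nrm_le_norm (z : V) : nrm z ≤ 2 * ‖z‖ := by
  refine Real.sqrt_le_iff.2 ⟨by positivity, ?_⟩
  rw [nsq, Complex.normSq_eq_norm_sq, Complex.normSq_eq_norm_sq]
  have h1 : ‖z.1‖ ≤ ‖z‖ := norm_fst_le z
  have h2 : ‖z.2‖ ≤ ‖z‖ := norm_snd_le z
  nlinarith [norm_nonneg z.1, norm_nonneg z.2, norm_nonneg z]

/-! ### the linear map `sg = 16⁻¹ S` -/

/-- `sg (z₁,z₂) = (z₂/16, z₁/16)`. -/
def sg : V ≃L[ℝ] V :=
  ContinuousLinearEquiv.equivOfInverse
    ((16 : ℝ)⁻¹ • ((ContinuousLinearMap.snd ℝ ℂ ℂ).prod (ContinuousLinearMap.fst ℝ ℂ ℂ)))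
    ((16 : ℝ) • ((ContinuousLinearMap.snd ℝ ℂ ℂ).prod (ContinuousLinearMap.fst ℝ ℂ ℂ)))
    (fun z => by
      refine Prod.ext ?_ ?_ <;> simp)
    (fun z => by
      refine Prod.ext ?_ ?_ <;> simp)

theorem sg_apply (z : V) : sg z = ((16 : ℝ)⁻¹ • z.2, (16 : ℝ)⁻¹ • z.1) := rfl
theorem sg_symm_apply (z : V) : sg.symm z = ((16 : ℝ) • z.2, (16 : ℝ) • z.1) := rfl

theorem nrm_sg (z : V) : nrm (sg z) = pw (-1) * nrm z := by
  have : sg z = (16 : ℝ)⁻¹ • ((z.2, z.1) : V) := rfl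
  rw [this, nrm_smul, pw_neg, pw_one, abs_of_pos (by norm_num)]
  congr 1
  unfold nrm nsq; congr 1; exact add_comm _ _

theorem norm_sg (z : V) : ‖sg z‖ = pw (-1) * ‖z‖ := by
  have : sg z = (16 : ℝ)⁻¹ • ((z.2, z.1) : V) := rfl
  rw [this, norm_smul, pw_neg, pw_one, Real.norm_of_nonneg (by norm_num)]
  congr 1
  rw [Prod.norm_def, Prod.norm_def]; exact max_comm _ _

theorem sgz_add (k l : ℤ) (z : V) : (sg ^ (k + l)) z = (sg ^ k) ((sg ^ l) z) := by
  rw [zpow_add]; rfl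
theorem sgz_zero (z : V) : (sg ^ (0 : ℤ)) z = z := by rw [zpow_zero]; rfl
theorem sgz_one (z : V) : (sg ^ (1 : ℤ)) z = sg z := by simp
theorem sgz_neg_apply (k : ℤ) (z : V) : (sg ^ (-k)) ((sg ^ k) z) = z := by
  rw [← sgz_add, neg_add_cancel, sgz_zero]
theorem sgz_apply_neg (k : ℤ) (z : V) : (sg ^ k) ((sg ^ (-k)) z) = z := by
  rw [← sgz_add, add_neg_cancel, sgz_zero]

theorem nrm_sgz (k : ℤ) (z : V) : nrm ((sg ^ k) z) = pw (-k) * nrm z := by
  have hn : ∀ n : ℕ, ∀ z, nrm ((sg ^ (n : ℤ)) z) = pw (-(n : ℝ)) * nrm z := by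
    intro n
    induction n with
    | zero => intro z; simp only [Nat.cast_zero, sgz_zero, neg_zero, pw_zero, one_mul]
    | succ n ih =>
      intro z
      have : ((n + 1 : ℕ) : ℤ) = (n : ℤ) + 1 := by push_cast; ring
      rw [this, sgz_add, ih, sgz_one, nrm_sg, ← mul_assoc, ← pw_add]
      congr 2; push_cast; ring
  obtain ⟨n, rfl | rfl⟩ := k.eq_nat_or_neg
  · exact_mod_cast hn n z
  · have := hn n ((sg ^ (-(n : ℤ))) z)
    rw [sgz_apply_neg] at this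
    rw [this, ← mul_assoc, ← pw_add]
    simp [pw_zero]

theorem norm_sgz (k : ℤ) (z : V) : ‖(sg ^ k) z‖ = pw (-k) * ‖z‖ := by
  have hn : ∀ n : ℕ, ∀ z, ‖(sg ^ (n : ℤ)) z‖ = pw (-(n : ℝ)) * ‖z‖ := by
    intro n
    induction n with
    | zero => intro z; simp only [Nat.cast_zero, sgz_zero, neg_zero, pw_zero, one_mul]
    | succ n ih =>
      intro z
      have : ((n + 1 : ℕ) : ℤ) = (n : ℤ) + 1 := by push_cast; ring
      rw [this, sgz_add, ih, sgz_one, norm_sg, ← mul_assoc, ← pw_add]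
      congr 2; push_cast; ring
  obtain ⟨n, rfl | rfl⟩ := k.eq_nat_or_neg
  · exact_mod_cast hn n z
  · have := hn n ((sg ^ (-(n : ℤ))) z)
    rw [sgz_apply_neg] at this
    rw [this, ← mul_assoc, ← pw_add]
    simp [pw_zero]

theorem sgz_ne_zero {k : ℤ} {z : V} (hz : z ≠ 0) : (sg ^ k) z ≠ 0 := by
  rw [← nrm_pos_iff, nrm_sgz]; exact mul_pos (pw_pos _) (nrm_pos hz)
theorem sg_ne_zero {z : V} (hz : z ≠ 0) : sg z ≠ 0 := by
  rw [← nrm_pos_iff, nrm_sg]; exact mul_pos (pw_pos _) (nrm_pos hz)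

theorem ph_sgz (k : ℤ) {z : V} (hz : z ≠ 0) : ph ((sg ^ k) z) = ph z + k := by
  refine ph_eq (sgz_ne_zero hz) ?_
  rw [nrm_sgz, nrm_eq_pw hz, ← pw_add]; congr 1; ring
theorem ph_sg {z : V} (hz : z ≠ 0) : ph (sg z) = ph z + 1 := by
  have := ph_sgz 1 hz; rwa [sgz_one, Int.cast_one] at this

theorem opNorm_sgz (k : ℤ) : ‖((sg ^ k : V ≃L[ℝ] V) : V →L[ℝ] V)‖ ≤ pw (-k) :=
  ContinuousLinearMap.opNorm_le_bound _ (pw_pos _).le fun z => (norm_sgz k z).le

/-! ### L1: C¹ across the zero set -/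

section L1

variable {E F : Type*} [NormedAddCommGroup E] [NormedSpace ℝ E] [NormedAddCommGroup F] [NormedSpace ℝ F]

theorem hasFDerivAt_zero_of_L1 {g : E → F} {Ω Z : Set E} (hΩ : IsOpen Ω) (hZ : IsClosed Z)
    (hc : ContinuousOn g Ω) (h0 : ∀ p ∈ Ω ∩ Z, g p = 0)
    (hd : ∀ p ∈ Ω \ Z, DifferentiableAt ℝ g p) {p₀ : E} (hp : p₀ ∈ Ω ∩ Z)
    (hlim : Tendsto (fderiv ℝ g) (𝓝[Ω \ Z] p₀) (𝓝 0)) : HasFDerivAt g (0 : E →L[ℝ] F) p₀ := by
  rw [hasFDerivAt_iff_isLittleO_nhds_zero]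
  have hgp : g p₀ = 0 := h0 p₀ hp
  simp only [hgp, sub_zero, _root_.zero_apply]
  rw [Asymptotics.isLittleO_iff]
  intro ε hε
  -- a ball where everything is good
  have h1 : ∀ᶠ p in 𝓝[Ω \ Z] p₀, ‖fderiv ℝ g p‖ < ε := by
    have := hlim.norm
    rw [norm_zero] at this
    exact this.eventually (gt_mem_nhds hε)
  rw [eventually_nhdsWithin_iff, Metric.eventually_nhds_iff_ball] at h1
  obtain ⟨r₁, hr₁, hb₁⟩ := h1
  obtain ⟨r₂, hr₂, hb₂⟩ := Metric.isOpen_iff.1 hΩ p₀ hp.1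
  have hr : 0 < min r₁ r₂ := lt_min hr₁ hr₂
  have hev : ∀ᶠ v : E in 𝓝 0, ‖v‖ < min r₁ r₂ := by
    have := (continuous_norm (E := E)).tendsto 0
    rw [norm_zero] at this
    exact this.eventually (gt_mem_nhds hr)
  filter_upwards [hev] with v hv
  -- segment
  by_cases hvZ : p₀ + v ∈ Z
  · rw [h0 _ ⟨hb₂ (by simpa using lt_of_lt_of_le hv (min_le_right _ _)), hvZ⟩, norm_zero]
    positivity
  set γ : ℝ → E := fun t => p₀ + t • v with hγ
  have hγc : Continuous γ := by fun_prop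
  have hball : ∀ t ∈ Icc (0:ℝ) 1, γ t ∈ Metric.ball p₀ (min r₁ r₂) := by
    intro t ht
    rw [mem_ball_iff_norm, hγ]
    simp only [add_sub_cancel_left, norm_smul, Real.norm_of_nonneg ht.1]
    calc t * ‖v‖ ≤ 1 * ‖v‖ := by gcongr; exact ht.2
      _ < _ := by simpa using hv
  set T : Set ℝ := Icc 0 1 ∩ γ ⁻¹' Z with hT
  have hTc : IsCompact T := isCompact_Icc.inter_right (hZ.preimage hγc)
  have hT0 : (0:ℝ) ∈ T := ⟨by simp, by simpa [hγ] using hp.2⟩
  obtain ⟨hs1, hs2⟩ := hTc.sSup_mem ⟨0, hT0⟩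
  set s := sSup T
  have hs_lt : s < 1 := by
    refine lt_of_le_of_ne hs1.2 ?_
    intro h
    apply hvZ
    have : γ s = p₀ + v := by rw [hγ]; simp [h]
    rw [← this]; exact hs2
  have hgs : g (γ s) = 0 := h0 _ ⟨hb₂ (Metric.ball_subset_ball (min_le_right _ _) (hball s hs1)), hs2⟩
  have hnot : ∀ t, s < t → t ≤ 1 → γ t ∈ Ω \ Z := by
    intro t h1 h2
    have ht : t ∈ Icc (0:ℝ) 1 := ⟨hs1.1.trans h1.le, h2⟩
    refine ⟨hb₂ (Metric.ball_subset_ball (min_le_right _ _) (hball t ht)), fun h => ?_⟩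
    exact absurd (le_csSup hTc.bddAbove (⟨ht, h⟩ : t ∈ T)) (not_le.2 h1)
  have key : ∀ a, s < a → a ≤ 1 → ‖g (γ 1) - g (γ a)‖ ≤ ε * ‖v‖ * (1 - a) := by
    intro a ha ha1
    have hcont : ContinuousOn (fun t => g (γ t)) (Icc a 1) := by
      intro t ht
      have := hnot t (lt_of_lt_of_le ha ht.1) ht.2
      exact (ContinuousAt.comp (f := γ) (hd _ this).continuousAt hγc.continuousAt).continuousWithinAt
    have hder : ∀ t ∈ Ico a 1, HasDerivWithinAt (fun t => g (γ t)) ((fderiv ℝ g (γ t)) v) (Ici t) t := by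
      intro t ht
      have h2 := hnot t (lt_of_lt_of_le ha ht.1) ht.2.le
      have h3 : HasDerivAt γ v t := by
        have := ((hasDerivAt_id t).smul_const v).const_add p₀
        simp only [one_smul] at this
        exact this
      exact ((hd _ h2).hasFDerivAt.comp_hasDerivAt t h3).hasDerivWithinAt
    have hbd : ∀ t ∈ Ico a 1, ‖(fderiv ℝ g (γ t)) v‖ ≤ ε * ‖v‖ := by
      intro t ht
      have h2 := hnot t (lt_of_lt_of_le ha ht.1) ht.2.le
      have h3 := hb₁ (γ t) (Metric.ball_subset_ball (min_le_left _ _)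
        (hball t ⟨hs1.1.trans (ha.le.trans ht.1), ht.2.le⟩)) h2
      calc ‖(fderiv ℝ g (γ t)) v‖ ≤ ‖fderiv ℝ g (γ t)‖ * ‖v‖ := ContinuousLinearMap.le_opNorm _ _
        _ ≤ ε * ‖v‖ := by gcongr
    exact norm_image_sub_le_of_norm_deriv_right_le_segment hcont hder hbd 1 ⟨ha1, le_rfl⟩
  have hlim2 : Tendsto (fun a => ‖g (γ 1) - g (γ a)‖) (𝓝[>] s) (𝓝 ‖g (γ 1) - g (γ s)‖) := by
    have hc1 : ContinuousAt g (γ s) :=
      hc.continuousAt (hΩ.mem_nhds (hb₂ (Metric.ball_subset_ball (min_le_right _ _) (hball s hs1))))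
    have : ContinuousAt (fun a => ‖g (γ 1) - g (γ a)‖) s :=
      (continuousAt_const.sub (ContinuousAt.comp (f := γ) hc1 hγc.continuousAt)).norm
    exact this.tendsto.mono_left nhdsWithin_le_nhds
  have hle : ‖g (γ 1) - g (γ s)‖ ≤ ε * ‖v‖ := by
    refine le_of_tendsto hlim2 ?_
    have : ∀ᶠ a in 𝓝[>] s, a ∈ Ioo s 1 := Ioo_mem_nhdsGT hs_lt
    filter_upwards [this] with a ha
    refine (key a ha.1 ha.2.le).trans ?_
    have : 0 ≤ a := hs1.1.trans ha.1.le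
    have h5 : 0 ≤ ε * ‖v‖ := by positivity
    nlinarith
  rw [hgs, sub_zero] at hle
  simpa [hγ] using hle

/-- **L1**: a continuous function vanishing on a closed set `Z`, `C¹` off `Z`, whose derivative tends
to `0` at the points of `Z`, is `C¹`. -/
theorem contDiffOn_of_L1 {g : E → F} {Ω Z : Set E} (hΩ : IsOpen Ω) (hZ : IsClosed Z)
    (hc : ContinuousOn g Ω) (h0 : ∀ p ∈ Ω ∩ Z, g p = 0)
    (hd : ∀ p ∈ Ω \ Z, ContDiffAt ℝ 1 g p)
    (hlim : ∀ p₀ ∈ Ω ∩ Z, Tendsto (fderiv ℝ g) (𝓝[Ω \ Z] p₀) (𝓝 0)) : ContDiffOn ℝ 1 g Ω := by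
  have hdiff : ∀ p ∈ Ω \ Z, DifferentiableAt ℝ g p := fun p hp => (hd p hp).differentiableAt (by norm_num)
  have hzero : ∀ p ∈ Ω ∩ Z, HasFDerivAt g (0 : E →L[ℝ] F) p := fun p hp =>
    hasFDerivAt_zero_of_L1 hΩ hZ hc h0 hdiff hp (hlim p hp)
  have h1 : ContDiffOn ℝ (0 + 1) g Ω := by
    rw [contDiffOn_succ_iff_fderiv_of_isOpen hΩ]
    refine ⟨?_, by simp, ?_⟩
    · intro p hp
      by_cases hpZ : p ∈ Z
      · exact (hzero p ⟨hp, hpZ⟩).differentiableAt.differentiableWithinAt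
      · exact (hdiff p ⟨hp, hpZ⟩).differentiableWithinAt
    · rw [contDiffOn_zero]
      intro p hp
      refine ContinuousAt.continuousWithinAt ?_
      by_cases hpZ : p ∈ Z
      · have hfd : fderiv ℝ g p = 0 := (hzero p ⟨hp, hpZ⟩).fderiv
        rw [ContinuousAt, hfd]
        -- split neighbourhood
        have hU : Ω ∈ 𝓝 p := hΩ.mem_nhds hp
        have hl := hlim p ⟨hp, hpZ⟩
        rw [Metric.tendsto_nhds]
        intro ε hε
        have h2 := (Metric.tendsto_nhds.1 hl) ε hε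
        rw [eventually_nhdsWithin_iff] at h2
        filter_upwards [h2, hU] with q hq hqΩ
        by_cases hqZ : q ∈ Z
        · rw [(hzero q ⟨hqΩ, hqZ⟩).fderiv, dist_self]; exact hε
        · exact hq ⟨hqΩ, hqZ⟩
      · exact ((hd p ⟨hp, hpZ⟩).fderiv_right (m := 0) (by norm_num)).continuousAt
  simpa using h1

end L1

end

end Crest.Agent.S0163
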