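/-
S0163 package C, part 1: cutoffs and the telescope map `J : ℂ → V`.
-/
import Crest.Agent.S0163_C0

set_option autoImplicit false

open Real Set Filter Topology
open scoped Manifold ContDiff

namespace Crest.Agent.S0163

noncomputable section

/-- smooth transition -/
local notation "st" => Real.smoothTransition

theorem contDiff_st {n : ℕ∞} : ContDiff ℝ n st := Real.smoothTransition.contDiff
theorem st_nonneg (x : ℝ) : 0 ≤ st x := Real.smoothTransition.nonneg x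
theorem st_le_one (x : ℝ) : st x ≤ 1 := Real.smoothTransition.le_one x
theorem st_zero {x : ℝ} (h : x ≤ 0) : st x = 0 := Real.smoothTransition.zero_of_nonpos h
theorem st_one {x : ℝ} (h : 1 ≤ x) : st x = 1 := Real.smoothTransition.one_of_one_le h

/-- `s0`: `0` for `r ≤ 1/4`, `1` for `r ≥ 1/2` -/
def s0 (r : ℝ) : ℝ := st (4 * r - 1)
theorem s0_zero {r : ℝ} (h : r ≤ 1 / 4) : s0 r = 0 := st_zero (by linarith)
theorem s0_one {r : ℝ} (h : 1 / 2 ≤ r) : s0 r = 1 := st_one (by linarith)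
theorem s0_nonneg (r : ℝ) : 0 ≤ s0 r := st_nonneg _
theorem s0_le_one (r : ℝ) : s0 r ≤ 1 := st_le_one _
theorem contDiff_s0 {n : ℕ∞} : ContDiff ℝ n s0 :=
  contDiff_st.comp ((contDiff_const.mul contDiff_id).sub contDiff_const)

/-- regularised inverse square root: `1/√ρ` for `ρ ≥ 1/16` -/
def isq (ρ : ℝ) : ℝ := (√(ρ + 1 - st (32 * ρ - 1)))⁻¹

theorem isq_arg_pos {ρ : ℝ} (h : -1 < ρ) : 0 < ρ + 1 - st (32 * ρ - 1) := by
  by_cases h0 : ρ ≤ 0
  · rw [st_zero (by linarith)]; linarith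
  · push Not at h0
    have := st_le_one (32 * ρ - 1); linarith
theorem isq_eq {ρ : ℝ} (h : 1 / 16 ≤ ρ) : isq ρ = (√ρ)⁻¹ := by
  unfold isq; rw [st_one (by linarith)]; congr 2; ring
theorem isq_pos {ρ : ℝ} (h : -1 < ρ) : 0 < isq ρ := inv_pos.2 (Real.sqrt_pos.2 (isq_arg_pos h))
theorem isq_nonneg (ρ : ℝ) : 0 ≤ isq ρ := inv_nonneg.2 (Real.sqrt_nonneg _)
theorem isq_le {ρ : ℝ} (h : 0 ≤ ρ) : isq ρ * √ρ ≤ 1 := by
  unfold isq
  have h1 : √ρ ≤ √(ρ + 1 - st (32 * ρ - 1)) := by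
    apply Real.sqrt_le_sqrt
    have := st_le_one (32 * ρ - 1); linarith
  have h2 : 0 < √(ρ + 1 - st (32 * ρ - 1)) := Real.sqrt_pos.2 (isq_arg_pos (by linarith))
  rw [inv_mul_le_iff₀ h2, mul_one]; exact h1
theorem contDiffAt_isq {n : ℕ∞} {ρ : ℝ} (h : -1 < ρ) : ContDiffAt ℝ n isq ρ := by
  unfold isq
  have h0 : ContDiffAt ℝ n (fun ρ => ρ + 1 - st (32 * ρ - 1)) ρ :=
    ((contDiff_id.add contDiff_const).sub
      (contDiff_st.comp ((contDiff_const.mul contDiff_id).sub contDiff_const))).contDiffAt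
  have hpos := isq_arg_pos h
  exact ((Real.contDiffAt_sqrt hpos.ne').comp ρ h0).inv (Real.sqrt_pos.2 hpos).ne'

/-- `JA r = (1-s)/√((1-s)²+s²)`, `JB r = s/√(...)`, `s = s0 r` -/
def JD (r : ℝ) : ℝ := (1 - s0 r) ^ 2 + (s0 r) ^ 2
def JA (r : ℝ) : ℝ := (1 - s0 r) / √(JD r)
def JB (r : ℝ) : ℝ := s0 r / √(JD r)

theorem JD_ge (r : ℝ) : 1 / 2 ≤ JD r := by
  unfold JD; nlinarith [sq_nonneg (2 * s0 r - 1)]
theorem JD_pos (r : ℝ) : 0 < JD r := by have := JD_ge r; linarith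
theorem JAB_sq (r : ℝ) : JA r ^ 2 + JB r ^ 2 = 1 := by
  unfold JA JB
  rw [div_pow, div_pow, Real.sq_sqrt (JD_pos r).le, ← add_div]
  exact div_self (JD_pos r).ne'
theorem JA_nonneg (r : ℝ) : 0 ≤ JA r := div_nonneg (by have := s0_le_one r; linarith) (Real.sqrt_nonneg _)
theorem JB_nonneg (r : ℝ) : 0 ≤ JB r := div_nonneg (s0_nonneg r) (Real.sqrt_nonneg _)
theorem JA_one {r : ℝ} (h : r ≤ 1 / 4) : JA r = 1 := by simp [JA, JD, s0_zero h]
theorem JB_zero {r : ℝ} (h : r ≤ 1 / 4) : JB r = 0 := by simp [JB, s0_zero h]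
theorem JA_zero {r : ℝ} (h : 1 / 2 ≤ r) : JA r = 0 := by simp [JA, s0_one h]
theorem JB_one {r : ℝ} (h : 1 / 2 ≤ r) : JB r = 1 := by simp [JB, JD, s0_one h]
theorem contDiff_JD {n : ℕ∞} : ContDiff ℝ n JD :=
  ((contDiff_const.sub contDiff_s0).pow 2).add (contDiff_s0.pow 2)
theorem contDiff_JA {n : ℕ∞} : ContDiff ℝ n JA :=
  (contDiff_const.sub contDiff_s0).div (contDiff_JD.sqrt fun r => (JD_pos r).ne')
    fun r => (Real.sqrt_pos.2 (JD_pos r)).ne'
theorem contDiff_JB {n : ℕ∞} : ContDiff ℝ n JB :=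
  contDiff_s0.div (contDiff_JD.sqrt fun r => (JD_pos r).ne') fun r => (Real.sqrt_pos.2 (JD_pos r)).ne'

/-- phase of a complex number -/
def phc (v : ℂ) : ℝ := -Real.log (Complex.normSq v) / (2 * Real.log 16)

theorem normSq_pos {v : ℂ} (hv : v ≠ 0) : 0 < Complex.normSq v := Complex.normSq_pos.2 hv
theorem norm_eq_pw {v : ℂ} (hv : v ≠ 0) : ‖v‖ = pw (-phc v) := by
  unfold pw phc
  rw [← Real.exp_log (norm_pos_iff.2 hv), Complex.normSq_eq_norm_sq, Real.log_pow]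
  congr 1
  have := log16_pos.ne'
  push_cast
  field_simp
theorem phc_eq {v : ℂ} (hv : v ≠ 0) {x : ℝ} (h : ‖v‖ = pw (-x)) : phc v = x := by
  rw [norm_eq_pw hv, pw_inj] at h; linarith
theorem contDiffAt_phc {n : ℕ∞} {v : ℂ} (hv : v ≠ 0) : ContDiffAt ℝ n phc v := by
  unfold phc
  exact (((Real.contDiffAt_log.2 (normSq_pos hv).ne').comp v contDiff_normSq.contDiffAt).neg).div_const _
theorem contDiffAt_norm' {n : ℕ∞} {v : ℂ} (hv : v ≠ 0) : ContDiffAt ℝ n (fun v : ℂ => ‖v‖) v :=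
  contDiffAt_norm ℝ hv

/-- `dd v = 16 v²/|v|` -/
def dd (v : ℂ) : ℂ := ((16 / ‖v‖ : ℝ) : ℂ) * v ^ 2
theorem dd_zero : dd 0 = 0 := by simp [dd]
theorem norm_dd (v : ℂ) : ‖dd v‖ = 16 * ‖v‖ := by
  by_cases hv : v = 0
  · simp [hv, dd_zero]
  · have : ‖v‖ ≠ 0 := norm_ne_zero_iff.2 hv
    unfold dd
    rw [norm_mul, norm_pow, Complex.norm_real, Real.norm_of_nonneg (by positivity)]
    field_simp
theorem dd_ne_zero {v : ℂ} (hv : v ≠ 0) : dd v ≠ 0 := by
  rw [← norm_ne_zero_iff, norm_dd]; exact mul_ne_zero (by norm_num) (norm_ne_zero_iff.2 hv)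
theorem phc_dd {v : ℂ} (hv : v ≠ 0) : phc (dd v) = phc v - 1 := by
  refine phc_eq (dd_ne_zero hv) ?_
  rw [norm_dd, norm_eq_pw hv, ← pw_one, ← pw_add]; congr 1; ring
theorem ddk_ne_zero {v : ℂ} (hv : v ≠ 0) (k : ℕ) : dd^[k] v ≠ 0 := by
  induction k with
  | zero => exact hv
  | succ k ih => rw [Function.iterate_succ_apply']; exact dd_ne_zero ih
theorem phc_ddk {v : ℂ} (hv : v ≠ 0) (k : ℕ) : phc (dd^[k] v) = phc v - k := by
  induction k with
  | zero => simp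
  | succ k ih => rw [Function.iterate_succ_apply', phc_dd (ddk_ne_zero hv k), ih]; push_cast; ring
theorem contDiffAt_dd {n : ℕ∞} {v : ℂ} (hv : v ≠ 0) : ContDiffAt ℝ n dd v := by
  unfold dd
  have h1 : ContDiffAt ℝ n (fun v : ℂ => (16 / ‖v‖ : ℝ)) v :=
    contDiffAt_const.div (contDiffAt_norm' hv) (norm_ne_zero_iff.2 hv)
  have h2 : ContDiffAt ℝ n (fun v : ℂ => ((16 / ‖v‖ : ℝ) : ℂ)) v :=
    Complex.ofRealCLM.contDiff.contDiffAt.comp v h1
  exact h2.mul (contDiffAt_id.pow 2)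
theorem contDiffAt_ddk {n : ℕ∞} {v : ℂ} (hv : v ≠ 0) (k : ℕ) : ContDiffAt ℝ n (dd^[k]) v := by
  induction k with
  | zero => exact contDiffAt_id
  | succ k ih =>
    rw [Function.iterate_succ']
    exact (contDiffAt_dd (ddk_ne_zero hv k)).comp v ih

/-- `v²/|v|` is `3`-Lipschitz -/
theorem lipschitz_dd : LipschitzWith 48 dd := by
  refine LipschitzWith.of_dist_le_mul fun v w => ?_
  rw [dist_eq_norm, dist_eq_norm]
  show ‖dd v - dd w‖ ≤ 48 * ‖v - w‖
  by_cases hv : v = 0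
  · rw [hv, dd_zero, zero_sub, zero_sub, norm_neg, norm_neg, norm_dd]
    have := norm_nonneg w; linarith
  by_cases hw : w = 0
  · rw [hw, dd_zero, sub_zero, sub_zero, norm_dd]
    have := norm_nonneg v; linarith
  have hv' : ‖v‖ ≠ 0 := norm_ne_zero_iff.2 hv
  have hw' : ‖w‖ ≠ 0 := norm_ne_zero_iff.2 hw
  have hvc : ((‖v‖ : ℝ) : ℂ) ≠ 0 := by exact_mod_cast hv'
  have hwc : ((‖w‖ : ℝ) : ℂ) ≠ 0 := by exact_mod_cast hw'
  have e1 : dd v - dd w = 16 * ((v - w) * (v / ‖v‖) + w * (v / ‖v‖ - w / ‖w‖)) := by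
    unfold dd; push_cast; field_simp; ring
  have e2 : w * (v / ‖v‖ - w / ‖w‖) = (w / ‖w‖) * ((‖w‖ - ‖v‖ : ℝ) * (v / ‖v‖) + (v - w)) := by
    push_cast; field_simp; ring
  have n1 : ‖v / (‖v‖ : ℂ)‖ = 1 := by
    rw [norm_div, Complex.norm_real, norm_norm, div_self hv']
  have n2 : ‖w / (‖w‖ : ℂ)‖ = 1 := by
    rw [norm_div, Complex.norm_real, norm_norm, div_self hw']
  rw [e1, e2, norm_mul]
  have h3 : |‖w‖ - ‖v‖| ≤ ‖v - w‖ := by
    rw [abs_sub_comm]; exact abs_norm_sub_norm_le v w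
  have h4 : ‖(v - w) * (v / ‖v‖) + (w / ‖w‖) * ((‖w‖ - ‖v‖ : ℝ) * (v / ‖v‖) + (v - w))‖ ≤ 3 * ‖v - w‖ := by
    calc _ ≤ ‖(v - w) * (v / ‖v‖)‖ + ‖(w / ‖w‖) * ((‖w‖ - ‖v‖ : ℝ) * (v / ‖v‖) + (v - w))‖ := norm_add_le _ _
      _ ≤ ‖v - w‖ + (|‖w‖ - ‖v‖| + ‖v - w‖) := by
        rw [norm_mul, n1, mul_one, norm_mul, n2, one_mul]
        gcongr
        calc _ ≤ ‖((‖w‖ - ‖v‖ : ℝ) : ℂ) * (v / ‖v‖)‖ + ‖v - w‖ := norm_add_le _ _
          _ = _ := by rw [norm_mul, n1, mul_one, Complex.norm_real, Real.norm_eq_abs]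
      _ ≤ 3 * ‖v - w‖ := by linarith
  have h16 : ‖(16 : ℂ)‖ = 16 := by simp
  rw [h16]
  linarith

/-- one level of the telescope -/
def J0 (v : ℂ) : V := (((JA (phc v) : ℝ) : ℂ) * v, ((JB (phc v) / ‖v‖ : ℝ) : ℂ) * v ^ 2)

theorem J0_zero : J0 0 = 0 := by simp [J0]
theorem nrm_J0 (v : ℂ) : nrm (J0 v) = ‖v‖ := by
  by_cases hv : v = 0
  · rw [hv, J0_zero, nrm_zero, norm_zero]
  have hv' : ‖v‖ ≠ 0 := norm_ne_zero_iff.2 hv
  unfold nrm
  rw [← Real.sqrt_sq (norm_nonneg v)]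
  congr 1
  unfold nsq J0
  simp only [map_mul, Complex.normSq_ofReal, map_pow, Complex.normSq_eq_norm_sq v]
  have := JAB_sq (phc v)
  field_simp
  linear_combination this

theorem contDiffAt_J0 {n : ℕ∞} {v : ℂ} (hv : v ≠ 0) : ContDiffAt ℝ n J0 v := by
  unfold J0
  have hA : ContDiffAt ℝ n (fun v => ((JA (phc v) : ℝ) : ℂ)) v :=
    Complex.ofRealCLM.contDiff.contDiffAt.comp v (contDiff_JA.contDiffAt.comp v (contDiffAt_phc hv))
  have hB : ContDiffAt ℝ n (fun v => ((JB (phc v) / ‖v‖ : ℝ) : ℂ)) v :=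
    Complex.ofRealCLM.contDiff.contDiffAt.comp v
      ((contDiff_JB.contDiffAt.comp v (contDiffAt_phc hv)).div (contDiffAt_norm' hv)
        (norm_ne_zero_iff.2 hv))
  exact (hA.mul contDiffAt_id).prodMk (hB.mul (contDiffAt_id.pow 2))

theorem J0_eq {v : ℂ} (hv : v ≠ 0) (h1 : 1 / 2 ≤ phc v) (h2 : phc v ≤ 5 / 4) : J0 v = sg (J0 (dd v)) := by
  have h3 : phc (dd v) ≤ 1 / 4 := by rw [phc_dd hv]; linarith
  have h4 : J0 v = (0, ((1 / ‖v‖ : ℝ) : ℂ) * v ^ 2) := by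
    unfold J0; rw [JA_zero h1, JB_one h1]; simp
  have h5 : J0 (dd v) = (dd v, 0) := by
    unfold J0; rw [JA_one h3, JB_zero h3]; simp
  rw [h4, h5, sg_apply]
  refine Prod.ext ?_ ?_
  · simp
  · simp only [dd, Complex.real_smul]
    push_cast
    ring

theorem J0_of_le {v : ℂ} (h : phc v ≤ 1 / 4) : J0 v = (v, 0) := by
  unfold J0; rw [JA_one h, JB_zero h]; simp

/-- **The telescope map.** -/
def J (w : ℂ) : V := (sg ^ ((⌊phc w⌋₊ : ℕ) : ℤ)) (J0 (dd^[⌊phc w⌋₊] w))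

theorem phc_zero : phc 0 = 0 := by simp [phc]
theorem J_zero : J 0 = 0 := by
  unfold J; rw [phc_zero]; simp [J0_zero]

theorem nrm_J (w : ℂ) : nrm (J w) = ‖w‖ := by
  by_cases hw : w = 0
  · rw [hw, J_zero, nrm_zero, norm_zero]
  unfold J
  rw [nrm_sgz, nrm_J0, norm_eq_pw (ddk_ne_zero hw _), phc_ddk hw, ← pw_add, norm_eq_pw hw]
  congr 1; push_cast; ring

theorem J_ne_zero {w : ℂ} (hw : w ≠ 0) : J w ≠ 0 := by
  rw [← nrm_pos_iff, nrm_J]; exact norm_pos_iff.2 hw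
theorem ph_J {w : ℂ} (hw : w ≠ 0) : ph (J w) = phc w :=
  ph_eq (J_ne_zero hw) (by rw [nrm_J, norm_eq_pw hw])

theorem J0_step {w : ℂ} (hw : w ≠ 0) (k : ℕ) (h1 : 1 / 2 ≤ phc w - k) (h2 : phc w - k ≤ 5 / 4) :
    (sg ^ (k : ℤ)) (J0 (dd^[k] w)) = (sg ^ ((k + 1 : ℕ) : ℤ)) (J0 (dd^[k + 1] w)) := by
  have h3 := J0_eq (ddk_ne_zero hw k) (by rwa [phc_ddk hw]) (by rwa [phc_ddk hw])
  rw [Function.iterate_succ_apply', h3]
  push_cast
  rw [sgz_add, sgz_one]

theorem J_formula {w : ℂ} (hw : w ≠ 0) (k : ℕ) (h1 : k = 0 ∨ -(1 / 2) ≤ phc w - k)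
    (h2 : phc w - k ≤ 5 / 4) : J w = (sg ^ (k : ℤ)) (J0 (dd^[k] w)) := by
  unfold J
  set m := ⌊phc w⌋₊ with hm
  by_cases h0 : phc w < 0
  · have hm0 : m = 0 := Nat.floor_of_nonpos h0.le
    have hk0 : k = 0 := by
      rcases h1 with h1 | h1
      · exact h1
      · have : (k : ℝ) < 1 := by linarith
        have : k < 1 := by exact_mod_cast this
        omega
    rw [hm0, hk0]
  push Not at h0
  have hm1 : (m : ℝ) ≤ phc w := Nat.floor_le h0
  have hm2 : phc w < m + 1 := Nat.lt_floor_add_one _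
  have hk1 : k ≤ m + 1 := by
    rcases h1 with h1 | h1
    · omega
    · have : (k : ℝ) < m + 2 := by linarith
      have : k < m + 2 := by exact_mod_cast this
      omega
  have hk2 : m ≤ k + 1 := by
    have : (m : ℝ) < k + 2 := by linarith
    have : m < k + 2 := by exact_mod_cast this
    omega
  rcases Nat.lt_trichotomy k m with h | h | h
  · have : m = k + 1 := by omega
    rw [this]
    rw [this] at hm1
    push_cast at hm1
    exact (J0_step hw k (by linarith) h2).symm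
  · rw [h]
  · have : k = m + 1 := by omega
    rw [this]
    rcases h1 with h1 | h1
    · omega
    · rw [this] at h1; push_cast at h1
      exact J0_step hw m (by linarith) (by linarith)

theorem J_of_le {w : ℂ} (h : phc w ≤ 1 / 4) : J w = (w, 0) := by
  by_cases hw : w = 0
  · rw [hw, J_zero]; rfl
  rw [J_formula hw 0 (Or.inl rfl) (by push_cast; linarith), Nat.cast_zero, sgz_zero]
  exact J0_of_le (by simpa using h)

/-- functional equation -/
theorem J_eq {w : ℂ} (h : 1 / 2 ≤ phc w) : J w = sg (J (dd w)) := by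
  by_cases hw : w = 0
  · rw [hw, dd_zero, J_zero, map_zero]
  obtain ⟨k, hk1, hk2⟩ : ∃ k : ℕ, -(1 / 2) ≤ phc (dd w) - k ∧ phc (dd w) - k ≤ 1 / 2 := by
    rw [phc_dd hw]
    refine ⟨⌊phc w - 1 + 1 / 2⌋₊, ?_, ?_⟩
    · have := Nat.floor_le (a := phc w - 1 + 1 / 2) (by linarith)
      linarith
    · have := Nat.lt_floor_add_one (phc w - 1 + 1 / 2)
      linarith
  rw [J_formula (dd_ne_zero hw) k (Or.inr hk1) (by linarith)]
  rw [phc_dd hw] at hk1 hk2
  rw [J_formula hw (k + 1) (Or.inr (by push_cast; linarith)) (by push_cast; linarith)]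
  rw [Function.iterate_succ_apply, Nat.cast_succ, add_comm, sgz_add, sgz_one]

theorem contDiffAt_J {n : ℕ∞} {w : ℂ} (hw : w ≠ 0) : ContDiffAt ℝ n J w := by
  set k := ⌊phc w⌋₊ with hk
  have hloc : J =ᶠ[𝓝 w] fun w' => (sg ^ (k : ℤ)) (J0 (dd^[k] w')) := by
    have hcont : ContinuousAt phc w := (contDiffAt_phc (n := 0) hw).continuousAt
    have h1 : ∀ᶠ w' in 𝓝 w, phc w' < k + 5 / 4 := by
      refine hcont.eventually (gt_mem_nhds ?_)
      have := Nat.lt_floor_add_one (phc w); rw [← hk] at this; linarith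
    have h2 : ∀ᶠ w' in 𝓝 w, k = 0 ∨ -(1 / 2) ≤ phc w' - k := by
      by_cases h0 : phc w < 0
      · exact Filter.Eventually.of_forall fun _ => Or.inl (Nat.floor_of_nonpos h0.le)
      · push Not at h0
        have : (k : ℝ) ≤ phc w := Nat.floor_le h0
        have h3 : ∀ᶠ w' in 𝓝 w, (k : ℝ) - 1 / 2 < phc w' :=
          hcont.eventually (lt_mem_nhds (by linarith))
        filter_upwards [h3] with w' hw'
        right; linarith
    have h3 : ∀ᶠ w' in 𝓝 w, w' ≠ 0 := isOpen_ne.mem_nhds hw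
    filter_upwards [h1, h2, h3] with w' h1 h2 h3
    exact J_formula h3 k h2 (by linarith)
  refine ContDiffAt.congr_of_eventuallyEq ?_ hloc
  exact ((sg ^ (k : ℤ) : V ≃L[ℝ] V).contDiff.contDiffAt).comp w
    ((contDiffAt_J0 (ddk_ne_zero hw k)).comp w (contDiffAt_ddk hw k))

theorem continuous_J : Continuous J := by
  rw [continuous_iff_continuousAt]
  intro w
  by_cases hw : w = 0
  · rw [hw, ContinuousAt, J_zero]
    refine squeeze_zero_norm (a := fun w => ‖w‖) (fun w => ?_) ?_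
    · rw [← nrm_J]; exact norm_le_nrm _
    · have := (continuous_norm (E := ℂ)).tendsto 0
      rwa [norm_zero] at this
  · exact (contDiffAt_J (n := 0) hw).continuousAt

theorem three_pow_le (k : ℕ) {x : ℝ} (h : (k : ℝ) ≤ x) : (3 : ℝ) ^ k ≤ pw (2 / 5 * x) := by
  have h1 : (3 : ℝ) ≤ pw (2 / 5) := by
    have h5 : pw (2 / 5) ^ 5 = 256 := by
      rw [← pw_mul_nat]
      have : ((5 : ℕ) : ℝ) * (2 / 5) = 1 + 1 := by norm_num
      rw [this, pw_add, pw_one]; norm_num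
    by_contra hc
    push Not at hc
    have h6 : pw (2 / 5) ^ 5 < 3 ^ 5 := by
      gcongr
      exact (pw_pos _).le
    rw [h5] at h6; norm_num at h6
  calc (3 : ℝ) ^ k ≤ pw (2 / 5) ^ k := by gcongr
    _ = pw (k * (2 / 5)) := (pw_mul_nat _ _).symm
    _ ≤ pw (2 / 5 * x) := by rw [pw_le_pw]; linarith

/-- derivative bound for the telescope map -/
theorem J_deriv_bound : ∃ C : ℝ, 0 ≤ C ∧ ∀ w : ℂ, w ≠ 0 → -1 ≤ phc w →
    ‖fderiv ℝ J w‖ ≤ C * pw (2 / 5 * max (phc w) 0) := by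
  -- compact annulus
  set A : Set ℂ := {v | v ≠ 0 ∧ -1 ≤ phc v ∧ phc v ≤ 1} with hA
  have hAeq : A = {v : ℂ | ‖v‖ ≤ 16 ∧ 1 / 16 ≤ ‖v‖} := by
    ext v
    simp only [hA, mem_ofPred_eq]
    constructor
    · rintro ⟨h0, h1, h2⟩
      rw [norm_eq_pw h0]
      constructor
      · rw [← pw_one, pw_le_pw]; linarith
      · rw [one_div, ← pw_one, ← pw_neg, pw_le_pw]; linarith
    · rintro ⟨h1, h2⟩
      have h0 : v ≠ 0 := by
        rintro rfl
        rw [norm_zero] at h2; norm_num at h2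
      rw [norm_eq_pw h0] at h1 h2
      rw [← pw_one, pw_le_pw] at h1
      rw [one_div, ← pw_one, ← pw_neg, pw_le_pw] at h2
      exact ⟨h0, by linarith, by linarith⟩
  have hAc : IsCompact A := by
    rw [hAeq]
    have : {v : ℂ | ‖v‖ ≤ 16 ∧ 1 / 16 ≤ ‖v‖} = Metric.closedBall 0 16 ∩ {v | 1 / 16 ≤ ‖v‖} := by
      ext v; simp
    rw [this]
    exact (isCompact_closedBall _ _).inter_right (isClosed_le continuous_const continuous_norm)
  have hcont : ContinuousOn (fun v => ‖fderiv ℝ J0 v‖) A := by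
    intro v hv
    exact (((contDiffAt_J0 (n := 1) hv.1).fderiv_right (m := 0) (by norm_num)).continuousAt.norm).continuousWithinAt
  obtain ⟨C, hC⟩ := hAc.bddAbove_image hcont
  have hC' : ∀ v ∈ A, ‖fderiv ℝ J0 v‖ ≤ max C 0 := fun v hv =>
    (hC (mem_image_of_mem _ hv)).trans (le_max_left _ _)
  refine ⟨max C 0, le_max_right _ _, fun w hw hw1 => ?_⟩
  set k := ⌊phc w⌋₊ with hk
  have hk1 : (k : ℝ) ≤ max (phc w) 0 := by
    rcases le_total 0 (phc w) with h | h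
    · exact (Nat.floor_le h).trans (le_max_left _ _)
    · have : k = 0 := Nat.floor_of_nonpos h
      rw [this]; simp
  have hk2 : phc w < k + 1 := Nat.lt_floor_add_one _
  have hk3 : k = 0 ∨ (k : ℝ) ≤ phc w := by
    rcases le_total 0 (phc w) with h | h
    · right; exact Nat.floor_le h
    · left; exact Nat.floor_of_nonpos h
  have hloc : J =ᶠ[𝓝 w] fun w' => (sg ^ (k : ℤ)) (J0 (dd^[k] w')) := by
    have hcont : ContinuousAt phc w := (contDiffAt_phc (n := 0) hw).continuousAt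
    have h1 : ∀ᶠ w' in 𝓝 w, phc w' < k + 5 / 4 :=
      hcont.eventually (gt_mem_nhds (by linarith))
    have h2 : ∀ᶠ w' in 𝓝 w, k = 0 ∨ -(1 / 2) ≤ phc w' - k := by
      rcases hk3 with h | h
      · exact Filter.Eventually.of_forall fun _ => Or.inl h
      · have h3 : ∀ᶠ w' in 𝓝 w, (k : ℝ) - 1 / 2 < phc w' :=
          hcont.eventually (lt_mem_nhds (by linarith))
        filter_upwards [h3] with w' hw'
        right; linarith
    have h3 : ∀ᶠ w' in 𝓝 w, w' ≠ 0 := isOpen_ne.mem_nhds hw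
    filter_upwards [h1, h2, h3] with w' h1 h2 h3
    exact J_formula h3 k h2 (by linarith)
  rw [hloc.fderiv_eq]
  have hvA : dd^[k] w ∈ A := by
    refine ⟨ddk_ne_zero hw k, ?_, ?_⟩
    · rw [phc_ddk hw]
      rcases hk3 with h | h
      · rw [h]; simpa using hw1
      · linarith
    · rw [phc_ddk hw]; linarith
  have d1 : DifferentiableAt ℝ (dd^[k]) w := (contDiffAt_ddk (n := 1) hw k).differentiableAt (by norm_num)
  have d2 : DifferentiableAt ℝ J0 (dd^[k] w) :=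
    (contDiffAt_J0 (n := 1) (ddk_ne_zero hw k)).differentiableAt (by norm_num)
  have e1 : fderiv ℝ (fun w' => (sg ^ (k : ℤ)) (J0 (dd^[k] w'))) w
      = ((sg ^ (k : ℤ) : V ≃L[ℝ] V) : V →L[ℝ] V).comp ((fderiv ℝ J0 (dd^[k] w)).comp (fderiv ℝ (dd^[k]) w)) := by
    have h1 : HasFDerivAt (fun w' => J0 (dd^[k] w')) ((fderiv ℝ J0 (dd^[k] w)).comp (fderiv ℝ (dd^[k]) w)) w :=
      d2.hasFDerivAt.comp w d1.hasFDerivAt
    exact (((sg ^ (k : ℤ) : V ≃L[ℝ] V) : V →L[ℝ] V).hasFDerivAt.comp w h1).fderiv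
  rw [e1]
  have b1 : ‖fderiv ℝ (dd^[k]) w‖ ≤ 48 ^ k := by
    have hl : LipschitzWith (48 ^ k) (dd^[k]) := lipschitz_dd.iterate k
    have := norm_fderiv_le_of_lipschitz ℝ (x₀ := w) hl
    simpa using this
  have b2 := hC' _ hvA
  have b3 := opNorm_sgz (k : ℤ)
  calc _ ≤ ‖((sg ^ (k : ℤ) : V ≃L[ℝ] V) : V →L[ℝ] V)‖ * (‖fderiv ℝ J0 (dd^[k] w)‖ * ‖fderiv ℝ (dd^[k]) w‖) := by
        refine (ContinuousLinearMap.opNorm_comp_le _ _).trans ?_
        gcongr
        exact ContinuousLinearMap.opNorm_comp_le _ _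
    _ ≤ pw (-((k : ℤ) : ℝ)) * (max C 0 * 48 ^ k) := by
        gcongr
        exact (pw_pos _).le
    _ = max C 0 * 3 ^ k := by
        have : pw (-((k : ℤ) : ℝ)) = (16 ^ k)⁻¹ := by
          rw [pw_neg]; congr 1
          have := pw_mul_nat 1 k
          rw [mul_one, pw_one] at this
          exact_mod_cast this
        rw [this]
        have h48 : (48 : ℝ) ^ k = 16 ^ k * 3 ^ k := by rw [← mul_pow]; norm_num
        rw [h48]
        field_simp
    _ ≤ _ := by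
        gcongr
        exact three_pow_le k hk1

end

end Crest.Agent.S0163
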