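/-
S0163 package C, part 2: one shell: `Gf, w0, Rend, Q0, Q1, B0, R0`; equivariance; `C¹`; bounds.
-/
import Crest.Agent.S0163_C1

set_option autoImplicit false

open Real Set Filter Topology
open scoped Manifold ContDiff

namespace Crest.Agent.S0163

noncomputable section

local notation "st" => Real.smoothTransition

/-! ### cutoffs -/
def alp (E : ℝ) : ℝ := 1 - st (8 * E - 4)
def bet (E : ℝ) : ℝ := st (8 * E - 1)
def kap (E : ℝ) : ℝ := 1 - st (8 * E - 5)
def th (E : ℝ) : ℝ := E + alp E * (5 / 8 - E) + st (8 * E - 6) * (13 / 8 - E)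
def yy (ρ : ℝ) : ℝ := st (4 * ρ - 1)
def eta (ρ : ℝ) : ℝ := st (5 * ρ - 3)
def mm (ρ : ℝ) : ℝ := st ((16 * ρ - 1) / 3)

theorem contDiff_alp {n : ℕ∞} : ContDiff ℝ n alp :=
  contDiff_const.sub (contDiff_st.comp ((contDiff_const.mul contDiff_id).sub contDiff_const))
theorem contDiff_bet {n : ℕ∞} : ContDiff ℝ n bet :=
  contDiff_st.comp ((contDiff_const.mul contDiff_id).sub contDiff_const)
theorem contDiff_kap {n : ℕ∞} : ContDiff ℝ n kap :=
  contDiff_const.sub (contDiff_st.comp ((contDiff_const.mul contDiff_id).sub contDiff_const))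
theorem contDiff_th {n : ℕ∞} : ContDiff ℝ n th :=
  (contDiff_id.add (contDiff_alp.mul (contDiff_const.sub contDiff_id))).add
    ((contDiff_st.comp ((contDiff_const.mul contDiff_id).sub contDiff_const)).mul
      (contDiff_const.sub contDiff_id))
theorem contDiff_yy {n : ℕ∞} : ContDiff ℝ n yy :=
  contDiff_st.comp ((contDiff_const.mul contDiff_id).sub contDiff_const)
theorem contDiff_eta {n : ℕ∞} : ContDiff ℝ n eta :=
  contDiff_st.comp ((contDiff_const.mul contDiff_id).sub contDiff_const)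
theorem contDiff_mm {n : ℕ∞} : ContDiff ℝ n mm :=
  contDiff_st.comp (((contDiff_const.mul contDiff_id).sub contDiff_const).div_const _)

theorem alp_one {E : ℝ} (h : E ≤ 1 / 2) : alp E = 1 := by unfold alp; rw [st_zero (by linarith)]; ring
theorem alp_zero {E : ℝ} (h : 5 / 8 ≤ E) : alp E = 0 := by unfold alp; rw [st_one (by linarith)]; ring
theorem alp_nonneg (E : ℝ) : 0 ≤ alp E := by unfold alp; have := st_le_one (8 * E - 4); linarith
theorem alp_le_one (E : ℝ) : alp E ≤ 1 := by unfold alp; have := st_nonneg (8 * E - 4); linarith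
theorem bet_zero {E : ℝ} (h : E ≤ 1 / 8) : bet E = 0 := st_zero (by linarith)
theorem bet_one {E : ℝ} (h : 1 / 4 ≤ E) : bet E = 1 := st_one (by linarith)
theorem kap_one {E : ℝ} (h : E ≤ 5 / 8) : kap E = 1 := by unfold kap; rw [st_zero (by linarith)]; ring
theorem kap_zero {E : ℝ} (h : 3 / 4 ≤ E) : kap E = 0 := by unfold kap; rw [st_one (by linarith)]; ring
theorem yy_nonneg (ρ : ℝ) : 0 ≤ yy ρ := st_nonneg _
theorem yy_le_one (ρ : ℝ) : yy ρ ≤ 1 := st_le_one _
theorem yy_zero {ρ : ℝ} (h : ρ ≤ 1 / 4) : yy ρ = 0 := st_zero (by linarith)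
theorem yy_one {ρ : ℝ} (h : 1 / 2 ≤ ρ) : yy ρ = 1 := st_one (by linarith)
theorem eta_nonneg (ρ : ℝ) : 0 ≤ eta ρ := st_nonneg _
theorem eta_le_one (ρ : ℝ) : eta ρ ≤ 1 := st_le_one _
theorem eta_zero {ρ : ℝ} (h : ρ ≤ 3 / 5) : eta ρ = 0 := st_zero (by linarith)
theorem eta_one {ρ : ℝ} (h : 4 / 5 ≤ ρ) : eta ρ = 1 := st_one (by linarith)
theorem mm_zero {ρ : ℝ} (h : ρ ≤ 1 / 16) : mm ρ = 0 := st_zero (by linarith)
theorem mm_one {ρ : ℝ} (h : 1 / 4 ≤ ρ) : mm ρ = 1 := st_one (by linarith)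
theorem mm_nonneg (ρ : ℝ) : 0 ≤ mm ρ := st_nonneg _
theorem mm_le_one (ρ : ℝ) : mm ρ ≤ 1 := st_le_one _

theorem th_low {E : ℝ} (h : E ≤ 1 / 2) : th E = 5 / 8 := by
  unfold th; rw [alp_one h, st_zero (by linarith)]; ring
theorem th_high {E : ℝ} (h : 7 / 8 ≤ E) : th E = 13 / 8 := by
  unfold th; rw [alp_zero (by linarith), st_one (by linarith)]; ring
theorem th_mid {E : ℝ} (h1 : 5 / 8 ≤ E) (h2 : E ≤ 3 / 4) : th E = E := by
  unfold th; rw [alp_zero h1, st_zero (by linarith)]; ring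
theorem th_midlow {E : ℝ} (h2 : E ≤ 3 / 4) : th E = E + alp E * (5 / 8 - E) := by
  unfold th; rw [st_zero (by linarith)]; ring
theorem th_midhigh {E : ℝ} (h1 : 5 / 8 ≤ E) : th E = E + st (8 * E - 6) * (13 / 8 - E) := by
  unfold th; rw [alp_zero h1]; ring
theorem th_ge_half (E : ℝ) : 1 / 2 ≤ th E := by
  rcases le_total E (1/2) with h | h
  · rw [th_low h]; norm_num
  rcases le_total E (5/8) with h1 | h1
  · rw [th_midlow (by linarith)]
    have := mul_nonneg (alp_nonneg E) (by linarith : (0:ℝ) ≤ 5 / 8 - E); linarith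
  rcases le_total E (7/8) with h2 | h2
  · rw [th_midhigh h1]
    have := mul_nonneg (st_nonneg (8 * E - 6)) (by linarith : (0:ℝ) ≤ 13 / 8 - E); linarith
  · rw [th_high h2]; norm_num
theorem th_le (E : ℝ) : th E ≤ 13 / 8 := by
  rcases le_total E (5/8) with h1 | h1
  · rw [th_midlow (by linarith)]
    have := mul_le_mul_of_nonneg_right (alp_le_one E) (by linarith : (0:ℝ) ≤ 5 / 8 - E); linarith
  rcases le_total E (7/8) with h2 | h2
  · rw [th_midhigh h1]
    have := mul_le_mul_of_nonneg_right (st_le_one (8 * E - 6)) (by linarith : (0:ℝ) ≤ 13 / 8 - E); linarith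
  · rw [th_high h2]
theorem le_th {E : ℝ} (h : E ≤ 13 / 8) : E ≤ th E := by
  rcases le_total E (5/8) with h1 | h1
  · rw [th_midlow (by linarith)]
    have := mul_nonneg (alp_nonneg E) (by linarith : (0:ℝ) ≤ 5 / 8 - E); linarith
  · rw [th_midhigh h1]
    have := mul_nonneg (st_nonneg (8 * E - 6)) (by linarith : (0:ℝ) ≤ 13 / 8 - E); linarith

/-! ### normalised coordinates -/
def aa (z : V) : ℂ := (nrm z)⁻¹ • z.1
def cc (z : V) : ℂ := (nrm z)⁻¹ • z.2
def sq (a : ℂ) : ℂ := isq (Complex.normSq a) • a ^ 2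

theorem normSq_smul' (c : ℝ) (a : ℂ) : Complex.normSq (c • a) = c ^ 2 * Complex.normSq a := by
  rw [Complex.real_smul, map_mul, Complex.normSq_ofReal]; ring
theorem isq_sq_mul {ρ : ℝ} (h : 1 / 16 ≤ ρ) : isq ρ ^ 2 * ρ = 1 := by
  rw [isq_eq h, inv_pow, Real.sq_sqrt (by linarith)]
  exact inv_mul_cancel₀ (by linarith)
theorem isq_sq_mul_le {ρ : ℝ} (h : 0 ≤ ρ) : isq ρ ^ 2 * ρ ≤ 1 := by
  have h1 := isq_le h
  have h2 : 0 ≤ isq ρ * √ρ := mul_nonneg (isq_nonneg _) (Real.sqrt_nonneg _)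
  have h3 : (isq ρ * √ρ) ^ 2 = isq ρ ^ 2 * ρ := by rw [mul_pow, Real.sq_sqrt h]
  rw [← h3]; nlinarith
theorem normSq_sq_eq {a : ℂ} (h : 1 / 16 ≤ Complex.normSq a) : Complex.normSq (sq a) = Complex.normSq a := by
  unfold sq
  rw [normSq_smul', map_pow]
  have := isq_sq_mul h
  linear_combination (Complex.normSq a) * this
theorem normSq_sq_le (a : ℂ) : Complex.normSq (sq a) ≤ Complex.normSq a := by
  unfold sq
  rw [normSq_smul', map_pow]
  have h0 := Complex.normSq_nonneg a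
  have := isq_sq_mul_le h0
  nlinarith
theorem normSq_aa_add_cc {z : V} (hz : z ≠ 0) : Complex.normSq (aa z) + Complex.normSq (cc z) = 1 := by
  unfold aa cc
  rw [normSq_smul', normSq_smul', ← mul_add]
  have h1 : Complex.normSq z.1 + Complex.normSq z.2 = nrm z ^ 2 := (nrm_sq z).symm
  rw [h1, ← mul_pow, inv_mul_cancel₀ (nrm_pos hz).ne', one_pow]
theorem aa_sg (z : V) : aa (sg z) = cc z := by
  unfold aa cc
  rw [nrm_sg, sg_apply, pw_neg, pw_one, smul_smul, mul_inv, inv_inv]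
  congr 1; ring
theorem cc_sg (z : V) : cc (sg z) = aa z := by
  unfold aa cc
  rw [nrm_sg, sg_apply, pw_neg, pw_one, smul_smul, mul_inv, inv_inv]
  congr 1; ring
theorem contDiffAt_aa {n : ℕ∞} {z : V} (hz : z ≠ 0) : ContDiffAt ℝ n aa z :=
  ((contDiffAt_nrm hz).inv (nrm_pos hz).ne').smul contDiffAt_fst
theorem contDiffAt_cc {n : ℕ∞} {z : V} (hz : z ≠ 0) : ContDiffAt ℝ n cc z :=
  ((contDiffAt_nrm hz).inv (nrm_pos hz).ne').smul contDiffAt_snd
theorem contDiff_sq {n : ℕ∞} : ContDiff ℝ n sq := by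
  rw [contDiff_iff_contDiffAt]
  intro a
  have h1 : ContDiffAt ℝ n (fun a : ℂ => isq (Complex.normSq a)) a :=
    (contDiffAt_isq (by have := Complex.normSq_nonneg a; linarith)).comp a contDiff_normSq.contDiffAt
  exact h1.smul (contDiffAt_id.pow 2)

def Gf (z : V) : ℂ := alp (ph z) • sq (aa z) + bet (ph z) • cc z

theorem contDiffAt_Gf {n : ℕ∞} {z : V} (hz : z ≠ 0) : ContDiffAt ℝ n Gf z :=
  ((contDiff_alp.contDiffAt.comp z (contDiffAt_ph hz)).smul (contDiff_sq.contDiffAt.comp z (contDiffAt_aa hz))).add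
    ((contDiff_bet.contDiffAt.comp z (contDiffAt_ph hz)).smul (contDiffAt_cc hz))

/-- `W z = 16^{1-th} isq(|G|²) G` and `w0 = y(|G|²)^10 W` -/
def Wf (z : V) : ℂ := (pw (1 - th (ph z)) * isq (Complex.normSq (Gf z))) • Gf z
def w0 (z : V) : ℂ := (yy (Complex.normSq (Gf z))) ^ 10 • Wf z
def Rend (z : V) : V := J (w0 z)

theorem contDiffAt_Wf {n : ℕ∞} {z : V} (hz : z ≠ 0) : ContDiffAt ℝ n Wf z := by
  have h1 : ContDiffAt ℝ n (fun z => pw (1 - th (ph z))) z :=
    contDiff_pw.contDiffAt.comp z (contDiffAt_const.sub (contDiff_th.contDiffAt.comp z (contDiffAt_ph hz)))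
  have h2 : ContDiffAt ℝ n (fun z => isq (Complex.normSq (Gf z))) z :=
    (contDiffAt_isq (by have := Complex.normSq_nonneg (Gf z); linarith)).comp z
      (contDiff_normSq.contDiffAt.comp z (contDiffAt_Gf hz))
  exact (h1.mul h2).smul (contDiffAt_Gf hz)
theorem contDiffAt_yyG {n : ℕ∞} {z : V} (hz : z ≠ 0) :
    ContDiffAt ℝ n (fun z => yy (Complex.normSq (Gf z))) z :=
  contDiff_yy.contDiffAt.comp z (contDiff_normSq.contDiffAt.comp z (contDiffAt_Gf hz))
theorem contDiffAt_w0 {n : ℕ∞} {z : V} (hz : z ≠ 0) : ContDiffAt ℝ n w0 z :=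
  ((contDiffAt_yyG hz).pow 10).smul (contDiffAt_Wf hz)

theorem norm_Wf {z : V} (h : 1 / 16 ≤ Complex.normSq (Gf z)) : ‖Wf z‖ = pw (1 - th (ph z)) := by
  unfold Wf
  rw [norm_smul, Real.norm_of_nonneg (mul_nonneg (pw_pos _).le (isq_nonneg _)), isq_eq h,
    ← Complex.sq_norm, Real.sqrt_sq (norm_nonneg _), mul_assoc, inv_mul_cancel₀, mul_one]
  rw [← Complex.sq_norm] at h
  intro h0; rw [h0] at h; norm_num at h
theorem norm_w0 (z : V) : ‖w0 z‖ = (yy (Complex.normSq (Gf z))) ^ 10 * pw (1 - th (ph z)) := by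
  by_cases h : 1 / 16 ≤ Complex.normSq (Gf z)
  · unfold w0; rw [norm_smul, norm_Wf h, Real.norm_of_nonneg (pow_nonneg (yy_nonneg _) _)]
  · push Not at h
    unfold w0; rw [yy_zero (by linarith)]; simp
theorem w0_eq_zero_iff (z : V) : w0 z = 0 ↔ yy (Complex.normSq (Gf z)) = 0 := by
  rw [← norm_eq_zero, norm_w0]
  constructor
  · intro h
    rcases mul_eq_zero.1 h with h | h
    · exact pow_eq_zero_iff (by norm_num) |>.1 h
    · exact absurd h (pw_ne_zero _)
  · intro h; rw [h]; simp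
theorem nrm_Rend (z : V) : nrm (Rend z) = (yy (Complex.normSq (Gf z))) ^ 10 * pw (1 - th (ph z)) := by
  unfold Rend; rw [nrm_J, norm_w0]
theorem nrm_Rend_le (z : V) : nrm (Rend z) ≤ pw (1 - th (ph z)) := by
  rw [nrm_Rend]
  have h1 : (yy (Complex.normSq (Gf z))) ^ 10 ≤ 1 := pow_le_one₀ (yy_nonneg _) (yy_le_one _)
  have := pw_pos (1 - th (ph z))
  nlinarith

/-! ### compactness: the power lemma -/
section power
variable {E F : Type*} [NormedAddCommGroup E] [NormedSpace ℝ E] [NormedAddCommGroup F] [NormedSpace ℝ F]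

theorem power_bound {Ω K : Set E} (hΩ : IsOpen Ω) (hK : IsCompact K) (hKΩ : K ⊆ Ω) {s : E → ℝ} {W : E → F}
    (hs : ∀ p ∈ Ω, ContDiffAt ℝ 1 s p) (hW : ∀ p ∈ Ω, ContDiffAt ℝ 1 W p) (n : ℕ) :
    ∃ C : ℝ, 0 ≤ C ∧ ∀ p ∈ K, ‖fderiv ℝ (fun p => (s p) ^ (n + 1) • W p) p‖ ≤ C * |s p| ^ n := by
  have c1 : ContinuousOn (fun p => ‖fderiv ℝ s p‖) K := fun p hp =>
    ((hs p (hKΩ hp)).fderiv_right (m := 0) (by norm_num)).continuousAt.norm.continuousWithinAt
  have c2 : ContinuousOn (fun p => ‖fderiv ℝ W p‖) K := fun p hp =>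
    ((hW p (hKΩ hp)).fderiv_right (m := 0) (by norm_num)).continuousAt.norm.continuousWithinAt
  have c3 : ContinuousOn (fun p => ‖W p‖) K := fun p hp =>
    (hW p (hKΩ hp)).continuousAt.norm.continuousWithinAt
  have c4 : ContinuousOn (fun p => |s p|) K := fun p hp =>
    (hs p (hKΩ hp)).continuousAt.abs.continuousWithinAt
  obtain ⟨C1, h1⟩ := hK.bddAbove_image c1
  obtain ⟨C2, h2⟩ := hK.bddAbove_image c2
  obtain ⟨C3, h3⟩ := hK.bddAbove_image c3
  obtain ⟨C4, h4⟩ := hK.bddAbove_image c4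
  refine ⟨(n + 1) * max C1 0 * max C3 0 + max C4 0 * max C2 0, by positivity, fun p hp => ?_⟩
  have b1 : ‖fderiv ℝ s p‖ ≤ max C1 0 := (h1 (mem_image_of_mem _ hp)).trans (le_max_left _ _)
  have b2 : ‖fderiv ℝ W p‖ ≤ max C2 0 := (h2 (mem_image_of_mem _ hp)).trans (le_max_left _ _)
  have b3 : ‖W p‖ ≤ max C3 0 := (h3 (mem_image_of_mem _ hp)).trans (le_max_left _ _)
  have b4 : |s p| ≤ max C4 0 := (h4 (mem_image_of_mem _ hp)).trans (le_max_left _ _)
  have ds := ((hs p (hKΩ hp)).differentiableAt (by norm_num)).hasFDerivAt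
  have dW := ((hW p (hKΩ hp)).differentiableAt (by norm_num)).hasFDerivAt
  have hd : HasFDerivAt (fun p => s p ^ (n + 1) • W p)
      (s p ^ (n + 1) • fderiv ℝ W p + (((n + 1) • s p ^ (n + 1 - 1)) • fderiv ℝ s p).smulRight (W p)) p :=
    (ds.pow (n + 1)).smul dW
  rw [hd.fderiv]
  calc _ ≤ ‖(s p) ^ (n + 1) • fderiv ℝ W p‖ + ‖((((n + 1 : ℕ) : ℝ) * s p ^ (n + 1 - 1)) • fderiv ℝ s p).smulRight (W p)‖ := by
        refine (norm_add_le _ _).trans (le_of_eq ?_)
        congr 2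
        simp [nsmul_eq_mul]
    _ ≤ |s p| ^ (n + 1) * max C2 0 + ((n + 1) * |s p| ^ n * max C1 0) * max C3 0 := by
        gcongr
        · rw [norm_smul, norm_pow, Real.norm_eq_abs]
          gcongr
        · rw [ContinuousLinearMap.norm_smulRight_apply, norm_smul, norm_mul, norm_pow, Real.norm_eq_abs (s p)]
          have : ‖((n + 1 : ℕ) : ℝ)‖ = n + 1 := by
            rw [Real.norm_of_nonneg (by positivity)]; push_cast; ring
          rw [this, Nat.add_sub_cancel]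
          gcongr
    _ ≤ _ := by
        rw [pow_succ]
        have : |s p| ^ n * |s p| * max C2 0 ≤ |s p| ^ n * max C4 0 * max C2 0 := by gcongr
        nlinarith
end power

/-- on compact subsets of `V ∖ 0`, off the zero set -/
theorem Rend_bound_off {K : Set V} (hK : IsCompact K) (hK0 : ∀ z ∈ K, z ≠ 0) :
    ∃ C : ℝ, 0 ≤ C ∧ ∀ z ∈ K, w0 z ≠ 0 → ‖fderiv ℝ Rend z‖ ≤ C * √(nrm (Rend z)) := by
  obtain ⟨C1, hC1, hJ⟩ := J_deriv_bound
  obtain ⟨C2, hC2, hw⟩ := power_bound (s := fun z => yy (Complex.normSq (Gf z))) (W := Wf)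
    (isOpen_ne (x := (0 : V))) hK (fun z hz => hK0 z hz) (fun z hz => contDiffAt_yyG (n := 1) hz)
    (fun z hz => contDiffAt_Wf (n := 1) hz) 9
  refine ⟨C1 * (pw (1 / 4) * C2) * pw (5 / 16), by have := pw_pos (1/4); have := pw_pos (5/16); positivity, fun z hz h0 => ?_⟩
  have hz0 := hK0 z hz
  set y := yy (Complex.normSq (Gf z)) with hy
  have hy0 : 0 < y := lt_of_le_of_ne (yy_nonneg _) (fun h => h0 ((w0_eq_zero_iff z).2 h.symm))
  have hy1 : y ≤ 1 := yy_le_one _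
  have hnw : ‖w0 z‖ = y ^ 10 * pw (1 - th (ph z)) := norm_w0 z
  have hd1 : DifferentiableAt ℝ w0 z := (contDiffAt_w0 (n := 1) hz0).differentiableAt (by norm_num)
  have hd2 : DifferentiableAt ℝ J (w0 z) := (contDiffAt_J (n := 1) h0).differentiableAt (by norm_num)
  have hfd : fderiv ℝ Rend z = (fderiv ℝ J (w0 z)).comp (fderiv ℝ w0 z) := fderiv_comp z hd2 hd1
  -- phase of w0
  set L := -Real.log y / Real.log 16 with hL
  have hL0 : 0 ≤ L := div_nonneg (by have := Real.log_nonpos hy0.le hy1; linarith) log16_pos.le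
  have hyL : y = pw (-L) := by
    unfold pw; rw [hL]
    have := log16_pos.ne'
    field_simp
    exact (Real.exp_log hy0).symm
  have hx : phc (w0 z) = 10 * L + th (ph z) - 1 := by
    refine phc_eq h0 ?_
    rw [hnw, hyL, ← pw_mul_nat, ← pw_add]; congr 1; push_cast; ring
  have t1 := th_ge_half (ph z)
  have t2 := th_le (ph z)
  have hb1 : ‖fderiv ℝ J (w0 z)‖ ≤ C1 * (pw (1 / 4) * pw (4 * L)) := by
    refine (hJ _ h0 (by rw [hx]; linarith)).trans ?_
    gcongr
    rw [← pw_add, pw_le_pw, hx]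
    rcases le_total (10 * L + th (ph z) - 1) 0 with h | h
    · rw [max_eq_right h]; linarith
    · rw [max_eq_left h]; linarith
  have hb2 : ‖fderiv ℝ w0 z‖ ≤ C2 * y ^ 9 := by
    have := hw z hz
    rw [abs_of_nonneg (yy_nonneg _)] at this
    exact this
  have hb3 : √(nrm (Rend z)) = y ^ 5 * pw ((1 - th (ph z)) / 2) := by
    rw [nrm_Rend, ← hy]
    have : y ^ 10 * pw (1 - th (ph z)) = (y ^ 5 * pw ((1 - th (ph z)) / 2)) ^ 2 := by
      rw [mul_pow, ← pw_mul_nat, ← pow_mul]; congr 2; push_cast; ring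
    rw [this, Real.sqrt_sq (by have := pw_pos ((1 - th (ph z)) / 2); positivity)]
  have hb4 : 1 ≤ pw (5 / 16) * pw ((1 - th (ph z)) / 2) := by
    rw [← pw_add, one_le_pw]; linarith
  have hb5 : pw (4 * L) * y ^ 9 = y ^ 5 := by
    rw [hyL, ← pw_mul_nat, ← pw_mul_nat, ← pw_add]; congr 1; push_cast; ring
  rw [hfd]
  calc _ ≤ ‖fderiv ℝ J (w0 z)‖ * ‖fderiv ℝ w0 z‖ := ContinuousLinearMap.opNorm_comp_le _ _
    _ ≤ (C1 * (pw (1 / 4) * pw (4 * L))) * (C2 * y ^ 9) := by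
        gcongr
        have := pw_pos (1/4); have := pw_pos (4 * L); positivity
    _ = C1 * (pw (1 / 4) * C2) * (pw (4 * L) * y ^ 9) := by ring
    _ = C1 * (pw (1 / 4) * C2) * y ^ 5 := by rw [hb5]
    _ ≤ C1 * (pw (1 / 4) * C2) * y ^ 5 * (pw (5 / 16) * pw ((1 - th (ph z)) / 2)) := by
        have : 0 ≤ C1 * (pw (1 / 4) * C2) * y ^ 5 := by have := pw_pos (1/4); positivity
        nlinarith
    _ = _ := by rw [hb3]; ring

theorem isOpen_good : IsOpen {z : V | z ≠ 0 ∧ w0 z ≠ 0} := by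
  have : ContinuousOn w0 {z : V | z ≠ 0} := fun z hz => (contDiffAt_w0 (n := 0) hz).continuousAt.continuousWithinAt
  exact this.isOpen_inter_preimage isOpen_ne isOpen_ne

theorem contDiffOn_Rend : ContDiffOn ℝ 1 Rend {z : V | z ≠ 0} := by
  set Z : Set V := {z : V | z ≠ 0 ∧ w0 z ≠ 0}ᶜ with hZ
  refine contDiffOn_of_L1 (Z := Z) isOpen_ne isOpen_good.isClosed_compl ?_ ?_ ?_ ?_
  · intro z hz
    exact ((continuous_J.continuousAt).comp (contDiffAt_w0 (n := 0) hz).continuousAt).continuousWithinAt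
  · rintro z ⟨hz, hz2⟩
    have h0 : w0 z = 0 := by
      by_contra h; exact hz2 ⟨hz, h⟩
    unfold Rend; rw [h0, J_zero]
  · rintro z ⟨hz, hz2⟩
    have h0 : w0 z ≠ 0 := by
      rw [hZ, mem_compl_iff, not_not] at hz2; exact hz2.2
    exact (contDiffAt_J h0).comp z (contDiffAt_w0 hz)
  · rintro z ⟨hz, hz2⟩
    have h0 : w0 z = 0 := by
      by_contra h; exact hz2 ⟨hz, h⟩
    obtain ⟨K, hK, hzK, hKΩ⟩ := exists_compact_subset (isOpen_ne (x := (0:V))) hz
    obtain ⟨C, hC, hb⟩ := Rend_bound_off hK (fun z hz => hKΩ hz)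
    have hc : ContinuousAt (fun z => C * √(nrm (Rend z))) z := by
      have : ContinuousAt Rend z := (continuous_J.continuousAt).comp (contDiffAt_w0 (n := 0) hz).continuousAt
      exact continuousAt_const.mul ((continuous_nrm.continuousAt.comp this).sqrt)
    have hv : C * √(nrm (Rend z)) = 0 := by
      unfold Rend; rw [h0, J_zero, nrm_zero]; simp
    rw [tendsto_zero_iff_norm_tendsto_zero]
    refine tendsto_of_tendsto_of_tendsto_of_le_of_le' tendsto_const_nhds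
      (hv ▸ (hc.tendsto.mono_left nhdsWithin_le_nhds)) (Eventually.of_forall fun _ => norm_nonneg _) ?_
    have h1 : ∀ᶠ z' in 𝓝[{z : V | z ≠ 0} \ Z] z, z' ∈ K :=
      nhdsWithin_le_nhds (mem_interior_iff_mem_nhds.1 hzK)
    filter_upwards [h1, self_mem_nhdsWithin] with z' h1 h2
    refine hb z' h1 ?_
    have := h2.2
    rw [hZ, mem_compl_iff, not_not] at this; exact this.2

theorem contDiffAt_Rend {z : V} (hz : z ≠ 0) : ContDiffAt ℝ 1 Rend z :=
  contDiffOn_Rend.contDiffAt (isOpen_ne.mem_nhds hz)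

theorem Rend_bound {K : Set V} (hK : IsCompact K) (hK0 : ∀ z ∈ K, z ≠ 0) :
    ∃ C : ℝ, 0 ≤ C ∧ ∀ z ∈ K, ‖fderiv ℝ Rend z‖ ≤ C * √(nrm (Rend z)) := by
  obtain ⟨C, hC, hb⟩ := Rend_bound_off hK hK0
  refine ⟨C, hC, fun z hz => ?_⟩
  by_cases h0 : w0 z = 0
  · -- derivative vanishes: `nrm ∘ Rend` has a minimum... use limit characterisation
    have hz0 := hK0 z hz
    -- Rend = J ∘ w0, HasFDerivAt zero by L1
    have hder : HasFDerivAt Rend (0 : V →L[ℝ] V) z := by
      -- components: |Rend|^2 minimal; use ‖Rend z'‖ ≤ nrm = ‖w0 z'‖ ≤ C yy^10 = o(|z'-z|)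
      have hs : HasFDerivAt (fun z => (yy (Complex.normSq (Gf z))) ^ 10 * pw (1 - th (ph z)))
          (0 : V →L[ℝ] ℝ) z := by
        have d1 := ((contDiffAt_yyG (n := 1) hz0).differentiableAt (by norm_num)).hasFDerivAt
        have d2 : DifferentiableAt ℝ (fun z => pw (1 - th (ph z))) z :=
          (contDiff_pw.contDiffAt.comp z (contDiffAt_const.sub
            (contDiff_th.contDiffAt.comp z (contDiffAt_ph (n := 1) hz0)))).differentiableAt (by norm_num)
        have hy0 : yy (Complex.normSq (Gf z)) = 0 := (w0_eq_zero_iff z).1 h0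
        have := (d1.pow 10).mul d2.hasFDerivAt
        refine this.congr_fderiv ?_
        simp [hy0]
      rw [hasFDerivAt_iff_isLittleO_nhds_zero] at hs ⊢
      have hR : Rend z = 0 := by unfold Rend; rw [h0, J_zero]
      have hy0 : yy (Complex.normSq (Gf z)) = 0 := (w0_eq_zero_iff z).1 h0
      simp only [hR, sub_zero, _root_.zero_apply, hy0] at hs ⊢
      refine Asymptotics.IsBigO.trans_isLittleO ?_ hs
      refine Asymptotics.IsBigO.of_bound 1 (Eventually.of_forall fun v => ?_)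
      have e1 : ‖Rend (z + v)‖ ≤ nrm (Rend (z + v)) := norm_le_nrm _
      rw [nrm_Rend] at e1
      simpa using e1.trans (le_abs_self _)
    rw [hder.fderiv, norm_zero]
    exact mul_nonneg hC (Real.sqrt_nonneg _)
  · exact hb z hz h0

end

end Crest.Agent.S0163
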