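/-
S0163 package C, part 3: the path `R0` on one shell: equivariance, formulas, `C¹`, derivative bounds.
-/
import Crest.Agent.S0163_C2

set_option autoImplicit false

open Real Set Filter Topology
open scoped Manifold ContDiff

namespace Crest.Agent.S0163

noncomputable section

local notation "st" => Real.smoothTransition

def rr (χ E : ℝ) : ℝ := E + st (χ - 1) * (th E - E)
def ss (χ E : ℝ) : ℝ := kap E * s0 (rr χ E) * st χ
def s1 (χ E : ℝ) : ℝ := s0 (rr χ E - 1)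
def Q0 (χ : ℝ) (z : V) : V :=
  (((1 - ss χ (ph z)) * (1 - st (χ - 2))) • aa z, (1 - ss χ (ph z)) • cc z + ss χ (ph z) • Gf z)
def mix (s : ℝ) (v : V) : V := ((1 - s) • v.1 + s • sq v.2, (1 - s) • v.2)
def Q1 (χ : ℝ) (z : V) : V := mix (s1 χ (ph z)) (Q0 χ z)
def swp (v : V) : V := (v.2, v.1)
def NN (v : V) : V := (mm (nsq v) ^ 2 * isq (nsq v)) • v
def B0 (χ : ℝ) (z : V) : V := pw (1 - rr χ (ph z)) • swp (NN (Q1 χ z))
def ev (z : V) : ℝ := eta (Complex.normSq (Gf z))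
def R0 (χ : ℝ) (z : V) : V :=
  (1 - st (χ - 2) * (1 - ev z)) ^ 2 • B0 χ z
    + ((ev z + st (χ - 3) * (1 - ev z)) ^ 2 - ev z ^ 2) • Rend z

/-! ### smoothness -/
section smooth
variable {n : ℕ∞} {p : ℝ × V}

theorem cd_ph (h : p.2 ≠ 0) : ContDiffAt ℝ n (fun p : ℝ × V => ph p.2) p :=
  (contDiffAt_ph h).comp p contDiffAt_snd
theorem cd_st (c : ℝ) : ContDiffAt ℝ n (fun p : ℝ × V => st (p.1 - c)) p :=
  contDiff_st.contDiffAt.comp p (contDiffAt_fst.sub contDiffAt_const)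
theorem cd_st0 : ContDiffAt ℝ n (fun p : ℝ × V => st p.1) p :=
  contDiff_st.contDiffAt.comp p contDiffAt_fst
theorem cd_rr (h : p.2 ≠ 0) : ContDiffAt ℝ n (fun p : ℝ × V => rr p.1 (ph p.2)) p :=
  (cd_ph h).add ((cd_st 1).mul ((contDiff_th.contDiffAt.comp p (cd_ph h)).sub (cd_ph h)))
theorem cd_ss (h : p.2 ≠ 0) : ContDiffAt ℝ n (fun p : ℝ × V => ss p.1 (ph p.2)) p :=
  ((contDiff_kap.contDiffAt.comp p (cd_ph h)).mul (contDiff_s0.contDiffAt.comp p (cd_rr h))).mul cd_st0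
theorem cd_s1 (h : p.2 ≠ 0) : ContDiffAt ℝ n (fun p : ℝ × V => s1 p.1 (ph p.2)) p :=
  contDiff_s0.contDiffAt.comp p ((cd_rr h).sub contDiffAt_const)
theorem cd_Q0 (h : p.2 ≠ 0) : ContDiffAt ℝ n (fun p : ℝ × V => Q0 p.1 p.2) p := by
  unfold Q0
  have ha : ContDiffAt ℝ n (fun p : ℝ × V => aa p.2) p := (contDiffAt_aa h).comp p contDiffAt_snd
  have hc : ContDiffAt ℝ n (fun p : ℝ × V => cc p.2) p := (contDiffAt_cc h).comp p contDiffAt_snd
  have hG : ContDiffAt ℝ n (fun p : ℝ × V => Gf p.2) p := (contDiffAt_Gf h).comp p contDiffAt_snd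
  exact (((contDiffAt_const.sub (cd_ss h)).mul (contDiffAt_const.sub (cd_st 2))).smul ha).prodMk
    (((contDiffAt_const.sub (cd_ss h)).smul hc).add ((cd_ss h).smul hG))
theorem cd_Q1 (h : p.2 ≠ 0) : ContDiffAt ℝ n (fun p : ℝ × V => Q1 p.1 p.2) p := by
  unfold Q1 mix
  have h1 : ContDiffAt ℝ n (fun p : ℝ × V => (Q0 p.1 p.2).1) p := contDiffAt_fst.comp p (cd_Q0 h)
  have h2 : ContDiffAt ℝ n (fun p : ℝ × V => (Q0 p.1 p.2).2) p := contDiffAt_snd.comp p (cd_Q0 h)
  exact (((contDiffAt_const.sub (cd_s1 h)).smul h1).add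
    ((cd_s1 h).smul (contDiff_sq.contDiffAt.comp p h2))).prodMk ((contDiffAt_const.sub (cd_s1 h)).smul h2)
theorem cd_nsqQ1 (h : p.2 ≠ 0) : ContDiffAt ℝ n (fun p : ℝ × V => nsq (Q1 p.1 p.2)) p :=
  contDiff_nsq.contDiffAt.comp p (cd_Q1 h)
theorem cd_isqQ1 (h : p.2 ≠ 0) : ContDiffAt ℝ n (fun p : ℝ × V => isq (nsq (Q1 p.1 p.2))) p :=
  (contDiffAt_isq (by have := nsq_nonneg (Q1 p.1 p.2); linarith)).comp p (cd_nsqQ1 h)
theorem cd_mmQ1 (h : p.2 ≠ 0) : ContDiffAt ℝ n (fun p : ℝ × V => mm (nsq (Q1 p.1 p.2))) p :=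
  contDiff_mm.contDiffAt.comp p (cd_nsqQ1 h)
theorem contDiff_swp : ContDiff ℝ n swp := contDiff_snd.prodMk contDiff_fst
theorem cd_ev (h : p.2 ≠ 0) : ContDiffAt ℝ n (fun p : ℝ × V => ev p.2) p :=
  contDiff_eta.contDiffAt.comp p (contDiff_normSq.contDiffAt.comp p ((contDiffAt_Gf h).comp p contDiffAt_snd))
/-- the scalar factor and the vector factor of the low part -/
def sig (p : ℝ × V) : ℝ := (1 - st (p.1 - 2) * (1 - ev p.2)) * mm (nsq (Q1 p.1 p.2))
def Yf (p : ℝ × V) : V := (pw (1 - rr p.1 (ph p.2)) * isq (nsq (Q1 p.1 p.2))) • swp (Q1 p.1 p.2)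
def uu (p : ℝ × V) : ℝ := ev p.2 + st (p.1 - 3) * (1 - ev p.2)
theorem cd_sig (h : p.2 ≠ 0) : ContDiffAt ℝ n sig p :=
  (contDiffAt_const.sub ((cd_st 2).mul (contDiffAt_const.sub (cd_ev h)))).mul (cd_mmQ1 h)
theorem cd_Yf (h : p.2 ≠ 0) : ContDiffAt ℝ n Yf p :=
  ((contDiff_pw.contDiffAt.comp p (contDiffAt_const.sub (cd_rr h))).mul (cd_isqQ1 h)).smul
    (contDiff_swp.contDiffAt.comp p (cd_Q1 h))
theorem cd_uu (h : p.2 ≠ 0) : ContDiffAt ℝ n uu p :=
  (cd_ev h).add ((cd_st 3).mul (contDiffAt_const.sub (cd_ev h)))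
end smooth

theorem low_eq (p : ℝ × V) : (1 - st (p.1 - 2) * (1 - ev p.2)) ^ 2 • B0 p.1 p.2 = sig p ^ (1 + 1) • Yf p := by
  have hsw : ∀ (c : ℝ) (v : V), swp (c • v) = c • swp v := fun c v => rfl
  unfold B0 NN sig Yf
  rw [hsw, smul_smul, smul_smul, smul_smul]
  congr 1; ring

theorem R0_eq (p : ℝ × V) : R0 p.1 p.2 = sig p ^ (1 + 1) • Yf p + (uu p ^ 2 - ev p.2 ^ 2) • Rend p.2 := by
  unfold R0; rw [low_eq p]; rfl

theorem cd_R0 {p : ℝ × V} (h : p.2 ≠ 0) : ContDiffAt ℝ 1 (fun p : ℝ × V => R0 p.1 p.2) p := by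
  have : (fun p : ℝ × V => R0 p.1 p.2) = fun p => sig p ^ (1 + 1) • Yf p + (uu p ^ 2 - ev p.2 ^ 2) • Rend p.2 :=
    funext R0_eq
  rw [this]
  have hR : ContDiffAt ℝ 1 (fun p : ℝ × V => Rend p.2) p := (contDiffAt_Rend h).comp p contDiffAt_snd
  exact (((cd_sig (n := 1) h).pow 2).smul (cd_Yf (n := 1) h)).add
    ((((cd_uu (n := 1) h).pow 2).sub ((cd_ev (n := 1) h).pow 2)).smul hR)

/-! ### norms -/
theorem nrm_swp (v : V) : nrm (swp v) = nrm v := by
  unfold nrm nsq swp; congr 1; exact add_comm _ _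
theorem nsq_swp (v : V) : nsq (swp v) = nsq v := add_comm _ _
theorem swp_swp (v : V) : swp (swp v) = v := rfl
theorem NN_swp (v : V) : NN (swp v) = swp (NN v) := by unfold NN; rw [nsq_swp]; rfl
theorem sg_eq (v : V) : sg v = pw (-1) • swp v := by
  rw [pw_neg, pw_one, sg_apply]; rfl
theorem isq_nrm {v : V} (h : 1 / 16 ≤ nsq v) : isq (nsq v) * nrm v = 1 := by
  rw [isq_eq h]
  show (√(nsq v))⁻¹ * √(nsq v) = 1
  exact inv_mul_cancel₀ (Real.sqrt_pos.2 (by linarith)).ne'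
theorem nrm_NN_le (v : V) : nrm (NN v) ≤ 1 := by
  unfold NN
  rw [nrm_smul, abs_of_nonneg (mul_nonneg (sq_nonneg _) (isq_nonneg _)), mul_assoc]
  have h1 : isq (nsq v) * nrm v ≤ 1 := isq_le (nsq_nonneg v)
  have h2 : 0 ≤ isq (nsq v) * nrm v := mul_nonneg (isq_nonneg _) (nrm_nonneg _)
  have h3 : mm (nsq v) ^ 2 ≤ 1 := pow_le_one₀ (mm_nonneg _) (mm_le_one _)
  have h4 : 0 ≤ mm (nsq v) ^ 2 := sq_nonneg _
  nlinarith
theorem nrm_B0_le (χ : ℝ) (z : V) : nrm (B0 χ z) ≤ pw (1 - rr χ (ph z)) := by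
  unfold B0
  rw [nrm_smul, abs_of_pos (pw_pos _), nrm_swp]
  have := nrm_NN_le (Q1 χ z)
  have := pw_pos (1 - rr χ (ph z))
  nlinarith
theorem ev_nonneg (z : V) : 0 ≤ ev z := eta_nonneg _
theorem ev_le_one (z : V) : ev z ≤ 1 := eta_le_one _

theorem rr_ge {χ E : ℝ} (hE : E ≤ 13 / 8) : E ≤ rr χ E := by
  unfold rr
  have := mul_nonneg (st_nonneg (χ - 1)) (sub_nonneg.2 (le_th hE)); linarith
theorem rr_le_th {χ E : ℝ} (hE : E ≤ 13 / 8) : rr χ E ≤ th E := by
  unfold rr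
  have := mul_le_mul_of_nonneg_right (st_le_one (χ - 1)) (sub_nonneg.2 (le_th hE)); linarith
theorem rr_le {χ E : ℝ} (hE : E ≤ 13 / 8) : rr χ E ≤ 13 / 8 := (rr_le_th hE).trans (th_le E)

/-! ### equivariance -/

theorem Gf_near_zero {z : V} (h : ph z < 1 / 8) : Gf z = sq (aa z) := by
  unfold Gf; rw [alp_one (by linarith), bet_zero (by linarith)]; simp
theorem Gf_high {z : V} (h : 5 / 8 ≤ ph z) : Gf z = cc z := by
  unfold Gf; rw [alp_zero h, bet_one (by linarith)]; simp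

theorem yy_sq (a : ℂ) : yy (Complex.normSq (sq a)) = yy (Complex.normSq a) := by
  by_cases h : 1 / 16 ≤ Complex.normSq a
  · rw [normSq_sq_eq h]
  · push Not at h
    rw [yy_zero ((normSq_sq_le a).trans (by linarith)), yy_zero (by linarith)]
theorem eta_sq (a : ℂ) : eta (Complex.normSq (sq a)) = eta (Complex.normSq a) := by
  by_cases h : 1 / 16 ≤ Complex.normSq a
  · rw [normSq_sq_eq h]
  · push Not at h
    rw [eta_zero ((normSq_sq_le a).trans (by linarith)), eta_zero (by linarith)]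

theorem Rend_equiv {z : V} (hz : z ≠ 0) (h1 : -(1 / 8) < ph z) (h2 : ph z < 1 / 8) :
    Rend (sg z) = sg (Rend z) := by
  have hE : ph (sg z) = ph z + 1 := ph_sg hz
  have hG1 : Gf (sg z) = aa z := by rw [Gf_high (by rw [hE]; linarith), cc_sg]
  have hG0 : Gf z = sq (aa z) := Gf_near_zero h2
  have ht1 : th (ph (sg z)) = 13 / 8 := th_high (by rw [hE]; linarith)
  have ht0 : th (ph z) = 5 / 8 := th_low (by linarith)
  set a := aa z with ha
  unfold Rend
  by_cases hy : yy (Complex.normSq a) = 0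
  · have e1 : w0 (sg z) = 0 := by rw [w0_eq_zero_iff, hG1]; exact hy
    have e2 : w0 z = 0 := by rw [w0_eq_zero_iff, hG0, yy_sq]; exact hy
    rw [e1, e2, J_zero, map_zero]
  · have hρ : 1 / 4 < Complex.normSq a := by
      by_contra h; push Not at h; exact hy (yy_zero h)
    have hs0 : a ≠ 0 := by rintro h; rw [h] at hρ; simp at hρ; norm_num at hρ
    have hna : ‖a‖ ≠ 0 := norm_ne_zero_iff.2 hs0
    have hiq : isq (Complex.normSq a) = ‖a‖⁻¹ := by
      rw [isq_eq (by linarith), ← Complex.sq_norm, Real.sqrt_sq (norm_nonneg _)]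
    have hne : w0 (sg z) ≠ 0 := by
      rw [Ne, w0_eq_zero_iff, hG1]; exact hy
    have hphc : 1 / 2 ≤ phc (w0 (sg z)) := by
      have h5 : ‖w0 (sg z)‖ ≤ pw (1 - 13 / 8) := by
        rw [norm_w0, ht1]
        have h1 : (yy (Complex.normSq (Gf (sg z)))) ^ 10 ≤ 1 := pow_le_one₀ (yy_nonneg _) (yy_le_one _)
        have := pw_pos (1 - 13 / 8)
        nlinarith
      rw [norm_eq_pw hne, pw_le_pw] at h5; linarith
    rw [J_eq hphc]
    congr 2
    -- dd (w0 (sg z)) = w0 z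
    have hnw : ‖w0 (sg z)‖ = yy (Complex.normSq a) ^ 10 * pw (-(5 / 8)) := by
      rw [norm_w0, hG1, ht1]; norm_num
    have hw1 : w0 (sg z) = (yy (Complex.normSq a) ^ 10 * (pw (-(5 / 8)) * ‖a‖⁻¹)) • a := by
      unfold w0 Wf; rw [hG1, ht1, hiq, smul_smul]; norm_num
    have hw2 : w0 z = (yy (Complex.normSq a) ^ 10 * (pw (3 / 8) * ‖a‖⁻¹ ^ 2)) • a ^ 2 := by
      unfold w0 Wf; rw [hG0, ht0, yy_sq, normSq_sq_eq (by linarith), hiq]
      unfold sq; rw [hiq, smul_smul, smul_smul]; norm_num; left; ring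
    have h16 : (16 : ℝ) * pw (-(5 / 8)) = pw (3 / 8) := by
      rw [← pw_one, ← pw_add]; norm_num
    unfold dd
    rw [hnw, hw1, hw2, Complex.real_smul, Complex.real_smul, mul_pow, ← mul_assoc]
    congr 1
    rw [← h16]
    have hpc : ((pw (-(5 / 8)) : ℝ) : ℂ) ≠ 0 := by exact_mod_cast pw_ne_zero _
    have hyc : ((yy (Complex.normSq a) : ℝ) : ℂ) ≠ 0 := by exact_mod_cast hy
    have hac : ((‖a‖ : ℝ) : ℂ) ≠ 0 := by exact_mod_cast hna
    push_cast
    field_simp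

theorem B0_equiv {z : V} (hz : z ≠ 0) (h1 : -(1 / 8) < ph z) (h2 : ph z < 1 / 8) (χ : ℝ) :
    B0 χ (sg z) = sg (B0 χ z) := by
  have hE : ph (sg z) = ph z + 1 := ph_sg hz
  have hth : th (ph z + 1) = th (ph z) + 1 := by
    rw [th_high (by linarith), th_low (by linarith)]; norm_num
  have hr : rr χ (ph (sg z)) = rr χ (ph z) + 1 := by
    unfold rr; rw [hE, hth]; ring
  have hss1 : ss χ (ph (sg z)) = 0 := by
    unfold ss; rw [hE, kap_zero (by linarith)]; simp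
  have hrle : rr χ (ph z) ≤ 5 / 8 := by
    have := rr_le_th (χ := χ) (E := ph z) (by linarith)
    rwa [th_low (by linarith)] at this
  have hs10 : s1 χ (ph z) = 0 := s0_zero (by linarith)
  set σ := s0 (rr χ (ph z)) with hσ
  have hs11 : s1 χ (ph (sg z)) = σ := by unfold s1; rw [hr]; simp [hσ]
  have hss0 : ss χ (ph z) = σ := by
    unfold ss
    rw [kap_one (by linarith), one_mul]
    rcases le_total 1 χ with h | h
    · rw [st_one h, mul_one]
    · have hrE : rr χ (ph z) = ph z := by unfold rr; rw [st_zero (by linarith)]; ring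
      rw [hσ, hrE, s0_zero (by linarith), zero_mul]
  have hστ : (1 - σ) * st (χ - 2) = 0 := by
    rcases le_total χ 2 with h | h
    · rw [st_zero (by linarith), mul_zero]
    · have hrE : rr χ (ph z) = 5 / 8 := by
        unfold rr; rw [st_one (by linarith), th_low (by linarith)]; ring
      rw [hσ, hrE, s0_one (by norm_num)]; simp
  have hG1 : Gf (sg z) = aa z := by rw [Gf_high (by rw [hE]; linarith), cc_sg]
  have hG0 : Gf z = sq (aa z) := Gf_near_zero h2
  have hQ : Q1 χ (sg z) = swp (Q1 χ z) := by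
    unfold Q1 mix Q0 swp
    rw [hs10, hs11, hss1, hss0, hG1, hG0, aa_sg, cc_sg]
    have e1 : (1 - σ) * (1 - st (χ - 2)) = 1 - σ := by linear_combination -hστ
    refine Prod.ext ?_ ?_
    · simp only [sub_zero, one_smul, zero_smul, add_zero, one_mul, smul_smul, e1]
    · simp only [sub_zero, one_smul, zero_smul, add_zero, e1]
  unfold B0
  rw [hQ, NN_swp, swp_swp, hr, sg_eq (pw (1 - rr χ (ph z)) • swp (NN (Q1 χ z)))]
  have hsw : ∀ (c : ℝ) (v : V), swp (c • v) = c • swp v := fun c v => rfl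
  rw [hsw, swp_swp, smul_smul, ← pw_add]
  congr 2; ring

theorem ev_equiv {z : V} (hz : z ≠ 0) (h1 : -(1 / 8) < ph z) (h2 : ph z < 1 / 8) : ev (sg z) = ev z := by
  have hE : ph (sg z) = ph z + 1 := ph_sg hz
  unfold ev
  rw [Gf_high (by rw [hE]; linarith : 5 / 8 ≤ ph (sg z)), cc_sg, Gf_near_zero h2, eta_sq]

theorem R0_equiv {z : V} (hz : z ≠ 0) (h1 : -(1 / 8) < ph z) (h2 : ph z < 1 / 8) (χ : ℝ) :
    R0 χ (sg z) = sg (R0 χ z) := by
  unfold R0
  rw [ev_equiv hz h1 h2, B0_equiv hz h1 h2, Rend_equiv hz h1 h2, map_add, map_smul, map_smul]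

/-! ### formulas -/

theorem R0_low {χ : ℝ} (hχ : χ ≤ 3) (z : V) :
    R0 χ z = (1 - st (χ - 2) * (1 - ev z)) ^ 2 • B0 χ z := by
  unfold R0; rw [st_zero (by linarith : χ - 3 ≤ 0)]; simp

theorem Q0_high {χ : ℝ} (hχ : 3 ≤ χ) (z : V) : Q0 χ z = (0, Gf z) := by
  have hτ : st (χ - 2) = 1 := st_one (by linarith)
  have ht : st (χ - 1) = 1 := st_one (by linarith)
  have h0 : st χ = 1 := st_one (by linarith)
  have hr : rr χ (ph z) = th (ph z) := by unfold rr; rw [ht]; ring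
  unfold Q0
  rw [hτ]
  refine Prod.ext (by simp) ?_
  rcases le_total (ph z) (5 / 8) with h | h
  · have : ss χ (ph z) = 1 := by
      unfold ss; rw [kap_one h, h0, hr, s0_one (th_ge_half _)]; ring
    rw [this]; simp
  · rw [Gf_high h]
    show (1 - ss χ (ph z)) • cc z + ss χ (ph z) • cc z = cc z
    rw [← add_smul]; simp

theorem B0_eq_Rend {χ : ℝ} (hχ : 3 ≤ χ) {z : V} (he : ev z ≠ 0) :
    B0 χ z = Rend z := by
  have ht : st (χ - 1) = 1 := st_one (by linarith)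
  have hr : rr χ (ph z) = th (ph z) := by unfold rr; rw [ht]; ring
  have hρ : 3 / 5 < Complex.normSq (Gf z) := by
    by_contra h; push Not at h; exact he (eta_zero h)
  set G := Gf z with hG
  have hG0 : G ≠ 0 := by rintro h; rw [h] at hρ; simp at hρ; norm_num at hρ
  have hn : ‖G‖ ≠ 0 := norm_ne_zero_iff.2 hG0
  have hn0 : 0 < ‖G‖ := norm_pos_iff.2 hG0
  have hiq : isq (Complex.normSq G) = ‖G‖⁻¹ := by
    rw [isq_eq (by linarith), ← Complex.sq_norm, Real.sqrt_sq (norm_nonneg _)]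
  set T := th (ph z) with hT
  set s := s0 (T - 1) with hs
  have hs1 : s1 χ (ph z) = s := by unfold s1; rw [hr]
  have hQ1 : Q1 χ z = (s • sq G, (1 - s) • G) := by
    unfold Q1 mix; rw [Q0_high hχ, hs1]; simp [hG]
  have hsq : sq G = ‖G‖⁻¹ • G ^ 2 := by unfold sq; rw [hiq]
  have hnsq : nsq (Q1 χ z) = ‖G‖ ^ 2 * JD (T - 1) := by
    rw [hQ1]
    unfold nsq JD
    rw [normSq_smul', normSq_smul', normSq_sq_eq (by linarith), Complex.normSq_eq_norm_sq, ← hs]
    ring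
  have hJ := JD_ge (T - 1)
  have hJ0 := JD_pos (T - 1)
  have hnn : ‖G‖ ^ 2 = Complex.normSq G := Complex.sq_norm G
  have h14 : 1 / 4 ≤ nsq (Q1 χ z) := by rw [hnsq, hnn]; nlinarith
  have hisq : isq (nsq (Q1 χ z)) = ‖G‖⁻¹ * (√(JD (T - 1)))⁻¹ := by
    rw [isq_eq (by linarith), hnsq, Real.sqrt_mul (sq_nonneg _), Real.sqrt_sq (norm_nonneg _), mul_inv]
  have hB : B0 χ z = pw (1 - T) • (((JA (T - 1) * ‖G‖⁻¹) • G, (JB (T - 1) * ‖G‖⁻¹ ^ 2) • G ^ 2) : V) := by
    unfold B0 NN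
    rw [mm_one h14, hisq, hr, hQ1, hsq]
    congr 1
    unfold swp
    refine Prod.ext ?_ ?_
    · simp only [Prod.smul_snd, smul_smul]
      congr 1
      unfold JA; rw [← hs]
      field_simp
    · simp only [Prod.smul_fst, smul_smul]
      congr 1
      unfold JB; rw [← hs]
      field_simp
  have hw : w0 z = (pw (1 - T) * ‖G‖⁻¹) • G := by
    unfold w0 Wf; rw [← hG, yy_one (by linarith), hiq]; simp [hT]
  have hnw : ‖w0 z‖ = pw (1 - T) := by
    rw [norm_w0, ← hG, yy_one (by linarith), ← hT]; simp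
  have hw0 : w0 z ≠ 0 := by rw [← norm_ne_zero_iff, hnw]; exact pw_ne_zero _
  have hphc : phc (w0 z) = T - 1 := phc_eq hw0 (by rw [hnw]; congr 1; ring)
  have hT2 : T ≤ 13 / 8 := th_le _
  have hRend : Rend z = J0 (w0 z) := by
    unfold Rend
    rw [J_formula hw0 0 (Or.inl rfl) (by rw [hphc]; push_cast; linarith), Nat.cast_zero, sgz_zero]
    rfl
  rw [hB, hRend]
  unfold J0
  rw [hphc, hnw, hw]
  refine Prod.ext ?_ ?_
  · simp only [Prod.smul_fst, Complex.real_smul]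
    push_cast; ring
  · simp only [Prod.smul_snd, Complex.real_smul]
    have : ((pw (1 - T) : ℝ) : ℂ) ≠ 0 := by exact_mod_cast pw_ne_zero _
    push_cast
    field_simp

theorem R0_high {χ : ℝ} (hχ : 3 ≤ χ) (z : V) :
    R0 χ z = (uu (χ, z)) ^ 2 • Rend z := by
  have hτ : st (χ - 2) = 1 := st_one (by linarith)
  unfold R0 uu
  rw [hτ]
  simp only [one_mul, sub_sub_cancel]
  by_cases he : ev z = 0
  · rw [he]; simp
  · rw [B0_eq_Rend hχ he, ← add_smul]; congr 1; ring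

theorem uu_nonneg (p : ℝ × V) : 0 ≤ uu p := by
  unfold uu
  have := mul_nonneg (st_nonneg (p.1 - 3)) (sub_nonneg.2 (ev_le_one p.2))
  have := ev_nonneg p.2
  linarith
theorem uu_le_one (p : ℝ × V) : uu p ≤ 1 := by
  unfold uu
  have := mul_le_mul_of_nonneg_right (st_le_one (p.1 - 3)) (sub_nonneg.2 (ev_le_one p.2))
  linarith
theorem R0_four {χ : ℝ} (hχ : 4 ≤ χ) (z : V) : R0 χ z = Rend z := by
  rw [R0_high (by linarith)]
  have : uu (χ, z) = 1 := by unfold uu; rw [st_one (by simp; linarith)]; simp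
  rw [this]; simp

theorem nrm_R0_le {χ : ℝ} {z : V} (hz : z ≠ 0) (hE : ph z ≤ 13 / 8) : nrm (R0 χ z) ≤ 16 * nrm z := by
  have hn : 16 * nrm z = pw (1 - ph z) := by
    rw [nrm_eq_pw hz, ← pw_one, ← pw_add]; congr 1
  rw [hn]
  rcases le_total χ 3 with h | h
  · rw [R0_low h, nrm_smul, abs_of_nonneg (sq_nonneg _)]
    have h1 : nrm (B0 χ z) ≤ pw (1 - ph z) := by
      refine (nrm_B0_le χ z).trans ?_
      rw [pw_le_pw]; have := rr_ge (χ := χ) hE; linarith
    have h2 : (1 - st (χ - 2) * (1 - ev z)) ^ 2 ≤ 1 := by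
      have a1 := st_nonneg (χ - 2); have a2 := st_le_one (χ - 2)
      have a3 := ev_nonneg z; have a4 := ev_le_one z
      have a5 : 0 ≤ st (χ - 2) * (1 - ev z) := mul_nonneg a1 (by linarith)
      have a6 : st (χ - 2) * (1 - ev z) ≤ 1 := by nlinarith
      nlinarith
    have h3 := nrm_nonneg (B0 χ z)
    nlinarith [sq_nonneg (1 - st (χ - 2) * (1 - ev z))]
  · rw [R0_high h, nrm_smul, abs_of_nonneg (sq_nonneg _)]
    have h1 : nrm (Rend z) ≤ pw (1 - ph z) := by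
      refine (nrm_Rend_le z).trans ?_
      rw [pw_le_pw]; have := le_th hE; linarith
    have h2 : uu (χ, z) ^ 2 ≤ 1 := pow_le_one₀ (uu_nonneg _) (uu_le_one _)
    have h3 := nrm_nonneg (Rend z)
    nlinarith [sq_nonneg (uu (χ, z))]

theorem R0_zero {z : V} (hz : z ≠ 0) (h : ph z ≤ 5 / 4) : R0 0 z = (16 : ℝ) • swp z := by
  rw [R0_low (by norm_num), st_zero (by norm_num : (0:ℝ) - 2 ≤ 0)]
  simp only [zero_mul, sub_zero, one_pow, one_smul]
  have hr : rr 0 (ph z) = ph z := by unfold rr; rw [st_zero (by norm_num)]; ring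
  have hss : ss 0 (ph z) = 0 := by unfold ss; rw [st_zero (le_refl 0)]; ring
  have hs1 : s1 0 (ph z) = 0 := by unfold s1; rw [hr]; exact s0_zero (by linarith)
  have hQ : Q1 0 z = (nrm z)⁻¹ • z := by
    unfold Q1 mix Q0
    rw [hs1, hss, st_zero (by norm_num : (0:ℝ) - 2 ≤ 0)]
    refine Prod.ext ?_ ?_
    · simp [aa]
    · simp [cc]
  have hn : nsq (Q1 0 z) = 1 := by
    rw [hQ, nsq_smul, ← nrm_sq, ← mul_pow, inv_mul_cancel₀ (nrm_pos hz).ne', one_pow]
  unfold B0 NN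
  rw [hn, mm_one (by norm_num), isq_eq (by norm_num), Real.sqrt_one, hr, hQ]
  have hsw : ∀ (c : ℝ) (v : V), swp (c • v) = c • swp v := fun c v => rfl
  rw [hsw, hsw, smul_smul, smul_smul]
  congr 1
  rw [nrm_eq_pw hz, pw_neg, pw_sub, pw_one]
  have := pw_ne_zero (ph z)
  field_simp

/-! ### derivative bound on the compact shell -/

/-- the compact shell -/
def KS : Set (ℝ × V) := Icc (0 : ℝ) 4 ×ˢ {z : V | 1 / 16 ≤ nrm z ∧ nrm z ≤ 1}

theorem KS_ne {p : ℝ × V} (hp : p ∈ KS) : p.2 ≠ 0 := by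
  rw [← nrm_pos_iff]; exact lt_of_lt_of_le (by norm_num) hp.2.1
theorem KS_ph {p : ℝ × V} (hp : p ∈ KS) : 0 ≤ ph p.2 ∧ ph p.2 ≤ 1 := by
  have h0 := KS_ne hp
  have h1 := hp.2.1
  have h2 := hp.2.2
  rw [nrm_eq_pw h0] at h1 h2
  rw [one_div, ← pw_one, ← pw_neg, pw_le_pw] at h1
  rw [pw_le_one] at h2
  constructor <;> linarith
theorem isCompact_KS : IsCompact KS := by
  refine isCompact_Icc.prod ?_
  have : {z : V | 1 / 16 ≤ nrm z ∧ nrm z ≤ 1} = Metric.closedBall 0 1 ∩ {z : V | 1 / 16 ≤ nrm z ∧ nrm z ≤ 1} := by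
    ext z
    constructor
    · intro h; exact ⟨by simpa using (norm_le_nrm z).trans h.2, h⟩
    · intro h; exact h.2
  rw [this]
  refine (isCompact_closedBall _ _).inter_right ?_
  exact (isClosed_le continuous_const continuous_nrm).inter (isClosed_le continuous_nrm continuous_const)

theorem deriv_st_nonpos {x : ℝ} (hx : x ≤ 0) : HasDerivAt st 0 x := by
  have hd : DifferentiableAt ℝ st x := (contDiff_st (n := 1)).differentiable (by norm_num) x
  have : deriv st x = 0 := by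
    apply IsLocalMin.deriv_eq_zero
    refine Eventually.of_forall fun y => ?_
    rw [st_zero hx]; exact st_nonneg y
  rw [← this]; exact hd.hasDerivAt

theorem R0_bound : ∃ C : ℝ, 0 ≤ C ∧ ∀ p ∈ KS,
    ‖fderiv ℝ (fun p : ℝ × V => R0 p.1 p.2) p‖ ≤ C * √(nrm (R0 p.1 p.2)) := by
  have hΩ : IsOpen {p : ℝ × V | p.2 ≠ 0} := isOpen_ne.preimage continuous_snd
  obtain ⟨C1, hC1, hb1⟩ := power_bound (s := sig) (W := Yf) hΩ isCompact_KS (fun p hp => KS_ne hp)
    (fun p hp => cd_sig (n := 1) hp) (fun p hp => cd_Yf (n := 1) hp) 1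
  -- Rend bound
  have hK2 : IsCompact (Prod.snd '' KS) := isCompact_KS.image continuous_snd
  obtain ⟨C2, hC2, hb2⟩ := Rend_bound hK2 (by rintro z ⟨p, hp, rfl⟩; exact KS_ne hp)
  -- bound for fderiv uu
  have c3 : ContinuousOn (fun p => ‖fderiv ℝ uu p‖) KS := fun p hp =>
    ((cd_uu (n := 1) (KS_ne hp)).fderiv_right (m := 0) (by norm_num)).continuousAt.norm.continuousWithinAt
  obtain ⟨C3, hC3⟩ := isCompact_KS.bddAbove_image c3
  refine ⟨C1 * pw (5 / 16) + (C2 + 2 * max C3 0 * 4), by have := pw_pos (5/16); positivity, fun p hp => ?_⟩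
  have hp0 := KS_ne hp
  have hph := KS_ph hp
  have hsq := Real.sqrt_nonneg (nrm (R0 p.1 p.2))
  have hpw := pw_pos (5 / 16)
  rcases le_or_gt p.1 3 with h | h
  · -- low case
    have hfd : fderiv ℝ (fun p : ℝ × V => R0 p.1 p.2) p = fderiv ℝ (fun p => sig p ^ (1 + 1) • Yf p) p := by
      have e : (fun p : ℝ × V => R0 p.1 p.2) = fun p => sig p ^ (1 + 1) • Yf p
          + st (p.1 - 3) • (((1 - ev p.2) * (2 * ev p.2 + st (p.1 - 3) * (1 - ev p.2))) • Rend p.2) := by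
        funext q
        rw [R0_eq q, smul_smul]
        congr 2
        unfold uu; ring
      have d1 : DifferentiableAt ℝ (fun p => sig p ^ (1 + 1) • Yf p) p :=
        (((cd_sig (n := 1) hp0).pow 2).smul (cd_Yf (n := 1) hp0)).differentiableAt (by norm_num)
      have d2 : DifferentiableAt ℝ (fun p : ℝ × V => ((1 - ev p.2) * (2 * ev p.2 + st (p.1 - 3) * (1 - ev p.2))) • Rend p.2) p := by
        have hR : ContDiffAt ℝ 1 (fun p : ℝ × V => Rend p.2) p := (contDiffAt_Rend hp0).comp p contDiffAt_snd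
        have he := cd_ev (n := 1) hp0
        exact (((contDiffAt_const.sub he).mul ((contDiffAt_const.mul he).add
          ((cd_st (n := 1) 3).mul (contDiffAt_const.sub he)))).smul hR).differentiableAt (by norm_num)
      have d3 : HasFDerivAt (fun p : ℝ × V => st (p.1 - 3)) (0 : ℝ × V →L[ℝ] ℝ) p := by
        have h1 : HasDerivAt st 0 (p.1 - 3) := deriv_st_nonpos (by linarith)
        have h2 : HasFDerivAt (fun p : ℝ × V => p.1 - 3) (ContinuousLinearMap.fst ℝ ℝ V) p :=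
          hasFDerivAt_fst.sub_const 3
        have := h1.comp_hasFDerivAt p h2
        rw [zero_smul] at this
        exact this
      have d4 := d3.smul d2.hasFDerivAt
      have hz : st (p.1 - 3) = 0 := st_zero (by linarith)
      have d5 := d1.hasFDerivAt.add d4
      rw [e]
      have d6 : HasFDerivAt (fun p => sig p ^ (1 + 1) • Yf p
          + st (p.1 - 3) • (((1 - ev p.2) * (2 * ev p.2 + st (p.1 - 3) * (1 - ev p.2))) • Rend p.2))
          (fderiv ℝ (fun p => sig p ^ (1 + 1) • Yf p) p) p := by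
        refine HasFDerivAt.congr_fderiv d5 ?_
        rw [hz]; simp
      exact d6.fderiv
    rw [hfd]
    have h1 := hb1 p hp
    rw [pow_one] at h1
    refine h1.trans ?_
    -- |sig| ≤ pw(5/16) √nrm
    have hnr : nrm (R0 p.1 p.2) = sig p ^ 2 * pw (1 - rr p.1 (ph p.2)) := by
      rw [R0_low h, low_eq p, nrm_smul]
      by_cases hs : sig p = 0
      · rw [hs]; simp
      · have hm : mm (nsq (Q1 p.1 p.2)) ≠ 0 := by
          intro h0; apply hs; unfold sig; rw [h0, mul_zero]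
        have h16 : 1 / 16 ≤ nsq (Q1 p.1 p.2) := by
          by_contra hc; push Not at hc; exact hm (mm_zero hc.le)
        have hY : nrm (Yf p) = pw (1 - rr p.1 (ph p.2)) := by
          unfold Yf
          rw [nrm_smul, abs_of_nonneg (mul_nonneg (pw_pos _).le (isq_nonneg _)), nrm_swp, mul_assoc,
            isq_nrm h16, mul_one]
        rw [hY, abs_of_nonneg (by have := sq_nonneg (sig p); simpa using this)]
    have hsr : √(nrm (R0 p.1 p.2)) = |sig p| * pw ((1 - rr p.1 (ph p.2)) / 2) := by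
      rw [hnr]
      have : pw (1 - rr p.1 (ph p.2)) = pw ((1 - rr p.1 (ph p.2)) / 2) ^ 2 := by
        rw [← pw_mul_nat]; congr 1; push_cast; ring
      rw [this, Real.sqrt_mul (sq_nonneg _), Real.sqrt_sq_eq_abs, Real.sqrt_sq (pw_pos _).le]
    have hr : rr p.1 (ph p.2) ≤ 13 / 8 := rr_le (by linarith)
    have h4 : 1 ≤ pw (5 / 16) * pw ((1 - rr p.1 (ph p.2)) / 2) := by
      rw [← pw_add, one_le_pw]; linarith
    calc C1 * |sig p| ≤ C1 * |sig p| * (pw (5 / 16) * pw ((1 - rr p.1 (ph p.2)) / 2)) := by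
          have : 0 ≤ C1 * |sig p| := by positivity
          nlinarith
      _ = C1 * pw (5 / 16) * √(nrm (R0 p.1 p.2)) := by rw [hsr]; ring
      _ ≤ _ := by
          have : 0 ≤ (C2 + 2 * max C3 0 * 4) := by positivity
          nlinarith
  · -- high case
    have hloc : (fun p : ℝ × V => R0 p.1 p.2) =ᶠ[𝓝 p] fun p => uu p ^ 2 • Rend p.2 := by
      have : ∀ᶠ q : ℝ × V in 𝓝 p, 3 < q.1 := continuous_fst.continuousAt.eventually (lt_mem_nhds h)
      filter_upwards [this] with q hq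
      exact R0_high hq.le q.2
    rw [hloc.fderiv_eq]
    have du := ((cd_uu (n := 1) hp0).differentiableAt (by norm_num)).hasFDerivAt
    have dR : HasFDerivAt (fun p : ℝ × V => Rend p.2) ((fderiv ℝ Rend p.2).comp (ContinuousLinearMap.snd ℝ ℝ V)) p :=
      ((contDiffAt_Rend hp0).differentiableAt (by norm_num)).hasFDerivAt.comp p hasFDerivAt_snd
    have hd : HasFDerivAt (fun p : ℝ × V => uu p ^ 2 • Rend p.2)
        (uu p ^ 2 • ((fderiv ℝ Rend p.2).comp (ContinuousLinearMap.snd ℝ ℝ V))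
          + ((2 • uu p ^ (2 - 1)) • fderiv ℝ uu p).smulRight (Rend p.2)) p := (du.pow 2).smul dR
    rw [hd.fderiv]
    have u0 := uu_nonneg p
    have u1 := uu_le_one p
    have b1 : ‖(fderiv ℝ Rend p.2).comp (ContinuousLinearMap.snd ℝ ℝ V)‖ ≤ C2 * √(nrm (Rend p.2)) := by
      refine (ContinuousLinearMap.opNorm_comp_le _ _).trans ?_
      have h1 := hb2 p.2 (mem_image_of_mem _ hp)
      have h2 : ‖ContinuousLinearMap.snd ℝ ℝ V‖ ≤ 1 := ContinuousLinearMap.norm_snd_le ..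
      calc _ ≤ ‖fderiv ℝ Rend p.2‖ * 1 := by gcongr
        _ ≤ _ := by rw [mul_one]; exact h1
    have b2 : ‖fderiv ℝ uu p‖ ≤ max C3 0 := (hC3 (mem_image_of_mem _ hp)).trans (le_max_left _ _)
    have b3 : ‖Rend p.2‖ ≤ 4 * √(nrm (Rend p.2)) := by
      have h1 : ‖Rend p.2‖ ≤ nrm (Rend p.2) := norm_le_nrm _
      have h2 : nrm (Rend p.2) ≤ 16 := by
        refine (nrm_Rend_le _).trans ?_
        rw [← pw_one, pw_le_pw]; have := th_ge_half (ph p.2); linarith
      have h3 : √(nrm (Rend p.2)) ≤ 4 := by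
        rw [show (4:ℝ) = √16 by rw [show (16:ℝ) = 4 ^ 2 by norm_num, Real.sqrt_sq (by norm_num)]]
        exact Real.sqrt_le_sqrt h2
      have h4 : nrm (Rend p.2) = √(nrm (Rend p.2)) * √(nrm (Rend p.2)) :=
        (Real.mul_self_sqrt (nrm_nonneg _)).symm
      have h5 := Real.sqrt_nonneg (nrm (Rend p.2))
      nlinarith
    have hsr : √(nrm (R0 p.1 p.2)) = uu p * √(nrm (Rend p.2)) := by
      rw [R0_high h.le, nrm_smul, abs_of_nonneg (sq_nonneg _), Real.sqrt_mul (sq_nonneg _), Real.sqrt_sq u0]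
    have hs5 := Real.sqrt_nonneg (nrm (Rend p.2))
    calc _ ≤ ‖uu p ^ 2 • ((fderiv ℝ Rend p.2).comp (ContinuousLinearMap.snd ℝ ℝ V))‖
          + ‖((2 • uu p ^ (2 - 1)) • fderiv ℝ uu p).smulRight (Rend p.2)‖ := norm_add_le _ _
      _ ≤ uu p ^ 2 * (C2 * √(nrm (Rend p.2))) + (2 * uu p * max C3 0) * (4 * √(nrm (Rend p.2))) := by
          gcongr
          · rw [norm_smul, Real.norm_of_nonneg (sq_nonneg _)]
            gcongr
          · rw [ContinuousLinearMap.norm_smulRight_apply, norm_smul]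
            have : ‖(2 • uu p ^ (2 - 1) : ℝ)‖ = 2 * uu p := by
              rw [Real.norm_of_nonneg (by positivity)]; simp
            rw [this]
            gcongr
      _ ≤ uu p * (C2 * √(nrm (Rend p.2))) + (2 * uu p * max C3 0) * (4 * √(nrm (Rend p.2))) := by
          have : uu p ^ 2 ≤ uu p := by nlinarith
          gcongr
      _ = (C2 + 2 * max C3 0 * 4) * √(nrm (R0 p.1 p.2)) := by rw [hsr]; ring
      _ ≤ _ := by
          have : 0 ≤ C1 * pw (5 / 16) := by positivity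
          nlinarith

end

end Crest.Agent.S0163
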