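/-
S0163 package C, part 4: extension of `R0` to all shells.
-/
import Crest.Agent.S0163_C3

set_option autoImplicit false

open Real Set Filter Topology
open scoped Manifold ContDiff

namespace Crest.Agent.S0163

noncomputable section

local notation "st" => Real.smoothTransition

/-- The full family. -/
def RR (χ : ℝ) (z : V) : V := (sg ^ ⌊ph z⌋) (R0 χ ((sg ^ (-⌊ph z⌋)) z))

theorem RR_step {z : V} (hz : z ≠ 0) (k : ℤ) (h1 : -(1 / 8) < ph z - (k + 1)) (h2 : ph z - (k + 1) < 1 / 8)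
    (χ : ℝ) : (sg ^ k) (R0 χ ((sg ^ (-k)) z)) = (sg ^ (k + 1)) (R0 χ ((sg ^ (-(k + 1))) z)) := by
  set v := (sg ^ (-(k + 1))) z with hv
  have hv0 : v ≠ 0 := sgz_ne_zero hz
  have hphv : ph v = ph z - (k + 1) := by rw [hv, ph_sgz _ hz]; push_cast; ring
  have e1 : (sg ^ (-k)) z = sg v := by
    have : (-k : ℤ) = 1 + -(k + 1) := by ring
    rw [this, sgz_add, sgz_one]
  rw [e1, R0_equiv hv0 (by rw [hphv]; exact h1) (by rw [hphv]; exact h2), sgz_add, sgz_one]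

theorem RR_formula {z : V} (hz : z ≠ 0) (k : ℤ) (h1 : -(1 / 8) < ph z - k) (h2 : ph z - k < 9 / 8) (χ : ℝ) :
    RR χ z = (sg ^ k) (R0 χ ((sg ^ (-k)) z)) := by
  unfold RR
  set m := ⌊ph z⌋ with hm
  have hm1 : (m : ℝ) ≤ ph z := Int.floor_le _
  have hm2 : ph z < m + 1 := Int.lt_floor_add_one _
  have hk1 : k ≤ m + 1 := by
    have : (k : ℝ) < m + 2 := by linarith
    have : k < m + 2 := by exact_mod_cast this
    omega
  have hk2 : m ≤ k + 1 := by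
    have : (m : ℝ) < k + 2 := by linarith
    have : m < k + 2 := by exact_mod_cast this
    omega
  rcases lt_trichotomy k m with h | h | h
  · have : m = k + 1 := by omega
    rw [this]
    rw [this] at hm1
    push_cast at hm1
    exact (RR_step hz k (by linarith) (by linarith) χ).symm
  · rw [h]
  · have : k = m + 1 := by omega
    rw [this]
    rw [this] at h1; push_cast at h1
    exact RR_step hz m (by linarith) (by linarith) χ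

theorem RR_local {z : V} (hz : z ≠ 0) (χ : ℝ) :
    (fun p : ℝ × V => RR p.1 p.2) =ᶠ[𝓝 (χ, z)]
      fun p => (sg ^ ⌊ph z⌋) (R0 p.1 ((sg ^ (-⌊ph z⌋)) p.2)) := by
  set m := ⌊ph z⌋ with hm
  have hm1 : (m : ℝ) ≤ ph z := Int.floor_le _
  have hm2 : ph z < m + 1 := Int.lt_floor_add_one _
  have hc : ContinuousAt (fun p : ℝ × V => ph p.2) (χ, z) :=
    (cd_ph (n := 0) (p := (χ, z)) hz).continuousAt
  have h1 : ∀ᶠ p : ℝ × V in 𝓝 (χ, z), (m : ℝ) - 1 / 8 < ph p.2 := hc.eventually (lt_mem_nhds (by simp; linarith))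
  have h2 : ∀ᶠ p : ℝ × V in 𝓝 (χ, z), ph p.2 < m + 9 / 8 := hc.eventually (gt_mem_nhds (by simp; linarith))
  have h3 : ∀ᶠ p : ℝ × V in 𝓝 (χ, z), p.2 ≠ 0 :=
    (isOpen_ne.preimage continuous_snd).mem_nhds hz
  filter_upwards [h1, h2, h3] with p h1 h2 h3
  exact RR_formula h3 m (by linarith) (by linarith) p.1

section abstract
variable (g : ℝ × V → V) (A B : V ≃L[ℝ] V) (χ : ℝ) (z : V)

theorem abs_contDiffAt (hg : ContDiffAt ℝ 1 g (χ, B z)) :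
    ContDiffAt ℝ 1 (fun p : ℝ × V => A (g (p.1, B p.2))) (χ, z) := by
  have h1 : ContDiffAt ℝ 1 (fun p : ℝ × V => ((p.1, B p.2) : ℝ × V)) (χ, z) :=
    contDiffAt_fst.prodMk (B.contDiff.contDiffAt.comp (χ, z) contDiffAt_snd)
  have h3 : ContDiffAt ℝ 1 (fun p : ℝ × V => g (p.1, B p.2)) (χ, z) :=
    ContDiffAt.comp (g := g) (χ, z) hg h1
  exact A.contDiff.contDiffAt.comp (χ, z) h3

theorem abs_hasFDerivAt (hg : DifferentiableAt ℝ g (χ, B z)) :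
    HasFDerivAt (fun p : ℝ × V => A (g (p.1, B p.2)))
      ((A : V →L[ℝ] V).comp ((fderiv ℝ g (χ, B z)).comp
          ((ContinuousLinearMap.fst ℝ ℝ V).prod ((B : V →L[ℝ] V).comp
            (ContinuousLinearMap.snd ℝ ℝ V))))) (χ, z) := by
  have d1 : HasFDerivAt (fun p : ℝ × V => ((p.1, B p.2) : ℝ × V))
      ((ContinuousLinearMap.fst ℝ ℝ V).prod ((B : V →L[ℝ] V).comp (ContinuousLinearMap.snd ℝ ℝ V))) (χ, z) :=
    hasFDerivAt_fst.prodMk ((B : V →L[ℝ] V).hasFDerivAt.comp (χ, z) hasFDerivAt_snd)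
  have d2 : HasFDerivAt (fun p : ℝ × V => g (p.1, B p.2)) _ (χ, z) :=
    HasFDerivAt.comp (g := g) (χ, z) hg.hasFDerivAt d1
  exact (A : V →L[ℝ] V).hasFDerivAt.comp (χ, z) d2

theorem abs_fderiv_z (hg : DifferentiableAt ℝ g (χ, B z)) :
    ‖fderiv ℝ (fun w : V => A (g (χ, B w))) z‖ ≤
      ‖(A : V →L[ℝ] V)‖ * (‖fderiv ℝ g (χ, B z)‖ * ‖(B : V →L[ℝ] V)‖) := by
  have h1 := abs_hasFDerivAt g A B χ z hg
  have h2 := HasFDerivAt.comp (g := fun p : ℝ × V => A (g (p.1, B p.2))) (f := fun w : V => (χ, w)) z h1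
    (hasFDerivAt_prodMk_right χ z)
  have hd : HasFDerivAt (fun w => A (g (χ, B w))) ((A : V →L[ℝ] V).comp
        ((fderiv ℝ g (χ, B z)).comp
          ((ContinuousLinearMap.inr ℝ ℝ V).comp (B : V →L[ℝ] V)))) z := by
      refine HasFDerivAt.congr_fderiv h2 ?_
      refine ContinuousLinearMap.ext fun w => ?_
      simp [ContinuousLinearMap.comp_apply]
  rw [hd.fderiv]
  calc _ ≤ ‖(A : V →L[ℝ] V)‖ * (‖fderiv ℝ g (χ, B z)‖ * (1 * ‖(B : V →L[ℝ] V)‖)) := by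
          refine (ContinuousLinearMap.opNorm_comp_le _ _).trans ?_
          gcongr
          refine (ContinuousLinearMap.opNorm_comp_le _ _).trans ?_
          gcongr
          refine (ContinuousLinearMap.opNorm_comp_le _ _).trans ?_
          gcongr
          exact ContinuousLinearMap.norm_inr_le_one ℝ ℝ V
    _ = _ := by rw [one_mul]

theorem abs_deriv_χ (hg : DifferentiableAt ℝ g (χ, B z)) :
    ‖deriv (fun c : ℝ => A (g (c, B z))) χ‖ ≤ ‖(A : V →L[ℝ] V)‖ * ‖fderiv ℝ g (χ, B z)‖ := by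
  have h1 := abs_hasFDerivAt g A B χ z hg
  have h2 := HasFDerivAt.comp (g := fun p : ℝ × V => A (g (p.1, B p.2))) (f := fun c : ℝ => (c, z)) χ h1
    (hasFDerivAt_prodMk_left χ z)
  have hd : HasDerivAt (fun c : ℝ => A (g (c, B z))) (A ((fderiv ℝ g (χ, B z)) (1, 0))) χ := by
    refine HasDerivAt.congr_deriv h2.hasDerivAt ?_
    simp [ContinuousLinearMap.comp_apply]
  rw [hd.deriv]
  calc ‖A ((fderiv ℝ g (χ, B z)) (1, 0))‖ ≤ ‖(A : V →L[ℝ] V)‖ * ‖(fderiv ℝ g (χ, B z)) (1, 0)‖ :=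
        (A : V →L[ℝ] V).le_opNorm _
    _ ≤ _ := by
        gcongr
        refine (ContinuousLinearMap.le_opNorm _ _).trans ?_
        have : ‖((1, 0) : ℝ × V)‖ = 1 := by simp [Prod.norm_def]
        rw [this, mul_one]
end abstract

theorem RR_contDiffAt {z : V} (hz : z ≠ 0) (χ : ℝ) :
    ContDiffAt ℝ 1 (fun p : ℝ × V => RR p.1 p.2) (χ, z) := by
  refine ContDiffAt.congr_of_eventuallyEq ?_ (RR_local hz χ)
  have h2 : ContDiffAt ℝ 1 (fun p : ℝ × V => R0 p.1 p.2) (χ, (sg ^ (-⌊ph z⌋)) z) := cd_R0 (sgz_ne_zero hz)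
  exact abs_contDiffAt (fun p : ℝ × V => R0 p.1 p.2) (sg ^ ⌊ph z⌋) (sg ^ (-⌊ph z⌋)) χ z h2

theorem shell_mem {z : V} (hz : z ≠ 0) : 0 ≤ ph ((sg ^ (-⌊ph z⌋)) z) ∧ ph ((sg ^ (-⌊ph z⌋)) z) < 1 := by
  rw [ph_sgz _ hz]
  push_cast
  constructor
  · have := Int.floor_le (ph z); linarith
  · have := Int.lt_floor_add_one (ph z); linarith

theorem shell_KS {z : V} (hz : z ≠ 0) {χ : ℝ} (hχ : χ ∈ Icc (0 : ℝ) 4) : (χ, (sg ^ (-⌊ph z⌋)) z) ∈ KS := by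
  have h := shell_mem hz
  set v := (sg ^ (-⌊ph z⌋)) z
  have hv : v ≠ 0 := sgz_ne_zero hz
  refine ⟨hχ, ?_, ?_⟩
  · show 1 / 16 ≤ nrm v
    rw [nrm_eq_pw hv, one_div, ← pw_one, ← pw_neg, pw_le_pw]; linarith [h.2]
  · show nrm v ≤ 1
    rw [nrm_eq_pw hv, pw_le_one]; linarith [h.1]

theorem RR_zero {z : V} (hz : z ≠ 0) : RR 0 z = (16 * z.2, 16 * z.1) := by
  unfold RR
  have h := shell_mem hz
  rw [R0_zero (sgz_ne_zero hz) (by linarith [h.2])]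
  have e : ∀ v : V, (16 : ℝ) • swp v = sg.symm v := fun v => by
    rw [sg_symm_apply]; rfl
  have e2 : ∀ v : V, sg.symm v = (sg ^ (-1 : ℤ)) v := fun v => by
    rw [zpow_neg_one]; rfl
  rw [e, e2, ← sgz_add, ← sgz_add]
  have : ⌊ph z⌋ + -1 + -⌊ph z⌋ = (-1 : ℤ) := by ring
  rw [this, ← e2, sg_symm_apply]
  refine Prod.ext ?_ ?_
  · simp
  · simp

theorem RR_nrm {χ : ℝ} {z : V} (hz : z ≠ 0) : nrm (RR χ z) ≤ 16 * nrm z := by
  unfold RR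
  have h := shell_mem hz
  rw [nrm_sgz]
  have h1 := nrm_R0_le (χ := χ) (sgz_ne_zero (k := -⌊ph z⌋) hz) (by linarith [h.2])
  have h2 : nrm z = pw (-(⌊ph z⌋ : ℝ)) * nrm ((sg ^ (-⌊ph z⌋)) z) := by
    rw [nrm_sgz, ← mul_assoc, ← pw_add]; push_cast; simp [pw_zero]
  rw [h2]
  have := pw_pos (-(⌊ph z⌋ : ℝ))
  nlinarith

theorem RR_bound : ∃ C : ℝ, 0 ≤ C ∧
    (∀ χ ∈ Icc (0 : ℝ) 4, ∀ z : V, z ≠ 0 →
      ‖fderiv ℝ (fun z => RR χ z) z‖ ≤ C * √(nrm (RR χ z) / nrm z)) ∧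
    (∀ χ ∈ Icc (0 : ℝ) 4, ∀ z : V, z ≠ 0 →
      ‖deriv (fun c => RR c z) χ‖ ≤ C * nrm z * √(nrm (RR χ z) / nrm z)) := by
  obtain ⟨C, hC, hb⟩ := R0_bound
  have main : ∀ χ ∈ Icc (0 : ℝ) 4, ∀ z : V, z ≠ 0 →
      ‖fderiv ℝ (fun p : ℝ × V => R0 p.1 p.2) (χ, (sg ^ (-⌊ph z⌋)) z)‖ ≤ C * √(nrm (RR χ z) / nrm z) ∧
      pw (-(⌊ph z⌋ : ℝ)) ≤ 16 * nrm z := by
    intro χ hχ z hz
    have hKS : (χ, (sg ^ (-⌊ph z⌋)) z) ∈ KS := shell_KS hz hχ
    have hb' := hb _ hKS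
    have e1 : nrm (RR χ z) = pw (-(⌊ph z⌋ : ℝ)) * nrm (R0 χ ((sg ^ (-⌊ph z⌋)) z)) := nrm_sgz _ _
    have e2 : nrm z = pw (-(⌊ph z⌋ : ℝ)) * nrm ((sg ^ (-⌊ph z⌋)) z) := by
      rw [nrm_sgz, ← mul_assoc, ← pw_add]; push_cast; simp [pw_zero]
    have h1 : nrm ((sg ^ (-⌊ph z⌋)) z) ≤ 1 := hKS.2.2
    have h1' : 1 / 16 ≤ nrm ((sg ^ (-⌊ph z⌋)) z) := hKS.2.1
    generalize (sg ^ (-⌊ph z⌋)) z = v at *
    have hp := pw_pos (-(⌊ph z⌋ : ℝ))
    have h2 : 0 < nrm v := by linarith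
    have h3 := nrm_nonneg (R0 χ v)
    refine ⟨hb'.trans ?_, ?_⟩
    · gcongr
      rw [e1, e2, mul_div_mul_left _ _ hp.ne', le_div_iff₀ h2]; nlinarith
    · rw [e2]; nlinarith
  refine ⟨16 * C, by positivity, ?_, ?_⟩
  · intro χ hχ z hz
    obtain ⟨h2, h4⟩ := main χ hχ z hz
    have hdiff : DifferentiableAt ℝ (fun p : ℝ × V => R0 p.1 p.2) (χ, (sg ^ (-⌊ph z⌋)) z) :=
      (cd_R0 (p := (χ, (sg ^ (-⌊ph z⌋)) z)) (sgz_ne_zero hz)).differentiableAt (by norm_num)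
    have hloc : (fun w : V => RR χ w) =ᶠ[𝓝 z] fun w => (sg ^ ⌊ph z⌋) (R0 χ ((sg ^ (-⌊ph z⌋)) w)) := by
      have h5 := RR_local hz χ
      have h6 : Tendsto (fun w : V => (χ, w)) (𝓝 z) (𝓝 (χ, z)) :=
        (continuous_const.prodMk continuous_id).tendsto z
      exact h6.eventually h5
    rw [hloc.fderiv_eq]
    have h7 := abs_fderiv_z (fun p : ℝ × V => R0 p.1 p.2) (sg ^ ⌊ph z⌋) (sg ^ (-⌊ph z⌋)) χ z hdiff
    have n1 := opNorm_sgz ⌊ph z⌋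
    have n2 := opNorm_sgz (-⌊ph z⌋)
    refine h7.trans ?_
    calc _ ≤ pw (-(⌊ph z⌋ : ℝ)) * ((C * √(nrm (RR χ z) / nrm z)) * pw (-((-⌊ph z⌋ : ℤ) : ℝ))) := by
          gcongr
          exact (pw_pos _).le
      _ = (pw (-(⌊ph z⌋ : ℝ)) * pw (-((-⌊ph z⌋ : ℤ) : ℝ))) * (C * √(nrm (RR χ z) / nrm z)) := by ring
      _ = C * √(nrm (RR χ z) / nrm z) := by rw [← pw_add]; push_cast; simp [pw_zero]
      _ ≤ 16 * C * √(nrm (RR χ z) / nrm z) := by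
          have : 0 ≤ C * √(nrm (RR χ z) / nrm z) := by positivity
          linarith
  · intro χ hχ z hz
    obtain ⟨h2, h4⟩ := main χ hχ z hz
    have hdiff : DifferentiableAt ℝ (fun p : ℝ × V => R0 p.1 p.2) (χ, (sg ^ (-⌊ph z⌋)) z) :=
      (cd_R0 (p := (χ, (sg ^ (-⌊ph z⌋)) z)) (sgz_ne_zero hz)).differentiableAt (by norm_num)
    have h7 := abs_deriv_χ (fun p : ℝ × V => R0 p.1 p.2) (sg ^ ⌊ph z⌋) (sg ^ (-⌊ph z⌋)) χ z hdiff
    have n1 := opNorm_sgz ⌊ph z⌋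
    have h0 : 0 ≤ C * √(nrm (RR χ z) / nrm z) := by positivity
    refine (le_of_eq rfl : ‖deriv (fun c => RR c z) χ‖ ≤ _).trans (h7.trans ?_)
    calc _ ≤ (16 * nrm z) * (C * √(nrm (RR χ z) / nrm z)) := by
          have := nrm_nonneg z
          gcongr
          exact n1.trans h4
      _ = _ := by ring

end

end Crest.Agent.S0163
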