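/-
S0163 package C, part 5: the telescope `Tel`, and its invariance.
-/
import Crest.Agent.S0163_C4

set_option autoImplicit false

open Real Set Filter Topology
open scoped Manifold ContDiff

namespace Crest.Agent.S0163

noncomputable section

local notation "st" => Real.smoothTransition

/-- shape of a telescope point in the shell `0 ≤ ph < 1` -/
def Shape (z : V) : Prop :=
  ∃ (u : ℂ) (x y : ℝ), ‖u‖ = 1 ∧ 0 ≤ x ∧ 0 ≤ y ∧ x ^ 2 + y ^ 2 = 1 ∧
    z = nrm z • ((x • u, y • u ^ 2) : V) ∧ (1 / 2 ≤ ph z → x = 0) ∧ (ph z ≤ 1 / 4 → y = 0)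

def Shp (z : V) : Prop := Shape ((sg ^ (-⌊ph z⌋)) z)

def TelS : Set V := {z | z ≠ 0 ∧ 0 ≤ ph z ∧ Shp z}

theorem Shp_sgz (k : ℤ) {z : V} (hz : z ≠ 0) : Shp ((sg ^ k) z) ↔ Shp z := by
  unfold Shp
  have h1 : ⌊ph ((sg ^ k) z)⌋ = ⌊ph z⌋ + k := by rw [ph_sgz k hz, Int.floor_add_intCast]
  rw [h1, ← sgz_add]
  have : -(⌊ph z⌋ + k) + k = -⌊ph z⌋ := by ring
  rw [this]

theorem Shp_sg {z : V} (hz : z ≠ 0) : Shp (sg z) ↔ Shp z := by
  have := Shp_sgz 1 hz
  rwa [sgz_one] at this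

theorem Shp_of_Shape {z : V} (h0 : 0 ≤ ph z) (h1 : ph z < 1) (h : Shape z) : Shp z := by
  unfold Shp
  have : ⌊ph z⌋ = 0 := by rw [Int.floor_eq_iff]; constructor <;> simp <;> linarith
  rw [this, neg_zero, sgz_zero]; exact h

theorem Shape_of_Shp {z : V} (h0 : 0 ≤ ph z) (h1 : ph z < 1) (h : Shp z) : Shape z := by
  unfold Shp at h
  have : ⌊ph z⌋ = 0 := by rw [Int.floor_eq_iff]; constructor <;> simp <;> linarith
  rwa [this, neg_zero, sgz_zero] at h

/-- constructing shapes -/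
theorem Shape_mk {z : V} {u : ℂ} {x y c : ℝ} (hc : 0 < c) (hu : ‖u‖ = 1) (hx : 0 ≤ x) (hy : 0 ≤ y)
    (hxy : x ^ 2 + y ^ 2 = 1) (hz : z = c • ((x • u, y • u ^ 2) : V))
    (h1 : 1 / 2 ≤ ph z → x = 0) (h2 : ph z ≤ 1 / 4 → y = 0) : Shape z := by
  have hn : nrm ((x • u, y • u ^ 2) : V) = 1 := by
    unfold nrm nsq
    rw [normSq_smul', normSq_smul', map_pow, Complex.normSq_eq_norm_sq, hu]
    simp [hxy]
  have hn2 : nrm z = c := by rw [hz, nrm_smul, hn, abs_of_pos hc, mul_one]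
  exact ⟨u, x, y, hu, hx, hy, hxy, by rw [hn2]; exact hz, h1, h2⟩

theorem exists_sqrt_unit {w : ℂ} (hw : w ≠ 0) : ∃ u : ℂ, ‖u‖ = 1 ∧ u ^ 2 = ((‖w‖ : ℝ) : ℂ)⁻¹ * w := by
  obtain ⟨u, hu⟩ := IsAlgClosed.exists_pow_nat_eq (((‖w‖ : ℝ) : ℂ)⁻¹ * w) (n := 2) (by norm_num)
  refine ⟨u, ?_, hu⟩
  have h1 : ‖u‖ ^ 2 = 1 := by
    rw [← norm_pow, hu, norm_mul, norm_inv, Complex.norm_real, norm_norm,
      inv_mul_cancel₀ (norm_ne_zero_iff.2 hw)]
  have h2 := norm_nonneg u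
  nlinarith

theorem Shape_J0 {v : ℂ} (hv : v ≠ 0) : Shape (J0 v) := by
  have hn : ‖v‖ ≠ 0 := norm_ne_zero_iff.2 hv
  have hJ : J0 v ≠ 0 := by rw [← nrm_pos_iff, nrm_J0]; exact norm_pos_iff.2 hv
  have hph : ph (J0 v) = phc v := ph_eq hJ (by rw [nrm_J0, norm_eq_pw hv])
  have hnc : ((‖v‖ : ℝ) : ℂ) ≠ 0 := by exact_mod_cast hn
  refine Shape_mk (u := ((‖v‖ : ℝ) : ℂ)⁻¹ * v) (x := JA (phc v)) (y := JB (phc v)) (norm_pos_iff.2 hv) ?_
    (JA_nonneg _) (JB_nonneg _) (JAB_sq _) ?_ ?_ ?_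
  · rw [norm_mul, norm_inv, Complex.norm_real, norm_norm, inv_mul_cancel₀ hn]
  · unfold J0
    refine Prod.ext ?_ ?_
    · simp only [Prod.smul_fst, Complex.real_smul]
      field_simp
    · simp only [Prod.smul_snd, Complex.real_smul]
      push_cast
      field_simp
  · rw [hph]; exact JA_zero
  · rw [hph]; exact JB_zero

theorem Shp_J {w : ℂ} (hw : w ≠ 0) (h : -(1 / 2) ≤ phc w) : Shp (J w) := by
  rcases le_or_gt 0 (phc w) with h0 | h0
  · set k := ⌊phc w⌋₊ with hk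
    have hk1 : (k : ℝ) ≤ phc w := Nat.floor_le h0
    have hk2 : phc w < k + 1 := Nat.lt_floor_add_one _
    have e : J w = (sg ^ (k : ℤ)) (J0 (dd^[k] w)) := rfl
    have hv := ddk_ne_zero hw k
    have hJ : J0 (dd^[k] w) ≠ 0 := by rw [← nrm_pos_iff, nrm_J0]; exact norm_pos_iff.2 hv
    have hph : ph (J0 (dd^[k] w)) = phc w - k := ph_eq hJ (by rw [nrm_J0, norm_eq_pw hv, phc_ddk hw])
    rw [e, Shp_sgz _ hJ]
    exact Shp_of_Shape (by rw [hph]; linarith) (by rw [hph]; linarith) (Shape_J0 hv)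
  · have e : J w = (w, 0) := J_of_le (by linarith)
    have hJ := J_ne_zero hw
    rw [← Shp_sg hJ]
    have hph : ph (sg (J w)) = phc w + 1 := by rw [ph_sg hJ, ph_J hw]
    obtain ⟨u, hu1, hu2⟩ := exists_sqrt_unit hw
    refine Shp_of_Shape (by rw [hph]; linarith) (by rw [hph]; linarith) ?_
    have hnc : ((‖w‖ : ℝ) : ℂ) ≠ 0 := by exact_mod_cast norm_ne_zero_iff.2 hw
    refine Shape_mk (u := u) (x := 0) (y := 1) (c := 16⁻¹ * ‖w‖)
      (mul_pos (by norm_num) (norm_pos_iff.2 hw)) hu1 le_rfl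
      (by norm_num) (by norm_num) ?_ (fun _ => rfl) (fun h' => ?_)
    · rw [e, sg_apply, hu2]
      refine Prod.ext (by simp) ?_
      simp only [Prod.smul_snd, Complex.real_smul]
      push_cast
      field_simp
    · rw [hph] at h'; linarith

/-- data of a shape point -/
theorem Gf_shape {z : V} (hz : z ≠ 0) {u : ℂ} {x y : ℝ} (hu : ‖u‖ = 1) (hx : 0 ≤ x) (hy : 0 ≤ y)
    (hxy : x ^ 2 + y ^ 2 = 1) (e : z = nrm z • ((x • u, y • u ^ 2) : V)) (h1 : 1 / 2 ≤ ph z → x = 0)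
    (h2 : ph z ≤ 1 / 4 → y = 0) :
    aa z = x • u ∧ cc z = y • u ^ 2 ∧ ∃ γ : ℝ, 15 / 16 ≤ γ ∧ Gf z = γ • u ^ 2 ∧ (5 / 8 ≤ ph z → γ = 1) := by
  have hn := (nrm_pos hz).ne'
  have ha : aa z = x • u := by
    unfold aa
    conv_lhs => rw [e]
    rw [Prod.smul_fst, nrm_smul]
    have hn1 : nrm ((x • u, y • u ^ 2) : V) = 1 := by
      unfold nrm nsq
      rw [normSq_smul', normSq_smul', map_pow, Complex.normSq_eq_norm_sq, hu]
      simp [hxy]
    rw [hn1, mul_one, abs_of_pos (nrm_pos hz), smul_smul, inv_mul_cancel₀ hn, one_smul]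
  have hc : cc z = y • u ^ 2 := by
    unfold cc
    conv_lhs => rw [e]
    rw [Prod.smul_snd, nrm_smul]
    have hn1 : nrm ((x • u, y • u ^ 2) : V) = 1 := by
      unfold nrm nsq
      rw [normSq_smul', normSq_smul', map_pow, Complex.normSq_eq_norm_sq, hu]
      simp [hxy]
    rw [hn1, mul_one, abs_of_pos (nrm_pos hz), smul_smul, inv_mul_cancel₀ hn, one_smul]
  refine ⟨ha, hc, alp (ph z) * (isq (x ^ 2) * x ^ 2) + bet (ph z) * y, ?_, ?_, ?_⟩
  · have hk0 : 0 ≤ isq (x ^ 2) * x ^ 2 := mul_nonneg (isq_nonneg _) (sq_nonneg _)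
    rcases le_or_gt (ph z) (1 / 4) with h | h
    · have hy0 := h2 h
      have hx1 : x = 1 := by rw [hy0] at hxy; nlinarith
      rw [hy0, hx1, alp_one (by linarith), isq_eq (by norm_num)]; norm_num
    · rw [bet_one h.le]
      rcases le_or_gt (1 / 2) (ph z) with h' | h'
      · have hx0 := h1 h'
        have hy1 : y = 1 := by rw [hx0] at hxy; nlinarith
        rw [hx0, hy1]; norm_num
      · rw [alp_one h'.le]
        rcases le_or_gt (1 / 16) (x ^ 2) with h3 | h3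
        · have hk : isq (x ^ 2) * x ^ 2 = x := by
            rw [isq_eq h3, Real.sqrt_sq hx]
            have : x ≠ 0 := by rintro rfl; norm_num at h3
            field_simp
          rw [hk]; nlinarith
        · nlinarith
  · unfold Gf
    rw [ha, hc]
    have hsq : sq (x • u) = (isq (x ^ 2) * x ^ 2) • u ^ 2 := by
      unfold sq
      rw [normSq_smul', Complex.normSq_eq_norm_sq, hu]
      simp only [one_pow, mul_one, Complex.real_smul]
      push_cast; ring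
    rw [hsq, smul_smul, smul_smul, ← add_smul]
  · intro h
    have hx0 := h1 (by linarith)
    have hy1 : y = 1 := by rw [hx0] at hxy; nlinarith
    rw [hx0, hy1, bet_one (by linarith)]; norm_num

theorem R0_shape {z : V} (hz : z ≠ 0) (h0 : 0 ≤ ph z) (h1 : ph z < 1) (hS : Shape z) (χ : ℝ) :
    R0 χ z ≠ 0 ∧ ph (R0 χ z) = rr χ (ph z) - 1 ∧ Shp (R0 χ z) := by
  obtain ⟨u, x, y, hu, hx, hy, hxy, e, hx0, hy0⟩ := hS
  obtain ⟨ha, hc, γ, hγ, hG, hγ1⟩ := Gf_shape hz hu hx hy hxy e hx0 hy0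
  have hnG : Complex.normSq (Gf z) = γ ^ 2 := by
    rw [hG, normSq_smul', map_pow, Complex.normSq_eq_norm_sq, hu]; simp
  have hev : ev z = 1 := by unfold ev; rw [hnG]; exact eta_one (by nlinarith)
  have hR : R0 χ z = B0 χ z := by unfold R0; rw [hev]; simp
  set E := ph z with hE
  set r := rr χ E with hr
  set s := ss χ E with hs
  have hrE : E ≤ r := rr_ge (by linarith)
  have hr2 : r ≤ 13 / 8 := rr_le (by linarith)
  have hrth : r ≤ th E := rr_le_th (by linarith)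
  have hs0 : 0 ≤ s := by
    rw [hs]; unfold ss
    refine mul_nonneg (mul_nonneg ?_ (s0_nonneg _)) (st_nonneg _)
    unfold kap; have := st_le_one (8 * E - 5); linarith
  have hs1 : s ≤ 1 := by
    rw [hs]; unfold ss
    have k1 : kap E ≤ 1 := by unfold kap; have := st_nonneg (8 * E - 5); linarith
    have k0 : 0 ≤ kap E := by unfold kap; have := st_le_one (8 * E - 5); linarith
    have a1 : kap E * s0 (rr χ E) ≤ 1 := mul_le_one₀ k1 (s0_nonneg _) (s0_le_one _)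
    exact mul_le_one₀ a1 (st_nonneg _) (st_le_one _)
  set τ := st (χ - 2) with hτ
  have hτ0 : 0 ≤ τ := st_nonneg _
  have hτ1 : τ ≤ 1 := st_le_one _
  -- the pair (x1, y1)
  set x1 := (1 - s) * (1 - τ) * x with hx1
  set y1 := (1 - s) * y + s * γ with hy1
  have hx1n : 0 ≤ x1 := by
    rw [hx1]; exact mul_nonneg (mul_nonneg (by linarith) (by linarith)) hx
  have hy1n : 0 ≤ y1 := by
    rw [hy1]; exact add_nonneg (mul_nonneg (by linarith) hy) (mul_nonneg hs0 (by linarith))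
  have hQ0 : Q0 χ z = (x1 • u, y1 • u ^ 2) := by
    unfold Q0
    rw [ha, hc, hG, smul_smul, smul_smul, smul_smul, ← add_smul]
  have hpos : 1 / 4 ≤ x1 ^ 2 + y1 ^ 2 := by
    by_cases hχ : χ ≤ 2
    · have hτz : τ = 0 := st_zero (by linarith)
      have e1 : x1 = (1 - s) * x := by rw [hx1, hτz]; ring
      rw [e1, hy1]
      have c1 : (0:ℝ) ≤ (1 - s) * y * (s * γ) :=
        mul_nonneg (mul_nonneg (by linarith) hy) (mul_nonneg hs0 (by linarith))
      have c2 : ((1 - s) * x) ^ 2 + ((1 - s) * y + s * γ) ^ 2 = (1 - s) ^ 2 * (x ^ 2 + y ^ 2)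
          + 2 * ((1 - s) * y * (s * γ)) + s ^ 2 * γ ^ 2 := by ring
      rw [c2, hxy]
      have c3 : (1:ℝ) / 2 ≤ γ ^ 2 := by nlinarith
      nlinarith [mul_nonneg (sq_nonneg s) (by linarith : (0:ℝ) ≤ γ ^ 2 - 1 / 2), sq_nonneg (s - 2 / 3)]
    · push Not at hχ
      have hy1' : 15 / 16 ≤ y1 := by
        rcases le_or_gt E (5 / 8) with h | h
        · have : s = 1 := by
            rw [hs]; unfold ss
            have : rr χ E = th E := by unfold rr; rw [st_one (by linarith)]; ring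
            rw [kap_one h, this, s0_one (th_ge_half _), st_one (by linarith)]; ring
          rw [hy1, this]; linarith
        · have hxz := hx0 (by linarith)
          have hyz : y = 1 := by rw [hxz] at hxy; nlinarith
          rw [hy1, hyz, hγ1 h.le]; linarith
      nlinarith [sq_nonneg x1]
  -- general normalisation
  have key : ∀ (v : V), 1 / 4 ≤ nsq v → NN v = (nrm v)⁻¹ • v := by
    intro v hv
    unfold NN
    rw [mm_one hv, isq_eq (by linarith)]; simp [nrm]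
  have hB : ∀ v : V, Q1 χ z = v → 1 / 4 ≤ nsq v → B0 χ z = (pw (1 - r) * (nrm v)⁻¹) • swp v := by
    intro v hv hv2
    unfold B0
    rw [hv, key v hv2]
    have hsw : ∀ (c : ℝ) (v : V), swp (c • v) = c • swp v := fun c v => rfl
    rw [hsw, smul_smul]
  have hphB : ∀ v : V, Q1 χ z = v → 1 / 4 ≤ nsq v → B0 χ z ≠ 0 ∧ ph (B0 χ z) = r - 1 := by
    intro v hv hv2
    have hv0 : v ≠ 0 := by rintro rfl; simp [nsq] at hv2; norm_num at hv2
    have hnv := nrm_pos hv0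
    have e1 := hB v hv hv2
    have hn : nrm (B0 χ z) = pw (-(r - 1)) := by
      rw [e1, nrm_smul, nrm_swp, abs_of_pos (mul_pos (pw_pos _) (inv_pos.2 hnv)), mul_assoc,
        inv_mul_cancel₀ hnv.ne', mul_one]; congr 1; ring
    have h0 : B0 χ z ≠ 0 := by rw [← nrm_pos_iff, hn]; exact pw_pos _
    exact ⟨h0, ph_eq h0 hn⟩
  rw [hR]
  rcases lt_or_ge r 1 with hr1 | hr1
  · -- shell -1
    have hs1z : s1 χ E = 0 := s0_zero (by linarith)
    have hQ1 : Q1 χ z = (x1 • u, y1 • u ^ 2) := by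
      unfold Q1 mix; rw [hs1z, hQ0]; simp
    have hnsq : nsq ((x1 • u, y1 • u ^ 2) : V) = x1 ^ 2 + y1 ^ 2 := by
      unfold nsq
      rw [normSq_smul', normSq_smul', map_pow, Complex.normSq_eq_norm_sq, hu]
      simp
    have hv2 : 1 / 4 ≤ nsq ((x1 • u, y1 • u ^ 2) : V) := by rw [hnsq]; exact hpos
    obtain ⟨hB0, hphB0⟩ := hphB _ hQ1 hv2
    refine ⟨hB0, hphB0, ?_⟩
    rw [← Shp_sg hB0]
    have hph1 : ph (sg (B0 χ z)) = r := by rw [ph_sg hB0, hphB0]; ring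
    refine Shp_of_Shape (by rw [hph1]; linarith) (by rw [hph1]; linarith) ?_
    set n := nrm ((x1 • u, y1 • u ^ 2) : V) with hn
    have hn0 : 0 < n := Real.sqrt_pos.2 (by linarith)
    have hn2 : n ^ 2 = x1 ^ 2 + y1 ^ 2 := by rw [hn, nrm_sq, hnsq]
    refine Shape_mk (u := u) (x := x1 / n) (y := y1 / n) (c := pw (-r)) (pw_pos _) hu (by positivity) (by positivity)
      (by rw [div_pow, div_pow, ← add_div, ← hn2]; exact div_self (by positivity)) ?_ ?_ ?_
    · rw [hB _ hQ1 hv2, sg_eq]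
      have hsw : ∀ (c : ℝ) (v : V), swp (c • v) = c • swp v := fun c v => rfl
      rw [hsw, swp_swp, smul_smul, ← hn]
      have e2 : pw (-1) * (pw (1 - r) * n⁻¹) = pw (-r) * n⁻¹ := by
        rw [← mul_assoc, ← pw_add]; congr 2; ring
      rw [e2]
      refine Prod.ext ?_ ?_
      · simp only [Prod.smul_fst, smul_smul]; congr 1; ring
      · simp only [Prod.smul_snd, smul_smul]; congr 1; ring
    · rw [hph1]
      intro hr'
      have : x1 = 0 := by
        rcases le_or_gt (1 / 2) E with h | h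
        · rw [hx1, hx0 h, mul_zero]
        · have hχ : 1 < χ := by
            by_contra hc'
            push Not at hc'
            have : r = E := by rw [hr]; unfold rr; rw [st_zero (by linarith)]; ring
            linarith
          have : s = 1 := by
            rw [hs]; unfold ss
            rw [kap_one (by linarith), s0_one (by rw [← hr]; exact hr'), st_one hχ.le]; ring
          rw [hx1, this]; ring
      rw [this, zero_div]
    · rw [hph1]
      intro hr'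
      have : y1 = 0 := by
        have : s = 0 := by
          rw [hs]; unfold ss; rw [s0_zero (by rw [← hr]; exact hr')]; ring
        rw [hy1, this, hy0 (by linarith)]; ring
      rw [this, zero_div]
  · -- shell 0
    have hE34 : 3 / 4 < E := by
      by_contra hc'
      push Not at hc'
      have : th E ≤ 3 / 4 := by
        rw [th_midlow hc']
        rcases le_total E (5/8) with h | h
        · have := mul_le_mul_of_nonneg_right (alp_le_one E) (by linarith : (0:ℝ) ≤ 5 / 8 - E); linarith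
        · rw [alp_zero h]; linarith
      linarith
    have hxz := hx0 (by linarith)
    have hyz : y = 1 := by rw [hxz] at hxy; nlinarith
    have hsz : s = 0 := by rw [hs]; unfold ss; rw [kap_zero hE34.le]; ring
    have hx1z : x1 = 0 := by rw [hx1, hxz, mul_zero]
    have hy1z : y1 = 1 := by rw [hy1, hsz, hyz]; ring
    set q := s1 χ E with hq
    have hq0 : 0 ≤ q := s0_nonneg _
    have hq1 : q ≤ 1 := s0_le_one _
    have hsqu : sq (u ^ 2) = (u ^ 2) ^ 2 := by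
      unfold sq
      rw [map_pow, Complex.normSq_eq_norm_sq, hu, isq_eq (by norm_num)]; simp
    have hQ1 : Q1 χ z = (q • (u ^ 2) ^ 2, (1 - q) • u ^ 2) := by
      unfold Q1 mix
      rw [hQ0, hx1z, hy1z, ← hE, ← hq]
      simp [hsqu]
    have hnsq : nsq ((q • (u ^ 2) ^ 2, (1 - q) • u ^ 2) : V) = JD (r - 1) := by
      unfold nsq JD
      rw [normSq_smul', normSq_smul', map_pow, map_pow, Complex.normSq_eq_norm_sq, hu, hq]
      unfold s1
      rw [← hr]; simp; ring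
    have hJD := JD_ge (r - 1)
    have hv2 : 1 / 4 ≤ nsq ((q • (u ^ 2) ^ 2, (1 - q) • u ^ 2) : V) := by rw [hnsq]; linarith
    obtain ⟨hB0, hphB0⟩ := hphB _ hQ1 hv2
    refine ⟨hB0, hphB0, ?_⟩
    refine Shp_of_Shape (by rw [hphB0]; linarith) (by rw [hphB0]; linarith) ?_
    have hnr : nrm ((q • (u ^ 2) ^ 2, (1 - q) • u ^ 2) : V) = √(JD (r - 1)) := by
      unfold nrm; rw [hnsq]
    refine Shape_mk (u := u ^ 2) (x := JA (r - 1)) (y := JB (r - 1)) (c := pw (1 - r)) (pw_pos _)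
      (by rw [norm_pow, hu]; norm_num) (JA_nonneg _) (JB_nonneg _) (JAB_sq _) ?_ ?_ ?_
    · rw [hB _ hQ1 hv2, hnr]
      have hq' : q = s0 (r - 1) := rfl
      unfold swp JA JB
      rw [hq']
      refine Prod.ext ?_ ?_
      · simp only [Prod.smul_fst, smul_smul]; congr 1; ring
      · simp only [Prod.smul_snd, smul_smul]; congr 1; ring
    · rw [hphB0]; exact JA_zero
    · rw [hphB0]; exact JB_zero

theorem floor_rr {E χ : ℝ} (h0 : 0 ≤ E) (h1 : E < 1) : ⌊rr χ E + 1 / 4⌋ = ⌊E + 1 / 4⌋ := by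
  have hrE : E ≤ rr χ E := rr_ge (by linarith)
  have hr2 : rr χ E ≤ 13 / 8 := rr_le (by linarith)
  have hrth : rr χ E ≤ th E := rr_le_th (by linarith)
  rcases lt_or_ge E (3 / 4) with h | h
  · have hth : th E < 3 / 4 := by
      rw [th_midlow h.le]
      rcases le_total E (5/8) with h' | h'
      · have := mul_le_mul_of_nonneg_right (alp_le_one E) (by linarith : (0:ℝ) ≤ 5 / 8 - E); linarith
      · rw [alp_zero h']; linarith
    have e1 : ⌊rr χ E + 1 / 4⌋ = 0 := by rw [Int.floor_eq_iff]; constructor <;> push_cast <;> linarith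
    have e2 : ⌊E + 1 / 4⌋ = 0 := by rw [Int.floor_eq_iff]; constructor <;> push_cast <;> linarith
    rw [e1, e2]
  · have e1 : ⌊rr χ E + 1 / 4⌋ = 1 := by rw [Int.floor_eq_iff]; constructor <;> push_cast <;> linarith
    have e2 : ⌊E + 1 / 4⌋ = 1 := by rw [Int.floor_eq_iff]; constructor <;> push_cast <;> linarith
    rw [e1, e2]

theorem ph_ge_one_of_nrm {z : V} (hz : z ≠ 0) (h : nrm z ≤ 1 / 16) : 1 ≤ ph z := by
  rw [nrm_eq_pw hz, one_div, ← pw_one, ← pw_neg, pw_le_pw] at h; linarith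

theorem RR_tel {χ : ℝ} {z : V} (hz : z ∈ TelS) (hn : nrm z ≤ 1 / 16) :
    RR χ z ∈ TelS ∧ lev (RR χ z) = lev z - 1 := by
  obtain ⟨hz0, hph, hS⟩ := hz
  have hE : 1 ≤ ph z := ph_ge_one_of_nrm hz0 hn
  have hm := shell_mem hz0
  have hv0 : (sg ^ (-⌊ph z⌋)) z ≠ 0 := sgz_ne_zero hz0
  obtain ⟨h1, h2, h3⟩ := R0_shape hv0 hm.1 hm.2 hS χ
  have hphv : ph ((sg ^ (-⌊ph z⌋)) z) = ph z - ⌊ph z⌋ := by rw [ph_sgz _ hz0]; push_cast; ring
  have hk : (1 : ℝ) ≤ ⌊ph z⌋ := by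
    have : (1 : ℤ) ≤ ⌊ph z⌋ := Int.le_floor.2 (by simpa using hE)
    exact_mod_cast this
  have hr : 0 ≤ rr χ (ph ((sg ^ (-⌊ph z⌋)) z)) := hm.1.trans (rr_ge (by linarith [hm.2]))
  have hfl := floor_rr (χ := χ) hm.1 hm.2
  have e : RR χ z = (sg ^ ⌊ph z⌋) (R0 χ ((sg ^ (-⌊ph z⌋)) z)) := rfl
  have hphR : ph (RR χ z) = rr χ (ph ((sg ^ (-⌊ph z⌋)) z)) - 1 + ⌊ph z⌋ := by
    rw [e, ph_sgz _ h1, h2]
  refine ⟨⟨?_, ?_, ?_⟩, ?_⟩
  · rw [e]; exact sgz_ne_zero h1
  · rw [hphR]; linarith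
  · rw [e, Shp_sgz _ h1]; exact h3
  · unfold lev
    rw [hphR]
    have e1 : rr χ (ph ((sg ^ (-⌊ph z⌋)) z)) - 1 + ⌊ph z⌋ + 1 / 4
        = (rr χ (ph ((sg ^ (-⌊ph z⌋)) z)) + 1 / 4) + ((⌊ph z⌋ - 1 : ℤ) : ℝ) := by push_cast; ring
    have e2 : ph z + 1 / 4 = (ph ((sg ^ (-⌊ph z⌋)) z) + 1 / 4) + ((⌊ph z⌋ : ℤ) : ℝ) := by rw [hphv]; ring
    rw [e1, Int.floor_add_intCast, hfl, e2, Int.floor_add_intCast]
    ring

theorem phc_w0_ge {z : V} (h0 : w0 z ≠ 0) : -(1 / 2) ≤ phc (w0 z) := by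
  have h1 : ‖w0 z‖ ≤ pw (1 - th (ph z)) := by rw [← nrm_J]; exact nrm_Rend_le z
  rw [norm_eq_pw h0, pw_le_pw] at h1
  have := th_le (ph z)
  have := th_ge_half (ph z)
  linarith

theorem RR_four {z : V} (hz : z ≠ 0) (hn : nrm z ≤ 1 / 16) : RR 4 z = 0 ∨ RR 4 z ∈ TelS := by
  have e : RR 4 z = (sg ^ ⌊ph z⌋) (J (w0 ((sg ^ (-⌊ph z⌋)) z))) := by
    unfold RR; rw [R0_four le_rfl]; rfl
  by_cases h0 : w0 ((sg ^ (-⌊ph z⌋)) z) = 0
  · left; rw [e, h0, J_zero, map_zero]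
  · right
    have hJ := J_ne_zero h0
    have h1 := phc_w0_ge h0
    have hE : 1 ≤ ph z := ph_ge_one_of_nrm hz hn
    have hk : (1 : ℝ) ≤ ⌊ph z⌋ := by
      have : (1 : ℤ) ≤ ⌊ph z⌋ := Int.le_floor.2 (by simpa using hE)
      exact_mod_cast this
    refine ⟨?_, ?_, ?_⟩
    · rw [e]; exact sgz_ne_zero hJ
    · rw [e, ph_sgz _ hJ, ph_J h0]; linarith
    · rw [e, Shp_sgz _ hJ]; exact Shp_J h0 h1

theorem J_range (w : ℂ) : J w = 0 ∨ J w ∈ TelS ∨ (1 < ‖(J w).1‖ ∧ (J w).2 = 0) := by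
  by_cases h0 : w = 0
  · left; rw [h0, J_zero]
  · right
    rcases le_or_gt 0 (phc w) with h | h
    · left
      exact ⟨J_ne_zero h0, by rw [ph_J h0]; exact h, Shp_J h0 (by linarith)⟩
    · right
      have e : J w = (w, 0) := J_of_le (by linarith)
      rw [e]
      refine ⟨?_, rfl⟩
      show 1 < ‖w‖
      rw [norm_eq_pw h0, ← pw_zero, pw_lt_pw]; linarith

end

end Crest.Agent.S0163
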