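/-
S0163 package C, part 6: the outer map `Fo` and `exists_shellData`.
-/
import Crest.Agent.S0163_C5

set_option autoImplicit false

open Real Set Filter Topology
open scoped Manifold ContDiff

namespace Crest.Agent.S0163

noncomputable section

local notation "st" => Real.smoothTransition

theorem pw_quarter : pw (1 / 4) = 2 := by
  have h : pw (1 / 4) ^ 4 = 2 ^ 4 := by
    rw [← pw_mul_nat]
    have : ((4 : ℕ) : ℝ) * (1 / 4) = 1 := by norm_num
    rw [this, pw_one]; norm_num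
  exact pow_left_injective₀' h
where
  pow_left_injective₀' : pw (1 / 4) ^ 4 = 2 ^ 4 → pw (1 / 4) = 2 := fun h =>
    (pow_left_inj₀ (pw_pos _).le (by norm_num) (by norm_num)).1 h

/-- the far formula -/
def Ffar (x : ℂ) : V := (pw (3 / 8) * x ^ 2 / Complex.normSq x, 0)

def zet (x : ℂ) : V := (x, ((√(1 - Complex.normSq x) : ℝ) : ℂ))

def F1 (x : ℂ) : V :=
  open Classical in
  if Complex.normSq x < 3 / 4 then Rend (zet x) else Ffar x

def mo (z : V) : ℝ := pw (ph z * st (16 * ph z))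

def Fo (z : V) : V :=
  open Classical in
  if 3 / 32 < ph z then Rend z else F1 (mo z • z.1)

theorem nsq_zet {x : ℂ} (h : Complex.normSq x ≤ 1) : nsq (zet x) = 1 := by
  unfold nsq zet
  simp only [Complex.normSq_ofReal]
  rw [Real.mul_self_sqrt (by linarith)]; ring
theorem zet_ne {x : ℂ} (h : Complex.normSq x ≤ 1) : zet x ≠ 0 := by
  intro h0; have := nsq_zet h; rw [h0] at this; simp [nsq] at this
theorem nrm_zet {x : ℂ} (h : Complex.normSq x ≤ 1) : nrm (zet x) = 1 := by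
  unfold nrm; rw [nsq_zet h, Real.sqrt_one]
theorem ph_zet {x : ℂ} (h : Complex.normSq x ≤ 1) : ph (zet x) = 0 :=
  ph_eq (zet_ne h) (by rw [nrm_zet h, neg_zero, pw_zero])
theorem aa_zet {x : ℂ} (h : Complex.normSq x ≤ 1) : aa (zet x) = x := by
  unfold aa; rw [nrm_zet h]; simp [zet]

/-- for `ph z < 1/8`, `Rend z` depends only on `aa z` -/
theorem w0_low {z : V} (h : ph z < 1 / 8) :
    w0 z = (yy (Complex.normSq (aa z))) ^ 10 •
      ((pw (3 / 8) * isq (Complex.normSq (sq (aa z)))) • sq (aa z)) := by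
  unfold w0 Wf
  rw [Gf_near_zero h, yy_sq, th_low (by linarith)]
  norm_num

theorem Rend_congr {z z' : V} (h : ph z < 1 / 8) (h' : ph z' < 1 / 8) (e : aa z = aa z') : Rend z = Rend z' := by
  unfold Rend; rw [w0_low h, w0_low h', e]

theorem Rend_far {z : V} (h : ph z < 1 / 8) (h1 : 1 / 2 ≤ Complex.normSq (aa z)) : Rend z = Ffar (aa z) := by
  have hs0 : aa z ≠ 0 := by rintro h; rw [h] at h1; simp at h1; norm_num at h1
  set a := aa z with ha
  have hn : ‖a‖ ≠ 0 := norm_ne_zero_iff.2 hs0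
  have hnc : ((‖a‖ : ℝ) : ℂ) ≠ 0 := by exact_mod_cast hn
  have hiq : isq (Complex.normSq a) = ‖a‖⁻¹ := by
    rw [isq_eq (by linarith), ← Complex.sq_norm, Real.sqrt_sq (norm_nonneg _)]
  have hw : w0 z = pw (3 / 8) * a ^ 2 / Complex.normSq a := by
    rw [w0_low h, ← ha, yy_one h1, normSq_sq_eq (by linarith), hiq]
    unfold sq
    rw [hiq, Complex.normSq_eq_norm_sq, smul_smul, smul_smul, one_pow, one_mul, Complex.real_smul]
    push_cast
    field_simp
  have hnw : ‖w0 z‖ = pw (3 / 8) := by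
    rw [hw, norm_div, norm_mul, norm_pow, Complex.norm_real, Complex.norm_real, Complex.normSq_eq_norm_sq,
      Real.norm_of_nonneg (pw_pos _).le, Real.norm_of_nonneg (by positivity)]
    field_simp
  have hw0 : w0 z ≠ 0 := by rw [← norm_ne_zero_iff, hnw]; exact pw_ne_zero _
  have hph : phc (w0 z) = -(3 / 8) := phc_eq hw0 (by rw [hnw]; norm_num)
  unfold Rend Ffar
  rw [J_of_le (by rw [hph]; norm_num), hw]

theorem F1_low {z : V} (h : ph z < 1 / 8) : Rend z = F1 (aa z) := by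
  unfold F1
  split_ifs with h1
  · have h2 : Complex.normSq (aa z) ≤ 1 := by linarith
    exact Rend_congr h (by rw [ph_zet h2]; norm_num) (aa_zet h2).symm
  · push Not at h1
    exact Rend_far h (by linarith)

theorem F1_far {x : ℂ} (h : 1 / 2 ≤ Complex.normSq x) : F1 x = Ffar x := by
  unfold F1
  split_ifs with h1
  · have h2 : Complex.normSq x ≤ 1 := by linarith
    rw [Rend_far (by rw [ph_zet h2]; norm_num) (by rw [aa_zet h2]; exact h), aa_zet h2]
  · rfl

theorem mo_eq {z : V} (hz : z ≠ 0) (h : 1 / 16 ≤ ph z) : mo z • z.1 = aa z := by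
  unfold mo aa
  rw [st_one (by linarith), mul_one, nrm_eq_pw hz, pw_neg, inv_inv]
theorem mo_one {z : V} (h : ph z ≤ 0) : mo z = 1 := by
  unfold mo; rw [st_zero (by linarith), mul_zero, pw_zero]

theorem Fo_Rend {z : V} (hz : z ≠ 0) (h : 1 / 16 ≤ ph z) : Fo z = Rend z := by
  unfold Fo
  split_ifs with h1
  · rfl
  · push Not at h1
    rw [mo_eq hz h, F1_low (by linarith)]
theorem Fo_F1 {z : V} (hz : z ≠ 0) (h : ph z < 1 / 8) : Fo z = F1 (mo z • z.1) := by
  unfold Fo
  split_ifs with h1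
  · rw [mo_eq hz (by linarith), F1_low h]
  · rfl

/-! ### smoothness and local bounds -/

theorem contDiffAt_Ffar {x : ℂ} (hx : x ≠ 0) : ContDiffAt ℝ 1 Ffar x := by
  unfold Ffar
  have h0 : ((Complex.normSq x : ℝ) : ℂ) ≠ 0 := by exact_mod_cast (normSq_pos hx).ne'
  have h1 : ContDiffAt ℝ 1 (fun x : ℂ => ((Complex.normSq x : ℝ) : ℂ)) x :=
    Complex.ofRealCLM.contDiff.contDiffAt.comp x contDiff_normSq.contDiffAt
  have h2 : ContDiffAt ℝ 1 (fun x : ℂ => ((pw (3 / 8) : ℝ) : ℂ) * x ^ 2) x :=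
    contDiffAt_const.mul (contDiffAt_id.pow 2)
  have h3 : ContDiffAt ℝ 1 (fun x : ℂ => ((pw (3 / 8) : ℝ) : ℂ) * x ^ 2 / ((Complex.normSq x : ℝ) : ℂ)) x := by
    simp only [div_eq_mul_inv]
    exact h2.mul (h1.inv h0)
  exact h3.prodMk contDiffAt_const

theorem contDiffAt_zet {x : ℂ} (h : Complex.normSq x < 1) : ContDiffAt ℝ 1 zet x := by
  unfold zet
  refine contDiffAt_id.prodMk ?_
  have h1 : ContDiffAt ℝ 1 (fun x : ℂ => √(1 - Complex.normSq x)) x :=
    (Real.contDiffAt_sqrt (ne_of_gt (by linarith : 0 < 1 - Complex.normSq x))).comp x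
      (contDiffAt_const.sub contDiff_normSq.contDiffAt)
  exact Complex.ofRealCLM.contDiff.contDiffAt.comp x h1

theorem continuous_normSq' : Continuous (fun x : ℂ => Complex.normSq x) := (contDiff_normSq (n := 0)).continuous

theorem F1_ev_low {x : ℂ} (h : Complex.normSq x < 3 / 4) : F1 =ᶠ[𝓝 x] fun x => Rend (zet x) := by
  have : ∀ᶠ y in 𝓝 x, Complex.normSq y < 3 / 4 := continuous_normSq'.continuousAt.eventually (gt_mem_nhds h)
  filter_upwards [this] with y hy
  unfold F1; rw [if_pos hy]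
theorem F1_ev_far {x : ℂ} (h : 1 / 2 < Complex.normSq x) : F1 =ᶠ[𝓝 x] Ffar := by
  have : ∀ᶠ y in 𝓝 x, 1 / 2 < Complex.normSq y := continuous_normSq'.continuousAt.eventually (lt_mem_nhds h)
  filter_upwards [this] with y hy
  exact F1_far hy.le

theorem contDiff_F1 : ContDiff ℝ 1 F1 := by
  rw [contDiff_iff_contDiffAt]
  intro x
  rcases lt_or_ge (Complex.normSq x) (3 / 4) with h | h
  · refine ContDiffAt.congr_of_eventuallyEq ?_ (F1_ev_low h)
    exact (contDiffAt_Rend (zet_ne (by linarith))).comp x (contDiffAt_zet (by linarith))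
  · refine ContDiffAt.congr_of_eventuallyEq ?_ (F1_ev_far (by linarith))
    refine contDiffAt_Ffar ?_
    rintro rfl; simp at h; norm_num at h

/-- local boundedness of the derivative of a `C¹` map -/
theorem local_fderiv_bound {E F : Type*} [NormedAddCommGroup E] [NormedSpace ℝ E] [NormedAddCommGroup F]
    [NormedSpace ℝ F] {g : E → F} {x : E} (h : ContDiffAt ℝ 1 g x) :
    ∃ C : ℝ, 0 ≤ C ∧ ∀ᶠ y in 𝓝 x, ‖fderiv ℝ g y‖ ≤ C := by
  have h1 : ContinuousAt (fun y => ‖fderiv ℝ g y‖) x := (h.fderiv_right (m := 0) (by norm_num)).continuousAt.norm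
  refine ⟨‖fderiv ℝ g x‖ + 1, by positivity, ?_⟩
  exact h1.eventually (ge_mem_nhds (by simp))

theorem Rend_local_bound {z : V} (hz : z ≠ 0) :
    ∃ C : ℝ, 0 ≤ C ∧ ∀ᶠ z' in 𝓝 z, ‖fderiv ℝ Rend z'‖ ≤ C * √(nrm (Rend z')) := by
  obtain ⟨K, hK, hzK, hKΩ⟩ := exists_compact_subset (isOpen_ne (x := (0:V))) hz
  obtain ⟨C, hC, hb⟩ := Rend_bound hK (fun z hz => hKΩ hz)
  refine ⟨C, hC, ?_⟩
  filter_upwards [mem_interior_iff_mem_nhds.1 hzK] with z' hz'
  exact hb z' hz'

theorem nrm_Ffar {x : ℂ} (hx : x ≠ 0) : nrm (Ffar x) = pw (3 / 8) := by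
  have hn : ‖x‖ ≠ 0 := norm_ne_zero_iff.2 hx
  unfold nrm nsq Ffar
  simp only [map_zero, add_zero]
  rw [← Complex.sq_norm, Real.sqrt_sq (norm_nonneg _), norm_div, norm_mul, norm_pow, Complex.norm_real,
    Complex.norm_real, Complex.normSq_eq_norm_sq, Real.norm_of_nonneg (pw_pos _).le,
    Real.norm_of_nonneg (by positivity)]
  field_simp

/-- `‖DF1‖ ≤ C √nrm F1` locally -/
theorem F1_local_bound (x : ℂ) : ∃ C : ℝ, 0 ≤ C ∧ ∀ᶠ y in 𝓝 x, ‖fderiv ℝ F1 y‖ ≤ C * √(nrm (F1 y)) := by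
  rcases lt_or_ge (Complex.normSq x) (3 / 4) with h | h
  · obtain ⟨C1, hC1, hb1⟩ := Rend_local_bound (zet_ne (by linarith : Complex.normSq x ≤ 1))
    obtain ⟨C2, hC2, hb2⟩ := local_fderiv_bound (contDiffAt_zet (by linarith : Complex.normSq x < 1))
    refine ⟨C1 * C2, by positivity, ?_⟩
    have hc : ContinuousAt zet x := (contDiffAt_zet (by linarith : Complex.normSq x < 1)).continuousAt
    have h1 : ∀ᶠ y in 𝓝 x, Complex.normSq y < 3 / 4 := continuous_normSq'.continuousAt.eventually (gt_mem_nhds h)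
    filter_upwards [hc.eventually hb1, hb2, h1] with y h1 h2 h3
    have e := F1_ev_low h3
    rw [e.fderiv_eq, e.self_of_nhds]
    have d1 : DifferentiableAt ℝ zet y := (contDiffAt_zet (by linarith)).differentiableAt (by norm_num)
    have d2 : DifferentiableAt ℝ Rend (zet y) := (contDiffAt_Rend (zet_ne (by linarith))).differentiableAt (by norm_num)
    have e2 : fderiv ℝ (fun x => Rend (zet x)) y = (fderiv ℝ Rend (zet y)).comp (fderiv ℝ zet y) :=
      fderiv_comp y d2 d1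
    rw [e2]
    have := Real.sqrt_nonneg (nrm (Rend (zet y)))
    calc _ ≤ ‖fderiv ℝ Rend (zet y)‖ * ‖fderiv ℝ zet y‖ := ContinuousLinearMap.opNorm_comp_le _ _
      _ ≤ (C1 * √(nrm (Rend (zet y)))) * C2 := by gcongr
      _ = _ := by ring
  · obtain ⟨C, hC, hb⟩ := local_fderiv_bound (contDiff_F1.contDiffAt (x := x))
    refine ⟨C, hC, ?_⟩
    have h1 : ∀ᶠ y in 𝓝 x, 1 / 2 < Complex.normSq y :=
      continuous_normSq'.continuousAt.eventually (lt_mem_nhds (by linarith))
    filter_upwards [hb, h1] with y h2 h3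
    have hy : y ≠ 0 := by rintro rfl; simp at h3; norm_num at h3
    rw [F1_far h3.le, nrm_Ffar hy]
    have : 1 ≤ √(pw (3 / 8)) := Real.one_le_sqrt.2 (by rw [one_le_pw]; norm_num)
    nlinarith

theorem contDiffAt_mo {z : V} (hz : z ≠ 0) : ContDiffAt ℝ 1 (fun z => mo z • z.1) z := by
  unfold mo
  have h1 : ContDiffAt ℝ 1 (fun z => ph z * st (16 * ph z)) z :=
    (contDiffAt_ph hz).mul ((contDiff_st (n := 1)).contDiffAt.comp z (contDiffAt_const.mul (contDiffAt_ph hz)))
  exact (contDiff_pw.contDiffAt.comp z h1).smul contDiffAt_fst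

theorem Fo_ev_Rend {z : V} (hz : z ≠ 0) (h : 1 / 16 < ph z) : Fo =ᶠ[𝓝 z] Rend := by
  have h1 : ∀ᶠ y in 𝓝 z, 1 / 16 < ph y := (contDiffAt_ph (n := 0) hz).continuousAt.eventually (lt_mem_nhds h)
  have h2 : ∀ᶠ y in 𝓝 z, y ≠ 0 := isOpen_ne.mem_nhds hz
  filter_upwards [h1, h2] with y h1 h2
  exact Fo_Rend h2 h1.le
theorem Fo_ev_F1 {z : V} (hz : z ≠ 0) (h : ph z < 1 / 8) : Fo =ᶠ[𝓝 z] fun z => F1 (mo z • z.1) := by
  have h1 : ∀ᶠ y in 𝓝 z, ph y < 1 / 8 := (contDiffAt_ph (n := 0) hz).continuousAt.eventually (gt_mem_nhds h)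
  have h2 : ∀ᶠ y in 𝓝 z, y ≠ 0 := isOpen_ne.mem_nhds hz
  filter_upwards [h1, h2] with y h1 h2
  exact Fo_F1 h2 h1

theorem contDiffAt_Fo {z : V} (hz : z ≠ 0) : ContDiffAt ℝ 1 Fo z := by
  rcases lt_or_ge (1 / 16) (ph z) with h | h
  · exact (contDiffAt_Rend hz).congr_of_eventuallyEq (Fo_ev_Rend hz h)
  · refine ContDiffAt.congr_of_eventuallyEq ?_ (Fo_ev_F1 hz (by linarith))
    exact contDiff_F1.contDiffAt.comp z (contDiffAt_mo hz)

theorem Fo_local_bound {z : V} (hz : z ≠ 0) :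
    ∃ C : ℝ, ∀ᶠ z' in 𝓝 z, ‖fderiv ℝ Fo z'‖ ≤ C * √(nrm (Fo z')) := by
  have hne : ∀ᶠ y in 𝓝 z, y ≠ 0 := isOpen_ne.mem_nhds hz
  rcases lt_or_ge (1 / 16) (ph z) with h | h
  · obtain ⟨C, hC, hb⟩ := Rend_local_bound hz
    refine ⟨C, ?_⟩
    have h1 : ∀ᶠ y in 𝓝 z, 1 / 16 < ph y := (contDiffAt_ph (n := 0) hz).continuousAt.eventually (lt_mem_nhds h)
    filter_upwards [hb, h1, hne] with y h2 h3 h4
    have e := Fo_ev_Rend h4 h3
    rw [e.fderiv_eq, e.self_of_nhds]; exact h2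
  · obtain ⟨C1, hC1, hb1⟩ := F1_local_bound (mo z • z.1)
    obtain ⟨C2, hC2, hb2⟩ := local_fderiv_bound (contDiffAt_mo hz)
    refine ⟨C1 * C2, ?_⟩
    have h1 : ∀ᶠ y in 𝓝 z, ph y < 1 / 8 :=
      (contDiffAt_ph (n := 0) hz).continuousAt.eventually (gt_mem_nhds (by linarith))
    have hc : ContinuousAt (fun z => mo z • z.1) z := (contDiffAt_mo hz).continuousAt
    filter_upwards [hc.eventually hb1, hb2, h1, hne] with y h1 h2 h3 h4
    have e := Fo_ev_F1 h4 h3
    rw [e.fderiv_eq, e.self_of_nhds]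
    have d1 : DifferentiableAt ℝ (fun z => mo z • z.1) y := (contDiffAt_mo h4).differentiableAt (by norm_num)
    have d2 : DifferentiableAt ℝ F1 (mo y • y.1) := contDiff_F1.contDiffAt.differentiableAt (by norm_num)
    have e2 : fderiv ℝ (fun z => F1 (mo z • z.1)) y = (fderiv ℝ F1 (mo y • y.1)).comp (fderiv ℝ (fun z => mo z • z.1) y) :=
      fderiv_comp (g := F1) y d2 d1
    rw [e2]
    have := Real.sqrt_nonneg (nrm (F1 (mo y • y.1)))
    calc _ ≤ ‖fderiv ℝ F1 (mo y • y.1)‖ * ‖fderiv ℝ (fun z => mo z • z.1) y‖ := ContinuousLinearMap.opNorm_comp_le _ _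
      _ ≤ (C1 * √(nrm (F1 (mo y • y.1)))) * C2 := by gcongr
      _ = _ := by ring

/-! ### the remaining properties -/

theorem Ffar_eq_J {x : ℂ} (hx : x ≠ 0) : ∃ w : ℂ, Ffar x = J w := by
  refine ⟨(Ffar x).1, ?_⟩
  have h0 : (Ffar x).1 ≠ 0 := by
    intro h
    have h1 : Ffar x = 0 := Prod.ext h rfl
    have := nrm_Ffar hx
    rw [h1, nrm_zero] at this
    exact absurd this.symm (pw_ne_zero _)
  have hn : ‖(Ffar x).1‖ = pw (3 / 8) := by
    have := nrm_Ffar hx
    unfold nrm nsq at this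
    have h2 : (Ffar x).2 = 0 := rfl
    rw [h2, map_zero, add_zero, ← Complex.sq_norm, Real.sqrt_sq (norm_nonneg _)] at this
    exact this
  have hph : phc (Ffar x).1 = -(3 / 8) := phc_eq h0 (by rw [hn]; norm_num)
  rw [J_of_le (by rw [hph]; norm_num)]; rfl

theorem F1_eq_J (x : ℂ) : ∃ w : ℂ, F1 x = J w := by
  unfold F1
  split_ifs with h
  · exact ⟨_, rfl⟩
  · push Not at h
    exact Ffar_eq_J (by rintro rfl; simp at h; norm_num at h)

theorem Fo_eq_J (z : V) : ∃ w : ℂ, Fo z = J w := by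
  unfold Fo
  split_ifs
  · exact ⟨_, rfl⟩
  · exact F1_eq_J _

theorem nrm_F1_le (x : ℂ) : nrm (F1 x) ≤ pw (3 / 8) := by
  unfold F1
  split_ifs with h
  · refine (nrm_Rend_le _).trans ?_
    rw [ph_zet (by linarith), th_low (by norm_num)]; norm_num
  · push Not at h
    exact (nrm_Ffar (by rintro rfl; simp at h; norm_num at h)).le

theorem Fo_nrm {z : V} (hz : z ≠ 0) (h : ph z < 9 / 8) : nrm (Fo z) ≤ 16 * nrm z := by
  have hn : 16 * nrm z = pw (1 - ph z) := by
    rw [nrm_eq_pw hz, ← pw_one, ← pw_add]; congr 1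
  rw [hn]
  unfold Fo
  split_ifs with h1
  · refine (nrm_Rend_le _).trans ?_
    rw [pw_le_pw]; have := le_th (E := ph z) (by linarith); linarith
  · push Not at h1
    refine (nrm_F1_le _).trans ?_
    rw [pw_le_pw]; linarith

theorem ne_of_pw_lt {z : V} {x : ℝ} (h : pw x < nrm z) : z ≠ 0 := by
  rw [← nrm_pos_iff]; exact (pw_pos x).trans h
theorem ph_lt_of_pw_lt {z : V} {x : ℝ} (h : pw (-x) < nrm z) : ph z < x := by
  have hz := ne_of_pw_lt h
  rw [nrm_eq_pw hz, pw_lt_pw] at h; linarith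
theorem ph_nonpos {z : V} (h : 1 ≤ nrm z) : ph z ≤ 0 := by
  have hz : z ≠ 0 := by rw [← nrm_pos_iff]; linarith
  rw [nrm_eq_pw hz, one_le_pw] at h; linarith

theorem Fo_tel {z : V} (hz : z ∈ TelS) (h : 1 / 16 < nrm z) :
    (Fo z ∈ TelS ∧ lev (Fo z) = 0 ∧ lev z = 1) ∨ (1 < ‖(Fo z).1‖ ∧ (Fo z).2 = 0) := by
  obtain ⟨hz0, hph, hS⟩ := hz
  have hph1 : ph z < 1 := by
    rw [nrm_eq_pw hz0, one_div, ← pw_one, ← pw_neg, pw_lt_pw] at h; linarith
  have hSh := Shape_of_Shp hph hph1 hS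
  obtain ⟨u, x, y, hu, hx, hy, hxy, e, hx0, hy0⟩ := hSh
  obtain ⟨ha, hc, γ, hγ, hG, hγ1⟩ := Gf_shape hz0 hu hx hy hxy e hx0 hy0
  have hnG : Complex.normSq (Gf z) = γ ^ 2 := by
    rw [hG, normSq_smul', map_pow, Complex.normSq_eq_norm_sq, hu]; simp
  rcases lt_or_ge (3 / 32) (ph z) with h1 | h1
  · have hF : Fo z = J (w0 z) := by unfold Fo; rw [if_pos h1]; rfl
    have hnw : ‖w0 z‖ = pw (1 - th (ph z)) := by
      rw [norm_w0, hnG, yy_one (by nlinarith)]; simp
    have hw0 : w0 z ≠ 0 := by rw [← norm_ne_zero_iff, hnw]; exact pw_ne_zero _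
    have hphc : phc (w0 z) = th (ph z) - 1 := phc_eq hw0 (by rw [hnw]; congr 1; ring)
    rcases lt_or_ge (th (ph z)) 1 with h2 | h2
    · right
      rw [hF, J_of_le (by rw [hphc]; linarith)]
      refine ⟨?_, rfl⟩
      show 1 < ‖w0 z‖
      rw [hnw]
      have := pw_lt_pw.2 (by linarith : (0 : ℝ) < 1 - th (ph z))
      rwa [pw_zero] at this
    · left
      have hE34 : 3 / 4 < ph z := by
        by_contra hc'
        push Not at hc'
        have : th (ph z) ≤ 3 / 4 := by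
          rw [th_midlow hc']
          rcases le_total (ph z) (5/8) with h | h
          · have := mul_le_mul_of_nonneg_right (alp_le_one (ph z)) (by linarith : (0:ℝ) ≤ 5 / 8 - ph z)
            linarith
          · rw [alp_zero h]; linarith
        linarith
      have hth := th_le (ph z)
      rw [hF]
      refine ⟨⟨J_ne_zero hw0, by rw [ph_J hw0, hphc]; linarith, Shp_J hw0 (by rw [hphc]; linarith)⟩, ?_, ?_⟩
      · unfold lev
        rw [ph_J hw0, hphc, Int.floor_eq_iff]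
        constructor <;> push_cast <;> linarith
      · unfold lev
        rw [Int.floor_eq_iff]
        constructor <;> push_cast <;> linarith
  · right
    have hyz := hy0 (by linarith)
    have hx1 : x = 1 := by rw [hyz] at hxy; nlinarith
    have hF : Fo z = F1 (mo z • z.1) := by unfold Fo; rw [if_neg (by linarith)]
    have hz1 : z.1 = nrm z • u := by
      have := congrArg Prod.fst e
      rw [hx1] at this; simpa using this
    have hns : Complex.normSq (mo z • z.1) = (mo z * nrm z) ^ 2 := by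
      rw [hz1, smul_smul, normSq_smul', Complex.normSq_eq_norm_sq, hu]; ring
    have hge : 1 / 2 ≤ Complex.normSq (mo z • z.1) := by
      rw [hns]
      have h3 : pw (-(1 / 8)) ≤ mo z * nrm z := by
        unfold mo
        rw [nrm_eq_pw hz0, ← pw_add, pw_le_pw]
        have := mul_nonneg hph (st_nonneg (16 * ph z))
        linarith
      have h4 : pw (-(1 / 8)) ^ 2 = 1 / 2 := by
        rw [← pw_mul_nat]
        have : ((2 : ℕ) : ℝ) * (-(1 / 8)) = -(1 / 4) := by norm_num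
        rw [this, pw_neg, pw_quarter]; norm_num
      rw [← h4]
      exact pow_le_pow_left₀ (pw_pos _).le h3 2
    have hx0' : mo z • z.1 ≠ 0 := by
      intro h0; rw [h0] at hge; simp at hge; norm_num at hge
    rw [hF, F1_far hge]
    refine ⟨?_, rfl⟩
    have := nrm_Ffar hx0'
    unfold nrm nsq at this
    have h2 : (Ffar (mo z • z.1)).2 = 0 := rfl
    rw [h2, map_zero, add_zero, ← Complex.sq_norm, Real.sqrt_sq (norm_nonneg _)] at this
    rw [this, ← pw_zero, pw_lt_pw]; norm_num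

theorem exists_shellData : Nonempty ShellData := by
  obtain ⟨C, hC, hb1, hb2⟩ := RR_bound
  exact ⟨{
    R := RR
    Fo := Fo
    Tel := TelS
    C := C
    R_contDiffOn := fun p hp => (RR_contDiffAt hp p.1).contDiffWithinAt
    R_zero := fun z hz => RR_zero hz
    R_nrm := fun χ _ z hz => RR_nrm hz
    R_dz := hb1
    R_dχ := hb2
    Tel_ne := fun z hz => hz.1
    Tel_nrm := fun z hz => by rw [nrm_eq_pw hz.1, pw_le_one]; linarith [hz.2.1]
    R_tel := fun χ _ z hz hn => RR_tel hz hn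
    R_four := fun z hz hn => RR_four hz hn
    Fo_contDiffOn := fun z hz => (contDiffAt_Fo (ne_of_pw_lt hz)).contDiffWithinAt
    Fo_bound := fun z hz => Fo_local_bound (ne_of_pw_lt hz)
    Fo_nrm := fun z hz => Fo_nrm (ne_of_pw_lt hz) (ph_lt_of_pw_lt hz)
    Fo_eq := fun z h1 h2 => by
      have hz := ne_of_pw_lt h1
      have hp := ph_lt_of_pw_lt h1
      have hp2 : 7 / 8 < ph z := by rw [nrm_eq_pw hz, pw_lt_pw] at h2; linarith
      rw [Fo_Rend hz (by linarith), RR_formula hz 0 (by push_cast; linarith) (by push_cast; linarith),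
        sgz_zero, neg_zero, sgz_zero, R0_four le_rfl]
    Fo_outer := fun z z' h1 h2 h3 => by
      have p1 := ph_nonpos h1
      have p2 := ph_nonpos h2
      unfold Fo
      rw [if_neg (by linarith), if_neg (by linarith), mo_one p1, mo_one p2, one_smul, one_smul, h3]
    Fo_far := fun z h1 h2 => by
      have p1 := ph_nonpos h1
      unfold Fo
      rw [if_neg (by linarith), mo_one p1, one_smul, F1_far h2]
      rfl
    Fo_range := fun z _ => by
      obtain ⟨w, hw⟩ := Fo_eq_J z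
      rw [hw]; exact J_range w
    Fo_tel := fun z hz h => Fo_tel hz h }⟩

end

end Crest.Agent.S0163
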