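/-
S0163 (row 123), package D: preliminaries (removable singularity lemma for `C¹`, `pw`, `nrm`, `ph`,
derivative bounds).
-/
import Crest.Agent.S0163_Defs

set_option autoImplicit false

open Real Set Filter Topology
open scoped Manifold ContDiff

namespace Crest.Agent.S0163

noncomputable section

namespace D

/-! ### L1: a removable singularity lemma for `C¹` -/

theorem contDiff_of {P W : Type*} [NormedAddCommGroup P] [NormedSpace ℝ P]
    [NormedAddCommGroup W] [NormedSpace ℝ W] (G : P → W) (U : Set P) (hU : IsOpen U)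
    (hc : Continuous G) (hd : ∀ p ∈ U, ContDiffAt ℝ 1 G p) (h0 : ∀ p ∉ U, G p = 0)
    (hlim : ∀ p₀ ∉ U, ∀ ε > 0, ∀ᶠ p in 𝓝 p₀, p ∈ U → ‖fderiv ℝ G p‖ ≤ ε) :
    ContDiff ℝ 1 G := by
  have hder : ∀ p₀ ∉ U, HasFDerivAt G (0 : P →L[ℝ] W) p₀ := by
    intro p₀ hp₀
    rw [hasFDerivAt_iff_isLittleO_nhds_zero, Asymptotics.isLittleO_iff]
    intro ε hε
    obtain ⟨r, hr, hball⟩ := Metric.eventually_nhds_iff_ball.1 (hlim p₀ hp₀ ε hε)
    filter_upwards [Metric.ball_mem_nhds (0 : P) hr] with v hv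
    rw [mem_ball_zero_iff] at hv
    rw [h0 p₀ hp₀, sub_zero, ContinuousLinearMap.zero_apply, sub_zero]
    set p : P := p₀ + v with hp
    by_cases hpU : p ∈ U
    swap
    · rw [h0 p hpU, norm_zero]; positivity
    -- first exit along the segment from `p` to `p₀`
    set γ : ℝ → P := fun t => p - t • v with hγ
    have hγc : Continuous γ := by fun_prop
    set A : Set ℝ := Icc 0 1 ∩ γ ⁻¹' Uᶜ with hA
    have hAc : IsClosed A := isClosed_Icc.inter (hU.isClosed_compl.preimage hγc)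
    have hA1 : (1 : ℝ) ∈ A := by
      refine ⟨⟨zero_le_one, le_rfl⟩, ?_⟩
      show γ 1 ∉ U
      simp only [hγ, hp, one_smul, add_sub_cancel_right]
      exact hp₀
    have hAb : BddBelow A := ⟨0, fun t ht => ht.1.1⟩
    set τ : ℝ := sInf A with hτ
    have hτA : τ ∈ A := hAc.csInf_mem ⟨1, hA1⟩ hAb
    have hτ0 : 0 ≤ τ := hτA.1.1
    have hτ1 : τ ≤ 1 := hτA.1.2
    have hin : ∀ t ∈ Ico 0 τ, γ t ∈ U := by
      intro t ht
      by_contra hnot
      have : t ∈ A := ⟨⟨ht.1, ht.2.le.trans hτ1⟩, hnot⟩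
      exact absurd (csInf_le hAb this) (not_le.2 ht.2)
    have hnear : ∀ t ∈ Icc (0 : ℝ) 1, γ t ∈ Metric.ball p₀ r := by
      intro t ht
      rw [Metric.mem_ball, dist_eq_norm]
      have : γ t - p₀ = (1 - t) • v := by
        simp only [hγ, hp, sub_smul, one_smul]; abel
      rw [this, norm_smul, Real.norm_eq_abs, abs_of_nonneg (by linarith [ht.2])]
      calc (1 - t) * ‖v‖ ≤ 1 * ‖v‖ :=
            mul_le_mul_of_nonneg_right (by linarith [ht.1]) (norm_nonneg _)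
        _ < r := by rw [one_mul]; exact hv
    have hmv := norm_image_sub_le_of_norm_deriv_right_le_segment
      (f := fun t => G (γ t)) (f' := fun t => fderiv ℝ G (γ t) (-v)) (C := ε * ‖v‖)
      (a := 0) (b := τ) (hc.comp hγc).continuousOn
      (by
        intro t ht
        have h1 : HasFDerivAt G (fderiv ℝ G (γ t)) (γ t) :=
          ((hd _ (hin t ht)).differentiableAt (by norm_num)).hasFDerivAt
        have h2 : HasDerivAt γ (-v) t := by
          have := ((hasDerivAt_id t).smul_const v).const_sub p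
          simpa [hγ] using this
        exact (h1.comp_hasDerivAt t h2).hasDerivWithinAt)
      (by
        intro t ht
        have h1 := hball (γ t) (hnear t ⟨ht.1, ht.2.le.trans hτ1⟩) (hin t ht)
        calc ‖fderiv ℝ G (γ t) (-v)‖ ≤ ‖fderiv ℝ G (γ t)‖ * ‖-v‖ :=
              ContinuousLinearMap.le_opNorm _ _
          _ ≤ ε * ‖v‖ := by
              rw [norm_neg]
              exact mul_le_mul_of_nonneg_right h1 (norm_nonneg _))
      τ ⟨hτ0, le_rfl⟩
    have hGτ : G (γ τ) = 0 := h0 _ hτA.2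
    have hγ0 : γ 0 = p := by simp [hγ]
    rw [hGτ, hγ0, zero_sub, norm_neg, sub_zero] at hmv
    calc ‖G p‖ ≤ ε * ‖v‖ * τ := hmv
      _ ≤ ε * ‖v‖ * 1 := mul_le_mul_of_nonneg_left hτ1 (by positivity)
      _ = ε * ‖v‖ := mul_one _
  rw [contDiff_one_iff_fderiv]
  refine ⟨?_, ?_⟩
  · intro p
    by_cases hp : p ∈ U
    · exact (hd p hp).differentiableAt (by norm_num)
    · exact (hder p hp).differentiableAt
  · rw [continuous_iff_continuousAt]
    intro p
    by_cases hp : p ∈ U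
    · exact (hd p hp).continuousAt_fderiv (by norm_num)
    · have hz : fderiv ℝ G p = 0 := (hder p hp).fderiv
      rw [ContinuousAt, hz, Metric.tendsto_nhds]
      intro ε hε
      filter_upwards [hlim p hp (ε / 2) (by positivity)] with q hq
      rw [dist_zero_right]
      by_cases hqU : q ∈ U
      · have := hq hqU; linarith
      · rw [(hder q hqU).fderiv, norm_zero]; exact hε

/-! ### basics on `pw`, `nsq`, `nrm`, `ph` -/

theorem L_pos : 0 < Real.log 16 := Real.log_pos (by norm_num)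

theorem pw_pos (x : ℝ) : 0 < pw x := Real.exp_pos _

theorem pw_add (x y : ℝ) : pw (x + y) = pw x * pw y := by
  unfold pw; rw [add_mul, Real.exp_add]

theorem pw_zero : pw 0 = 1 := by unfold pw; rw [zero_mul, Real.exp_zero]

theorem pw_one : pw 1 = 16 := by unfold pw; rw [one_mul, Real.exp_log (by norm_num)]

theorem pw_neg (x : ℝ) : pw (-x) = (pw x)⁻¹ := by unfold pw; rw [neg_mul, Real.exp_neg]

theorem pw_neg_one : pw (-1) = 1 / 16 := by rw [pw_neg, pw_one]; norm_num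

theorem pw_le {x y : ℝ} (h : x ≤ y) : pw x ≤ pw y :=
  Real.exp_le_exp.2 (mul_le_mul_of_nonneg_right h L_pos.le)

theorem pw_lt {x y : ℝ} (h : x < y) : pw x < pw y :=
  Real.exp_lt_exp.2 (mul_lt_mul_of_pos_right h L_pos)

theorem pw_lt_iff {x y : ℝ} : pw x < pw y ↔ x < y :=
  ⟨fun h => by by_contra hh; exact absurd (pw_le (not_lt.1 hh)) (not_le.2 h), pw_lt⟩

theorem pw_le_iff {x y : ℝ} : pw x ≤ pw y ↔ x ≤ y :=
  ⟨fun h => by by_contra hh; exact absurd (pw_lt (not_le.1 hh)) (not_lt.2 h), pw_le⟩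

theorem pw_contDiff {n : WithTop ℕ∞} : ContDiff ℝ n pw := by
  unfold pw; exact (contDiff_id.mul contDiff_const).exp

theorem pw_hasDerivAt (x : ℝ) : HasDerivAt pw (Real.log 16 * pw x) x := by
  unfold pw
  have := ((hasDerivAt_id x).mul_const (Real.log 16)).exp
  refine this.congr_deriv ?_
  simp; ring

theorem pw_continuous : Continuous pw := pw_contDiff (n := 0).continuous

theorem tendsto_pw_atBot : Tendsto pw atBot (𝓝 0) := by
  unfold pw
  exact Real.tendsto_exp_atBot.comp (tendsto_id.atBot_mul_const L_pos)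

theorem sqrt_pw (x : ℝ) : √(pw x) = pw (x / 2) := by
  rw [Real.sqrt_eq_iff_mul_self_eq_of_pos (pw_pos _), ← pw_add]; congr 1; ring

theorem pw_div (x y : ℝ) : pw x / pw y = pw (x - y) := by
  rw [sub_eq_add_neg, pw_add, pw_neg, div_eq_mul_inv]

theorem nsq_eq (z : V) : nsq z = z.1.re ^ 2 + z.1.im ^ 2 + z.2.re ^ 2 + z.2.im ^ 2 := by
  unfold nsq; rw [Complex.normSq_apply, Complex.normSq_apply]; ring

theorem nsq_eq' (z : V) : nsq z = ‖z.1‖ ^ 2 + ‖z.2‖ ^ 2 := by
  unfold nsq; rw [Complex.normSq_eq_norm_sq, Complex.normSq_eq_norm_sq]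

theorem nsq_nonneg (z : V) : 0 ≤ nsq z := by rw [nsq_eq']; positivity

theorem nsq_eq_zero {z : V} : nsq z = 0 ↔ z = 0 := by
  constructor
  · intro h
    rw [nsq_eq'] at h
    have h1 : ‖z.1‖ = 0 := by nlinarith [sq_nonneg ‖z.1‖, sq_nonneg ‖z.2‖, norm_nonneg z.1]
    have h2 : ‖z.2‖ = 0 := by nlinarith [sq_nonneg ‖z.1‖, sq_nonneg ‖z.2‖, norm_nonneg z.2]
    exact Prod.ext (norm_eq_zero.1 h1) (norm_eq_zero.1 h2)
  · rintro rfl
    simp [nsq]

theorem nsq_pos {z : V} (hz : z ≠ 0) : 0 < nsq z :=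
  lt_of_le_of_ne (nsq_nonneg z) (fun h => hz (nsq_eq_zero.1 h.symm))

theorem nrm_nonneg (z : V) : 0 ≤ nrm z := Real.sqrt_nonneg _

theorem nrm_pos {z : V} (hz : z ≠ 0) : 0 < nrm z := Real.sqrt_pos.2 (nsq_pos hz)

theorem nrm_zero : nrm 0 = 0 := by simp [nrm, nsq]

theorem nrm_eq_zero {z : V} : nrm z = 0 ↔ z = 0 := by
  constructor
  · intro h; by_contra hz; exact absurd h (nrm_pos hz).ne'
  · rintro rfl; exact nrm_zero

theorem nsq_smul (c : ℝ) (z : V) : nsq (c • z) = c ^ 2 * nsq z := by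
  rw [nsq_eq', nsq_eq', Prod.smul_fst, Prod.smul_snd, norm_smul, norm_smul, Real.norm_eq_abs,
    mul_pow, mul_pow, sq_abs]; ring

theorem nrm_smul (c : ℝ) (hc : 0 ≤ c) (z : V) : nrm (c • z) = c * nrm z := by
  unfold nrm; rw [nsq_smul, Real.sqrt_mul (sq_nonneg _), Real.sqrt_sq hc]

theorem norm_le_nrm (z : V) : ‖z‖ ≤ nrm z := by
  rw [Prod.norm_def]
  refine max_le ?_ ?_ <;>
  · refine Real.le_sqrt_of_sq_le ?_
    rw [nsq_eq']; nlinarith [sq_nonneg ‖z.1‖, sq_nonneg ‖z.2‖]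

theorem nrm_le (z : V) : nrm z ≤ 2 * ‖z‖ := by
  unfold nrm
  rw [Real.sqrt_le_left (by positivity), nsq_eq']
  have h1 : ‖z.1‖ ≤ ‖z‖ := norm_fst_le z
  have h2 : ‖z.2‖ ≤ ‖z‖ := norm_snd_le z
  nlinarith [norm_nonneg z.1, norm_nonneg z.2]

theorem nsq_contDiff {n : WithTop ℕ∞} : ContDiff ℝ n nsq := by
  have : nsq = fun z : V => z.1.re ^ 2 + z.1.im ^ 2 + z.2.re ^ 2 + z.2.im ^ 2 := by
    funext z; exact nsq_eq z
  rw [this]
  have h1 : ContDiff ℝ n (fun z : V => z.1.re) := Complex.reCLM.contDiff.comp contDiff_fst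
  have h2 : ContDiff ℝ n (fun z : V => z.1.im) := Complex.imCLM.contDiff.comp contDiff_fst
  have h3 : ContDiff ℝ n (fun z : V => z.2.re) := Complex.reCLM.contDiff.comp contDiff_snd
  have h4 : ContDiff ℝ n (fun z : V => z.2.im) := Complex.imCLM.contDiff.comp contDiff_snd
  exact (((h1.pow 2).add (h2.pow 2)).add (h3.pow 2)).add (h4.pow 2)

theorem nsq_continuous : Continuous nsq := nsq_contDiff (n := 0).continuous

theorem nrm_continuous : Continuous nrm := nsq_continuous.sqrt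

theorem nrm_eq_pw {z : V} (hz : z ≠ 0) : nrm z = pw (-ph z) := by
  have h := nsq_pos hz
  unfold nrm pw ph
  have : -(-Real.log (nsq z) / (2 * Real.log 16)) * Real.log 16 = Real.log (nsq z) / 2 := by
    have := L_pos.ne'
    field_simp
  rw [this, Real.exp_half, Real.exp_log h]

theorem pw_inj {x y : ℝ} (h : pw x = pw y) : x = y :=
  le_antisymm (pw_le_iff.1 h.le) (pw_le_iff.1 h.ge)

theorem ph_eq_of {z : V} (hz : z ≠ 0) {x : ℝ} (h : nrm z = pw (-x)) : ph z = x := by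
  rw [nrm_eq_pw hz] at h; linarith [pw_inj h]

theorem pw_smul_ne {z : V} (hz : z ≠ 0) (a : ℝ) : pw a • z ≠ 0 :=
  smul_ne_zero (pw_pos a).ne' hz

theorem ph_smul {z : V} (hz : z ≠ 0) (a : ℝ) : ph (pw a • z) = ph z - a := by
  refine ph_eq_of (pw_smul_ne hz a) ?_
  rw [nrm_smul _ (pw_pos a).le, nrm_eq_pw hz, ← pw_add]; congr 1; ring

theorem ph_contDiffAt {z : V} (hz : z ≠ 0) {n : WithTop ℕ∞} : ContDiffAt ℝ n ph z := by
  unfold ph
  exact ((nsq_contDiff.contDiffAt.log (nsq_pos hz).ne').neg).div_const _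

/-- bound of the derivative of the phase -/
theorem ph_fderiv {z : V} (hz : z ≠ 0) (v : V) : |fderiv ℝ ph z v| ≤ 1 / nrm z * ‖v‖ := by
  have hd : HasDerivAt (fun t : ℝ => ph (z + t • v)) (fderiv ℝ ph z v) 0 := by
    have h1 : HasFDerivAt ph (fderiv ℝ ph z) (z + (0 : ℝ) • v) := by
      rw [zero_smul, add_zero]
      exact ((ph_contDiffAt hz (n := 1)).differentiableAt (by norm_num)).hasFDerivAt
    have h2 : HasDerivAt (fun t : ℝ => z + t • v) v 0 := by
      have := ((hasDerivAt_id (0 : ℝ)).smul_const v).const_add z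
      simpa using this
    exact h1.comp_hasDerivAt 0 h2
  set B : ℝ := 2 * (z.1.re * v.1.re + z.1.im * v.1.im + z.2.re * v.2.re + z.2.im * v.2.im) with hB
  have hq : ∀ t : ℝ, nsq (z + t • v) = nsq z + B * t + nsq v * t ^ 2 := by
    intro t
    rw [nsq_eq, nsq_eq, nsq_eq]
    simp only [Prod.fst_add, Prod.snd_add, Prod.smul_fst, Prod.smul_snd, Complex.add_re,
      Complex.add_im, Complex.real_smul, Complex.mul_re, Complex.mul_im, Complex.ofReal_re,
      Complex.ofReal_im]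
    rw [hB]; ring
  have hz0 := nsq_pos hz
  have hd2 : HasDerivAt (fun t : ℝ => ph (z + t • v)) (-(B / nsq z) / (2 * Real.log 16)) 0 := by
    unfold ph
    simp only [hq]
    have h1 : HasDerivAt (fun t : ℝ => nsq z + B * t + nsq v * t ^ 2) B 0 := by
      have := ((hasDerivAt_id (0:ℝ)).const_mul B).const_add (nsq z) |>.add
        (((hasDerivAt_id (0:ℝ)).pow 2).const_mul (nsq v))
      refine this.congr_deriv ?_
      simp
    have h2 := (h1.log (by simp; exact hz0.ne')).neg.div_const (2 * Real.log 16)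
    refine h2.congr_deriv ?_
    simp
  rw [hd.unique hd2]
  have hBv : |B| ≤ 4 * nrm z * ‖v‖ := by
    have hcs : B ^ 2 ≤ 4 * (nsq z * nsq v) := by
      rw [hB, nsq_eq, nsq_eq]
      nlinarith [sq_nonneg (z.1.re * v.1.im - z.1.im * v.1.re),
        sq_nonneg (z.1.re * v.2.re - z.2.re * v.1.re), sq_nonneg (z.1.re * v.2.im - z.2.im * v.1.re),
        sq_nonneg (z.1.im * v.2.re - z.2.re * v.1.im), sq_nonneg (z.1.im * v.2.im - z.2.im * v.1.im),
        sq_nonneg (z.2.re * v.2.im - z.2.im * v.2.re)]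
    have h1 : nsq z = nrm z ^ 2 := (Real.sq_sqrt (nsq_nonneg z)).symm
    have h2 : nsq v = nrm v ^ 2 := (Real.sq_sqrt (nsq_nonneg v)).symm
    have h3 : |B| ≤ 2 * nrm z * nrm v := by
      apply abs_le_of_sq_le_sq _ (by have := nrm_nonneg z; have := nrm_nonneg v; positivity)
      rw [h1, h2] at hcs
      nlinarith
    calc |B| ≤ 2 * nrm z * nrm v := h3
      _ ≤ 2 * nrm z * (2 * ‖v‖) := mul_le_mul_of_nonneg_left (nrm_le v) (by have := nrm_nonneg z; positivity)
      _ = 4 * nrm z * ‖v‖ := by ring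
  have hL : 2 ≤ Real.log 16 := by
    have h1 : Real.exp 2 ≤ 16 := by
      have := Real.exp_one_lt_d9
      have h2 : Real.exp 2 = Real.exp 1 * Real.exp 1 := by rw [← Real.exp_add]; norm_num
      rw [h2]; nlinarith [Real.exp_pos 1]
    rw [Real.le_log_iff_exp_le (by norm_num)]; exact h1
  rw [abs_div, abs_neg, abs_div, abs_of_pos hz0, abs_of_pos (by positivity : 0 < 2 * Real.log 16)]
  have hn := nrm_pos hz
  have h1 : nsq z = nrm z ^ 2 := (Real.sq_sqrt (nsq_nonneg z)).symm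
  rw [h1, div_div, div_le_iff₀ (by positivity)]
  have : 1 / nrm z * ‖v‖ * (nrm z ^ 2 * (2 * Real.log 16)) = 2 * Real.log 16 * nrm z * ‖v‖ := by
    field_simp
  rw [this]
  calc |B| ≤ 4 * nrm z * ‖v‖ := hBv
    _ = 4 * (nrm z * ‖v‖) := by ring
    _ ≤ 2 * Real.log 16 * (nrm z * ‖v‖) :=
        mul_le_mul_of_nonneg_right (by linarith) (by positivity)
    _ = _ := by ring

/-- the phase tends to infinity at `0` -/
theorem ph_large (E : ℝ) : ∀ᶠ z : V in 𝓝 0, z ≠ 0 → E < ph z := by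
  have h := nrm_continuous.tendsto 0
  rw [nrm_zero] at h
  filter_upwards [h.eventually (gt_mem_nhds (pw_pos (-E)))] with z hz hz0
  rw [nrm_eq_pw hz0, pw_lt_iff] at hz
  linarith


/-! ### derivative bounds -/

section Bd
variable {W W' : Type*} [NormedAddCommGroup W] [NormedSpace ℝ W]
  [NormedAddCommGroup W'] [NormedSpace ℝ W']

/-- partial derivatives -/
theorem fderiv_pair {A B : Type*} [NormedAddCommGroup A] [NormedSpace ℝ A]
    [NormedAddCommGroup B] [NormedSpace ℝ B] {F : A × B → W} {p : A × B}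
    (hF : DifferentiableAt ℝ F p) (u : A) (v : B) :
    fderiv ℝ F p (u, v) = fderiv ℝ (fun a => F (a, p.2)) p.1 u
      + fderiv ℝ (fun b => F (p.1, b)) p.2 v := by
  have h1 : HasFDerivAt (fun a => F (a, p.2))
      ((fderiv ℝ F p).comp (ContinuousLinearMap.inl ℝ A B)) p.1 := by
    have hF' : HasFDerivAt F (fderiv ℝ F p) (p.1, p.2) := hF.hasFDerivAt
    exact hF'.comp p.1 ((hasFDerivAt_prodMk_left p.1 p.2))
  have h2 : HasFDerivAt (fun b => F (p.1, b))
      ((fderiv ℝ F p).comp (ContinuousLinearMap.inr ℝ A B)) p.2 := by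
    have hF' : HasFDerivAt F (fderiv ℝ F p) (p.1, p.2) := hF.hasFDerivAt
    exact hF'.comp p.2 ((hasFDerivAt_prodMk_right p.1 p.2))
  rw [h1.fderiv, h2.fderiv, ContinuousLinearMap.comp_apply, ContinuousLinearMap.comp_apply,
    ← map_add]
  simp

theorem fderiv_real {F : ℝ → W} {x : ℝ} (r : ℝ) : fderiv ℝ F x r = r • deriv F x := by
  have := (fderiv ℝ F x).map_smul r 1
  rw [smul_eq_mul, mul_one] at this
  exact this

/-- `F` is `C¹` at `p`, with `‖DF(p)(v,s)‖ ≤ a‖v‖ + b|s|`. -/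
def Bd (F : V × ℝ → W) (p : V × ℝ) (a b : ℝ) : Prop :=
  ContDiffAt ℝ 1 F p ∧ ∀ v s, ‖fderiv ℝ F p (v, s)‖ ≤ a * ‖v‖ + b * |s|

theorem Bd.norm_le {F : V × ℝ → W} {p : V × ℝ} {a b : ℝ} (h : Bd F p a b) (ha : 0 ≤ a)
    (hb : 0 ≤ b) : ‖fderiv ℝ F p‖ ≤ a + b := by
  refine ContinuousLinearMap.opNorm_le_bound _ (by positivity) fun x => ?_
  obtain ⟨v, s⟩ := x
  refine (h.2 v s).trans ?_
  have h1 : ‖v‖ ≤ ‖(v, s)‖ := norm_fst_le (v, s)
  have h2 : |s| ≤ ‖(v, s)‖ := norm_snd_le (v, s)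
  rw [add_mul]
  exact add_le_add (mul_le_mul_of_nonneg_left h1 ha) (mul_le_mul_of_nonneg_left h2 hb)

theorem Bd.mono {F : V × ℝ → W} {p : V × ℝ} {a b a' b' : ℝ} (h : Bd F p a b) (ha : a ≤ a')
    (hb : b ≤ b') : Bd F p a' b' :=
  ⟨h.1, fun v s => (h.2 v s).trans (add_le_add (mul_le_mul_of_nonneg_right ha (norm_nonneg _))
    (mul_le_mul_of_nonneg_right hb (abs_nonneg _)))⟩

theorem Bd.congr {F K : V × ℝ → W} {p : V × ℝ} {a b : ℝ} (h : Bd F p a b) (hFK : F =ᶠ[𝓝 p] K) :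
    Bd K p a b := by
  refine ⟨h.1.congr_of_eventuallyEq hFK.symm, ?_⟩
  rw [← hFK.fderiv_eq]; exact h.2

theorem Bd.comp {F : V × ℝ → V} {K : V × ℝ → W} {p : V × ℝ} {c a b a' b' : ℝ}
    (hF : Bd F p a b) (hK : Bd K (F p, p.2 + c) a' b') (ha' : 0 ≤ a') :
    Bd (fun q => K (F q, q.2 + c)) p (a' * a) (a' * b + b') := by
  have hin : ContDiffAt ℝ 1 (fun q : V × ℝ => (F q, q.2 + c)) p :=
    hF.1.prodMk (contDiffAt_snd.add contDiffAt_const)
  refine ⟨ContDiffAt.comp p (g := K) hK.1 hin, fun v s => ?_⟩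
  have hdF : HasFDerivAt F (fderiv ℝ F p) p := (hF.1.differentiableAt (by norm_num)).hasFDerivAt
  have hdin : HasFDerivAt (fun q : V × ℝ => (F q, q.2 + c))
      ((fderiv ℝ F p).prod (ContinuousLinearMap.snd ℝ V ℝ)) p :=
    hdF.prodMk ((hasFDerivAt_snd).add_const c)
  have hdK : HasFDerivAt K (fderiv ℝ K (F p, p.2 + c)) (F p, p.2 + c) :=
    (hK.1.differentiableAt (by norm_num)).hasFDerivAt
  have hcomp : HasFDerivAt (fun q => K (F q, q.2 + c)) _ p := hdK.comp p hdin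
  rw [hcomp.fderiv]
  simp only [ContinuousLinearMap.comp_apply, ContinuousLinearMap.prod_apply,
    ContinuousLinearMap.coe_snd']
  calc ‖fderiv ℝ K (F p, p.2 + c) (fderiv ℝ F p (v, s), s)‖
      ≤ a' * ‖fderiv ℝ F p (v, s)‖ + b' * |s| := hK.2 _ _
    _ ≤ a' * (a * ‖v‖ + b * |s|) + b' * |s| := by
        have := mul_le_mul_of_nonneg_left (hF.2 v s) ha'; linarith
    _ = a' * a * ‖v‖ + (a' * b + b') * |s| := by ring

/-- `k(ph z, β)` -/
theorem Bd.ofPh {k : ℝ × ℝ → ℝ} {z : V} (hz : z ≠ 0) {β a b : ℝ}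
    (hk : ContDiffAt ℝ 1 k (ph z, β))
    (ha : |deriv (fun e => k (e, β)) (ph z)| ≤ a) (hb : |deriv (fun t => k (ph z, t)) β| ≤ b) :
    Bd (fun q : V × ℝ => k (ph q.1, q.2)) (z, β) (a / nrm z) b := by
  have hin : ContDiffAt ℝ 1 (fun q : V × ℝ => (ph q.1, q.2)) (z, β) :=
    (ContDiffAt.comp (z, β) (ph_contDiffAt hz) contDiffAt_fst).prodMk contDiffAt_snd
  refine ⟨ContDiffAt.comp (z, β) (g := k) hk hin, fun v s => ?_⟩
  have hdph : HasFDerivAt (fun q : V × ℝ => ph q.1)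
      ((fderiv ℝ ph z).comp (ContinuousLinearMap.fst ℝ V ℝ)) (z, β) :=
    HasFDerivAt.comp (z, β) (g := ph)
      ((ph_contDiffAt hz (n := 1)).differentiableAt (by norm_num)).hasFDerivAt hasFDerivAt_fst
  have hdin : HasFDerivAt (fun q : V × ℝ => (ph q.1, q.2))
      (((fderiv ℝ ph z).comp (ContinuousLinearMap.fst ℝ V ℝ)).prod
        (ContinuousLinearMap.snd ℝ V ℝ)) (z, β) :=
    hdph.prodMk hasFDerivAt_snd
  have hdk : HasFDerivAt k (fderiv ℝ k (ph z, β)) (ph z, β) :=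
    (hk.differentiableAt (by norm_num)).hasFDerivAt
  have hcomp : HasFDerivAt (fun q : V × ℝ => k (ph q.1, q.2)) _ (z, β) :=
    HasFDerivAt.comp (z, β) (g := k) hdk hdin
  rw [hcomp.fderiv]
  simp only [ContinuousLinearMap.comp_apply, ContinuousLinearMap.prod_apply,
    ContinuousLinearMap.coe_snd', ContinuousLinearMap.coe_fst']
  rw [fderiv_pair (hk.differentiableAt (by norm_num)), fderiv_real, fderiv_real, smul_eq_mul,
    smul_eq_mul, Real.norm_eq_abs]
  refine (abs_add_le _ _).trans ?_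
  rw [abs_mul, abs_mul]
  have h1 := ph_fderiv hz v
  have ha0 : 0 ≤ a := (abs_nonneg _).trans ha
  have h2 : |fderiv ℝ ph z v| * |deriv (fun e => k (e, β)) (ph z)| ≤ 1 / nrm z * ‖v‖ * a :=
    mul_le_mul h1 ha (abs_nonneg _) (by have := nrm_nonneg z; positivity)
  have h3 : |s| * |deriv (fun t => k (ph z, t)) β| ≤ |s| * b :=
    mul_le_mul_of_nonneg_left hb (abs_nonneg _)
  calc _ ≤ 1 / nrm z * ‖v‖ * a + |s| * b := add_le_add h2 h3
    _ = a / nrm z * ‖v‖ + b * |s| := by ring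

/-- `pw(g) • z` -/
theorem Bd.smul {g : V × ℝ → ℝ} {z : V} {β a b : ℝ} (hg : Bd g (z, β) a b) :
    Bd (fun q : V × ℝ => pw (g q) • q.1) (z, β) (pw (g (z, β)) * (1 + Real.log 16 * a * ‖z‖))
      (pw (g (z, β)) * (Real.log 16 * b * ‖z‖)) := by
  have hpg : ContDiffAt ℝ 1 (fun q => pw (g q)) (z, β) :=
    ContDiffAt.comp (z, β) (g := pw) pw_contDiff.contDiffAt hg.1
  refine ⟨hpg.smul contDiffAt_fst, fun v s => ?_⟩
  have hdg : HasFDerivAt g (fderiv ℝ g (z, β)) (z, β) :=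
    (hg.1.differentiableAt (by norm_num)).hasFDerivAt
  have hdp : HasFDerivAt (fun q => pw (g q)) ((Real.log 16 * pw (g (z, β))) • fderiv ℝ g (z, β))
      (z, β) := (pw_hasDerivAt (g (z, β))).comp_hasFDerivAt (z, β) hdg
  have hd := hdp.fun_smul (hasFDerivAt_fst (𝕜 := ℝ) (E := V) (F := ℝ) (p := (z, β)))
  rw [hd.fderiv]
  simp only [add_apply, smul_apply,
    ContinuousLinearMap.smulRight_apply, ContinuousLinearMap.coe_fst']
  have hp := pw_pos (g (z, β))
  have hL := L_pos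
  calc ‖pw (g (z, β)) • v + ((Real.log 16 * pw (g (z, β))) • fderiv ℝ g (z, β) (v, s)) • z‖
      ≤ ‖pw (g (z, β)) • v‖ + ‖((Real.log 16 * pw (g (z, β))) • fderiv ℝ g (z, β) (v, s)) • z‖ :=
        norm_add_le _ _
    _ = pw (g (z, β)) * ‖v‖ + Real.log 16 * pw (g (z, β)) * ‖fderiv ℝ g (z, β) (v, s)‖ * ‖z‖ := by
        rw [norm_smul, norm_smul, norm_smul, Real.norm_eq_abs, abs_of_pos hp, Real.norm_eq_abs,
          abs_of_pos (by positivity)]
    _ ≤ pw (g (z, β)) * ‖v‖ + Real.log 16 * pw (g (z, β)) * (a * ‖v‖ + b * |s|) * ‖z‖ := by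
        gcongr; exact hg.2 v s
    _ = _ := by ring

end Bd

end D

end

end Crest.Agent.S0163
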