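/-
S0163 (row 123), package D: the inverse of the conjugating map.
-/
import Crest.Agent.S0163_D1

set_option autoImplicit false

open Real Set Filter Topology
open scoped Manifold ContDiff

namespace Crest.Agent.S0163

noncomputable section

namespace D

variable (B : BaseData)

theorem H_hasDerivAt (E β : ℝ) :
    HasDerivAt (fun e => B.H e β) (deriv (fun e => B.H e β) E) E := by
  have h : ContDiff ℝ 1 (fun e => B.H e β) :=
    B.H_contDiff.comp (contDiff_id.prodMk contDiff_const)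
  exact (h.differentiable (by norm_num) E).hasDerivAt

theorem H_lip (β E₁ E₂ : ℝ) : |B.H E₂ β - B.H E₁ β| ≤ 1 / 4 * |E₂ - E₁| := by
  have h : Differentiable ℝ (fun e => B.H e β) := fun E => (H_hasDerivAt B E β).differentiableAt
  have := Convex.norm_image_sub_le_of_norm_deriv_le (f := fun e => B.H e β) (C := 1 / 4)
    (fun x _ => h x) (fun x _ => B.H_dE x β) convex_univ (mem_univ E₁) (mem_univ E₂)
  simpa [Real.norm_eq_abs] using this

theorem psi_lt {β E₁ E₂ : ℝ} (h : E₁ < E₂) : E₁ - B.H E₁ β < E₂ - B.H E₂ β := by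
  have := H_lip B β E₁ E₂
  rw [abs_of_pos (sub_pos.2 h)] at this
  have := (abs_le.1 this).2
  linarith

theorem psi_inj {β E₁ E₂ : ℝ} (h : E₁ - B.H E₁ β = E₂ - B.H E₂ β) : E₁ = E₂ := by
  rcases lt_trichotomy E₁ E₂ with h1 | h1 | h1
  · exact absurd h (psi_lt B h1).ne
  · exact h1
  · exact absurd h (psi_lt B h1).ne'

theorem psi_surj (E' β : ℝ) : ∃ E, E - B.H E β = E' := by
  rcases le_or_gt E' 2 with h | h
  · exact ⟨E', by rw [B.H_eq_zero E' h, sub_zero]⟩
  · have hc : Continuous (fun E => E - B.H E β) :=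
      continuous_id.sub (B.H_contDiff.continuous.comp (Continuous.prodMk continuous_id continuous_const))
    have hivt := intermediate_value_Icc (show (2 : ℝ) ≤ 2 * E' by linarith) hc.continuousOn
    have h1 : (fun E => E - B.H E β) 2 ≤ E' := by
      simp only [B.H_eq_zero 2 le_rfl β]; linarith
    have h2 : E' ≤ (fun E => E - B.H E β) (2 * E') := by
      have := B.H_le (2 * E') β (by linarith)
      simp only; linarith
    obtain ⟨E, -, hE⟩ := hivt ⟨h1, h2⟩
    exact ⟨E, hE⟩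

/-- inverse of `E ↦ E - H E β` -/
def eInv (E' β : ℝ) : ℝ := Classical.choose (psi_surj B E' β)

theorem eInv_spec (E' β : ℝ) : eInv B E' β - B.H (eInv B E' β) β = E' :=
  Classical.choose_spec (psi_surj B E' β)

theorem eInv_eq {E E' β : ℝ} (h : E - B.H E β = E') : eInv B E' β = E :=
  psi_inj B ((eInv_spec B E' β).trans h.symm)

theorem eInv_ge (E' β : ℝ) : E' ≤ eInv B E' β := by
  have h1 := eInv_spec B E' β
  have h2 := B.H_nonneg (eInv B E' β) β
  linarith

theorem eInv_of_le_two {E' : ℝ} (h : E' ≤ 2) (β : ℝ) : eInv B E' β = E' :=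
  eInv_eq B (by rw [B.H_eq_zero E' h, sub_zero])

theorem eInv_periodic (E' β : ℝ) : eInv B E' (β + 2 * π) = eInv B E' β := by
  refine eInv_eq B ?_
  rw [B.H_periodic]; exact eInv_spec B E' β

/-- derivative of `Ψ (E, β) = (E - H E β, β)` -/
def dPsi (E β : ℝ) : ℝ × ℝ →L[ℝ] ℝ × ℝ :=
  (ContinuousLinearMap.fst ℝ ℝ ℝ - fderiv ℝ (fun p : ℝ × ℝ => B.H p.1 p.2) (E, β)).prod
    (ContinuousLinearMap.snd ℝ ℝ ℝ)

theorem fderiv_H (E β r s : ℝ) : fderiv ℝ (fun p : ℝ × ℝ => B.H p.1 p.2) (E, β) (r, s)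
    = r * deriv (fun e => B.H e β) E + s * deriv (fun b => B.H E b) β := by
  rw [fderiv_pair (B.H_contDiff.differentiable (by norm_num) _), fderiv_real, fderiv_real]
  rfl

theorem one_sub_pos (E β : ℝ) : 3 / 4 ≤ 1 - deriv (fun e => B.H e β) E := by
  have := (abs_le.1 (B.H_dE E β)).2; linarith

/-- `dPsi` as an equivalence -/
def dPsiEquiv (E β : ℝ) : (ℝ × ℝ) ≃L[ℝ] ℝ × ℝ :=
  ContinuousLinearEquiv.equivOfInverse (dPsi B E β)
    (((1 - deriv (fun e => B.H e β) E)⁻¹ • (ContinuousLinearMap.fst ℝ ℝ ℝ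
      + (deriv (fun b => B.H E b) β) • ContinuousLinearMap.snd ℝ ℝ ℝ)).prod
        (ContinuousLinearMap.snd ℝ ℝ ℝ))
    (by
      rintro ⟨r, s⟩
      have h := one_sub_pos B E β
      have h' : 1 - deriv (fun e => B.H e β) E ≠ 0 := by linarith
      simp only [dPsi, ContinuousLinearMap.prod_apply, smul_apply,
        add_apply, sub_apply, ContinuousLinearMap.coe_fst',
        ContinuousLinearMap.coe_snd', fderiv_H, smul_eq_mul]
      ext
      · simp only
        field_simp
        ring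
      · rfl)
    (by
      rintro ⟨r, s⟩
      have h := one_sub_pos B E β
      have h' : 1 - deriv (fun e => B.H e β) E ≠ 0 := by linarith
      simp only [dPsi, ContinuousLinearMap.prod_apply, smul_apply,
        add_apply, sub_apply, ContinuousLinearMap.coe_fst',
        ContinuousLinearMap.coe_snd', fderiv_H, smul_eq_mul]
      ext
      · simp only
        field_simp
        ring
      · rfl)

theorem eInv_contDiff : ContDiff ℝ 1 (fun p : ℝ × ℝ => eInv B p.1 p.2) := by
  rw [contDiff_iff_contDiffAt]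
  rintro ⟨E', β⟩
  set E : ℝ := eInv B E' β with hE
  set Ψ : ℝ × ℝ → ℝ × ℝ := fun p => (p.1 - B.H p.1 p.2, p.2) with hΨ
  have hΨc : ContDiffAt ℝ 1 Ψ (E, β) :=
    ((contDiff_fst.sub B.H_contDiff).prodMk contDiff_snd).contDiffAt
  have hΨd : HasFDerivAt Ψ ((dPsiEquiv B E β : (ℝ × ℝ) ≃L[ℝ] ℝ × ℝ) : ℝ × ℝ →L[ℝ] ℝ × ℝ)
      (E, β) := by
    have h1 : HasFDerivAt (fun p : ℝ × ℝ => p.1 - B.H p.1 p.2)
        (ContinuousLinearMap.fst ℝ ℝ ℝ - fderiv ℝ (fun p : ℝ × ℝ => B.H p.1 p.2) (E, β)) (E, β) :=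
      hasFDerivAt_fst.fun_sub (B.H_contDiff.differentiable (by norm_num) _).hasFDerivAt
    have h2 : HasFDerivAt Ψ (dPsi B E β) (E, β) := h1.prodMk hasFDerivAt_snd
    exact h2
  have hval : Ψ (E, β) = (E', β) := by
    simp only [hΨ, hE, eInv_spec]
  have hloc := hΨc.to_localInverse hΨd (by norm_num)
  have hun := (hΨc.hasStrictFDerivAt' hΨd (by norm_num)).localInverse_unique
    (g := fun q : ℝ × ℝ => (eInv B q.1 q.2, q.2)) (Eventually.of_forall (by
      rintro ⟨e, b⟩
      simp only [hΨ]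
      exact Prod.ext (eInv_eq B rfl) rfl))
  rw [hval] at hloc hun
  have h3 : ContDiffAt ℝ 1 (fun q : ℝ × ℝ => (eInv B q.1 q.2, q.2)) (E', β) :=
    hloc.congr_of_eventuallyEq hun
  exact h3.fst

theorem eInv_dE (E' β : ℝ) :
    |deriv (fun e => e - eInv B e β) E'| ≤ 1 := by
  have hd : HasDerivAt (fun e => eInv B e β) (deriv (fun e => eInv B e β) E') E' := by
    have h : ContDiff ℝ 1 (fun e => eInv B e β) :=
      (eInv_contDiff B).comp (contDiff_id.prodMk contDiff_const)
    exact (h.differentiable (by norm_num) E').hasDerivAt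
  set x := deriv (fun e => eInv B e β) E' with hx
  have h1 := (H_hasDerivAt B (eInv B E' β) β).comp E' hd
  have h2 := hd.sub h1
  have h3 : HasDerivAt ((fun e => eInv B e β) - (fun e => B.H e β) ∘ fun e => eInv B e β) 1 E' := by
    have : ((fun e => eInv B e β) - (fun e => B.H e β) ∘ fun e => eInv B e β) = fun e => e := by
      funext e; exact eInv_spec B e β
    rw [this]; exact hasDerivAt_id _
  have h4 := h2.unique h3
  have h5 : HasDerivAt (fun e => e - eInv B e β) (1 - x) E' := (hasDerivAt_id E').sub hd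
  rw [h5.deriv]
  have h6 := abs_le.1 (B.H_dE (eInv B E' β) β)
  have h7 := one_sub_pos B (eInv B E' β) β
  set y := deriv (fun e => B.H e β) (eInv B E' β)
  have h8 : (1 - y) * x = 1 := by linarith
  have h9 : (1 - y) * (1 - x) = -y := by linarith
  have h10 : |(1 - y) * (1 - x)| ≤ 1 / 4 := by rw [h9, abs_neg]; exact B.H_dE _ _
  rw [abs_mul, abs_of_nonneg (by linarith)] at h10
  nlinarith [abs_nonneg (1 - x)]

theorem eInv_dβ (E' β : ℝ) :
    |deriv (fun b => E' - eInv B E' b) β| ≤ 2 * |deriv (fun b => B.H (eInv B E' β) b) β| := by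
  have hd : HasDerivAt (fun b => eInv B E' b) (deriv (fun b => eInv B E' b) β) β := by
    have h : ContDiff ℝ 1 (fun b => eInv B E' b) :=
      (eInv_contDiff B).comp (contDiff_const.prodMk contDiff_id)
    exact (h.differentiable (by norm_num) β).hasDerivAt
  set x := deriv (fun b => eInv B E' b) β with hx
  have hH : HasFDerivAt (fun p : ℝ × ℝ => B.H p.1 p.2)
      (fderiv ℝ (fun p : ℝ × ℝ => B.H p.1 p.2) (eInv B E' β, β)) (eInv B E' β, β) :=
    (B.H_contDiff.differentiable (by norm_num) _).hasFDerivAt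
  have h1 : HasDerivAt ((fun p : ℝ × ℝ => B.H p.1 p.2) ∘ fun b => (eInv B E' b, id b))
      (fderiv ℝ (fun p : ℝ × ℝ => B.H p.1 p.2) (eInv B E' β, β) (x, 1)) β :=
    HasFDerivAt.comp_hasDerivAt (f := fun b => (eInv B E' b, id b)) β hH
      (hd.prodMk (hasDerivAt_id β))
  rw [fderiv_H] at h1
  have h2 := hd.sub h1
  have h3 : HasDerivAt ((fun b => eInv B E' b) - (fun p : ℝ × ℝ => B.H p.1 p.2) ∘ fun b =>
      (eInv B E' b, id b)) 0 β := by
    have : ((fun b => eInv B E' b) - (fun p : ℝ × ℝ => B.H p.1 p.2) ∘ fun b =>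
      (eInv B E' b, id b)) = fun _ => E' := by
      funext e; exact eInv_spec B E' e
    rw [this]; exact hasDerivAt_const _ _
  have h4 := h2.unique h3
  have h5 : HasDerivAt (fun b => E' - eInv B E' b) (-x) β := hd.const_sub E'
  rw [h5.deriv, abs_neg]
  have h6 := abs_le.1 (B.H_dE (eInv B E' β) β)
  have h7 := one_sub_pos B (eInv B E' β) β
  set y := deriv (fun e => B.H e β) (eInv B E' β)
  set k := deriv (fun b => B.H (eInv B E' β) b) β
  have h8 : (1 - y) * x = k := by linarith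
  have h9 : |(1 - y) * x| = |k| := by rw [h8]
  rw [abs_mul, abs_of_nonneg (by linarith)] at h9
  nlinarith [abs_nonneg x]

/-! ### the inverse of `Tm` -/

def Tinv (z : V) (β : ℝ) : V := pw (ph z - eInv B (ph z) β) • z

theorem Tinv_zero (β : ℝ) : Tinv B 0 β = 0 := by simp [Tinv]

theorem Tm_zero (β : ℝ) : Tm B 0 β = 0 := by simp [Tm]

theorem Tinv_ne {z : V} (hz : z ≠ 0) (β : ℝ) : Tinv B z β ≠ 0 := pw_smul_ne hz _

theorem Tm_ne {z : V} (hz : z ≠ 0) (β : ℝ) : Tm B z β ≠ 0 := pw_smul_ne hz _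

theorem ph_Tinv {z : V} (hz : z ≠ 0) (β : ℝ) : ph (Tinv B z β) = eInv B (ph z) β := by
  unfold Tinv; rw [ph_smul hz]; ring

theorem ph_Tm {z : V} (hz : z ≠ 0) (β : ℝ) : ph (Tm B z β) = ph z - B.H (ph z) β := by
  unfold Tm; rw [ph_smul hz]

theorem Tm_Tinv (z : V) (β : ℝ) : Tm B (Tinv B z β) β = z := by
  by_cases hz : z = 0
  · subst hz; rw [Tinv_zero, Tm_zero]
  · show pw (B.H (ph (Tinv B z β)) β) • Tinv B z β = z
    rw [ph_Tinv B hz]
    unfold Tinv
    rw [smul_smul, ← pw_add]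
    have := eInv_spec B (ph z) β
    have h0 : B.H (eInv B (ph z) β) β + (ph z - eInv B (ph z) β) = 0 := by linarith
    rw [h0, pw_zero, one_smul]

theorem Tinv_Tm (z : V) (β : ℝ) : Tinv B (Tm B z β) β = z := by
  by_cases hz : z = 0
  · subst hz; rw [Tm_zero, Tinv_zero]
  · show pw (ph (Tm B z β) - eInv B (ph (Tm B z β)) β) • Tm B z β = z
    rw [ph_Tm B hz, eInv_eq B (E := ph z) rfl]
    unfold Tm
    rw [smul_smul, ← pw_add]
    have h0 : ph z - B.H (ph z) β - ph z + B.H (ph z) β = 0 := by ring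
    rw [h0, pw_zero, one_smul]

end D

theorem Tm_bijective (B : BaseData) (β : ℝ) : Function.Bijective (fun z => Tm B z β) :=
  ⟨Function.LeftInverse.injective (g := fun z => D.Tinv B z β) (fun z => D.Tinv_Tm B z β),
    Function.RightInverse.surjective (g := fun z => D.Tinv B z β) (fun z => D.Tm_Tinv B z β)⟩

namespace D

variable (B : BaseData)

theorem Tm_of_le {z : V} (h : ph z ≤ 2) (β : ℝ) : Tm B z β = z := by
  unfold Tm; rw [B.H_eq_zero _ h, pw_zero, one_smul]

theorem Tinv_of_le {z : V} (h : ph z ≤ 2) (β : ℝ) : Tinv B z β = z := by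
  unfold Tinv; rw [eInv_of_le_two B h, sub_self, pw_zero, one_smul]

/-- `C¹` bounds for `Tinv` -/
theorem Tinv_Bd {z : V} (hz : z ≠ 0) (β : ℝ) :
    Bd (fun q : V × ℝ => Tinv B q.1 q.2) (z, β)
      ((1 + Real.log 16) * pw (-B.H (eInv B (ph z) β) β))
      (2 * Real.log 16 * |deriv (fun b => B.H (eInv B (ph z) β) b) β|
        * pw (-eInv B (ph z) β)) := by
  have hk : ContDiffAt ℝ 1 (fun q : ℝ × ℝ => q.1 - eInv B q.1 q.2) (ph z, β) :=
    (contDiff_fst.sub (eInv_contDiff B)).contDiffAt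
  have h := (Bd.ofPh hz hk (eInv_dE B (ph z) β) (eInv_dβ B (ph z) β)).smul
  have hn := nrm_pos hz
  have hv := norm_le_nrm z
  have hL := L_pos
  have hs := eInv_spec B (ph z) β
  refine h.mono ?_ ?_
  · simp only
    have h0 : ph z - eInv B (ph z) β = -B.H (eInv B (ph z) β) β := by linarith
    rw [h0, mul_comm]
    refine mul_le_mul_of_nonneg_right ?_ (pw_pos _).le
    have : Real.log 16 * (1 / nrm z) * ‖z‖ ≤ Real.log 16 * (1 / nrm z) * nrm z :=
      mul_le_mul_of_nonneg_left hv (by positivity)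
    have h1 : Real.log 16 * (1 / nrm z) * nrm z = Real.log 16 := by field_simp
    linarith
  · simp only
    set k := |deriv (fun b => B.H (eInv B (ph z) β) b) β| with hk
    have hk0 : 0 ≤ k := abs_nonneg _
    have h1 : Real.log 16 * (2 * k) * ‖z‖ ≤ Real.log 16 * (2 * k) * pw (-ph z) := by
      rw [← nrm_eq_pw hz]; exact mul_le_mul_of_nonneg_left hv (by positivity)
    calc pw (ph z - eInv B (ph z) β) * (Real.log 16 * (2 * k) * ‖z‖)
        ≤ pw (ph z - eInv B (ph z) β) * (Real.log 16 * (2 * k) * pw (-ph z)) :=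
          mul_le_mul_of_nonneg_left h1 (pw_pos _).le
      _ = 2 * Real.log 16 * k * (pw (ph z - eInv B (ph z) β) * pw (-ph z)) := by ring
      _ = 2 * Real.log 16 * k * pw (-eInv B (ph z) β) := by
          rw [← pw_add]; congr 2; ring

/-- `C¹` bounds for `Tm` -/
theorem Tm_Bd {z : V} (hz : z ≠ 0) (β : ℝ) :
    Bd (fun q : V × ℝ => Tm B q.1 q.2) (z, β)
      ((1 + Real.log 16) * pw (B.H (ph z) β))
      (Real.log 16 * |deriv (fun b => B.H (ph z) b) β| * pw (B.H (ph z) β - ph z)) := by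
  have hk : ContDiffAt ℝ 1 (fun q : ℝ × ℝ => B.H q.1 q.2) (ph z, β) :=
    B.H_contDiff.contDiffAt
  have h := (Bd.ofPh hz hk (B.H_dE (ph z) β) le_rfl).smul
  have hn := nrm_pos hz
  have hv := norm_le_nrm z
  have hL := L_pos
  refine h.mono ?_ ?_
  · simp only
    rw [mul_comm]
    refine mul_le_mul_of_nonneg_right ?_ (pw_pos _).le
    have : Real.log 16 * (1 / 4 / nrm z) * ‖z‖ ≤ Real.log 16 * (1 / 4 / nrm z) * nrm z :=
      mul_le_mul_of_nonneg_left hv (by positivity)
    have h1 : Real.log 16 * (1 / 4 / nrm z) * nrm z = 1 / 4 * Real.log 16 := by field_simp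
    linarith
  · simp only
    set k := |deriv (fun b => B.H (ph z) b) β| with hk
    have hk0 : 0 ≤ k := abs_nonneg _
    have h1 : Real.log 16 * k * ‖z‖ ≤ Real.log 16 * k * pw (-ph z) := by
      rw [← nrm_eq_pw hz]; exact mul_le_mul_of_nonneg_left hv (by positivity)
    calc pw (B.H (ph z) β) * (Real.log 16 * k * ‖z‖)
        ≤ pw (B.H (ph z) β) * (Real.log 16 * k * pw (-ph z)) :=
          mul_le_mul_of_nonneg_left h1 (pw_pos _).le
      _ = Real.log 16 * k * (pw (B.H (ph z) β) * pw (-ph z)) := by ring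
      _ = Real.log 16 * k * pw (B.H (ph z) β - ph z) := by
          rw [← pw_add]; rfl

theorem H_nonneg_le (E β : ℝ) : B.H E β ≤ max E 0 / 16 := by
  rcases le_or_gt 0 E with h | h
  · rw [max_eq_left h]; exact B.H_le E β h
  · rw [B.H_eq_zero E (by linarith)]; positivity

/-- `Tm` is continuous -/
theorem Tm_continuous : Continuous (fun q : V × ℝ => Tm B q.1 q.2) := by
  rw [continuous_iff_continuousAt]
  rintro ⟨z, β⟩
  by_cases hz : z = 0
  swap
  · exact (Tm_Bd B hz β).1.continuousAt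
  subst hz
  rw [ContinuousAt]
  simp only [Tm_zero]
  rw [tendsto_zero_iff_norm_tendsto_zero]
  have key : ∀ᶠ q : V × ℝ in 𝓝 (0, β), ‖Tm B q.1 q.2‖ ≤ nrm q.1 ^ (1 / 2 : ℝ) := by
    have h1 : ∀ᶠ q : V × ℝ in 𝓝 (0, β), q.1 ≠ 0 → 0 < ph q.1 :=
      (continuous_fst.tendsto ((0 : V), β)).eventually (ph_large 0)
    filter_upwards [h1] with q hq
    by_cases hq0 : q.1 = 0
    · rw [hq0, Tm_zero, norm_zero]; exact Real.rpow_nonneg (nrm_nonneg _) _
    · have hE := hq hq0
      refine (norm_le_nrm _).trans ?_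
      rw [nrm_eq_pw (Tm_ne B hq0 q.2), ph_Tm B hq0, nrm_eq_pw hq0]
      have h2 : pw (-ph q.1) ^ (1 / 2 : ℝ) = pw (-ph q.1 / 2) := by
        rw [← Real.sqrt_eq_rpow, sqrt_pw]
      rw [h2]
      apply pw_le
      have := B.H_le (ph q.1) q.2 hE.le
      linarith
  refine squeeze_zero' (Eventually.of_forall fun _ => norm_nonneg _) key ?_
  have h2 : Continuous (fun q : V × ℝ => nrm q.1 ^ (1 / 2 : ℝ)) :=
    (nrm_continuous.comp continuous_fst).rpow_const (fun _ => Or.inr (by norm_num))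
  have h3 := h2.tendsto ((0 : V), β)
  simp only [nrm_zero] at h3
  rwa [Real.zero_rpow (by norm_num)] at h3

/-- `Tinv` is continuous -/
theorem Tinv_continuous : Continuous (fun q : V × ℝ => Tinv B q.1 q.2) := by
  rw [continuous_iff_continuousAt]
  rintro ⟨z, β⟩
  by_cases hz : z = 0
  swap
  · exact (Tinv_Bd B hz β).1.continuousAt
  subst hz
  rw [ContinuousAt]
  simp only [Tinv_zero]
  rw [tendsto_zero_iff_norm_tendsto_zero]
  refine squeeze_zero (g := fun q : V × ℝ => ‖q.1‖) (fun _ => norm_nonneg _) (fun q => ?_) ?_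
  · unfold Tinv
    rw [norm_smul, Real.norm_eq_abs, abs_of_pos (pw_pos _)]
    have h1 : pw (ph q.1 - eInv B (ph q.1) q.2) ≤ 1 := by
      rw [← pw_zero]; exact pw_le (by linarith [eInv_ge B (ph q.1) q.2])
    calc _ ≤ 1 * ‖q.1‖ := mul_le_mul_of_nonneg_right h1 (norm_nonneg _)
      _ = _ := one_mul _
  · have h3 := (continuous_fst.norm).tendsto ((0 : V), β)
    simpa using h3

end D

end

end Crest.Agent.S0163
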