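/-
S0163 (row 123), package D: derivative bounds for `Phi`.
-/
import Crest.Agent.S0163_D2

set_option autoImplicit false

open Real Set Filter Topology
open scoped Manifold ContDiff

namespace Crest.Agent.S0163

noncomputable section

namespace D

variable (B : BaseData) (S : ShellData)

theorem Phi_zero (β : ℝ) : Phi B S 0 β = 0 := by simp [Phi]

theorem ph_lt_iff {z : V} (hz : z ≠ 0) {x : ℝ} : ph z < x ↔ pw (-x) < nrm z := by
  rw [nrm_eq_pw hz, pw_lt_iff, neg_lt_neg_iff]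

theorem lt_ph_iff {z : V} (hz : z ≠ 0) {x : ℝ} : x < ph z ↔ nrm z < pw (-x) := by
  rw [nrm_eq_pw hz, pw_lt_iff, neg_lt_neg_iff]

theorem ne_of_far {z : V} {x : ℝ} (h : pw x < nrm z) : z ≠ 0 := by
  rintro rfl; rw [nrm_zero] at h; exact absurd h (not_lt.2 (pw_pos _).le)

theorem Phi_far {z : V} (h : pw (-(9 / 8)) < nrm z) (β : ℝ) : Phi B S z β = S.Fo z := by
  have hz := ne_of_far h
  unfold Phi
  rw [if_neg hz]
  split_ifs with h1
  · rfl
  · rw [not_le, ← pw_neg_one] at h1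
    have h2 : ph z < 9 / 8 := (ph_lt_iff hz).2 h
    rw [B.X_eq_four _ (by linarith), S.Fo_eq z h (h1.trans (pw_lt (by norm_num)))]

theorem Phi_near {z : V} (hz : z ≠ 0) (h : nrm z < pw (-(7 / 8))) (β : ℝ) :
    Phi B S z β = S.R (B.X (ph z) β) z := by
  unfold Phi
  rw [if_neg hz]
  split_ifs with h1
  · rw [← pw_neg_one] at h1
    have h3 : pw (-(9 / 8)) < nrm z := lt_of_lt_of_le (pw_lt (by norm_num)) h1
    have h2 : ph z < 9 / 8 := (ph_lt_iff hz).2 h3
    rw [B.X_eq_four _ (by linarith), S.Fo_eq z h3 h]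
  · rfl

theorem near_or_far {z : V} : nrm z < pw (-(7 / 8)) ∨ pw (-(9 / 8)) < nrm z := by
  by_cases h : nrm z < pw (-(7 / 8))
  · exact Or.inl h
  · exact Or.inr (lt_of_lt_of_le (pw_lt (by norm_num)) (not_lt.1 h))

theorem nrm_Phi_le (z : V) (β : ℝ) : nrm (Phi B S z β) ≤ 16 * nrm z := by
  by_cases hz : z = 0
  · subst hz; rw [Phi_zero, nrm_zero]; simp
  rcases near_or_far (z := z) with h | h
  · rw [Phi_near B S hz h]; exact S.R_nrm _ (B.X_mem _ _) z hz
  · rw [Phi_far B S h]; exact S.Fo_nrm z h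

theorem ph_Phi_ge {z : V} {β : ℝ} (hu : Phi B S z β ≠ 0) : ph z - 1 ≤ ph (Phi B S z β) := by
  have hz : z ≠ 0 := by rintro rfl; exact hu (Phi_zero B S β)
  have h := nrm_Phi_le B S z β
  rw [nrm_eq_pw hu, nrm_eq_pw hz, ← pw_one, ← pw_add, pw_le_iff] at h
  linarith

theorem R_Bd {z : V} (hz : z ≠ 0) {β a b : ℝ} {g : V × ℝ → ℝ} (hg : Bd g (z, β) a b)
    (hmem : g (z, β) ∈ Icc (0 : ℝ) 4) :
    Bd (fun q : V × ℝ => S.R (g q) q.1) (z, β)
      (|S.C| * √(nrm (S.R (g (z, β)) z) / nrm z) * (1 + a * nrm z))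
      (|S.C| * √(nrm (S.R (g (z, β)) z) / nrm z) * (b * nrm z)) := by
  set ρ := √(nrm (S.R (g (z, β)) z) / nrm z) with hρ
  have hρ0 : 0 ≤ ρ := Real.sqrt_nonneg _
  have hnz := nrm_pos hz
  have hopen : IsOpen {p : ℝ × V | p.2 ≠ 0} := isOpen_ne.preimage continuous_snd
  have hR : ContDiffAt ℝ 1 (fun p : ℝ × V => S.R p.1 p.2) (g (z, β), z) :=
    S.R_contDiffOn.contDiffAt (hopen.mem_nhds hz)
  have hin : ContDiffAt ℝ 1 (fun q : V × ℝ => (g q, q.1)) (z, β) := hg.1.prodMk contDiffAt_fst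
  refine ⟨ContDiffAt.comp (z, β) (g := fun p : ℝ × V => S.R p.1 p.2) hR hin, fun v s => ?_⟩
  have hdg : HasFDerivAt g (fderiv ℝ g (z, β)) (z, β) :=
    (hg.1.differentiableAt (by norm_num)).hasFDerivAt
  have hdin : HasFDerivAt (fun q : V × ℝ => (g q, q.1))
      ((fderiv ℝ g (z, β)).prod (ContinuousLinearMap.fst ℝ V ℝ)) (z, β) :=
    hdg.prodMk hasFDerivAt_fst
  have hdR : HasFDerivAt (fun p : ℝ × V => S.R p.1 p.2) _ (g (z, β), z) :=
    (hR.differentiableAt (by norm_num)).hasFDerivAt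
  have hcomp : HasFDerivAt (fun q : V × ℝ => S.R (g q) q.1) _ (z, β) :=
    HasFDerivAt.comp (z, β) (g := fun p : ℝ × V => S.R p.1 p.2) hdR hdin
  rw [hcomp.fderiv]
  simp only [ContinuousLinearMap.comp_apply, ContinuousLinearMap.prod_apply,
    ContinuousLinearMap.coe_fst']
  rw [fderiv_pair (hR.differentiableAt (by norm_num)), fderiv_real]
  simp only
  have h1 := S.R_dχ _ hmem z hz
  have h2 := S.R_dz _ hmem z hz
  rw [← hρ] at h1 h2
  have hC := le_abs_self S.C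
  have hgv := hg.2 v s
  have h1' : ‖deriv (fun c => S.R c z) (g (z, β))‖ ≤ |S.C| * nrm z * ρ :=
    h1.trans (by gcongr)
  have h2' : ‖fderiv ℝ (fun y => S.R (g (z, β)) y) z‖ ≤ |S.C| * ρ :=
    h2.trans (mul_le_mul_of_nonneg_right hC hρ0)
  calc ‖fderiv ℝ g (z, β) (v, s) • deriv (fun c => S.R c z) (g (z, β))
        + fderiv ℝ (fun y => S.R (g (z, β)) y) z v‖
      ≤ ‖fderiv ℝ g (z, β) (v, s)‖ * ‖deriv (fun c => S.R c z) (g (z, β))‖
        + ‖fderiv ℝ (fun y => S.R (g (z, β)) y) z‖ * ‖v‖ := by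
        refine (norm_add_le _ _).trans (add_le_add (norm_smul_le _ _) ?_)
        exact ContinuousLinearMap.le_opNorm _ _
    _ ≤ (a * ‖v‖ + b * |s|) * (|S.C| * nrm z * ρ) + |S.C| * ρ * ‖v‖ := by
        refine add_le_add ?_ (mul_le_mul_of_nonneg_right h2' (norm_nonneg _))
        exact mul_le_mul hgv h1' (norm_nonneg _) ((norm_nonneg _).trans hgv)
    _ = _ := by ring

theorem BC_nonneg : 0 ≤ B.C := (abs_nonneg _).trans (B.X_dE 0 0)

/-- bounds for `Phi`, near region -/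
theorem Phi_Bd_near {z : V} (hz : z ≠ 0) (h : nrm z < pw (-(7 / 8))) (β : ℝ) :
    Bd (fun q : V × ℝ => Phi B S q.1 q.2) (z, β)
      (|S.C| * √(nrm (Phi B S z β) / nrm z) * (1 + B.C))
      (|S.C| * √(nrm (Phi B S z β) / nrm z) * (B.C * pw (ph z / 16) * nrm z)) := by
  have hE : 7 / 8 < ph z := (lt_ph_iff hz).2 h
  have hk : ContDiffAt ℝ 1 (fun q : ℝ × ℝ => B.X q.1 q.2) (ph z, β) := B.X_contDiff.contDiffAt
  have h1 := Bd.ofPh hz hk (B.X_dE (ph z) β) (B.X_dβ (ph z) β (by linarith))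
  have h2 := R_Bd S hz h1 (B.X_mem _ _)
  simp only at h2
  rw [Phi_near B S hz h]
  have hn := nrm_pos hz
  have h3 : B.C / nrm z * nrm z = B.C := by field_simp
  rw [h3] at h2
  refine h2.congr ?_
  have ho : {q : V × ℝ | q.1 ≠ 0 ∧ nrm q.1 < pw (-(7 / 8))} ∈ 𝓝 (z, β) := by
    refine IsOpen.mem_nhds ?_ ⟨hz, h⟩
    exact (isOpen_ne.preimage continuous_fst).inter
      (isOpen_lt (nrm_continuous.comp continuous_fst) continuous_const)
  filter_upwards [ho] with q hq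
  exact (Phi_near B S hq.1 hq.2 q.2).symm

/-- bounds for `Phi`, far region -/
theorem Phi_Bd_far {z : V} (h : pw (-(9 / 8)) < nrm z) (β : ℝ) :
    Bd (fun q : V × ℝ => Phi B S q.1 q.2) (z, β) ‖fderiv ℝ S.Fo z‖ 0 := by
  have hopen : IsOpen {z : V | pw (-(9 / 8)) < nrm z} := isOpen_lt continuous_const nrm_continuous
  have hF : ContDiffAt ℝ 1 S.Fo z := S.Fo_contDiffOn.contDiffAt (hopen.mem_nhds h)
  have h1 : Bd (fun q : V × ℝ => S.Fo q.1) (z, β) ‖fderiv ℝ S.Fo z‖ 0 := by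
    refine ⟨ContDiffAt.comp (z, β) (g := S.Fo) hF contDiffAt_fst, fun v s => ?_⟩
    have hd : HasFDerivAt (fun q : V × ℝ => S.Fo q.1) _ (z, β) :=
      HasFDerivAt.comp (z, β) (g := S.Fo) (hF.differentiableAt (by norm_num)).hasFDerivAt
        hasFDerivAt_fst
    rw [hd.fderiv, zero_mul, add_zero]
    simp only [ContinuousLinearMap.comp_apply, ContinuousLinearMap.coe_fst']
    exact ContinuousLinearMap.le_opNorm _ _
  refine h1.congr ?_
  have ho : {q : V × ℝ | pw (-(9 / 8)) < nrm q.1} ∈ 𝓝 (z, β) :=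
    (isOpen_lt continuous_const (nrm_continuous.comp continuous_fst)).mem_nhds h
  filter_upwards [ho] with q hq
  exact (Phi_far B S hq q.2).symm

theorem Phi_contDiffAt {z : V} (hz : z ≠ 0) (β : ℝ) :
    ContDiffAt ℝ 1 (fun q : V × ℝ => Phi B S q.1 q.2) (z, β) := by
  rcases near_or_far (z := z) with h | h
  · exact (Phi_Bd_near B S hz h β).1
  · exact (Phi_Bd_far B S h β).1

theorem Phi_continuous : Continuous (fun q : V × ℝ => Phi B S q.1 q.2) := by
  rw [continuous_iff_continuousAt]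
  rintro ⟨z, β⟩
  by_cases hz : z = 0
  swap
  · exact (Phi_contDiffAt B S hz β).continuousAt
  subst hz
  rw [ContinuousAt]
  simp only [Phi_zero]
  rw [tendsto_zero_iff_norm_tendsto_zero]
  refine squeeze_zero (g := fun q : V × ℝ => 16 * nrm q.1) (fun _ => norm_nonneg _)
    (fun q => (norm_le_nrm _).trans (nrm_Phi_le B S q.1 q.2)) ?_
  have h2 : Continuous (fun q : V × ℝ => 16 * nrm q.1) :=
    continuous_const.mul (nrm_continuous.comp continuous_fst)
  have h3 := h2.tendsto ((0 : V), β)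
  simpa [nrm_zero] using h3

/-- local bound for `Phi` away from `0` -/
theorem Phi_Bd_local {z : V} (hz : z ≠ 0) (β : ℝ) :
    ∃ K : ℝ, 0 ≤ K ∧ ∀ᶠ q : V × ℝ in 𝓝 (z, β),
      Bd (fun q : V × ℝ => Phi B S q.1 q.2) q (K * √(nrm (Phi B S q.1 q.2)))
        (K * √(nrm (Phi B S q.1 q.2))) := by
  rcases near_or_far (z := z) with h | h
  · set c₁ : V × ℝ → ℝ := fun q => |S.C| * (1 + B.C) / √(nrm q.1) with hc₁
    set c₂ : V × ℝ → ℝ := fun q => |S.C| * (B.C * pw (ph q.1 / 16) * nrm q.1) / √(nrm q.1) with hc₂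
    have hne : √(nrm z) ≠ 0 := (Real.sqrt_pos.2 (nrm_pos hz)).ne'
    have hcn : ContinuousAt (fun q : V × ℝ => √(nrm q.1)) (z, β) :=
      (nrm_continuous.comp continuous_fst).sqrt.continuousAt
    have h1 : ContinuousAt c₁ (z, β) := continuousAt_const.div hcn hne
    have hph : ContinuousAt (fun q : V × ℝ => ph q.1) (z, β) :=
      ContinuousAt.comp (x := (z, β)) (g := ph) (ph_contDiffAt hz (n := 1)).continuousAt
        continuousAt_fst
    have h2 : ContinuousAt c₂ (z, β) := by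
      refine ContinuousAt.div (continuousAt_const.mul ?_) hcn hne
      refine ContinuousAt.mul (continuousAt_const.mul ?_) (nrm_continuous.comp continuous_fst).continuousAt
      exact ContinuousAt.comp (g := pw) pw_continuous.continuousAt (hph.div_const _)
    have e1 := h1.eventually (gt_mem_nhds (lt_add_one (c₁ (z, β))))
    have e2 := h2.eventually (gt_mem_nhds (lt_add_one (c₂ (z, β))))
    have hBC := BC_nonneg B
    have hn1 : 0 ≤ c₁ (z, β) := by simp only [hc₁]; positivity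
    have hn2 : 0 ≤ c₂ (z, β) := by
      simp only [hc₂]
      have := pw_pos (ph z / 16)
      have := nrm_pos hz
      positivity
    refine ⟨max (c₁ (z, β) + 1) (c₂ (z, β) + 1), le_max_of_le_left (by linarith), ?_⟩
    have ho : {q : V × ℝ | q.1 ≠ 0 ∧ nrm q.1 < pw (-(7 / 8))} ∈ 𝓝 (z, β) := by
      refine IsOpen.mem_nhds ?_ ⟨hz, h⟩
      exact (isOpen_ne.preimage continuous_fst).inter
        (isOpen_lt (nrm_continuous.comp continuous_fst) continuous_const)
    filter_upwards [e1, e2, ho] with q hq1 hq2 hq3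
    have hb := Phi_Bd_near B S hq3.1 hq3.2 q.2
    have hsq : √(nrm (Phi B S q.1 q.2) / nrm q.1) = √(nrm (Phi B S q.1 q.2)) / √(nrm q.1) :=
      Real.sqrt_div (nrm_nonneg _) _
    have hs0 : 0 ≤ √(nrm (Phi B S q.1 q.2)) := Real.sqrt_nonneg _
    refine hb.mono ?_ ?_
    · rw [hsq]
      calc |S.C| * (√(nrm (Phi B S q.1 q.2)) / √(nrm q.1)) * (1 + B.C)
          = c₁ q * √(nrm (Phi B S q.1 q.2)) := by simp only [hc₁]; ring
        _ ≤ _ := mul_le_mul_of_nonneg_right (hq1.le.trans (le_max_left _ _)) hs0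
    · rw [hsq]
      calc |S.C| * (√(nrm (Phi B S q.1 q.2)) / √(nrm q.1)) * (B.C * pw (ph q.1 / 16) * nrm q.1)
          = c₂ q * √(nrm (Phi B S q.1 q.2)) := by simp only [hc₂]; ring
        _ ≤ _ := mul_le_mul_of_nonneg_right (hq2.le.trans (le_max_right _ _)) hs0
  · obtain ⟨C', hC'⟩ := S.Fo_bound z h
    refine ⟨|C'|, abs_nonneg _, ?_⟩
    have ho : {q : V × ℝ | pw (-(9 / 8)) < nrm q.1} ∈ 𝓝 (z, β) :=
      (isOpen_lt continuous_const (nrm_continuous.comp continuous_fst)).mem_nhds h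
    have e1 : ∀ᶠ q : V × ℝ in 𝓝 (z, β), ‖fderiv ℝ S.Fo q.1‖ ≤ C' * √(nrm (S.Fo q.1)) :=
      (continuous_fst.tendsto (z, β)).eventually hC'
    filter_upwards [e1, ho] with q hq1 hq2
    have hb := Phi_Bd_far B S hq2 q.2
    rw [Phi_far B S hq2]
    refine hb.mono ?_ (by positivity)
    exact hq1.trans (mul_le_mul_of_nonneg_right (le_abs_self _) (Real.sqrt_nonneg _))

end D

end

end Crest.Agent.S0163
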