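/-
S0163 (row 123), package D: the conjugated fibre map is `C¹`.
-/
import Crest.Agent.S0163_D3

set_option autoImplicit false

open Real Set Filter Topology
open scoped Manifold ContDiff

namespace Crest.Agent.S0163

noncomputable section

namespace D

variable (B : BaseData) (S : ShellData)

theorem Bd.comp0 {W : Type*} [NormedAddCommGroup W] [NormedSpace ℝ W]
    {F : V × ℝ → V} {K : V × ℝ → W} {p : V × ℝ} {a b a' b' : ℝ}
    (hF : Bd F p a b) (hK : Bd K (F p, p.2) a' b') (ha' : 0 ≤ a') :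
    Bd (fun q => K (F q, q.2)) p (a' * a) (a' * b + b') := by
  have h := hF.comp (c := 0) (K := K) (by rw [add_zero]; exact hK) ha'
  simpa only [add_zero] using h

/-- `Phi ∘ Tinv` -/
def P (q : V × ℝ) : V := Phi B S (Tinv B q.1 q.2) q.2

/-- the conjugated fibre map -/
def Gf (q : V × ℝ) : V := Tm B (P B S q) (q.2 + 1)

theorem P_continuous : Continuous (P B S) :=
  (Phi_continuous B S).comp ((Tinv_continuous B).prodMk continuous_snd)

theorem Gf_continuous : Continuous (Gf B S) := by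
  have h1 : Continuous (fun q : V × ℝ => (P B S q, q.2 + 1)) :=
    (P_continuous B S).prodMk (continuous_snd.add continuous_const)
  have h2 : Continuous (fun q : V × ℝ => Tm B (P B S q, q.2 + 1).1 (P B S q, q.2 + 1).2) :=
    (Tm_continuous B).comp h1
  exact h2

theorem fst_ne_of_P {q : V × ℝ} (h : P B S q ≠ 0) : q.1 ≠ 0 := by
  intro h0
  apply h
  unfold P
  rw [h0, Tinv_zero, Phi_zero]

theorem P_ne_of_Gf {q : V × ℝ} (h : Gf B S q ≠ 0) : P B S q ≠ 0 := by
  intro h0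
  apply h
  unfold Gf
  rw [h0, Tm_zero]

theorem Gf_Bd {q : V × ℝ} {a b : ℝ} (h : Bd (P B S) q a b) (hu : P B S q ≠ 0)
    (hE : 0 ≤ ph (P B S q)) :
    Bd (Gf B S) q ((1 + Real.log 16) * pw (B.H (ph (P B S q)) (q.2 + 1)) * a)
      ((1 + Real.log 16) * pw (B.H (ph (P B S q)) (q.2 + 1)) * b
        + Real.log 16 * B.C * pw (-(13 / 16 * ph (P B S q)))) := by
  have hL := L_pos
  have h1 := Tm_Bd B hu (q.2 + 1)
  have h2 := h.comp (c := 1) h1 (by have := pw_pos (B.H (ph (P B S q)) (q.2 + 1)); positivity)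
  refine h2.mono le_rfl (add_le_add le_rfl ?_)
  have h3 := B.H_dβ (ph (P B S q)) (q.2 + 1) hE
  have h4 := B.H_le (ph (P B S q)) (q.2 + 1) hE
  set E := ph (P B S q) with hEdef
  calc Real.log 16 * |deriv (fun b => B.H E b) (q.2 + 1)| * pw (B.H E (q.2 + 1) - E)
      ≤ Real.log 16 * (B.C * pw (E / 8)) * pw (E / 16 - E) := by
        refine mul_le_mul (mul_le_mul_of_nonneg_left h3 hL.le) (pw_le (by linarith))
          (pw_pos _).le ?_
        have := BC_nonneg B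
        have := pw_pos (E / 8)
        positivity
    _ = Real.log 16 * B.C * (pw (E / 8) * pw (E / 16 - E)) := by ring
    _ = Real.log 16 * B.C * pw (-(13 / 16 * E)) := by rw [← pw_add]; congr 2; ring

theorem P_contDiffAt {q : V × ℝ} (h : q.1 ≠ 0) : ContDiffAt ℝ 1 (P B S) q := by
  obtain ⟨z, β⟩ := q
  have h1 := (Tinv_Bd B h β).1
  exact ContDiffAt.comp (z, β) (g := fun q : V × ℝ => Phi B S q.1 q.2)
    (Phi_contDiffAt B S (Tinv_ne B h β) β) (h1.prodMk contDiffAt_snd)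

theorem Gf_contDiffAt {q : V × ℝ} (h : P B S q ≠ 0) : ContDiffAt ℝ 1 (Gf B S) q := by
  have h1 : ContDiffAt ℝ 1 (fun q : V × ℝ => (P B S q, q.2 + 1)) q :=
    (P_contDiffAt B S (fst_ne_of_P B S h)).prodMk (contDiffAt_snd.add contDiffAt_const)
  have h2 : ContDiffAt ℝ 1 (fun q : V × ℝ => Tm B (P B S q, q.2 + 1).1 (P B S q, q.2 + 1).2) q :=
    ContDiffAt.comp (f := fun q : V × ℝ => (P B S q, q.2 + 1)) q
      (g := fun q : V × ℝ => Tm B q.1 q.2) (Tm_Bd B h (q.2 + 1)).1 h1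
  exact h2

theorem small (c a : ℝ) (ha : 0 < a) {ε : ℝ} (hε : 0 < ε) :
    ∃ T : ℝ, ∀ t ≥ T, c * pw (-(a * t)) ≤ ε := by
  have h1 : Tendsto (fun t : ℝ => c * pw (-(a * t))) atTop (𝓝 (c * 0)) := by
    refine Tendsto.const_mul c (tendsto_pw_atBot.comp ?_)
    exact tendsto_neg_atTop_atBot.comp (tendsto_id.const_mul_atTop ha)
  rw [mul_zero] at h1
  obtain ⟨T, hT⟩ := eventually_atTop.1 (h1.eventually (gt_mem_nhds hε))
  exact ⟨T, fun t ht => (hT t ht).le⟩

/-- Case II: `z₀ ≠ 0`, `Phi = 0`. -/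
theorem caseII {q₀ : V × ℝ} (hz : q₀.1 ≠ 0) (hP : P B S q₀ = 0) {ε : ℝ} (hε : 0 < ε) :
    ∀ᶠ q in 𝓝 q₀, P B S q ≠ 0 → ‖fderiv ℝ (Gf B S) q‖ ≤ ε := by
  obtain ⟨z₀, β₀⟩ := q₀
  simp only at hz
  obtain ⟨K, hK, hKe⟩ := Phi_Bd_local B S (Tinv_ne B hz β₀) β₀
  have hL := L_pos
  -- `Tinv` has locally bounded derivative
  set M : ℝ := ‖fderiv ℝ (fun q : V × ℝ => Tinv B q.1 q.2) (z₀, β₀)‖ + 1 with hM
  have hM0 : 0 ≤ M := by positivity
  have e1 : ∀ᶠ q : V × ℝ in 𝓝 (z₀, β₀), ‖fderiv ℝ (fun q : V × ℝ => Tinv B q.1 q.2) q‖ < M := by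
    have hc : ContinuousAt (fderiv ℝ (fun q : V × ℝ => Tinv B q.1 q.2)) (z₀, β₀) :=
      (Tinv_Bd B hz β₀).1.continuousAt_fderiv (by norm_num)
    exact hc.norm.eventually (gt_mem_nhds (lt_add_one _))
  have e2 : ∀ᶠ q : V × ℝ in 𝓝 (z₀, β₀), q.1 ≠ 0 :=
    (isOpen_ne.preimage continuous_fst).mem_nhds hz
  have e3 : ∀ᶠ q : V × ℝ in 𝓝 (z₀, β₀), Bd (fun q : V × ℝ => Phi B S q.1 q.2)
      (Tinv B q.1 q.2, q.2) (K * √(nrm (P B S q))) (K * √(nrm (P B S q))) := by
    have hc : Continuous (fun q : V × ℝ => (Tinv B q.1 q.2, q.2)) :=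
      (Tinv_continuous B).prodMk continuous_snd
    exact (hc.tendsto (z₀, β₀)).eventually hKe
  obtain ⟨T₁, hT₁⟩ := small ((1 + Real.log 16) * K * (2 * M + 1)) (7 / 16) (by norm_num)
    (half_pos hε)
  obtain ⟨T₂, hT₂⟩ := small (Real.log 16 * B.C) (13 / 16) (by norm_num) (half_pos hε)
  have e4 : ∀ᶠ q : V × ℝ in 𝓝 (z₀, β₀), P B S q ≠ 0 → max (max T₁ T₂) 0 < ph (P B S q) := by
    have hc := (P_continuous B S).tendsto (z₀, β₀)
    rw [hP] at hc
    exact hc.eventually (ph_large _)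
  filter_upwards [e1, e2, e3, e4] with q hq1 hq2 hq3 hq4 hu
  have hq5 := hq4 hu
  have hE1 : T₁ ≤ ph (P B S q) := ((le_max_left _ _).trans (le_max_left _ _)).trans hq5.le
  have hE2 : T₂ ≤ ph (P B S q) := ((le_max_right _ _).trans (le_max_left _ _)).trans hq5.le
  have hE0 : 0 ≤ ph (P B S q) := (le_max_right _ _).trans hq5.le
  have hTb : Bd (fun q : V × ℝ => Tinv B q.1 q.2) q M M := by
    refine ⟨(Tinv_Bd B hq2 q.2).1, fun v s => ?_⟩
    have h1 : ‖(v, s)‖ ≤ ‖v‖ + |s| := by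
      rw [Prod.norm_def]
      exact max_le (le_add_of_nonneg_right (abs_nonneg _)) (le_add_of_nonneg_left (norm_nonneg _))
    calc _ ≤ ‖fderiv ℝ (fun q : V × ℝ => Tinv B q.1 q.2) q‖ * ‖(v, s)‖ :=
          ContinuousLinearMap.le_opNorm _ _
      _ ≤ M * (‖v‖ + |s|) := mul_le_mul hq1.le h1 (norm_nonneg _) hM0
      _ = _ := by ring
  set σ : ℝ := √(nrm (P B S q)) with hσ
  have hσ0 : 0 ≤ σ := Real.sqrt_nonneg _
  have hPb : Bd (P B S) q (K * σ * M) (K * σ * M + K * σ) :=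
    hTb.comp0 (K := fun q : V × ℝ => Phi B S q.1 q.2) hq3 (by positivity)
  have hG := Gf_Bd B S hPb hu hE0
  have hBC := BC_nonneg B
  have hpw := pw_pos (B.H (ph (P B S q)) (q.2 + 1))
  have hpw' := pw_pos (-(13 / 16 * ph (P B S q)))
  refine (hG.norm_le (by positivity) (by positivity)).trans ?_
  have hHle := B.H_le (ph (P B S q)) (q.2 + 1) hE0
  have h1 := hT₁ _ hE1
  have h2 := hT₂ _ hE2
  have h3 : pw (B.H (ph (P B S q)) (q.2 + 1)) * σ ≤ pw (-(7 / 16 * ph (P B S q))) := by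
    rw [hσ, nrm_eq_pw hu, sqrt_pw, ← pw_add]
    exact pw_le (by linarith)
  have h4 : (1 + Real.log 16) * pw (B.H (ph (P B S q)) (q.2 + 1)) * (K * σ * M)
      + ((1 + Real.log 16) * pw (B.H (ph (P B S q)) (q.2 + 1)) * (K * σ * M + K * σ)
        + Real.log 16 * B.C * pw (-(13 / 16 * ph (P B S q))))
      = (1 + Real.log 16) * K * (2 * M + 1) * (pw (B.H (ph (P B S q)) (q.2 + 1)) * σ)
        + Real.log 16 * B.C * pw (-(13 / 16 * ph (P B S q))) := by ring
  rw [h4]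
  have h5 : (1 + Real.log 16) * K * (2 * M + 1) * (pw (B.H (ph (P B S q)) (q.2 + 1)) * σ)
      ≤ (1 + Real.log 16) * K * (2 * M + 1) * pw (-(7 / 16 * ph (P B S q))) :=
    mul_le_mul_of_nonneg_left h3 (by positivity)
  linarith

/-- the main estimate near `z = 0` -/
theorem main_est {z : V} (hz : z ≠ 0) {β : ℝ} (hu : P B S (z, β) ≠ 0)
    (hE : 1 ≤ eInv B (ph z) β) :
    ‖fderiv ℝ (Gf B S) (z, β)‖ ≤
      (1 + Real.log 16) * (|S.C| * (1 + B.C)) * (1 + Real.log 16)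
          * pw (1 / 2 - B.h (eInv B (ph z) β) β)
        + (1 + Real.log 16) * (|S.C| * (1 + B.C)) * (2 * Real.log 16 * B.C)
          * pw (-(3 / 8 * eInv B (ph z) β))
        + (1 + Real.log 16) * (|S.C| * B.C) * pw (-(7 / 16 * eInv B (ph z) β))
        + Real.log 16 * B.C * pw (13 / 16) * pw (-(13 / 16 * eInv B (ph z) β)) := by
  have hL := L_pos
  have hBC := BC_nonneg B
  set E := eInv B (ph z) β with hEdef
  set w := Tinv B z β with hw
  have hw0 : w ≠ 0 := Tinv_ne B hz β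
  have hphw : ph w = E := ph_Tinv B hz β
  have hnw : nrm w = pw (-E) := by rw [nrm_eq_pw hw0, hphw]
  set u := Phi B S w β with hudef
  have hPu : P B S (z, β) = u := rfl
  rw [hPu] at hu
  set E' := ph u with hE'
  have hE1 : E - 1 ≤ E' := by
    have := ph_Phi_ge B S (z := w) (β := β) hu
    rwa [hphw] at this
  have hE'0 : 0 ≤ E' := by linarith
  have hTb := Tinv_Bd B hz β
  rw [← hEdef] at hTb
  have hnear : nrm w < pw (-(7 / 8)) := by rw [hnw]; exact pw_lt (by linarith)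
  have hPhi := Phi_Bd_near B S hw0 hnear β
  rw [← hudef, hphw, hnw, nrm_eq_pw hu, ← hE', pw_div, sqrt_pw] at hPhi
  set τ := pw ((-E' - -E) / 2) with hτ
  have hτ0 : 0 < τ := pw_pos _
  have hPb : Bd (P B S) (z, β) _ _ :=
    hTb.comp0 (K := fun q : V × ℝ => Phi B S q.1 q.2) hPhi (by positivity)
  have hG := Gf_Bd B S hPb (by rw [hPu]; exact hu) (by rw [hPu]; exact hE'0)
  rw [hPu, ← hE'] at hG
  simp only at hG
  have hH1 := B.H_le E' (β + 1) hE'0
  have hHd := B.H_dβ E β (by linarith)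
  -- first term
  set e := pw (B.H E' (β + 1)) with he
  have he0 : 0 < e := pw_pos _
  set kk := |deriv (fun b => B.H E b) β| with hkk
  have hkk0 : 0 ≤ kk := abs_nonneg _
  have hp1 := pw_pos (-B.H E β)
  have hp2 := pw_pos (-E)
  have hp3 := pw_pos (E / 16)
  have hp4 := pw_pos (-(13 / 16 * E'))
  refine (hG.norm_le (by positivity) (by positivity)).trans ?_
  have t1 : e * τ * pw (-B.H E β) ≤ pw (1 / 2 - B.h E β) := by
    rw [he, hτ, ← pw_add, ← pw_add]
    apply pw_le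
    have h1 := H_lip B (β + 1) (E - 1) E'
    rw [abs_of_nonneg (by linarith : (0 : ℝ) ≤ E' - (E - 1))] at h1
    have h2 := (abs_le.1 h1).2
    have h3 := B.H_rec E β
    linarith
  have t2 : e * τ * (kk * pw (-E)) ≤ B.C * pw (-(3 / 8 * E)) := by
    have h1 : kk * pw (-E) ≤ B.C * pw (E / 8) * pw (-E) :=
      mul_le_mul_of_nonneg_right hHd hp2.le
    calc e * τ * (kk * pw (-E)) ≤ e * τ * (B.C * pw (E / 8) * pw (-E)) :=
          mul_le_mul_of_nonneg_left h1 (by positivity)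
      _ = B.C * (e * τ * pw (E / 8) * pw (-E)) := by ring
      _ ≤ B.C * pw (-(3 / 8 * E)) := by
          refine mul_le_mul_of_nonneg_left ?_ hBC
          rw [he, hτ, ← pw_add, ← pw_add, ← pw_add]
          exact pw_le (by linarith)
  have t3 : e * τ * (pw (E / 16) * pw (-E)) ≤ pw (-(7 / 16 * E)) := by
    rw [he, hτ, ← pw_add, ← pw_add, ← pw_add]
    exact pw_le (by linarith)
  have t4 : pw (-(13 / 16 * E')) ≤ pw (13 / 16) * pw (-(13 / 16 * E)) := by
    rw [← pw_add]; exact pw_le (by linarith)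
  have hS := abs_nonneg S.C
  calc _ = (1 + Real.log 16) * (|S.C| * (1 + B.C)) * (1 + Real.log 16) * (e * τ * pw (-B.H E β))
        + (1 + Real.log 16) * (|S.C| * (1 + B.C)) * (2 * Real.log 16) * (e * τ * (kk * pw (-E)))
        + (1 + Real.log 16) * (|S.C| * B.C) * (e * τ * (pw (E / 16) * pw (-E)))
        + Real.log 16 * B.C * pw (-(13 / 16 * E')) := by ring
    _ ≤ (1 + Real.log 16) * (|S.C| * (1 + B.C)) * (1 + Real.log 16) * pw (1 / 2 - B.h E β)
        + (1 + Real.log 16) * (|S.C| * (1 + B.C)) * (2 * Real.log 16) * (B.C * pw (-(3 / 8 * E)))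
        + (1 + Real.log 16) * (|S.C| * B.C) * pw (-(7 / 16 * E))
        + Real.log 16 * B.C * (pw (13 / 16) * pw (-(13 / 16 * E))) := by
        refine add_le_add (add_le_add (add_le_add ?_ ?_) ?_) ?_
        · exact mul_le_mul_of_nonneg_left t1 (by positivity)
        · exact mul_le_mul_of_nonneg_left t2 (by positivity)
        · exact mul_le_mul_of_nonneg_left t3 (by positivity)
        · exact mul_le_mul_of_nonneg_left t4 (by positivity)
    _ = _ := by ring

/-- the swap -/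
def sw : V →L[ℝ] V := (ContinuousLinearMap.snd ℝ ℂ ℂ).prod (ContinuousLinearMap.fst ℝ ℂ ℂ)

theorem norm_sw (v : V) : ‖sw v‖ = ‖v‖ := by
  show ‖(v.2, v.1)‖ = ‖v‖
  rw [Prod.norm_def, Prod.norm_def, max_comm]

theorem nrm_sw (v : V) : nrm (sw v) = nrm v := by
  show nrm (v.2, v.1) = nrm v
  unfold nrm nsq; rw [add_comm]

/-- Case III: near `(0, β₀)` with `exp (i β₀) ≠ 1` the map is explicit. -/
theorem caseIII {β₀ : ℝ} (hβ : (Circle.exp β₀ : ℂ) ≠ 1) :
    ∃ E₀ : ℝ, (∀ E ≥ E₀, B.h E β₀ = B.h E₀ β₀) ∧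
      (fun q : V × ℝ => sw (pw (1 - B.h E₀ q.2) • q.1)) =ᶠ[𝓝 (0, β₀)] Gf B S := by
  obtain ⟨E₀, hE₀⟩ := B.away β₀ hβ
  refine ⟨E₀, fun E hE => (hE₀.self_of_nhds E hE).2, ?_⟩
  have e1 : ∀ᶠ q : V × ℝ in 𝓝 (0, β₀), ∀ E ≥ E₀, B.X E q.2 = 0 ∧ B.h E q.2 = B.h E₀ q.2 :=
    (continuous_snd.tendsto ((0 : V), β₀)).eventually hE₀
  have e2 : ∀ᶠ q : V × ℝ in 𝓝 (0, β₀), q.1 ≠ 0 → max E₀ 1 < ph q.1 :=
    (continuous_fst.tendsto ((0 : V), β₀)).eventually (ph_large _)
  filter_upwards [e1, e2] with q hq1 hq2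
  obtain ⟨z, β⟩ := q
  simp only at hq1 hq2 ⊢
  by_cases hz : z = 0
  · subst hz
    have : P B S (0, β) = 0 := by unfold P; rw [Tinv_zero, Phi_zero]
    unfold Gf
    rw [this, Tm_zero, smul_zero, map_zero]
  have hq3 := hq2 hz
  set E := eInv B (ph z) β with hEdef
  have hEge := eInv_ge B (ph z) β
  rw [← hEdef] at hEge
  have hEE₀ : E₀ ≤ E := by have := le_max_left E₀ 1; linarith
  have hE1 : 1 ≤ E := by have := le_max_right E₀ 1; linarith
  set w := Tinv B z β with hw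
  have hw0 : w ≠ 0 := Tinv_ne B hz β
  have hphw : ph w = E := ph_Tinv B hz β
  have hnw : nrm w = pw (-E) := by rw [nrm_eq_pw hw0, hphw]
  have hnear : nrm w < pw (-(7 / 8)) := by rw [hnw]; exact pw_lt (by linarith)
  have hP : P B S (z, β) = pw 1 • sw w := by
    show Phi B S w β = _
    rw [Phi_near B S hw0 hnear, hphw, (hq1 E hEE₀).1, S.R_zero w hw0, pw_one]
    show _ = (16 : ℝ) • (w.2, w.1)
    ext <;> simp
  have hsw0 : sw w ≠ 0 := by
    intro h
    have := norm_sw w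
    rw [h, norm_zero] at this
    exact hw0 (norm_eq_zero.1 this.symm)
  have hphs : ph (sw w) = E := by
    refine ph_eq_of hsw0 ?_
    rw [nrm_sw, hnw]
  show sw (pw (1 - B.h E₀ β) • z) = Tm B (P B S (z, β)) (β + 1)
  rw [hP]
  unfold Tm
  rw [ph_smul hsw0, hphs, smul_smul, ← pw_add]
  have hwz : w = pw (ph z - E) • z := rfl
  rw [hwz, map_smul, map_smul, smul_smul, ← pw_add]
  congr 2
  have h1 := eInv_spec B (ph z) β
  rw [← hEdef] at h1
  have h2 := B.H_rec E β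
  have h3 := (hq1 E hEE₀).2
  linarith

theorem caseIII_Bd {β₀ : ℝ} (hβ : (Circle.exp β₀ : ℂ) ≠ 1) :
    ∃ E₀ : ℝ, (∀ E ≥ E₀, B.h E β₀ = B.h E₀ β₀) ∧
      Bd (Gf B S) (0, β₀) (pw (1 - B.h E₀ β₀)) 0 := by
  obtain ⟨E₀, h1, h2⟩ := caseIII B S hβ
  refine ⟨E₀, h1, ?_⟩
  refine Bd.congr ?_ h2
  have hg : ContDiff ℝ 1 (fun q : V × ℝ => 1 - B.h E₀ q.2) :=
    contDiff_const.sub (B.h_contDiff.comp (contDiff_const.prodMk contDiff_snd))
  have hgb : Bd (fun q : V × ℝ => 1 - B.h E₀ q.2) (0, β₀)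
      ‖fderiv ℝ (fun q : V × ℝ => 1 - B.h E₀ q.2) (0, β₀)‖
      ‖fderiv ℝ (fun q : V × ℝ => 1 - B.h E₀ q.2) (0, β₀)‖ := by
    refine ⟨hg.contDiffAt, fun v s => ?_⟩
    have h1 : ‖(v, s)‖ ≤ ‖v‖ + |s| := by
      rw [Prod.norm_def]
      exact max_le (le_add_of_nonneg_right (abs_nonneg _)) (le_add_of_nonneg_left (norm_nonneg _))
    rw [← mul_add]
    exact (ContinuousLinearMap.le_opNorm _ _).trans (mul_le_mul_of_nonneg_left h1 (norm_nonneg _))
  have h3 := hgb.smul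
  have hd := (h3.1.differentiableAt (by norm_num)).hasFDerivAt
  refine ⟨sw.contDiff.contDiffAt.comp _ h3.1, fun v s => ?_⟩
  have hd2 : HasFDerivAt (fun q : V × ℝ => sw (pw (1 - B.h E₀ q.2) • q.1)) _ (0, β₀) :=
    sw.hasFDerivAt.comp _ hd
  rw [hd2.fderiv, ContinuousLinearMap.comp_apply, norm_sw]
  refine (h3.2 v s).trans (le_of_eq ?_)
  simp

theorem contDiff_Gf : ContDiff ℝ 1 (Gf B S) := by
  set U : Set (V × ℝ) := {q | P B S q ≠ 0} ∪ {q | q.1 = 0 ∧ (Circle.exp q.2 : ℂ) ≠ 1} with hUdef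
  have hexpc : Continuous (fun b : ℝ => (Circle.exp b : ℂ)) :=
    continuous_subtype_val.comp Circle.exp.continuous
  have hU : IsOpen U := by
    rw [isOpen_iff_mem_nhds]
    rintro ⟨z, β⟩ (hq | ⟨h0, hβ⟩)
    · exact mem_of_superset ((isOpen_ne.preimage (P_continuous B S)).mem_nhds hq)
        subset_union_left
    · simp only at h0 hβ
      subst h0
      obtain ⟨E₀, -, h2⟩ := caseIII B S hβ
      have e1 : ∀ᶠ q : V × ℝ in 𝓝 (0, β), (Circle.exp q.2 : ℂ) ≠ 1 :=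
        (isOpen_ne.preimage (hexpc.comp continuous_snd)).mem_nhds hβ
      filter_upwards [e1, h2] with q hq1 hq2
      by_cases hz : q.1 = 0
      · exact Or.inr ⟨hz, hq1⟩
      · left
        apply P_ne_of_Gf
        rw [← hq2]
        intro h
        have := norm_sw (pw (1 - B.h E₀ q.2) • q.1)
        rw [h, norm_zero] at this
        exact pw_smul_ne hz _ (norm_eq_zero.1 this.symm)
  refine contDiff_of (Gf B S) U hU (Gf_continuous B S) ?_ ?_ ?_
  · rintro ⟨z, β⟩ (hq | ⟨h0, hβ⟩)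
    · exact Gf_contDiffAt B S hq
    · simp only at h0 hβ
      subst h0
      obtain ⟨E₀, -, h⟩ := caseIII_Bd B S hβ
      exact h.1
  · intro q hq
    have h1 : P B S q = 0 := by
      by_contra h; exact hq (Or.inl h)
    unfold Gf; rw [h1, Tm_zero]
  · intro q₀ hq₀ ε hε
    have hP : P B S q₀ = 0 := by
      by_contra h; exact hq₀ (Or.inl h)
    by_cases hz : q₀.1 = 0
    swap
    · have e1 : ∀ᶠ q : V × ℝ in 𝓝 q₀, q.1 ≠ 0 :=
        (isOpen_ne.preimage continuous_fst).mem_nhds hz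
      filter_upwards [caseII B S hz hP hε, e1] with q hq1 hq2 hqU
      rcases hqU with hq | hq
      · exact hq1 hq
      · exact absurd hq.1 hq2
    obtain ⟨z₀, β₀⟩ := q₀
    simp only at hz
    subst hz
    have hβ : (Circle.exp β₀ : ℂ) = 1 := by
      by_contra h; exact hq₀ (Or.inr ⟨rfl, h⟩)
    have hL := L_pos
    have hBC := BC_nonneg B
    have hS := abs_nonneg S.C
    set c₁ := (1 + Real.log 16) * (|S.C| * (1 + B.C)) * (1 + Real.log 16) with hc₁
    have hc₁0 : 0 ≤ c₁ := by positivity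
    obtain ⟨R₁, hR₁⟩ := small (c₁ * pw (1 / 2)) 1 one_pos (show 0 < ε / 4 by positivity)
    obtain ⟨R₂, hR₂⟩ := small (pw 1) 1 one_pos hε
    obtain ⟨T₂, hT₂⟩ := small ((1 + Real.log 16) * (|S.C| * (1 + B.C)) * (2 * Real.log 16 * B.C))
      (3 / 8) (by norm_num) (show 0 < ε / 4 by positivity)
    obtain ⟨T₃, hT₃⟩ := small ((1 + Real.log 16) * (|S.C| * B.C)) (7 / 16) (by norm_num)
      (show 0 < ε / 4 by positivity)
    obtain ⟨T₄, hT₄⟩ := small (Real.log 16 * B.C * pw (13 / 16)) (13 / 16) (by norm_num)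
      (show 0 < ε / 4 by positivity)
    obtain ⟨T₁, δ, hδ, hlarge⟩ := B.h_large (max R₁ R₂)
    have e1 : ∀ᶠ q : V × ℝ in 𝓝 (0, β₀), ‖(Circle.exp q.2 : ℂ) - 1‖ < δ := by
      have hc : Continuous (fun q : V × ℝ => ‖(Circle.exp q.2 : ℂ) - 1‖) :=
        ((hexpc.comp continuous_snd).sub continuous_const).norm
      have := hc.tendsto (0, β₀)
      simp only [hβ, sub_self, norm_zero] at this
      exact this.eventually (gt_mem_nhds hδ)
    have e2 : ∀ᶠ q : V × ℝ in 𝓝 (0, β₀), q.1 ≠ 0 →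
        max (max (max T₁ T₂) (max T₃ T₄)) 1 < ph q.1 :=
      (continuous_fst.tendsto ((0 : V), β₀)).eventually (ph_large _)
    filter_upwards [e1, e2] with q hq1 hq2 hqU
    obtain ⟨z, β⟩ := q
    simp only at hq1 hq2
    by_cases hz : z = 0
    · subst hz
      have hβ1 : (Circle.exp β : ℂ) ≠ 1 := by
        rcases hqU with hq | hq
        · exact absurd rfl (fst_ne_of_P B S hq)
        · exact hq.2
      obtain ⟨E₀, h1, h2⟩ := caseIII_Bd B S hβ1
      refine (h2.norm_le (pw_pos _).le le_rfl).trans ?_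
      rw [add_zero]
      have h3 := hlarge (max E₀ T₁) (le_max_right _ _) β hq1
      rw [h1 _ (le_max_left _ _)] at h3
      have h4 := hR₂ (B.h E₀ β) ((le_max_right _ _).trans h3)
      rw [one_mul, ← pw_add] at h4
      rw [sub_eq_add_neg]; exact h4
    · have hq3 := hq2 hz
      have hu : P B S (z, β) ≠ 0 := by
        rcases hqU with hq | hq
        · exact hq
        · exact absurd hq.1 hz
      have hEge := eInv_ge B (ph z) β
      have hm1 : T₁ ≤ max (max (max T₁ T₂) (max T₃ T₄)) 1 :=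
        ((le_max_left _ _).trans (le_max_left _ _)).trans (le_max_left _ _)
      have hm2 : T₂ ≤ max (max (max T₁ T₂) (max T₃ T₄)) 1 :=
        ((le_max_right _ _).trans (le_max_left _ _)).trans (le_max_left _ _)
      have hm3 : T₃ ≤ max (max (max T₁ T₂) (max T₃ T₄)) 1 :=
        ((le_max_left _ _).trans (le_max_right _ _)).trans (le_max_left _ _)
      have hm4 : T₄ ≤ max (max (max T₁ T₂) (max T₃ T₄)) 1 :=
        ((le_max_right _ _).trans (le_max_right _ _)).trans (le_max_left _ _)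
      have hm5 : 1 ≤ max (max (max T₁ T₂) (max T₃ T₄)) 1 := le_max_right _ _
      have hmain := main_est B S hz hu (by linarith)
      have h1 := hlarge (eInv B (ph z) β) (by linarith) β hq1
      have h2 := hR₁ (B.h (eInv B (ph z) β) β) ((le_max_left _ _).trans h1)
      rw [one_mul, mul_assoc, ← pw_add, ← sub_eq_add_neg] at h2
      have h3 := hT₂ (eInv B (ph z) β) (by linarith)
      have h4 := hT₃ (eInv B (ph z) β) (by linarith)
      have h5 := hT₄ (eInv B (ph z) β) (by linarith)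
      linarith

end D

theorem exists_fibreMap (B : BaseData) (S : ShellData) :
    ∃ F : FibreMap, ∀ z β, F.G (Tm B z β) β = Tm B (Phi B S z β) (β + 1) := by
  have hout : ∀ (z : V) (β : ℝ), 1 ≤ nrm z → D.P B S (z, β) = S.Fo z := by
    intro z β hz
    have hz0 : z ≠ 0 := by rintro rfl; rw [D.nrm_zero] at hz; linarith
    have h1 : D.P B S (z, β) = Phi B S (D.Tinv B z β) β := rfl
    have hph : ph z ≤ 0 := by
      rw [D.nrm_eq_pw hz0, ← D.pw_zero, D.pw_le_iff] at hz; linarith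
    rw [h1, D.Tinv_of_le B (by linarith), D.Phi_far B S]
    refine lt_of_lt_of_le ?_ hz
    rw [← D.pw_zero]; exact D.pw_lt (by norm_num)
  refine ⟨⟨fun z β => D.Gf B S (z, β), D.contDiff_Gf B S, ?_, ?_, ?_⟩, ?_⟩
  · intro z β
    simp only [D.Gf, D.P]
    have h1 : D.Tinv B z (β + 2 * π) = D.Tinv B z β := by
      unfold D.Tinv; rw [D.eInv_periodic]
    have h2 : ∀ w, Phi B S w (β + 2 * π) = Phi B S w β := by
      intro w; unfold Phi; rw [B.X_periodic]
    have h3 : ∀ w, Tm B w (β + 2 * π + 1) = Tm B w (β + 1) := by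
      intro w; unfold Tm
      rw [show β + 2 * π + 1 = β + 1 + 2 * π by ring, B.H_periodic]
    rw [h1, h2, h3]
  · intro z z' β hz hz' h
    simp only [D.Gf]
    rw [hout z β hz, hout z' β hz', S.Fo_outer z z' hz hz' h]
  · intro z β hz h
    simp only [D.Gf]
    rw [hout z β hz, S.Fo_far z hz h]
    refine D.Tm_of_le B ?_ _
    have hn1 : 0 < Complex.normSq z.1 := by linarith
    have hne : z.1 ≠ 0 := by
      intro h0; rw [h0, map_zero] at hn1; exact lt_irrefl _ hn1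
    set y : V := (pw (3 / 8) * z.1 ^ 2 / Complex.normSq z.1, 0) with hy
    have hy1 : y.1 ≠ 0 := by
      simp only [hy]
      have h1 : (pw (3 / 8) : ℂ) ≠ 0 := by exact_mod_cast (D.pw_pos _).ne'
      have h2 : (Complex.normSq z.1 : ℂ) ≠ 0 := by exact_mod_cast hn1.ne'
      exact div_ne_zero (mul_ne_zero h1 (pow_ne_zero 2 hne)) h2
    have hy0 : y ≠ 0 := fun h0 => hy1 (by rw [h0]; rfl)
    have hnorm : ‖y.1‖ = pw (3 / 8) := by
      simp only [hy]
      rw [norm_div, norm_mul, norm_pow, Complex.norm_real, Complex.norm_real, Real.norm_eq_abs,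
        Real.norm_eq_abs, abs_of_pos (D.pw_pos _), abs_of_pos hn1, Complex.normSq_eq_norm_sq]
      have : ‖z.1‖ ≠ 0 := norm_ne_zero_iff.2 hne
      field_simp
    have h1 : pw (3 / 8) ≤ nrm y := by
      rw [← hnorm]
      exact (norm_fst_le y).trans (D.norm_le_nrm y)
    rw [D.nrm_eq_pw hy0, D.pw_le_iff] at h1
    linarith
  · intro z β
    simp only [D.Gf, D.P]
    rw [D.Tinv_Tm]

end

end Crest.Agent.S0163
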