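/-
S0163 package E: smooth structure on `Mt` modelled on `EuclideanSpace ℝ (Fin 5)`.
-/
import Crest.Agent.S0163_Defs

set_option autoImplicit false

open Real Set Filter Topology
open scoped Manifold ContDiff

namespace Crest.Agent.S0163

namespace PkgE

/-! ### change of the model space -/
section Change

variable {E H E' M : Type} [NormedAddCommGroup E] [NormedSpace ℝ E] [TopologicalSpace H]
  (I : ModelWithCorners ℝ E H) [I.Boundaryless] [TopologicalSpace M] [ChartedSpace H M]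
  [NormedAddCommGroup E'] [NormedSpace ℝ E'] (L : E ≃L[ℝ] E')

/-- the homeomorphism from the old model space to the new one -/
noncomputable def phiH : H ≃ₜ E' := I.toHomeomorph.trans L.toHomeomorph

/-- the new charted space structure -/
@[reducible] noncomputable def newCS (M : Type) [TopologicalSpace M] [ChartedSpace H M] :
    ChartedSpace E' M where
  atlas := {e' | ∃ e ∈ atlas H M, e' = e.transHomeomorph (phiH I L)}
  chartAt x := (chartAt H x).transHomeomorph (phiH I L)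
  mem_chart_source x := mem_chart_source H x
  chart_mem_atlas x := ⟨_, chart_mem_atlas H x, rfl⟩

theorem newCS_isManifold (n : ℕ∞ω) [IsManifold I n M] :
    letI := newCS I L M
    IsManifold (modelWithCornersSelf ℝ E') n M := by
  let _ := newCS I L M
  refine isManifold_of_contDiffOn _ n M ?_
  rintro _ _ ⟨e, he, rfl⟩ ⟨e', he', rfl⟩
  have h := HasGroupoid.compatible (G := contDiffGroupoid n I) he he'
  have h2 := (mem_groupoid_of_pregroupoid.1 h).1
  have h3 : ContDiffOn ℝ n (I ∘ (e.symm ≫ₕ e') ∘ I.symm)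
      (I.symm ⁻¹' (e.symm ≫ₕ e').source ∩ range I) := h2
  have h4 : ContDiffOn ℝ n (L ∘ (I ∘ (e.symm ≫ₕ e') ∘ I.symm) ∘ L.symm)
      (L.symm ⁻¹' (I.symm ⁻¹' (e.symm ≫ₕ e').source ∩ range I)) :=
    L.contDiff.comp_contDiffOn (h3.comp L.symm.contDiff.contDiffOn (fun y hy => hy))
  refine h4.mono ?_
  rintro y ⟨hy, -⟩
  refine ⟨?_, ?_⟩
  · have hy' : y ∈ ((e.transHomeomorph (phiH I L)).symm ≫ₕ e'.transHomeomorph (phiH I L)).source := hy
    rw [OpenPartialHomeomorph.trans_source] at hy'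
    show I.symm (L.symm y) ∈ (e.symm ≫ₕ e').source
    rw [OpenPartialHomeomorph.trans_source]
    exact hy'
  · rw [I.range_eq_univ]; trivial

theorem newCS_contMDiff (n : ℕ∞ω) (f : M → M) (hf : ContMDiff I I n f) :
    letI := newCS I L M
    ContMDiff (modelWithCornersSelf ℝ E') (modelWithCornersSelf ℝ E') n f := by
  let _ := newCS I L M
  intro x
  have h := hf x
  rw [contMDiffAt_iff] at h
  refine contMDiffAt_iff.2 ⟨h.1, ?_⟩
  have h2 := h.2
  rw [I.range_eq_univ, contDiffWithinAt_univ] at h2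
  have h3 : ContDiffAt ℝ n (L ∘ (extChartAt I (f x) ∘ f ∘ (extChartAt I x).symm) ∘ L.symm)
      (L (extChartAt I x x)) := by
    refine L.contDiff.contDiffAt.comp _ (ContDiffAt.comp _ ?_ L.symm.contDiff.contDiffAt)
    rw [L.symm_apply_apply]
    exact h2
  exact h3.contDiffWithinAt

end Change

/-! ### local smoothness of the building blocks -/

theorem S2_sq (v : S2) : (v : EuclideanSpace ℝ (Fin 3)) 0 ^ 2 + (v : EuclideanSpace ℝ (Fin 3)) 1 ^ 2
      + (v : EuclideanSpace ℝ (Fin 3)) 2 ^ 2 = 1 := by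
  have := EuclideanSpace.real_norm_sq_eq (v : EuclideanSpace ℝ (Fin 3))
  rw [norm_eq_of_mem_sphere v, Fin.sum_univ_three] at this
  linarith

/-- stereographic coordinate -/
noncomputable def sto (u : EuclideanSpace ℝ (Fin 3)) : ℂ :=
  ((u 0 / (1 - u 2) : ℝ) : ℂ) + ((u 1 / (1 - u 2) : ℝ) : ℂ) * Complex.I

theorem cl_eq_sto (v : S2) (hv : (v : EuclideanSpace ℝ (Fin 3)) 2 ≤ 1 / 2) : cl v = sto v := by
  rw [cl, if_pos hv, sto]
  apply Complex.ext <;>
  simp only [Complex.add_re, Complex.add_im, Complex.ofReal_re, Complex.ofReal_im, Complex.mul_re,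
    Complex.mul_im, Complex.I_re, Complex.I_im] <;> ring

theorem cl_normSq (v : S2) (hv : 0 ≤ (v : EuclideanSpace ℝ (Fin 3)) 2) :
    1 ≤ Complex.normSq (cl v) := by
  rw [cl]
  split_ifs with h
  · rw [Complex.normSq_mk]
    have h1 := S2_sq v
    set a := (v : EuclideanSpace ℝ (Fin 3)) 0
    set b := (v : EuclideanSpace ℝ (Fin 3)) 1
    set c := (v : EuclideanSpace ℝ (Fin 3)) 2
    have h2 : 0 < 1 - c := by linarith
    have h3 : a / (1 - c) * (a / (1 - c)) + b / (1 - c) * (b / (1 - c)) = (1 + c) / (1 - c) := by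
      field_simp
      nlinarith
    rw [h3, le_div_iff₀ h2]
    linarith
  · have : Complex.normSq (2 : ℂ) = 4 := by
      rw [Complex.normSq_ofNat]; norm_num
    rw [this]; norm_num

theorem contDiffAt_sto {n : ℕ∞ω} {u : EuclideanSpace ℝ (Fin 3)} (hu : u 2 ≠ 1) :
    ContDiffAt ℝ n sto u := by
  have h0 : ∀ i : Fin 3, ContDiffAt ℝ n (fun u : EuclideanSpace ℝ (Fin 3) => u i) u := by
    intro i
    have : ContDiff ℝ n (fun u : EuclideanSpace ℝ (Fin 3) => u i) := by fun_prop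
    exact this.contDiffAt
  have h1 : ContDiffAt ℝ n (fun u : EuclideanSpace ℝ (Fin 3) => 1 - u 2) u :=
    contDiffAt_const.sub (h0 2)
  have h2 : (1 - u 2) ≠ 0 := by
    intro h; apply hu; linarith
  have h3 : ∀ i : Fin 3, ContDiffAt ℝ n
      (fun u : EuclideanSpace ℝ (Fin 3) => ((u i / (1 - u 2) : ℝ) : ℂ)) u := by
    intro i
    exact Complex.ofRealCLM.contDiff.contDiffAt.comp u ((h0 i).div h1 h2)
  exact (h3 0).add ((h3 1).mul contDiffAt_const)

theorem contDiff_qcut {n : ℕ∞} : ContDiff ℝ n qcut := by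
  unfold qcut
  have : ContDiff ℝ n Real.smoothTransition := Real.smoothTransition.contDiff
  exact contDiff_const.sub (this.comp (by fun_prop))

theorem contDiff_normSq {n : ℕ∞} : ContDiff ℝ n (fun x : ℂ => Complex.normSq x) := by
  have h : (fun x : ℂ => Complex.normSq x) = fun x => Complex.reCLM x * Complex.reCLM x +
      Complex.imCLM x * Complex.imCLM x := by
    funext x; rw [Complex.normSq_apply]; rfl
  rw [h]
  exact (Complex.reCLM.contDiff.mul Complex.reCLM.contDiff).add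
    (Complex.imCLM.contDiff.mul Complex.imCLM.contDiff)

theorem contDiff_iotaVec {n : ℕ∞} : ContDiff ℝ n iotaVec := by
  rw [contDiff_euclidean]
  have hq : ContDiff ℝ n (fun x : ℂ => qcut (Complex.normSq x)) := contDiff_qcut.comp contDiff_normSq
  intro i
  fin_cases i
  · have : ContDiff ℝ n (fun x : ℂ => 2 * qcut (Complex.normSq x) * x.re) :=
      (contDiff_const.mul hq).mul Complex.reCLM.contDiff
    exact this
  · have : ContDiff ℝ n (fun x : ℂ => 2 * qcut (Complex.normSq x) * x.im) :=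
      (contDiff_const.mul hq).mul Complex.imCLM.contDiff
    exact this
  · have : ContDiff ℝ n (fun x : ℂ => Complex.normSq x - 1) := contDiff_normSq.sub contDiff_const
    exact this

instance fact3 : Fact (Module.finrank ℝ (EuclideanSpace ℝ (Fin 3)) = 2 + 1) :=
  Fact.mk (@finrank_euclideanSpace_fin ℝ _ 3)

theorem contMDiff_iota : ContMDiff 𝓘(ℝ, ℂ) (𝓡 2) 1 iota := by
  have h1 : ContDiff ℝ 1 iotaVec := contDiff_iotaVec (n := 1)
  have h : ContDiff ℝ 1 (fun x : ℂ => ‖iotaVec x‖⁻¹ • iotaVec x) :=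
    ((h1.norm ℝ iotaVec_ne_zero).inv fun x => norm_ne_zero_iff.2 (iotaVec_ne_zero x)).smul h1
  have h2 : ContMDiff 𝓘(ℝ, ℂ) 𝓘(ℝ, EuclideanSpace ℝ (Fin 3)) 1
      (fun x : ℂ => ‖iotaVec x‖⁻¹ • iotaVec x) := h.contMDiff
  exact h2.codRestrict_sphere (fun x => (iota x).2)

theorem iota_far (x : ℂ) (hx : 4 ≤ Complex.normSq x) : iota x = iota 2 := by
  have key : ∀ y : ℂ, 4 ≤ Complex.normSq y → ((iota y : S2) : EuclideanSpace ℝ (Fin 3)) = !₂[0, 0, 1] := by
    intro y hy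
    have hq : qcut (Complex.normSq y) = 0 := by
      rw [qcut, Real.smoothTransition.one_of_one_le (by linarith)]; ring
    have h1 : iotaVec y = (Complex.normSq y - 1) • (!₂[0, 0, 1] : EuclideanSpace ℝ (Fin 3)) := by
      ext i
      fin_cases i <;> simp [iotaVec, hq]
    have h2 : ‖(!₂[0, 0, 1] : EuclideanSpace ℝ (Fin 3))‖ = 1 := by
      rw [EuclideanSpace.norm_eq, Fin.sum_univ_three]
      simp
    show ‖iotaVec y‖⁻¹ • iotaVec y = _
    have h3 : 0 < Complex.normSq y - 1 := by linarith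
    rw [h1, norm_smul, h2, mul_one, Real.norm_of_nonneg h3.le, smul_smul, inv_mul_cancel₀ h3.ne',
      one_smul]
  apply Subtype.ext
  rw [key x hx, key 2 (by rw [Complex.normSq_ofNat]; norm_num)]

/-- local branch of the angle -/
noncomputable def ang (b₀ b : Circle) : ℝ :=
  (Complex.log ((b : ℂ) * ((b₀⁻¹ : Circle) : ℂ))).im + Complex.arg b₀

theorem exp_ang (b₀ b : Circle) : Circle.exp (ang b₀ b) = b := by
  rw [ang, Complex.log_im, Circle.exp_add, ← Circle.coe_mul, Circle.exp_arg, Circle.exp_arg,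
    inv_mul_cancel_right]

theorem per_int (F : FibreMap) (z : V) (β : ℝ) (m : ℤ) :
    F.G z (β + m * (2 * π)) = F.G z β := by
  have : Function.Periodic (F.G z) (2 * π) := fun β => F.periodic z β
  exact this.int_mul m β

theorem G_ang (F : FibreMap) (z : V) (b₀ b : Circle) :
    F.G z (Complex.arg b) = F.G z (ang b₀ b) := by
  have h : Circle.exp (Complex.arg b) = Circle.exp (ang b₀ b) := by
    rw [exp_ang, Circle.exp_arg]
  rw [Circle.exp_eq_exp] at h
  obtain ⟨m, hm⟩ := h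
  rw [hm, per_int]

/-- the product model -/
noncomputable abbrev I5 := (𝓡 2).prod ((𝓡 2).prod (𝓡 1))

theorem contMDiff_circle_coe : ContMDiff (𝓡 1) 𝓘(ℝ, ℂ) 1 (fun b : Circle => (b : ℂ)) := by
  have : Fact (Module.finrank ℝ ℂ = 1 + 1) := finrank_real_complex_fact'
  exact contMDiff_coe_sphere

theorem contMDiffAt_ang (b₀ : Circle) : ContMDiffAt (𝓡 1) 𝓘(ℝ, ℝ) 1 (ang b₀) b₀ := by
  have h1 : ContDiffAt ℝ 1 (fun z : ℂ => (Complex.log (z * ((b₀⁻¹ : Circle) : ℂ))).im + Complex.arg b₀)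
      (b₀ : ℂ) := by
    have h2 : ContDiffAt ℝ 1 (fun z : ℂ => Complex.log z) ((b₀ : ℂ) * ((b₀⁻¹ : Circle) : ℂ)) := by
      have : (b₀ : ℂ) * ((b₀⁻¹ : Circle) : ℂ) ∈ Complex.slitPlane := by
        rw [← Circle.coe_mul, mul_inv_cancel, Circle.coe_one]
        exact Complex.one_mem_slitPlane
      exact (Complex.contDiffAt_log this).restrict_scalars ℝ
    have h3 : ContDiffAt ℝ 1 (fun z : ℂ => z * ((b₀⁻¹ : Circle) : ℂ)) (b₀ : ℂ) :=
      contDiffAt_id.mul contDiffAt_const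
    have h5 : ContDiffAt ℝ 1 (fun z : ℂ => Complex.log (z * ((b₀⁻¹ : Circle) : ℂ))) (b₀ : ℂ) :=
      ContDiffAt.comp (g := fun z : ℂ => Complex.log z) (f := fun z : ℂ => z * ((b₀⁻¹ : Circle) : ℂ))
        (b₀ : ℂ) h2 h3
    exact (Complex.imCLM.contDiff.contDiffAt.comp (b₀ : ℂ) h5).add contDiffAt_const
  have h4 : ContMDiffAt 𝓘(ℝ, ℂ) 𝓘(ℝ, ℝ) 1
      (fun z : ℂ => (Complex.log (z * ((b₀⁻¹ : Circle) : ℂ))).im + Complex.arg b₀) (b₀ : ℂ) :=
    h1.contMDiffAt
  exact h4.comp b₀ (contMDiff_circle_coe b₀)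

theorem contMDiffAt_sto (v₀ : S2) (hv : (v₀ : EuclideanSpace ℝ (Fin 3)) 2 ≠ 1) :
    ContMDiffAt (𝓡 2) 𝓘(ℝ, ℂ) 1 (fun v : S2 => sto v) v₀ := by
  have h1 : ContMDiffAt 𝓘(ℝ, EuclideanSpace ℝ (Fin 3)) 𝓘(ℝ, ℂ) 1 sto
      (v₀ : EuclideanSpace ℝ (Fin 3)) := (contDiffAt_sto hv).contMDiffAt
  have h2 : ContMDiff (𝓡 2) 𝓘(ℝ, EuclideanSpace ℝ (Fin 3)) 1
    (fun v : S2 => (v : EuclideanSpace ℝ (Fin 3))) := contMDiff_coe_sphere
  exact h1.comp v₀ (h2 v₀)

/-- assembling a map to `Mt` from a local description -/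
theorem contMDiffAt_liftM_of (F : FibreMap) (p₀ : Mt) (Z : Mt → V)
    (hZ : ContMDiffAt I5 𝓘(ℝ, V) 1 Z p₀)
    (heq : ∀ᶠ p in 𝓝 p₀, ∀ β : ℝ, F.G (cl p.1, cl p.2.1) β = F.G (Z p) β) :
    ContMDiffAt I5 I5 1 (liftM F.G) p₀ := by
  have hb : ContMDiffAt I5 (𝓡 1) 1 (fun p : Mt => p.2.2) p₀ :=
    (contMDiff_snd.comp contMDiff_snd) p₀
  have hang : ContMDiffAt I5 𝓘(ℝ, ℝ) 1 (fun p : Mt => ang p₀.2.2 p.2.2) p₀ :=
    ContMDiffAt.comp (g := ang p₀.2.2) (f := fun p : Mt => p.2.2) p₀ (contMDiffAt_ang p₀.2.2) hb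
  have hpair : ContMDiffAt I5 𝓘(ℝ, V × ℝ) 1 (fun p : Mt => (Z p, ang p₀.2.2 p.2.2)) p₀ :=
    hZ.prodMk_space hang
  have hW : ContMDiffAt I5 𝓘(ℝ, V) 1 (fun p : Mt => F.G (Z p) (ang p₀.2.2 p.2.2)) p₀ :=
    ContMDiffAt.comp (g := fun q : V × ℝ => F.G q.1 q.2)
      (f := fun p : Mt => (Z p, ang p₀.2.2 p.2.2)) p₀ (F.contDiff.contMDiff _) hpair
  have hW1 : ContMDiffAt I5 𝓘(ℝ, ℂ) 1 (fun p : Mt => (F.G (Z p) (ang p₀.2.2 p.2.2)).1) p₀ :=
    ContMDiffAt.comp (g := fun q : V => q.1)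
      (f := fun p : Mt => F.G (Z p) (ang p₀.2.2 p.2.2)) p₀ (contDiff_fst.contMDiff _) hW
  have hW2 : ContMDiffAt I5 𝓘(ℝ, ℂ) 1 (fun p : Mt => (F.G (Z p) (ang p₀.2.2 p.2.2)).2) p₀ :=
    ContMDiffAt.comp (g := fun q : V => q.2)
      (f := fun p : Mt => F.G (Z p) (ang p₀.2.2 p.2.2)) p₀ (contDiff_snd.contMDiff _) hW
  have hi1 : ContMDiffAt I5 (𝓡 2) 1 (fun p : Mt => iota (F.G (Z p) (ang p₀.2.2 p.2.2)).1) p₀ :=
    ContMDiffAt.comp (g := iota)
      (f := fun p : Mt => (F.G (Z p) (ang p₀.2.2 p.2.2)).1) p₀ (contMDiff_iota _) hW1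
  have hi2 : ContMDiffAt I5 (𝓡 2) 1 (fun p : Mt => iota (F.G (Z p) (ang p₀.2.2 p.2.2)).2) p₀ :=
    ContMDiffAt.comp (g := iota)
      (f := fun p : Mt => (F.G (Z p) (ang p₀.2.2 p.2.2)).2) p₀ (contMDiff_iota _) hW2
  have hm : ContMDiffAt I5 (𝓡 1) 1 (fun p : Mt => p.2.2 * Circle.exp 1) p₀ :=
    hb.mul contMDiffAt_const
  have hall := hi1.prodMk (hi2.prodMk hm)
  refine hall.congr_of_eventuallyEq ?_
  filter_upwards [heq] with p hp
  rw [liftM, hp, G_ang F (Z p) p₀.2.2]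

/-- the value near the outer region `v₂ > 0` -/
theorem iota_G_far (F : FibreMap) (z : V) (β : ℝ) (h1 : 1 ≤ Complex.normSq z.1) :
    iota (F.G z β).1 = iota 2 ∧ iota (F.G z β).2 = iota 0 := by
  have hn : 1 ≤ nrm z := by
    rw [nrm, Real.one_le_sqrt, nsq]
    linarith [Complex.normSq_nonneg z.2]
  rw [F.far z β hn (by linarith)]
  refine ⟨?_, rfl⟩
  apply iota_far
  have h2 : Complex.normSq z.1 ≠ 0 := by linarith
  show 4 ≤ Complex.normSq ((pw (3 / 8) : ℂ) * z.1 ^ 2 / (Complex.normSq z.1 : ℂ))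
  rw [map_div₀, map_mul, map_pow, Complex.normSq_ofReal, Complex.normSq_ofReal]
  have h3 : pw (3 / 8) * pw (3 / 8) = 8 := by
    rw [pw, ← Real.exp_add]
    have : 3 / 8 * Real.log 16 + 3 / 8 * Real.log 16 = Real.log 8 := by
      have h16 : Real.log 16 = 4 * Real.log 2 := by
        rw [show (16 : ℝ) = 2 ^ 4 by norm_num, Real.log_pow]; norm_num
      have h8 : Real.log 8 = 3 * Real.log 2 := by
        rw [show (8 : ℝ) = 2 ^ 3 by norm_num, Real.log_pow]; norm_num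
      rw [h16, h8]; ring
    rw [this, Real.exp_log (by norm_num)]
  rw [h3, sq, mul_div_assoc, div_self (mul_ne_zero h2 h2)]
  norm_num

theorem contMDiff_liftM (F : FibreMap) : ContMDiff I5 I5 1 (liftM F.G) := by
  intro p₀
  have hc1 : Continuous (fun p : Mt => (p.1 : EuclideanSpace ℝ (Fin 3)) 2) := by fun_prop
  have hc2 : Continuous (fun p : Mt => (p.2.1 : EuclideanSpace ℝ (Fin 3)) 2) := by fun_prop
  have hs1 : ContMDiffAt I5 (𝓡 2) 1 (fun p : Mt => p.1) p₀ := contMDiff_fst p₀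
  have hs2 : ContMDiffAt I5 (𝓡 2) 1 (fun p : Mt => p.2.1) p₀ := (contMDiff_fst.comp contMDiff_snd) p₀
  by_cases hv : 0 < (p₀.1 : EuclideanSpace ℝ (Fin 3)) 2
  · -- constant first two components
    have hb : ContMDiffAt I5 (𝓡 1) 1 (fun p : Mt => p.2.2) p₀ :=
      (contMDiff_snd.comp contMDiff_snd) p₀
    have hm : ContMDiffAt I5 (𝓡 1) 1 (fun p : Mt => p.2.2 * Circle.exp 1) p₀ :=
      hb.mul contMDiffAt_const
    have hall : ContMDiffAt I5 I5 1 (fun p : Mt => (iota 2, iota 0, p.2.2 * Circle.exp 1)) p₀ :=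
      contMDiffAt_const.prodMk (contMDiffAt_const.prodMk hm)
    refine hall.congr_of_eventuallyEq ?_
    filter_upwards [hc1.continuousAt.eventually (lt_mem_nhds hv)] with p hp
    have h := iota_G_far F (cl p.1, cl p.2.1) (Complex.arg p.2.2) (cl_normSq p.1 hp.le)
    rw [liftM, h.1, h.2]
  · push Not at hv
    have hst1 : ContMDiffAt I5 𝓘(ℝ, ℂ) 1 (fun p : Mt => sto p.1) p₀ :=
      ContMDiffAt.comp (g := fun v : S2 => sto v) (f := fun p : Mt => p.1) p₀
        (contMDiffAt_sto p₀.1 (by linarith)) hs1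
    have he1 : ∀ᶠ p in 𝓝 p₀, cl p.1 = sto p.1 := by
      filter_upwards [hc1.continuousAt.eventually (gt_mem_nhds (show
        (p₀.1 : EuclideanSpace ℝ (Fin 3)) 2 < 1 / 2 by linarith))] with p hp
      exact cl_eq_sto p.1 hp.le
    by_cases hw : 0 < (p₀.2.1 : EuclideanSpace ℝ (Fin 3)) 2
    · refine contMDiffAt_liftM_of F p₀ (fun p => (sto p.1, 2)) (hst1.prodMk_space contMDiffAt_const) ?_
      filter_upwards [he1, hc2.continuousAt.eventually (lt_mem_nhds hw)] with p hp1 hp2 β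
      rw [hp1]
      refine F.outer _ _ β ?_ ?_ rfl
      · rw [nrm, Real.one_le_sqrt, nsq]
        have := cl_normSq p.2.1 hp2.le
        show 1 ≤ Complex.normSq (sto p.1) + Complex.normSq (cl p.2.1)
        linarith [Complex.normSq_nonneg (sto p.1)]
      · rw [nrm, Real.one_le_sqrt, nsq]
        show 1 ≤ Complex.normSq (sto p.1) + Complex.normSq 2
        rw [Complex.normSq_ofNat]
        linarith [Complex.normSq_nonneg (sto p.1)]
    · push Not at hw
      have hst2 : ContMDiffAt I5 𝓘(ℝ, ℂ) 1 (fun p : Mt => sto p.2.1) p₀ :=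
        ContMDiffAt.comp (g := fun v : S2 => sto v) (f := fun p : Mt => p.2.1) p₀
          (contMDiffAt_sto p₀.2.1 (by linarith)) hs2
      have he2 : ∀ᶠ p in 𝓝 p₀, cl p.2.1 = sto p.2.1 := by
        filter_upwards [hc2.continuousAt.eventually (gt_mem_nhds (show
          (p₀.2.1 : EuclideanSpace ℝ (Fin 3)) 2 < 1 / 2 by linarith))] with p hp
        exact cl_eq_sto p.2.1 hp.le
      refine contMDiffAt_liftM_of F p₀ (fun p => (sto p.1, sto p.2.1)) (hst1.prodMk_space hst2) ?_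
      filter_upwards [he1, he2] with p hp1 hp2 β
      rw [hp1, hp2]

/-- linear identification of the model spaces -/
noncomputable def L5 : (EuclideanSpace ℝ (Fin 2) × (EuclideanSpace ℝ (Fin 2) × EuclideanSpace ℝ (Fin 1)))
    ≃L[ℝ] EuclideanSpace ℝ (Fin 5) :=
  ContinuousLinearEquiv.ofFinrankEq (by simp)

end PkgE

open PkgE in
/-- package E -/
theorem exists_manifold_structure :
    ∃ (_ : ChartedSpace (EuclideanSpace ℝ (Fin 5)) Mt)
      (_ : IsManifold (modelWithCornersSelf ℝ (EuclideanSpace ℝ (Fin 5))) ∞ Mt),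
      ∀ F : FibreMap, ContMDiff (modelWithCornersSelf ℝ (EuclideanSpace ℝ (Fin 5)))
          (modelWithCornersSelf ℝ (EuclideanSpace ℝ (Fin 5))) 1 (liftM F.G) := by
  have : IsManifold (𝓡 1) ∞ Circle := IsManifold.of_le (n := ω) (by exact le_top)
  exact ⟨newCS I5 L5 Mt, newCS_isManifold I5 L5 ∞,
    fun F => newCS_contMDiff I5 L5 1 _ (contMDiff_liftM F)⟩

end Crest.Agent.S0163
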