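/-
S0163 (row 123), package F1: abstract zero entropy criterion.
-/
import Crest.Agent.S0163_Defs

set_option autoImplicit false

open Real Set Filter Topology

namespace Crest.Agent.S0163

theorem expGrowthSup_le_zero_of_linear (u : ℕ → ENNReal) (P : ℕ)
    (hu : ∀ n : ℕ, u n ≤ ((P * (n + 1) : ℕ) : ENNReal)) : ExpGrowth.expGrowthSup u ≤ 0 := by
  refine le_of_forall_gt_imp_ge_of_dense fun a ha => ?_
  obtain ⟨r, hr1, hr2⟩ := EReal.lt_iff_exists_real_btwn.1 ha
  refine le_trans ?_ hr2.le
  have hr : 0 < r := by exact_mod_cast hr1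
  refine Eventually.expGrowthSup_le ?_
  have h1 : Tendsto (fun n : ℕ => ((P * (n + 1) : ℕ) : ℝ) / Real.exp (r * n)) atTop (𝓝 0) := by
    have h2 : Tendsto (fun n : ℕ => ((P : ℝ) / r * (r * n) + P) / Real.exp (r * n)) atTop (𝓝 0) := by
      have h3 : Tendsto (fun x : ℝ => ((P : ℝ) / r * x + P) / Real.exp x) atTop (𝓝 0) := by
        have h5 : Tendsto (fun x : ℝ => x / Real.exp x) atTop (𝓝 0) := by
          have := Real.tendsto_pow_mul_exp_neg_atTop_nhds_zero 1
          refine this.congr fun x => ?_
          rw [pow_one, Real.exp_neg, div_eq_mul_inv]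
        have h6 : Tendsto (fun x : ℝ => 1 / Real.exp x) atTop (𝓝 0) := by
          have := Real.tendsto_pow_mul_exp_neg_atTop_nhds_zero 0
          refine this.congr fun x => ?_
          rw [pow_zero, Real.exp_neg, one_mul, one_div]
        have h7 := (h5.const_mul ((P:ℝ)/r)).add (h6.const_mul (P:ℝ))
        rw [mul_zero, mul_zero, add_zero] at h7
        refine h7.congr fun x => ?_
        ring
      refine h3.comp ?_
      exact (tendsto_natCast_atTop_atTop).const_mul_atTop hr
    refine h2.congr fun n => ?_
    congr 1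
    push_cast
    field_simp
  filter_upwards [h1.eventually (gt_mem_nhds (zero_lt_one))] with n hn
  refine (hu n).trans ?_
  have h2 : ((r : EReal) * (n : EReal)) = ((r * n : ℝ) : EReal) := by
    push_cast
    rfl
  rw [h2, EReal.exp_coe]
  rw [div_lt_one (Real.exp_pos _)] at hn
  have h3 : (((P * (n + 1) : ℕ) : ℝ)) ≤ Real.exp (r * n) := hn.le
  calc ((P * (n + 1) : ℕ) : ENNReal) = ENNReal.ofReal ((P * (n + 1) : ℕ) : ℝ) :=
        (ENNReal.ofReal_natCast _).symm
    _ ≤ _ := ENNReal.ofReal_le_ofReal h3

/-- finite coding with small mesh -/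
theorem exists_code {X : Type*} [PseudoMetricSpace X] [CompactSpace X] (δ : ℝ) (hδ : 0 < δ) :
    ∃ (t : Finset X) (c : X → t), ∀ x y, c x = c y → dist x y < δ := by
  obtain ⟨t, -, hfin, ht⟩ := (isCompact_univ (X := X)).finite_cover_balls (half_pos hδ)
  have hx : ∀ x : X, ∃ y : hfin.toFinset, dist x y < δ / 2 := by
    intro x
    have := ht (mem_univ x)
    simp only [mem_iUnion, Metric.mem_ball] at this
    obtain ⟨y, hy, hxy⟩ := this
    exact ⟨⟨y, by simpa using hy⟩, hxy⟩
  choose c hc using hx
  refine ⟨hfin.toFinset, c, fun x y hxy => ?_⟩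
  have h1 := hc x
  have h2 := hc y
  rw [← hxy] at h2
  calc dist x y ≤ dist x (c x) + dist (c x : X) y := dist_triangle _ _ _
    _ < δ / 2 + δ / 2 := by
        rw [dist_comm _ y]
        linarith
    _ = δ := by ring

theorem coverEntropy_eq_zero_of_pattern {X : Type*} [MetricSpace X] [CompactSpace X] [Nonempty X]
    (f : X → X) (hf : Continuous f) {B : Type*} [MetricSpace B] [CompactSpace B]
    (g : B → B) (hg : Isometry g) (pr : X → B) (hpr : Continuous pr)
    (hsemi : ∀ x, pr (f x) = g (pr x)) (κ σ : B → X) (hκ : Continuous κ) (hσ : Continuous σ)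
    (h : ∀ ε > 0, ∃ N : ℕ, ∀ x, ∀ n : ℕ, ∃ t₁ ≤ n, ∀ t < n,
      (N ≤ t ∧ t < t₁ → dist (f^[t] x) (κ (pr (f^[t] x))) < ε) ∧
      (t₁ + N ≤ t → dist (f^[t] x) (σ (pr (f^[t] x))) < ε)) :
    Dynamics.coverEntropy f Set.univ = 0 := by
  classical
  refine le_antisymm ?_ (Dynamics.coverEntropy_nonneg _ Set.univ_nonempty)
  refine iSup₂_le fun U hU => ?_
  obtain ⟨ε, hε, hεU⟩ := Metric.mem_uniformity_dist.1 hU
  obtain ⟨N, hN⟩ := h (ε / 3) (by positivity)
  -- uniform continuity
  have hfu : UniformContinuous f := CompactSpace.uniformContinuous_of_continuous hf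
  have hκu : UniformContinuous κ := CompactSpace.uniformContinuous_of_continuous hκ
  have hσu : UniformContinuous σ := CompactSpace.uniformContinuous_of_continuous hσ
  have hpu : UniformContinuous pr := CompactSpace.uniformContinuous_of_continuous hpr
  obtain ⟨η1, hη1, hη1'⟩ := Metric.uniformContinuous_iff.1 hκu (ε / 3) (by positivity)
  obtain ⟨η2, hη2, hη2'⟩ := Metric.uniformContinuous_iff.1 hσu (ε / 3) (by positivity)
  obtain ⟨δ1, hδ1, hδ1'⟩ := Metric.uniformContinuous_iff.1 hpu (min η1 η2) (by positivity)
  obtain ⟨δ2, hδ2, hδ2'⟩ := Metric.mem_uniformity_dist.1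
    (Dynamics.dynEntourage_mem_uniformity hfu hU (N + 1))
  obtain ⟨t, c, hc⟩ := exists_code (X := X) (min δ1 δ2) (by positivity)
  have hpri : ∀ i x y, dist (pr (f^[i] x)) (pr (f^[i] y)) = dist (pr x) (pr y) := by
    intro i
    induction i with
    | zero => intro x y; rfl
    | succ i ih =>
      intro x y
      rw [Function.iterate_succ_apply', Function.iterate_succ_apply', hsemi, hsemi, hg.dist_eq, ih]
  have key : ∀ n : ℕ, Dynamics.coverMincard f Set.univ U n ≤ ((t.card ^ 2 * (n + 1) : ℕ) : ℕ∞) := by
    intro n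
    choose t₁ ht₁ ht₁' using fun x => hN x n
    let code : X → Fin (n + 1) × t × t := fun x =>
      (⟨t₁ x, Nat.lt_succ_of_le (ht₁ x)⟩, c x, c (f^[t₁ x] x))
    let s : Finset X := Finset.univ.image (Function.invFun code)
    have hs : Dynamics.IsDynCoverOf f Set.univ U n s := by
      intro x _
      refine ⟨Function.invFun code (code x), ?_, ?_⟩
      · simp [s]
      · set y := Function.invFun code (code x) with hy
        have hxy : code y = code x := Function.invFun_eq ⟨x, rfl⟩
        have e1 : t₁ y = t₁ x := congrArg (fun z => (z.1 : ℕ)) hxy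
        have e2 : c y = c x := congrArg (fun z => z.2.1) hxy
        have e3 : c (f^[t₁ y] y) = c (f^[t₁ x] x) := congrArg (fun z => z.2.2) hxy
        rw [e1] at e3
        have d1 := hc x y e2.symm
        have d2 := hc _ _ e3.symm
        have p1 : dist (pr x) (pr y) < min η1 η2 := hδ1' (d1.trans_le (min_le_left _ _))
        have q1 := Dynamics.mem_dynEntourage.1 (hδ2' (d1.trans_le (min_le_right _ _)))
        have q2 := Dynamics.mem_dynEntourage.1 (hδ2' (d2.trans_le (min_le_right _ _)))
        rw [Dynamics.mem_dynEntourage]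
        intro k hk
        rcases Nat.lt_or_ge k (N + 1) with hkN | hkN
        · exact q1 k hkN
        rcases Nat.lt_or_ge k (t₁ x) with hkt | hkt
        · apply hεU
          have a1 := (ht₁' x k hk).1 ⟨by omega, hkt⟩
          have a2 := (ht₁' y k hk).1 ⟨by omega, by rw [e1]; exact hkt⟩
          have a3 : dist (κ (pr (f^[k] x))) (κ (pr (f^[k] y))) < ε / 3 := by
            apply hη1'
            rw [hpri]
            exact p1.trans_le (min_le_left _ _)
          calc dist (f^[k] x) (f^[k] y) ≤ dist (f^[k] x) (κ (pr (f^[k] x))) +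
                dist (κ (pr (f^[k] x))) (κ (pr (f^[k] y))) + dist (κ (pr (f^[k] y))) (f^[k] y) :=
                dist_triangle4 _ _ _ _
            _ < ε / 3 + ε / 3 + ε / 3 := by
                rw [dist_comm _ (f^[k] y)]
                linarith
            _ = ε := by ring
        rcases Nat.lt_or_ge k (t₁ x + (N + 1)) with hkt2 | hkt2
        · have a1 := q2 (k - t₁ x) (by omega)
          rw [← Function.iterate_add_apply, ← Function.iterate_add_apply,
            Nat.sub_add_cancel hkt] at a1
          exact a1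
        · apply hεU
          have a1 := (ht₁' x k hk).2 (by omega)
          have a2 := (ht₁' y k hk).2 (by rw [e1]; omega)
          have a3 : dist (σ (pr (f^[k] x))) (σ (pr (f^[k] y))) < ε / 3 := by
            apply hη2'
            rw [hpri]
            exact p1.trans_le (min_le_right _ _)
          calc dist (f^[k] x) (f^[k] y) ≤ dist (f^[k] x) (σ (pr (f^[k] x))) +
                dist (σ (pr (f^[k] x))) (σ (pr (f^[k] y))) + dist (σ (pr (f^[k] y))) (f^[k] y) :=
                dist_triangle4 _ _ _ _
            _ < ε / 3 + ε / 3 + ε / 3 := by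
                rw [dist_comm _ (f^[k] y)]
                linarith
            _ = ε := by ring
    refine hs.coverMincard_le_card.trans ?_
    have hcard : s.card ≤ t.card ^ 2 * (n + 1) := by
      refine Finset.card_image_le.trans ?_
      rw [Finset.card_univ, Fintype.card_prod, Fintype.card_prod, Fintype.card_fin,
        Fintype.card_coe]
      apply le_of_eq
      ring
    exact_mod_cast hcard
  refine expGrowthSup_le_zero_of_linear _ (t.card ^ 2) fun n => ?_
  have := key n
  exact_mod_cast this

end Crest.Agent.S0163
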