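/-
S0163 (row 123), package F2/F3: dynamics of the standard model and the conjugating map.
-/
import Crest.Agent.S0163_Defs

set_option autoImplicit false

open Real Set Filter Topology
open scoped Manifold ContDiff

namespace Crest.Agent.S0163

noncomputable section

namespace F2

/-! ### basic facts on `pw`, `nrm`, `ph` -/

theorem log16_pos : 0 < Real.log 16 := Real.log_pos (by norm_num)

theorem pw_pos (x : ℝ) : 0 < pw x := Real.exp_pos _

theorem pw_zero : pw 0 = 1 := by simp [pw]

theorem pw_add (x y : ℝ) : pw (x + y) = pw x * pw y := by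
  rw [pw, pw, pw, ← Real.exp_add]; ring_nf

theorem pw_neg (x : ℝ) : pw (-x) = (pw x)⁻¹ := by
  rw [pw, pw, ← Real.exp_neg]; ring_nf

theorem pw_one : pw 1 = 16 := by
  rw [pw, one_mul, Real.exp_log (by norm_num)]

theorem pw_neg_one : pw (-1) = 1 / 16 := by
  rw [pw_neg, pw_one]; norm_num

theorem pw_le {x y : ℝ} : pw x ≤ pw y ↔ x ≤ y := by
  rw [pw, pw, Real.exp_le_exp]
  exact mul_le_mul_iff_left₀ log16_pos

theorem pw_lt {x y : ℝ} : pw x < pw y ↔ x < y := by
  rw [pw, pw, Real.exp_lt_exp]
  exact mul_lt_mul_iff_left₀ log16_pos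

theorem pw_injective : Function.Injective pw := by
  intro x y h
  exact le_antisymm (pw_le.1 h.le) (pw_le.1 h.ge)

theorem pw_continuous : Continuous pw := by
  unfold pw; fun_prop

theorem nsq_nonneg (z : V) : 0 ≤ nsq z :=
  add_nonneg (Complex.normSq_nonneg _) (Complex.normSq_nonneg _)

theorem nrm_nonneg (z : V) : 0 ≤ nrm z := Real.sqrt_nonneg _

theorem nrm_sq (z : V) : nrm z ^ 2 = nsq z := Real.sq_sqrt (nsq_nonneg z)

theorem nsq_eq_zero {z : V} : nsq z = 0 ↔ z = 0 := by
  constructor
  · intro h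
    have h1 := Complex.normSq_nonneg z.1
    have h2 := Complex.normSq_nonneg z.2
    unfold nsq at h
    have h3 : Complex.normSq z.1 = 0 := by linarith
    have h4 : Complex.normSq z.2 = 0 := by linarith
    exact Prod.ext (Complex.normSq_eq_zero.1 h3) (Complex.normSq_eq_zero.1 h4)
  · rintro rfl
    simp [nsq]

theorem nsq_pos {z : V} (hz : z ≠ 0) : 0 < nsq z :=
  lt_of_le_of_ne (nsq_nonneg z) (fun h => hz (nsq_eq_zero.1 h.symm))

theorem nrm_pos {z : V} (hz : z ≠ 0) : 0 < nrm z := Real.sqrt_pos.2 (nsq_pos hz)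

theorem nrm_zero : nrm (0 : V) = 0 := by simp [nrm, nsq]

theorem nrm_eq_zero {z : V} : nrm z = 0 ↔ z = 0 := by
  constructor
  · intro h
    by_contra hz
    exact (nrm_pos hz).ne' h
  · rintro rfl
    exact nrm_zero

theorem nrm_eq_pw {z : V} (hz : z ≠ 0) : nrm z = pw (-ph z) := by
  have h16 := log16_pos
  have h1 : pw (-ph z) = Real.exp (Real.log (nsq z) / 2) := by
    rw [pw, ph]
    congr 1
    field_simp
    try ring
  rw [h1, nrm, Real.sqrt_eq_rpow, Real.rpow_def_of_pos (nsq_pos hz)]
  congr 1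
  ring

theorem nrm_le_pw {z : V} (hz : z ≠ 0) {a : ℝ} : nrm z ≤ pw a ↔ -a ≤ ph z := by
  rw [nrm_eq_pw hz, pw_le]
  constructor <;> intro h <;> linarith

theorem pw_le_nrm {z : V} (hz : z ≠ 0) {a : ℝ} : pw a ≤ nrm z ↔ ph z ≤ -a := by
  rw [nrm_eq_pw hz, pw_le]
  constructor <;> intro h <;> linarith

theorem nrm_lt_pw {z : V} (hz : z ≠ 0) {a : ℝ} : nrm z < pw a ↔ -a < ph z := by
  rw [nrm_eq_pw hz, pw_lt]
  constructor <;> intro h <;> linarith

theorem pw_lt_nrm {z : V} (hz : z ≠ 0) {a : ℝ} : pw a < nrm z ↔ ph z < -a := by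
  rw [nrm_eq_pw hz, pw_lt]
  constructor <;> intro h <;> linarith

theorem nsq_smul (c : ℝ) (z : V) : nsq (c • z) = c ^ 2 * nsq z := by
  simp only [nsq, Prod.smul_fst, Prod.smul_snd, Complex.normSq_apply, Complex.real_smul,
    Complex.mul_re, Complex.mul_im, Complex.ofReal_re, Complex.ofReal_im]
  ring

theorem nrm_smul {c : ℝ} (hc : 0 ≤ c) (z : V) : nrm (c • z) = c * nrm z := by
  rw [nrm, nsq_smul, Real.sqrt_mul (sq_nonneg c), Real.sqrt_sq hc]
  rfl

theorem continuous_nsq : Continuous nsq := by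
  unfold nsq
  exact (Complex.continuous_normSq.comp continuous_fst).add
    (Complex.continuous_normSq.comp continuous_snd)

theorem continuous_nrm : Continuous nrm := continuous_nsq.sqrt

theorem normSq_fst_le (z : V) : Complex.normSq z.1 ≤ nsq z := by
  unfold nsq; linarith [Complex.normSq_nonneg z.2]

theorem normSq_snd_le (z : V) : Complex.normSq z.2 ≤ nsq z := by
  unfold nsq; linarith [Complex.normSq_nonneg z.1]

theorem continuousAt_ph {z : V} (hz : z ≠ 0) : ContinuousAt ph z := by
  unfold ph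
  exact ((continuous_nsq.continuousAt.log (nsq_pos hz).ne').neg).div_const _

theorem nrm_le_one_iff {z : V} : nrm z ≤ 1 ↔ nsq z ≤ 1 := by
  rw [nrm, Real.sqrt_le_left (by norm_num : (0 : ℝ) ≤ 1), one_pow]

theorem one_le_nrm_iff {z : V} : 1 ≤ nrm z ↔ 1 ≤ nsq z := by
  rw [nrm, Real.one_le_sqrt]

theorem one_lt_nrm_iff {z : V} : 1 < nrm z ↔ 1 < nsq z := by
  rw [← not_le, nrm_le_one_iff, not_le]

/-! ### the sphere -/

abbrev E3 : Type := EuclideanSpace ℝ (Fin 3)

theorem sphere_eq (v : S2) : (v : E3) 0 ^ 2 + (v : E3) 1 ^ 2 + (v : E3) 2 ^ 2 = 1 := by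
  have := EuclideanSpace.real_norm_sq_eq (v : E3)
  rw [norm_eq_of_mem_sphere v, Fin.sum_univ_three] at this
  linarith

theorem cl_of_le {v : S2} (hv : (v : E3) 2 ≤ 1 / 2) :
    cl v = ⟨(v : E3) 0 / (1 - (v : E3) 2), (v : E3) 1 / (1 - (v : E3) 2)⟩ := by
  unfold cl
  rw [if_pos hv]

theorem cl_of_gt {v : S2} (hv : 1 / 2 < (v : E3) 2) : cl v = 2 := by
  unfold cl
  rw [if_neg (not_le.2 hv)]

theorem normSq_cl_of_le {v : S2} (hv : (v : E3) 2 ≤ 1 / 2) :
    Complex.normSq (cl v) = (1 + (v : E3) 2) / (1 - (v : E3) 2) := by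
  rw [cl_of_le hv, Complex.normSq_mk]
  have h1 := sphere_eq v
  have h2 : (1 - (v : E3) 2) ≠ 0 := by intro h; linarith
  have h3 : (v : E3) 0 ^ 2 = 1 - (v : E3) 1 ^ 2 - (v : E3) 2 ^ 2 := by linarith
  field_simp
  rw [h3]
  ring

theorem normSq_cl_of_gt {v : S2} (hv : 1 / 2 < (v : E3) 2) : Complex.normSq (cl v) = 4 := by
  rw [cl_of_gt hv]; norm_num [Complex.normSq_apply]

theorem one_le_cl {v : S2} (hv : 0 ≤ (v : E3) 2) : 1 ≤ Complex.normSq (cl v) := by
  rcases le_or_gt ((v : E3) 2) (1 / 2) with h | h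
  · rw [normSq_cl_of_le h, le_div_iff₀ (by linarith)]; linarith
  · rw [normSq_cl_of_gt h]; norm_num

theorem one_lt_cl {v : S2} (hv : 0 < (v : E3) 2) : 1 < Complex.normSq (cl v) := by
  rcases le_or_gt ((v : E3) 2) (1 / 2) with h | h
  · rw [normSq_cl_of_le h, lt_div_iff₀ (by linarith)]; linarith
  · rw [normSq_cl_of_gt h]; norm_num

theorem cl_le_one {v : S2} (hv : (v : E3) 2 ≤ 0) : Complex.normSq (cl v) ≤ 1 := by
  rw [normSq_cl_of_le (by linarith), div_le_iff₀ (by linarith)]; linarith

theorem cl_le_two {v : S2} (hv : (v : E3) 2 ≤ 1 / 3) : Complex.normSq (cl v) ≤ 2 := by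
  rw [normSq_cl_of_le (by linarith), div_le_iff₀ (by linarith)]; linarith

theorem qcut_one {ρ : ℝ} (h : ρ ≤ 2) : qcut ρ = 1 := by
  rw [qcut, Real.smoothTransition.zero_of_nonpos (by linarith)]; ring

theorem qcut_zero {ρ : ℝ} (h : 4 ≤ ρ) : qcut ρ = 0 := by
  rw [qcut, Real.smoothTransition.one_of_one_le (by linarith)]; ring

theorem iotaVec_zero (x : ℂ) : iotaVec x 0 = 2 * qcut (Complex.normSq x) * x.re := by
  simp [iotaVec]

theorem iotaVec_one (x : ℂ) : iotaVec x 1 = 2 * qcut (Complex.normSq x) * x.im := by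
  simp [iotaVec]

theorem iotaVec_two (x : ℂ) : iotaVec x 2 = Complex.normSq x - 1 := by
  simp [iotaVec]

theorem iota_apply (x : ℂ) (i : Fin 3) : (iota x : E3) i = ‖iotaVec x‖⁻¹ * iotaVec x i := by
  simp [iota]

theorem norm_iotaVec_pos (x : ℂ) : 0 < ‖iotaVec x‖ := norm_pos_iff.2 (iotaVec_ne_zero x)

theorem norm_iotaVec {x : ℂ} (hx : Complex.normSq x ≤ 2) :
    ‖iotaVec x‖ = Complex.normSq x + 1 := by
  have h0 : 0 ≤ Complex.normSq x := Complex.normSq_nonneg x
  have h : ‖iotaVec x‖ ^ 2 = (Complex.normSq x + 1) ^ 2 := by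
    rw [EuclideanSpace.real_norm_sq_eq, Fin.sum_univ_three, iotaVec_zero, iotaVec_one,
      iotaVec_two, qcut_one hx]
    have : x.re ^ 2 + x.im ^ 2 = Complex.normSq x := by rw [Complex.normSq_apply]; ring
    nlinarith
  exact (pow_left_inj₀ (norm_nonneg _) (by linarith) (by norm_num)).1 h

theorem iota_two_nonpos {x : ℂ} : (iota x : E3) 2 ≤ 0 ↔ Complex.normSq x ≤ 1 := by
  rw [iota_apply, iotaVec_two]
  have := inv_pos.2 (norm_iotaVec_pos x)
  constructor
  · intro h
    by_contra h'
    have : 0 < ‖iotaVec x‖⁻¹ * (Complex.normSq x - 1) := mul_pos this (by linarith)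
    linarith
  · intro h
    exact mul_nonpos_of_nonneg_of_nonpos this.le (by linarith)

theorem iota_two_nonneg {x : ℂ} (h : 1 ≤ Complex.normSq x) : 0 ≤ (iota x : E3) 2 := by
  rw [iota_apply, iotaVec_two]
  exact mul_nonneg (inv_pos.2 (norm_iotaVec_pos x)).le (by linarith)

theorem cl_iota {x : ℂ} (hx : Complex.normSq x ≤ 2) : cl (iota x) = x := by
  have h0 : 0 ≤ Complex.normSq x := Complex.normSq_nonneg x
  have hne : Complex.normSq x + 1 ≠ 0 := by positivity
  have h2 : (iota x : E3) 2 = (Complex.normSq x - 1) / (Complex.normSq x + 1) := by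
    rw [iota_apply, iotaVec_two, norm_iotaVec hx]; field_simp
  have hle : (iota x : E3) 2 ≤ 1 / 2 := by
    rw [h2, div_le_iff₀ (by positivity)]; linarith
  have h3 : 1 - (iota x : E3) 2 = 2 / (Complex.normSq x + 1) := by
    rw [h2]; field_simp; ring
  rw [cl_of_le hle, h3, iota_apply, iota_apply, iotaVec_zero, iotaVec_one, norm_iotaVec hx,
    qcut_one hx]
  apply Complex.ext
  · simp only []
    field_simp
  · simp only []
    field_simp

theorem iota_cl {v : S2} (hv : (v : E3) 2 ≤ 1 / 3) : iota (cl v) = v := by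
  have hle : (v : E3) 2 ≤ 1 / 2 := by linarith
  have h2 := cl_le_two hv
  have hn := normSq_cl_of_le hle
  have hpos : 0 < 1 - (v : E3) 2 := by linarith
  have h1 : Complex.normSq (cl v) + 1 = 2 / (1 - (v : E3) 2) := by
    rw [hn]; field_simp; ring
  apply Subtype.ext
  ext i
  rw [iota_apply, norm_iotaVec h2, h1]
  fin_cases i
  · show _ * iotaVec (cl v) 0 = (v : E3) 0
    rw [iotaVec_zero, qcut_one h2, cl_of_le hle]
    simp only []
    field_simp
  · show _ * iotaVec (cl v) 1 = (v : E3) 1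
    rw [iotaVec_one, qcut_one h2, cl_of_le hle]
    simp only []
    field_simp
  · show _ * iotaVec (cl v) 2 = (v : E3) 2
    rw [iotaVec_two, hn]
    field_simp
    ring

theorem iota_far {x : ℂ} (hx : 4 ≤ Complex.normSq x) : iota x = north := by
  have key : ∀ y : ℂ, 4 ≤ Complex.normSq y → ∀ i : Fin 3, (iota y : E3) i = if i = 2 then 1 else 0 := by
    intro y hy i
    have hv : ∀ j, iotaVec y j = if j = 2 then Complex.normSq y - 1 else 0 := by
      intro j
      fin_cases j
      · show iotaVec y 0 = _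
        rw [iotaVec_zero, qcut_zero hy]; simp
      · show iotaVec y 1 = _
        rw [iotaVec_one, qcut_zero hy]; simp
      · show iotaVec y 2 = _
        rw [iotaVec_two]; simp
    have hn : ‖iotaVec y‖ = Complex.normSq y - 1 := by
      have h : ‖iotaVec y‖ ^ 2 = (Complex.normSq y - 1) ^ 2 := by
        rw [EuclideanSpace.real_norm_sq_eq, Fin.sum_univ_three, hv, hv, hv]; simp
      exact (pow_left_inj₀ (norm_nonneg _) (by linarith) (by norm_num)).1 h
    rw [iota_apply, hv, hn]
    split_ifs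
    · exact inv_mul_cancel₀ (by linarith)
    · simp
  apply Subtype.ext
  ext i
  rw [key x hx i, north, key 2 (by norm_num [Complex.normSq_apply]) i]

theorem continuous_iotaVec : Continuous iotaVec := by
  unfold iotaVec
  refine (PiLp.continuous_toLp 2 _).comp (continuous_pi fun i => ?_)
  have hq : Continuous (fun x : ℂ => qcut (Complex.normSq x)) := by
    unfold qcut
    have := Real.smoothTransition.continuous
    have h2 := Complex.continuous_normSq
    fun_prop
  fin_cases i
  · show Continuous (fun x : ℂ => 2 * qcut (Complex.normSq x) * x.re)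
    exact (continuous_const.mul hq).mul Complex.continuous_re
  · show Continuous (fun x : ℂ => 2 * qcut (Complex.normSq x) * x.im)
    exact (continuous_const.mul hq).mul Complex.continuous_im
  · show Continuous (fun x : ℂ => Complex.normSq x - 1)
    exact Complex.continuous_normSq.sub continuous_const

theorem continuous_iota : Continuous iota := by
  unfold iota
  refine Continuous.subtype_mk ?_ _
  exact (continuous_iotaVec.norm.inv₀ (fun x => norm_ne_zero_iff.2 (iotaVec_ne_zero x))).smul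
    continuous_iotaVec

theorem continuous_coord (i : Fin 3) : Continuous (fun v : S2 => (v : E3) i) := by
  have h : Continuous (fun v : E3 => v i) := by fun_prop
  exact h.comp continuous_subtype_val

theorem continuousAt_cl {v : S2} (hv : (v : E3) 2 < 1 / 2) : ContinuousAt cl v := by
  have h1 : ∀ᶠ w : S2 in 𝓝 v, (w : E3) 2 < 1 / 2 :=
    (continuous_coord 2).continuousAt.eventually_lt continuousAt_const hv
  have h2 : cl =ᶠ[𝓝 v] fun w : S2 => ((((w : E3) 0 / (1 - (w : E3) 2) : ℝ) : ℂ) +
      (((w : E3) 1 / (1 - (w : E3) 2) : ℝ) : ℂ) * Complex.I) := by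
    filter_upwards [h1] with w hw
    rw [cl_of_le hw.le]
    exact Complex.mk_eq_add_mul_I _ _
  have hne : 1 - (v : E3) 2 ≠ 0 := by intro h; linarith
  have hd : ContinuousAt (fun w : S2 => 1 - (w : E3) 2) v :=
    continuousAt_const.sub (continuous_coord 2).continuousAt
  have a0 : ContinuousAt (fun w : S2 => (w : E3) 0 / (1 - (w : E3) 2)) v :=
    (continuous_coord 0).continuousAt.div hd hne
  have a1 : ContinuousAt (fun w : S2 => (w : E3) 1 / (1 - (w : E3) 2)) v :=
    (continuous_coord 1).continuousAt.div hd hne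
  refine ContinuousAt.congr ?_ h2.symm
  exact (Complex.continuous_ofReal.continuousAt.comp a0).add
    ((Complex.continuous_ofReal.continuousAt.comp a1).mul continuousAt_const)

/-! ### functions of the angle -/

theorem map_prod_exp {Z : Type*} [TopologicalSpace Z] (z : Z) (β : ℝ) :
    Filter.map (Prod.map id Circle.exp) (𝓝 (z, β)) = 𝓝 (z, Circle.exp β) := by
  have h : IsOpenMap (Prod.map (id : Z → Z) Circle.exp) :=
    IsOpenMap.id.prodMap isLocalHomeomorph_circleExp.isOpenMap
  exact h.map_nhds_eq (continuous_id.prodMap Circle.exp.continuous).continuousAt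

theorem per_int {W : Type*} {F : ℝ → W} (hper : ∀ β, F (β + 2 * π) = F β) (m : ℤ) (β : ℝ) :
    F (β + m * (2 * π)) = F β := by
  have hp : Function.Periodic F (2 * π) := hper
  exact hp.int_mul m β

theorem per_exp {W : Type*} {F : ℝ → W} (hper : ∀ β, F (β + 2 * π) = F β) {β β' : ℝ}
    (h : Circle.exp β = Circle.exp β') : F β = F β' := by
  obtain ⟨m, rfl⟩ := Circle.exp_eq_exp.1 h
  exact per_int hper m β'

theorem continuousAt_arg {Z W : Type*} [TopologicalSpace Z] [TopologicalSpace W] (F : Z → ℝ → W)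
    (hper : ∀ z β, F z (β + 2 * π) = F z β) {z : Z} {β : ℝ}
    (hF : ContinuousAt (fun q : Z × ℝ => F q.1 q.2) (z, β)) :
    ContinuousAt (fun q : Z × Circle => F q.1 (Complex.arg q.2)) (z, Circle.exp β) := by
  rw [ContinuousAt, ← map_prod_exp, Filter.tendsto_map'_iff]
  have h1 : ((fun q : Z × Circle => F q.1 (Complex.arg q.2)) ∘ Prod.map id Circle.exp) =
      fun q : Z × ℝ => F q.1 q.2 := by
    funext q
    exact per_exp (hper q.1) (Circle.exp_arg _)
  have h2 : (fun q : Z × Circle => F q.1 (Complex.arg q.2)) (z, Circle.exp β) = F z β :=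
    per_exp (hper z) (Circle.exp_arg _)
  rw [h1]
  show Tendsto _ _ (𝓝 ((fun q : Z × Circle => F q.1 (Complex.arg q.2)) (z, Circle.exp β)))
  rw [h2]
  exact hF

theorem exp_arg_mul (b : Circle) (t : ℝ) :
    Circle.exp (Complex.arg (b * Circle.exp t : Circle)) = Circle.exp (Complex.arg b + t) := by
  rw [Circle.exp_arg, Circle.exp_add, Circle.exp_arg]

/-! ### the standard fibre map -/

variable (B : BaseData) (S : ShellData)

theorem Phi_zero (β : ℝ) : Phi B S 0 β = 0 := by
  unfold Phi
  rw [if_pos rfl]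

theorem ne_zero_of_lt {z : V} {a : ℝ} (h : pw a < nrm z) : z ≠ 0 := by
  rintro rfl
  rw [nrm_zero] at h
  exact absurd h (not_lt.2 (pw_pos a).le)

theorem Phi_outer {z : V} (hz : pw (-(9 / 8)) < nrm z) (β : ℝ) : Phi B S z β = S.Fo z := by
  have hz0 := ne_zero_of_lt hz
  unfold Phi
  rw [if_neg hz0]
  split_ifs with h
  · rfl
  · rw [not_le, ← pw_neg_one, nrm_lt_pw hz0] at h
    rw [pw_lt_nrm hz0] at hz
    rw [B.X_eq_four _ (by linarith)]
    refine (S.Fo_eq z ?_ ?_).symm
    · rw [pw_lt_nrm hz0]; linarith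
    · rw [nrm_lt_pw hz0]; linarith

theorem Phi_inner {z : V} (hz0 : z ≠ 0) (hz : nrm z < pw (-(7 / 8))) (β : ℝ) :
    Phi B S z β = S.R (B.X (ph z) β) z := by
  unfold Phi
  rw [if_neg hz0]
  split_ifs with h
  · rw [← pw_neg_one, pw_le_nrm hz0] at h
    rw [B.X_eq_four _ (by linarith)]
    refine S.Fo_eq z ?_ hz
    rw [pw_lt_nrm hz0]; linarith
  · rfl

theorem Phi_periodic (z : V) (β : ℝ) : Phi B S z (β + 2 * π) = Phi B S z β := by
  unfold Phi
  rw [B.X_periodic]

theorem Phi_nrm (z : V) (β : ℝ) : nrm (Phi B S z β) ≤ 16 * nrm z := by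
  by_cases hz0 : z = 0
  · subst hz0
    rw [Phi_zero, nrm_zero]; norm_num
  · rcases lt_or_ge (nrm z) (pw (-(7 / 8))) with h | h
    · rw [Phi_inner B S hz0 h]
      exact S.R_nrm _ (B.X_mem _ _) z hz0
    · have : pw (-(9 / 8)) < nrm z := lt_of_lt_of_le (pw_lt.2 (by norm_num)) h
      rw [Phi_outer B S this]
      exact S.Fo_nrm z this

theorem norm_le_nrm (z : V) : ‖z‖ ≤ nrm z := by
  have h1 : ‖z.1‖ ≤ nrm z := by
    rw [← Real.sqrt_sq (norm_nonneg z.1), ← Complex.normSq_eq_norm_sq]
    exact Real.sqrt_le_sqrt (normSq_fst_le z)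
  have h2 : ‖z.2‖ ≤ nrm z := by
    rw [← Real.sqrt_sq (norm_nonneg z.2), ← Complex.normSq_eq_norm_sq]
    exact Real.sqrt_le_sqrt (normSq_snd_le z)
  rw [Prod.norm_def]
  exact max_le h1 h2

theorem X_continuous : Continuous (fun q : ℝ × ℝ => B.X q.1 q.2) := B.X_contDiff.continuous
theorem H_continuous : Continuous (fun q : ℝ × ℝ => B.H q.1 q.2) := B.H_contDiff.continuous

theorem Phi_continuous : Continuous (fun q : V × ℝ => Phi B S q.1 q.2) := by
  rw [continuous_iff_continuousAt]
  rintro ⟨z, β⟩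
  by_cases hz0 : z = 0
  · subst hz0
    rw [ContinuousAt, Phi_zero]
    refine squeeze_zero_norm (a := fun q : V × ℝ => 16 * nrm q.1) ?_ ?_
    · intro q
      exact (norm_le_nrm _).trans (Phi_nrm B S _ _)
    · have : Continuous (fun q : V × ℝ => 16 * nrm q.1) :=
        continuous_const.mul (continuous_nrm.comp continuous_fst)
      have h2 := this.tendsto ((0 : V), β)
      simpa [nrm_zero] using h2
  · rcases lt_or_ge (nrm z) (pw (-(7 / 8))) with h | h
    · have hev : (fun q : V × ℝ => Phi B S q.1 q.2) =ᶠ[𝓝 (z, β)]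
          fun q : V × ℝ => S.R (B.X (ph q.1) q.2) q.1 := by
        have h1 : ∀ᶠ q : V × ℝ in 𝓝 (z, β), q.1 ≠ 0 :=
          continuous_fst.continuousAt.eventually_ne hz0
        have h2 : ∀ᶠ q : V × ℝ in 𝓝 (z, β), nrm q.1 < pw (-(7 / 8)) :=
          (continuous_nrm.comp continuous_fst).continuousAt.eventually_lt continuousAt_const h
        filter_upwards [h1, h2] with q hq1 hq2
        exact Phi_inner B S hq1 hq2 _
      refine ContinuousAt.congr ?_ hev.symm
      have hopen : IsOpen {p : ℝ × V | p.2 ≠ 0} := isOpen_ne_fun continuous_snd continuous_const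
      have hR : ContinuousAt (fun p : ℝ × V => S.R p.1 p.2) (B.X (ph z) β, z) :=
        S.R_contDiffOn.continuousOn.continuousAt (hopen.mem_nhds hz0)
      have hX : ContinuousAt (fun q : V × ℝ => B.X (ph q.1) q.2) (z, β) := by
        have hp : ContinuousAt (fun q : V × ℝ => (ph q.1, q.2)) (z, β) :=
          (ContinuousAt.comp (f := fun q : V × ℝ => q.1) (g := ph) (x := (z, β))
            (continuousAt_ph hz0) continuous_fst.continuousAt).prodMk continuous_snd.continuousAt
        exact ContinuousAt.comp (f := fun q : V × ℝ => (ph q.1, q.2))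
          (X_continuous B).continuousAt hp
      exact ContinuousAt.comp (f := fun q : V × ℝ => (B.X (ph q.1) q.2, q.1)) hR
        (hX.prodMk continuous_fst.continuousAt)
    · have h' : pw (-(9 / 8)) < nrm z := lt_of_lt_of_le (pw_lt.2 (by norm_num)) h
      have hev : (fun q : V × ℝ => Phi B S q.1 q.2) =ᶠ[𝓝 (z, β)] fun q : V × ℝ => S.Fo q.1 := by
        have h2 : ∀ᶠ q : V × ℝ in 𝓝 (z, β), pw (-(9 / 8)) < nrm q.1 :=
          continuousAt_const.eventually_lt (continuous_nrm.comp continuous_fst).continuousAt h'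
        filter_upwards [h2] with q hq2
        exact Phi_outer B S hq2 _
      refine ContinuousAt.congr ?_ hev.symm
      have hopen : IsOpen {z : V | pw (-(9 / 8)) < nrm z} :=
        isOpen_lt continuous_const continuous_nrm
      have hF : ContinuousAt S.Fo z := S.Fo_contDiffOn.continuousOn.continuousAt (hopen.mem_nhds h')
      exact hF.comp (f := fun q : V × ℝ => q.1) continuous_fst.continuousAt

/-- continuity of the standard fibre map over the circle -/
theorem PhiC_continuous : Continuous (fun q : V × Circle => Phi B S q.1 (Complex.arg q.2)) := by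
  rw [continuous_iff_continuousAt]
  rintro ⟨z, b⟩
  obtain ⟨β, rfl⟩ := Circle.exp_surjective b
  exact continuousAt_arg (fun z β => Phi B S z β) (Phi_periodic B S)
    (Phi_continuous B S).continuousAt

/-! ### continuity of `liftM Phi` -/

/-- coordinates of a point of `Mt` -/
def zc (p : Mt) : V := (cl p.1, cl p.2.1)

theorem far_eq {z : V} (h1 : 1 ≤ Complex.normSq z.1) (β : ℝ) :
    Phi B S z β = (pw (3 / 8) * z.1 ^ 2 / Complex.normSq z.1, 0) := by
  have h2 : 1 ≤ nrm z := one_le_nrm_iff.2 (h1.trans (normSq_fst_le z))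
  have h3 : pw (-(9 / 8)) < nrm z := by
    refine lt_of_lt_of_le ?_ h2
    rw [← pw_zero]
    exact pw_lt.2 (by norm_num)
  rw [Phi_outer B S h3]
  exact S.Fo_far z h2 (by linarith)

theorem pw38 : 2 ≤ pw (3 / 8) := by
  have h : pw (3 / 8) ^ 8 = 16 ^ 3 := by
    rw [← pw_one, pw, pw, ← Real.exp_nat_mul, ← Real.exp_nat_mul]
    congr 1
    push_cast
    ring
  by_contra hlt
  rw [not_le] at hlt
  have : pw (3 / 8) ^ 8 < 2 ^ 8 := pow_lt_pow_left₀ hlt (pw_pos _).le (by norm_num)
  rw [h] at this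
  norm_num at this

theorem iota_far_eq {x : ℂ} (h1 : 1 ≤ Complex.normSq x) :
    iota (pw (3 / 8) * x ^ 2 / Complex.normSq x) = north := by
  apply iota_far
  have h0 : Complex.normSq x ≠ 0 := by intro h; rw [h] at h1; linarith
  rw [Complex.normSq_div, Complex.normSq_mul, map_pow, Complex.normSq_ofReal,
    Complex.normSq_ofReal]
  have h2 : pw (3 / 8) * pw (3 / 8) * Complex.normSq x ^ 2 /
      (Complex.normSq x * Complex.normSq x) = pw (3 / 8) * pw (3 / 8) := by
    field_simp
  rw [h2]
  nlinarith [pw38]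

theorem lift_far {p : Mt} (h : 0 ≤ (p.1 : E3) 2) :
    liftM (Phi B S) p = (north, south, p.2.2 * Circle.exp 1) := by
  have h1 : 1 ≤ Complex.normSq (cl p.1) := one_le_cl h
  unfold liftM
  rw [far_eq B S (z := (cl p.1, cl p.2.1)) h1]
  simp only []
  rw [iota_far_eq h1]
  rfl

theorem liftM_continuousAt_of_cl {G : V → ℝ → V}
    (hG : Continuous (fun q : V × Circle => G q.1 (Complex.arg q.2))) {p : Mt}
    (h1 : ContinuousAt (fun q : Mt => cl q.1) p) (h2 : ContinuousAt (fun q : Mt => cl q.2.1) p) :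
    ContinuousAt (liftM G) p := by
  have hb : ContinuousAt (fun q : Mt => q.2.2) p := by fun_prop
  have h3 : ContinuousAt (fun q : Mt => G (cl q.1, cl q.2.1) (Complex.arg q.2.2)) p :=
    ContinuousAt.comp (f := fun q : Mt => (((cl q.1, cl q.2.1) : V), q.2.2))
      (g := fun q : V × Circle => G q.1 (Complex.arg q.2)) hG.continuousAt
      ((h1.prodMk h2).prodMk hb)
  unfold liftM
  refine ContinuousAt.prodMk ?_ (ContinuousAt.prodMk ?_ ?_)
  · exact continuous_iota.continuousAt.comp (continuous_fst.continuousAt.comp h3)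
  · exact continuous_iota.continuousAt.comp (continuous_snd.continuousAt.comp h3)
  · exact hb.mul continuousAt_const

end F2
open F2 in
/-- F2: the standard model is continuous -/
theorem std_continuous (B : BaseData) (S : ShellData) : Continuous (liftM (Phi B S)) := by
  rw [continuous_iff_continuousAt]
  intro p
  have c0 : Continuous (fun q : Mt => (q.1 : E3) 2) := (continuous_coord 2).comp continuous_fst
  have c1 : Continuous (fun q : Mt => (q.2.1 : E3) 2) :=
    (continuous_coord 2).comp (continuous_fst.comp continuous_snd)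
  rcases lt_or_ge 0 ((p.1 : E3) 2) with h | h
  · -- far region
    have hev : liftM (Phi B S) =ᶠ[𝓝 p] fun q => (north, south, q.2.2 * Circle.exp 1) := by
      filter_upwards [continuousAt_const.eventually_lt c0.continuousAt h] with q hq
      exact lift_far B S hq.le
    refine ContinuousAt.congr ?_ hev.symm
    fun_prop
  · have hx : ContinuousAt (fun q : Mt => cl q.1) p :=
      ContinuousAt.comp (f := fun q : Mt => q.1) (continuousAt_cl (by linarith))
        continuous_fst.continuousAt
    rcases lt_or_ge 0 ((p.2.1 : E3) 2) with h' | h'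
    · have hev : liftM (Phi B S) =ᶠ[𝓝 p] fun q => liftM (Phi B S) (q.1, iota 1, q.2.2) := by
        filter_upwards [continuousAt_const.eventually_lt c1.continuousAt h'] with q hq
        have h1 : cl (iota 1) = 1 := cl_iota (by norm_num)
        unfold liftM
        simp only [h1]
        have e : Phi B S (cl q.1, cl q.2.1) (Complex.arg q.2.2) =
            Phi B S (cl q.1, 1) (Complex.arg q.2.2) := by
          have n1 : 1 ≤ nrm ((cl q.1, cl q.2.1) : V) :=
            one_le_nrm_iff.2 ((one_lt_cl hq).le.trans (normSq_snd_le ((cl q.1, cl q.2.1) : V)))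
          have n2 : 1 ≤ nrm ((cl q.1, 1) : V) :=
            one_le_nrm_iff.2 (le_trans (by norm_num) (normSq_snd_le ((cl q.1, 1) : V)))
          have hp : pw (-(9 / 8)) < 1 := by
            rw [← pw_zero]; exact pw_lt.2 (by norm_num)
          rw [Phi_outer B S (hp.trans_le n1), Phi_outer B S (hp.trans_le n2)]
          exact S.Fo_outer _ _ n1 n2 rfl
        rw [e]
      refine ContinuousAt.congr ?_ hev.symm
      have h1 : cl (iota 1) = 1 := cl_iota (by norm_num)
      have hc : ContinuousAt (liftM (Phi B S)) (p.1, iota 1, p.2.2) := by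
        refine liftM_continuousAt_of_cl (PhiC_continuous B S) ?_ ?_
        · exact ContinuousAt.comp (f := fun q : Mt => q.1) (continuousAt_cl (by linarith))
            continuous_fst.continuousAt
        · refine ContinuousAt.comp (f := fun q : Mt => q.2.1) (continuousAt_cl ?_)
            (continuous_fst.comp continuous_snd).continuousAt
          have := (iota_two_nonpos (x := 1)).2 (by norm_num)
          exact lt_of_le_of_lt this (by norm_num)
      exact ContinuousAt.comp (f := fun q : Mt => ((q.1, iota 1, q.2.2) : Mt)) hc (by fun_prop)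
    · refine liftM_continuousAt_of_cl (PhiC_continuous B S) hx ?_
      exact ContinuousAt.comp (f := fun q : Mt => q.2.1) (continuousAt_cl (by linarith))
        (continuous_fst.comp continuous_snd).continuousAt

namespace F2

/-! ### dynamics -/

variable (B : BaseData) (S : ShellData)

/-- the image of the fibre coordinate -/
def im (p : Mt) : V := Phi B S (zc p) (Complex.arg p.2.2)

theorem lift_eq (p : Mt) : liftM (Phi B S) p =
    (iota (im B S p).1, iota (im B S p).2, p.2.2 * Circle.exp 1) := rfl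

theorem zc_lift {p : Mt} (h : nrm (im B S p) ≤ 1) : zc (liftM (Phi B S) p) = im B S p := by
  rw [nrm_le_one_iff] at h
  have h1 := (normSq_fst_le (im B S p)).trans h
  have h2 := (normSq_snd_le (im B S p)).trans h
  rw [lift_eq]
  unfold zc
  simp only []
  rw [cl_iota (by linarith), cl_iota (by linarith)]

def isK (p : Mt) : Prop := zc p = 0
def isT (L : ℤ) (p : Mt) : Prop := zc p ∈ S.Tel ∧ lev (zc p) = L
def isO (p : Mt) : Prop := 0 ≤ (p.1 : E3) 2
def isS (p : Mt) : Prop := p.1 = north ∧ p.2.1 = south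

/-- collapse step -/
def coll (v : V) : Prop := v = 0 ∨ v ∈ S.Tel ∨ (1 < ‖v.1‖ ∧ v.2 = 0)

theorem isO_of_isS {p : Mt} (h : isS p) : isO p := by
  unfold isO
  rw [h.1, north]
  exact iota_two_nonneg (by norm_num)

theorem isS_lift_of_isO {p : Mt} (h : isO p) : isS (liftM (Phi B S) p) := by
  rw [lift_far B S h]
  exact ⟨rfl, rfl⟩

theorem isK_lift {p : Mt} (h : isK p) : isK (liftM (Phi B S) p) := by
  have h1 : im B S p = 0 := by
    unfold im
    rw [h, Phi_zero]
  unfold isK
  rw [zc_lift B S (by rw [h1, nrm_zero]; norm_num), h1]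

theorem coll_lift {p : Mt} (h : coll S (im B S p)) :
    isK (liftM (Phi B S) p) ∨ (∃ L, isT S L (liftM (Phi B S) p)) ∨ isO (liftM (Phi B S) p) := by
  rcases h with h | h | ⟨h, -⟩
  · left
    unfold isK
    rw [zc_lift B S (by rw [h, nrm_zero]; norm_num), h]
  · right; left
    refine ⟨lev (im B S p), ?_, ?_⟩
    · rw [zc_lift B S (S.Tel_nrm _ h)]; exact h
    · rw [zc_lift B S (S.Tel_nrm _ h)]
  · right; right
    unfold isO
    rw [lift_eq]
    apply iota_two_nonneg
    rw [Complex.normSq_eq_norm_sq]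
    nlinarith

theorem lev_nonneg {z : V} (hz : z ∈ S.Tel) : 0 ≤ lev z := by
  have h0 := S.Tel_ne z hz
  have h1 := S.Tel_nrm z hz
  rw [← pw_zero, nrm_le_pw h0] at h1
  unfold lev
  apply Int.floor_nonneg.2
  linarith

theorem tel_step {p : Mt} {L : ℤ} (h : isT S L p) :
    (isT S (L - 1) (liftM (Phi B S) p) ∧ 1 ≤ L) ∨ isO (liftM (Phi B S) p) := by
  obtain ⟨hz, hL⟩ := h
  have h0 := S.Tel_ne _ hz
  by_cases h16 : nrm (zc p) ≤ 1 / 16
  · left
    have hin : im B S p = S.R (B.X (ph (zc p)) (Complex.arg p.2.2)) (zc p) := by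
      refine Phi_inner B S h0 (lt_of_le_of_lt h16 ?_) _
      rw [← pw_neg_one]
      exact pw_lt.2 (by norm_num)
    obtain ⟨h1, h2⟩ := S.R_tel _ (B.X_mem (ph (zc p)) (Complex.arg p.2.2)) _ hz h16
    rw [← hin] at h1 h2
    have h3 := zc_lift B S (S.Tel_nrm _ h1)
    refine ⟨⟨?_, ?_⟩, ?_⟩
    · rw [h3]; exact h1
    · rw [h3, h2, hL]
    · have := lev_nonneg S h1
      rw [h2, hL] at this
      linarith
  · rw [not_le] at h16
    have hout : im B S p = S.Fo (zc p) := by
      refine Phi_outer B S (lt_trans ?_ h16) _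
      rw [← pw_neg_one]
      exact pw_lt.2 (by norm_num)
    rcases S.Fo_tel _ hz h16 with ⟨h1, h2, h3⟩ | h1
    · left
      rw [← hout] at h1 h2
      have h4 := zc_lift B S (S.Tel_nrm _ h1)
      have hL1 : L = 1 := by rw [← hL, h3]
      refine ⟨⟨?_, ?_⟩, hL1.ge⟩
      · rw [h4]; exact h1
      · rw [h4, h2, hL1]; norm_num
    · right
      rw [← hout] at h1
      unfold isO
      rw [lift_eq]
      apply iota_two_nonneg
      rw [Complex.normSq_eq_norm_sq]
      nlinarith [h1.1]

theorem sink {p : Mt} (h : isO p) (k : ℕ) : isS ((liftM (Phi B S))^[k + 1] p) := by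
  induction k with
  | zero => exact isS_lift_of_isO B S h
  | succ k ih =>
    rw [Function.iterate_succ_apply']
    exact isS_lift_of_isO B S (isO_of_isS ih)

theorem absorb (L : ℕ) : ∀ {p : Mt}, isT S L p → ∀ k, L + 2 ≤ k →
    isS ((liftM (Phi B S))^[k] p) := by
  induction L with
  | zero =>
    intro p hp k hk
    obtain ⟨k, rfl⟩ : ∃ k', k = k' + 2 := ⟨k - 2, by omega⟩
    rcases tel_step B S hp with ⟨-, h⟩ | h
    · norm_num at h
    · rw [Function.iterate_succ_apply]
      exact sink B S h k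
  | succ L ih =>
    intro p hp k hk
    obtain ⟨k, rfl⟩ : ∃ k', k = k' + 2 := ⟨k - 2, by omega⟩
    rw [Function.iterate_succ_apply]
    rcases tel_step B S hp with ⟨h, -⟩ | h
    · apply ih
      · simpa using h
      · omega
    · exact sink B S h k

theorem coll_of_ph {p : Mt} (h0 : zc p ≠ 0) (h : ph (zc p) ≤ 2) : coll S (im B S p) := by
  rcases lt_or_ge (pw (-(9 / 8))) (nrm (zc p)) with h1 | h1
  · unfold im
    rw [Phi_outer B S h1]
    exact S.Fo_range _ h1
  · have h2 : nrm (zc p) < pw (-(7 / 8)) := lt_of_le_of_lt h1 (pw_lt.2 (by norm_num))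
    unfold im
    rw [Phi_inner B S h0 h2, B.X_eq_four _ h]
    rcases S.R_four _ h0 (by
      rw [← pw_neg_one]
      exact h1.trans (pw_le.2 (by norm_num))) with h3 | h3
    · exact Or.inl h3
    · exact Or.inr (Or.inl h3)

theorem coll_of_X {p : Mt} (h0 : zc p ≠ 0) (h : B.X (ph (zc p)) (Complex.arg p.2.2) = 4) :
    coll S (im B S p) := by
  rcases le_or_gt (ph (zc p)) 2 with h2 | h2
  · exact coll_of_ph B S h0 h2
  · have h3 : nrm (zc p) < pw (-(7 / 8)) := by rw [nrm_lt_pw h0]; linarith
    unfold im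
    rw [Phi_inner B S h0 h3, h]
    rcases S.R_four _ h0 (by
      rw [← pw_neg_one, nrm_le_pw h0]; linarith) with h3 | h3
    · exact Or.inl h3
    · exact Or.inr (Or.inl h3)

theorem ph_step {p : Mt} (h0 : zc p ≠ 0) (h : 2 < ph (zc p))
    (h1 : zc (liftM (Phi B S) p) ≠ 0) : ph (zc p) - 1 ≤ ph (zc (liftM (Phi B S) p)) := by
  have h2 : nrm (im B S p) ≤ pw (1 - ph (zc p)) := by
    rw [show 1 - ph (zc p) = 1 + -ph (zc p) by ring, pw_add, pw_one, ← nrm_eq_pw h0]
    exact Phi_nrm B S _ _
  have h3 : nrm (im B S p) ≤ 1 := h2.trans ((pw_le.2 (show 1 - ph (zc p) ≤ 0 by linarith)).trans_eq pw_zero)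
  have h4 := zc_lift B S h3
  rw [← h4, nrm_le_pw h1] at h2
  linarith

theorem base_iter (x : Mt) (k : ℕ) :
    ((liftM (Phi B S))^[k] x).2.2 = x.2.2 * Circle.exp k := by
  induction k with
  | zero => simp
  | succ k ih =>
    rw [Function.iterate_succ_apply', lift_eq]
    simp only []
    rw [ih, mul_assoc, ← Circle.exp_add]
    push_cast
    rfl

/-- class of states after a collapse -/
def good (p : Mt) : Prop := (∃ L, isT S L p) ∨ isO p

theorem good_iter {p : Mt} (h : good S p) (k : ℕ) : good S ((liftM (Phi B S))^[k] p) := by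
  induction k with
  | zero => exact h
  | succ k ih =>
    rw [Function.iterate_succ_apply']
    rcases ih with ⟨L, hL⟩ | hO
    · rcases tel_step B S hL with ⟨h, -⟩ | h
      · exact Or.inl ⟨_, h⟩
      · exact Or.inr h
    · exact Or.inr (isO_of_isS (isS_lift_of_isO B S hO))

theorem isK_iter {p : Mt} (h : isK p) (k : ℕ) : isK ((liftM (Phi B S))^[k] p) := by
  induction k with
  | zero => exact h
  | succ k ih =>
    rw [Function.iterate_succ_apply']
    exact isK_lift B S ih

theorem main_step {Λ : ℝ} {x : Mt} {i : ℕ} (hi : 1 ≤ i)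
    (hX : ∀ E ≤ Λ + i, B.X E (Complex.arg ((liftM (Phi B S))^[i] x).2.2 - i) = 4)
    (hz : zc ((liftM (Phi B S))^[i] x) ≠ 0)
    (hE : ph (zc ((liftM (Phi B S))^[i] x)) ≤ Λ) :
    ∃ s < i, coll S (im B S ((liftM (Phi B S))^[s] x)) := by
  by_contra hcon
  push Not at hcon
  have hne : ∀ s ≤ i, zc ((liftM (Phi B S))^[s] x) ≠ 0 := by
    intro s hs h0
    apply hz
    have := isK_iter B S (p := (liftM (Phi B S))^[s] x) h0 (i - s)
    rw [← Function.iterate_add_apply, Nat.sub_add_cancel hs] at this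
    exact this
  have hph : ∀ s < i, 2 < ph (zc ((liftM (Phi B S))^[s] x)) := by
    intro s hs
    by_contra h
    exact hcon s hs (coll_of_ph B S (hne s hs.le) (not_lt.1 h))
  have hdec : ∀ s ≤ i, ph (zc x) - s ≤ ph (zc ((liftM (Phi B S))^[s] x)) := by
    intro s hs
    induction s with
    | zero => simp
    | succ s ih =>
      have h1 := ih (by omega)
      have h2 := ph_step B S (hne s (by omega)) (hph s (by omega)) (by
        rw [← Function.iterate_succ_apply' (liftM (Phi B S))]
        exact hne (s + 1) hs)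
      rw [Function.iterate_succ_apply']
      push_cast
      linarith
  have h3 := hdec i le_rfl
  have h4 : B.X (ph (zc x)) (Complex.arg x.2.2) = 4 := by
    rw [← hX (ph (zc x)) (by linarith)]
    apply per_exp (B.X_periodic _)
    rw [Circle.exp_arg, Circle.exp_sub, Circle.exp_arg, base_iter]
    simp
  exact hcon 0 (by omega) (coll_of_X B S (hne 0 (by omega)) h4)

theorem reach {Λ : ℕ} {x : Mt} {i : ℕ} (hi : 1 ≤ i)
    (hX : ∀ E ≤ (Λ : ℝ) + i, B.X E (Complex.arg ((liftM (Phi B S))^[i] x).2.2 - i) = 4)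
    (hz : pw (-Λ) ≤ nrm (zc ((liftM (Phi B S))^[i] x))) (k : ℕ) (hk : Λ + 3 ≤ k) :
    isS ((liftM (Phi B S))^[k] ((liftM (Phi B S))^[i] x)) := by
  have hz0 : zc ((liftM (Phi B S))^[i] x) ≠ 0 := by
    intro h
    rw [h, nrm_zero] at hz
    exact absurd hz (not_le.2 (pw_pos _))
  have hE : ph (zc ((liftM (Phi B S))^[i] x)) ≤ Λ := by
    rw [pw_le_nrm hz0] at hz
    linarith
  obtain ⟨s, hs, hc⟩ := main_step B S hi hX hz0 hE
  have hgood : good S ((liftM (Phi B S))^[i] x) := by
    have e : (liftM (Phi B S))^[i] x =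
        (liftM (Phi B S))^[i - (s + 1)] (liftM (Phi B S) ((liftM (Phi B S))^[s] x)) := by
      rw [← Function.iterate_succ_apply' (liftM (Phi B S)), ← Function.iterate_add_apply]
      congr 1
      omega
    rcases coll_lift B S hc with h | h | h
    · exfalso
      apply hz0
      rw [e]
      exact isK_iter B S h _
    · rw [e]
      exact good_iter B S (Or.inl h) _
    · rw [e]
      exact good_iter B S (Or.inr h) _
  rcases hgood with ⟨L, hL⟩ | hO
  · have hL0 : 0 ≤ L := by rw [← hL.2]; exact lev_nonneg S hL.1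
    have hL1 : L ≤ Λ + 1 := by
      rw [← hL.2, lev]
      have h1 : (⌊ph (zc ((liftM (Phi B S))^[i] x)) + 1 / 4⌋ : ℝ) ≤ Λ + 1 / 4 :=
        (Int.floor_le _).trans (by linarith)
      have h2 : (⌊ph (zc ((liftM (Phi B S))^[i] x)) + 1 / 4⌋ : ℝ) < ((Λ + 1 : ℤ) : ℝ) := by
        push_cast; linarith
      exact (Int.cast_lt.1 h2).le
    obtain ⟨L', rfl⟩ := Int.eq_ofNat_of_zero_le hL0
    exact absorb B S L' hL k (by omega)
  · obtain ⟨k, rfl⟩ : ∃ k', k = k' + 1 := ⟨k - 1, by omega⟩
    exact sink B S hO k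

theorem near_K {ε : ℝ} (hε : 0 < ε) : ∃ Λ : ℕ, ∀ x : Mt, nrm (zc x) < pw (-Λ) →
    dist x (south, south, x.2.2) < ε := by
  have hc : Continuous (fun z : V => (iota z.1, iota z.2)) :=
    (continuous_iota.comp continuous_fst).prodMk (continuous_iota.comp continuous_snd)
  obtain ⟨δ, hδ, h⟩ := Metric.continuousAt_iff.1 (hc.continuousAt (x := (0 : V))) ε hε
  obtain ⟨Λ, hΛ⟩ : ∃ Λ : ℕ, pw (-Λ) < min δ 1 := by
    have : Tendsto (fun n : ℕ => pw (-n)) atTop (𝓝 0) := by
      unfold pw
      refine Real.tendsto_exp_atBot.comp ?_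
      have h1 : Tendsto (fun n : ℕ => (n : ℝ) * Real.log 16) atTop atTop :=
        tendsto_natCast_atTop_atTop.atTop_mul_const log16_pos
      have h2 := tendsto_neg_atTop_atBot.comp h1
      refine h2.congr ?_
      intro n
      simp
    exact (this.eventually (gt_mem_nhds (show (0 : ℝ) < min δ 1 by positivity))).exists
  refine ⟨Λ, ?_⟩
  intro x hx
  have hx1 : nrm (zc x) < 1 := hx.trans (hΛ.trans_le (min_le_right _ _))
  have hxδ : nrm (zc x) < δ := hx.trans (hΛ.trans_le (min_le_left _ _))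
  have hn : nsq (zc x) < 1 := by
    by_contra h'
    exact absurd hx1 (not_lt.2 (one_le_nrm_iff.2 (not_lt.1 h')))
  have e1 : iota (cl x.1) = x.1 := by
    apply iota_cl
    by_contra h'
    have := one_le_cl (v := x.1) (by linarith)
    have := normSq_fst_le (zc x)
    simp only [zc] at this hn
    linarith
  have e2 : iota (cl x.2.1) = x.2.1 := by
    apply iota_cl
    by_contra h'
    have := one_le_cl (v := x.2.1) (by linarith)
    have := normSq_snd_le (zc x)
    simp only [zc] at this hn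
    linarith
  have hd := h (x := zc x) (by
    rw [dist_zero_right]
    exact (norm_le_nrm _).trans_lt hxδ)
  simp only [zc, e1, e2, Prod.fst_zero, Prod.snd_zero] at hd
  rw [Prod.dist_eq] at hd ⊢
  rw [Prod.dist_eq]
  simp only [dist_self]
  rw [max_lt_iff] at hd
  exact max_lt hd.1 (max_lt hd.2 hε)

end F2

open F2 in
/-- F2: orbit pattern of the standard model -/
theorem std_pattern (B : BaseData) (S : ShellData) (ε : ℝ) (hε : 0 < ε) :
    ∃ N : ℕ, ∀ x : Mt, ∀ n : ℕ, ∃ t₁ ≤ n, ∀ t < n,
      (N ≤ t ∧ t < t₁ → dist ((liftM (Phi B S))^[t] x)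
        (south, south, ((liftM (Phi B S))^[t] x).2.2) < ε) ∧
      (t₁ + N ≤ t → dist ((liftM (Phi B S))^[t] x)
        (north, south, ((liftM (Phi B S))^[t] x).2.2) < ε) := by
  obtain ⟨Λ, hΛ⟩ := near_K hε
  obtain ⟨N0, hN0⟩ := B.hit Λ
  refine ⟨max N0 (Λ + 3), ?_⟩
  intro x n
  have key : ∀ t, N0 ≤ t → pw (-Λ) ≤ nrm (zc ((liftM (Phi B S))^[t] x)) → ∀ k, Λ + 3 ≤ k →
      isS ((liftM (Phi B S))^[k + t] x) := by
    intro t ht hz k hk
    obtain ⟨i, hi1, hi2, hX⟩ := hN0 (Complex.arg ((liftM (Phi B S))^[t] x).2.2)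
    have e : (liftM (Phi B S))^[t] x =
        (liftM (Phi B S))^[i] ((liftM (Phi B S))^[t - i] x) := by
      rw [← Function.iterate_add_apply]
      congr 1
      omega
    rw [Function.iterate_add_apply, e]
    rw [e] at hX hz
    exact reach B S hi1 hX hz k hk
  have hsink : ∀ p : Mt, isS p → dist p (north, south, p.2.2) < ε := by
    rintro ⟨a, b, c⟩ ⟨h1, h2⟩
    simp only at h1 h2
    subst h1 h2
    simpa using hε
  by_cases hex : ∃ t, t < n ∧ N0 ≤ t ∧ pw (-Λ) ≤ nrm (zc ((liftM (Phi B S))^[t] x))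
  · classical
    refine ⟨Nat.find hex, (Nat.find_spec hex).1.le, ?_⟩
    intro t ht
    constructor
    · rintro ⟨h1, h2⟩
      have h3 := Nat.find_min hex h2
      push Not at h3
      exact hΛ _ (h3 ht ((le_max_left _ _).trans h1))
    · intro h1
      apply hsink
      obtain ⟨-, h3, h4⟩ := Nat.find_spec hex
      have := key _ h3 h4 (t - Nat.find hex) (by
        have := le_max_right N0 (Λ + 3)
        omega)
      rwa [Nat.sub_add_cancel (by omega)] at this
  · refine ⟨n, le_rfl, ?_⟩
    push Not at hex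
    intro t ht
    constructor
    · rintro ⟨h1, -⟩
      exact hΛ _ (hex t ht ((le_max_left _ _).trans h1))
    · intro h1
      omega

namespace F2

/-! ### the conjugating map -/

variable (B : BaseData)

theorem Tm_of_ph_le {z : V} (h : ph z ≤ 2) (β : ℝ) : Tm B z β = z := by
  unfold Tm
  rw [B.H_eq_zero _ h, pw_zero, one_smul]

theorem Tm_zero (β : ℝ) : Tm B 0 β = 0 := by
  unfold Tm
  rw [smul_zero]

theorem Tm_of_nrm_ge {z : V} (h : 1 ≤ nrm z) (β : ℝ) : Tm B z β = z := by
  apply Tm_of_ph_le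
  have hz : z ≠ 0 := by
    rintro rfl
    rw [nrm_zero] at h
    norm_num at h
  rw [← pw_zero, pw_le_nrm hz] at h
  linarith

theorem Tm_periodic (z : V) (β : ℝ) : Tm B z (β + 2 * π) = Tm B z β := by
  unfold Tm
  rw [B.H_periodic]

theorem nrm_Tm_le {z : V} (hz : nrm z ≤ 1) (β : ℝ) : nrm (Tm B z β) ≤ pw (-(15 / 16) * ph z) := by
  by_cases h0 : z = 0
  · subst h0
    rw [Tm_zero, nrm_zero]
    exact (pw_pos _).le
  · have hp : 0 ≤ ph z := by
      rw [← pw_zero, nrm_le_pw h0] at hz
      linarith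
    unfold Tm
    rw [nrm_smul (pw_pos _).le, nrm_eq_pw h0, ← pw_add, pw_le]
    have := B.H_le (ph z) β hp
    linarith

theorem nrm_Tm_le_one {z : V} (hz : nrm z ≤ 1) (β : ℝ) : nrm (Tm B z β) ≤ 1 := by
  by_cases h0 : z = 0
  · subst h0
    rw [Tm_zero, nrm_zero]
    norm_num
  · refine (nrm_Tm_le B hz β).trans ?_
    have hp : 0 ≤ ph z := by
      rw [← pw_zero, nrm_le_pw h0] at hz
      linarith
    exact (pw_le.2 (by nlinarith)).trans_eq pw_zero

theorem Tm_le_of_le {z : V} (β : ℝ) (h1 : Complex.normSq z.1 ≤ 1) (h2 : Complex.normSq z.2 ≤ 1) :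
    Complex.normSq (Tm B z β).1 ≤ 1 ∧ Complex.normSq (Tm B z β).2 ≤ 1 := by
  rcases le_or_gt (nrm z) 1 with h | h
  · have := nrm_Tm_le_one B h β
    rw [nrm_le_one_iff] at this
    exact ⟨(normSq_fst_le _).trans this, (normSq_snd_le _).trans this⟩
  · rw [Tm_of_nrm_ge B h.le]
    exact ⟨h1, h2⟩

theorem Tm_continuous : Continuous (fun q : V × ℝ => Tm B q.1 q.2) := by
  rw [continuous_iff_continuousAt]
  rintro ⟨z, β⟩
  by_cases hz0 : z = 0
  · subst hz0
    rw [ContinuousAt, Tm_zero]
    -- bound by a power of the norm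
    have hb : ∀ᶠ q : V × ℝ in 𝓝 ((0 : V), β), ‖Tm B q.1 q.2‖ ≤ nrm q.1 ^ ((15 : ℝ) / 16) := by
      have h1 : ∀ᶠ q : V × ℝ in 𝓝 ((0 : V), β), nrm q.1 < 1 := by
        have : Continuous (fun q : V × ℝ => nrm q.1) := continuous_nrm.comp continuous_fst
        have h2 := this.tendsto ((0 : V), β)
        exact h2.eventually (gt_mem_nhds (by rw [nrm_zero]; norm_num))
      filter_upwards [h1] with q hq
      by_cases h0 : q.1 = 0
      · rw [h0, Tm_zero, norm_zero]
        exact Real.rpow_nonneg (nrm_nonneg _) _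
      · refine (norm_le_nrm _).trans ((nrm_Tm_le B hq.le _).trans_eq ?_)
        rw [nrm_eq_pw h0, pw, pw, ← Real.exp_mul]
        congr 1
        ring
    refine squeeze_zero_norm' hb ?_
    have : Continuous (fun q : V × ℝ => nrm q.1 ^ ((15 : ℝ) / 16)) :=
      (continuous_nrm.comp continuous_fst).rpow_const (fun _ => Or.inr (by norm_num))
    have h2 := this.tendsto ((0 : V), β)
    simpa [nrm_zero] using h2
  · have hp : ContinuousAt (fun q : V × ℝ => (ph q.1, q.2)) (z, β) :=
      (ContinuousAt.comp (f := fun q : V × ℝ => q.1) (g := ph) (x := (z, β))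
        (continuousAt_ph hz0) continuous_fst.continuousAt).prodMk continuous_snd.continuousAt
    have hH : ContinuousAt (fun q : V × ℝ => B.H (ph q.1) q.2) (z, β) :=
      ContinuousAt.comp (f := fun q : V × ℝ => (ph q.1, q.2))
        (H_continuous B).continuousAt hp
    unfold Tm
    exact (pw_continuous.continuousAt.comp hH).smul continuous_fst.continuousAt

theorem TmC_continuous : Continuous (fun q : V × Circle => Tm B q.1 (Complex.arg q.2)) := by
  rw [continuous_iff_continuousAt]
  rintro ⟨z, b⟩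
  obtain ⟨β, rfl⟩ := Circle.exp_surjective b
  exact continuousAt_arg (fun z β => Tm B z β) (Tm_periodic B) (Tm_continuous B).continuousAt

/-- the formula for `TM` in the coordinates -/
def TMf (p : Mt) : Mt :=
  (iota (Tm B (zc p) (Complex.arg p.2.2)).1, iota (Tm B (zc p) (Complex.arg p.2.2)).2, p.2.2)

theorem TM_of_le {p : Mt} (h1 : (p.1 : E3) 2 ≤ 0) (h2 : (p.2.1 : E3) 2 ≤ 0) :
    TM B p = TMf B p := by
  unfold TM
  rw [if_pos ⟨h1, h2⟩]
  rfl

theorem TM_of_gt {p : Mt} (h : 0 < (p.1 : E3) 2 ∨ 0 < (p.2.1 : E3) 2) : TM B p = p := by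
  unfold TM
  rw [if_neg]
  rintro ⟨h1, h2⟩
  rcases h with h | h <;> linarith

theorem nrm_of_gt {p : Mt} (h : 0 < (p.1 : E3) 2 ∨ 0 < (p.2.1 : E3) 2) : 1 ≤ nrm (zc p) := by
  rw [one_le_nrm_iff]
  rcases h with h | h
  · exact (one_lt_cl h).le.trans (normSq_fst_le (zc p))
  · exact (one_lt_cl h).le.trans (normSq_snd_le (zc p))

theorem TM_eq {p : Mt} (h1 : (p.1 : E3) 2 ≤ 1 / 3) (h2 : (p.2.1 : E3) 2 ≤ 1 / 3) :
    TM B p = TMf B p := by
  by_cases h : 0 < (p.1 : E3) 2 ∨ 0 < (p.2.1 : E3) 2
  · rw [TM_of_gt B h]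
    unfold TMf
    rw [Tm_of_nrm_ge B (nrm_of_gt h)]
    simp only [zc]
    rw [iota_cl h1, iota_cl h2]
  · push Not at h
    exact TM_of_le B h.1 h.2

end F2

open F2 in
/-- F3 -/
theorem TM_continuous (B : BaseData) : Continuous (TM B) := by
  rw [continuous_iff_continuousAt]
  intro p
  have c0 : Continuous (fun q : Mt => (q.1 : E3) 2) := (continuous_coord 2).comp continuous_fst
  have c1 : Continuous (fun q : Mt => (q.2.1 : E3) 2) :=
    (continuous_coord 2).comp (continuous_fst.comp continuous_snd)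
  by_cases h : 0 < (p.1 : E3) 2 ∨ 0 < (p.2.1 : E3) 2
  · have hev : TM B =ᶠ[𝓝 p] id := by
      rcases h with h | h
      · filter_upwards [continuousAt_const.eventually_lt c0.continuousAt h] with q hq
        exact TM_of_gt B (Or.inl hq)
      · filter_upwards [continuousAt_const.eventually_lt c1.continuousAt h] with q hq
        exact TM_of_gt B (Or.inr hq)
    exact ContinuousAt.congr continuousAt_id hev.symm
  · push Not at h
    have hev : TM B =ᶠ[𝓝 p] TMf B := by
      filter_upwards [c0.continuousAt.eventually_lt continuousAt_const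
        (show (p.1 : E3) 2 < 1 / 3 by linarith [h.1]), c1.continuousAt.eventually_lt
        continuousAt_const (show (p.2.1 : E3) 2 < 1 / 3 by linarith [h.2])] with q hq1 hq2
      exact TM_eq B hq1.le hq2.le
    refine ContinuousAt.congr ?_ hev.symm
    have hx : ContinuousAt (fun q : Mt => cl q.1) p :=
      ContinuousAt.comp (f := fun q : Mt => q.1) (continuousAt_cl (by linarith [h.1]))
        continuous_fst.continuousAt
    have hy : ContinuousAt (fun q : Mt => cl q.2.1) p :=
      ContinuousAt.comp (f := fun q : Mt => q.2.1) (continuousAt_cl (by linarith [h.2]))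
        (continuous_fst.comp continuous_snd).continuousAt
    have hb : ContinuousAt (fun q : Mt => q.2.2) p := by fun_prop
    have h3 : ContinuousAt (fun q : Mt => Tm B (cl q.1, cl q.2.1) (Complex.arg q.2.2)) p :=
      ContinuousAt.comp (f := fun q : Mt => (((cl q.1, cl q.2.1) : V), q.2.2))
        (g := fun q : V × Circle => Tm B q.1 (Complex.arg q.2)) (TmC_continuous B).continuousAt
        ((hx.prodMk hy).prodMk hb)
    unfold TMf
    refine ContinuousAt.prodMk ?_ (ContinuousAt.prodMk ?_ hb)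
    · exact continuous_iota.continuousAt.comp (continuous_fst.continuousAt.comp h3)
    · exact continuous_iota.continuousAt.comp (continuous_snd.continuousAt.comp h3)

namespace F2

/-- surjectivity of `Tm`, with control of the size -/
theorem Tm_surj (B : BaseData) (z : V) (β : ℝ) :
    ∃ (c : ℝ), 0 ≤ c ∧ c ≤ 1 ∧ Tm B (c • z) β = z := by
  by_cases hz : z = 0
  · subst hz
    exact ⟨0, le_rfl, zero_le_one, by rw [smul_zero, Tm_zero]⟩
  · have hph : ∀ s : ℝ, ph (pw (-s) • z) = ph z + s := by
      intro s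
      have h0 : pw (-s) • z ≠ 0 := smul_ne_zero (pw_pos _).ne' hz
      have h1 := nrm_eq_pw h0
      rw [nrm_smul (pw_pos _).le, nrm_eq_pw hz, ← pw_add] at h1
      have := pw_injective h1
      linarith
    have hcont : Continuous (fun s : ℝ => s - B.H (ph z + s) β) := by
      have : Continuous (fun s : ℝ => B.H (ph z + s) β) :=
        (H_continuous B).comp (f := fun s : ℝ => (ph z + s, β)) (by fun_prop)
      exact continuous_id.sub this
    obtain ⟨s, hs1, hs2⟩ : ∃ s, 0 ≤ s ∧ s - B.H (ph z + s) β = 0 := by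
      set b : ℝ := max (-ph z) (|ph z|) with hb
      have hb0 : 0 ≤ b := (abs_nonneg _).trans (le_max_right _ _)
      have hb1 : 0 ≤ ph z + b := by
        have := le_max_left (-ph z) (|ph z|)
        linarith
      have hb2 : ph z ≤ b := (le_abs_self _).trans (le_max_right _ _)
      have hH := B.H_le (ph z + b) β hb1
      have h1 : (0 : ℝ) ∈ Set.Icc (0 - B.H (ph z + 0) β) (b - B.H (ph z + b) β) := by
        constructor
        · have := B.H_nonneg (ph z + 0) β
          linarith
        · linarith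
      obtain ⟨s, hs, hs'⟩ := intermediate_value_Icc hb0 hcont.continuousOn h1
      exact ⟨s, hs.1, hs'⟩
    refine ⟨pw (-s), (pw_pos _).le, (pw_le.2 (by linarith)).trans_eq pw_zero, ?_⟩
    unfold Tm
    rw [hph, smul_smul, ← pw_add]
    have : B.H (ph z + s) β + -s = 0 := by linarith
    rw [this, pw_zero, one_smul]

theorem zc_mk {z : V} (b : Circle) (h1 : Complex.normSq z.1 ≤ 1) (h2 : Complex.normSq z.2 ≤ 1) :
    zc ((iota z.1, iota z.2, b) : Mt) = z := by
  unfold zc
  simp only []
  rw [cl_iota (h1.trans (by norm_num)), cl_iota (h2.trans (by norm_num))]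

theorem normSq_smul (c : ℝ) (z : V) : Complex.normSq (c • z).1 = c ^ 2 * Complex.normSq z.1 ∧
    Complex.normSq (c • z).2 = c ^ 2 * Complex.normSq z.2 := by
  constructor <;>
  · simp only [Prod.smul_fst, Prod.smul_snd, Complex.normSq_apply, Complex.real_smul,
      Complex.mul_re, Complex.mul_im, Complex.ofReal_re, Complex.ofReal_im]
    ring

end F2

open F2 in
theorem TM_surjective (B : BaseData) : Function.Surjective (TM B) := by
  intro p
  by_cases h : 0 < (p.1 : E3) 2 ∨ 0 < (p.2.1 : E3) 2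
  · exact ⟨p, TM_of_gt B h⟩
  · push Not at h
    obtain ⟨c, hc0, hc1, hc⟩ := Tm_surj B (zc p) (Complex.arg p.2.2)
    obtain ⟨n1, n2⟩ := normSq_smul c (zc p)
    have m1 : Complex.normSq (zc p).1 ≤ 1 := cl_le_one h.1
    have m2 : Complex.normSq (zc p).2 ≤ 1 := cl_le_one h.2
    have k1 : Complex.normSq (c • zc p).1 ≤ 1 := by
      rw [n1]
      have := Complex.normSq_nonneg (zc p).1
      nlinarith [pow_le_one₀ (n := 2) hc0 hc1]
    have k2 : Complex.normSq (c • zc p).2 ≤ 1 := by
      rw [n2]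
      have := Complex.normSq_nonneg (zc p).2
      nlinarith [pow_le_one₀ (n := 2) hc0 hc1]
    refine ⟨(iota (c • zc p).1, iota (c • zc p).2, p.2.2), ?_⟩
    rw [TM_of_le B (iota_two_nonpos.2 k1) (iota_two_nonpos.2 k2)]
    unfold TMf
    have e : zc ((iota (c • zc p).1, iota (c • zc p).2, p.2.2) : Mt) = c • zc p := zc_mk _ k1 k2
    rw [e]
    simp only []
    rw [hc]
    simp only [zc]
    rw [iota_cl (h.1.trans (by norm_num)), iota_cl (h.2.trans (by norm_num))]

open F2 in
theorem TM_semiconj (B : BaseData) (S : ShellData) (F : FibreMap)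
    (hF : ∀ z β, F.G (Tm B z β) β = Tm B (Phi B S z β) (β + 1)) :
    Function.Semiconj (TM B) (liftM (Phi B S)) (liftM F.G) := by
  intro p
  -- both sides are equal to this point
  have hL : TM B (liftM (Phi B S) p) =
      (iota (Tm B (im B S p) (Complex.arg p.2.2 + 1)).1,
        iota (Tm B (im B S p) (Complex.arg p.2.2 + 1)).2, p.2.2 * Circle.exp 1) := by
    have hper : ∀ z : V, Tm B z (Complex.arg (p.2.2 * Circle.exp 1 : Circle)) =
        Tm B z (Complex.arg p.2.2 + 1) := by
      intro z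
      exact per_exp (Tm_periodic B z) (exp_arg_mul _ _)
    rw [lift_eq]
    by_cases h : 1 < Complex.normSq (im B S p).1 ∨ 1 < Complex.normSq (im B S p).2
    · have hn : 1 ≤ nrm (im B S p) := by
        rw [one_le_nrm_iff]
        rcases h with h | h
        · exact h.le.trans (normSq_fst_le _)
        · exact h.le.trans (normSq_snd_le _)
      rw [Tm_of_nrm_ge B hn]
      apply TM_of_gt
      rcases h with h | h
      · left
        by_contra h'
        exact absurd (iota_two_nonpos.1 (not_lt.1 h')) (not_le.2 h)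
      · right
        by_contra h'
        exact absurd (iota_two_nonpos.1 (not_lt.1 h')) (not_le.2 h)
    · push Not at h
      rw [TM_of_le B (iota_two_nonpos.2 h.1) (iota_two_nonpos.2 h.2)]
      unfold TMf
      have e : zc ((iota (im B S p).1, iota (im B S p).2, p.2.2 * Circle.exp 1) : Mt) =
          im B S p := by
        unfold zc
        simp only []
        rw [cl_iota (h.1.trans (by norm_num)), cl_iota (h.2.trans (by norm_num))]
      rw [e]
      simp only []
      rw [hper]
  rw [hL]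
  by_cases h : 0 < (p.1 : E3) 2 ∨ 0 < (p.2.1 : E3) 2
  · rw [TM_of_gt B h]
    have e : F.G (cl p.1, cl p.2.1) (Complex.arg p.2.2) =
        Tm B (im B S p) (Complex.arg p.2.2 + 1) := by
      have h1 := hF (zc p) (Complex.arg p.2.2)
      rw [Tm_of_nrm_ge B (nrm_of_gt h)] at h1
      exact h1
    unfold liftM
    rw [e]
  · push Not at h
    rw [TM_of_le B h.1 h.2]
    obtain ⟨k1, k2⟩ := Tm_le_of_le B (z := zc p) (Complex.arg p.2.2) (cl_le_one h.1)
      (cl_le_one h.2)
    have e : F.G (cl (TMf B p).1, cl (TMf B p).2.1) (Complex.arg (TMf B p).2.2) =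
        Tm B (im B S p) (Complex.arg p.2.2 + 1) := by
      have h1 := hF (zc p) (Complex.arg p.2.2)
      unfold TMf
      simp only []
      rw [cl_iota (k1.trans (by norm_num)), cl_iota (k2.trans (by norm_num))]
      exact h1
    unfold liftM
    rw [e]
    rfl

end

end Crest.Agent.S0163
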