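import Crest.Statements.S0163
import Crest.Agent.S0163_A1
import Crest.Agent.S0163_A2
import Crest.Agent.S0163_B
import Crest.Agent.S0163_C6
import Crest.Agent.S0163_D
import Crest.Agent.S0163_E
import Crest.Agent.S0163_F1
import Crest.Agent.S0163_F2

set_option autoImplicit false
open scoped Manifold ContDiff
open Crest Crest.AnalysisR

namespace Crest.Agent.S0163

/-- There is a compact smooth manifold without boundary (of some finite dimension, modelled on Euclidean space, with a compatible metric) carrying a continuously differentiable self-map whose topological entropy is zero while the map it induces on second singular homology with real coefficients has `2` as an eigenvalue; so topological entropy can be strictly smaller than the logarithm of the homological spectral radius for `C¹` self-maps. -/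
theorem result :
    ∃ (n : ℕ) (M : Type) (_ : MetricSpace M) (_ : CompactSpace M) (_ : Nonempty M)
      (_ : ChartedSpace (EuclideanSpace ℝ (Fin n)) M)
      (_ : IsManifold (modelWithCornersSelf ℝ (EuclideanSpace ℝ (Fin n))) ∞ M)
      (f : C(M, M)),
      ContMDiff (modelWithCornersSelf ℝ (EuclideanSpace ℝ (Fin n)))
          (modelWithCornersSelf ℝ (EuclideanSpace ℝ (Fin n))) 1 ⇑f ∧
        Dynamics.coverEntropy ⇑f Set.univ = 0 ∧
        Module.End.HasEigenvalue
          (((AlgebraicTopology.singularHomologyFunctor (ModuleCat.{0} ℝ) 2).obj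
              (ModuleCat.of ℝ ℝ)).map (TopCat.ofHom f)).hom (2 : ℝ) := by
  obtain ⟨B⟩ := exists_baseData
  obtain ⟨S⟩ := exists_shellData
  obtain ⟨F, hF⟩ := exists_fibreMap B S
  obtain ⟨i1, i2, hsm⟩ := exists_manifold_structure
  let f : C(Mt, Mt) := ⟨liftM F.G, liftM_continuous F⟩
  have : Nonempty Mt := ⟨(south, south, 1)⟩
  refine ⟨5, Mt, inferInstance, inferInstance, inferInstance, i1, i2, f, hsm F, ?_,
    hasEigenvalue_liftM_of homology_dbl F f rfl⟩
  -- entropy
  have h0 : Dynamics.coverEntropy (liftM (Phi B S)) Set.univ = 0 := by
    refine coverEntropy_eq_zero_of_pattern (liftM (Phi B S)) (std_continuous B S)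
      (fun b : Circle => b * Circle.exp 1) ?_ (fun p : Mt => p.2.2) (by fun_prop) (fun x => rfl)
      (fun b => (south, south, b)) (fun b => (north, south, b)) (by fun_prop) (by fun_prop)
      (fun ε hε => std_pattern B S ε hε)
    refine Isometry.of_dist_eq fun a b => ?_
    show dist ((a * Circle.exp 1 : Circle) : ℂ) ((b * Circle.exp 1 : Circle) : ℂ) = dist (a:ℂ) (b:ℂ)
    rw [Circle.coe_mul, Circle.coe_mul, dist_eq_norm, dist_eq_norm,
      ← sub_mul, norm_mul, Circle.norm_coe, mul_one]
  have huc : UniformContinuous (TM B) := CompactSpace.uniformContinuous_of_continuous (TM_continuous B)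
  have h1 := Dynamics.coverEntropy_image_le_of_uniformContinuous (TM_semiconj B S F hF) huc Set.univ
  rw [Set.image_univ, (TM_surjective B).range_eq, h0] at h1
  exact le_antisymm h1 (Dynamics.coverEntropy_nonneg _ Set.univ_nonempty)

end Crest.Agent.S0163
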