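import Mathlib
import Crest.Prelude.Def_AsymptoticConvexity
import Crest.Prelude.Def_Diamond

set_option autoImplicit false

namespace Crest.Agent.S0166.Diamond

open Crest.AnalysisR

/-! ### Graph distances in the diamonds -/

/-- A function on the vertices that varies by at most one along edges varies by at most the
distance between any two vertices of a preconnected graph. -/
theorem abs_sub_le_dist {V : Type*} {G : SimpleGraph V} (hc : G.Preconnected) (ψ : V → ℝ)
    (h : ∀ a b, G.Adj a b → |ψ a - ψ b| ≤ 1) (u v : V) :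
    |ψ u - ψ v| ≤ (G.dist u v : ℝ) := by
  obtain ⟨p, hp⟩ := (hc u v).exists_walk_length_eq_dist
  rw [← hp]
  clear hp
  induction p with
  | nil => simp
  | @cons a b c hab q ih =>
    have h1 := h a b hab
    have : |ψ a - ψ c| ≤ |ψ a - ψ b| + |ψ b - ψ c| := abs_sub_le _ _ _
    rw [SimpleGraph.Walk.length_cons]
    push_cast
    linarith

theorem src_false (k : ℕ) (e : DiamondEdge k) (i : ℕ) :
    diamondSrc (k + 1) (e, i, false) = (Sum.inl (diamondSrc k e) : DiamondVertex k ⊕ (DiamondEdge k × ℕ)) := rfl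

theorem src_true (k : ℕ) (e : DiamondEdge k) (i : ℕ) :
    diamondSrc (k + 1) (e, i, true) = (Sum.inr (e, i) : DiamondVertex k ⊕ (DiamondEdge k × ℕ)) := rfl

theorem tgt_false (k : ℕ) (e : DiamondEdge k) (i : ℕ) :
    diamondTgt (k + 1) (e, i, false) = (Sum.inr (e, i) : DiamondVertex k ⊕ (DiamondEdge k × ℕ)) := rfl

theorem tgt_true (k : ℕ) (e : DiamondEdge k) (i : ℕ) :
    diamondTgt (k + 1) (e, i, true) = (Sum.inl (diamondTgt k e) : DiamondVertex k ⊕ (DiamondEdge k × ℕ)) := rfl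

theorem src_ne_tgt : ∀ (k : ℕ) (e : DiamondEdge k), diamondSrc k e ≠ diamondTgt k e
  | 0, _ => Bool.false_ne_true
  | k + 1, (e, i, false) => by
    rw [src_false, tgt_false]; exact Sum.inl_ne_inr
  | k + 1, (e, i, true) => by
    rw [src_true, tgt_true]; exact Sum.inr_ne_inl

theorem adj_src_tgt (k : ℕ) (e : DiamondEdge k) :
    (diamondGraph k).Adj (diamondSrc k e) (diamondTgt k e) := by
  rw [diamondGraph, SimpleGraph.fromRel_adj]
  exact ⟨src_ne_tgt k e, Or.inl ⟨e, rfl, rfl⟩⟩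

theorem dist_src_tgt (k : ℕ) (e : DiamondEdge k) :
    diamondDist k (diamondSrc k e) (diamondTgt k e) = 1 := by
  rw [diamondDist, SimpleGraph.dist_eq_one_iff_adj]
  exact adj_src_tgt k e

/-- the two edges through a middle vertex -/
theorem adj_inl_src_mid (k : ℕ) (e : DiamondEdge k) (i : ℕ) :
    (diamondGraph (k + 1)).Adj (Sum.inl (diamondSrc k e)) (Sum.inr (e, i)) := by
  exact adj_src_tgt (k + 1) (e, i, false)

theorem adj_mid_inl_tgt (k : ℕ) (e : DiamondEdge k) (i : ℕ) :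
    (diamondGraph (k + 1)).Adj (Sum.inr (e, i)) (Sum.inl (diamondTgt k e)) := by
  exact adj_src_tgt (k + 1) (e, i, true)

theorem preconnected : ∀ k : ℕ, (diamondGraph k).Preconnected
  | 0 => by
    have h := (adj_src_tgt 0 ()).reachable
    have h' : (diamondGraph 0).Reachable false true := h
    intro u v
    change Bool at u v
    cases u <;> cases v
    · exact SimpleGraph.Reachable.refl _
    · exact h'
    · exact h'.symm
    · exact SimpleGraph.Reachable.refl _
  | k + 1 => by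
    have ih := preconnected k
    have key : ∀ u v : DiamondVertex k,
        (diamondGraph (k + 1)).Reachable (Sum.inl u) (Sum.inl v) := by
      intro u v
      obtain ⟨p⟩ := ih u v
      induction p with
      | nil => exact SimpleGraph.Reachable.refl _
      | @cons a b c hab q ihq =>
        refine SimpleGraph.Reachable.trans ?_ ihq
        rw [diamondGraph, SimpleGraph.fromRel_adj] at hab
        rcases hab.2 with ⟨e, rfl, rfl⟩ | ⟨e, rfl, rfl⟩
        · exact (adj_inl_src_mid k e 0).reachable.trans (adj_mid_inl_tgt k e 0).reachable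
        · exact ((adj_inl_src_mid k e 0).reachable.trans (adj_mid_inl_tgt k e 0).reachable).symm
    have key2 : ∀ u : DiamondVertex (k + 1), ∃ u' : DiamondVertex k,
        (diamondGraph (k + 1)).Reachable u (Sum.inl u') := by
      intro u
      change DiamondVertex k ⊕ (DiamondEdge k × ℕ) at u
      rcases u with u | ⟨e, i⟩
      · exact ⟨u, SimpleGraph.Reachable.refl _⟩
      · exact ⟨_, (adj_mid_inl_tgt k e i).reachable⟩
    intro u v
    obtain ⟨u', hu⟩ := key2 u
    obtain ⟨v', hv⟩ := key2 v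
    exact hu.trans ((key u' v').trans hv.symm)

/-- To check a one-Lipschitz bound along adjacency it is enough to check it on labelled edges. -/
theorem lip_of_edges (k : ℕ) (ψ : DiamondVertex k → ℝ)
    (h : ∀ e : DiamondEdge k, |ψ (diamondSrc k e) - ψ (diamondTgt k e)| ≤ 1) (u v : DiamondVertex k) :
    |ψ u - ψ v| ≤ (diamondDist k u v : ℝ) := by
  refine abs_sub_le_dist (preconnected k) ψ ?_ u v
  intro a b hab
  rw [diamondGraph, SimpleGraph.fromRel_adj] at hab
  rcases hab.2 with ⟨e, rfl, rfl⟩ | ⟨e, rfl, rfl⟩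
  · exact h e
  · rw [abs_sub_comm]; exact h e

theorem two_mul_dist_le (k : ℕ) (u v : DiamondVertex k) :
    2 * (diamondDist k u v : ℝ) ≤
      (diamondDist (k + 1) (Sum.inl u : DiamondVertex (k + 1)) (Sum.inl v : DiamondVertex (k + 1)) : ℝ) := by
  let d : DiamondVertex k → ℝ := fun w => (diamondDist k u w : ℝ)
  have hd : ∀ e : DiamondEdge k, |d (diamondSrc k e) - d (diamondTgt k e)| ≤ 1 := by
    intro e
    have h1 : diamondDist k u (diamondTgt k e) ≤
        diamondDist k u (diamondSrc k e) + diamondDist k (diamondSrc k e) (diamondTgt k e) :=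
      SimpleGraph.Connected.dist_triangle
        (by have : Nonempty (DiamondVertex k) := ⟨u⟩; exact ⟨preconnected k⟩)
    have h2 : diamondDist k u (diamondSrc k e) ≤
        diamondDist k u (diamondTgt k e) + diamondDist k (diamondTgt k e) (diamondSrc k e) :=
      SimpleGraph.Connected.dist_triangle
        (by have : Nonempty (DiamondVertex k) := ⟨u⟩; exact ⟨preconnected k⟩)
    have h3 : diamondDist k (diamondTgt k e) (diamondSrc k e) = 1 := by
      rw [diamondDist, SimpleGraph.dist_comm]; exact dist_src_tgt k e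
    rw [dist_src_tgt] at h1
    rw [h3] at h2
    have h1' : (diamondDist k u (diamondTgt k e) : ℝ) ≤ (diamondDist k u (diamondSrc k e) : ℝ) + 1 := by
      exact_mod_cast h1
    have h2' : (diamondDist k u (diamondSrc k e) : ℝ) ≤ (diamondDist k u (diamondTgt k e) : ℝ) + 1 := by
      exact_mod_cast h2
    simp only [d]
    rw [abs_le]
    constructor <;> linarith
  let ψ : DiamondVertex (k + 1) → ℝ := fun w =>
    Sum.elim (fun w => 2 * d w) (fun p => d (diamondSrc k p.1) + d (diamondTgt k p.1))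
      (w : DiamondVertex k ⊕ (DiamondEdge k × ℕ))
  have hψ : ∀ e : DiamondEdge (k + 1), |ψ (diamondSrc (k + 1) e) - ψ (diamondTgt (k + 1) e)| ≤ 1 := by
    rintro ⟨e, i, b⟩
    have := hd e
    rw [abs_le] at this ⊢
    cases b
    · rw [src_false, tgt_false]
      simp only [ψ, Sum.elim_inl, Sum.elim_inr]
      constructor <;> linarith [this.1, this.2]
    · rw [src_true, tgt_true]
      simp only [ψ, Sum.elim_inl, Sum.elim_inr]
      constructor <;> linarith [this.1, this.2]
  have h := lip_of_edges (k + 1) ψ hψ (Sum.inl u) (Sum.inl v)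
  have e1 : ψ (Sum.inl u : DiamondVertex (k + 1)) = 0 := by
    simp only [ψ, d, Sum.elim_inl, diamondDist, SimpleGraph.dist_self]; simp
  have e2 : ψ (Sum.inl v : DiamondVertex (k + 1)) = 2 * (diamondDist k u v : ℝ) := by
    simp only [ψ, d, Sum.elim_inl]
  rw [e1, e2] at h
  rw [zero_sub, abs_neg, abs_of_nonneg (by positivity)] at h
  exact h

theorem two_le_dist_mid (k : ℕ) (e : DiamondEdge k) {i j : ℕ} (hij : i ≠ j) :
    (2 : ℝ) ≤ (diamondDist (k + 1) (Sum.inr (e, i) : DiamondVertex (k + 1))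
      (Sum.inr (e, j) : DiamondVertex (k + 1)) : ℝ) := by
  classical
  let ψ : DiamondVertex (k + 1) → ℝ := fun w =>
    Sum.elim (fun _ => 0)
      (fun p : DiamondEdge k × ℕ => if p = (e, i) then 1 else if p = (e, j) then -1 else 0)
      (w : DiamondVertex k ⊕ (DiamondEdge k × ℕ))
  have hψ : ∀ e : DiamondEdge (k + 1), |ψ (diamondSrc (k + 1) e) - ψ (diamondTgt (k + 1) e)| ≤ 1 := by
    rintro ⟨e', i', b⟩
    cases b
    · rw [src_false, tgt_false]
      simp only [ψ, Sum.elim_inl, Sum.elim_inr]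
      split_ifs <;> norm_num
    · rw [src_true, tgt_true]
      simp only [ψ, Sum.elim_inl, Sum.elim_inr]
      split_ifs <;> norm_num
  have h := lip_of_edges (k + 1) ψ hψ (Sum.inr (e, i)) (Sum.inr (e, j))
  have e1 : ψ (Sum.inr (e, i) : DiamondVertex (k + 1)) = 1 := by
    simp only [ψ, Sum.elim_inr]; simp
  have e2 : ψ (Sum.inr (e, j) : DiamondVertex (k + 1)) = -1 := by
    simp only [ψ, Sum.elim_inr]
    rw [if_neg (fun h => hij (Prod.mk.inj h).2.symm)]
    simp
  rw [e1, e2] at h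
  norm_num at h
  exact_mod_cast h

/-! ### Pigeonhole modulo a finite-codimensional subspace -/

theorem pigeonhole {X : Type*} [NormedAddCommGroup X] [NormedSpace ℝ X] (S : Submodule ℝ X)
    (hS : IsClosed (S : Set X)) (hfin : FiniteDimensional ℝ (X ⧸ S)) (z : ℕ → X) (B : ℝ)
    (hB : ∀ i, ‖z i‖ ≤ B) (ε : ℝ) (hε : 0 < ε) :
    ∃ i j : ℕ, i ≠ j ∧ ∃ y ∈ S, ‖(1 / 2 : ℝ) • (z i - z j) - y‖ < ε := by
  have : IsClosed (S : Set X) := hS
  have : ProperSpace (X ⧸ S) := FiniteDimensional.proper ℝ (X ⧸ S)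
  let q : X → X ⧸ S := fun x => Submodule.Quotient.mk x
  have hq : ∀ i, q (z i) ∈ Metric.closedBall (0 : X ⧸ S) B := by
    intro i
    rw [mem_closedBall_zero_iff]
    exact (Submodule.Quotient.norm_mk_le S (z i)).trans (hB i)
  obtain ⟨a, -, φ, hφ, hlim⟩ := tendsto_subseq_of_bounded Metric.isBounded_closedBall hq
  have hc : CauchySeq (fun n => q (z (φ n))) := hlim.cauchySeq
  rw [Metric.cauchySeq_iff] at hc
  obtain ⟨N, hN⟩ := hc ε hε
  have h1 := hN N le_rfl (N + 1) (Nat.le_succ N)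
  refine ⟨φ N, φ (N + 1), (hφ (Nat.lt_succ_self N)).ne, ?_⟩
  rw [dist_eq_norm] at h1
  have h2 : ‖(Submodule.Quotient.mk ((1 / 2 : ℝ) • (z (φ N) - z (φ (N + 1)))) : X ⧸ S)‖ < ε := by
    have : (Submodule.Quotient.mk ((1 / 2 : ℝ) • (z (φ N) - z (φ (N + 1)))) : X ⧸ S)
        = (1 / 2 : ℝ) • (q (z (φ N)) - q (z (φ (N + 1)))) := rfl
    rw [this, norm_smul]
    have : ‖(1 / 2 : ℝ)‖ = 1 / 2 := by norm_num
    rw [this]
    nlinarith [norm_nonneg (q (z (φ N)) - q (z (φ (N + 1))))]
  obtain ⟨m, hm, hm'⟩ := Submodule.Quotient.norm_mk_lt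
    (Submodule.Quotient.mk ((1 / 2 : ℝ) • (z (φ N) - z (φ (N + 1)))) : X ⧸ S)
    (sub_pos.mpr h2)
  refine ⟨(1 / 2 : ℝ) • (z (φ N) - z (φ (N + 1))) - m, ?_, ?_⟩
  · have := (Submodule.Quotient.eq S).mp hm.symm
    exact this
  · have : (1 / 2 : ℝ) • (z (φ N) - z (φ (N + 1))) -
        ((1 / 2 : ℝ) • (z (φ N) - z (φ (N + 1))) - m) = m := by abel
    rw [this]
    linarith

/-! ### The midpoint step -/

/-- even convex functions are monotone on `[0, ∞)`: for the maximum of the two norms. -/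
theorem max_norm_mono {X : Type*} [NormedAddCommGroup X] [NormedSpace ℝ X] (x y : X) {a b : ℝ}
    (ha : 0 ≤ a) (hab : a ≤ b) :
    max ‖x + a • y‖ ‖x - a • y‖ ≤ max ‖x + b • y‖ ‖x - b • y‖ := by
  rcases eq_or_lt_of_le (ha.trans hab) with hb | hb
  · have : a = 0 := le_antisymm (by rw [hb]; exact hab) ha
    rw [this, ← hb]
  · have hb0 : b ≠ 0 := hb.ne'
    set l : ℝ := (1 + a / b) / 2 with hl
    have h0 : 0 ≤ a / b := by positivity
    have h1 : a / b ≤ 1 := (div_le_one hb).mpr hab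
    have hl0 : 0 ≤ l := by rw [hl]; linarith
    have hl1 : 0 ≤ 1 - l := by rw [hl]; linarith
    have e1 : x + a • y = l • (x + b • y) + (1 - l) • (x - b • y) := by
      have : a = l * b - (1 - l) * b := by
        rw [hl]; field_simp; ring
      rw [smul_add, smul_sub, smul_smul, smul_smul]
      rw [show l • x + (l * b) • y + ((1 - l) • x - ((1 - l) * b) • y)
        = (l • x + (1 - l) • x) + ((l * b) • y - ((1 - l) * b) • y) by abel]
      rw [← add_smul, ← sub_smul, ← this]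
      simp
    have e2 : x - a • y = (1 - l) • (x + b • y) + l • (x - b • y) := by
      have : a = l * b - (1 - l) * b := by
        rw [hl]; field_simp; ring
      rw [smul_add, smul_sub, smul_smul, smul_smul]
      rw [show (1 - l) • x + ((1 - l) * b) • y + (l • x - (l * b) • y)
        = (l • x + (1 - l) • x) - ((l * b) • y - ((1 - l) * b) • y) by abel]
      rw [← add_smul, ← sub_smul, ← this]
      simp
    set M := max ‖x + b • y‖ ‖x - b • y‖
    have hM1 : ‖x + b • y‖ ≤ M := le_max_left _ _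
    have hM2 : ‖x - b • y‖ ≤ M := le_max_right _ _
    refine max_le ?_ ?_
    · rw [e1]
      refine (norm_add_le _ _).trans ?_
      rw [norm_smul, norm_smul, Real.norm_of_nonneg hl0, Real.norm_of_nonneg hl1]
      nlinarith
    · rw [e2]
      refine (norm_add_le _ _).trans ?_
      rw [norm_smul, norm_smul, Real.norm_of_nonneg hl0, Real.norm_of_nonneg hl1]
      nlinarith

/-- The midpoint step: infinitely many `2 s`-separated approximate midpoints of a segment force a
long half. -/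
theorem midpoint_step (E : RealBanach)
    (hM : ∀ t : ℝ, 0 < t → E.MaxMidpointModulusGE E.norm t (Real.sqrt (1 + t ^ 2 / 4) - 1))
    (ρ s : ℝ) (hs : 0 < s) :
    letI := E.normed; letI := E.space
    ∀ (x : E.X) (z : ℕ → E.X), (∀ i, ‖x + z i‖ ≤ ρ) → (∀ i, ‖x - z i‖ ≤ ρ) →
      (∀ i j, i ≠ j → 2 * s ≤ ‖z i - z j‖) → ‖x‖ ^ 2 + s ^ 2 / 4 ≤ ρ ^ 2 := by
  let _ := E.normed
  let _ := E.space
  intro x z h1 h2 hz
  have hρ0 : 0 ≤ ρ := (norm_nonneg _).trans (h1 0)
  by_cases hx : x = 0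
  · have a1 := h1 0
    have a2 := h1 1
    have a3 := hz 0 1 (by norm_num)
    rw [hx, zero_add] at a1 a2
    have a4 : ‖z 0 - z 1‖ ≤ ‖z 0‖ + ‖z 1‖ := norm_sub_le _ _
    have : s ≤ ρ := by linarith
    rw [hx, norm_zero]
    nlinarith
  have hx0 : 0 < ‖x‖ := norm_pos_iff.mpr hx
  by_contra hcon
  push Not at hcon
  -- choose `s' < s`
  have hcont : Filter.Tendsto (fun u : ℝ => ‖x‖ ^ 2 + u ^ 2 / 4) (nhdsWithin s (Set.Iio s))
      (nhds (‖x‖ ^ 2 + s ^ 2 / 4)) := by
    apply Filter.Tendsto.mono_left _ nhdsWithin_le_nhds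
    exact (by fun_prop : Continuous (fun u : ℝ => ‖x‖ ^ 2 + u ^ 2 / 4)).tendsto s
  have hev := (hcont.eventually (lt_mem_nhds hcon)).and
    (Filter.Eventually.and (Ioo_mem_nhdsLT hs) self_mem_nhdsWithin)
  obtain ⟨s', hs'1, hs'2, hs'3⟩ := hev.exists
  have hs'0 : 0 < s' := hs'2.1
  have hs's : s' < s := hs'2.2
  -- the gap
  set R := Real.sqrt (‖x‖ ^ 2 + s' ^ 2 / 4) with hR
  have hRρ : ρ < R := by
    rw [hR]
    exact Real.lt_sqrt_of_sq_lt hs'1
  set δ := R - ρ with hδ
  have hδ0 : 0 < δ := by rw [hδ]; linarith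
  set t := s' / ‖x‖ with ht
  have ht0 : 0 < t := by positivity
  set x0 : E.X := (‖x‖)⁻¹ • x with hx0def
  have hx0n : ‖x0‖ = 1 := by
    rw [hx0def, norm_smul, norm_inv, norm_norm, inv_mul_cancel₀ hx0.ne']
  obtain ⟨F, hF, hFy⟩ := hM t ht0 x0 hx0n (δ / (4 * ‖x‖)) (by positivity)
  obtain ⟨S, hSF, hScl, hSfin⟩ := hF
  have hScl' : IsClosed (S : Set E.X) := by rw [hSF]; exact hScl
  have hzB : ∀ i, ‖z i‖ ≤ ρ + ‖x‖ := by
    intro i
    have : z i = (x + z i) - x := by abel
    calc ‖z i‖ = ‖(x + z i) - x‖ := by rw [← this]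
      _ ≤ ‖x + z i‖ + ‖x‖ := norm_sub_le _ _
      _ ≤ ρ + ‖x‖ := by linarith [h1 i]
  set ε := min (δ / 4) (s - s') with hε
  have hε0 : 0 < ε := lt_min (by positivity) (by linarith)
  have hε1 : ε ≤ δ / 4 := min_le_left _ _
  have hε2 : ε ≤ s - s' := min_le_right _ _
  obtain ⟨i, j, hij, y, hyS, hy⟩ := pigeonhole S hScl' hSfin z (ρ + ‖x‖) hzB ε hε0
  set w : E.X := (1 / 2 : ℝ) • (z i - z j) with hw
  have hws : s ≤ ‖w‖ := by
    rw [hw, norm_smul]
    have : ‖(1 / 2 : ℝ)‖ = 1 / 2 := by norm_num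
    rw [this]
    linarith [hz i j hij]
  have hyn : s' ≤ ‖y‖ := by
    have : ‖w‖ ≤ ‖w - y‖ + ‖y‖ := by
      calc ‖w‖ = ‖(w - y) + y‖ := by rw [sub_add_cancel]
        _ ≤ _ := norm_add_le _ _
    linarith
  have hy0 : 0 < ‖y‖ := lt_of_lt_of_le hs'0 hyn
  have hxw1 : ‖x + w‖ ≤ ρ := by
    have : x + w = (1 / 2 : ℝ) • (x + z i) + (1 / 2 : ℝ) • (x - z j) := by
      rw [hw]
      have hx2 : x = (1 / 2 : ℝ) • x + (1 / 2 : ℝ) • x := by
        rw [← add_smul]; norm_num
      calc x + (1 / 2 : ℝ) • (z i - z j)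
          = ((1 / 2 : ℝ) • x + (1 / 2 : ℝ) • x) + (1 / 2 : ℝ) • (z i - z j) := by rw [← hx2]
        _ = _ := by rw [smul_sub, smul_add, smul_sub]; abel
    rw [this]
    refine (norm_add_le _ _).trans ?_
    rw [norm_smul, norm_smul]
    have h12 : ‖(1 / 2 : ℝ)‖ = 1 / 2 := by norm_num
    rw [h12]
    linarith [h1 i, h2 j]
  have hxw2 : ‖x - w‖ ≤ ρ := by
    have : x - w = (1 / 2 : ℝ) • (x - z i) + (1 / 2 : ℝ) • (x + z j) := by
      rw [hw]
      have hx2 : x = (1 / 2 : ℝ) • x + (1 / 2 : ℝ) • x := by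
        rw [← add_smul]; norm_num
      calc x - (1 / 2 : ℝ) • (z i - z j)
          = ((1 / 2 : ℝ) • x + (1 / 2 : ℝ) • x) - (1 / 2 : ℝ) • (z i - z j) := by rw [← hx2]
        _ = _ := by rw [smul_sub, smul_add, smul_sub]; abel
    rw [this]
    refine (norm_add_le _ _).trans ?_
    rw [norm_smul, norm_smul]
    have h12 : ‖(1 / 2 : ℝ)‖ = 1 / 2 := by norm_num
    rw [h12]
    linarith [h1 j, h2 i]
  have hxy1 : ‖x + y‖ ≤ ρ + ε := by
    have : x + y = (x + w) - (w - y) := by abel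
    rw [this]
    refine (norm_sub_le _ _).trans ?_
    linarith
  have hxy2 : ‖x - y‖ ≤ ρ + ε := by
    have : x - y = (x - w) + (w - y) := by abel
    rw [this]
    refine (norm_add_le _ _).trans ?_
    linarith
  -- normalise
  set y0 : E.X := (‖y‖)⁻¹ • y with hy0def
  have hy0n : ‖y0‖ = 1 := by
    rw [hy0def, norm_smul, norm_inv, norm_norm, inv_mul_cancel₀ hy0.ne']
  have hy0F : y0 ∈ F := by
    rw [← hSF]
    exact S.smul_mem _ hyS
  have hmod := hFy y0 hy0F hy0n
  change Real.sqrt (1 + t ^ 2 / 4) - 1 - δ / (4 * ‖x‖)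
    ≤ max ‖x0 + t • y0‖ ‖x0 - t • y0‖ - 1 at hmod
  have hmono := max_norm_mono x0 y0 ht0.le (b := ‖y‖ / ‖x‖) (by
    rw [ht]; gcongr)
  have e1 : x0 + (‖y‖ / ‖x‖) • y0 = (‖x‖)⁻¹ • (x + y) := by
    rw [hx0def, hy0def, smul_smul, smul_add]
    congr 2
    field_simp
  have e2 : x0 - (‖y‖ / ‖x‖) • y0 = (‖x‖)⁻¹ • (x - y) := by
    rw [hx0def, hy0def, smul_smul, smul_sub]
    congr 2
    field_simp
  rw [e1, e2, norm_smul, norm_smul, norm_inv, norm_norm] at hmono
  have hmax : max (‖x‖⁻¹ * ‖x + y‖) (‖x‖⁻¹ * ‖x - y‖) ≤ ‖x‖⁻¹ * (ρ + ε) :=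
    max_le (by gcongr) (by gcongr)
  have hfin : Real.sqrt (1 + t ^ 2 / 4) - δ / (4 * ‖x‖) ≤ ‖x‖⁻¹ * (ρ + ε) := by
    linarith
  have hRt : R = ‖x‖ * Real.sqrt (1 + t ^ 2 / 4) := by
    rw [hR, ht]
    have : ‖x‖ ^ 2 + s' ^ 2 / 4 = ‖x‖ ^ 2 * (1 + (s' / ‖x‖) ^ 2 / 4) := by
      field_simp
    rw [this, Real.sqrt_mul (by positivity), Real.sqrt_sq hx0.le]
  have hfin2 : R - δ / 4 ≤ ρ + ε := by
    have := mul_le_mul_of_nonneg_left hfin hx0.le
    rw [mul_sub, ← hRt] at this
    have e3 : ‖x‖ * (δ / (4 * ‖x‖)) = δ / 4 := by field_simp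
    have e4 : ‖x‖ * (‖x‖⁻¹ * (ρ + ε)) = ρ + ε := by
      rw [← mul_assoc, mul_inv_cancel₀ hx0.ne', one_mul]
    rw [e3, e4] at this
    exact this
  rw [hδ] at hfin2 hε1
  linarith

/-- The quadratic lower bound for images of edges of the countably branching diamond. -/
theorem edge_bound (E : RealBanach)
    (hM : ∀ t : ℝ, 0 < t → E.MaxMidpointModulusGE E.norm t (Real.sqrt (1 + t ^ 2 / 4) - 1)) :
    letI := E.normed
    ∀ (k : ℕ) (s ρ : ℝ), 0 < s → 0 ≤ ρ → ∀ f : DiamondVertex k → E.X,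
      (∀ u v, s * (diamondDist k u v : ℝ) ≤ ‖f u - f v‖) →
      (∀ e, ‖f (diamondSrc k e) - f (diamondTgt k e)‖ ≤ ρ) →
      s ^ 2 * (1 + (k : ℝ) / 4) ≤ ρ ^ 2 := by
  let _ := E.normed
  let _ := E.space
  intro k
  induction k with
  | zero =>
    intro s ρ hs hρ f hlow hup
    have h1 := hlow (diamondSrc 0 ()) (diamondTgt 0 ())
    have h2 := hup ()
    have h0 : diamondDist 0 (diamondSrc 0 ()) (diamondTgt 0 ()) = 1 := dist_src_tgt 0 ()
    rw [h0] at h1
    have : s ≤ ρ := by simpa using h1.trans h2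
    simp only [Nat.cast_zero]
    nlinarith
  | succ k ih =>
    intro s ρ hs hρ f hlow hup
    -- the restriction to the old vertices
    let g : DiamondVertex k → E.X := fun u => f (Sum.inl u : DiamondVertex k ⊕ (DiamondEdge k × ℕ))
    have key : ∀ e : DiamondEdge k,
        ‖g (diamondSrc k e) - g (diamondTgt k e)‖ ^ 2 / 4 + s ^ 2 / 4 ≤ ρ ^ 2 := by
      intro e
      set u := g (diamondSrc k e) with hu
      set v := g (diamondTgt k e) with hv
      let m : ℕ → E.X := fun i => f (Sum.inr (e, i) : DiamondVertex k ⊕ (DiamondEdge k × ℕ))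
      let x : E.X := (1 / 2 : ℝ) • (v - u)
      let z : ℕ → E.X := fun i => m i - (1 / 2 : ℝ) • (u + v)
      have hum : ∀ i, ‖u - m i‖ ≤ ρ := fun i => hup (e, i, false)
      have hmv : ∀ i, ‖m i - v‖ ≤ ρ := fun i => hup (e, i, true)
      have hhalf : ∀ a : E.X, (1 / 2 : ℝ) • a + (1 / 2 : ℝ) • a = a := by
        intro a; rw [← add_smul]; norm_num
      have hxz : ∀ i, x + z i = m i - u := by
        intro i
        simp only [x, z]
        rw [smul_sub, smul_add]
        have := hhalf u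
        calc (1 / 2 : ℝ) • v - (1 / 2 : ℝ) • u + (m i - ((1 / 2 : ℝ) • u + (1 / 2 : ℝ) • v))
            = m i - ((1 / 2 : ℝ) • u + (1 / 2 : ℝ) • u) := by abel
          _ = m i - u := by rw [this]
      have hxz' : ∀ i, x - z i = v - m i := by
        intro i
        simp only [x, z]
        rw [smul_sub, smul_add]
        have := hhalf v
        calc (1 / 2 : ℝ) • v - (1 / 2 : ℝ) • u - (m i - ((1 / 2 : ℝ) • u + (1 / 2 : ℝ) • v))
            = ((1 / 2 : ℝ) • v + (1 / 2 : ℝ) • v) - m i := by abel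
          _ = v - m i := by rw [this]
      have h1 : ∀ i, ‖x + z i‖ ≤ ρ := by
        intro i; rw [hxz, norm_sub_rev]; exact hum i
      have h2 : ∀ i, ‖x - z i‖ ≤ ρ := by
        intro i; rw [hxz', norm_sub_rev]; exact hmv i
      have h3 : ∀ i j, i ≠ j → 2 * s ≤ ‖z i - z j‖ := by
        intro i j hij
        have e1 : z i - z j = m i - m j := by simp only [z]; abel
        rw [e1]
        have h4 := hlow (Sum.inr (e, i) : DiamondVertex k ⊕ (DiamondEdge k × ℕ))
          (Sum.inr (e, j) : DiamondVertex k ⊕ (DiamondEdge k × ℕ))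
        have h5 := two_le_dist_mid k e hij
        refine le_trans ?_ h4
        nlinarith
      have h6 := midpoint_step E hM ρ s hs x z h1 h2 h3
      have h7 : ‖x‖ = ‖u - v‖ / 2 := by
        simp only [x]
        rw [norm_smul, norm_sub_rev]
        have : ‖(1 / 2 : ℝ)‖ = 1 / 2 := by norm_num
        rw [this]; ring
      rw [h7] at h6
      linarith
    have hs4 : 0 ≤ 4 * ρ ^ 2 - s ^ 2 := by
      by_cases hne : Nonempty (DiamondEdge k)
      · obtain ⟨e⟩ := hne
        have := key e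
        nlinarith [sq_nonneg (‖g (diamondSrc k e) - g (diamondTgt k e)‖)]
      · exfalso
        apply hne
        clear * -
        induction k with
        | zero => exact ⟨()⟩
        | succ k ih => obtain ⟨e⟩ := ih; exact ⟨(e, 0, false)⟩
    have hrec := ih (2 * s) (Real.sqrt (4 * ρ ^ 2 - s ^ 2)) (by positivity) (Real.sqrt_nonneg _) g
      (by
        intro u v
        have h1 := hlow (Sum.inl u : DiamondVertex k ⊕ (DiamondEdge k × ℕ))
          (Sum.inl v : DiamondVertex k ⊕ (DiamondEdge k × ℕ))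
        have h2 := two_mul_dist_le k u v
        refine le_trans ?_ h1
        nlinarith)
      (by
        intro e
        apply Real.le_sqrt_of_sq_le
        have := key e
        linarith)
    rw [Real.sq_sqrt hs4] at hrec
    push_cast
    nlinarith

/-- The diamond distortion lower bound. -/
theorem distortion_bound (E : RealBanach)
    (hM : ∀ t : ℝ, 0 < t → E.MaxMidpointModulusGE E.norm t (Real.sqrt (1 + t ^ 2 / 4) - 1))
    (k : ℕ) (f : DiamondVertex k → E.X) (D : ℝ) (hf : E.HasDistortionLE k f D) :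
    1 + (k : ℝ) / 4 ≤ D ^ 2 := by
  let _ := E.normed
  obtain ⟨s, hs, hb⟩ := hf
  have hedge : ∀ e : DiamondEdge k,
      ‖f (diamondSrc k e) - f (diamondTgt k e)‖ ≤ D * s := by
    intro e
    have := (hb (diamondSrc k e) (diamondTgt k e)).2
    rw [dist_src_tgt] at this
    simpa using this
  have hne : Nonempty (DiamondEdge k) := by
    clear * -
    induction k with
    | zero => exact ⟨()⟩
    | succ k ih => obtain ⟨e⟩ := ih; exact ⟨(e, 0, false)⟩
  obtain ⟨e⟩ := hne
  have hDs : 0 ≤ D * s := (norm_nonneg _).trans (hedge e)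
  have h := edge_bound E hM k s (D * s) hs hDs f (fun u v => (hb u v).1) hedge
  have h2 : s ^ 2 * (1 + (k : ℝ) / 4) ≤ s ^ 2 * D ^ 2 := by nlinarith
  exact le_of_mul_le_mul_left h2 (by positivity)

end Crest.Agent.S0166.Diamond
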