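import Crest.Agent.S0166Defs

set_option autoImplicit false

namespace Crest.Agent.S0166

open Finset Crest.AnalysisR Crest.AnalysisR.TreePotential
open scoped RealInnerProductSpace

/-! ### Finite square sums in `HH` -/

theorem sum_sq_le_of_norm_le (f : HH) (hf : ‖f‖ ≤ 1) (S : Finset (List ℕ)) :
    ∑ s ∈ S, (f s) ^ 2 ≤ 1 := by
  have h2 : (2 : ENNReal).toReal = 2 := by norm_num
  have h := lp.sum_rpow_le_norm_rpow (p := 2) (by rw [h2]; norm_num) f S
  rw [h2] at h
  have e : ∀ s, ‖f s‖ ^ (2 : ℝ) = (f s) ^ 2 := by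
    intro s
    rw [Real.rpow_two, Real.norm_eq_abs, sq_abs]
  simp only [e, Real.rpow_two] at h
  have : ‖f‖ ^ 2 ≤ 1 := by
    have := norm_nonneg f
    nlinarith
  linarith

theorem exists_HH (h : List ℕ → ℝ) (hS : ∀ S : Finset (List ℕ), ∑ s ∈ S, (h s) ^ 2 ≤ 1) :
    ∃ f : HH, (∀ s, f s = h s) ∧ ‖f‖ ≤ 1 := by
  have h2 : (2 : ENNReal).toReal = 2 := by norm_num
  have e : ∀ s, ‖h s‖ ^ (2 : ENNReal).toReal = (h s) ^ 2 := by
    intro s
    rw [h2, Real.rpow_two, Real.norm_eq_abs, sq_abs]
  have hmem : Memℓp (E := fun _ : List ℕ => ℝ) h 2 := by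
    apply memℓp_gen' (C := 1)
    intro S
    simp only [e]
    exact hS S
  refine ⟨⟨h, hmem⟩, fun s => rfl, ?_⟩
  apply lp.norm_le_of_forall_sum_le (by rw [h2]; norm_num) zero_le_one
  intro S
  have : ∀ s, ‖(⟨h, hmem⟩ : HH) s‖ ^ (2 : ENNReal).toReal = (h s) ^ 2 := e
  simp only [this]
  rw [h2, Real.rpow_two]
  simpa using hS S

theorem inner_congr (f x g x' : HH) (h : ∀ s, f s * x s = g s * x' s) : ⟪f, x⟫ = ⟪g, x'⟫ := by
  rw [lp.inner_eq_tsum, lp.inner_eq_tsum]
  apply tsum_congr
  intro s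
  have := h s
  simp only [RCLike.inner_apply, conj_trivial]
  rw [mul_comm, this, mul_comm]

/-! ### Exit potentials -/

/-- the potential of `f` at the last vertex of `A` on the path to `s` -/
noncomputable def exitPot (A : Finset (List ℕ)) (f : List ℕ → ℝ) : List ℕ → ℝ
  | [] => pathPotential f []
  | a :: v => open Classical in if (a :: v) ∈ A then pathPotential f (a :: v) else exitPot A f v

/-- the potential of `g` relative to the last vertex of `A` on the path to `s` -/
noncomputable def relPot (A : Finset (List ℕ)) (g : List ℕ → ℝ) : List ℕ → ℝ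
  | [] => 0
  | a :: v => open Classical in if (a :: v) ∈ A then 0 else relPot A g v + g (a :: v)

theorem exitPot_of_mem (A : Finset (List ℕ)) (f : List ℕ → ℝ) (s : List ℕ) (hs : s ∈ A) :
    exitPot A f s = pathPotential f s := by
  cases s with
  | nil => rfl
  | cons a v => rw [exitPot, if_pos hs]

theorem relPot_of_mem (A : Finset (List ℕ)) (g : List ℕ → ℝ) (s : List ℕ) (hs : s ∈ A) :
    relPot A g s = 0 := by
  cases s with
  | nil => rfl
  | cons a v => rw [relPot, if_pos hs]

theorem exitPot_bound (A : Finset (List ℕ)) (f : List ℕ → ℝ) (n : ℕ)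
    (hf : ∀ s : List ℕ, s.length ≤ n → |pathPotential f s| ≤ 1) :
    ∀ s : List ℕ, s.length ≤ n → |exitPot A f s| ≤ 1 := by
  intro s
  induction s with
  | nil => intro hs; exact hf [] hs
  | cons a v ih =>
    intro hs
    rw [exitPot]
    split_ifs with h
    · exact hf _ hs
    · exact ih (by simp at hs; omega)

theorem relPot_bound (A : Finset (List ℕ)) (g : List ℕ → ℝ) (n : ℕ)
    (hg : ∀ s : List ℕ, s.length ≤ n → |pathPotential g s| ≤ 1) :
    ∀ s : List ℕ, s.length ≤ n → |relPot A g s| ≤ 2 := by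
  have key : ∀ s : List ℕ, s.length ≤ n → ∃ q : ℝ, |q| ≤ 1 ∧ relPot A g s = pathPotential g s - q := by
    intro s
    induction s with
    | nil =>
      intro hs
      exact ⟨pathPotential g [], hg [] hs, by simp [relPot]⟩
    | cons a v ih =>
      intro hs
      rw [relPot]
      split_ifs with h
      · exact ⟨pathPotential g (a :: v), hg _ hs, by simp⟩
      · obtain ⟨q, hq, hq'⟩ := ih (by simp at hs; omega)
        refine ⟨q, hq, ?_⟩
        rw [hq', pathPotential]
        ring
  intro s hs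
  obtain ⟨q, hq, hq'⟩ := key s hs
  have := hg s hs
  rw [hq']
  rw [abs_le] at *
  constructor <;> linarith [this.1, this.2, hq.1, hq.2]

/-- the family whose potential is `U` -/
def incr (U : List ℕ → ℝ) : List ℕ → ℝ
  | [] => U []
  | a :: v => U (a :: v) - U v

theorem pathPotential_incr (U : List ℕ → ℝ) : ∀ s, pathPotential (incr U) s = U s := by
  intro s
  induction s with
  | nil => rfl
  | cons a v ih => rw [pathPotential, ih, incr]; ring

/-- the potential of the test `h₊` -/
noncomputable def Up (A : Finset (List ℕ)) (α β : ℝ) (f g : List ℕ → ℝ) (s : List ℕ) : ℝ :=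
  α * exitPot A f s +
    β * (open Classical in if 0 ≤ exitPot A f s then -(max (-relPot A g s) 0) else max (relPot A g s) 0)

/-- the potential of the test `h₋` -/
noncomputable def Um (A : Finset (List ℕ)) (α β : ℝ) (f g : List ℕ → ℝ) (s : List ℕ) : ℝ :=
  α * exitPot A f s +
    β * (open Classical in if 0 ≤ exitPot A f s then -(max (relPot A g s) 0) else max (-relPot A g s) 0)

theorem Up_bound (A : Finset (List ℕ)) (α β : ℝ) (hα : 0 ≤ α) (hα1 : α ≤ 1) (hβ : 0 ≤ β)
    (hβ1 : 2 * β ≤ 1) (f g : List ℕ → ℝ) (s : List ℕ) (hf : |exitPot A f s| ≤ 1)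
    (hg : |relPot A g s| ≤ 2) : |Up A α β f g s| ≤ 1 ∧ |Um A α β f g s| ≤ 1 := by
  rw [Up, Um]
  set p := exitPot A f s
  set u := relPot A g s
  rw [abs_le] at hf hg
  have m1 : 0 ≤ max (-u) 0 := le_max_right _ _
  have m2 : 0 ≤ max u 0 := le_max_right _ _
  have m3 : max (-u) 0 ≤ 2 := max_le (by linarith) (by norm_num)
  have m4 : max u 0 ≤ 2 := max_le (by linarith) (by norm_num)
  have k1 : 0 ≤ β * max (-u) 0 := by positivity
  have k2 : 0 ≤ β * max u 0 := by positivity
  have k3 : β * max (-u) 0 ≤ 1 := by nlinarith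
  have k4 : β * max u 0 ≤ 1 := by nlinarith
  by_cases hp : 0 ≤ p
  · rw [if_pos hp, if_pos hp]
    have k5 : 0 ≤ α * p := by positivity
    have k6 : α * p ≤ 1 := by nlinarith
    constructor <;> rw [abs_le] <;> constructor <;> nlinarith
  · rw [if_neg hp, if_neg hp]
    push Not at hp
    have k5 : α * p ≤ 0 := by nlinarith
    have k6 : -1 ≤ α * p := by nlinarith
    constructor <;> rw [abs_le] <;> constructor <;> nlinarith

theorem abs_max_sub_max (a b : ℝ) : |max a 0 - max b 0| ≤ |a - b| :=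
  abs_max_sub_max_le_abs a b 0

/-- increments of the two tests -/
theorem incr_mem (A : Finset (List ℕ)) (hA : AncClosed A) (h0 : [] ∈ A) (α β : ℝ)
    (f g : List ℕ → ℝ) (s : List ℕ) (hs : s ∈ A) :
    incr (Up A α β f g) s = α * f s ∧ incr (Um A α β f g) s = α * f s := by
  have z1 : ∀ v ∈ A, Up A α β f g v = α * pathPotential f v := by
    intro v hv
    rw [Up, exitPot_of_mem A f v hv, relPot_of_mem A g v hv]
    simp
  have z2 : ∀ v ∈ A, Um A α β f g v = α * pathPotential f v := by
    intro v hv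
    rw [Um, exitPot_of_mem A f v hv, relPot_of_mem A g v hv]
    simp
  cases s with
  | nil =>
    rw [incr, incr, z1 [] h0, z2 [] h0]
    simp [pathPotential]
  | cons a v =>
    have hv := hA a v hs
    rw [incr, incr, z1 _ hs, z1 v hv, z2 _ hs, z2 v hv, pathPotential]
    constructor <;> ring

theorem incr_not_mem (A : Finset (List ℕ)) (h0 : [] ∈ A) (α β : ℝ) (hβ : 0 ≤ β)
    (f g : List ℕ → ℝ) (s : List ℕ) (hs : s ∉ A) :
    |incr (Up A α β f g) s| ≤ β * |g s| ∧ |incr (Um A α β f g) s| ≤ β * |g s| ∧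
      incr (Up A α β f g) s - incr (Um A α β f g) s = β * g s := by
  cases s with
  | nil => exact absurd h0 hs
  | cons a v =>
    have e1 : exitPot A f (a :: v) = exitPot A f v := by rw [exitPot, if_neg hs]
    have e2 : relPot A g (a :: v) = relPot A g v + g (a :: v) := by rw [relPot, if_neg hs]
    rw [incr, incr, Up, Up, Um, Um, e1, e2]
    set p := exitPot A f v
    set u := relPot A g v
    set c := g (a :: v)
    have hb1 : |max (u + c) 0 - max u 0| ≤ |c| := by
      have := abs_max_sub_max (u + c) u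
      simpa using this
    have hb2 : |max (-(u + c)) 0 - max (-u) 0| ≤ |c| := by
      have := abs_max_sub_max (-(u + c)) (-u)
      have e : -(u + c) - -u = -c := by ring
      rw [e, abs_neg] at this
      exact this
    have hd : ∀ w : ℝ, max w 0 - max (-w) 0 = w := by
      intro w
      rcases le_total 0 w with h | h
      · rw [max_eq_left h, max_eq_right (by linarith)]; ring
      · rw [max_eq_right h, max_eq_left (by linarith)]; ring
    have hd1 := hd (u + c)
    have hd2 := hd u
    by_cases hp : 0 ≤ p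
    · simp only [hp, if_true]
      refine ⟨?_, ?_, ?_⟩
      · have : α * p + β * -max (-(u + c)) 0 - (α * p + β * -max (-u) 0)
            = -(β * (max (-(u + c)) 0 - max (-u) 0)) := by ring
        rw [this, abs_neg, abs_mul, abs_of_nonneg hβ]
        gcongr
      · have : α * p + β * -max (u + c) 0 - (α * p + β * -max u 0)
            = -(β * (max (u + c) 0 - max u 0)) := by ring
        rw [this, abs_neg, abs_mul, abs_of_nonneg hβ]
        gcongr
      · linear_combination β * hd1 - β * hd2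
    · simp only [hp, if_false]
      refine ⟨?_, ?_, ?_⟩
      · have : α * p + β * max (u + c) 0 - (α * p + β * max u 0)
            = β * (max (u + c) 0 - max u 0) := by ring
        rw [this, abs_mul, abs_of_nonneg hβ]
        gcongr
      · have : α * p + β * max (-(u + c)) 0 - (α * p + β * max (-u) 0)
            = β * (max (-(u + c)) 0 - max (-u) 0) := by ring
        rw [this, abs_mul, abs_of_nonneg hβ]
        gcongr
      · linear_combination β * hd1 - β * hd2

/-- For `f, g` tests and admissible weights the average of the norms dominates. -/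
theorem weighted_mid (n : ℕ) (A : Finset (List ℕ)) (hA : AncClosed A) (h0 : [] ∈ A) (x y : HH)
    (hx : ∀ s, s ∉ A → x s = 0) (hy : ∀ s ∈ A, y s = 0) (α β : ℝ) (hα : 0 ≤ α) (hβ : 0 ≤ β)
    (hαβ : α ^ 2 + β ^ 2 ≤ 1) (hβ1 : 2 * β ≤ 1) (f g : HH) (hf : f ∈ KK n) (hg : g ∈ KK n) :
    2 * α * ⟪f, x⟫ + β * ⟪g, y⟫ ≤ pn n (x + y) + pn n (x - y) := by
  classical
  have hα1 : α ≤ 1 := by nlinarith [sq_nonneg β]
  set F : List ℕ → ℝ := fun v => f v with hF
  set G : List ℕ → ℝ := fun v => g v with hG
  have sumle : ∀ (U : List ℕ → ℝ), (∀ s ∈ A, U s = α * F s) → (∀ s, s ∉ A → |U s| ≤ β * |G s|) →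
      ∀ S : Finset (List ℕ), ∑ s ∈ S, (U s) ^ 2 ≤ 1 := by
    intro U h1 h2 S
    have hf1 := sum_sq_le_of_norm_le f hf.1 (S.filter (· ∈ A))
    have hg1 := sum_sq_le_of_norm_le g hg.1 (S.filter (· ∉ A))
    rw [← Finset.sum_filter_add_sum_filter_not S (· ∈ A)]
    have e1 : ∑ s ∈ S with s ∈ A, (U s) ^ 2 ≤ α ^ 2 := by
      calc ∑ s ∈ S with s ∈ A, (U s) ^ 2 = ∑ s ∈ S with s ∈ A, α ^ 2 * (f s) ^ 2 := by
            apply sum_congr rfl
            intro s hs
            rw [h1 s (mem_filter.1 hs).2]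
            simp only [hF]; ring
        _ = α ^ 2 * ∑ s ∈ S with s ∈ A, (f s) ^ 2 := by rw [mul_sum]
        _ ≤ α ^ 2 * 1 := by gcongr
        _ = α ^ 2 := mul_one _
    have e2 : ∑ s ∈ S with s ∉ A, (U s) ^ 2 ≤ β ^ 2 := by
      calc ∑ s ∈ S with s ∉ A, (U s) ^ 2 ≤ ∑ s ∈ S with s ∉ A, β ^ 2 * (g s) ^ 2 := by
            apply sum_le_sum
            intro s hs
            have h3 := h2 s (mem_filter.1 hs).2
            have h4 : |U s| ^ 2 ≤ (β * |G s|) ^ 2 := pow_le_pow_left₀ (abs_nonneg _) h3 2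
            rw [sq_abs, mul_pow, sq_abs] at h4
            exact h4
        _ = β ^ 2 * ∑ s ∈ S with s ∉ A, (g s) ^ 2 := by rw [mul_sum]
        _ ≤ β ^ 2 * 1 := by gcongr
        _ = β ^ 2 := mul_one _
    linarith
  have hin := incr_mem A hA h0 α β F G
  have hout := incr_not_mem A h0 α β hβ F G
  obtain ⟨h1, h1e, h1n⟩ := exists_HH (incr (Up A α β F G))
    (sumle _ (fun s hs => (hin s hs).1) (fun s hs => (hout s hs).1))
  obtain ⟨h2, h2e, h2n⟩ := exists_HH (incr (Um A α β F G))
    (sumle _ (fun s hs => (hin s hs).2) (fun s hs => (hout s hs).2.1))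
  have k1 : h1 ∈ KK n := by
    refine ⟨h1n, ?_⟩
    intro s hs
    have : (fun v => h1 v) = incr (Up A α β F G) := funext h1e
    rw [this, pathPotential_incr]
    exact (Up_bound A α β hα hα1 hβ hβ1 F G s (exitPot_bound A F n hf.2 s hs)
      (relPot_bound A G n hg.2 s hs)).1
  have k2 : h2 ∈ KK n := by
    refine ⟨h2n, ?_⟩
    intro s hs
    have : (fun v => h2 v) = incr (Um A α β F G) := funext h2e
    rw [this, pathPotential_incr]
    exact (Up_bound A α β hα hα1 hβ hβ1 F G s (exitPot_bound A F n hf.2 s hs)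
      (relPot_bound A G n hg.2 s hs)).2
  have l1 := le_pn n h1 k1 (x + y)
  have l2 := le_pn n h2 k2 (x - y)
  have e1 : ⟪h1, x⟫ = α * ⟪f, x⟫ := by
    rw [← real_inner_smul_left]
    apply inner_congr
    intro s
    rw [h1e s]
    by_cases hs : s ∈ A
    · rw [(hin s hs).1]; simp [hF]
    · rw [hx s hs]; simp
  have e2 : ⟪h2, x⟫ = α * ⟪f, x⟫ := by
    rw [← real_inner_smul_left]
    apply inner_congr
    intro s
    rw [h2e s]
    by_cases hs : s ∈ A
    · rw [(hin s hs).2]; simp [hF]
    · rw [hx s hs]; simp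
  have e3 : ⟪h1, y⟫ - ⟪h2, y⟫ = β * ⟪g, y⟫ := by
    rw [← inner_sub_left, ← real_inner_smul_left]
    apply inner_congr
    intro s
    by_cases hs : s ∈ A
    · rw [hy s hs]; simp
    · have := (hout s hs).2.2
      rw [lp.coeFn_sub, Pi.sub_apply, h1e s, h2e s, this]
      simp [hG]
  rw [inner_add_right] at l1
  rw [inner_sub_right] at l2
  linarith

/-- The trivial bound. -/
theorem pn_le_avg (n : ℕ) (x y : HH) : pn n y ≤ (pn n (x + y) + pn n (x - y)) / 2 := by
  apply pn_le
  intro g hg
  have l1 := le_pn n g hg (x + y)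
  have l2 := le_pn n (-g) (neg_mem_KK n g hg) (x - y)
  rw [inner_add_right] at l1
  rw [inner_neg_left, inner_sub_right] at l2
  linarith

/-- The exact homogeneous midpoint inequality in a block. -/
theorem block_mid (n : ℕ) (A : Finset (List ℕ)) (hA : AncClosed A) (h0 : [] ∈ A) (x y : HH)
    (hx : ∀ s, s ∉ A → x s = 0) (hy : ∀ s ∈ A, y s = 0) :
    Real.sqrt (pn n x ^ 2 + pn n y ^ 2 / 4) ≤ (pn n (x + y) + pn n (x - y)) / 2 := by
  set a := pn n x with ha
  set b := pn n y with hb
  have ha0 : 0 ≤ a := pn_nonneg n x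
  have hb0 : 0 ≤ b := pn_nonneg n y
  set r := Real.sqrt (a ^ 2 + b ^ 2 / 4) with hr
  have hr0 : 0 ≤ r := Real.sqrt_nonneg _
  have hr2 : r ^ 2 = a ^ 2 + b ^ 2 / 4 := Real.sq_sqrt (by positivity)
  by_cases hbr : r ≤ b
  · exact hbr.trans (pn_le_avg n x y)
  push Not at hbr
  have hrpos : 0 < r := lt_of_le_of_lt hb0 hbr
  set α := a / r with hα
  set β := b / 2 / r with hβ
  have hα0 : 0 ≤ α := by positivity
  have hβ0 : 0 ≤ β := by positivity
  have h1 : α ^ 2 + β ^ 2 ≤ 1 := by
    have : α ^ 2 + β ^ 2 = 1 := by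
      rw [hα, hβ, div_pow, div_pow, ← add_div, div_eq_one_iff_eq (by positivity), hr2]
      ring
    exact this.le
  have h2 : 2 * β ≤ 1 := by
    have : 2 * β = b / r := by rw [hβ]; ring
    rw [this, div_le_one hrpos]
    exact hbr.le
  -- pass to suprema
  set M := pn n (x + y) + pn n (x - y) with hM
  have key : ∀ f ∈ KK n, ∀ g ∈ KK n, 2 * α * ⟪f, x⟫ + β * ⟪g, y⟫ ≤ M := fun f hf g hg =>
    weighted_mid n A hA h0 x y hx hy α β hα0 hβ0 h1 h2 f g hf hg
  have key2 : 2 * α * a + β * b ≤ M := by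
    have s1 : ∀ g ∈ KK n, 2 * α * a + β * ⟪g, y⟫ ≤ M := by
      intro g hg
      rcases eq_or_lt_of_le hα0 with h | h
      · have := key 0 (zero_mem_KK n) g hg
        rw [← h] at this ⊢
        simpa using this
      · have : a ≤ (M - β * ⟪g, y⟫) / (2 * α) := by
          apply pn_le
          intro f hf
          rw [le_div_iff₀ (by positivity)]
          have := key f hf g hg
          linarith
        rw [le_div_iff₀ (by positivity)] at this
        linarith
    rcases eq_or_lt_of_le hβ0 with h | h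
    · have := s1 0 (zero_mem_KK n)
      rw [← h] at this ⊢
      simpa using this
    · have : b ≤ (M - 2 * α * a) / β := by
        apply pn_le
        intro g hg
        rw [le_div_iff₀ h]
        have := s1 g hg
        linarith
      rw [le_div_iff₀ h] at this
      linarith
  have e : 2 * α * a + β * b = 2 * r := by
    rw [hα, hβ]
    field_simp
    rw [hr2]
    ring
  linarith

end Crest.Agent.S0166
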