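import Mathlib
import Crest.Prelude.Def_TreePotentials
import Crest.Agent.Lib.AUC36

/-!
S0166: definitions of the block spaces. `HH = ℓ₂(List ℕ)`, `KK n` = tests of the depth-`n` global
tree-potential model, `pn n` = the corresponding norm on `HH`.
-/

set_option autoImplicit false

namespace Crest.Agent.S0166

open Finset Crest.AnalysisR Crest.AnalysisR.TreePotential
open scoped RealInnerProductSpace

/-- the Hilbert space `ℓ₂` on the vertices of the countably branching tree -/
abbrev HH : Type := lp (fun _ : List ℕ => ℝ) 2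

/-- tests: `ℓ₂`-norm at most one, potentials at depth at most `n` bounded by one. -/
def KK (n : ℕ) : Set HH :=
  {f | ‖f‖ ≤ 1 ∧ ∀ s : List ℕ, s.length ≤ n → |pathPotential (fun v => f v) s| ≤ 1}

/-- the block norm -/
noncomputable def pn (n : ℕ) (x : HH) : ℝ := ⨆ f : KK n, ⟪(f : HH), x⟫

lemma zero_mem_KK (n : ℕ) : (0 : HH) ∈ KK n := by
  refine ⟨by simp, ?_⟩
  intro s hs
  have : pathPotential (fun v => (0 : HH) v) s = 0 := by
    clear hs
    induction s with
    | nil => simp [pathPotential]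
    | cons a v ih =>
      rw [pathPotential, ih]
      simp
  rw [this]; simp

instance (n : ℕ) : Nonempty (KK n) := ⟨⟨0, zero_mem_KK n⟩⟩

lemma KK_inner_le (n : ℕ) (f : HH) (hf : f ∈ KK n) (x : HH) : ⟪f, x⟫ ≤ ‖x‖ := by
  have h1 := real_inner_le_norm f x
  have h2 : ‖f‖ * ‖x‖ ≤ 1 * ‖x‖ := mul_le_mul_of_nonneg_right hf.1 (norm_nonneg _)
  linarith

lemma pn_bdd (n : ℕ) (x : HH) : BddAbove (Set.range fun f : KK n => ⟪(f : HH), x⟫) :=
  ⟨‖x‖, by rintro _ ⟨f, rfl⟩; exact KK_inner_le n f f.2 x⟩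

lemma le_pn (n : ℕ) (f : HH) (hf : f ∈ KK n) (x : HH) : ⟪f, x⟫ ≤ pn n x :=
  le_ciSup (pn_bdd n x) ⟨f, hf⟩

lemma pn_le (n : ℕ) (x : HH) (c : ℝ) (h : ∀ f ∈ KK n, ⟪f, x⟫ ≤ c) : pn n x ≤ c :=
  ciSup_le fun f => h f f.2

lemma neg_mem_KK (n : ℕ) (f : HH) (hf : f ∈ KK n) : -f ∈ KK n := by
  refine ⟨by rw [norm_neg]; exact hf.1, ?_⟩
  intro s hs
  have : pathPotential (fun v => (-f : HH) v) s = - pathPotential (fun v => f v) s := by
    clear hs
    induction s with
    | nil => simp [pathPotential]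
    | cons a v ih =>
      rw [pathPotential, ih, pathPotential]
      simp only [lp.coeFn_neg, Pi.neg_apply]
      ring
  rw [this, abs_neg]
  exact hf.2 s hs

lemma pn_nonneg (n : ℕ) (x : HH) : 0 ≤ pn n x := by
  have := le_pn n 0 (zero_mem_KK n) x
  simpa using this

/-- a set of vertices closed under taking parents -/
def AncClosed (A : Finset (List ℕ)) : Prop := ∀ (a : ℕ) (v : List ℕ), a :: v ∈ A → v ∈ A

end Crest.Agent.S0166
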