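import Mathlib
import Crest.Prelude.Def_TreePotentials
import Crest.Prelude.Def_Diamond
import Crest.Agent.Lib.AUC36
import Crest.Agent.Lib.ReflL2Sum36
import Crest.Agent.S0166Defs

/-!
S0166: the space `EE`, the `ℓ₂`-sum of the depth-`n` global tree-potential spaces.
-/

set_option autoImplicit false

namespace Crest.Agent.S0166

open Finset Crest.AnalysisR Crest.AnalysisR.TreePotential Filter Topology
open scoped RealInnerProductSpace
open Crest.Agent.Lib.AUC36 Crest.Agent.Lib.ReflL2Sum36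

/-- basis vector -/
noncomputable def ee (s : List ℕ) : HH := lp.single 2 s (1 : ℝ)

lemma ee_apply (s u : List ℕ) : (ee s) u = if u = s then 1 else 0 := by
  unfold ee
  rw [lp.single_apply]
  by_cases h : u = s
  · subst h; simp
  · simp [h]

lemma inner_ee (f : HH) (s : List ℕ) : ⟪f, ee s⟫ = f s := by
  rw [lp.inner_eq_tsum]
  rw [tsum_eq_single s]
  · simp [ee_apply]
  · intro u hu
    simp [ee_apply, hu]

lemma norm_ee (s : List ℕ) : ‖ee s‖ = 1 := by
  unfold ee
  rw [lp.norm_single (by norm_num)]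
  simp

lemma pot_eq (f : HH) (s : List ℕ) : pathPotential (fun v => f v) s = ⟪f, branchSum ee s⟫ := by
  induction s with
  | nil => simp only [pathPotential, branchSum]; rw [inner_ee]
  | cons a v ih =>
    simp only [pathPotential, branchSum]
    rw [ih, inner_add_right, inner_ee]

lemma pot_bound (f : HH) (s : List ℕ) :
    |pathPotential (fun v => f v) s| ≤ ((s.length : ℝ) + 1) * ‖f‖ := by
  have hc : ∀ u : List ℕ, |f u| ≤ ‖f‖ := fun u => lp.norm_apply_le_norm (by norm_num) f u
  induction s with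
  | nil =>
    simp only [pathPotential, List.length_nil, Nat.cast_zero, zero_add, one_mul]
    exact hc []
  | cons a v ih =>
    simp only [pathPotential, List.length_cons]
    push_cast
    calc |pathPotential (fun v => f v) v + f (a :: v)|
        ≤ |pathPotential (fun v => f v) v| + |f (a :: v)| := abs_add_le _ _
      _ ≤ ((v.length : ℝ) + 1) * ‖f‖ + ‖f‖ := add_le_add ih (hc _)
      _ = _ := by ring

lemma pot_ee (s u : List ℕ) :
    pathPotential (fun v => (ee s) v) u = if s <:+ u then 1 else 0 := by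
  induction u with
  | nil =>
    simp only [pathPotential, ee_apply, List.suffix_nil]
    by_cases h : s = []
    · subst h; simp
    · have : ¬ ([] = s) := fun h' => h h'.symm
      simp [h, this]
  | cons a v ih =>
    simp only [pathPotential]
    rw [ih, ee_apply]
    by_cases h : a :: v = s
    · subst h
      have h1 : ¬ (a :: v <:+ v) := by
        intro h2
        have := h2.length_le
        simp at this
      simp [h1]
    · rw [if_neg h, add_zero]
      have : (s <:+ a :: v) ↔ (s <:+ v) := by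
        rw [List.suffix_cons_iff]
        constructor
        · rintro (h1 | h1)
          · exact absurd h1.symm h
          · exact h1
        · intro h1; right; exact h1
      simp only [this]

lemma ee_mem_KK (n : ℕ) (s : List ℕ) : ee s ∈ KK n := by
  refine ⟨(norm_ee s).le, ?_⟩
  intro u _
  rw [pot_ee]
  split_ifs <;> simp

lemma one_le_pn_ee (n : ℕ) (s : List ℕ) : 1 ≤ pn n (ee s) := by
  have := le_pn n (ee s) (ee_mem_KK n s) (ee s)
  rwa [inner_ee, ee_apply, if_pos rfl] at this

lemma pn_le_norm (n : ℕ) (x : HH) : pn n x ≤ ‖x‖ := pn_le n x _ fun f hf => KK_inner_le n f hf x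

lemma norm_le_pn (n : ℕ) (x : HH) : ‖x‖ ≤ ((n : ℝ) + 1) * pn n x := by
  by_cases hx : x = 0
  · subst hx
    rw [norm_zero]
    exact mul_nonneg (by positivity) (pn_nonneg n 0)
  have hxn : 0 < ‖x‖ := norm_pos_iff.2 hx
  have hn : (0 : ℝ) < (n : ℝ) + 1 := by positivity
  set c := 1 / (((n : ℝ) + 1) * ‖x‖) with hc
  have hcpos : 0 < c := by positivity
  have hf : c • x ∈ KK n := by
    have hnorm : ‖c • x‖ = 1 / ((n : ℝ) + 1) := by
      rw [norm_smul, Real.norm_of_nonneg hcpos.le, hc]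
      field_simp
    refine ⟨?_, ?_⟩
    · rw [hnorm, div_le_one hn]
      have : (0 : ℝ) ≤ n := by positivity
      linarith
    · intro s hs
      refine (pot_bound _ _).trans ?_
      rw [hnorm]
      have : (s.length : ℝ) + 1 ≤ (n : ℝ) + 1 := by
        have : (s.length : ℝ) ≤ n := by exact_mod_cast hs
        linarith
      rw [mul_one_div, div_le_one hn]
      exact this
  have h1 := le_pn n (c • x) hf x
  rw [real_inner_smul_left, real_inner_self_eq_norm_sq] at h1
  have h2 : c * ‖x‖ ^ 2 = ‖x‖ / ((n : ℝ) + 1) := by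
    rw [hc]; field_simp
  rw [h2, div_le_iff₀ hn] at h1
  linarith

/-- evaluation on tests -/
noncomputable def JJ (n : ℕ) : HH →L[ℝ] lp (fun _ : KK n => ℝ) ⊤ :=
  LinearMap.mkContinuous
    { toFun := fun x => ⟨fun f => ⟪(f : HH), x⟫, memℓp_infty ⟨‖x‖, by
        rintro _ ⟨f, rfl⟩
        have h1 := KK_inner_le n f f.2 x
        have h2 := KK_inner_le n (-f) (neg_mem_KK n f f.2) x
        rw [inner_neg_left] at h2
        simp only [Real.norm_eq_abs]
        exact abs_le.2 ⟨by linarith, h1⟩⟩⟩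
      map_add' := fun x y => by
        apply lp.ext
        ext f
        simp only [lp.coeFn_add, Pi.add_apply]
        exact inner_add_right _ _ _
      map_smul' := fun c x => by
        apply lp.ext
        ext f
        simp only [lp.coeFn_smul, Pi.smul_apply, RingHom.id_apply, smul_eq_mul]
        exact real_inner_smul_right _ _ _ } 1 (by
      intro x
      rw [one_mul]
      apply lp.norm_le_of_forall_le (norm_nonneg _)
      intro f
      have h1 := KK_inner_le n f f.2 x
      have h2 := KK_inner_le n (-f) (neg_mem_KK n f f.2) x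
      rw [inner_neg_left] at h2
      have h3 : |⟪(f : HH), x⟫| ≤ ‖x‖ := abs_le.2 ⟨by linarith, h1⟩
      exact h3)

lemma JJ_apply (n : ℕ) (x : HH) (f : KK n) : (JJ n x) f = ⟪(f : HH), x⟫ := rfl

lemma norm_JJ (n : ℕ) (x : HH) : ‖JJ n x‖ = pn n x := by
  apply le_antisymm
  · apply lp.norm_le_of_forall_le (pn_nonneg n x)
    intro f
    rw [JJ_apply, Real.norm_eq_abs]
    have h1 := le_pn n f f.2 x
    have h2 := le_pn n (-f) (neg_mem_KK n f f.2) x
    rw [inner_neg_left] at h2
    exact abs_le.2 ⟨by linarith, h1⟩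
  · apply pn_le
    intro f hf
    have := lp.norm_apply_le_norm (p := ⊤) (by norm_num) (JJ n x) ⟨f, hf⟩
    rw [JJ_apply, Real.norm_eq_abs] at this
    exact (le_abs_self _).trans this

lemma JJ_anti (n : ℕ) : AntilipschitzWith (Real.toNNReal ((n : ℝ) + 1)) (JJ n) := by
  apply AddMonoidHomClass.antilipschitz_of_bound
  intro x
  rw [norm_JJ]
  have : ((Real.toNNReal ((n : ℝ) + 1)) : ℝ) = (n : ℝ) + 1 := Real.coe_toNNReal _ (by positivity)
  rw [this]
  exact norm_le_pn n x

lemma JJ_closed (n : ℕ) : IsClosed (Set.range (JJ n)) :=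
  (JJ_anti n).isClosed_range (JJ n).uniformContinuous

/-- block spaces -/
def XX (n : ℕ) : Type := ↥(LinearMap.range (JJ n : HH →ₗ[ℝ] lp (fun _ : KK n => ℝ) ⊤))

noncomputable instance instN (n : ℕ) : NormedAddCommGroup (XX n) :=
  inferInstanceAs (NormedAddCommGroup ↥(LinearMap.range (JJ n : HH →ₗ[ℝ] lp (fun _ : KK n => ℝ) ⊤)))

noncomputable instance instS (n : ℕ) : NormedSpace ℝ (XX n) :=
  inferInstanceAs (NormedSpace ℝ ↥(LinearMap.range (JJ n : HH →ₗ[ℝ] lp (fun _ : KK n => ℝ) ⊤)))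

instance instC (n : ℕ) : CompleteSpace (XX n) := by
  have : IsClosed ((LinearMap.range (JJ n : HH →ₗ[ℝ] lp (fun _ : KK n => ℝ) ⊤)) :
      Set (lp (fun _ : KK n => ℝ) ⊤)) := JJ_closed n
  exact this.completeSpace_coe

noncomputable def eqv (n : ℕ) : HH ≃L[ℝ] XX n :=
  ContinuousLinearMap.equivRange (JJ_anti n).injective (JJ_closed n)

lemma norm_eqv (n : ℕ) (x : HH) : ‖eqv n x‖ = pn n x := norm_JJ n x

/-- The space. -/
abbrev EE : Type := lp XX 2

noncomputable def EB : RealBanach := mkB EE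

theorem EB_reflexive : EB.IsReflexive :=
  refl_l2sum fun n => refl_of_equiv (eqv n) (refl_hilbert HH)

lemma sum_single_mem (C : Submodule ℝ EE) (hC : IsClosed (C : Set EE))
    (h : ∀ n s, II n (eqv n (ee s)) ∈ C) : C = ⊤ := by
  rw [eq_top_iff]
  intro y _
  have h1 : ∀ n (z : HH), II n (eqv n z) ∈ C := by
    intro n z
    have hs : HasSum (fun s => lp.single 2 s (z s)) z := lp.hasSum_single (p := 2) (by norm_num) z
    have hs2 := hs.mapL ((II n : XX n →L[ℝ] EE).comp (eqv n : HH →L[ℝ] XX n))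
    refine hC.mem_of_tendsto hs2 (Eventually.of_forall fun A => ?_)
    apply C.sum_mem
    intro s _
    have e : (lp.single 2 s (z s) : HH) = z s • ee s := by
      unfold ee
      rw [← lp.single_smul]
      simp
    rw [e, map_smul]
    exact C.smul_mem _ (h n s)
  have hs : HasSum (fun n => lp.single 2 n (y n)) y := lp.hasSum_single (p := 2) (by norm_num) y
  refine hC.mem_of_tendsto hs (Eventually.of_forall fun A => ?_)
  apply C.sum_mem
  intro n _
  have := h1 n ((eqv n).symm (y n))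
  rw [ContinuousLinearEquiv.apply_symm_apply] at this
  exact this

theorem EE_separable : TopologicalSpace.SeparableSpace EE := by
  let S : Set EE := Set.range fun p : ℕ × List ℕ => II p.1 (eqv p.1 (ee p.2))
  have hS : S.Countable := Set.countable_range _
  have h1 : TopologicalSpace.IsSeparable (Submodule.span ℝ S : Set EE) := hS.isSeparable.span
  have h2 : TopologicalSpace.IsSeparable (closure (Submodule.span ℝ S : Set EE)) := h1.closure
  have h3 : (Submodule.span ℝ S).topologicalClosure = ⊤ := by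
    apply sum_single_mem _ (Submodule.isClosed_topologicalClosure _)
    intro n s
    apply Submodule.le_topologicalClosure
    apply Submodule.subset_span
    exact ⟨(n, s), rfl⟩
  have h4 : closure (Submodule.span ℝ S : Set EE) = Set.univ := by
    have := congrArg (fun C : Submodule ℝ EE => (C : Set EE)) h3
    simpa using this
  rw [h4] at h2
  exact TopologicalSpace.isSeparable_univ_iff.1 h2

/-- the tree in block `m` -/
noncomputable def zz (m : ℕ) (s : List ℕ) : EE := II m (eqv m (ee s))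

lemma norm_II (m : ℕ) (x : XX m) : ‖(II m x : EE)‖ = ‖x‖ := lp.norm_single (by norm_num) m x

lemma branchSum_zz (m : ℕ) (s : List ℕ) : branchSum (zz m) s = II m (eqv m (branchSum ee s)) := by
  induction s with
  | nil => rfl
  | cons a v ih =>
    simp only [branchSum]
    rw [ih, map_add, map_add]
    rfl

lemma zz_norm (m : ℕ) (s : List ℕ) : 1 ≤ ‖zz m s‖ := by
  unfold zz
  rw [norm_II, norm_eqv]
  exact one_le_pn_ee m s

lemma sum_ee_norm (A : Finset ℕ) (a : ℕ → ℝ) (s : List ℕ) :
    ‖∑ n ∈ A, a n • ee (n :: s)‖ = Real.sqrt (∑ n ∈ A, a n ^ 2) := by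
  have h : ‖∑ n ∈ A, a n • ee (n :: s)‖ ^ 2 = ∑ n ∈ A, a n ^ 2 := by
    rw [← real_inner_self_eq_norm_sq, inner_sum]
    apply sum_congr rfl
    intro n hn
    rw [real_inner_smul_right, inner_ee, lp.coeFn_sum, Finset.sum_apply]
    simp only [lp.coeFn_smul, Pi.smul_apply, ee_apply, smul_eq_mul]
    rw [sum_eq_single n]
    · simp [sq]
    · intro b _ hb
      have : ¬ (n :: s = b :: s) := by
        intro h
        exact hb (List.cons.inj h).1.symm
      simp [this]
    · intro h; exact absurd hn h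
  rw [← h, Real.sqrt_sq (norm_nonneg _)]

lemma zz_escapes (m : ℕ) (s : List ℕ) : Escapes fun n => zz m (n :: s) := by
  apply escape_of_upper_l2 _ 1
  intro A a
  have e : ∑ n ∈ A, a n • zz m (n :: s) = II m (eqv m (∑ n ∈ A, a n • ee (n :: s))) := by
    rw [map_sum, map_sum]
    apply sum_congr rfl
    intro n _
    rw [map_smul, map_smul]
    rfl
  rw [e, norm_II, norm_eqv, one_mul, ← sum_ee_norm A a s]
  exact pn_le_norm _ _

theorem EE_not_auc : ∀ N : EE → ℝ, (mkB EE).IsEquivNorm N → ¬ (mkB EE).IsAUC N := by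
  refine not_auc_of_trees (X := EE) 1 1 one_pos ?_
  intro m
  refine ⟨zz m, zz_norm m [], fun s n _ => zz_norm m _, ?_, fun s _ => zz_escapes m s⟩
  intro s hs
  rw [branchSum_zz, norm_II, norm_eqv]
  apply pn_le
  intro f hf
  rw [← pot_eq]
  exact (le_abs_self _).trans (hf.2 s hs)

theorem EB_not_auc : ∀ N : EB.X → ℝ, EB.IsEquivNorm N → ¬ EB.IsAUC N := EE_not_auc

theorem EE_not_fd : ¬ FiniteDimensional ℝ EE :=
  not_finiteDimensional_of_escapes _ (zz_escapes 0 []) 1 one_pos fun n => zz_norm 0 _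

theorem EB_sep_inf : EB.IsSeparableInfiniteDim :=
  ⟨EE_separable, EE_not_fd⟩

/-! ### midpoint modulus -/

lemma EE_norm_sq (x : EE) : ‖x‖ ^ 2 = ∑' n, ‖x n‖ ^ 2 := by
  have := lp.norm_rpow_eq_tsum (p := 2) (by norm_num) x
  simpa using this

lemma EE_summable (x : EE) : Summable fun n => ‖x n‖ ^ 2 := by
  have := (lp.memℓp x).summable (by norm_num)
  simpa using this

lemma l2_mid (x y : EE)
    (h : ∀ n, Real.sqrt (‖x n‖ ^ 2 + ‖y n‖ ^ 2 / 4) ≤ (‖x n + y n‖ + ‖x n - y n‖) / 2) :
    Real.sqrt (‖x‖ ^ 2 + ‖y‖ ^ 2 / 4) ≤ (‖x + y‖ + ‖x - y‖) / 2 := by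
  let u : lp (fun _ : ℕ => ℝ) 2 := lp.toNorm (x + y)
  let v : lp (fun _ : ℕ => ℝ) 2 := lp.toNorm (x - y)
  have hu : ‖u‖ = ‖x + y‖ := lp.norm_toNorm
  have hv : ‖v‖ = ‖x - y‖ := lp.norm_toNorm
  have hun : ∀ n, u n = ‖x n + y n‖ := fun n => rfl
  have hvn : ∀ n, v n = ‖x n - y n‖ := fun n => rfl
  have h1 : ‖u + v‖ ≤ ‖u‖ + ‖v‖ := norm_add_le _ _
  have h2 : ‖u + v‖ ^ 2 = ∑' n, (u n + v n) ^ 2 := by
    have := lp.norm_rpow_eq_tsum (p := 2) (by norm_num) (u + v)
    simpa using this
  have hs : Summable fun n => (u n + v n) ^ 2 := by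
    have := (lp.memℓp (u + v)).summable (by norm_num)
    simpa using this
  have h3 : 4 * ‖x‖ ^ 2 + ‖y‖ ^ 2 ≤ ‖u + v‖ ^ 2 := by
    rw [h2, EE_norm_sq x, EE_norm_sq y, ← tsum_mul_left, ← ((EE_summable x).mul_left 4).tsum_add (EE_summable y)]
    apply Summable.tsum_le_tsum _ (((EE_summable x).mul_left 4).add (EE_summable y)) hs
    intro n
    rw [hun, hvn]
    have hn := h n
    have h4 : 0 ≤ ‖x n‖ ^ 2 + ‖y n‖ ^ 2 / 4 := by positivity
    have h5 := Real.sq_sqrt h4
    have h6 := pow_le_pow_left₀ (Real.sqrt_nonneg _) hn 2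
    nlinarith
  have h7 : 0 ≤ (‖x + y‖ + ‖x - y‖) / 2 := by positivity
  apply Real.sqrt_le_iff.2 ⟨h7, ?_⟩
  rw [hu, hv] at h1
  have h8 := pow_le_pow_left₀ (norm_nonneg _) h1 2
  nlinarith

/-- finite sets are contained in ancestor-closed finite sets containing the root. -/
lemma exists_ancClosed (A : Finset (List ℕ)) : ∃ B : Finset (List ℕ), A ⊆ B ∧ AncClosed B ∧ [] ∈ B := by
  refine ⟨insert [] (A.biUnion fun s => s.tails.toFinset), ?_, ?_, mem_insert_self _ _⟩
  · intro s hs
    apply mem_insert_of_mem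
    rw [mem_biUnion]
    exact ⟨s, hs, by simp⟩
  · intro a v hv
    rw [mem_insert] at hv ⊢
    rcases hv with hv | hv
    · exact absurd hv (by simp)
    · right
      rw [mem_biUnion] at hv ⊢
      obtain ⟨s, hs, hv⟩ := hv
      refine ⟨s, hs, ?_⟩
      simp only [List.mem_toFinset, List.mem_tails] at hv ⊢
      exact (List.suffix_cons a v).trans hv

/-- approximations in a block. -/
lemma block_approx (n : ℕ) (x : XX n) (ε : ℝ) (hε : 0 < ε) :
    ∃ (A : Finset (List ℕ)) (z : HH), AncClosed A ∧ [] ∈ A ∧ (∀ s ∉ A, z s = 0) ∧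
      ‖x - eqv n z‖ ≤ ε := by
  set h := (eqv n).symm x with hh
  have hs : HasSum (fun s => lp.single 2 s (h s)) h := lp.hasSum_single (p := 2) (by norm_num) h
  have hev : ∀ᶠ A in atTop, ‖(∑ s ∈ A, lp.single 2 s (h s) : HH) - h‖ < ε := by
    have := Metric.tendsto_nhds.1 hs ε hε
    filter_upwards [this] with A hA
    rwa [dist_eq_norm] at hA
  obtain ⟨A0, hA0⟩ := eventually_atTop.1 hev
  obtain ⟨A, hAA, hanc, hroot⟩ := exists_ancClosed A0
  refine ⟨A, ∑ s ∈ A, lp.single 2 s (h s), hanc, hroot, ?_, ?_⟩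
  · intro s hs
    rw [lp.coeFn_sum, Finset.sum_apply]
    apply sum_eq_zero
    intro u hu
    rw [lp.single_apply_ne]
    rintro rfl
    exact hs hu
  · have e : x = eqv n h := by rw [hh, ContinuousLinearEquiv.apply_symm_apply]
    rw [e, ← map_sub, norm_eqv]
    refine (pn_le_norm _ _).trans ?_
    rw [norm_sub_rev]
    exact (hA0 A hAA).le

/-- The statement of the block midpoint inequality. -/
def BlockMid : Prop :=
  ∀ (n : ℕ) (A : Finset (List ℕ)), AncClosed A → [] ∈ A → ∀ x y : HH, (∀ s ∉ A, x s = 0) →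
    (∀ s ∈ A, y s = 0) →
    Real.sqrt (pn n x ^ 2 + pn n y ^ 2 / 4) ≤ (pn n (x + y) + pn n (x - y)) / 2

lemma sqrt_shift (a c ε : ℝ) (ha : 1 - ε ≤ a) (_ha0 : 0 ≤ a) (hε : 0 ≤ ε) (hc : 0 ≤ c) :
    Real.sqrt (1 + c) - ε ≤ Real.sqrt (a ^ 2 + c) := by
  have h1 : Real.sqrt (1 + c) ≤ Real.sqrt (a ^ 2 + c) + ε := by
    apply Real.sqrt_le_iff.2
    constructor
    · positivity
    · have h2 : 0 ≤ a ^ 2 + c := by positivity
      have h3 := Real.sq_sqrt h2
      have h4 : a ≤ Real.sqrt (a ^ 2 + c) := by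
        apply Real.le_sqrt_of_sq_le; linarith
      nlinarith [mul_nonneg hε (sub_nonneg.2 h4)]
  linarith

theorem EB_mid (hb : BlockMid) (t : ℝ) (ht : 0 < t) :
    EB.MidpointModulusGE EB.norm t (Real.sqrt (1 + t ^ 2 / 4) - 1) := by
  classical
  change ∀ x : EE, ‖x‖ = 1 → ∀ η : ℝ, 0 < η → ∃ F : Set EE, Cof F ∧
    ∀ y ∈ F, ‖y‖ = 1 → (Real.sqrt (1 + t ^ 2 / 4) - 1) - η ≤ (‖x + t • y‖ + ‖x - t • y‖) / 2 - 1
  intro x hx η hη
  -- choose blocks
  have hs : HasSum (fun n => lp.single 2 n (x n)) x := lp.hasSum_single (p := 2) (by norm_num) x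
  have hev : ∀ᶠ B in atTop, ‖(∑ n ∈ B, lp.single 2 n (x n) : EE) - x‖ < η / 4 := by
    have := Metric.tendsto_nhds.1 hs (η / 4) (by positivity)
    filter_upwards [this] with A hA
    rwa [dist_eq_norm] at hA
  obtain ⟨B, hB⟩ := hev.exists
  have hc : 0 < η / (4 * ((B.card : ℝ) + 1)) := by positivity
  choose A z hanc hroot hz0 hzε using fun n => block_approx n (x n) _ hc
  set x' : EE := ∑ n ∈ B, lp.single 2 n (eqv n (z n)) with hx'
  have hxx' : ‖x - x'‖ ≤ η / 2 := by
    have h1 : ‖(∑ n ∈ B, lp.single 2 n (x n) : EE) - x'‖ ≤ η / 4 := by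
      rw [hx', ← sum_sub_distrib]
      refine (norm_sum_le _ _).trans ?_
      have h2 : ∀ n ∈ B, ‖(lp.single 2 n (x n) - lp.single 2 n (eqv n (z n)) : EE)‖
          ≤ η / (4 * ((B.card : ℝ) + 1)) := by
        intro n _
        rw [← lp.single_sub, lp.norm_single (by norm_num)]
        exact hzε n
      refine (sum_le_sum h2).trans ?_
      rw [sum_const, nsmul_eq_mul]
      have hB0 : (0 : ℝ) ≤ B.card := by positivity
      rw [mul_div_assoc', div_le_div_iff₀ (by positivity) (by norm_num)]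
      nlinarith
    have h3 : x - x' = (∑ n ∈ B, lp.single 2 n (x n) - x') - (∑ n ∈ B, lp.single 2 n (x n) - x) := by
      abel
    rw [h3]
    refine (norm_sub_le _ _).trans ?_
    linarith
  have hx'n : ∀ n, x' n = if n ∈ B then eqv n (z n) else 0 := by
    intro n
    rw [hx', lp.coeFn_sum, Finset.sum_apply]
    by_cases hn : n ∈ B
    · rw [if_pos hn, sum_eq_single n]
      · rw [lp.single_apply_self]
      · intro b _ hbn
        rw [lp.single_apply_ne _ _ _ hbn.symm]
      · intro h; exact absurd hn h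
    · rw [if_neg hn]
      apply sum_eq_zero
      intro b hb'
      rw [lp.single_apply_ne]
      rintro rfl
      exact hn hb'
  -- the subspace
  let ι := {p : ℕ × List ℕ // p ∈ B.biUnion fun n => (A n).image fun s => (n, s)}
  let φ : ι → (EE →L[ℝ] ℝ) := fun p =>
    (lp.evalCLM ℝ (fun _ : List ℕ => ℝ) 2 p.1.2).comp
      (((eqv p.1.1).symm : XX p.1.1 →L[ℝ] HH).comp (PP p.1.1))
  refine ⟨_, cof_of_functionals φ, ?_⟩
  intro y hy hy1
  have hyn : ∀ n ∈ B, ∀ s ∈ A n, ((eqv n).symm (y n)) s = 0 := by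
    intro n hn s hs
    have hmem : (n, s) ∈ B.biUnion fun n => (A n).image fun s => (n, s) := by
      rw [mem_biUnion]
      exact ⟨n, hn, mem_image_of_mem _ hs⟩
    exact hy ⟨(n, s), hmem⟩
  have hblock : ∀ n, Real.sqrt (‖x' n‖ ^ 2 + ‖(t • y) n‖ ^ 2 / 4)
      ≤ (‖x' n + (t • y) n‖ + ‖x' n - (t • y) n‖) / 2 := by
    intro n
    rw [hx'n n]
    by_cases hn : n ∈ B
    · rw [if_pos hn]
      set w := (eqv n).symm ((t • y) n) with hw
      have hyw : (t • y) n = eqv n w := by rw [hw, ContinuousLinearEquiv.apply_symm_apply]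
      rw [hyw, ← map_add, ← map_sub, norm_eqv, norm_eqv, norm_eqv, norm_eqv]
      apply hb n (A n) (hanc n) (hroot n) _ _ (hz0 n)
      intro s hs
      have e : (t • y) n = t • y n := rfl
      rw [hw, e, map_smul]
      have := hyn n hn s hs
      rw [lp.coeFn_smul, Pi.smul_apply, this, smul_zero]
    · rw [if_neg hn]
      simp only [norm_zero, zero_add, zero_sub, norm_neg]
      rw [show ((0:ℝ) ^ 2 + ‖(t • y) n‖ ^ 2 / 4) = (‖(t • y) n‖ / 2) ^ 2 by ring,
        Real.sqrt_sq (by positivity)]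
      have := norm_nonneg ((t • y) n)
      linarith
  have hmid := l2_mid x' (t • y) hblock
  have hty : ‖t • y‖ = t := by rw [norm_smul, hy1, mul_one, Real.norm_of_nonneg ht.le]
  rw [hty] at hmid
  have hnx' : 1 - η / 2 ≤ ‖x'‖ := by
    have := norm_sub_norm_le x x'
    linarith
  have h1 := sqrt_shift ‖x'‖ (t ^ 2 / 4) (η / 2) hnx' (norm_nonneg _) (by positivity) (by positivity)
  have h2 : ‖x' + t • y‖ ≤ ‖x + t • y‖ + η / 2 := by
    have e : x' + t • y = (x + t • y) - (x - x') := by abel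
    rw [e]
    refine (norm_sub_le _ _).trans ?_
    linarith
  have h3 : ‖x' - t • y‖ ≤ ‖x - t • y‖ + η / 2 := by
    have e : x' - t • y = (x - t • y) - (x - x') := by abel
    rw [e]
    refine (norm_sub_le _ _).trans ?_
    linarith
  linarith

theorem MidGE_mono {E : RealBanach} {N : E.X → ℝ} {t c c' : ℝ} (h : c' ≤ c)
    (hE : E.MidpointModulusGE N t c) : E.MidpointModulusGE N t c' := by
  intro x hx η hη
  obtain ⟨F, hF, hy⟩ := hE x hx η hη
  exact ⟨F, hF, fun y hyF hy1 => le_trans (by linarith) (hy y hyF hy1)⟩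

theorem MaxMid_of_Mid {E : RealBanach} {N : E.X → ℝ} {t c : ℝ}
    (hE : E.MidpointModulusGE N t c) : E.MaxMidpointModulusGE N t c := by
  intro x hx η hη
  obtain ⟨F, hF, hy⟩ := hE x hx η hη
  refine ⟨F, hF, fun y hyF hy1 => le_trans (hy y hyF hy1) ?_⟩
  let := E.normed
  let := E.space
  have h1 := le_max_left (N (x + t • y)) (N (x - t • y))
  have h2 := le_max_right (N (x + t • y)) (N (x - t • y))
  linarith

end Crest.Agent.S0166
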