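import Crest.Statements.S0166
import Crest.Agent.S0166Space
import Crest.Agent.S0166Mid
import Crest.Agent.S0166Diamond

set_option autoImplicit false
open Crest Crest.AnalysisR

namespace Crest.Agent.S0166

theorem blockMid_holds : BlockMid := fun n A hA h0 x y hx hy => block_mid n A hA h0 x y hx hy

/-- There is a real Banach space (RealBanach record) that is separable, infinite-dimensional and reflexive, whose given norm has at every t > 0 averaged midpoint asymptotic modulus at least √(1 + t²/12) - 1 and at least (√(1 + t²/4) - 1)/2 and maximum-based midpoint modulus at least √(1 + t²/4) - 1, on which no equivalent norm is asymptotically uniformly convex, and in which for every k every map of the depth-k countably branching diamond graph of distortion at most D has 1 + k/4 ≤ D². -/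
theorem result :
    ∃ E : Crest.AnalysisR.RealBanach, E.IsSeparableInfiniteDim ∧ E.IsReflexive ∧
      (∀ t : ℝ, 0 < t → E.MidpointModulusGE E.norm t (Real.sqrt (1 + t ^ 2 / 12) - 1) ∧
        E.MidpointModulusGE E.norm t ((Real.sqrt (1 + t ^ 2 / 4) - 1) / 2) ∧
        E.MaxMidpointModulusGE E.norm t (Real.sqrt (1 + t ^ 2 / 4) - 1)) ∧
      (∀ N : E.X → ℝ, E.IsEquivNorm N → ¬ E.IsAUC N) ∧
      ∀ (k : ℕ) (f : Crest.AnalysisR.DiamondVertex k → E.X) (D : ℝ),
        E.HasDistortionLE k f D → 1 + (k : ℝ) / 4 ≤ D ^ 2 := by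
  refine ⟨EB, EB_sep_inf, EB_reflexive, ?_, EB_not_auc, ?_⟩
  · intro t ht
    have hmid := EB_mid blockMid_holds t ht
    have h1 : (1 : ℝ) ≤ Real.sqrt (1 + t ^ 2 / 4) := by
      rw [show (1 : ℝ) = Real.sqrt 1 by simp]
      apply Real.sqrt_le_sqrt
      simp only [Real.sqrt_one]
      nlinarith [sq_nonneg t]
    refine ⟨MidGE_mono ?_ hmid, MidGE_mono ?_ hmid, MaxMid_of_Mid hmid⟩
    · have : Real.sqrt (1 + t ^ 2 / 12) ≤ Real.sqrt (1 + t ^ 2 / 4) := by
        apply Real.sqrt_le_sqrt
        nlinarith [sq_nonneg t]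
      linarith
    · linarith
  · intro k f D hf
    exact Crest.Agent.S0166.Diamond.distortion_bound EB
      (fun t ht => MaxMid_of_Mid (EB_mid blockMid_holds t ht)) k f D hf

end Crest.Agent.S0166
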