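import Crest.Agent.S0166Mid

set_option autoImplicit false

namespace Crest.Agent.S0166

open Finset Crest.AnalysisR Crest.AnalysisR.TreePotential Crest.Agent.Lib.AUC36
open scoped RealInnerProductSpace

/-- unit coordinate vectors -/
noncomputable def ee (s : List ℕ) : HH := lp.single 2 s (1 : ℝ)

theorem ee_apply (s v : List ℕ) : ee s v = if v = s then 1 else 0 := by
  rw [ee, lp.coeFn_single, Pi.single_apply]

theorem inner_ee (f : HH) (s : List ℕ) : ⟪f, ee s⟫ = f s := by
  rw [ee, lp.inner_single_right]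
  simp

theorem norm_ee (s : List ℕ) : ‖ee s‖ = 1 := by
  rw [ee, lp.norm_single (by norm_num)]
  simp

theorem pathPotential_ee (s : List ℕ) :
    ∀ v, pathPotential (fun u => ee s u) v = 0 ∨
      (pathPotential (fun u => ee s u) v = 1 ∧ s.length ≤ v.length) := by
  intro v
  induction v with
  | nil =>
    rw [pathPotential, ee_apply]
    by_cases h : [] = s
    · right; rw [if_pos h]; exact ⟨rfl, by rw [← h]⟩
    · left; rw [if_neg h]
  | cons a v ih =>
    rw [pathPotential, ee_apply]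
    by_cases h : a :: v = s
    · right
      rw [if_pos h]
      refine ⟨?_, by rw [h]⟩
      rcases ih with h1 | ⟨-, h2⟩
      · rw [h1]; norm_num
      · rw [← h] at h2
        simp at h2
    · rw [if_neg h, add_zero]
      rcases ih with h1 | ⟨h1, h2⟩
      · left; exact h1
      · right; exact ⟨h1, by simp; omega⟩

theorem ee_mem_KK (n : ℕ) (s : List ℕ) : ee s ∈ KK n := by
  refine ⟨(norm_ee s).le, ?_⟩
  intro v _
  rcases pathPotential_ee s v with h | ⟨h, -⟩ <;> rw [h] <;> simp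

theorem one_le_pn_ee (n : ℕ) (s : List ℕ) : 1 ≤ pn n (ee s) := by
  have := le_pn n (ee s) (ee_mem_KK n s) (ee s)
  rw [inner_ee, ee_apply, if_pos rfl] at this
  exact this

theorem pn_le_norm (n : ℕ) (x : HH) : pn n x ≤ ‖x‖ :=
  pn_le n x _ fun f hf => KK_inner_le n f hf x

theorem inner_branchSum (f : HH) (s : List ℕ) :
    ⟪f, branchSum ee s⟫ = pathPotential (fun v => f v) s := by
  induction s with
  | nil => rw [branchSum, inner_ee, pathPotential]
  | cons a v ih => rw [branchSum, inner_add_right, ih, inner_ee, pathPotential]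

theorem pn_branchSum_le (n : ℕ) (s : List ℕ) (hs : s.length ≤ n) : pn n (branchSum ee s) ≤ 1 := by
  apply pn_le
  intro f hf
  rw [inner_branchSum]
  exact (le_abs_self _).trans (hf.2 s hs)

theorem pn_siblings_le (n : ℕ) (s : List ℕ) (B : Finset ℕ) (a : ℕ → ℝ) :
    pn n (∑ k ∈ B, a k • ee (k :: s)) ≤ Real.sqrt (∑ k ∈ B, a k ^ 2) := by
  apply pn_le
  intro f hf
  rw [inner_sum]
  have e : ∀ k, ⟪f, a k • ee (k :: s)⟫ = a k * f (k :: s) := by
    intro k
    rw [real_inner_smul_right, inner_ee]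
  simp only [e]
  apply Real.le_sqrt_of_sq_le
  have h1 := Finset.sum_mul_sq_le_sq_mul_sq B a (fun k => f (k :: s))
  have h2 : ∑ k ∈ B, (f (k :: s)) ^ 2 ≤ 1 := by
    have h3 := sum_sq_le_of_norm_le f hf.1 (B.map ⟨fun k => k :: s, fun i j h => by simpa using h⟩)
    rw [Finset.sum_map] at h3
    exact h3
  have h4 : 0 ≤ ∑ k ∈ B, a k ^ 2 := sum_nonneg fun _ _ => sq_nonneg _
  calc (∑ k ∈ B, a k * f (k :: s)) ^ 2 ≤ (∑ k ∈ B, a k ^ 2) * ∑ k ∈ B, (f (k :: s)) ^ 2 := h1
    _ ≤ (∑ k ∈ B, a k ^ 2) * 1 := by gcongr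
    _ = _ := mul_one _

end Crest.Agent.S0166
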