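import Mathlib
import Crest.Prelude.Def_DaugavetL1
import Crest.Agent.Lib.AUC36

/-!
S0167: consequences of the Daugavet property (rank-one form) for closed finite-codimensional
subspaces.
-/

set_option autoImplicit false

namespace Crest.Agent.S0167

open Finset Crest.AnalysisR Filter Topology
open scoped RealInnerProductSpace
open Crest.Agent.Lib.AUC36

variable {V : Type} [NormedAddCommGroup V] [NormedSpace ℝ V]

/-- (D1) slice version of the Daugavet property for a unit vector. -/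
theorem daugavet_slice (hD : L1Subspace.HasDaugavetProperty V) (φ : V →L[ℝ] ℝ) (hφ : ‖φ‖ = 1)
    (v : V) (hv : ‖v‖ = 1) (ε : ℝ) (hε : 0 < ε) :
    ∃ z : V, ‖z‖ ≤ 1 ∧ 1 - ε < φ z ∧ 2 - ε < ‖v + z‖ := by
  have h1 : ‖φ.smulRight v‖ = 1 := by
    rw [ContinuousLinearMap.norm_smulRight_apply, hφ, hv, one_mul]
  have h2 := hD φ v
  rw [h1] at h2
  obtain ⟨u, hu1, hu2⟩ := ContinuousLinearMap.exists_lt_apply_of_lt_opNorm
    (ContinuousLinearMap.id ℝ V + φ.smulRight v) (show 2 - ε / 2 < _ by rw [h2]; linarith)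
  have e : ∀ w : V, (ContinuousLinearMap.id ℝ V + φ.smulRight v) w = w + φ w • v := fun w => rfl
  rw [e] at hu2
  -- wlog φ u ≥ 0
  obtain ⟨w, hw1, hw0, hw2⟩ : ∃ w : V, ‖w‖ ≤ 1 ∧ 0 ≤ φ w ∧ 2 - ε / 2 < ‖w + φ w • v‖ := by
    rcases le_or_gt 0 (φ u) with h | h
    · exact ⟨u, hu1.le, h, hu2⟩
    · refine ⟨-u, by rw [norm_neg]; exact hu1.le, by rw [map_neg]; linarith, ?_⟩
      have : -u + φ (-u) • v = -(u + φ u • v) := by
        rw [map_neg, neg_smul, neg_add]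
      rw [this, norm_neg]
      exact hu2
  have h3 : ‖w + φ w • v‖ ≤ ‖w‖ + φ w := by
    refine (norm_add_le _ _).trans ?_
    rw [norm_smul, hv, mul_one, Real.norm_of_nonneg hw0]
  have hφw : φ w ≤ 1 := by
    have := φ.le_opNorm w
    rw [hφ, one_mul, Real.norm_of_nonneg hw0] at this
    linarith
  refine ⟨w, hw1, by linarith, ?_⟩
  have h4 : ‖w + φ w • v‖ ≤ ‖v + w‖ + (1 - φ w) := by
    have e2 : w + φ w • v = (v + w) - (1 - φ w) • v := by
      rw [sub_smul, one_smul]; abel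
    rw [e2]
    refine (norm_sub_le _ _).trans ?_
    rw [norm_smul, hv, mul_one, Real.norm_of_nonneg (by linarith)]
  linarith

/-- (D2) slice version for arbitrary vectors and scalings. -/
theorem daugavet_slice' (hD : L1Subspace.HasDaugavetProperty V) (φ : V →L[ℝ] ℝ) (hφ : ‖φ‖ = 1)
    (v : V) (l : ℝ) (hl : 0 ≤ l) (ε : ℝ) (hε : 0 < ε) :
    ∃ z : V, ‖z‖ ≤ 1 ∧ 1 - ε < φ z ∧ ‖v‖ + l - ε < ‖v + l • z‖ := by
  by_cases hv0 : v = 0
  · -- any element of the slice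
    subst hv0
    set δ := ε / (l + 1) with hδ
    have hδpos : 0 < δ := by positivity
    have hδε : δ ≤ ε := div_le_self hε.le (by linarith)
    obtain ⟨u, hu1, hu2⟩ := ContinuousLinearMap.exists_lt_apply_of_lt_opNorm φ
      (show 1 - δ < ‖φ‖ by rw [hφ]; linarith)
    obtain ⟨w, hw1, hw2⟩ : ∃ w : V, ‖w‖ ≤ 1 ∧ 1 - δ < φ w := by
      rcases le_or_gt 0 (φ u) with h | h
      · exact ⟨u, hu1.le, by rwa [Real.norm_of_nonneg h] at hu2⟩
      · exact ⟨-u, by rw [norm_neg]; exact hu1.le, by rw [map_neg]; rwa [Real.norm_of_nonpos h.le] at hu2⟩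
    refine ⟨w, hw1, by linarith, ?_⟩
    rw [zero_add, norm_zero, zero_add, norm_smul, Real.norm_of_nonneg hl]
    have h5 : φ w ≤ ‖w‖ := by
      have := (le_abs_self _).trans (φ.le_opNorm w)
      rwa [hφ, one_mul] at this
    have h6 : l * δ < ε := by
      rw [hδ, mul_div_assoc', div_lt_iff₀ (by linarith)]
      nlinarith
    nlinarith
  have hR : 0 < ‖v‖ := norm_pos_iff.2 hv0
  set R := ‖v‖ with hRdef
  set δ := ε / (R + l + 1) with hδ
  have hδpos : 0 < δ := by positivity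
  have hδε : δ ≤ ε := div_le_self hε.le (by linarith)
  have hδR : (R + l) * δ < ε := by
    rw [hδ, mul_div_assoc', div_lt_iff₀ (by positivity)]
    nlinarith
  obtain ⟨z, hz1, hz2, hz3⟩ := daugavet_slice hD φ hφ (R⁻¹ • v)
    (by rw [norm_smul, norm_inv, Real.norm_of_nonneg hR.le, inv_mul_cancel₀ hR.ne']) δ hδpos
  refine ⟨z, hz1, by linarith, ?_⟩
  have hRv : R • (R⁻¹ • v) = v := by rw [smul_smul, mul_inv_cancel₀ hR.ne', one_smul]
  have hnv : ‖R⁻¹ • v‖ = 1 := by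
    rw [norm_smul, norm_inv, Real.norm_of_nonneg hR.le, inv_mul_cancel₀ hR.ne']
  rcases le_total l R with h | h
  · have e : R • (R⁻¹ • v + z) = (v + l • z) + (R - l) • z := by
      rw [smul_add, hRv, sub_smul]; abel
    have h1 : R * ‖R⁻¹ • v + z‖ ≤ ‖v + l • z‖ + (R - l) := by
      calc R * ‖R⁻¹ • v + z‖ = ‖R • (R⁻¹ • v + z)‖ := by rw [norm_smul, Real.norm_of_nonneg hR.le]
        _ = ‖(v + l • z) + (R - l) • z‖ := by rw [e]
        _ ≤ ‖v + l • z‖ + ‖(R - l) • z‖ := norm_add_le _ _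
        _ ≤ ‖v + l • z‖ + (R - l) := by
            rw [norm_smul, Real.norm_of_nonneg (by linarith)]
            nlinarith
    nlinarith
  · have e : l • (R⁻¹ • v + z) = (v + l • z) + (l - R) • (R⁻¹ • v) := by
      rw [smul_add, sub_smul, hRv]; abel
    have h1 : l * ‖R⁻¹ • v + z‖ ≤ ‖v + l • z‖ + (l - R) := by
      calc l * ‖R⁻¹ • v + z‖ = ‖l • (R⁻¹ • v + z)‖ := by rw [norm_smul, Real.norm_of_nonneg hl]
        _ = ‖(v + l • z) + (l - R) • (R⁻¹ • v)‖ := by rw [e]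
        _ ≤ ‖v + l • z‖ + ‖(l - R) • (R⁻¹ • v)‖ := norm_add_le _ _
        _ = ‖v + l • z‖ + (l - R) := by
            rw [norm_smul (l - R), hnv, mul_one, Real.norm_of_nonneg (by linarith)]
    nlinarith

section fd

variable {W : Type} [NormedAddCommGroup W] [InnerProductSpace ℝ W]

/-- points of `W` near which Daugavet-good ball elements exist -/
def PSet (q : V →L[ℝ] W) : Set W :=
  {k | ∀ (v : V) (l : ℝ), 0 ≤ l → ∀ ε : ℝ, 0 < ε →
    ∃ z : V, ‖z‖ ≤ 1 ∧ ‖q z - k‖ < ε ∧ ‖v‖ + l - ε < ‖v + l • z‖}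

lemma PSet_closed (q : V →L[ℝ] W) : IsClosed (PSet q) := by
  rw [← isSeqClosed_iff_isClosed]
  intro k p hk hkp v l hl ε hε
  obtain ⟨n, hn⟩ := ((Metric.tendsto_nhds.1 hkp) (ε / 2) (by positivity)).exists
  obtain ⟨z, hz1, hz2, hz3⟩ := hk n v l hl (ε / 2) (by positivity)
  refine ⟨z, hz1, ?_, by linarith⟩
  rw [dist_eq_norm] at hn
  calc ‖q z - p‖ = ‖(q z - k n) + (k n - p)‖ := by rw [sub_add_sub_cancel]
    _ ≤ ‖q z - k n‖ + ‖k n - p‖ := norm_add_le _ _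
    _ < ε := by linarith

lemma PSet_convex (q : V →L[ℝ] W) : Convex ℝ (PSet q) := by
  intro k1 hk1 k2 hk2 a b ha hb hab v l hl ε hε
  obtain ⟨z1, h11, h12, h13⟩ := hk1 v (l * a) (by positivity) (ε / 2) (by positivity)
  obtain ⟨z2, h21, h22, h23⟩ := hk2 (v + (l * a) • z1) (l * b) (by positivity) (ε / 2) (by positivity)
  refine ⟨a • z1 + b • z2, ?_, ?_, ?_⟩
  · refine (norm_add_le _ _).trans ?_
    rw [norm_smul, norm_smul, Real.norm_of_nonneg ha, Real.norm_of_nonneg hb]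
    nlinarith
  · have e : q (a • z1 + b • z2) - (a • k1 + b • k2) = a • (q z1 - k1) + b • (q z2 - k2) := by
      rw [map_add, map_smul, map_smul, smul_sub, smul_sub]; abel
    rw [e]
    refine lt_of_le_of_lt (norm_add_le _ _) ?_
    rw [norm_smul, norm_smul, Real.norm_of_nonneg ha, Real.norm_of_nonneg hb]
    have : a * ‖q z1 - k1‖ + b * ‖q z2 - k2‖ ≤ a * (ε / 2) + b * (ε / 2) :=
      add_le_add (mul_le_mul_of_nonneg_left h12.le ha) (mul_le_mul_of_nonneg_left h22.le hb)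
    have h3 : a * (ε / 2) + b * (ε / 2) = ε / 2 := by rw [← add_mul, hab, one_mul]
    linarith
  · have e : v + l • (a • z1 + b • z2) = (v + (l * a) • z1) + (l * b) • z2 := by
      rw [smul_add, smul_smul, smul_smul, add_assoc]
    rw [e]
    have : l * a + l * b = l := by rw [← mul_add, hab, mul_one]
    linarith

/-- farthest points belong to `PSet`. -/
lemma farthest_mem (hD : L1Subspace.HasDaugavetProperty V) [Nontrivial V] (q : V →L[ℝ] W) (c k : W)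
    (hk : k ∈ closure (q '' Metric.closedBall 0 1))
    (hfar : ∀ k' ∈ closure (q '' Metric.closedBall (0 : V) 1), ‖k' - c‖ ≤ ‖k - c‖) : k ∈ PSet q := by
  intro v l hl ε hε
  have hq : ∀ k' ∈ closure (q '' Metric.closedBall (0 : V) 1), ‖k' - k‖ ^ 2 ≤ 2 * (⟪k - c, k⟫ - ⟪k - c, k'⟫) := by
    intro k' hk'
    have h1 := hfar k' hk'
    have h2 : ‖k' - c‖ ^ 2 ≤ ‖k - c‖ ^ 2 := pow_le_pow_left₀ (norm_nonneg _) h1 2
    have e : k' - c = (k' - k) + (k - c) := by abel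
    rw [e, norm_add_sq_real] at h2
    have e2 : ⟪k' - k, k - c⟫ = ⟪k - c, k'⟫ - ⟪k - c, k⟫ := by
      rw [real_inner_comm, inner_sub_right]
    rw [e2] at h2
    linarith
  let ψ : V →L[ℝ] ℝ := (innerSL ℝ (k - c)).comp q
  have hψ : ∀ z, ψ z = ⟪k - c, q z⟫ := fun z => rfl
  have hψk : ⟪k - c, k⟫ ≤ ‖ψ‖ := by
    have hcl : IsClosed {w : W | ⟪k - c, w⟫ ≤ ‖ψ‖} :=
      isClosed_le (continuous_const.inner continuous_id) continuous_const
    have hsub : closure (q '' Metric.closedBall (0 : V) 1) ⊆ {w : W | ⟪k - c, w⟫ ≤ ‖ψ‖} := by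
      apply hcl.closure_subset_iff.2
      rintro _ ⟨z, hz, rfl⟩
      rw [mem_closedBall_zero_iff] at hz
      show ⟪k - c, q z⟫ ≤ ‖ψ‖
      rw [← hψ]
      calc ψ z ≤ |ψ z| := le_abs_self _
        _ ≤ ‖ψ‖ * ‖z‖ := ψ.le_opNorm z
        _ ≤ ‖ψ‖ * 1 := mul_le_mul_of_nonneg_left hz (norm_nonneg _)
        _ = ‖ψ‖ := mul_one _
    exact hsub hk
  have key : ∃ φ : V →L[ℝ] ℝ, ‖φ‖ = 1 ∧ ψ = ‖ψ‖ • φ := by
    by_cases h0 : ψ = 0
    · obtain ⟨φ, hφ⟩ := exists_ne (0 : V)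
      obtain ⟨g, hg, -⟩ := exists_dual_vector ℝ φ (norm_ne_zero_iff.2 hφ)
      exact ⟨g, hg, by rw [h0, norm_zero, zero_smul]⟩
    · have hpos : 0 < ‖ψ‖ := norm_pos_iff.2 h0
      refine ⟨‖ψ‖⁻¹ • ψ, ?_, ?_⟩
      · rw [norm_smul, norm_inv, norm_norm, inv_mul_cancel₀ hpos.ne']
      · rw [smul_smul, mul_inv_cancel₀ hpos.ne', one_smul]
  obtain ⟨φ, hφ1, hφψ⟩ := key
  set δ := min ε (ε ^ 2 / (4 * (‖ψ‖ + 1))) with hδ
  have hδpos : 0 < δ := by positivity
  obtain ⟨z, hz1, hz2, hz3⟩ := daugavet_slice' hD φ hφ1 v l hl δ hδpos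
  refine ⟨z, hz1, ?_, ?_⟩
  · have hzK : q z ∈ closure (q '' Metric.closedBall (0 : V) 1) :=
      subset_closure ⟨z, by simpa using hz1, rfl⟩
    have h1 := hq (q z) hzK
    have h2 : ψ z = ‖ψ‖ * φ z := by
      conv_lhs => rw [hφψ]
      rfl
    rw [← hψ, h2] at h1
    have h3 : ⟪k - c, k⟫ - ‖ψ‖ * φ z ≤ ‖ψ‖ * δ := by nlinarith [norm_nonneg ψ]
    have h4 : ‖ψ‖ * δ ≤ ε ^ 2 / 4 := by
      have h5 : δ ≤ ε ^ 2 / (4 * (‖ψ‖ + 1)) := min_le_right _ _
      calc ‖ψ‖ * δ ≤ (‖ψ‖ + 1) * δ := by nlinarith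
        _ ≤ (‖ψ‖ + 1) * (ε ^ 2 / (4 * (‖ψ‖ + 1))) := mul_le_mul_of_nonneg_left h5 (by positivity)
        _ = ε ^ 2 / 4 := by field_simp
    have h6 : ‖q z - k‖ ^ 2 < ε ^ 2 := by nlinarith
    exact lt_of_pow_lt_pow_left₀ 2 hε.le h6
  · have : δ ≤ ε := min_le_left _ _
    linarith

lemma image_mem_PSet (hD : L1Subspace.HasDaugavetProperty V) [Nontrivial V] [FiniteDimensional ℝ W]
    (q : V →L[ℝ] W) (x : V) (hx : ‖x‖ ≤ 1) : q x ∈ PSet q := by
  set K := closure (q '' Metric.closedBall (0 : V) 1) with hK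
  have hKc : IsCompact K := by
    have hprop : ProperSpace W := FiniteDimensional.proper_real W
    apply Metric.isCompact_of_isClosed_isBounded isClosed_closure
    apply Bornology.IsBounded.closure
    exact q.lipschitz.isBounded_image Metric.isBounded_closedBall
  have hxK : q x ∈ K := subset_closure ⟨x, by simpa using hx, rfl⟩
  have hfar : ∀ c : W, ∃ k ∈ K, ∀ k' ∈ K, ‖k' - c‖ ≤ ‖k - c‖ := by
    intro c
    obtain ⟨k, hk, hmax⟩ := hKc.exists_isMaxOn ⟨q x, hxK⟩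
      ((continuous_id.sub continuous_const).norm.continuousOn (s := K) (f := fun k => ‖k - c‖))
    exact ⟨k, hk, fun k' hk' => hmax hk'⟩
  have hfarP : ∀ c : W, ∀ k ∈ K, (∀ k' ∈ K, ‖k' - c‖ ≤ ‖k - c‖) → k ∈ PSet q :=
    fun c k hk h => farthest_mem hD q c k hk h
  by_contra hnot
  have hne : (PSet q).Nonempty := by
    obtain ⟨k, hk, hkf⟩ := hfar 0
    exact ⟨k, hfarP 0 k hk hkf⟩
  have hprop : ProperSpace W := FiniteDimensional.proper_real W
  obtain ⟨p, hp, hpmin⟩ := exists_norm_eq_iInf_of_complete_convex hne (PSet_closed q).isComplete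
    (PSet_convex q) (q x)
  have hin := (norm_eq_iInf_iff_real_inner_le_zero (PSet_convex q) hp).1 hpmin
  set u := q x - p with hu
  have hu0 : 0 < ‖u‖ := by
    rw [norm_pos_iff, hu, sub_ne_zero]
    rintro h
    rw [h] at hnot
    exact hnot hp
  obtain ⟨M, hM⟩ := hKc.isBounded.exists_norm_le
  have hM0 : 0 ≤ M := (norm_nonneg _).trans (hM _ hxK)
  set B := M + ‖p‖ with hB
  set R := B ^ 2 / ‖u‖ ^ 2 with hR
  have hR0 : 0 ≤ R := by positivity
  obtain ⟨k, hk, hkf⟩ := hfar (p - R • u)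
  have hkP := hfarP _ k hk hkf
  have h1 := hin k hkP
  have h2 := hkf (q x) hxK
  have e1 : q x - (p - R • u) = (1 + R) • u := by
    rw [add_smul, one_smul, hu]; abel
  have e2 : k - (p - R • u) = (k - p) + R • u := by abel
  rw [e1, e2, norm_smul, Real.norm_of_nonneg (by linarith)] at h2
  have h3 : ((1 + R) * ‖u‖) ^ 2 ≤ ‖(k - p) + R • u‖ ^ 2 := pow_le_pow_left₀ (by positivity) h2 2
  rw [norm_add_sq_real, inner_smul_right, norm_smul, Real.norm_of_nonneg hR0] at h3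
  have h4 : ⟪k - p, u⟫ ≤ 0 := by rw [real_inner_comm]; exact h1
  have h5 : ‖k - p‖ ≤ B := by
    refine (norm_sub_le _ _).trans ?_
    have := hM k hk
    linarith
  have h6 : ‖k - p‖ ^ 2 ≤ B ^ 2 := pow_le_pow_left₀ (norm_nonneg _) h5 2
  have h7 : R * ‖u‖ ^ 2 = B ^ 2 := by
    rw [hR]; field_simp
  have h8 : 0 < ‖u‖ ^ 2 := by positivity
  nlinarith [mul_nonneg hR0 (neg_nonneg.2 h4)]

end fd

/-- from every unit vector one can move by `2` inside any cofinite subspace, staying in the unit ball up to `η` -/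
theorem daugavet_cof (hD : L1Subspace.HasDaugavetProperty V) (x : V) (hx : ‖x‖ = 1)
    (F : Set V) (hF : Cof F) (η : ℝ) (hη : 0 < η) :
    ∃ y ∈ F, ‖y‖ = 1 ∧ ‖x + (2 : ℝ) • y‖ ≤ 1 + η := by
  have hnt : Nontrivial V := ⟨x, 0, by rintro rfl; simp at hx⟩
  obtain ⟨m, φ, C, hC, hφF, hFC⟩ := cof_functionals hF
  let q : V →L[ℝ] EuclideanSpace ℝ (Fin m) :=
    ((EuclideanSpace.equiv (Fin m) ℝ).symm : (Fin m → ℝ) →L[ℝ] EuclideanSpace ℝ (Fin m)).comp
      (ContinuousLinearMap.pi φ)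
  have hq : ∀ z j, (q z) j = φ j z := fun z j => rfl
  set ε := min (1 / 4) (min 1 η / (4 * (C * m + 1))) with hε
  have hCm : 0 ≤ C * m := by positivity
  have hεpos : 0 < ε := by positivity
  obtain ⟨z, hz1, hz2, hz3⟩ := image_mem_PSet hD q x hx.le (-x) 1 zero_le_one ε hεpos
  rw [norm_neg, hx, one_smul] at hz3
  set w := z - x with hw
  have hw' : -x + z = w := by rw [hw]; abel
  rw [hw'] at hz3
  have hw2 : ‖w‖ ≤ 2 := by
    rw [hw]; refine (norm_sub_le _ _).trans ?_; linarith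
  obtain ⟨y0, hy0F, hy0⟩ := hFC w
  have hj : ∀ j, |φ j w| ≤ ε := by
    intro j
    have h1 : φ j w = (q z - q x) j := by
      rw [hw, map_sub]; rfl
    rw [h1]
    have := PiLp.norm_apply_le (q z - q x) j
    exact this.trans hz2.le
  have hsum : C * ∑ j, |φ j w| ≤ C * m * ε := by
    have : ∑ j, |φ j w| ≤ ∑ _j : Fin m, ε := sum_le_sum fun j _ => hj j
    rw [sum_const, card_univ, Fintype.card_fin, nsmul_eq_mul] at this
    calc C * ∑ j, |φ j w| ≤ C * (m * ε) := mul_le_mul_of_nonneg_left this hC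
      _ = _ := by ring
  have hε2 : (C * m + 1) * ε ≤ min 1 η / 4 := by
    have h1 : ε ≤ min 1 η / (4 * (C * m + 1)) := min_le_right _ _
    calc (C * m + 1) * ε ≤ (C * m + 1) * (min 1 η / (4 * (C * m + 1))) :=
          mul_le_mul_of_nonneg_left h1 (by linarith)
      _ = _ := by field_simp
  have hmin1 : min 1 η ≤ 1 := min_le_left _ _
  have hminη : min 1 η ≤ η := min_le_right _ _
  have hwy : ‖w - y0‖ ≤ C * m * ε := hy0.trans hsum
  have hsum2 : C * m * ε + ε ≤ min 1 η / 4 := by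
    have : (C * m + 1) * ε = C * m * ε + ε := by ring
    linarith
  have hCe : 0 ≤ C * m * ε := by positivity
  have h1 : ‖w‖ ≤ ‖y0‖ + C * m * ε := by
    have := norm_sub_norm_le w y0
    linarith
  have h2 : ‖y0‖ ≤ ‖w‖ + C * m * ε := by
    have := norm_sub_norm_le y0 w
    rw [norm_sub_rev y0 w] at this
    linarith
  have hy0pos : 0 < ‖y0‖ := by linarith
  obtain ⟨S, hSF, -, -⟩ := hF
  refine ⟨‖y0‖⁻¹ • y0, ?_, ?_, ?_⟩
  · rw [← hSF] at hy0F ⊢
    exact S.smul_mem _ hy0F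
  · rw [norm_smul, norm_inv, norm_norm, inv_mul_cancel₀ hy0pos.ne']
  · have h3 : ‖(2 : ℝ) • ‖y0‖⁻¹ • y0 - y0‖ = |2 - ‖y0‖| := by
      have e : (2 : ℝ) • ‖y0‖⁻¹ • y0 - y0 = ((2 - ‖y0‖) * ‖y0‖⁻¹) • y0 := by
        rw [sub_mul, sub_smul, mul_inv_cancel₀ hy0pos.ne', one_smul, smul_smul]
      rw [e, norm_smul, norm_mul, norm_inv, norm_norm, mul_assoc, inv_mul_cancel₀ hy0pos.ne', mul_one]
      rfl
    have h4 : |2 - ‖y0‖| ≤ C * m * ε + ε := by
      rw [abs_le]; constructor <;> linarith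
    have e : x + (2 : ℝ) • ‖y0‖⁻¹ • y0 = z + (((2 : ℝ) • ‖y0‖⁻¹ • y0 - y0) - (w - y0)) := by
      rw [hw]; abel
    rw [e]
    have h5 : ‖((2 : ℝ) • ‖y0‖⁻¹ • y0 - y0) - (w - y0)‖ ≤ |2 - ‖y0‖| + ‖w - y0‖ := by
      refine (norm_sub_le _ _).trans ?_
      rw [h3]
    refine (norm_add_le _ _).trans ?_
    linarith

end Crest.Agent.S0167
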