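import Mathlib
import Crest.Prelude.Def_DaugavetL1
import Crest.Agent.Lib.AUC36

/-!
S0167: lower bounds for the asymptotic moduli of a subspace of `L¹` with measure-compact ball.
-/

set_option autoImplicit false

namespace Crest.Agent.S0167

open Finset Crest.AnalysisR Filter Topology MeasureTheory
open Crest.Agent.Lib.AUC36

variable {Ω : Type} [MeasurableSpace Ω] {P : Measure Ω} [IsProbabilityMeasure P]

/-- sign function of a class -/
noncomputable def sg (g : Lp ℝ 1 P) (z : Ω) : ℝ := if 0 ≤ (g : Ω → ℝ) z then 1 else -1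

omit [IsProbabilityMeasure P] in
lemma sg_meas (g : Lp ℝ 1 P) : Measurable (sg g) := by
  unfold sg
  apply Measurable.ite _ measurable_const measurable_const
  exact measurableSet_le measurable_const (Lp.stronglyMeasurable g).measurable

omit [IsProbabilityMeasure P] in
lemma sg_abs (g : Lp ℝ 1 P) (z : Ω) : |sg g z| = 1 := by
  unfold sg; split_ifs <;> simp

omit [IsProbabilityMeasure P] in
lemma sg_mul (g : Lp ℝ 1 P) (z : Ω) : (g : Ω → ℝ) z * sg g z = |(g : Ω → ℝ) z| := by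
  unfold sg
  split_ifs with h
  · rw [mul_one, abs_of_nonneg h]
  · push Not at h
    rw [abs_of_neg h]; ring

omit [IsProbabilityMeasure P] in
lemma Lp_int (y : Lp ℝ 1 P) : Integrable (y : Ω → ℝ) P := L1.integrable_coeFn y

lemma Lp_int_sg (y g : Lp ℝ 1 P) : Integrable (fun z => (y : Ω → ℝ) z * sg g z) P := by
  apply (Lp_int y).mul_bdd (c := 1) (sg_meas g).aestronglyMeasurable
  filter_upwards with z
  rw [Real.norm_eq_abs, sg_abs]

/-- integration against the sign of `g` as a functional. -/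
noncomputable def sgFun (g : Lp ℝ 1 P) : Lp ℝ 1 P →L[ℝ] ℝ :=
  LinearMap.mkContinuous
    { toFun := fun y => ∫ z, (y : Ω → ℝ) z * sg g z ∂P
      map_add' := fun y y' => by
        rw [← integral_add (Lp_int_sg y g) (Lp_int_sg y' g)]
        apply integral_congr_ae
        filter_upwards [Lp.coeFn_add y y'] with z hz
        rw [hz, Pi.add_apply]; ring
      map_smul' := fun c y => by
        rw [RingHom.id_apply, smul_eq_mul, ← integral_const_mul]
        apply integral_congr_ae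
        filter_upwards [Lp.coeFn_smul c y] with z hz
        rw [hz, Pi.smul_apply, smul_eq_mul]; ring } 1 (by
      intro y
      rw [one_mul, L1.norm_eq_integral_norm]
      show ‖∫ z, (y : Ω → ℝ) z * sg g z ∂P‖ ≤ _
      refine (norm_integral_le_integral_norm _).trans (le_of_eq ?_)
      apply integral_congr_ae
      filter_upwards with z
      rw [norm_mul, Real.norm_eq_abs (sg g z), sg_abs, mul_one])

lemma sgFun_apply (g y : Lp ℝ 1 P) : sgFun g y = ∫ z, (y : Ω → ℝ) z * sg g z ∂P := rfl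

omit [IsProbabilityMeasure P] in
lemma norm_eq_int (y : Lp ℝ 1 P) : ‖y‖ = ∫ z, |(y : Ω → ℝ) z| ∂P := by
  rw [L1.norm_eq_integral_norm]
  rfl

/-- the core estimate -/
lemma core (x y g : Lp ℝ 1 P) (t a η : ℝ) (ht : 0 ≤ t) (hy0 : sgFun g y = 0) (hx : ‖x‖ = 1) (hy : ‖y‖ = 1)
    (ha : 0 < a)
    (hA : ∫ z in {z | a < |(y : Ω → ℝ) z - (g : Ω → ℝ) z|}, |(x : Ω → ℝ) z| ∂P ≤ η) :
    1 - 2 * η - 2 * (t * a) ≤ ‖x + t • y‖ ∧ 1 - 2 * η - 2 * (t * a) ≤ ‖x - t • y‖ ∧
      2 - 4 * η + t * (1 - 2 * a) ≤ ‖x + t • y‖ + ‖x - t • y‖ := by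
  set X : Ω → ℝ := (x : Ω → ℝ) with hX
  set Y : Ω → ℝ := (y : Ω → ℝ) with hY
  set G : Ω → ℝ := (g : Ω → ℝ) with hG
  set A : Set Ω := {z | a < |Y z - G z|} with hAdef
  have hAm : MeasurableSet A := by
    apply measurableSet_lt measurable_const
    exact (((Lp.stronglyMeasurable y).sub (Lp.stronglyMeasurable g)).measurable).abs
  set χ : Ω → ℝ := A.indicator 1 with hχ
  have hχmeas : Measurable χ := measurable_const.indicator hAm
  have hχ1 : ∀ z ∈ A, χ z = 1 := fun z hz => Set.indicator_of_mem hz _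
  have hχ0 : ∀ z ∉ A, χ z = 0 := fun z hz => Set.indicator_of_notMem hz _
  have hχb : ∀ᵐ z ∂P, ‖χ z‖ ≤ 1 := by
    filter_upwards with z
    by_cases hz : z ∈ A
    · rw [hχ1 z hz]; simp
    · rw [hχ0 z hz]; simp
  have iX : Integrable (fun z => |X z|) P := (Lp_int x).abs
  have iY : Integrable (fun z => |Y z|) P := (Lp_int y).abs
  have iχX : Integrable (fun z => χ z * |X z|) P := iX.bdd_mul hχmeas.aestronglyMeasurable hχb
  have iχY : Integrable (fun z => χ z * |Y z|) P := iY.bdd_mul hχmeas.aestronglyMeasurable hχb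
  have eX : ∫ z, χ z * |X z| ∂P ≤ η := by
    have : ∫ z, χ z * |X z| ∂P = ∫ z in A, |X z| ∂P := by
      rw [← integral_indicator hAm]
      apply integral_congr_ae
      filter_upwards with z
      by_cases hz : z ∈ A
      · rw [hχ1 z hz, Set.indicator_of_mem hz, one_mul]
      · rw [hχ0 z hz, Set.indicator_of_notMem hz, zero_mul]
    rw [this]; exact hA
  have nX : ∫ z, |X z| ∂P = 1 := by rw [← norm_eq_int, hx]
  have nY : ∫ z, |Y z| ∂P = 1 := by rw [← norm_eq_int, hy]
  -- mass of y on A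
  have hmass : -(2 * a) ≤ 2 * ∫ z, χ z * |Y z| ∂P - 1 := by
    have h1 : ∫ z, (|Y z| - 2 * (χ z * |Y z|) - 2 * a) ∂P ≤ ∫ z, Y z * sg g z ∂P := by
      apply integral_mono ((iY.sub (iχY.const_mul 2)).sub (integrable_const _)) (Lp_int_sg y g)
      intro z
      show |Y z| - 2 * (χ z * |Y z|) - 2 * a ≤ Y z * sg g z
      have hs := sg_abs g z
      have hsg := sg_mul g z
      by_cases hz : z ∈ A
      · rw [hχ1 z hz]
        have : |Y z * sg g z| = |Y z| := by rw [abs_mul, hs, mul_one]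
        have := neg_abs_le (Y z * sg g z)
        linarith
      · rw [hχ0 z hz]
        have hz' : |Y z - G z| ≤ a := not_lt.1 hz
        have h2 : |(Y z - G z) * sg g z| ≤ a := by rw [abs_mul, hs, mul_one]; exact hz'
        have h3 := neg_abs_le ((Y z - G z) * sg g z)
        have h4 : (Y z - G z) * sg g z = Y z * sg g z - |G z| := by rw [sub_mul, hsg]
        have h5 : |Y z| ≤ |G z| + |Y z - G z| := by
          have := abs_add_le (G z) (Y z - G z)
          rwa [add_sub_cancel] at this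
        linarith
    have h2 : ∫ z, Y z * sg g z ∂P = 0 := hy0
    have i1 : Integrable (fun z => |Y z| - 2 * (χ z * |Y z|)) P := iY.sub (iχY.const_mul 2)
    rw [h2, integral_sub i1 (integrable_const _),
      integral_sub iY (iχY.const_mul 2), integral_const_mul, nY] at h1
    simp only [integral_const, probReal_univ, smul_eq_mul, one_mul] at h1
    linarith
  have ep : ∀ c : ℝ, (c = 1 ∨ c = -1) → ‖x + (c * t) • y‖ = ∫ z, |X z + c * t * Y z| ∂P := by
    intro c _
    rw [norm_eq_int]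
    apply integral_congr_ae
    filter_upwards [Lp.coeFn_add x ((c * t) • y), Lp.coeFn_smul (c * t) y] with z h1 h2
    rw [h1, Pi.add_apply, h2, Pi.smul_apply, smul_eq_mul]
  have ip : ∀ c : ℝ, Integrable (fun z => |X z + c * t * Y z|) P := fun c =>
    ((Lp_int x).add ((Lp_int y).const_mul (c * t))).abs
  have e1 : x + t • y = x + ((1 : ℝ) * t) • y := by rw [one_mul]
  have e2 : x - t • y = x + ((-1 : ℝ) * t) • y := by rw [neg_one_mul, neg_smul, sub_eq_add_neg]
  have lower : ∀ c : ℝ, (c = 1 ∨ c = -1) → 1 - 2 * η - 2 * (t * a) ≤ ‖x + (c * t) • y‖ := by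
    intro c hc
    rw [ep c hc]
    have h1 : ∫ z, (|X z| - 2 * (χ z * |X z|) + t * (2 * (χ z * |Y z|) - |Y z|)) ∂P
        ≤ ∫ z, |X z + c * t * Y z| ∂P := by
      apply integral_mono ((iX.sub (iχX.const_mul 2)).add (((iχY.const_mul 2).sub iY).const_mul t)) (ip c)
      intro z
      show |X z| - 2 * (χ z * |X z|) + t * (2 * (χ z * |Y z|) - |Y z|) ≤ |X z + c * t * Y z|
      have habs : |c * t * Y z| = t * |Y z| := by
        rw [abs_mul, abs_mul, abs_of_nonneg ht]
        rcases hc with rfl | rfl <;> simp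
      by_cases hz : z ∈ A
      · rw [hχ1 z hz]
        have h2 : |c * t * Y z| ≤ |X z + c * t * Y z| + |X z| := by
          have := abs_sub (X z + c * t * Y z) (X z)
          rwa [add_sub_cancel_left] at this
        rw [habs] at h2
        linarith
      · rw [hχ0 z hz]
        have h2 : |X z| ≤ |X z + c * t * Y z| + |c * t * Y z| := by
          have := abs_sub (X z + c * t * Y z) (c * t * Y z)
          rwa [add_sub_cancel_right] at this
        rw [habs] at h2
        linarith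
    have i1 : Integrable (fun z => |X z| - 2 * (χ z * |X z|)) P := iX.sub (iχX.const_mul 2)
    have i2 : Integrable (fun z => t * (2 * (χ z * |Y z|) - |Y z|)) P :=
      ((iχY.const_mul 2).sub iY).const_mul t
    rw [integral_add i1 i2,
      integral_sub iX (iχX.const_mul 2), integral_const_mul, integral_const_mul,
      integral_sub (iχY.const_mul 2) iY, integral_const_mul, nX, nY] at h1
    have h3 := mul_le_mul_of_nonneg_left hmass ht
    linarith
  refine ⟨by rw [e1]; exact lower 1 (Or.inl rfl), by rw [e2]; exact lower (-1) (Or.inr rfl), ?_⟩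
  rw [e1, e2, ep 1 (Or.inl rfl), ep (-1) (Or.inr rfl), ← integral_add (ip 1) (ip (-1))]
  have h1 : ∫ z, (2 * |X z| - 4 * (χ z * |X z|) + 2 * t * (χ z * |Y z|)) ∂P
      ≤ ∫ z, (|X z + 1 * t * Y z| + |X z + -1 * t * Y z|) ∂P := by
    apply integral_mono (((iX.const_mul 2).sub (iχX.const_mul 4)).add (iχY.const_mul (2 * t))) ((ip 1).add (ip (-1)))
    intro z
    show 2 * |X z| - 4 * (χ z * |X z|) + 2 * t * (χ z * |Y z|) ≤ |X z + 1 * t * Y z| + |X z + -1 * t * Y z|
    have h2 : 2 * |X z| ≤ |X z + 1 * t * Y z| + |X z + -1 * t * Y z| := by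
      have := abs_add_le (X z + 1 * t * Y z) (X z + -1 * t * Y z)
      have e : X z + 1 * t * Y z + (X z + -1 * t * Y z) = 2 * X z := by ring
      rw [e, abs_mul, abs_of_pos (by norm_num : (0:ℝ) < 2)] at this
      exact this
    have h3 : 2 * (t * |Y z|) ≤ |X z + 1 * t * Y z| + |X z + -1 * t * Y z| := by
      have := abs_sub (X z + 1 * t * Y z) (X z + -1 * t * Y z)
      have e : X z + 1 * t * Y z - (X z + -1 * t * Y z) = 2 * (t * Y z) := by ring
      rw [e, abs_mul, abs_mul, abs_of_pos (by norm_num : (0:ℝ) < 2), abs_of_nonneg ht] at this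
      exact this
    by_cases hz : z ∈ A
    · rw [hχ1 z hz]
      have := abs_nonneg (X z)
      linarith
    · rw [hχ0 z hz]
      linarith
  have i1 : Integrable (fun z => 2 * |X z| - 4 * (χ z * |X z|)) P :=
    (iX.const_mul 2).sub (iχX.const_mul 4)
  rw [integral_add i1 (iχY.const_mul (2 * t)),
    integral_sub (iX.const_mul 2) (iχX.const_mul 4), integral_const_mul, integral_const_mul,
    integral_const_mul, nX] at h1
  have h4 := mul_le_mul_of_nonneg_left hmass ht
  linarith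

/-- uniform integrability of one `L¹` function. -/
lemma ui (x : Lp ℝ 1 P) (η : ℝ) (hη : 0 < η) : ∃ δ : ℝ, 0 < δ ∧ ∀ A : Set Ω, MeasurableSet A →
    P A < ENNReal.ofReal δ → ∫ z in A, |(x : Ω → ℝ) z| ∂P ≤ η := by
  have hfin : ∫⁻ z, ‖(x : Ω → ℝ) z‖ₑ ∂P ≠ ⊤ := (Lp_int x).2.ne
  obtain ⟨δ, hδ, h⟩ := exists_pos_setLIntegral_lt_of_measure_lt hfin
    (show ENNReal.ofReal η ≠ 0 by simpa using hη)
  have hδ' : 0 < (min δ 1).toReal := by
    apply ENNReal.toReal_pos
    · exact (lt_min hδ one_pos).ne'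
    · exact ne_top_of_le_ne_top ENNReal.one_ne_top (min_le_right _ _)
  refine ⟨(min δ 1).toReal, hδ', ?_⟩
  intro A hA hPA
  rw [ENNReal.ofReal_toReal (ne_top_of_le_ne_top ENNReal.one_ne_top (min_le_right _ _))] at hPA
  have h1 := h A (lt_of_lt_of_le hPA (min_le_left _ _))
  rw [integral_eq_lintegral_of_nonneg_ae (Eventually.of_forall fun z => abs_nonneg _)
    ((Lp_int x).abs.aestronglyMeasurable.restrict)]
  apply ENNReal.toReal_le_of_le_ofReal hη.le
  refine le_trans (le_of_eq ?_) h1.le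
  apply lintegral_congr
  intro z
  rw [← Real.norm_eq_abs, ofReal_norm]

lemma measureDist_lt (f g : Lp ℝ 1 P) (ε : ℝ) (h : L1Subspace.measureDist P f g < ε) :
    ∃ a : ℝ, 0 < a ∧ a < ε ∧ P {z | a < |(f : Ω → ℝ) z - (g : Ω → ℝ) z|} < ENNReal.ofReal a := by
  unfold L1Subspace.measureDist at h
  have hne : {a : ℝ | 0 < a ∧ P {z | a < |(f : Ω → ℝ) z - (g : Ω → ℝ) z|} < ENNReal.ofReal a}.Nonempty := by
    refine ⟨2, by norm_num, ?_⟩
    refine lt_of_le_of_lt prob_le_one ?_
    rw [show (1 : ENNReal) = ENNReal.ofReal 1 by simp]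
    exact (ENNReal.ofReal_lt_ofReal_iff (by norm_num)).2 (by norm_num)
  obtain ⟨a, ⟨ha1, ha2⟩, ha3⟩ := exists_lt_of_csInf_lt hne h
  exact ⟨a, ha1, ha3, ha2⟩

/-- Main lower estimate: for each unit `x`, `t > 0`, `η > 0` there is a cofinite `F ⊆ E`. -/
theorem ge_main (E : Submodule ℝ (Lp ℝ 1 P)) (htb : L1Subspace.UnitBallTotallyBoundedInMeasure P E)
    (x : E) (hx : ‖x‖ = 1) (t : ℝ) (ht : 0 < t) (η : ℝ) (hη : 0 < η) :
    ∃ F : Set E, Cof F ∧ ∀ y ∈ F, ‖y‖ = 1 →
      1 - η ≤ ‖x + t • y‖ ∧ 2 - η + t ≤ ‖x + t • y‖ + ‖x - t • y‖ := by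
  obtain ⟨δ, hδ, hui⟩ := ui (x : Lp ℝ 1 P) (η / 8) (by positivity)
  set ε := min δ (η / (8 * t)) with hε
  have hεpos : 0 < ε := by positivity
  obtain ⟨s, hs, hcov⟩ := htb ε hεpos
  let φ : s → (E →L[ℝ] ℝ) := fun g => (sgFun (g : Lp ℝ 1 P)).comp E.subtypeL
  refine ⟨_, cof_of_functionals φ, ?_⟩
  intro y hy hy1
  obtain ⟨g, hgs, hgd⟩ := hcov (y : Lp ℝ 1 P) y.2 (by
    have : ‖(y : Lp ℝ 1 P)‖ = ‖y‖ := rfl
    rw [this, hy1])
  obtain ⟨a, ha, haε, hPa⟩ := measureDist_lt _ _ _ hgd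
  have hy0 : sgFun g (y : Lp ℝ 1 P) = 0 := hy ⟨g, hgs⟩
  have hAm : MeasurableSet {z | a < |((y : Lp ℝ 1 P) : Ω → ℝ) z - (g : Ω → ℝ) z|} := by
    apply measurableSet_lt measurable_const
    exact (((Lp.stronglyMeasurable (y : Lp ℝ 1 P)).sub (Lp.stronglyMeasurable g)).measurable).abs
  have hPa' : P {z | a < |((y : Lp ℝ 1 P) : Ω → ℝ) z - (g : Ω → ℝ) z|} < ENNReal.ofReal δ := by
    refine lt_of_lt_of_le hPa (ENNReal.ofReal_le_ofReal ?_)
    exact haε.le.trans (min_le_left _ _)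
  have hA := hui _ hAm hPa'
  obtain ⟨h1, h2, h3⟩ := core (x : Lp ℝ 1 P) (y : Lp ℝ 1 P) g t a (η / 8) ht.le hy0 hx hy1 ha hA
  have hta : t * a ≤ η / 8 := by
    have : a ≤ η / (8 * t) := haε.le.trans (min_le_right _ _)
    calc t * a ≤ t * (η / (8 * t)) := mul_le_mul_of_nonneg_left this ht.le
      _ = η / 8 := by field_simp
  have e1 : ‖x + t • y‖ = ‖(x : Lp ℝ 1 P) + t • (y : Lp ℝ 1 P)‖ := rfl
  have e2 : ‖x - t • y‖ = ‖(x : Lp ℝ 1 P) - t • (y : Lp ℝ 1 P)‖ := rfl
  rw [e1, e2]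
  constructor
  · linarith
  · linarith

end Crest.Agent.S0167
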