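import Crest.Statements.S0167
import Crest.Agent.S0167Daugavet
import Crest.Agent.S0167GE

set_option autoImplicit false
open Crest Crest.AnalysisR

namespace Crest.Agent.S0167

open Crest.Agent.Lib.AUC36

/-- upper bound for the norm along the Daugavet direction. -/
lemma upper_line {V : Type} [NormedAddCommGroup V] [NormedSpace ℝ V] (x y : V) (hx : ‖x‖ = 1)
    (hy : ‖y‖ = 1) (η : ℝ) (hη : 0 < η) (h : ‖x + (2 : ℝ) • y‖ ≤ 1 + η) (t : ℝ) (ht : 0 < t) :
    ‖x + t • y‖ ≤ max 1 (t - 1) + η := by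
  rcases le_total t 2 with h2 | h2
  · have e : x + t • y = (1 - t / 2) • x + (t / 2) • (x + (2 : ℝ) • y) := by
      rw [smul_add, smul_smul, sub_smul, one_smul, div_mul_cancel₀ _ (by norm_num : (2:ℝ) ≠ 0)]
      abel
    have h3 : ‖x + t • y‖ ≤ (1 - t / 2) * 1 + (t / 2) * (1 + η) := by
      rw [e]
      refine (norm_add_le _ _).trans ?_
      rw [norm_smul, norm_smul, Real.norm_of_nonneg (by linarith : 0 ≤ 1 - t / 2),
        Real.norm_of_nonneg (by linarith : 0 ≤ t / 2), hx]
      exact add_le_add le_rfl (mul_le_mul_of_nonneg_left h (by linarith))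
    have h4 := le_max_left 1 (t - 1)
    nlinarith
  · have e : x + t • y = (x + (2 : ℝ) • y) + (t - 2) • y := by
      rw [sub_smul]; abel
    have h3 : ‖x + t • y‖ ≤ (1 + η) + (t - 2) := by
      rw [e]
      refine (norm_add_le _ _).trans ?_
      rw [norm_smul (t - 2) y, hy, mul_one, Real.norm_of_nonneg (by linarith)]
      exact add_le_add h le_rfl
    have h4 := le_max_right 1 (t - 1)
    linarith

/-- Let E be an infinite-dimensional closed subspace of the real L¹ of a probability space whose closed unit ball is totally bounded for convergence in measure and whose norm has the Daugavet property. Then at every unit x ∈ E and every t > 0 the averaged midpoint quantity sup_F inf_y ((‖x+ty‖+‖x-ty‖)/2 - 1) equals max(t/2, t-1) and the one-sided one sup_F inf_y (‖x+ty‖ - 1) equals max(0, t-2), as matching lower and upper bounds, and E admits no equivalent asymptotically uniformly convex norm. -/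
theorem result (Ω : Type) [MeasurableSpace Ω] (P : MeasureTheory.Measure Ω) [MeasureTheory.IsProbabilityMeasure P]
    (E : Submodule ℝ (MeasureTheory.Lp ℝ 1 P)) (hcl : IsClosed (E : Set (MeasureTheory.Lp ℝ 1 P)))
    (hinf : ¬ FiniteDimensional ℝ E)
    (htb : Crest.AnalysisR.L1Subspace.UnitBallTotallyBoundedInMeasure P E)
    (hD : Crest.AnalysisR.L1Subspace.HasDaugavetProperty E) :
    (∀ t : ℝ, 0 < t →
      (Crest.AnalysisR.L1Subspace.toRealBanach P E hcl).MidpointModulusGE
          (Crest.AnalysisR.L1Subspace.toRealBanach P E hcl).norm t (max (t / 2) (t - 1)) ∧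
        (Crest.AnalysisR.L1Subspace.toRealBanach P E hcl).MidpointModulusLE
          (Crest.AnalysisR.L1Subspace.toRealBanach P E hcl).norm t (max (t / 2) (t - 1)) ∧
        (Crest.AnalysisR.L1Subspace.toRealBanach P E hcl).OneSidedModulusGE
          (Crest.AnalysisR.L1Subspace.toRealBanach P E hcl).norm t (max 0 (t - 2)) ∧
        (Crest.AnalysisR.L1Subspace.toRealBanach P E hcl).OneSidedModulusLE
          (Crest.AnalysisR.L1Subspace.toRealBanach P E hcl).norm t (max 0 (t - 2))) ∧
      ∀ N : E → ℝ, (Crest.AnalysisR.L1Subspace.toRealBanach P E hcl).IsEquivNorm N →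
        ¬ (Crest.AnalysisR.L1Subspace.toRealBanach P E hcl).IsAUC N := by
  have hcomp : CompleteSpace E := hcl.completeSpace_coe
  have hcof : ∀ x : E, ‖x‖ = 1 → ∀ F : Set E, Cof F → ∀ η : ℝ, 0 < η →
      ∃ y ∈ F, ‖y‖ = 1 ∧ ‖x + (2 : ℝ) • y‖ ≤ 1 + η :=
    fun x hx F hF η hη => daugavet_cof hD x hx F hF η hη
  refine ⟨?_, ?_⟩
  · intro t ht
    refine ⟨?_, ?_, ?_, ?_⟩
    · change ∀ x : E, ‖x‖ = 1 → ∀ η : ℝ, 0 < η → ∃ F : Set E, Cof F ∧
        ∀ y ∈ F, ‖y‖ = 1 → max (t / 2) (t - 1) - η ≤ (‖x + t • y‖ + ‖x - t • y‖) / 2 - 1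
      intro x hx η hη
      obtain ⟨F, hF, hFy⟩ := ge_main E htb x hx t ht η hη
      refine ⟨F, hF, fun y hy hy1 => ?_⟩
      obtain ⟨-, h2⟩ := hFy y hy hy1
      have h3 : 2 * t ≤ ‖x + t • y‖ + ‖x - t • y‖ := by
        have h4 := norm_sub_le (x + t • y) (x - t • y)
        have e : (x + t • y) - (x - t • y) = (2 * t) • y := by
          rw [two_mul, add_smul]; abel
        rw [e, norm_smul (2 * t) y, hy1, mul_one, Real.norm_of_nonneg (by linarith)] at h4
        exact h4
      rcases max_choice (t / 2) (t - 1) with h | h <;> rw [h] <;> linarith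
    · change ∀ x : E, ‖x‖ = 1 → ∀ F : Set E, Cof F → ∀ η : ℝ, 0 < η →
        ∃ y ∈ F, ‖y‖ = 1 ∧ (‖x + t • y‖ + ‖x - t • y‖) / 2 - 1 ≤ max (t / 2) (t - 1) + η
      intro x hx F hF η hη
      obtain ⟨y, hyF, hy1, hy2⟩ := hcof x hx F hF η hη
      refine ⟨y, hyF, hy1, ?_⟩
      have h1 := upper_line x y hx hy1 η hη hy2 t ht
      have h2 : ‖x - t • y‖ ≤ 1 + t := by
        refine (norm_sub_le _ _).trans ?_
        rw [norm_smul t y, hx, hy1, mul_one, Real.norm_of_nonneg ht.le]
      rcases le_total t 2 with h | h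
      · rw [max_eq_left (by linarith : t - 1 ≤ 1)] at h1
        have := le_max_left (t / 2) (t - 1)
        linarith
      · rw [max_eq_right (by linarith : 1 ≤ t - 1)] at h1
        have := le_max_right (t / 2) (t - 1)
        linarith
    · change ∀ x : E, ‖x‖ = 1 → ∀ η : ℝ, 0 < η → ∃ F : Set E, Cof F ∧
        ∀ y ∈ F, ‖y‖ = 1 → max 0 (t - 2) - η ≤ ‖x + t • y‖ - 1
      intro x hx η hη
      obtain ⟨F, hF, hFy⟩ := ge_main E htb x hx t ht η hη
      refine ⟨F, hF, fun y hy hy1 => ?_⟩
      obtain ⟨h2, -⟩ := hFy y hy hy1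
      have h3 : t - 1 ≤ ‖x + t • y‖ := by
        have h4 := norm_sub_le (x + t • y) x
        rw [add_sub_cancel_left, norm_smul t y, hy1, mul_one, Real.norm_of_nonneg ht.le, hx] at h4
        linarith
      rcases max_choice 0 (t - 2) with h | h <;> rw [h] <;> linarith
    · change ∀ x : E, ‖x‖ = 1 → ∀ F : Set E, Cof F → ∀ η : ℝ, 0 < η →
        ∃ y ∈ F, ‖y‖ = 1 ∧ ‖x + t • y‖ - 1 ≤ max 0 (t - 2) + η
      intro x hx F hF η hη
      obtain ⟨y, hyF, hy1, hy2⟩ := hcof x hx F hF η hη
      refine ⟨y, hyF, hy1, ?_⟩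
      have h1 := upper_line x y hx hy1 η hη hy2 t ht
      rcases le_total t 2 with h | h
      · rw [max_eq_left (by linarith : t - 1 ≤ 1)] at h1
        have := le_max_left 0 (t - 2)
        linarith
      · rw [max_eq_right (by linarith : 1 ≤ t - 1)] at h1
        have := le_max_right 0 (t - 2)
        linarith
  · obtain ⟨x₀, hx₀⟩ : ∃ x₀ : E, x₀ ≠ 0 := by
      by_contra hcon
      push Not at hcon
      apply hinf
      have : Subsingleton E := ⟨fun a b => by rw [hcon a, hcon b]⟩
      infer_instance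
    exact not_auc_of_oneSided x₀ hx₀ hcof

end Crest.Agent.S0167
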