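import Crest.Statements.S0168
import Crest.Agent.Lib.AUC36
import Crest.Agent.Lib.TreeGlue

set_option autoImplicit false
open Crest Crest.AnalysisR

namespace Crest.Agent.S0168

open Crest.AnalysisR.TreePotential Crest.Agent.Lib.AUC36 Crest.Agent.Lib.TreeGlue
open scoped ENNReal

/-- the finite sets over which the square sums are restricted -/
def Adm : PotentialModel → Finset (List ℕ) → Prop
  | .rootlessSibling, B => ∃ r : List ℕ, ∀ u ∈ B, ∃ n : ℕ, u = n :: r
  | .rootedSibling, B => ∃ r : List ℕ, ∀ u ∈ B, ∃ n : ℕ, u = n :: r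
  | .antichain, B => IsTreeAntichain B
  | .global, _ => True

theorem Adm.subset {m : PotentialModel} {B B' : Finset (List ℕ)} (h : Adm m B) (h' : B' ⊆ B) :
    Adm m B' := by
  cases m with
  | rootlessSibling =>
    obtain ⟨r, hr⟩ := h
    exact ⟨r, fun u hu => hr u (h' hu)⟩
  | rootedSibling =>
    obtain ⟨r, hr⟩ := h
    exact ⟨r, fun u hu => hr u (h' hu)⟩
  | antichain => exact fun u hu v hv => h u (h' hu) v (h' hv)
  | global => trivial

theorem adm_children (m : PotentialModel) (r : List ℕ) (A : Finset ℕ) :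
    Adm m (A.image (· :: r)) := by
  cases m with
  | rootlessSibling =>
    refine ⟨r, fun u hu => ?_⟩
    obtain ⟨n, -, rfl⟩ := Finset.mem_image.1 hu
    exact ⟨n, rfl⟩
  | rootedSibling =>
    refine ⟨r, fun u hu => ?_⟩
    obtain ⟨n, -, rfl⟩ := Finset.mem_image.1 hu
    exact ⟨n, rfl⟩
  | antichain =>
    intro u hu v hv huv hs
    obtain ⟨n, -, rfl⟩ := Finset.mem_image.1 hu
    obtain ⟨k, -, rfl⟩ := Finset.mem_image.1 hv
    rw [List.suffix_cons_iff] at hs
    rcases hs with hs | hs
    · exact huv hs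
    · have := hs.length_le
      simp at this
  | global => trivial

theorem sum_children (f : List ℕ → ℝ) (r : List ℕ) (A : Finset ℕ) :
    ∑ u ∈ A.image (· :: r), f u ^ 2 = ∑ n ∈ A, f (n :: r) ^ 2 := by
  rw [Finset.sum_image]
  intro a _ b _ hab
  simpa using hab

theorem sibling_iff (f : List ℕ → ℝ) :
    (∀ (r : List ℕ) (A : Finset ℕ), ∑ n ∈ A, f (n :: r) ^ 2 ≤ 1) ↔
      ∀ B : Finset (List ℕ), (∃ r : List ℕ, ∀ u ∈ B, ∃ n : ℕ, u = n :: r) →
        ∑ u ∈ B, f u ^ 2 ≤ 1 := by
  constructor
  · rintro h B ⟨r, hr⟩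
    have hinj : Set.InjOn (fun n : ℕ => n :: r) ((fun n : ℕ => n :: r) ⁻¹' (B : Set (List ℕ))) := by
      intro a _ b _ hab
      simpa using hab
    have := h r (B.preimage (fun n : ℕ => n :: r) hinj)
    rwa [Finset.sum_preimage (fun n : ℕ => n :: r) B hinj (fun u => f u ^ 2)] at this
    intro u hu hu'
    obtain ⟨n, rfl⟩ := hr u hu
    exact absurd ⟨n, rfl⟩ hu'
  · intro h r A
    rw [← sum_children f r A]
    apply h
    refine ⟨r, fun u hu => ?_⟩
    obtain ⟨n, -, rfl⟩ := Finset.mem_image.1 hu
    exact ⟨n, rfl⟩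

theorem isTest_iff (m : PotentialModel) (f : List ℕ → ℝ) :
    IsTest m f ↔ (∀ s, |pathPotential f s| ≤ 1) ∧ (m = .rootlessSibling → f [] = 0) ∧
      (m = .antichain → (Function.support f).Finite) ∧
      ∀ B : Finset (List ℕ), Adm m B → ∑ u ∈ B, f u ^ 2 ≤ 1 := by
  unfold IsTest
  refine and_congr_right fun _ => ?_
  cases m with
  | rootlessSibling =>
    simp only [ExtraCondition, sibling_iff, Adm]
    simp
  | rootedSibling =>
    simp only [ExtraCondition, sibling_iff, Adm]
    simp
  | antichain =>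
    simp only [ExtraCondition, Adm]
    simp
  | global =>
    simp only [ExtraCondition, Adm]
    simp

theorem isTest_glue {m : PotentialModel} {f g : List ℕ → ℝ} (hf : IsTest m f) (hg : IsTest m g)
    (σ : Bool) {A : Finset (List ℕ)} (h0 : [] ∈ A) (hA : ∀ a v, a :: v ∈ A → v ∈ A) {α β : ℝ}
    (hα : 0 ≤ α) (hβ : 0 ≤ β) (hαβ : α ^ 2 + β ^ 2 ≤ 1) (h2β : 2 * β ≤ 1) :
    IsTest m (glue σ A f g α β) := by
  rw [isTest_iff] at hf hg ⊢
  obtain ⟨hf1, hf2, hf3, hf4⟩ := hf
  obtain ⟨hg1, hg2, hg3, hg4⟩ := hg
  have hα1 : α ≤ 1 := by nlinarith [sq_nonneg β]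
  refine ⟨fun s => abs_pathPotential_glue_le σ f g hf1 hg1 hα hα1 hβ h2β s, ?_, ?_, ?_⟩
  · intro hm
    rw [glue_of_mem h0 hA σ f g α β h0, hf2 hm, mul_zero]
  · intro hm
    refine ((A.finite_toSet).union (hg3 hm)).subset ?_
    intro s hs
    by_cases hsA : s ∈ A
    · exact Or.inl hsA
    · refine Or.inr ?_
      rw [Function.mem_support] at hs ⊢
      intro hgs
      have := abs_glue_le h0 σ f g α hβ hsA
      rw [hgs, abs_zero, mul_zero] at this
      exact hs (abs_nonpos_iff.1 this)
  · intro B hB
    exact sum_glue_sq_le h0 hA σ f g hβ hαβ B (fun B' hB' => hf4 B' (hB.subset hB'))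
      (fun B' hB' => hg4 B' (hB.subset hB'))

theorem pathPotential_neg (f : List ℕ → ℝ) (s : List ℕ) :
    pathPotential (fun u => -f u) s = -pathPotential f s := by
  induction s with
  | nil => rfl
  | cons a v ih => simp only [pathPotential, ih]; ring

theorem isTest_neg {m : PotentialModel} {f : List ℕ → ℝ} (hf : IsTest m f) :
    IsTest m (fun u => -f u) := by
  rw [isTest_iff] at hf ⊢
  obtain ⟨hf1, hf2, hf3, hf4⟩ := hf
  refine ⟨fun s => ?_, fun hm => ?_, fun hm => ?_, fun B hB => ?_⟩
  · rw [pathPotential_neg, abs_neg]; exact hf1 s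
  · rw [hf2 hm, neg_zero]
  · refine (hf3 hm).subset ?_
    intro s hs
    rw [Function.mem_support] at hs ⊢
    simpa using hs
  · simpa using hf4 B hB

theorem isTest_delta {m : PotentialModel} {s : List ℕ} (hs : m = .rootlessSibling → s ≠ []) :
    IsTest m (delta s) := by
  rw [isTest_iff]
  refine ⟨fun u => abs_pathPotential_delta_le s u, fun hm => ?_, fun _ => ?_,
    fun B _ => sum_delta_sq_le s B⟩
  · have := hs hm
    unfold delta
    rw [if_neg]
    exact fun h => this h.symm
  · refine (Set.finite_singleton s).subset ?_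
    intro u hu
    rw [Function.mem_support] at hu
    unfold delta at hu
    by_contra h
    exact hu (if_neg h)

/-- the ambient space -/
abbrev L (m : PotentialModel) : Type := lp (fun _ : PotentialTest m => ℝ) ⊤

/-- the coefficient family of a test -/
def val {m : PotentialModel} (f : PotentialTest m) : List ℕ → ℝ := f.1

/-- a test from a coefficient family -/
def mkT {m : PotentialModel} (f : List ℕ → ℝ) (h : IsTest m f) : PotentialTest m := ⟨f, h⟩

theorem val_mkT {m : PotentialModel} (f : List ℕ → ℝ) (h : IsTest m f) : val (mkT f h) = f := rfl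

theorem isTest_val {m : PotentialModel} (f : PotentialTest m) : IsTest m (val f) := f.2

theorem nc {m : PotentialModel} (x : modelSpace m) : ‖(x : L m)‖ = ‖x‖ := rfl

/-- evaluation at a test -/
noncomputable def ev (m : PotentialModel) (f : PotentialTest m) : L m →L[ℝ] ℝ :=
  lp.evalCLM ℝ (fun _ : PotentialTest m => ℝ) ⊤ f

theorem ev_apply (m : PotentialModel) (f : PotentialTest m) (x : L m) : ev m f x = x f := rfl

theorem ev_coord (m : PotentialModel) (f : PotentialTest m) (s : List ℕ) :
    ev m f (coordVector m s) = val f s := rfl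

theorem clm_zero {m : PotentialModel} (φ : L m →L[ℝ] ℝ) (h : ∀ s, φ (coordVector m s) = 0)
    {x : L m} (hx : x ∈ modelSpace m) : φ x = 0 := by
  have h1 : modelSpace m ≤ LinearMap.ker (φ : L m →ₗ[ℝ] ℝ) := by
    unfold modelSpace
    refine Submodule.topologicalClosure_minimal _ ?_ ?_
    · rw [Submodule.span_le]
      rintro _ ⟨s, rfl⟩
      exact h s
    · exact φ.isClosed_ker
  exact h1 hx

theorem ev_le (m : PotentialModel) (f : PotentialTest m) (x : L m) : ev m f x ≤ ‖x‖ :=
  (le_abs_self _).trans (lp.norm_apply_le_norm (by simp) x f)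

/-- negative of a test -/
def negTest {m : PotentialModel} (f : PotentialTest m) : PotentialTest m :=
  mkT (fun u => -val f u) (isTest_neg (isTest_val f))

theorem ev_neg {m : PotentialModel} (f : PotentialTest m) {x : L m} (hx : x ∈ modelSpace m) :
    ev m (negTest f) x = -ev m f x := by
  have := clm_zero (ev m (negTest f) + ev m f) (fun s => by
    rw [add_apply, ev_coord, ev_coord, negTest, val_mkT]; ring) hx
  simp only [add_apply] at this
  linarith

theorem exists_near {m : PotentialModel} {x : L m} (hx : x ∈ modelSpace m) {ε : ℝ} (hε : 0 < ε) :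
    ∃ f : PotentialTest m, ‖x‖ - ε < ev m f x := by
  by_contra hcon
  push Not at hcon
  let f0 : PotentialTest m := mkT (delta [0]) (isTest_delta (fun _ => by simp))
  have : Nonempty (PotentialTest m) := ⟨f0⟩
  have h1 : ‖x‖ ≤ ‖x‖ - ε := by
    apply lp.norm_le_of_forall_le'
    intro f
    rw [Real.norm_eq_abs, abs_le]
    constructor
    · have := hcon (negTest f)
      rw [ev_neg f hx] at this
      have h2 : ev m f x = x f := rfl
      linarith
    · exact hcon f
  linarith

/-- supported on `A` -/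
def SuppOn (m : PotentialModel) (A : Finset (List ℕ)) (x : L m) : Prop :=
  ∀ φ : L m →L[ℝ] ℝ, (∀ s ∈ A, φ (coordVector m s) = 0) → φ x = 0

open Classical in
/-- coordinate functional -/
noncomputable def coordFn (m : PotentialModel) (s : List ℕ) : L m →L[ℝ] ℝ :=
  if h : IsTest m (delta s) then ev m (mkT (delta s) h) else 0

theorem mid_aux {m : PotentialModel} (f g : PotentialTest m) {A : Finset (List ℕ)}
    (h0 : [] ∈ A) (hA : ∀ a v, a :: v ∈ A → v ∈ A) {x y : L m} (hx : SuppOn m A x)
    (hy : y ∈ modelSpace m) (hyA : ∀ s ∈ A, coordFn m s y = 0) {α β : ℝ}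
    (hα : 0 ≤ α) (hβ : 0 ≤ β) (hαβ : α ^ 2 + β ^ 2 ≤ 1) (h2β : 2 * β ≤ 1) :
    2 * α * ev m f x + β * ev m g y ≤ ‖x + y‖ + ‖x - y‖ := by
  classical
  let H : Bool → PotentialTest m := fun σ =>
    mkT (glue σ A (val f) (val g) α β)
      (isTest_glue (isTest_val f) (isTest_val g) σ h0 hA hα hβ hαβ h2β)
  have hHx : ∀ σ, ev m (H σ) x = α * ev m f x := by
    intro σ
    have := hx (ev m (H σ) - α • ev m f) (by
      intro s hs
      simp only [sub_apply, smul_apply, ev_coord,
        smul_eq_mul]
      change glue σ A (val f) (val g) α β s - α * val f s = 0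
      rw [glue_of_mem h0 hA σ (val f) (val g) α β hs, sub_self])
    simp only [sub_apply, smul_apply,
      smul_eq_mul] at this
    linarith
  have hHy : ev m (H true) y - ev m (H false) y = β * ev m g y := by
    have := clm_zero (ev m (H true) - ev m (H false) - β • ev m g +
      β • ∑ s ∈ A, val g s • coordFn m s) (by
      intro u
      simp only [sub_apply, add_apply,
        smul_apply, ev_coord, smul_eq_mul, sum_apply]
      have hc : ∀ s, val g s * coordFn m s (coordVector m u) = if u = s then val g s else 0 := by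
        intro s
        unfold coordFn
        split_ifs with h1 h2 h2
        · rw [ev_coord, val_mkT]; simp [delta, h2]
        · rw [ev_coord, val_mkT]; simp [delta, h2]
        · have h3 : m = .rootlessSibling ∧ s = [] := by
            by_contra h4
            apply h1
            apply isTest_delta
            intro h5 h6
            exact h4 ⟨h5, h6⟩
          have h4 : val g s = 0 := by
            rw [h3.2]
            exact ((isTest_iff m (val g)).1 (isTest_val g)).2.1 h3.1
          simp [h4]
        · simp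
      simp only [hc]
      rw [Finset.sum_ite_eq]
      change glue true A (val f) (val g) α β u - glue false A (val f) (val g) α β u - β * val g u +
        β * (if u ∈ A then val g u else 0) = 0
      by_cases hu : u ∈ A
      · rw [glue_of_mem h0 hA true (val f) (val g) α β hu, glue_of_mem h0 hA false (val f) (val g) α β hu,
          if_pos hu]
        ring
      · rw [glue_sub h0 (val f) (val g) α β hu, if_neg hu]
        ring) hy
    simp only [sub_apply, add_apply,
      smul_apply, smul_eq_mul, sum_apply] at this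
    rw [Finset.sum_eq_zero (fun s hs => by rw [hyA s hs, mul_zero])] at this
    linarith
  have h1 := ev_le m (H true) (x + y)
  have h2 := ev_le m (H false) (x - y)
  rw [map_add, hHx] at h1
  rw [map_sub, hHx] at h2
  linarith

/-- exact homogeneous midpoint inequality -/
theorem midpoint {m : PotentialModel} {A : Finset (List ℕ)}
    (h0 : [] ∈ A) (hA : ∀ a v, a :: v ∈ A → v ∈ A) {x y : L m} (hx : SuppOn m A x)
    (hxm : x ∈ modelSpace m) (hy : y ∈ modelSpace m) (hyA : ∀ s ∈ A, coordFn m s y = 0) :
    Real.sqrt (‖x‖ ^ 2 + ‖y‖ ^ 2 / 4) ≤ (‖x + y‖ + ‖x - y‖) / 2 := by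
  have key : ∀ α β : ℝ, 0 ≤ α → 0 ≤ β → α ^ 2 + β ^ 2 ≤ 1 → 2 * β ≤ 1 →
      2 * α * ‖x‖ + β * ‖y‖ ≤ ‖x + y‖ + ‖x - y‖ := by
    intro α β hα hβ hαβ h2β
    apply le_of_forall_pos_le_add
    intro ε hε
    have hα1 : α ≤ 1 := by nlinarith [sq_nonneg β]
    obtain ⟨f, hf⟩ := exists_near hxm (ε := ε / 3) (by positivity)
    obtain ⟨g, hg⟩ := exists_near hy (ε := ε / 3) (by positivity)
    have := mid_aux f g h0 hA hx hy hyA hα hβ hαβ h2β
    have h3 : 2 * α * (‖x‖ - ε / 3) ≤ 2 * α * ev m f x :=
      mul_le_mul_of_nonneg_left hf.le (by positivity)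
    have h4 : β * (‖y‖ - ε / 3) ≤ β * ev m g y := mul_le_mul_of_nonneg_left hg.le hβ
    nlinarith
  set D := Real.sqrt (‖x‖ ^ 2 + ‖y‖ ^ 2 / 4) with hD
  have hDsq : D ^ 2 = ‖x‖ ^ 2 + ‖y‖ ^ 2 / 4 := Real.sq_sqrt (by positivity)
  have hD0 : 0 ≤ D := Real.sqrt_nonneg _
  rcases eq_or_lt_of_le hD0 with h | hDpos
  · rw [← h]; positivity
  · by_cases hxy : 3 / 4 * ‖y‖ ^ 2 ≤ ‖x‖ ^ 2
    · have h1 : ‖y‖ ≤ D := by
        apply Real.le_sqrt_of_sq_le
        nlinarith
      have h2 := key (‖x‖ / D) (‖y‖ / (2 * D)) (by positivity) (by positivity) (by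
        rw [div_pow, div_pow, mul_pow]
        rw [div_add_div _ _ (by positivity) (by positivity), div_le_one (by positivity)]
        nlinarith [hDsq]) (by
        rw [show 2 * (‖y‖ / (2 * D)) = ‖y‖ / D by field_simp]
        exact (div_le_one hDpos).2 h1)
      have h3 : 2 * (‖x‖ / D) * ‖x‖ + ‖y‖ / (2 * D) * ‖y‖ = 2 * D := by
        field_simp
        nlinarith [hDsq]
      linarith
    · push Not at hxy
      have h1 : D ≤ ‖y‖ := by
        rw [hD]
        apply Real.sqrt_le_iff.2 ⟨norm_nonneg _, ?_⟩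
        linarith
      have h2 : 2 * ‖y‖ ≤ ‖x + y‖ + ‖x - y‖ := by
        have := norm_sub_le (x + y) (x - y)
        rw [show x + y - (x - y) = (2 : ℝ) • y by rw [two_smul]; abel, norm_smul] at this
        simpa using this
      linarith

theorem coord_mem (m : PotentialModel) (s : List ℕ) : coordVector m s ∈ modelSpace m :=
  Submodule.le_topologicalClosure _ (Submodule.subset_span ⟨s, rfl⟩)

/-- approximation by finitely supported vectors -/
theorem exists_approx {m : PotentialModel} {x : L m} (hx : x ∈ modelSpace m) {ε : ℝ}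
    (hε : 0 < ε) : ∃ x' : L m, x' ∈ modelSpace m ∧ ‖x - x'‖ < ε ∧
      ∃ B : Finset (List ℕ), SuppOn m B x' := by
  have h1 : x ∈ closure ((Submodule.span ℝ (Set.range (coordVector m)) : Submodule ℝ (L m)) :
      Set (L m)) := hx
  rw [Metric.mem_closure_iff] at h1
  obtain ⟨x', hx', hd⟩ := h1 ε hε
  refine ⟨x', Submodule.le_topologicalClosure _ hx', by rwa [dist_eq_norm] at hd, ?_⟩
  obtain ⟨c, rfl⟩ := (Finsupp.mem_span_range_iff_exists_finsupp).1 hx'
  refine ⟨c.support, fun φ hφ => ?_⟩
  rw [Finsupp.sum, map_sum]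
  apply Finset.sum_eq_zero
  intro s hs
  rw [map_smul, hφ s hs, smul_zero]

theorem SuppOn.mono {m : PotentialModel} {A B : Finset (List ℕ)} (h : A ⊆ B) {x : L m}
    (hx : SuppOn m A x) : SuppOn m B x :=
  fun φ hφ => hx φ fun s hs => hφ s (h hs)

instance (m : PotentialModel) : CompleteSpace (modelSpace m) :=
  (Submodule.isClosed_topologicalClosure _).completeSpace_coe

theorem midpointModulus (m : PotentialModel) (t : ℝ) (ht : 0 < t) (x : modelSpace m)
    (hx : ‖x‖ = 1) (η : ℝ) (hη : 0 < η) : ∃ F : Set (modelSpace m), Cof F ∧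
      ∀ y ∈ F, ‖y‖ = 1 → Real.sqrt (1 + t ^ 2 / 4) - 1 - η ≤
        (‖x + t • y‖ + ‖x - t • y‖) / 2 - 1 := by
  obtain ⟨e, he⟩ : ∃ e, e = min (η / 2) 1 := ⟨_, rfl⟩
  have he0 : 0 < e := by rw [he]; positivity
  have he1 : e ≤ η / 2 := by rw [he]; exact min_le_left _ _
  have he2 : e ≤ 1 := by rw [he]; exact min_le_right _ _
  obtain ⟨x', hx'm, hxx', B, hB⟩ := exists_approx x.2 he0
  let A := closeA B
  refine ⟨{y | ∀ s : A, (coordFn m s.1).comp (modelSpace m).subtypeL y = 0},
    cof_of_functionals _, ?_⟩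
  intro y hy hy1
  have hyA : ∀ s ∈ A, coordFn m s ((t • y : modelSpace m) : L m) = 0 := by
    intro s hs
    have := hy ⟨s, hs⟩
    simp only [ContinuousLinearMap.comp_apply, Submodule.subtypeL_apply] at this
    rw [Submodule.coe_smul, map_smul, this, smul_zero]
  have h1 := midpoint (nil_mem_closeA B) (closeA_closed B) (hB.mono (subset_closeA B)) hx'm
    (t • y : modelSpace m).2 hyA
  have hty : ‖((t • y : modelSpace m) : L m)‖ = t := by
    rw [nc, norm_smul, hy1, Real.norm_of_nonneg ht.le, mul_one]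
  rw [hty] at h1
  have h2 : ‖x' + ((t • y : modelSpace m) : L m)‖ ≤ ‖x + t • y‖ + e := by
    have e1 : x' + ((t • y : modelSpace m) : L m) =
      ((x + t • y : modelSpace m) : L m) - ((x : L m) - x') := by
      rw [Submodule.coe_add]; abel
    rw [e1]
    refine (norm_sub_le _ _).trans ?_
    rw [nc]
    linarith
  have h3 : ‖x' - ((t • y : modelSpace m) : L m)‖ ≤ ‖x - t • y‖ + e := by
    have e1 : x' - ((t • y : modelSpace m) : L m) =
      ((x - t • y : modelSpace m) : L m) - ((x : L m) - x') := by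
      rw [Submodule.coe_sub]; abel
    rw [e1]
    refine (norm_sub_le _ _).trans ?_
    rw [nc]
    linarith
  have h4 : 1 - e ≤ ‖x'‖ := by
    have := norm_sub_norm_le (x : L m) x'
    rw [nc, hx] at this
    linarith
  have h5 : Real.sqrt (1 + t ^ 2 / 4) - e ≤ Real.sqrt (‖x'‖ ^ 2 + t ^ 2 / 4) := by
    apply Real.le_sqrt_of_sq_le
    have hs : Real.sqrt (1 + t ^ 2 / 4) ^ 2 = 1 + t ^ 2 / 4 := Real.sq_sqrt (by positivity)
    have hs1 : 1 ≤ Real.sqrt (1 + t ^ 2 / 4) := by
      rw [Real.one_le_sqrt]; nlinarith [sq_nonneg t]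
    nlinarith
  linarith

/-- the coordinate vector as an element of the space -/
noncomputable def cv (m : PotentialModel) (s : List ℕ) : modelSpace m :=
  ⟨coordVector m s, coord_mem m s⟩

theorem norm_le_of_ev {m : PotentialModel} (x : modelSpace m) {C : ℝ}
    (h : ∀ f : PotentialTest m, |ev m f (x : L m)| ≤ C) : ‖x‖ ≤ C := by
  rw [← nc]
  have : Nonempty (PotentialTest m) := ⟨mkT (delta [0]) (isTest_delta (fun _ => by simp))⟩
  exact lp.norm_le_of_forall_le' C h

theorem one_le_norm_cv (m : PotentialModel) {s : List ℕ} (hs : s ≠ []) : 1 ≤ ‖cv m s‖ := by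
  have h1 := ev_le m (mkT (delta s) (isTest_delta (fun _ => hs))) (coordVector m s)
  rw [ev_coord, val_mkT] at h1
  have h2 : 1 ≤ ‖coordVector m s‖ := by simpa [delta] using h1
  exact h2

theorem upper_l2 (m : PotentialModel) (r : List ℕ) (A : Finset ℕ) (a : ℕ → ℝ) :
    ‖∑ n ∈ A, a n • cv m (n :: r)‖ ≤ 1 * Real.sqrt (∑ n ∈ A, a n ^ 2) := by
  rw [one_mul]
  apply norm_le_of_ev
  intro f
  have h1 : ev m f ((∑ n ∈ A, a n • cv m (n :: r) : modelSpace m) : L m) =
      ∑ n ∈ A, a n * val f (n :: r) := by
    rw [Submodule.coe_sum, map_sum]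
    apply Finset.sum_congr rfl
    intro n _
    rw [Submodule.coe_smul, map_smul, smul_eq_mul]
    rfl
  rw [h1]
  have h2 : ∑ n ∈ A, val f (n :: r) ^ 2 ≤ 1 := by
    rw [← sum_children (val f) r A]
    exact ((isTest_iff m (val f)).1 (isTest_val f)).2.2.2 _ (adm_children m r A)
  apply Real.abs_le_sqrt
  calc (∑ n ∈ A, a n * val f (n :: r)) ^ 2
      ≤ (∑ n ∈ A, a n ^ 2) * ∑ n ∈ A, val f (n :: r) ^ 2 := Finset.sum_mul_sq_le_sq_mul_sq _ _ _
    _ ≤ (∑ n ∈ A, a n ^ 2) * 1 :=
        mul_le_mul_of_nonneg_left h2 (Finset.sum_nonneg fun _ _ => sq_nonneg _)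
    _ = _ := mul_one _

theorem escapes_children (m : PotentialModel) (r : List ℕ) : Escapes fun n => cv m (n :: r) :=
  escape_of_upper_l2 _ 1 (upper_l2 m r)

theorem ev_branchSum (m : PotentialModel) (f : PotentialTest m) (s : List ℕ) :
    ev m f ((branchSum (fun s => cv m (s ++ [0])) s : modelSpace m) : L m) =
      pathPotential (val f) (s ++ [0]) - val f [] := by
  induction s with
  | nil =>
    change val f [0] = (val f [] + val f [0]) - val f []
    ring
  | cons a v ih =>
    change ev m f (((branchSum (fun s => cv m (s ++ [0])) v + cv m (a :: v ++ [0])) :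
      modelSpace m) : L m) = _
    rw [Submodule.coe_add, map_add, ih]
    change _ + val f (a :: (v ++ [0])) = (pathPotential (val f) (v ++ [0]) +
      val f (a :: (v ++ [0]))) - val f []
    ring

theorem not_auc (m : PotentialModel) : ∀ N : modelSpace m → ℝ,
    (mkB (modelSpace m)).IsEquivNorm N → ¬ (mkB (modelSpace m)).IsAUC N := by
  apply not_auc_of_trees 1 2 one_pos
  intro k
  refine ⟨fun s => cv m (s ++ [0]), one_le_norm_cv m (by simp), ?_, ?_, ?_⟩
  · intro s n _
    exact one_le_norm_cv m (by simp)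
  · intro s _
    apply norm_le_of_ev
    intro f
    rw [ev_branchSum]
    have h1 := (isTest_val f).1 (s ++ [0])
    have h2 := (isTest_val f).1 []
    change |val f []| ≤ 1 at h2
    rw [abs_le] at h1 h2 ⊢
    constructor <;> linarith [h1.1, h1.2, h2.1, h2.2]
  · intro s _
    have h := escapes_children m (s ++ [0])
    simp only [List.cons_append]
    exact h

theorem separable_general {E ι : Type*} [NormedAddCommGroup E] [NormedSpace ℝ E] [Countable ι]
    (v : ι → E) :
    TopologicalSpace.SeparableSpace (Submodule.span ℝ (Set.range v)).topologicalClosure := by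
  have h1 : TopologicalSpace.IsSeparable (Set.range v) := (Set.countable_range _).isSeparable
  have h2 := (h1.span (R := ℝ)).closure
  exact h2.separableSpace

theorem separable (m : PotentialModel) : TopologicalSpace.SeparableSpace (modelSpace m) :=
  separable_general (coordVector m)

theorem infiniteDim (m : PotentialModel) : ¬ FiniteDimensional ℝ (modelSpace m) :=
  not_finiteDimensional_of_escapes _ (escapes_children m []) 1 one_pos
    fun _ => one_le_norm_cv m (by simp)

/-- For each of the four bounded-potential coordinate models on the countably branching tree (rootless sibling, rooted sibling, antichain, global), the generated space, namely the closure of the span of the coordinate vectors in the supremum norm over the model's tests, is separable and infinite-dimensional, its norm has at every unit centre and every 0 < t < 1 averaged midpoint asymptotic quantity at least √(1 + t²/4) - 1, and no equivalent norm on it is asymptotically uniformly convex. -/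
theorem result
    (m : Crest.AnalysisR.TreePotential.PotentialModel) :
    (Crest.AnalysisR.TreePotential.modelBanach m).IsSeparableInfiniteDim ∧
      (∀ t : ℝ, 0 < t → t < 1 →
        (Crest.AnalysisR.TreePotential.modelBanach m).MidpointModulusGE
          (Crest.AnalysisR.TreePotential.modelBanach m).norm t (Real.sqrt (1 + t ^ 2 / 4) - 1)) ∧
      ∀ N : (Crest.AnalysisR.TreePotential.modelBanach m).X → ℝ,
        (Crest.AnalysisR.TreePotential.modelBanach m).IsEquivNorm N →
          ¬ (Crest.AnalysisR.TreePotential.modelBanach m).IsAUC N := by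
  refine ⟨⟨separable m, infiniteDim m⟩, fun t ht _ => ?_, not_auc m⟩
  exact midpointModulus m t ht

end Crest.Agent.S0168
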