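import Crest.Statements.S0169
import Crest.Agent.Lib.AUC36

set_option autoImplicit false
open Crest Crest.AnalysisR

namespace Crest.Agent.S0169

open MeasureTheory ProbabilityTheory Crest.AnalysisR.TreeProduct Crest.Agent.Lib.AUC36

section aux

variable {Ω : Type} 

/-- sigma-algebra generated by the multipliers at the vertices of `S`. -/
abbrev sig (W : List ℕ → Ω → ℝ) (S : Set (List ℕ)) : MeasurableSpace Ω :=
  ⨆ u ∈ S, MeasurableSpace.comap (W u) inferInstance

theorem sig_mono (W : List ℕ → Ω → ℝ) {S T : Set (List ℕ)} (h : S ⊆ T) : sig W S ≤ sig W T :=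
  biSup_mono h

theorem meas_W (W : List ℕ → Ω → ℝ) {S : Set (List ℕ)} {u : List ℕ} (hu : u ∈ S) :
    Measurable[sig W S] (W u) := by
  have h1 : MeasurableSpace.comap (W u) inferInstance ≤ sig W S :=
    le_biSup (fun u => MeasurableSpace.comap (W u) (inferInstance : MeasurableSpace ℝ)) hu
  exact (comap_measurable (W u)).mono h1 le_rfl

theorem meas_path [MeasurableSpace Ω] (W : List ℕ → Ω → ℝ) (v : List ℕ) :
    Measurable[sig W {u | u.length ≤ v.length}] (pathProduct W v) := by
  induction v with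
  | nil => exact measurable_const
  | cons a v ih =>
    have h1 : Measurable[sig W {u | u.length ≤ (a :: v).length}] (pathProduct W v) :=
      ih.mono (sig_mono W (by intro u hu; simp only [Set.mem_ofPred_eq, List.length_cons] at *; omega)) le_rfl
    have h2 : Measurable[sig W {u | u.length ≤ (a :: v).length}] (W (a :: v)) :=
      meas_W W (by simp)
    exact h1.mul h2

variable [MeasurableSpace Ω]

theorem indep_of_sig {W : List ℕ → Ω → ℝ} {μ : Measure Ω}
    (hm : ∀ v, Measurable (W v)) (hi : iIndepFun W μ) {S T : Set (List ℕ)} (hST : Disjoint S T)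
    {f g : Ω → ℝ} (hf : Measurable[sig W S] f) (hg : Measurable[sig W T] g) :
    IndepFun f g μ := by
  rw [IndepFun_iff_Indep]
  have h := indep_iSup_of_disjoint (m := fun u => MeasurableSpace.comap (W u) inferInstance)
    (fun i => (hm i).comap_le) hi.iIndep hST
  exact indep_of_indep_of_le_left (indep_of_indep_of_le_right h hg.comap_le) hf.comap_le

end aux

section main

variable {ν : Measure ℝ} [IsProbabilityMeasure ν] {Ω : Type} [MeasurableSpace Ω] {μ : Measure Ω}
  [IsProbabilityMeasure μ] {W : List ℕ → Ω → ℝ}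

/-- integrals of functions of one multiplier. -/
theorem integral_W (hW : IsRealization ν μ W) {v : List ℕ} (hv : v ≠ []) {f : ℝ → ℝ}
    (hf : Measurable f) : ∫ ω, f (W v ω) ∂μ = ∫ x, f x ∂ν := by
  rw [← hW.2.2 v hv, integral_map (hW.1 v).aemeasurable hf.aestronglyMeasurable]

theorem integrable_W (hW : IsRealization ν μ W) {v : List ℕ} (hv : v ≠ []) {f : ℝ → ℝ}
    (hf : Measurable f) (hi : Integrable f ν) : Integrable (fun ω => f (W v ω)) μ := by
  rw [← hW.2.2 v hv] at hi
  exact (integrable_map_measure hf.aestronglyMeasurable (hW.1 v).aemeasurable).1 hi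

theorem integrable_id (hm2 : Integrable (fun x : ℝ => x ^ 2) ν) : Integrable (fun x : ℝ => x) ν := by
  refine Integrable.mono' (hm2.add (integrable_const (1:ℝ))) measurable_id.aestronglyMeasurable ?_
  refine Filter.Eventually.of_forall fun x => ?_
  simp only [Real.norm_eq_abs, Pi.add_apply]
  nlinarith [sq_abs x, sq_nonneg (|x| - 1), abs_nonneg x]

theorem pos_W (hpos : ν (Set.Ioi 0) = 1) (hW : IsRealization ν μ W) {v : List ℕ} (hv : v ≠ []) :
    ∀ᵐ ω ∂μ, 0 < W v ω := by
  have h1 : ∀ᵐ x ∂ν, x ∈ Set.Ioi (0:ℝ) := by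
    rw [ae_iff]
    have : ν (Set.Ioi 0)ᶜ = 0 := by
      rw [prob_compl_eq_zero_iff measurableSet_Ioi]; exact hpos
    exact this
  rw [← hW.2.2 v hv] at h1
  exact ae_of_ae_map (hW.1 v).aemeasurable h1

theorem sig_le (hW : IsRealization ν μ W) (S : Set (List ℕ)) : sig W S ≤ ‹MeasurableSpace Ω› :=
  iSup₂_le fun u _ => (hW.1 u).comap_le

theorem meas_path' (hW : IsRealization ν μ W) (v : List ℕ) : Measurable (pathProduct W v) :=
  (meas_path W v).mono (sig_le hW _) le_rfl

theorem disj_len (n : ℕ) (T : Set (List ℕ)) (hT : ∀ u ∈ T, n < u.length) :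
    Disjoint {u : List ℕ | u.length ≤ n} T := by
  rw [Set.disjoint_left]
  intro u hu hu'
  have := hT u hu'
  simp only [Set.mem_ofPred_eq] at hu
  omega

/-- a function of the path product is independent of functions of deeper multipliers. -/
theorem indep_path (hW : IsRealization ν μ W) (v : List ℕ) (T : Set (List ℕ))
    (hT : ∀ u ∈ T, v.length < u.length) {f : ℝ → ℝ} (hf : Measurable f) {g : Ω → ℝ}
    (hg : Measurable[sig W T] g) : IndepFun (fun ω => f (pathProduct W v ω)) g μ :=
  indep_of_sig hW.1 hW.2.1 (disj_len _ T hT) (hf.comp (meas_path W v)) hg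

theorem path_sq (hm2 : Integrable (fun x : ℝ => x ^ 2) ν) (hW : IsRealization ν μ W) (v : List ℕ) :
    Integrable (fun ω => pathProduct W v ω ^ 2) μ := by
  induction v with
  | nil => simp [pathProduct]
  | cons a v ih =>
    have hi : IndepFun (fun ω => pathProduct W v ω ^ 2) (fun ω => W (a :: v) ω ^ 2) μ :=
      indep_path hW v {a :: v} (by simp) (measurable_id.pow_const 2)
        ((meas_W W (Set.mem_singleton _)).pow_const 2)
    have := hi.integrable_mul ih (integrable_W hW (by simp) (measurable_id.pow_const 2) hm2)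
    refine this.congr (Filter.Eventually.of_forall fun ω => ?_)
    simp only [Pi.mul_apply, pathProduct, id_eq]
    ring

theorem integrable_of_sq {f : Ω → ℝ} (hf : AEStronglyMeasurable f μ)
    (h : Integrable (fun ω => f ω ^ 2) μ) : Integrable f μ := by
  refine Integrable.mono' (h.add (integrable_const (1:ℝ))) hf ?_
  refine Filter.Eventually.of_forall fun x => ?_
  simp only [Real.norm_eq_abs, Pi.add_apply]
  nlinarith [sq_abs (f x), sq_nonneg (|f x| - 1), abs_nonneg (f x)]

theorem path_int (hm2 : Integrable (fun x : ℝ => x ^ 2) ν) (hW : IsRealization ν μ W) (v : List ℕ) :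
    Integrable (pathProduct W v) μ :=
  integrable_of_sq (meas_path' hW v).aestronglyMeasurable (path_sq hm2 hW v)

theorem path_pos (hpos : ν (Set.Ioi 0) = 1) (hW : IsRealization ν μ W) (v : List ℕ) :
    ∀ᵐ ω ∂μ, 0 < pathProduct W v ω := by
  induction v with
  | nil => simp [pathProduct]
  | cons a v ih =>
    filter_upwards [ih, pos_W hpos hW (v := a :: v) (by simp)] with ω h1 h2
    exact mul_pos h1 h2

theorem path_mean (hmean : ∫ x, x ∂ν = 1) (hm2 : Integrable (fun x : ℝ => x ^ 2) ν)
    (hW : IsRealization ν μ W) (v : List ℕ) : ∫ ω, pathProduct W v ω ∂μ = 1 := by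
  induction v with
  | nil => simp [pathProduct]
  | cons a v ih =>
    have hi : IndepFun (fun ω => pathProduct W v ω) (fun ω => W (a :: v) ω) μ :=
      indep_path hW v {a :: v} (by simp) measurable_id (meas_W W (Set.mem_singleton _))
    have h1 := hi.integral_fun_mul_eq_mul_integral (meas_path' hW v).aestronglyMeasurable
      (hW.1 (a :: v)).aestronglyMeasurable
    have h2 := integral_W hW (v := a :: v) (by simp) measurable_id
    simp only [id_eq] at h2
    calc ∫ ω, pathProduct W (a :: v) ω ∂μ = ∫ ω, pathProduct W v ω * W (a :: v) ω ∂μ := rfl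
      _ = 1 := by rw [h1, ih, h2, hmean, one_mul]

/-- the increment. -/
noncomputable def D (W : List ℕ → Ω → ℝ) (v : List ℕ) (n : ℕ) : Ω → ℝ :=
  fun ω => pathProduct W v ω * (W (n :: v) ω - 1)

theorem D_abs (hpos : ν (Set.Ioi 0) = 1) (hmean : ∫ x, x ∂ν = 1)
    (hm2 : Integrable (fun x : ℝ => x ^ 2) ν)
    (hW : IsRealization ν μ W) (v : List ℕ) (n : ℕ) :
    ∫ ω, |D W v n ω| ∂μ = ∫ x, |x - 1| ∂ν := by
  have hm : Measurable[sig W {n :: v}] (fun ω => |W (n :: v) ω - 1|) := by
    exact ((continuous_abs.measurable).comp (measurable_id.sub_const 1)).comp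
      (meas_W W (Set.mem_singleton _))
  have hi : IndepFun (fun ω => pathProduct W v ω) (fun ω => |W (n :: v) ω - 1|) μ :=
    indep_path hW v {n :: v} (by simp) measurable_id hm
  have h1 := hi.integral_fun_mul_eq_mul_integral (meas_path' hW v).aestronglyMeasurable
      (hm.mono (sig_le hW _) le_rfl).aestronglyMeasurable
  have h2 := integral_W hW (v := n :: v) (by simp) (f := fun x => |x - 1|)
    ((continuous_abs.measurable).comp (measurable_id.sub_const 1))
  rw [path_mean hmean hm2 hW v, one_mul, h2] at h1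
  rw [← h1]
  apply integral_congr_ae
  filter_upwards [path_pos hpos hW v] with ω hω
  simp only [D]
  rw [abs_mul, abs_of_pos hω]

theorem D_sq (hm2 : Integrable (fun x : ℝ => x ^ 2) ν)
    (hW : IsRealization ν μ W) (v : List ℕ) (n : ℕ) :
    Integrable (fun ω => D W v n ω ^ 2) μ ∧
      ∫ ω, D W v n ω ^ 2 ∂μ = (∫ ω, pathProduct W v ω ^ 2 ∂μ) * ∫ x, (x - 1) ^ 2 ∂ν := by
  have hm : Measurable[sig W {n :: v}] (fun ω => (W (n :: v) ω - 1) ^ 2) :=
    ((meas_W W (Set.mem_singleton _)).sub_const 1).pow_const 2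
  have hi : IndepFun (fun ω => pathProduct W v ω ^ 2) (fun ω => (W (n :: v) ω - 1) ^ 2) μ :=
    indep_path hW v {n :: v} (by simp) (measurable_id.pow_const 2) hm
  have hint : Integrable (fun x : ℝ => (x - 1) ^ 2) ν := by
    have : (fun x : ℝ => (x - 1) ^ 2) = fun x => x ^ 2 - 2 * x + 1 := by ext x; ring
    rw [this]
    exact (hm2.sub ((integrable_id hm2).const_mul 2)).add (integrable_const _)
  constructor
  · have := hi.integrable_mul (path_sq hm2 hW v)
      (integrable_W hW (v := n :: v) (by simp) ((measurable_id.sub_const 1).pow_const 2) hint)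
    refine this.congr (Filter.Eventually.of_forall fun ω => ?_)
    simp only [Pi.mul_apply, D, id_eq]
    ring
  · have h1 := hi.integral_fun_mul_eq_mul_integral
      ((meas_path' hW v).pow_const 2).aestronglyMeasurable
      (hm.mono (sig_le hW _) le_rfl).aestronglyMeasurable
    have h2 := integral_W hW (v := n :: v) (by simp) (f := fun x => (x - 1) ^ 2)
      ((measurable_id.sub_const 1).pow_const 2)
    rw [← h2, ← h1]
    apply integral_congr_ae
    refine Filter.Eventually.of_forall fun ω => ?_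
    simp only [D]
    ring

theorem D_orth (hmean : ∫ x, x ∂ν = 1) (hm2 : Integrable (fun x : ℝ => x ^ 2) ν)
    (hW : IsRealization ν μ W) (v : List ℕ) {n m : ℕ} (hnm : n ≠ m) :
    ∫ ω, D W v n ω * D W v m ω ∂μ = 0 := by
  have hmn : Measurable[sig W {n :: v}] (fun ω => W (n :: v) ω - 1) :=
    (meas_W W (Set.mem_singleton _)).sub_const 1
  have hmm : Measurable[sig W {m :: v}] (fun ω => W (m :: v) ω - 1) :=
    (meas_W W (Set.mem_singleton _)).sub_const 1
  have hprod : Measurable[sig W ({u | u.length ≤ v.length} ∪ {n :: v})]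
      (fun ω => pathProduct W v ω ^ 2 * (W (n :: v) ω - 1)) :=
    (((meas_path W v).mono (sig_mono W Set.subset_union_left) le_rfl).pow_const 2).mul
      (hmn.mono (sig_mono W Set.subset_union_right) le_rfl)
  have hdisj : Disjoint ({u : List ℕ | u.length ≤ v.length} ∪ {n :: v}) {m :: v} := by
    rw [Set.disjoint_left]
    intro u hu hu'
    rw [Set.mem_singleton_iff] at hu'
    subst hu'
    rcases hu with hu | hu
    · simp at hu
    · simp at hu
      exact hnm hu.symm
  have hi := indep_of_sig hW.1 hW.2.1 hdisj hprod hmm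
  have h1 := hi.integral_fun_mul_eq_mul_integral
    (hprod.mono (sig_le hW _) le_rfl).aestronglyMeasurable
    (hmm.mono (sig_le hW _) le_rfl).aestronglyMeasurable
  have h2 : ∫ ω, (W (m :: v) ω - 1) ∂μ = 0 := by
    have h2 := integral_W hW (v := m :: v) (by simp) (f := fun x => x - 1)
      (measurable_id.sub_const 1)
    rw [h2, integral_sub (integrable_id hm2) (integrable_const _), hmean]
    simp
  rw [h2, mul_zero] at h1
  rw [← h1]
  apply integral_congr_ae
  refine Filter.Eventually.of_forall fun ω => ?_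
  simp only [D]
  ring

theorem D_meas (hW : IsRealization ν μ W) (v : List ℕ) (n : ℕ) : Measurable (D W v n) :=
  (meas_path' hW v).mul ((hW.1 _).sub_const 1)

theorem D_int (hm2 : Integrable (fun x : ℝ => x ^ 2) ν)
    (hW : IsRealization ν μ W) (v : List ℕ) (n : ℕ) : Integrable (D W v n) μ :=
  integrable_of_sq (D_meas hW v n).aestronglyMeasurable (D_sq hm2 hW v n).1

theorem D_mul_int (hm2 : Integrable (fun x : ℝ => x ^ 2) ν)
    (hW : IsRealization ν μ W) (v : List ℕ) (n m : ℕ) :
    Integrable (fun ω => D W v n ω * D W v m ω) μ := by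
  refine Integrable.mono' ((D_sq hm2 hW v n).1.add (D_sq hm2 hW v m).1)
    ((D_meas hW v n).mul (D_meas hW v m)).aestronglyMeasurable ?_
  refine Filter.Eventually.of_forall fun x => ?_
  simp only [Real.norm_eq_abs, Pi.add_apply]
  rw [abs_mul]
  nlinarith [sq_abs (D W v n x), sq_abs (D W v m x), sq_nonneg (|D W v n x| - |D W v m x|),
    sq_nonneg (|D W v n x| + |D W v m x|)]

theorem sum_sq_eq (hmean : ∫ x, x ∂ν = 1) (hm2 : Integrable (fun x : ℝ => x ^ 2) ν)
    (hW : IsRealization ν μ W) (v : List ℕ) (A : Finset ℕ) (a : ℕ → ℝ) :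
    Integrable (fun ω => (∑ n ∈ A, a n * D W v n ω) ^ 2) μ ∧
    ∫ ω, (∑ n ∈ A, a n * D W v n ω) ^ 2 ∂μ =
      ((∫ ω, pathProduct W v ω ^ 2 ∂μ) * ∫ x, (x - 1) ^ 2 ∂ν) * ∑ n ∈ A, a n ^ 2 := by
  have hexp : (fun ω => (∑ n ∈ A, a n * D W v n ω) ^ 2) =
      fun ω => ∑ n ∈ A, ∑ m ∈ A, (a n * a m) * (D W v n ω * D W v m ω) := by
    ext ω
    rw [sq, Finset.sum_mul_sum]
    refine Finset.sum_congr rfl fun n _ => Finset.sum_congr rfl fun m _ => ?_
    ring
  have hI : ∀ n ∈ A, ∀ m ∈ A, Integrable (fun ω => (a n * a m) * (D W v n ω * D W v m ω)) μ :=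
    fun n _ m _ => (D_mul_int hm2 hW v n m).const_mul _
  rw [hexp]
  constructor
  · exact integrable_finsetSum _ fun n hn => integrable_finsetSum _ fun m hm => hI n hn m hm
  · rw [integral_finsetSum _ fun n hn => integrable_finsetSum _ fun m hm => hI n hn m hm]
    rw [Finset.mul_sum]
    refine Finset.sum_congr rfl fun n hn => ?_
    rw [integral_finsetSum _ fun m hm => hI n hn m hm]
    rw [Finset.sum_eq_single n]
    · rw [integral_const_mul]
      have := (D_sq hm2 hW v n).2
      have e : ∫ ω, D W v n ω * D W v n ω ∂μ = ∫ ω, D W v n ω ^ 2 ∂μ := by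
        congr 1; ext ω; ring
      rw [e, this]
      ring
    · intro m _ hmn
      rw [integral_const_mul, D_orth hmean hm2 hW v (Ne.symm hmn), mul_zero]
    · intro h
      exact absurd hn h

theorem l1_le_l2 {f : Ω → ℝ} (hf : AEStronglyMeasurable f μ)
    (h : Integrable (fun ω => f ω ^ 2) μ) : ∫ ω, |f ω| ∂μ ≤ Real.sqrt (∫ ω, f ω ^ 2 ∂μ) := by
  apply Real.le_sqrt_of_sq_le
  have hi := (integrable_of_sq hf h).abs
  set c := ∫ ω, |f ω| ∂μ with hc
  have h1 : 0 ≤ ∫ ω, (|f ω| - c) ^ 2 ∂μ := integral_nonneg fun ω => sq_nonneg _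
  have h2 : ∫ ω, (|f ω| - c) ^ 2 ∂μ = ∫ ω, f ω ^ 2 ∂μ - 2 * c * c + c ^ 2 := by
    have e : (fun ω => (|f ω| - c) ^ 2) = fun ω => (f ω ^ 2 - 2 * c * |f ω|) + c ^ 2 := by
      ext ω
      rw [← sq_abs (f ω)]
      ring
    have hs : Integrable (fun ω => f ω ^ 2 - 2 * c * |f ω|) μ := h.sub (hi.const_mul _)
    have e1 : ∫ ω, ((f ω ^ 2 - 2 * c * |f ω|) + c ^ 2) ∂μ =
        ∫ ω, (f ω ^ 2 - 2 * c * |f ω|) ∂μ + ∫ _ω, c ^ 2 ∂μ :=
      integral_add hs (integrable_const _)
    have e2 : ∫ ω, (f ω ^ 2 - 2 * c * |f ω|) ∂μ = ∫ ω, f ω ^ 2 ∂μ - ∫ ω, 2 * c * |f ω| ∂μ :=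
      integral_sub h (hi.const_mul _)
    rw [e, e1, e2, integral_const_mul, ← hc]
    simp
  nlinarith

/-- the class of the path product in the span. -/
noncomputable def pv (hm2 : Integrable (fun x : ℝ => x ^ 2) ν)
    (hW : IsRealization ν μ W) (v : List ℕ) : productSpan μ W :=
  ⟨(path_int hm2 hW v).toL1 _, Submodule.le_topologicalClosure _
    (Submodule.subset_span ⟨v, (path_int hm2 hW v).coeFn_toL1⟩)⟩

/-- increments. -/
noncomputable def zv (hm2 : Integrable (fun x : ℝ => x ^ 2) ν)
    (hW : IsRealization ν μ W) : List ℕ → productSpan μ W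
  | [] => pv hm2 hW []
  | n :: v => pv hm2 hW (n :: v) - pv hm2 hW v

theorem branch_zv (hm2 : Integrable (fun x : ℝ => x ^ 2) ν)
    (hW : IsRealization ν μ W) (s : List ℕ) : branchSum (zv hm2 hW) s = pv hm2 hW s := by
  induction s with
  | nil => rfl
  | cons a v ih =>
    simp only [branchSum, ih, zv]
    abel

theorem norm_pv (hpos : ν (Set.Ioi 0) = 1) (hmean : ∫ x, x ∂ν = 1)
    (hm2 : Integrable (fun x : ℝ => x ^ 2) ν)
    (hW : IsRealization ν μ W) (s : List ℕ) : ‖pv hm2 hW s‖ = 1 := by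
  have h1 : ‖pv hm2 hW s‖ = ‖(path_int hm2 hW s).toL1 _‖ := rfl
  rw [h1, L1.norm_of_fun_eq_integral_norm, ← path_mean hmean hm2 hW s]
  apply integral_congr_ae
  filter_upwards [path_pos hpos hW s] with ω hω
  rw [Real.norm_eq_abs, abs_of_pos hω]

theorem coe_zv (hm2 : Integrable (fun x : ℝ => x ^ 2) ν)
    (hW : IsRealization ν μ W) (v : List ℕ) (n : ℕ) :
    ((zv hm2 hW (n :: v) : productSpan μ W) : Lp ℝ 1 μ) = (D_int hm2 hW v n).toL1 _ := by
  have h1 : ((zv hm2 hW (n :: v) : productSpan μ W) : Lp ℝ 1 μ) =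
      (path_int hm2 hW (n :: v)).toL1 _ - (path_int hm2 hW v).toL1 _ := rfl
  rw [h1, ← Integrable.toL1_sub, Integrable.toL1_eq_toL1_iff]
  refine Filter.Eventually.of_forall fun ω => ?_
  simp only [Pi.sub_apply, D, pathProduct]
  ring

theorem norm_zv (hpos : ν (Set.Ioi 0) = 1) (hmean : ∫ x, x ∂ν = 1)
    (hm2 : Integrable (fun x : ℝ => x ^ 2) ν)
    (hW : IsRealization ν μ W) (v : List ℕ) (n : ℕ) :
    ‖zv hm2 hW (n :: v)‖ = ∫ x, |x - 1| ∂ν := by
  have h1 : ‖zv hm2 hW (n :: v)‖ = ‖((zv hm2 hW (n :: v) : productSpan μ W) : Lp ℝ 1 μ)‖ := rfl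
  rw [h1, coe_zv, L1.norm_of_fun_eq_integral_norm, ← D_abs hpos hmean hm2 hW v n]
  rfl

theorem sum_zv (hmean : ∫ x, x ∂ν = 1)
    (hm2 : Integrable (fun x : ℝ => x ^ 2) ν)
    (hW : IsRealization ν μ W) (v : List ℕ) (A : Finset ℕ) (a : ℕ → ℝ) :
    ‖∑ n ∈ A, a n • zv hm2 hW (n :: v)‖ ≤
      Real.sqrt ((∫ ω, pathProduct W v ω ^ 2 ∂μ) * ∫ x, (x - 1) ^ 2 ∂ν) *
        Real.sqrt (∑ n ∈ A, a n ^ 2) := by
  have hint : Integrable (fun ω => ∑ n ∈ A, a n * D W v n ω) μ :=
    integrable_finsetSum _ fun n _ => (D_int hm2 hW v n).const_mul _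
  have h1 : ((∑ n ∈ A, a n • zv hm2 hW (n :: v) : productSpan μ W) : Lp ℝ 1 μ) =
      hint.toL1 _ := by
    rw [AddSubmonoidClass.coe_finsetSum]
    have h2 : ∀ B : Finset ℕ, ∑ n ∈ B, ((a n • zv hm2 hW (n :: v) : productSpan μ W) : Lp ℝ 1 μ) =
        (integrable_finsetSum B (f := fun n ω => a n * D W v n ω)
          fun n _ => (D_int hm2 hW v n).const_mul _).toL1 _ := by
      intro B
      induction B using Finset.induction_on with
      | empty =>
        simp only [Finset.sum_empty]
        symm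
        exact (Integrable.toL1_eq_toL1_iff _ _ _ (integrable_zero _ _ _)).2 (by rfl)
      | insert b B hb ih =>
        rw [Finset.sum_insert hb, ih, Submodule.coe_smul, coe_zv, ← Integrable.toL1_smul,
          ← Integrable.toL1_add, Integrable.toL1_eq_toL1_iff]
        refine Filter.Eventually.of_forall fun ω => ?_
        simp only [Pi.add_apply, Pi.smul_apply, smul_eq_mul, Finset.sum_insert hb]
    exact h2 A
  have h2 : ‖∑ n ∈ A, a n • zv hm2 hW (n :: v)‖ = ∫ ω, |∑ n ∈ A, a n * D W v n ω| ∂μ := by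
    have h3 : ‖∑ n ∈ A, a n • zv hm2 hW (n :: v)‖ =
      ‖((∑ n ∈ A, a n • zv hm2 hW (n :: v) : productSpan μ W) : Lp ℝ 1 μ)‖ := rfl
    rw [h3, h1, L1.norm_of_fun_eq_integral_norm]
    rfl
  obtain ⟨hs1, hs2⟩ := sum_sq_eq hmean hm2 hW v A a
  rw [h2, ← Real.sqrt_mul (mul_nonneg (integral_nonneg fun _ => sq_nonneg _)
    (integral_nonneg fun _ => sq_nonneg _)), ← hs2]
  exact l1_le_l2 hint.aestronglyMeasurable hs1

end main

theorem delta_pos (ν : Measure ℝ) [IsProbabilityMeasure ν]
    (hnc : ∀ c : ℝ, ν ≠ Measure.dirac c)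
    (hm2 : Integrable (fun x : ℝ => x ^ 2) ν) : 0 < ∫ x, |x - 1| ∂ν := by
  rw [lt_iff_le_and_ne]
  refine ⟨integral_nonneg fun _ => abs_nonneg _, fun h0 => ?_⟩
  have hint : Integrable (fun x : ℝ => |x - 1|) ν :=
    ((integrable_id hm2).sub (integrable_const 1)).abs
  have h1 := (integral_eq_zero_iff_of_nonneg (fun x => abs_nonneg (x - 1)) hint).1 h0.symm
  have h2 : ∀ᵐ x ∂ν, x = 1 := by
    filter_upwards [h1] with x hx
    have : |x - 1| = 0 := hx
    have := abs_eq_zero.1 this
    linarith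
  apply hnc 1
  have h3 : ν {1}ᶜ = 0 := by
    rw [ae_iff] at h2
    exact h2
  ext s hs
  rw [Measure.dirac_apply' _ hs]
  by_cases h1s : (1:ℝ) ∈ s
  · rw [Set.indicator_of_mem h1s]
    have : ν sᶜ = 0 := measure_mono_null (by intro x hx; simp only [Set.mem_compl_iff, Set.mem_singleton_iff] at *; rintro rfl; exact hx h1s) h3
    simpa [prob_compl_eq_zero_iff hs] using this
  · rw [Set.indicator_of_notMem h1s]
    exact measure_mono_null (by intro x hx; simp only [Set.mem_compl_iff, Set.mem_singleton_iff] at *; rintro rfl; exact h1s hx) h3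

/-- Let ν be a Borel probability law on ℝ carried by (0,∞), not a point mass, with mean 1 and finite second moment, and W an independent family of real random variables on a probability space indexed by the vertices of the countably branching tree (finite lists of naturals; root [], parent of a :: v is v), each non-root one with law ν. Then the closed linear span in L¹ of the path products ∏_{root ≺ u ≼ v} W_u is infinite-dimensional and has no equivalent asymptotically uniformly convex norm. -/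
theorem result (ν : Measure ℝ) [IsProbabilityMeasure ν] (hpos : ν (Set.Ioi 0) = 1)
    (hnc : ∀ c : ℝ, ν ≠ Measure.dirac c) (hmean : ∫ x, x ∂ν = 1)
    (hm2 : Integrable (fun x : ℝ => x ^ 2) ν)
    (Ω : Type) [MeasurableSpace Ω] (μ : Measure Ω) [IsProbabilityMeasure μ]
    (W : List ℕ → Ω → ℝ) (hW : Crest.AnalysisR.TreeProduct.IsRealization ν μ W) :
    ¬ FiniteDimensional ℝ (Crest.AnalysisR.TreeProduct.productSpan μ W) ∧
      ∀ N : (Crest.AnalysisR.TreeProduct.spanBanach μ W).X → ℝ,
        (Crest.AnalysisR.TreeProduct.spanBanach μ W).IsEquivNorm N →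
          ¬ (Crest.AnalysisR.TreeProduct.spanBanach μ W).IsAUC N := by
  have hδ := delta_pos ν hnc hm2
  have hesc : ∀ s : List ℕ, Escapes fun n => zv hm2 hW (n :: s) := fun s =>
    escape_of_upper_l2 _ _ (sum_zv hmean hm2 hW s)
  constructor
  · exact not_finiteDimensional_of_escapes _ (hesc []) _ hδ
      (fun n => (norm_zv hpos hmean hm2 hW [] n).ge)
  · have hc : CompleteSpace (productSpan μ W) :=
      (Submodule.isClosed_topologicalClosure _).completeSpace_coe
    have key := not_auc_of_trees (X := productSpan μ W) (min (∫ x, |x - 1| ∂ν) 1) 1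
      (lt_min hδ one_pos) ?_
    · exact key
    · intro m
      refine ⟨zv hm2 hW, ?_, ?_, ?_, ?_⟩
      · have : ‖zv hm2 hW []‖ = 1 := norm_pv hpos hmean hm2 hW []
        rw [this]
        exact min_le_right _ _
      · intro s n _
        rw [norm_zv hpos hmean hm2 hW s n]
        exact min_le_left _ _
      · intro s _
        rw [branch_zv, norm_pv hpos hmean hm2 hW s]
      · intro s _
        exact hesc s

end Crest.Agent.S0169
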