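import Mathlib

set_option autoImplicit false

open MeasureTheory Set Filter
open scoped ENNReal Topology

namespace Crest.Agent.S0175

/-- Probability integral transform for an atomless probability measure on the line. -/
lemma map_cdf_eq (ν : Measure ℝ) [IsProbabilityMeasure ν] (hν : ∀ t, ν {t} = 0) :
    ν.map (fun x => ν.real (Iic x)) = (volume : Measure ℝ).restrict (Icc 0 1) := by
  set F : ℝ → ℝ := fun x => ν.real (Iic x) with hF
  have hFmono : Monotone F := fun x y hxy => measureReal_mono (Iic_subset_Iic.mpr hxy)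
  have hFmeas : Measurable F := hFmono.measurable
  have hF0 : ∀ x, 0 ≤ F x := fun x => measureReal_nonneg
  have hF1 : ∀ x, F x ≤ 1 := fun x => measureReal_le_one
  have hFeq : F = fun x => (ProbabilityTheory.cdf ν) x := by
    ext x; rw [ProbabilityTheory.cdf_eq_real]
  have hcont : Continuous F := by
    rw [continuous_iff_continuousAt]
    intro x
    have hr : ContinuousWithinAt F (Ici x) x := by
      rw [hFeq]; exact (ProbabilityTheory.cdf ν).right_continuous x
    have hl : ContinuousWithinAt F (Iio x) x := by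
      have h1 : (ProbabilityTheory.cdf ν).measure {x} = 0 := by
        rw [ProbabilityTheory.measure_cdf]; exact hν x
      rw [StieltjesFunction.measure_singleton] at h1
      have h2 : (ProbabilityTheory.cdf ν) x - Function.leftLim (ProbabilityTheory.cdf ν) x ≤ 0 := by
        simpa [ENNReal.ofReal_eq_zero] using h1
      have h3 : Function.leftLim (ProbabilityTheory.cdf ν) x ≤ (ProbabilityTheory.cdf ν) x :=
        (ProbabilityTheory.cdf ν).mono.leftLim_le le_rfl
      have h4 : Function.leftLim (ProbabilityTheory.cdf ν) x = (ProbabilityTheory.cdf ν) x :=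
        le_antisymm h3 (by linarith)
      have h5 := (ProbabilityTheory.cdf ν).mono.tendsto_leftLim x
      rw [h4] at h5
      rw [hFeq]
      exact h5
    exact continuousAt_iff_continuous_left_right.2 ⟨continuousWithinAt_Iio_iff_Iic.1 hl, hr⟩
  have hbot : Tendsto F atBot (𝓝 0) := by
    rw [hFeq]; exact ProbabilityTheory.tendsto_cdf_atBot ν
  have htop : Tendsto F atTop (𝓝 1) := by
    rw [hFeq]; exact ProbabilityTheory.tendsto_cdf_atTop ν
  -- every u in (0,1) is attained
  have hsurj : ∀ u : ℝ, 0 < u → u < 1 → ∃ x, F x = u := by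
    intro u hu0 hu1
    obtain ⟨a, ha⟩ := (hbot.eventually (gt_mem_nhds hu0)).exists
    obtain ⟨b, hb⟩ := (htop.eventually (lt_mem_nhds hu1)).exists
    have := intermediate_value_univ a b hcont ⟨ha.le, hb.le⟩
    exact this
  have hpre : ∀ u : ℝ, 0 ≤ u → u < 1 → ν {x | F x ≤ u} = ENNReal.ofReal u := by
    intro u hu0 hu1
    apply le_antisymm
    · -- upper bound
      apply le_of_forall_gt
      intro w hw
      obtain ⟨v, hv1, hv2⟩ : ∃ v : ℝ, u < v ∧ v < 1 ∧ ENNReal.ofReal v < w := by
        have hcontv : ContinuousAt (fun v : ℝ => ENNReal.ofReal v) u := ENNReal.continuous_ofReal.continuousAt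
        have h1 : ∀ᶠ v in 𝓝 u, ENNReal.ofReal v < w := hcontv.eventually (gt_mem_nhds hw)
        have h2 : ∀ᶠ v in 𝓝 u, v < 1 := gt_mem_nhds hu1
        have h3 : ∀ᶠ v in 𝓝[>] u, u < v := eventually_mem_nhdsWithin
        have h4 := (((h1.and h2).filter_mono nhdsWithin_le_nhds).and h3).exists
        obtain ⟨v, ⟨hv1, hv2⟩, hv3⟩ := h4
        exact ⟨v, hv3, hv2, hv1⟩
      obtain ⟨y, hy⟩ := hsurj v (lt_of_le_of_lt hu0 hv1) hv2.1
      have hsub : {x | F x ≤ u} ⊆ Iic y := by
        intro x hx
        by_contra hcon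
        have : y ≤ x := le_of_lt (not_le.mp hcon)
        have h2 := hFmono this
        have hx' : F x ≤ u := hx
        linarith
      calc ν {x | F x ≤ u} ≤ ν (Iic y) := measure_mono hsub
        _ = ENNReal.ofReal (F y) := by
            simp [hF, measureReal_def, ENNReal.ofReal_toReal (measure_ne_top ν _)]
        _ = ENNReal.ofReal v := by rw [hy]
        _ < w := hv2.2
    · rcases eq_or_lt_of_le hu0 with h0 | h0
      · rw [← h0]; simp
      · obtain ⟨y, hy⟩ := hsurj u h0 hu1
        have hsub : Iic y ⊆ {x | F x ≤ u} := by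
          intro x hx
          have := hFmono (show x ≤ y from hx)
          show F x ≤ u
          linarith
        calc ENNReal.ofReal u = ENNReal.ofReal (F y) := by rw [hy]
          _ = ν (Iic y) := by
            simp [hF, measureReal_def, ENNReal.ofReal_toReal (measure_ne_top ν _)]
          _ ≤ _ := measure_mono hsub
  have : IsProbabilityMeasure (ν.map F) := Measure.isProbabilityMeasure_map hFmeas.aemeasurable
  refine Measure.ext_of_Iic _ _ fun u => ?_
  rw [Measure.map_apply hFmeas measurableSet_Iic, Measure.restrict_apply measurableSet_Iic]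
  rcases lt_or_ge u 0 with h | h
  · have h1 : F ⁻¹' Iic u = ∅ := by
      ext x; simp only [mem_preimage, mem_Iic, mem_empty_iff_false, iff_false, not_le]
      exact lt_of_lt_of_le h (hF0 x)
    have h2 : Iic u ∩ Icc (0:ℝ) 1 = ∅ := by
      ext x; simp only [mem_inter_iff, mem_Iic, mem_Icc, mem_empty_iff_false, iff_false, not_and]
      intro h3 h4; linarith
    rw [h1, h2]; simp
  rcases lt_or_ge u 1 with h' | h'
  · have h2 : Iic u ∩ Icc (0:ℝ) 1 = Icc 0 u := by
      ext x; simp only [mem_inter_iff, mem_Iic, mem_Icc]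
      constructor
      · rintro ⟨h1, h2, h3⟩; exact ⟨h2, h1⟩
      · rintro ⟨h1, h2⟩; exact ⟨h2, h1, by linarith⟩
    rw [h2, Real.volume_Icc, sub_zero]
    exact hpre u h h'
  · have h1 : F ⁻¹' Iic u = univ := by
      ext x; simp only [mem_preimage, mem_Iic, mem_univ, iff_true]
      exact (hF1 x).trans h'
    have h2 : Iic u ∩ Icc (0:ℝ) 1 = Icc 0 1 := by
      ext x; simp only [mem_inter_iff, mem_Iic, mem_Icc]
      constructor
      · rintro ⟨h1, h2, h3⟩; exact ⟨h2, h3⟩
      · rintro ⟨h1, h2⟩; exact ⟨by linarith, h1, h2⟩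
    rw [h1, h2]; simp


open scoped unitInterval in
/-- Any probability measure on a standard Borel space is the image of the uniform law on `[0,1]`
by a map defined on the whole real line. -/
lemma exists_map_uniform {Y : Type*} [Nonempty Y] [MeasurableSpace Y] [StandardBorelSpace Y]
    (μ : Measure Y) [IsProbabilityMeasure μ] :
    ∃ g : ℝ → Y, Measurable g ∧ ((volume : Measure ℝ).restrict (Icc 0 1)).map g = μ := by
  obtain ⟨f, hf, hfm⟩ := MeasureTheory.Measure.exists_measurable_map_eq μ
  have hG : Measurable (fun t : ℝ => f (projIcc 0 1 zero_le_one t)) :=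
    hf.comp (continuous_projIcc.measurable)
  refine ⟨fun t => f (projIcc 0 1 zero_le_one t), hG, ?_⟩
  have h1 : (volume : Measure ℝ).restrict (Icc 0 1) = (volume : Measure I).map Subtype.val := by
    have := (MeasurableEmbedding.subtype_coe (measurableSet_Icc (a := (0:ℝ)) (b := 1))).map_comap
      (volume : Measure ℝ)
    rw [Subtype.range_coe] at this
    exact this.symm
  rw [h1, Measure.map_map hG measurable_subtype_coe]
  have h2 : (fun t : ℝ => f (projIcc 0 1 zero_le_one t)) ∘ (Subtype.val : I → ℝ) = f := by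
    ext x
    simp
  rw [h2, hfm]

/-- Doubling for a probability measure with an atomless real statistic. -/
lemma doubling_prob {X : Type*} [Nonempty X] [MeasurableSpace X] [StandardBorelSpace X]
    (μ : Measure X) [IsProbabilityMeasure μ] (r : X → ℝ) (hr : Measurable r)
    (hat : ∀ t, μ (r ⁻¹' {t}) = 0) :
    ∃ (S : X → X) (L : Set X), Measurable S ∧ MeasurableSet L ∧
      (μ.restrict L).map S = (2⁻¹ : ℝ≥0∞) • μ ∧ (μ.restrict Lᶜ).map S = (2⁻¹ : ℝ≥0∞) • μ := by
  have hp : IsProbabilityMeasure (μ.map r) := Measure.isProbabilityMeasure_map hr.aemeasurable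
  have hat' : ∀ t, (μ.map r) {t} = 0 := by
    intro t
    rw [Measure.map_apply hr (measurableSet_singleton t)]
    exact hat t
  set F : ℝ → ℝ := fun x => (μ.map r).real (Iic x) with hF
  have hFmono : Monotone F := fun x y hxy => measureReal_mono (Iic_subset_Iic.mpr hxy)
  have hFmeas : Measurable F := hFmono.measurable
  have hFmap : (μ.map r).map F = (volume : Measure ℝ).restrict (Icc 0 1) := map_cdf_eq _ hat'
  set R : X → ℝ := fun x => F (r x) with hR
  have hRmeas : Measurable R := hFmeas.comp hr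
  have hRmap : μ.map R = (volume : Measure ℝ).restrict (Icc 0 1) := by
    rw [← hFmap, Measure.map_map hFmeas hr]; rfl
  obtain ⟨g, hg, hgm⟩ := exists_map_uniform μ
  set L : Set X := R ⁻¹' (Iio (1/2)) with hL
  have hLm : MeasurableSet L := hRmeas measurableSet_Iio
  classical
  set S : X → X := fun x => if R x < 1/2 then g (2 * R x) else g (2 * R x - 1) with hS
  have hSm : Measurable S := by
    apply Measurable.ite (hRmeas measurableSet_Iio)
    · exact hg.comp (hRmeas.const_mul 2)
    · exact hg.comp ((hRmeas.const_mul 2).sub_const 1)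
  -- the uniform measure restricted to halves
  have hhalf1 : (((volume : Measure ℝ).restrict (Icc 0 1)).restrict (Iio (1/2))).map (fun t => 2 * t)
      = (2⁻¹ : ℝ≥0∞) • (volume : Measure ℝ).restrict (Icc 0 1) := by
    rw [Measure.restrict_restrict measurableSet_Iio]
    have e1 : Iio (1/2 : ℝ) ∩ Icc 0 1 = (fun t => 2 * t) ⁻¹' (Ico 0 1) := by
      ext x; simp only [mem_inter_iff, mem_Iio, mem_Icc, mem_preimage, mem_Ico]
      constructor
      · rintro ⟨h1, h2, h3⟩; constructor <;> linarith
      · rintro ⟨h1, h2⟩; refine ⟨by linarith, by linarith, by linarith⟩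
    rw [e1, ← Measure.restrict_map (measurable_const_mul 2) measurableSet_Ico,
      Real.map_volume_mul_left (by norm_num), Measure.restrict_smul]
    have e2 : ENNReal.ofReal |(2:ℝ)⁻¹| = 2⁻¹ := by
      rw [abs_of_pos (by norm_num), ENNReal.ofReal_inv_of_pos (by norm_num)]; simp
    rw [e2, Measure.restrict_congr_set Ico_ae_eq_Icc]
  have hhalf2 : (((volume : Measure ℝ).restrict (Icc 0 1)).restrict (Iio (1/2))ᶜ).map
      (fun t => 2 * t - 1) = (2⁻¹ : ℝ≥0∞) • (volume : Measure ℝ).restrict (Icc 0 1) := by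
    rw [Measure.restrict_restrict measurableSet_Iio.compl]
    have e1 : (Iio (1/2 : ℝ))ᶜ ∩ Icc 0 1 = (fun t => 2 * t - 1) ⁻¹' (Icc 0 1) := by
      ext x; simp only [mem_inter_iff, mem_compl_iff, mem_Iio, mem_Icc, mem_preimage, not_lt]
      constructor
      · rintro ⟨h1, h2, h3⟩; constructor <;> linarith
      · rintro ⟨h1, h2⟩; refine ⟨by linarith, by linarith, by linarith⟩
    have hm : Measurable (fun t : ℝ => 2 * t - 1) := (measurable_const_mul 2).sub_const 1
    rw [e1, ← Measure.restrict_map hm measurableSet_Icc]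
    have e3 : (volume : Measure ℝ).map (fun t : ℝ => 2 * t - 1) = (2⁻¹ : ℝ≥0∞) • volume := by
      have : (fun t : ℝ => 2 * t - 1) = (fun t => t + (-1)) ∘ (fun t => 2 * t) := by
        ext t; simp [sub_eq_add_neg]
      rw [this, ← Measure.map_map (measurable_add_const (-1)) (measurable_const_mul 2),
        Real.map_volume_mul_left (by norm_num), Measure.map_smul, map_add_right_eq_self]
      have e2 : ENNReal.ofReal |(2:ℝ)⁻¹| = 2⁻¹ := by
        rw [abs_of_pos (by norm_num), ENNReal.ofReal_inv_of_pos (by norm_num)]; simp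
      rw [e2]
    rw [e3, Measure.restrict_smul]
  refine ⟨S, L, hSm, hLm, ?_, ?_⟩
  · have h1 : (μ.restrict L).map S = (μ.restrict L).map (fun x => g (2 * R x)) := by
      apply Measure.map_congr
      filter_upwards [ae_restrict_mem hLm] with x hx
      have : R x < 1/2 := hx
      simp only [hS, if_pos this]
    have h2 : (fun x => g (2 * R x)) = g ∘ (fun t => 2 * t) ∘ R := rfl
    rw [h1, h2, ← Measure.map_map hg ((measurable_const_mul 2).comp hRmeas),
      ← Measure.map_map (measurable_const_mul 2) hRmeas, hL,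
      ← Measure.restrict_map hRmeas measurableSet_Iio, hRmap, hhalf1, Measure.map_smul, hgm]
  · have h1 : (μ.restrict Lᶜ).map S = (μ.restrict Lᶜ).map (fun x => g (2 * R x - 1)) := by
      apply Measure.map_congr
      filter_upwards [ae_restrict_mem hLm.compl] with x hx
      have : ¬ R x < 1/2 := hx
      simp only [hS, if_neg this]
    have hm : Measurable (fun t : ℝ => 2 * t - 1) := (measurable_const_mul 2).sub_const 1
    have h2 : (fun x => g (2 * R x - 1)) = g ∘ (fun t => 2 * t - 1) ∘ R := rfl
    have h3 : Lᶜ = R ⁻¹' (Iio (1/2))ᶜ := rfl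
    rw [h1, h2, ← Measure.map_map hg (hm.comp hRmeas),
      ← Measure.map_map hm hRmeas, h3,
      ← Measure.restrict_map hRmeas measurableSet_Iio.compl, hRmap, hhalf2, Measure.map_smul, hgm]

/-- Doubling for a finite measure with an atomless real statistic. -/
lemma doubling_finite {X : Type*} [Nonempty X] [MeasurableSpace X] [StandardBorelSpace X]
    (μ : Measure X) [IsFiniteMeasure μ] (r : X → ℝ) (hr : Measurable r)
    (hat : ∀ t, μ (r ⁻¹' {t}) = 0) :
    ∃ (S : X → X) (L : Set X), Measurable S ∧ MeasurableSet L ∧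
      (μ.restrict L).map S = (2⁻¹ : ℝ≥0∞) • μ ∧ (μ.restrict Lᶜ).map S = (2⁻¹ : ℝ≥0∞) • μ := by
  rcases eq_or_ne μ 0 with h0 | h0
  · subst h0
    exact ⟨id, univ, measurable_id, MeasurableSet.univ, by simp, by simp⟩
  · set c : ℝ≥0∞ := μ univ with hc
    have hc0 : c ≠ 0 := by rwa [hc, Ne, Measure.measure_univ_eq_zero]
    have hct : c ≠ ∞ := measure_ne_top μ _
    have hprob : IsProbabilityMeasure (c⁻¹ • μ) := ⟨by
      rw [Measure.smul_apply, smul_eq_mul, ← hc, ENNReal.inv_mul_cancel hc0 hct]⟩
    have hat' : ∀ t, (c⁻¹ • μ) (r ⁻¹' {t}) = 0 := by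
      intro t; rw [Measure.smul_apply, hat t, smul_zero]
    obtain ⟨S, L, hS, hL, h1, h2⟩ := doubling_prob (c⁻¹ • μ) r hr hat'
    have hback : μ = c • (c⁻¹ • μ) := by
      rw [smul_smul, ENNReal.mul_inv_cancel hc0 hct, one_smul]
    refine ⟨S, L, hS, hL, ?_, ?_⟩
    · rw [hback, Measure.restrict_smul, Measure.map_smul, h1, smul_comm]
    · rw [hback, Measure.restrict_smul, Measure.map_smul, h2, smul_comm]


/-- Doubling with small displacement. -/
lemma doubling_small {X : Type*} [Nonempty X] [PseudoMetricSpace X] [SecondCountableTopology X]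
    [MeasurableSpace X] [BorelSpace X] [StandardBorelSpace X]
    (μ : Measure X) [IsFiniteMeasure μ] (r : X → ℝ) (hr : Measurable r)
    (hat : ∀ t, μ (r ⁻¹' {t}) = 0) (ε : ℝ) (hε : 0 < ε) :
    ∃ (S : X → X) (L : Set X), Measurable S ∧ MeasurableSet L ∧
      (μ.restrict L).map S = (2⁻¹ : ℝ≥0∞) • μ ∧ (μ.restrict Lᶜ).map S = (2⁻¹ : ℝ≥0∞) • μ ∧
      ∀ᵐ x ∂μ, dist (S x) x < ε := by
  classical
  -- countable partition into small cells
  set B : ℕ → Set X := fun n => Metric.ball (TopologicalSpace.denseSeq X n) (ε / 2) with hB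
  have hBm : ∀ n, MeasurableSet (B n) := fun n => measurableSet_ball
  have hBu : ⋃ n, B n = univ := by
    ext x
    simp only [mem_iUnion, mem_univ, iff_true]
    obtain ⟨n, hn⟩ := (TopologicalSpace.denseRange_denseSeq X).exists_dist_lt x (half_pos hε)
    exact ⟨n, hn⟩
  set C : ℕ → Set X := disjointed B with hC
  have hCm : ∀ n, MeasurableSet (C n) := fun n => MeasurableSet.disjointed hBm n
  have hCd : Pairwise (Function.onFun Disjoint C) := disjoint_disjointed B
  have hCu : ⋃ n, C n = univ := by rw [hC, iUnion_disjointed, hBu]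
  have hCB : ∀ n, C n ⊆ B n := fun n => disjointed_subset B n
  have hdist : ∀ n x y, x ∈ C n → y ∈ C n → dist x y < ε := by
    intro n x y hx hy
    have h1 : dist x (TopologicalSpace.denseSeq X n) < ε / 2 := hCB n hx
    have h2 : dist y (TopologicalSpace.denseSeq X n) < ε / 2 := hCB n hy
    calc dist x y ≤ dist x (TopologicalSpace.denseSeq X n) + dist y (TopologicalSpace.denseSeq X n) :=
          dist_triangle_right _ _ _
      _ < ε := by linarith
  have hex : ∀ n, ∃ (S : X → X) (L : Set X), Measurable S ∧ MeasurableSet L ∧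
      ((μ.restrict (C n)).restrict L).map S = (2⁻¹ : ℝ≥0∞) • (μ.restrict (C n)) ∧
      ((μ.restrict (C n)).restrict Lᶜ).map S = (2⁻¹ : ℝ≥0∞) • (μ.restrict (C n)) := by
    intro n
    apply doubling_finite (μ.restrict (C n)) r hr
    intro t
    exact le_antisymm ((Measure.restrict_apply_le _ _).trans (hat t).le) (zero_le)
  choose S L hS hL h1 h2 using hex
  -- index of the cell
  have hidx : ∀ x, ∃ n, x ∈ C n := fun x => by
    have : x ∈ ⋃ n, C n := by rw [hCu]; trivial
    simpa using this
  have huniq : ∀ x n m, x ∈ C n → x ∈ C m → n = m := by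
    intro x n m hn hm
    by_contra hne
    exact (Set.disjoint_left.mp (hCd hne)) hn hm
  set T : X → X := fun x => S (Nat.find (hidx x)) x with hT
  have hTm : Measurable T := Measurable.find hS hCm hidx
  have hTeq : ∀ n x, x ∈ C n → T x = S n x := by
    intro n x hx
    have : Nat.find (hidx x) = n := huniq x _ _ (Nat.find_spec (hidx x)) hx
    simp only [hT, this]
  set M : Set X := ⋃ n, (C n ∩ L n) with hM
  have hMm : MeasurableSet M := MeasurableSet.iUnion fun n => (hCm n).inter (hL n)
  have hMn : ∀ n, C n ∩ M = C n ∩ L n := by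
    intro n
    ext x
    simp only [hM, mem_inter_iff, mem_iUnion]
    constructor
    · rintro ⟨hx, m, hm1, hm2⟩
      have := huniq x n m hx hm1
      subst this
      exact ⟨hx, hm2⟩
    · rintro ⟨hx, hx2⟩
      exact ⟨hx, n, hx, hx2⟩
  have hMn' : ∀ n, C n ∩ Mᶜ = C n ∩ (L n)ᶜ := by
    intro n
    ext x
    have := Set.ext_iff.mp (hMn n) x
    simp only [mem_inter_iff, mem_compl_iff] at this ⊢
    tauto
  have hdec : ∀ A : Set X, MeasurableSet A → μ A = ∑' n, μ (C n ∩ A) := by
    intro A hA
    have : A = ⋃ n, (C n ∩ A) := by rw [← iUnion_inter, hCu, univ_inter]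
    conv_lhs => rw [this]
    rw [measure_iUnion]
    · intro i j hij
      exact (hCd hij).mono inter_subset_left inter_subset_left
    · intro n; exact (hCm n).inter hA
  refine ⟨T, M, hTm, hMm, ?_, ?_, ?_⟩
  · ext A hA
    rw [Measure.map_apply hTm hA, Measure.restrict_apply (hTm hA), Measure.smul_apply, smul_eq_mul,
      hdec _ ((hTm hA).inter hMm), hdec A hA, ← ENNReal.tsum_mul_left]
    congr 1
    ext n
    have h3 := DFunLike.congr_fun (h1 n) A
    rw [Measure.map_apply (hS n) hA, Measure.restrict_apply ((hS n) hA),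
      Measure.restrict_apply (((hS n) hA).inter (hL n)), Measure.smul_apply, smul_eq_mul,
      Measure.restrict_apply hA, inter_comm A] at h3
    rw [← h3]
    congr 1
    ext x
    have h4 := Set.ext_iff.mp (hMn n) x
    simp only [mem_inter_iff, mem_preimage] at h4 ⊢
    constructor
    · rintro ⟨hx, hx2, hx3⟩
      rw [hTeq n x hx] at hx2
      exact ⟨⟨hx2, (h4.mp ⟨hx, hx3⟩).2⟩, hx⟩
    · rintro ⟨⟨hx1, hx2⟩, hx⟩
      rw [hTeq n x hx]
      exact ⟨hx, hx1, (h4.mpr ⟨hx, hx2⟩).2⟩
  · ext A hA
    rw [Measure.map_apply hTm hA, Measure.restrict_apply (hTm hA), Measure.smul_apply, smul_eq_mul,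
      hdec _ ((hTm hA).inter hMm.compl), hdec A hA, ← ENNReal.tsum_mul_left]
    congr 1
    ext n
    have h3 := DFunLike.congr_fun (h2 n) A
    rw [Measure.map_apply (hS n) hA, Measure.restrict_apply ((hS n) hA),
      Measure.restrict_apply (((hS n) hA).inter (hL n).compl), Measure.smul_apply, smul_eq_mul,
      Measure.restrict_apply hA, inter_comm A] at h3
    rw [← h3]
    congr 1
    ext x
    have h4 := Set.ext_iff.mp (hMn' n) x
    simp only [mem_inter_iff, mem_preimage] at h4 ⊢
    constructor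
    · rintro ⟨hx, hx2, hx3⟩
      rw [hTeq n x hx] at hx2
      exact ⟨⟨hx2, (h4.mp ⟨hx, hx3⟩).2⟩, hx⟩
    · rintro ⟨⟨hx1, hx2⟩, hx⟩
      rw [hTeq n x hx]
      exact ⟨hx, hx1, (h4.mpr ⟨hx, hx2⟩).2⟩
  · -- closeness
    have key : ∀ n, μ (C n ∩ {x | S n x ∉ C n}) = 0 := by
      intro n
      have e1 := DFunLike.congr_fun (h1 n) (C n)ᶜ
      have e2 := DFunLike.congr_fun (h2 n) (C n)ᶜ
      have hmz : ((2⁻¹ : ℝ≥0∞) • (μ.restrict (C n))) (C n)ᶜ = 0 := by
        rw [Measure.smul_apply, Measure.restrict_apply (hCm n).compl]; simp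
      rw [hmz, Measure.map_apply (hS n) (hCm n).compl, Measure.restrict_apply ((hS n) (hCm n).compl),
        Measure.restrict_apply (((hS n) (hCm n).compl).inter (hL n))] at e1
      rw [hmz, Measure.map_apply (hS n) (hCm n).compl, Measure.restrict_apply ((hS n) (hCm n).compl),
        Measure.restrict_apply (((hS n) (hCm n).compl).inter (hL n).compl)] at e2
      have hsub : C n ∩ {x | S n x ∉ C n} ⊆
          ((S n ⁻¹' (C n)ᶜ ∩ L n) ∩ C n) ∪ ((S n ⁻¹' (C n)ᶜ ∩ (L n)ᶜ) ∩ C n) := by
        intro x hx
        by_cases hxl : x ∈ L n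
        · left; exact ⟨⟨hx.2, hxl⟩, hx.1⟩
        · right; exact ⟨⟨hx.2, hxl⟩, hx.1⟩
      exact measure_mono_null hsub (measure_union_null e1 e2)
    have hall : ∀ᵐ x ∂μ, ∀ n, x ∉ C n ∩ {x | S n x ∉ C n} := by
      rw [ae_all_iff]
      intro n
      exact measure_eq_zero_iff_ae_notMem.mp (key n)
    filter_upwards [hall] with x hx
    obtain ⟨n, hn⟩ := hidx x
    have := hx n
    simp only [mem_inter_iff, mem_ofPred_eq, not_and, not_not] at this
    rw [hTeq n x hn]
    exact hdist n _ _ (this hn) hn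

end Crest.Agent.S0175
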