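import Mathlib
import Crest.Prelude.Def_MultiMarginal
import Crest.Agent.S0175Doubling

set_option autoImplicit false
set_option linter.unusedSectionVars false

open MeasureTheory Set Filter
open scoped ENNReal Topology
open Crest.AnalysisR.OT

namespace Crest.Agent.S0175

section Abstract

variable {E : Type*} [NormedAddCommGroup E]

lemma pairCost_comm (s : ℝ) (x y : E) : pairCost s x y = pairCost s y x := by
  unfold pairCost; rw [norm_sub_rev]

lemma tripleCost_rot (s : ℝ) (x y z : E) : tripleCost s (y, z, x) = tripleCost s (x, y, z) := by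
  simp only [tripleCost]
  rw [pairCost_comm s y x, pairCost_comm s z x]
  ring

lemma tripleCost_swap (s : ℝ) (x y z : E) : tripleCost s (x, z, y) = tripleCost s (x, y, z) := by
  simp only [tripleCost]
  rw [pairCost_comm s z y]
  ring

variable [MeasurableSpace E] [BorelSpace E] [SecondCountableTopology E]

lemma measurable_pairCost (s : ℝ) : Measurable (fun p : E × E => pairCost s p.1 p.2) := by
  unfold pairCost
  exact (ENNReal.measurable_ofReal.comp (measurable_norm.comp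
    (measurable_fst.sub measurable_snd))).pow_const _

lemma measurable_tripleCost (s : ℝ) : Measurable (tripleCost s : E × E × E → ℝ≥0∞) := by
  have h1 : Measurable (fun p : E × E × E => pairCost s p.1 p.2.1) :=
    (measurable_pairCost s).comp (measurable_fst.prodMk (measurable_fst.comp measurable_snd))
  have h2 : Measurable (fun p : E × E × E => pairCost s p.1 p.2.2) :=
    (measurable_pairCost s).comp (measurable_fst.prodMk (measurable_snd.comp measurable_snd))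
  have h3 : Measurable (fun p : E × E × E => pairCost s p.2.1 p.2.2) :=
    (measurable_pairCost s).comp ((measurable_fst.comp measurable_snd).prodMk
      (measurable_snd.comp measurable_snd))
  exact (h1.add h2).add h3

/-- The data of the construction. -/
structure Data (s : ℝ) (E : Type*) [NormedAddCommGroup E] [MeasurableSpace E] where
  ν : Measure E
  fin : IsFiniteMeasure ν
  ne : ν ≠ 0
  A : Set E
  B : Fin 4 → Set E
  h : Fin 4 → E → E
  g : Fin 4 → E → E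
  U : E → ℝ≥0∞
  mA : MeasurableSet A
  mB : ∀ i, MeasurableSet (B i)
  mh : ∀ i, Measurable (h i)
  mg : ∀ i, Measurable (g i)
  mU : Measurable U
  νA : ν Aᶜ = 0
  dAB : ∀ i, Disjoint A (B i)
  dBB : ∀ i j, i ≠ j → Disjoint (B i) (B j)
  hB : ∀ i, ∀ a ∈ A, h i a ∈ B i
  gh : ∀ i, ∀ a ∈ A, g i (h i a) = a
  Ufin : ∃ C : ℝ≥0∞, C ≠ ∞ ∧ ∀ x ∈ A ∪ ⋃ i, B i, U x ≤ C
  ineq : ∀ x ∈ A ∪ ⋃ i, B i, ∀ y ∈ A ∪ ⋃ i, B i, ∀ z ∈ A ∪ ⋃ i, B i,
    U x + U y + U z ≤ tripleCost s (x, y, z)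
  eq₀ : ∀ a ∈ A, tripleCost s (a, h 0 a, h 1 a) = U a + U (h 0 a) + U (h 1 a)
  eq₁ : ∀ a ∈ A, tripleCost s (a, h 2 a, h 3 a) = U a + U (h 2 a) + U (h 3 a)
  rigid : ∀ a ∈ A, ∀ y ∈ A ∪ ⋃ i, B i, ∀ z ∈ A ∪ ⋃ i, B i,
    tripleCost s (a, y, z) = U a + U y + U z → ∃ i, y = h i a
  unif : ∀ ε : ℝ≥0∞, 0 < ε → ∃ δ : ℝ, 0 < δ ∧ ∀ a ∈ A, ∀ a' ∈ A, dist a' a < δ →
    ∀ i, ∀ y ∈ B i, pairCost s a y ≤ pairCost s a' y + ε

namespace Data

variable {s : ℝ} (D : Data s E)

/-- The support set. -/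
def S : Set E := D.A ∪ ⋃ i, D.B i

lemma mS : MeasurableSet D.S := D.mA.union (MeasurableSet.iUnion D.mB)

/-- The marginal. -/
noncomputable def μ : Measure E := D.ν + (2⁻¹ : ℝ≥0∞) • (D.ν.map (D.h 0) + D.ν.map (D.h 1) +
  D.ν.map (D.h 2) + D.ν.map (D.h 3))

lemma aeA : ∀ᵐ a ∂D.ν, a ∈ D.A := by
  rw [ae_iff]; exact D.νA

lemma hS (i : Fin 4) {a : E} (ha : a ∈ D.A) : D.h i a ∈ D.S :=
  Or.inr (mem_iUnion.mpr ⟨i, D.hB i a ha⟩)

lemma νS : D.ν D.Sᶜ = 0 :=
  measure_mono_null (compl_subset_compl.mpr subset_union_left) D.νA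

lemma νhS (i : Fin 4) : D.ν.map (D.h i) D.Sᶜ = 0 := by
  rw [Measure.map_apply (D.mh i) D.mS.compl]
  apply measure_mono_null _ D.νA
  intro a ha hA
  exact ha (D.hS i hA)

lemma μS : D.μ D.Sᶜ = 0 := by
  simp only [μ, Measure.add_apply, Measure.smul_apply, D.νS, D.νhS, add_zero, smul_zero]

lemma μ_aeS : ∀ᵐ x ∂D.μ, x ∈ D.S := by
  rw [ae_iff]; exact D.μS

/-- The optimal plan. -/
noncomputable def π₀ : Measure (E × E × E) := (2⁻¹ : ℝ≥0∞) •
  (D.ν.map (fun a => (a, D.h 0 a, D.h 1 a)) + D.ν.map (fun a => (a, D.h 2 a, D.h 3 a)) +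
   D.ν.map (fun a => (D.h 0 a, D.h 1 a, a)) + D.ν.map (fun a => (D.h 1 a, a, D.h 0 a)) +
   D.ν.map (fun a => (D.h 2 a, D.h 3 a, a)) + D.ν.map (fun a => (D.h 3 a, a, D.h 2 a)))

lemma half_add (m : Measure E) : (2⁻¹ : ℝ≥0∞) • m + (2⁻¹ : ℝ≥0∞) • m = m := by
  rw [← add_smul, ENNReal.inv_two_add_inv_two, one_smul]

lemma μ_eq : D.μ = ((2⁻¹ : ℝ≥0∞) • D.ν + (2⁻¹ : ℝ≥0∞) • D.ν) +
    (2⁻¹ : ℝ≥0∞) • (D.ν.map (D.h 0) + D.ν.map (D.h 1) +
  D.ν.map (D.h 2) + D.ν.map (D.h 3)) := by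
  rw [half_add]; rfl

lemma π₀_coupling : IsCoupling₃ D.μ D.π₀ := by
  have m0 := D.mh 0
  have m1 := D.mh 1
  have m2 := D.mh 2
  have m3 := D.mh 3
  have i1 : Measurable (fun a => (a, D.h 0 a, D.h 1 a)) := by fun_prop
  have i2 : Measurable (fun a => (a, D.h 2 a, D.h 3 a)) := by fun_prop
  have i3 : Measurable (fun a => (D.h 0 a, D.h 1 a, a)) := by fun_prop
  have i4 : Measurable (fun a => (D.h 1 a, a, D.h 0 a)) := by fun_prop
  have i5 : Measurable (fun a => (D.h 2 a, D.h 3 a, a)) := by fun_prop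
  have i6 : Measurable (fun a => (D.h 3 a, a, D.h 2 a)) := by fun_prop
  have hid : D.ν.map (fun a => a) = D.ν := Measure.map_id
  refine ⟨?_, ?_, ?_⟩
  · have p : Measurable (fun p : E × E × E => p.1) := by fun_prop
    rw [π₀, Measure.map_smul, Measure.map_add _ _ p, Measure.map_add _ _ p, Measure.map_add _ _ p,
      Measure.map_add _ _ p, Measure.map_add _ _ p, Measure.map_map p i1, Measure.map_map p i2,
      Measure.map_map p i3, Measure.map_map p i4, Measure.map_map p i5, Measure.map_map p i6]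
    simp only [Function.comp_def, hid]
    rw [μ_eq]
    simp only [smul_add]
    abel
  · have p : Measurable (fun p : E × E × E => p.2.1) := by fun_prop
    rw [π₀, Measure.map_smul, Measure.map_add _ _ p, Measure.map_add _ _ p, Measure.map_add _ _ p,
      Measure.map_add _ _ p, Measure.map_add _ _ p, Measure.map_map p i1, Measure.map_map p i2,
      Measure.map_map p i3, Measure.map_map p i4, Measure.map_map p i5, Measure.map_map p i6]
    simp only [Function.comp_def, hid]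
    rw [μ_eq]
    simp only [smul_add]
    abel
  · have p : Measurable (fun p : E × E × E => p.2.2) := by fun_prop
    rw [π₀, Measure.map_smul, Measure.map_add _ _ p, Measure.map_add _ _ p, Measure.map_add _ _ p,
      Measure.map_add _ _ p, Measure.map_add _ _ p, Measure.map_map p i1, Measure.map_map p i2,
      Measure.map_map p i3, Measure.map_map p i4, Measure.map_map p i5, Measure.map_map p i6]
    simp only [Function.comp_def, hid]
    rw [μ_eq]
    simp only [smul_add]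
    abel

/-- The sum of potentials integrates to the same value against any coupling. -/
lemma lintegral_U_coupling (π : Measure (E × E × E)) (hπ : IsCoupling₃ D.μ π) :
    ∫⁻ p, (D.U p.1 + D.U p.2.1 + D.U p.2.2) ∂π =
      ∫⁻ x, D.U x ∂D.μ + ∫⁻ x, D.U x ∂D.μ + ∫⁻ x, D.U x ∂D.μ := by
  obtain ⟨h1, h2, h3⟩ := hπ
  have mU := D.mU
  rw [lintegral_add_left (by fun_prop), lintegral_add_left (by fun_prop)]
  congr 1
  · congr 1
    · conv_rhs => rw [← h1]
      rw [lintegral_map mU (by fun_prop)]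
    · conv_rhs => rw [← h2]
      rw [lintegral_map mU (by fun_prop)]
  · conv_rhs => rw [← h3]
    rw [lintegral_map mU (by fun_prop)]

lemma coupling_ae (π : Measure (E × E × E)) (hπ : IsCoupling₃ D.μ π) :
    ∀ᵐ p ∂π, p.1 ∈ D.S ∧ p.2.1 ∈ D.S ∧ p.2.2 ∈ D.S := by
  obtain ⟨h1, h2, h3⟩ := hπ
  have a1 : ∀ᵐ p ∂π, p.1 ∈ D.S := by
    have := D.μ_aeS
    rw [← h1] at this
    exact ae_of_ae_map (by fun_prop) this
  have a2 : ∀ᵐ p ∂π, p.2.1 ∈ D.S := by
    have := D.μ_aeS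
    rw [← h2] at this
    exact ae_of_ae_map (by fun_prop) this
  have a3 : ∀ᵐ p ∂π, p.2.2 ∈ D.S := by
    have := D.μ_aeS
    rw [← h3] at this
    exact ae_of_ae_map (by fun_prop) this
  filter_upwards [a1, a2, a3] with p q1 q2 q3
  exact ⟨q1, q2, q3⟩

lemma lower_bound (π : Measure (E × E × E)) (hπ : IsCoupling₃ D.μ π) :
    ∫⁻ x, D.U x ∂D.μ + ∫⁻ x, D.U x ∂D.μ + ∫⁻ x, D.U x ∂D.μ ≤ ∫⁻ p, tripleCost s p ∂π := by
  rw [← D.lintegral_U_coupling π hπ]
  apply lintegral_mono_ae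
  filter_upwards [D.coupling_ae π hπ] with p hp
  exact D.ineq _ hp.1 _ hp.2.1 _ hp.2.2

lemma cost_eq_of_ae {f₁ f₂ f₃ : E → E} (m1 : Measurable f₁) (m2 : Measurable f₂)
    (m3 : Measurable f₃)
    (h : ∀ a ∈ D.A, tripleCost s (f₁ a, f₂ a, f₃ a) = D.U (f₁ a) + D.U (f₂ a) + D.U (f₃ a)) :
    ∀ᵐ p ∂(D.ν.map (fun a => (f₁ a, f₂ a, f₃ a))),
      tripleCost s p = D.U p.1 + D.U p.2.1 + D.U p.2.2 := by
  have mU := D.mU
  have mc := measurable_tripleCost (E := E) s
  rw [ae_map_iff (by fun_prop)]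
  · filter_upwards [D.aeA] with a ha
    exact h a ha
  · exact measurableSet_eq_fun mc (by fun_prop)

lemma π₀_contact : ∀ᵐ p ∂D.π₀, tripleCost s p = D.U p.1 + D.U p.2.1 + D.U p.2.2 := by
  have m0 := D.mh 0
  have m1 := D.mh 1
  have m2 := D.mh 2
  have m3 := D.mh 3
  have j1 := D.cost_eq_of_ae measurable_id m0 m1 D.eq₀
  have j2 := D.cost_eq_of_ae measurable_id m2 m3 D.eq₁
  have j3 := D.cost_eq_of_ae m0 m1 measurable_id (fun a ha => by
    have := D.eq₀ a ha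
    simp only [id]
    rw [tripleCost_rot, this]; ring)
  have j4 := D.cost_eq_of_ae m1 measurable_id m0 (fun a ha => by
    have := D.eq₀ a ha
    simp only [id]
    rw [← tripleCost_rot, this]; ring)
  have j5 := D.cost_eq_of_ae m2 m3 measurable_id (fun a ha => by
    have := D.eq₁ a ha
    simp only [id]
    rw [tripleCost_rot, this]; ring)
  have j6 := D.cost_eq_of_ae m3 measurable_id m2 (fun a ha => by
    have := D.eq₁ a ha
    simp only [id]
    rw [← tripleCost_rot, this]; ring)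
  rw [π₀]
  apply Measure.ae_smul_measure
  simp only [ae_add_measure_iff]
  exact ⟨⟨⟨⟨⟨j1, j2⟩, j3⟩, j4⟩, j5⟩, j6⟩

lemma π₀_cost : ∫⁻ p, tripleCost s p ∂D.π₀ =
    ∫⁻ x, D.U x ∂D.μ + ∫⁻ x, D.U x ∂D.μ + ∫⁻ x, D.U x ∂D.μ := by
  rw [← D.lintegral_U_coupling D.π₀ D.π₀_coupling]
  exact lintegral_congr_ae D.π₀_contact

lemma μ_finite : IsFiniteMeasure D.μ := by
  have := D.fin
  refine ⟨?_⟩
  simp only [μ, Measure.add_apply, Measure.smul_apply, smul_eq_mul]
  have h1 : D.ν univ < ∞ := measure_lt_top _ _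
  have h2 : ∀ i, D.ν.map (D.h i) univ < ∞ := fun i => by
    rw [Measure.map_apply (D.mh i) MeasurableSet.univ]; exact measure_lt_top _ _
  have h3 : (2⁻¹ : ℝ≥0∞) < ∞ := by simp
  exact ENNReal.add_lt_top.mpr ⟨h1, ENNReal.mul_lt_top h3 (ENNReal.add_lt_top.mpr
    ⟨ENNReal.add_lt_top.mpr ⟨ENNReal.add_lt_top.mpr ⟨h2 0, h2 1⟩, h2 2⟩, h2 3⟩)⟩

lemma U_lt_top : ∫⁻ x, D.U x ∂D.μ < ∞ := by
  obtain ⟨C, hC, hU⟩ := D.Ufin
  have := D.μ_finite
  calc ∫⁻ x, D.U x ∂D.μ ≤ ∫⁻ x, C ∂D.μ := by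
        apply lintegral_mono_ae
        filter_upwards [D.μ_aeS] with x hx
        exact hU x hx
    _ = C * D.μ univ := lintegral_const C
    _ < ∞ := ENNReal.mul_lt_top hC.lt_top (measure_lt_top _ _)

lemma π₀_lt_top : ∫⁻ p, tripleCost s p ∂D.π₀ < ∞ := by
  rw [D.π₀_cost]
  have := D.U_lt_top
  exact ENNReal.add_lt_top.mpr ⟨ENNReal.add_lt_top.mpr ⟨this, this⟩, this⟩

lemma π₀_min (π : Measure (E × E × E)) (hπ : IsCoupling₃ D.μ π) :
    ∫⁻ p, tripleCost s p ∂D.π₀ ≤ ∫⁻ p, tripleCost s p ∂π := by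
  rw [D.π₀_cost]
  exact D.lower_bound π hπ

/-- No Monge plan is optimal. -/
lemma monge_strict (T₂ T₃ : E → E) (m2 : Measurable T₂) (m3 : Measurable T₃)
    (h2 : D.μ.map T₂ = D.μ) (h3 : D.μ.map T₃ = D.μ) :
    ∫⁻ p, tripleCost s p ∂D.π₀ < ∫⁻ x, tripleCost s (x, T₂ x, T₃ x) ∂D.μ := by
  have := D.fin
  have mU := D.mU
  have mc := measurable_tripleCost (E := E) s
  by_contra hcon
  push Not at hcon
  rw [D.π₀_cost] at hcon
  have a2 : ∀ᵐ x ∂D.μ, T₂ x ∈ D.S := by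
    have := D.μ_aeS
    rw [← h2] at this
    exact ae_of_ae_map m2.aemeasurable this
  have a3 : ∀ᵐ x ∂D.μ, T₃ x ∈ D.S := by
    have := D.μ_aeS
    rw [← h3] at this
    exact ae_of_ae_map m3.aemeasurable this
  have hle : (fun x => D.U x + D.U (T₂ x) + D.U (T₃ x)) ≤ᵐ[D.μ]
      fun x => tripleCost s (x, T₂ x, T₃ x) := by
    filter_upwards [D.μ_aeS, a2, a3] with x q1 q2 q3
    exact D.ineq _ q1 _ q2 _ q3
  have hint : ∫⁻ x, (D.U x + D.U (T₂ x) + D.U (T₃ x)) ∂D.μ =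
      ∫⁻ x, D.U x ∂D.μ + ∫⁻ x, D.U x ∂D.μ + ∫⁻ x, D.U x ∂D.μ := by
    rw [lintegral_add_left (by fun_prop), lintegral_add_left (by fun_prop)]
    congr 1
    · congr 1
      conv_rhs => rw [← h2]
      rw [lintegral_map mU m2]
    · conv_rhs => rw [← h3]
      rw [lintegral_map mU m3]
  have hfin : ∫⁻ x, (D.U x + D.U (T₂ x) + D.U (T₃ x)) ∂D.μ ≠ ∞ := by
    rw [hint]
    have := D.U_lt_top
    exact (ENNReal.add_lt_top.mpr ⟨ENNReal.add_lt_top.mpr ⟨this, this⟩, this⟩).ne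
  have hae := ae_eq_of_ae_le_of_lintegral_le hle hfin
    (mc.comp (measurable_id.prodMk (m2.prodMk m3))).aemeasurable (by rw [hint]; exact hcon)
  -- restrict to ν
  have hνμ : D.ν ≤ D.μ := by
    rw [μ]; exact Measure.le_add_right le_rfl
  have hν_ae : ∀ᵐ a ∂D.ν, ∃ i, T₂ a = D.h i a := by
    have b1 := ae_mono hνμ hae
    have b2 := ae_mono hνμ a2
    have b3 := ae_mono hνμ a3
    filter_upwards [b1, b2, b3, D.aeA] with a c1 c2 c3 c4
    exact D.rigid a c4 _ c2 _ c3 c1.symm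
  -- each set has measure zero
  have hzero : ∀ i, D.ν (D.A ∩ {a | T₂ a = D.h i a}) = 0 := by
    intro i
    set Ai := D.A ∩ {a | T₂ a = D.h i a} with hAi
    have mAi : MeasurableSet Ai := D.mA.inter (measurableSet_eq_fun m2 (D.mh i))
    set W := D.B i ∩ (D.g i) ⁻¹' Ai with hW
    have mW : MeasurableSet W := (D.mB i).inter ((D.mg i) mAi)
    have w0 : D.ν W = 0 := by
      apply measure_mono_null _ D.νA
      intro x hx hxA
      exact Set.disjoint_left.mp (D.dAB i) hxA hx.1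
    have w1 : ∀ j, j ≠ i → D.ν.map (D.h j) W = 0 := by
      intro j hj
      rw [Measure.map_apply (D.mh j) mW]
      apply measure_mono_null _ D.νA
      intro a ha haA
      exact Set.disjoint_left.mp (D.dBB j i hj) (D.hB j a haA) ha.1
    have w2 : D.ν.map (D.h i) W ≤ D.ν Ai := by
      rw [Measure.map_apply (D.mh i) mW]
      have : D.ν (D.h i ⁻¹' W) ≤ D.ν (Ai ∪ D.Aᶜ) := by
        apply measure_mono
        intro a ha
        by_cases haA : a ∈ D.A
        · left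
          have := ha.2
          rw [mem_preimage, D.gh i a haA] at this
          exact this
        · right; exact haA
      calc _ ≤ D.ν (Ai ∪ D.Aᶜ) := this
        _ ≤ D.ν Ai + D.ν D.Aᶜ := measure_union_le _ _
        _ = D.ν Ai := by rw [D.νA, add_zero]
    have w3 : D.μ W ≤ 2⁻¹ * D.ν Ai := by
      simp only [μ, Measure.add_apply, Measure.smul_apply, smul_eq_mul, w0, zero_add]
      gcongr
      fin_cases i
      · have q1 := w1 1 (by decide)
        have q2 := w1 2 (by decide)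
        have q3 := w1 3 (by decide)
        rw [q1, q2, q3, add_zero, add_zero, add_zero]
        exact w2
      · have q1 := w1 0 (by decide)
        have q2 := w1 2 (by decide)
        have q3 := w1 3 (by decide)
        rw [q1, q2, q3, zero_add, add_zero, add_zero]
        exact w2
      · have q1 := w1 0 (by decide)
        have q2 := w1 1 (by decide)
        have q3 := w1 3 (by decide)
        rw [q1, q2, q3, zero_add, zero_add, add_zero]
        exact w2
      · have q1 := w1 0 (by decide)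
        have q2 := w1 1 (by decide)
        have q3 := w1 2 (by decide)
        rw [q1, q2, q3, zero_add, zero_add, zero_add]
        exact w2
    have w4 : D.ν Ai ≤ D.μ W := by
      calc D.ν Ai ≤ D.ν (T₂ ⁻¹' W) := by
            apply measure_mono
            intro a ha
            have h5 : T₂ a = D.h i a := ha.2
            show T₂ a ∈ W
            rw [h5]
            refine ⟨D.hB i a ha.1, ?_⟩
            rw [mem_preimage, D.gh i a ha.1]
            exact ha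
        _ ≤ D.μ (T₂ ⁻¹' W) := hνμ _
        _ = D.μ.map T₂ W := (Measure.map_apply m2 mW).symm
        _ = D.μ W := by rw [h2]
    have w5 : D.ν Ai ≤ 2⁻¹ * D.ν Ai := w4.trans w3
    by_contra hne
    have hfinA : D.ν Ai ≠ ∞ := measure_ne_top _ _
    have : 2⁻¹ * D.ν Ai < D.ν Ai := by
      conv_rhs => rw [← one_mul (D.ν Ai)]
      apply ENNReal.mul_lt_mul_left hne hfinA
      exact ENNReal.inv_lt_one.mpr (by norm_num)
    exact absurd w5 (not_le.mpr this)
  have hall : ∀ᵐ a ∂D.ν, ∀ i, a ∉ D.A ∩ {a | T₂ a = D.h i a} := by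
    rw [ae_all_iff]
    intro i
    exact measure_eq_zero_iff_ae_notMem.mp (hzero i)
  have hfalse : ∀ᵐ a ∂D.ν, False := by
    filter_upwards [hall, hν_ae, D.aeA] with a q1 q2 q3
    obtain ⟨i, hi⟩ := q2
    exact q1 i ⟨q3, hi⟩
  have : D.ν univ = 0 := by
    rw [ae_iff] at hfalse
    simpa using hfalse
  exact D.ne (Measure.measure_univ_eq_zero.mp this)

/-- Monge plans approximate the optimum. -/
lemma monge_approx [StandardBorelSpace E] (r : E → ℝ) (hr : Measurable r)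
    (hat : ∀ t, D.ν (r ⁻¹' {t}) = 0) (ε : ℝ≥0∞) (hε : 0 < ε) :
    ∃ T₂ T₃ : E → E, Measurable T₂ ∧ Measurable T₃ ∧ D.μ.map T₂ = D.μ ∧ D.μ.map T₃ = D.μ ∧
      ∫⁻ x, tripleCost s (x, T₂ x, T₃ x) ∂D.μ < ∫⁻ p, tripleCost s p ∂D.π₀ + ε := by
  classical
  have hfin := D.fin
  have mU := D.mU
  have mc := measurable_tripleCost (E := E) s
  have m0 := D.mh 0
  have m1 := D.mh 1
  have m2 := D.mh 2
  have m3 := D.mh 3
  have n0 := D.mg 0
  have n1 := D.mg 1
  have n2 := D.mg 2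
  have n3 := D.mg 3
  -- small error
  set M : ℝ≥0∞ := D.ν univ with hM
  have hMt : M ≠ ∞ := measure_ne_top _ _
  obtain ⟨ε', hε'0, hε'⟩ : ∃ ε' : ℝ≥0∞, 0 < ε' ∧ 2 * ε' * M + 2 * ε' * M < ε := by
    have h4 : (4 : ℝ≥0∞) * (M + 1) ≠ ∞ := ENNReal.mul_ne_top (by norm_num) (by simp [hMt])
    have h40 : (4 : ℝ≥0∞) * (M + 1) ≠ 0 := by simp
    set ε₁ := min ε 1 with hε₁
    have hε₁0 : 0 < ε₁ := lt_min hε one_pos
    have hε₁t : ε₁ ≠ ∞ := ne_top_of_le_ne_top ENNReal.one_ne_top (min_le_right _ _)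
    refine ⟨ε₁ / (4 * (M + 1)), ENNReal.div_pos hε₁0.ne' h4, ?_⟩
    have hlt : 4 * M < 4 * (M + 1) := by
      have : M < M + 1 := ENNReal.lt_add_right hMt one_ne_zero
      exact (ENNReal.mul_lt_mul_iff_right (by norm_num) (by norm_num)).mpr this
    calc 2 * (ε₁ / (4 * (M + 1))) * M + 2 * (ε₁ / (4 * (M + 1))) * M
        = (ε₁ / (4 * (M + 1))) * (4 * M) := by ring
      _ < (ε₁ / (4 * (M + 1))) * (4 * (M + 1)) := by
          apply (ENNReal.mul_lt_mul_iff_right _ _).mpr hlt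
          · exact (ENNReal.div_pos hε₁0.ne' h4).ne'
          · exact (ENNReal.div_lt_top hε₁t h40).ne
      _ = ε₁ := ENNReal.div_mul_cancel h40 h4
      _ ≤ ε := min_le_left _ _
  obtain ⟨δ, hδ, hunif⟩ := D.unif ε' hε'0
  obtain ⟨R, L, mR, mL, hR1, hR2, hclose⟩ := doubling_small D.ν r hr hat δ hδ
  -- the maps
  set T₂ : E → E := fun x => if x ∈ D.B 0 then D.h 1 (D.g 0 x) else if x ∈ D.B 1 then D.g 1 x else
    if x ∈ D.B 2 then D.h 3 (D.g 2 x) else if x ∈ D.B 3 then D.g 3 x else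
    if x ∈ L then D.h 0 (R x) else D.h 2 (R x) with hT₂
  set T₃ : E → E := fun x => if x ∈ D.B 0 then D.g 0 x else if x ∈ D.B 1 then D.h 0 (D.g 1 x) else
    if x ∈ D.B 2 then D.g 2 x else if x ∈ D.B 3 then D.h 2 (D.g 3 x) else
    if x ∈ L then D.h 1 (R x) else D.h 3 (R x) with hT₃
  have mT₂ : Measurable T₂ := by
    refine Measurable.ite (D.mB 0) (m1.comp n0) ?_
    refine Measurable.ite (D.mB 1) n1 ?_
    refine Measurable.ite (D.mB 2) (m3.comp n2) ?_
    refine Measurable.ite (D.mB 3) n3 ?_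
    exact Measurable.ite mL (m0.comp mR) (m2.comp mR)
  have mT₃ : Measurable T₃ := by
    refine Measurable.ite (D.mB 0) n0 ?_
    refine Measurable.ite (D.mB 1) (m0.comp n1) ?_
    refine Measurable.ite (D.mB 2) n2 ?_
    refine Measurable.ite (D.mB 3) (m2.comp n3) ?_
    exact Measurable.ite mL (m1.comp mR) (m3.comp mR)
  have nAB : ∀ i, ∀ a ∈ D.A, a ∉ D.B i := fun i a ha hB => Set.disjoint_left.mp (D.dAB i) ha hB
  have nBB : ∀ i j, i ≠ j → ∀ x ∈ D.B i, x ∉ D.B j := fun i j hij x hx hx' =>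
    Set.disjoint_left.mp (D.dBB i j hij) hx hx'
  -- values
  have vAL : ∀ a ∈ D.A, a ∈ L → T₂ a = D.h 0 (R a) ∧ T₃ a = D.h 1 (R a) := by
    intro a ha hL
    simp only [hT₂, hT₃, if_neg (nAB 0 a ha), if_neg (nAB 1 a ha), if_neg (nAB 2 a ha),
      if_neg (nAB 3 a ha), if_pos hL, and_self]
  have vAR : ∀ a ∈ D.A, a ∉ L → T₂ a = D.h 2 (R a) ∧ T₃ a = D.h 3 (R a) := by
    intro a ha hL
    simp only [hT₂, hT₃, if_neg (nAB 0 a ha), if_neg (nAB 1 a ha), if_neg (nAB 2 a ha),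
      if_neg (nAB 3 a ha), if_neg hL, and_self]
  have v0 : ∀ a ∈ D.A, T₂ (D.h 0 a) = D.h 1 a ∧ T₃ (D.h 0 a) = a := by
    intro a ha
    have h := D.hB 0 a ha
    simp only [hT₂, hT₃, if_pos h, D.gh 0 a ha, and_self]
  have v1 : ∀ a ∈ D.A, T₂ (D.h 1 a) = a ∧ T₃ (D.h 1 a) = D.h 0 a := by
    intro a ha
    have h := D.hB 1 a ha
    simp only [hT₂, hT₃, if_neg (nBB 1 0 (by decide) _ h), if_pos h, D.gh 1 a ha, and_self]
  have v2 : ∀ a ∈ D.A, T₂ (D.h 2 a) = D.h 3 a ∧ T₃ (D.h 2 a) = a := by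
    intro a ha
    have h := D.hB 2 a ha
    simp only [hT₂, hT₃, if_neg (nBB 2 0 (by decide) _ h), if_neg (nBB 2 1 (by decide) _ h),
      if_pos h, D.gh 2 a ha, and_self]
  have v3 : ∀ a ∈ D.A, T₂ (D.h 3 a) = a ∧ T₃ (D.h 3 a) = D.h 2 a := by
    intro a ha
    have h := D.hB 3 a ha
    simp only [hT₂, hT₃, if_neg (nBB 3 0 (by decide) _ h), if_neg (nBB 3 1 (by decide) _ h),
      if_neg (nBB 3 2 (by decide) _ h), if_pos h, D.gh 3 a ha, and_self]
  -- pushforwards of ν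
  have hsplit : D.ν = D.ν.restrict L + D.ν.restrict Lᶜ :=
    (Measure.restrict_add_restrict_compl mL).symm
  have pν2 : D.ν.map T₂ = (2⁻¹ : ℝ≥0∞) • D.ν.map (D.h 0) + (2⁻¹ : ℝ≥0∞) • D.ν.map (D.h 2) := by
    conv_lhs => rw [hsplit]
    rw [Measure.map_add _ _ mT₂]
    congr 1
    · rw [← Measure.map_smul, ← hR1, Measure.map_map m0 mR]
      apply Measure.map_congr
      filter_upwards [ae_restrict_mem mL, ae_restrict_of_ae D.aeA] with a q1 q2
      exact (vAL a q2 q1).1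
    · rw [← Measure.map_smul, ← hR2, Measure.map_map m2 mR]
      apply Measure.map_congr
      filter_upwards [ae_restrict_mem mL.compl, ae_restrict_of_ae D.aeA] with a q1 q2
      exact (vAR a q2 q1).1
  have pν3 : D.ν.map T₃ = (2⁻¹ : ℝ≥0∞) • D.ν.map (D.h 1) + (2⁻¹ : ℝ≥0∞) • D.ν.map (D.h 3) := by
    conv_lhs => rw [hsplit]
    rw [Measure.map_add _ _ mT₃]
    congr 1
    · rw [← Measure.map_smul, ← hR1, Measure.map_map m1 mR]
      apply Measure.map_congr
      filter_upwards [ae_restrict_mem mL, ae_restrict_of_ae D.aeA] with a q1 q2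
      exact (vAL a q2 q1).2
    · rw [← Measure.map_smul, ← hR2, Measure.map_map m3 mR]
      apply Measure.map_congr
      filter_upwards [ae_restrict_mem mL.compl, ae_restrict_of_ae D.aeA] with a q1 q2
      exact (vAR a q2 q1).2
  have ph : ∀ (i : Fin 4) (T f : E → E) (_ : Measurable T), (∀ a ∈ D.A, T (D.h i a) = f a) →
      (D.ν.map (D.h i)).map T = D.ν.map f := by
    intro i T f mT hT
    rw [Measure.map_map mT (D.mh i)]
    apply Measure.map_congr
    filter_upwards [D.aeA] with a ha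
    exact hT a ha
  have hid : D.ν.map (fun a => a) = D.ν := Measure.map_id
  have pμ2 : D.μ.map T₂ = D.μ := by
    conv_rhs => rw [μ_eq]
    rw [μ, Measure.map_add _ _ mT₂, Measure.map_smul, Measure.map_add _ _ mT₂,
      Measure.map_add _ _ mT₂, Measure.map_add _ _ mT₂, pν2,
      ph 0 T₂ (D.h 1) mT₂ (fun a ha => (v0 a ha).1), ph 1 T₂ (fun a => a) mT₂ (fun a ha => (v1 a ha).1),
      ph 2 T₂ (D.h 3) mT₂ (fun a ha => (v2 a ha).1), ph 3 T₂ (fun a => a) mT₂ (fun a ha => (v3 a ha).1),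
      hid]
    simp only [smul_add]
    abel
  have pμ3 : D.μ.map T₃ = D.μ := by
    conv_rhs => rw [μ_eq]
    rw [μ, Measure.map_add _ _ mT₃, Measure.map_smul, Measure.map_add _ _ mT₃,
      Measure.map_add _ _ mT₃, Measure.map_add _ _ mT₃, pν3,
      ph 0 T₃ (fun a => a) mT₃ (fun a ha => (v0 a ha).2), ph 1 T₃ (D.h 0) mT₃ (fun a ha => (v1 a ha).2),
      ph 2 T₃ (fun a => a) mT₃ (fun a ha => (v2 a ha).2), ph 3 T₃ (D.h 2) mT₃ (fun a ha => (v3 a ha).2),
      hid]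
    simp only [smul_add]
    abel
  refine ⟨T₂, T₃, mT₂, mT₃, pμ2, pμ3, ?_⟩
  -- cost
  have mI1 : Measurable (fun a => tripleCost s (a, D.h 0 a, D.h 1 a)) := by fun_prop
  have mI2 : Measurable (fun a => tripleCost s (a, D.h 2 a, D.h 3 a)) := by fun_prop
  set I1 := ∫⁻ a, tripleCost s (a, D.h 0 a, D.h 1 a) ∂D.ν with hI1
  set I2 := ∫⁻ a, tripleCost s (a, D.h 2 a, D.h 3 a) ∂D.ν with hI2
  have mcT : Measurable (fun x => tripleCost s (x, T₂ x, T₃ x)) := by fun_prop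
  -- R a ∈ A almost surely
  have hRA : ∀ᵐ a ∂D.ν, R a ∈ D.A := by
    have e1 : (D.ν.restrict L) (R ⁻¹' D.Aᶜ) = 0 := by
      rw [← Measure.map_apply mR D.mA.compl, hR1, Measure.smul_apply, D.νA, smul_zero]
    have e2 : (D.ν.restrict Lᶜ) (R ⁻¹' D.Aᶜ) = 0 := by
      rw [← Measure.map_apply mR D.mA.compl, hR2, Measure.smul_apply, D.νA, smul_zero]
    have e3 : D.ν (R ⁻¹' D.Aᶜ) = 0 := by
      conv_lhs => rw [hsplit]
      rw [Measure.add_apply, e1, e2, add_zero]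
    rw [ae_iff]; exact e3
  have hcmp : ∀ i j : Fin 4, ∀ᵐ a ∂D.ν, tripleCost s (a, D.h i (R a), D.h j (R a)) ≤
      tripleCost s (R a, D.h i (R a), D.h j (R a)) + 2 * ε' := by
    intro i j
    filter_upwards [hRA, D.aeA, hclose] with a q1 q2 q3
    have u1 := hunif a q2 (R a) q1 q3 i (D.h i (R a)) (D.hB i _ q1)
    have u2 := hunif a q2 (R a) q1 q3 j (D.h j (R a)) (D.hB j _ q1)
    simp only [tripleCost]
    calc pairCost s a (D.h i (R a)) + pairCost s a (D.h j (R a)) +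
          pairCost s (D.h i (R a)) (D.h j (R a))
        ≤ (pairCost s (R a) (D.h i (R a)) + ε') + (pairCost s (R a) (D.h j (R a)) + ε') +
          pairCost s (D.h i (R a)) (D.h j (R a)) := by gcongr
      _ = _ := by ring
  have cL : ∫⁻ a in L, tripleCost s (a, T₂ a, T₃ a) ∂D.ν ≤ 2⁻¹ * I1 + 2 * ε' * M := by
    calc ∫⁻ a in L, tripleCost s (a, T₂ a, T₃ a) ∂D.ν
        ≤ ∫⁻ a in L, (tripleCost s (R a, D.h 0 (R a), D.h 1 (R a)) + 2 * ε') ∂D.ν := by
          apply lintegral_mono_ae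
          filter_upwards [ae_restrict_mem mL, ae_restrict_of_ae D.aeA,
            ae_restrict_of_ae (hcmp 0 1)] with a q1 q2 q3
          rw [(vAL a q2 q1).1, (vAL a q2 q1).2]
          exact q3
      _ = ∫⁻ a in L, tripleCost s (R a, D.h 0 (R a), D.h 1 (R a)) ∂D.ν + 2 * ε' * D.ν L := by
          rw [lintegral_add_right _ measurable_const, lintegral_const, Measure.restrict_apply_univ]
      _ ≤ 2⁻¹ * I1 + 2 * ε' * M := by
          gcongr
          · have : ∫⁻ a in L, tripleCost s (R a, D.h 0 (R a), D.h 1 (R a)) ∂D.ν =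
                ∫⁻ a, tripleCost s (a, D.h 0 a, D.h 1 a) ∂((D.ν.restrict L).map R) := by
              rw [lintegral_map mI1 mR]
            rw [this, hR1, lintegral_smul_measure, smul_eq_mul]
          · exact measure_mono (subset_univ _)
  have cR : ∫⁻ a in Lᶜ, tripleCost s (a, T₂ a, T₃ a) ∂D.ν ≤ 2⁻¹ * I2 + 2 * ε' * M := by
    calc ∫⁻ a in Lᶜ, tripleCost s (a, T₂ a, T₃ a) ∂D.ν
        ≤ ∫⁻ a in Lᶜ, (tripleCost s (R a, D.h 2 (R a), D.h 3 (R a)) + 2 * ε') ∂D.ν := by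
          apply lintegral_mono_ae
          filter_upwards [ae_restrict_mem mL.compl, ae_restrict_of_ae D.aeA,
            ae_restrict_of_ae (hcmp 2 3)] with a q1 q2 q3
          rw [(vAR a q2 q1).1, (vAR a q2 q1).2]
          exact q3
      _ = ∫⁻ a in Lᶜ, tripleCost s (R a, D.h 2 (R a), D.h 3 (R a)) ∂D.ν + 2 * ε' * D.ν Lᶜ := by
          rw [lintegral_add_right _ measurable_const, lintegral_const, Measure.restrict_apply_univ]
      _ ≤ 2⁻¹ * I2 + 2 * ε' * M := by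
          gcongr
          · have : ∫⁻ a in Lᶜ, tripleCost s (R a, D.h 2 (R a), D.h 3 (R a)) ∂D.ν =
                ∫⁻ a, tripleCost s (a, D.h 2 a, D.h 3 a) ∂((D.ν.restrict Lᶜ).map R) := by
              rw [lintegral_map mI2 mR]
            rw [this, hR2, lintegral_smul_measure, smul_eq_mul]
          · exact measure_mono (subset_univ _)
  have ch : ∀ (i : Fin 4) (I : ℝ≥0∞) (f : E → ℝ≥0∞), I = ∫⁻ a, f a ∂D.ν →
      (∀ a ∈ D.A, tripleCost s (D.h i a, T₂ (D.h i a), T₃ (D.h i a)) = f a) →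
      ∫⁻ x, tripleCost s (x, T₂ x, T₃ x) ∂(D.ν.map (D.h i)) = I := by
    intro i I f hI hf
    rw [lintegral_map mcT (D.mh i), hI]
    apply lintegral_congr_ae
    filter_upwards [D.aeA] with a ha
    exact hf a ha
  have c0 := ch 0 I1 _ rfl (fun a ha => by rw [(v0 a ha).1, (v0 a ha).2, tripleCost_rot])
  have c1 := ch 1 I1 _ rfl (fun a ha => by rw [(v1 a ha).1, (v1 a ha).2, ← tripleCost_rot])
  have c2 := ch 2 I2 _ rfl (fun a ha => by rw [(v2 a ha).1, (v2 a ha).2, tripleCost_rot])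
  have c3 := ch 3 I2 _ rfl (fun a ha => by rw [(v3 a ha).1, (v3 a ha).2, ← tripleCost_rot])
  have cν : ∫⁻ a, tripleCost s (a, T₂ a, T₃ a) ∂D.ν ≤
      (2⁻¹ * I1 + 2 * ε' * M) + (2⁻¹ * I2 + 2 * ε' * M) := by
    rw [← lintegral_add_compl _ mL]
    gcongr
  -- cost of π₀
  have hπ : ∫⁻ p, tripleCost s p ∂D.π₀ = 2⁻¹ * (I1 + I2 + I1 + I1 + I2 + I2) := by
    rw [π₀, lintegral_smul_measure, smul_eq_mul, lintegral_add_measure, lintegral_add_measure,
      lintegral_add_measure, lintegral_add_measure, lintegral_add_measure,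
      lintegral_map mc (by fun_prop), lintegral_map mc (by fun_prop), lintegral_map mc (by fun_prop),
      lintegral_map mc (by fun_prop), lintegral_map mc (by fun_prop), lintegral_map mc (by fun_prop)]
    have e3 : ∫⁻ a, tripleCost s (D.h 0 a, D.h 1 a, a) ∂D.ν = I1 := by
      rw [hI1]; congr 1; ext a; rw [tripleCost_rot]
    have e4 : ∫⁻ a, tripleCost s (D.h 1 a, a, D.h 0 a) ∂D.ν = I1 := by
      rw [hI1]; congr 1; ext a; rw [← tripleCost_rot]
    have e5 : ∫⁻ a, tripleCost s (D.h 2 a, D.h 3 a, a) ∂D.ν = I2 := by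
      rw [hI2]; congr 1; ext a; rw [tripleCost_rot]
    have e6 : ∫⁻ a, tripleCost s (D.h 3 a, a, D.h 2 a) ∂D.ν = I2 := by
      rw [hI2]; congr 1; ext a; rw [← tripleCost_rot]
    rw [e3, e4, e5, e6]
  have hπt := D.π₀_lt_top
  calc ∫⁻ x, tripleCost s (x, T₂ x, T₃ x) ∂D.μ
      = ∫⁻ a, tripleCost s (a, T₂ a, T₃ a) ∂D.ν + 2⁻¹ * (I1 + I1 + I2 + I2) := by
        rw [μ, lintegral_add_measure, lintegral_smul_measure, smul_eq_mul, lintegral_add_measure,
          lintegral_add_measure, lintegral_add_measure, c0, c1, c2, c3]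
    _ ≤ ((2⁻¹ * I1 + 2 * ε' * M) + (2⁻¹ * I2 + 2 * ε' * M)) + 2⁻¹ * (I1 + I1 + I2 + I2) := by gcongr
    _ = 2⁻¹ * (I1 + I2 + I1 + I1 + I2 + I2) + (2 * ε' * M + 2 * ε' * M) := by ring
    _ = ∫⁻ p, tripleCost s p ∂D.π₀ + (2 * ε' * M + 2 * ε' * M) := by rw [hπ]
    _ < ∫⁻ p, tripleCost s p ∂D.π₀ + ε := by
        exact ENNReal.add_lt_add_left hπt.ne hε'

end Data

end Abstract

end Crest.Agent.S0175
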