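import Mathlib
import Crest.Prelude.Def_MultiMarginal

set_option autoImplicit false
set_option linter.unusedSectionVars false

open MeasureTheory Set Filter
open scoped ENNReal Topology ContDiff
open Crest.AnalysisR.OT

namespace Crest.Agent.S0175

section Density

variable {E : Type*} [NormedAddCommGroup E] [InnerProductSpace ℝ E] [FiniteDimensional ℝ E]

lemma contDiff_det (n : WithTop ℕ∞) : ContDiff ℝ n (fun A : E →L[ℝ] E => A.det) := by
  classical
  let b := Module.finBasis ℝ E
  have h1 : (fun A : E →L[ℝ] E => A.det) =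
      fun A : E →L[ℝ] E => ∑ σ : Equiv.Perm (Fin (Module.finrank ℝ E)),
        (Equiv.Perm.sign σ : ℤ) • ∏ i, b.repr (A (b i)) (σ i) := by
    ext A
    rw [ContinuousLinearMap.det, ← LinearMap.det_toMatrix b, Matrix.det_apply]
    apply Finset.sum_congr rfl
    intro σ _
    simp only [LinearMap.toMatrix_apply, ContinuousLinearMap.coe_coe]
    rw [Units.smul_def]
  rw [h1]
  apply ContDiff.sum
  intro σ _
  have h2 : ContDiff ℝ n (fun A : E →L[ℝ] E => ∏ i, b.repr (A (b i)) (σ i)) := by
    apply contDiff_prod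
    intro i _
    have h3 : IsLinearMap ℝ (fun v : E => b.repr v (σ i)) := by
      constructor
      · intro x y; simp
      · intro c x; simp
    have h4 : ContDiff ℝ n (fun v : E => b.repr v (σ i)) := by
      have : (fun v : E => b.repr v (σ i)) = (LinearMap.toContinuousLinearMap (h3.mk' _)) := rfl
      rw [this]
      exact ContinuousLinearMap.contDiff _
    exact h4.comp ((ContinuousLinearMap.apply ℝ E (b i)).contDiff)
  have h5 : (fun A : E →L[ℝ] E => (Equiv.Perm.sign σ : ℤ) • ∏ i, b.repr (A (b i)) (σ i)) =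
      fun A : E →L[ℝ] E => ((Equiv.Perm.sign σ : ℤ) : ℝ) * ∏ i, b.repr (A (b i)) (σ i) := by
    ext A; rw [zsmul_eq_mul]
  rw [h5]
  exact contDiff_const.mul h2

/-- Square root of the transported density. -/
noncomputable def chi (H : OpenPartialHomeomorph E E) (χ : E → ℝ) (x : E) : ℝ :=
  open Classical in
  if x ∈ H.target then χ (H.symm x) * Real.sqrt |(fderiv ℝ H.symm x).det| else 0

lemma det_ne_zero (H : OpenPartialHomeomorph E E) (x : E) (hx : x ∈ H.target)
    (h1 : DifferentiableAt ℝ H.symm x) (h2 : DifferentiableAt ℝ H (H.symm x)) :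
    (fderiv ℝ H.symm x).det ≠ 0 := by
  have h3 : HasFDerivAt (fun y => H (H.symm y))
      ((fderiv ℝ H (H.symm x)).comp (fderiv ℝ H.symm x)) x :=
    HasFDerivAt.comp x h2.hasFDerivAt h1.hasFDerivAt
  have h4 : HasFDerivAt (fun y => H (H.symm y)) (ContinuousLinearMap.id ℝ E) x := by
    apply (hasFDerivAt_id x).congr_of_eventuallyEq
    filter_upwards [H.open_target.mem_nhds hx] with y hy
    exact H.right_inv hy
  have h5 := h3.unique h4
  have h6 : (fderiv ℝ H (H.symm x)).det * (fderiv ℝ H.symm x).det = 1 := by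
    have : ((fderiv ℝ H (H.symm x)).comp (fderiv ℝ H.symm x)).det = 1 := by
      rw [h5]
      simp [ContinuousLinearMap.det]
    rw [← this]
    exact (LinearMap.det_comp _ _).symm
  exact right_ne_zero_of_mul_eq_one h6

lemma chi_nonneg (H : OpenPartialHomeomorph E E) (χ : E → ℝ) (hχ : ∀ x, 0 ≤ χ x) (x : E) :
    0 ≤ chi H χ x := by
  unfold chi
  split_ifs
  · exact mul_nonneg (hχ _) (Real.sqrt_nonneg _)
  · exact le_rfl

lemma chi_support (H : OpenPartialHomeomorph E E) (χ : E → ℝ) (K : Set E)
    (hK : ∀ a, χ a ≠ 0 → a ∈ K) (x : E) (hx : chi H χ x ≠ 0) : x ∈ H '' K := by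
  unfold chi at hx
  split_ifs at hx with h
  · have h1 : χ (H.symm x) ≠ 0 := left_ne_zero_of_mul hx
    exact ⟨H.symm x, hK _ h1, H.right_inv h⟩
  · exact absurd rfl hx

lemma chi_contDiff (H : OpenPartialHomeomorph E E) (χ : E → ℝ) (hχ : ContDiff ℝ ∞ χ) (K : Set E)
    (hKc : IsCompact K) (hKs : K ⊆ H.source) (hK : ∀ a, χ a ≠ 0 → a ∈ K)
    (h1 : ∀ a ∈ H.source, ContDiffAt ℝ ∞ H a) (h2 : ∀ a ∈ H.source, ContDiffAt ℝ ∞ H.symm (H a)) :
    ContDiff ℝ ∞ (chi H χ) ∧ HasCompactSupport (chi H χ) := by
  have hcomp : IsCompact (H '' K) := hKc.image_of_continuousOn (H.continuousOn.mono hKs)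
  have hsup : HasCompactSupport (chi H χ) :=
    HasCompactSupport.of_support_subset_isCompact hcomp (fun x hx => chi_support H χ K hK x hx)
  refine ⟨?_, hsup⟩
  rw [contDiff_iff_contDiffAt]
  intro x
  by_cases hx : x ∈ H.target
  · have hs : H.symm x ∈ H.source := H.map_target hx
    have c1 : ContDiffAt ℝ ∞ H.symm x := by
      have := h2 _ hs
      rwa [H.right_inv hx] at this
    have c2 : ContDiffAt ℝ ∞ H (H.symm x) := h1 _ hs
    have c3 : ContDiffAt ℝ ∞ (fun y => χ (H.symm y)) x := ContDiffAt.comp x hχ.contDiffAt c1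
    have c4 : ContDiffAt ℝ ∞ (fderiv ℝ H.symm) x := c1.fderiv_right (m := ∞) (by simp)
    have c5 : ContDiffAt ℝ ∞ (fun y => (fderiv ℝ H.symm y).det) x :=
      ContDiffAt.comp (g := fun A : E →L[ℝ] E => A.det) x (contDiff_det ∞).contDiffAt c4
    have hdet := det_ne_zero H x hx (c1.differentiableAt (by simp)) (c2.differentiableAt (by simp))
    have c6 : ContDiffAt ℝ ∞ (fun y => |(fderiv ℝ H.symm y).det|) x :=
      ContDiffAt.comp (g := fun t : ℝ => |t|) x (contDiffAt_abs hdet) c5
    have c7 : ContDiffAt ℝ ∞ (fun y => Real.sqrt |(fderiv ℝ H.symm y).det|) x :=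
      c6.sqrt (abs_ne_zero.mpr hdet)
    apply (c3.mul c7).congr_of_eventuallyEq
    filter_upwards [H.open_target.mem_nhds hx] with y hy
    simp only [chi, if_pos hy]
  · have hx' : x ∉ H '' K := by
      rintro ⟨a, ha, rfl⟩
      exact hx (H.map_source (hKs ha))
    apply (contDiffAt_const (c := (0 : ℝ))).congr_of_eventuallyEq
    filter_upwards [hcomp.isClosed.isOpen_compl.mem_nhds hx'] with y hy
    by_contra hne
    exact hy (chi_support H χ K hK y hne)

variable [MeasurableSpace E] [BorelSpace E]

lemma pushforward_density (H : OpenPartialHomeomorph E E) (χ : E → ℝ) (W : Set E)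
    (hsup : ∀ a, χ a ≠ 0 → a ∈ W) (hW : W ⊆ H.source)
    (hd : ∀ x ∈ H.target, DifferentiableAt ℝ H.symm x) (h : E → E) (mh : Measurable h)
    (hh : ∀ a ∈ W, h a = H a) :
    ((volume : Measure E).withDensity fun a => ENNReal.ofReal (χ a ^ 2)).map h =
      volume.withDensity fun x => ENNReal.ofReal (chi H χ x ^ 2) := by
  classical
  ext B hB
  rw [Measure.map_apply mh hB, withDensity_apply _ (mh hB), withDensity_apply _ hB]
  set G : E → ℝ≥0∞ := fun a => B.indicator 1 (H a) * ENNReal.ofReal (χ a ^ 2) with hG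
  have e1 : ∫⁻ a in h ⁻¹' B, ENNReal.ofReal (χ a ^ 2) = ∫⁻ a in H.source, G a := by
    rw [← lintegral_indicator (mh hB), ← lintegral_indicator H.open_source.measurableSet]
    congr 1
    ext a
    by_cases hχ : χ a = 0
    · have h1 : ∀ s : Set E, ∀ f : E → ℝ≥0∞, f a = 0 → s.indicator f a = 0 := by
        intro s f hf
        by_cases hs : a ∈ s
        · rw [indicator_of_mem hs, hf]
        · rw [indicator_of_notMem hs]
      rw [h1 _ _ (by simp [hχ]), h1 _ _ (by simp [hG, hχ])]
    · have haW := hsup a hχ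
      have has := hW haW
      rw [indicator_of_mem has]
      have hha := hh a haW
      by_cases hb : h a ∈ B
      · have hb' : a ∈ h ⁻¹' B := hb
        rw [indicator_of_mem hb']
        simp only [hG]
        rw [← hha, indicator_of_mem hb]
        simp
      · have hb' : a ∉ h ⁻¹' B := hb
        rw [indicator_of_notMem hb']
        simp only [hG]
        rw [← hha, indicator_of_notMem hb]
        simp
  have e2 : H.source = H.symm '' H.target := by
    have := H.symm.image_source_eq_target
    exact this.symm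
  have e3 := lintegral_image_eq_lintegral_abs_det_fderiv_mul (volume : Measure E)
    H.open_target.measurableSet (f := H.symm) (f' := fderiv ℝ H.symm)
    (fun x hx => (hd x hx).hasFDerivAt.hasFDerivWithinAt) (H.symm.injOn) G
  rw [e1, e2, e3, ← lintegral_indicator H.open_target.measurableSet, ← lintegral_indicator hB]
  congr 1
  ext x
  by_cases hx : x ∈ H.target
  · rw [indicator_of_mem hx]
    simp only [hG, H.right_inv hx]
    by_cases hb : x ∈ B
    · rw [indicator_of_mem hb, indicator_of_mem hb]
      simp only [Pi.one_apply, one_mul, chi, if_pos hx]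
      rw [mul_pow, Real.sq_sqrt (abs_nonneg _), mul_comm (χ (H.symm x) ^ 2),
        ENNReal.ofReal_mul (abs_nonneg _)]
    · rw [indicator_of_notMem hb, indicator_of_notMem hb]
      simp
  · rw [indicator_of_notMem hx]
    by_cases hb : x ∈ B
    · rw [indicator_of_mem hb]
      simp [chi, if_neg hx]
    · rw [indicator_of_notMem hb]

end Density

end Crest.Agent.S0175
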