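import Mathlib

set_option autoImplicit false

open MeasureTheory Set Filter
open scoped ENNReal Topology ContDiff

namespace Crest.Agent.S0175

section Local

variable {E : Type*} [NormedAddCommGroup E] [InnerProductSpace ℝ E]

omit [InnerProductSpace ℝ E] in
lemma norm_rpow_eq (p : ℝ) (x : E) : ‖x‖ ^ p = (‖x‖ ^ 2) ^ (p / 2) := by
  rw [← Real.rpow_natCast, ← Real.rpow_mul (norm_nonneg x)]
  congr 1
  push_cast; ring

lemma hasFDerivAt_norm_rpow' (p : ℝ) {x : E} (hx : x ≠ 0) :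
    HasFDerivAt (fun x : E => ‖x‖ ^ p) ((p * ‖x‖ ^ (p - 2)) • innerSL ℝ x) x := by
  have h0 : ‖x‖ ^ 2 ≠ 0 := pow_ne_zero _ (norm_ne_zero_iff.mpr hx)
  have h1 := ((hasStrictFDerivAt_norm_sq x).hasFDerivAt).rpow_const (p := p / 2) (Or.inl h0)
  have h2 : (fun x : E => ‖x‖ ^ p) = fun x : E => (‖x‖ ^ 2) ^ (p / 2) := by
    ext y; exact norm_rpow_eq p y
  rw [h2]
  have h3 : (p * ‖x‖ ^ (p - 2)) • innerSL ℝ x
      = (p / 2 * (‖x‖ ^ 2) ^ (p / 2 - 1)) • 2 • (innerSL ℝ) x := by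
    rw [norm_rpow_eq (p - 2), show (p - 2) / 2 = p / 2 - 1 by ring]
    ext v
    simp
    ring
  rw [h3]
  exact h1

/-- The pair interaction. -/
noncomputable def phi (s : ℝ) (x : E) : ℝ := ‖x‖ ^ (-s)

/-- Its gradient. -/
noncomputable def gphi (s : ℝ) (x : E) : E := (-(s * ‖x‖ ^ (-s - 2))) • x

lemma hasFDerivAt_phi (s : ℝ) {x : E} (hx : x ≠ 0) :
    HasFDerivAt (phi s : E → ℝ) (innerSL ℝ (gphi s x)) x := by
  have h := hasFDerivAt_norm_rpow' (-s) hx
  have h3 : innerSL ℝ (gphi s x) = (-s * ‖x‖ ^ (-s - 2)) • innerSL ℝ x := by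
    ext v
    simp [gphi]
  rw [h3]
  exact h

/-- The Hessian. -/
noncomputable def hphi (s : ℝ) (x : E) : E →L[ℝ] E :=
  (-(s * ‖x‖ ^ (-s - 2))) • ContinuousLinearMap.id ℝ E +
    (s * (s + 2) * ‖x‖ ^ (-s - 4)) • (innerSL ℝ x).smulRight x

lemma hphi_apply (s : ℝ) (x v : E) :
    hphi s x v = (-(s * ‖x‖ ^ (-s - 2))) • v + (s * (s + 2) * ‖x‖ ^ (-s - 4) * inner ℝ x v) • x := by
  simp [hphi, smul_smul]

lemma hasFDerivAt_gphi (s : ℝ) {x : E} (hx : x ≠ 0) :
    HasFDerivAt (gphi s : E → E) (hphi s x) x := by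
  have h1 := (((hasFDerivAt_norm_rpow' (-s - 2) hx).const_mul s).neg).smul (hasFDerivAt_id x)
  have h2 : hphi s x = -(s * ‖x‖ ^ (-s - 2)) • ContinuousLinearMap.id ℝ E +
      (-(s • ((-s - 2) * ‖x‖ ^ (-s - 2 - 2)) • (innerSL ℝ) x)).smulRight (id x) := by
    ext v
    rw [hphi_apply, show -s - 2 - 2 = -s - 4 by ring]
    simp only [id, ContinuousLinearMap.smulRight_apply, add_apply, smul_apply, neg_apply,
      ContinuousLinearMap.id_apply, innerSL_apply_apply, smul_eq_mul]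
    congr 2
    ring
  rw [h2]
  exact h1

lemma contDiffAt_gphi (s : ℝ) {x : E} (hx : x ≠ 0) (n : WithTop ℕ∞) :
    ContDiffAt ℝ n (gphi s : E → E) x := by
  have h1 : ContDiffAt ℝ n (fun x : E => ‖x‖) x := contDiffAt_norm ℝ hx
  have h2 : ContDiffAt ℝ n (fun x : E => ‖x‖ ^ (-s - 2)) x :=
    h1.rpow_const_of_ne (norm_ne_zero_iff.mpr hx)
  exact ((contDiffAt_const.mul h2).neg).smul contDiffAt_id

/-- The Hessian of the pair interaction at a unit vector, divided by `s`. -/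
noncomputable def Lop (s : ℝ) (e : E) : E →L[ℝ] E :=
  (s + 2) • (innerSL ℝ e).smulRight e - ContinuousLinearMap.id ℝ E

lemma Lop_apply (s : ℝ) (e v : E) : Lop s e v = ((s + 2) * inner ℝ e v) • e - v := by
  simp [Lop, smul_smul]

noncomputable def kap (s : ℝ) : ℝ := 2 ^ (-s - 2)

lemma kap_pos (s : ℝ) : 0 < kap s := Real.rpow_pos_of_pos (by norm_num) _

lemma kap_lt (s : ℝ) (hs : 0 < s) : kap s < 1 / 4 := by
  have h : kap s < 2 ^ (-2 : ℝ) := by
    unfold kap
    apply Real.rpow_lt_rpow_of_exponent_lt (by norm_num)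
    linarith
  have h2 : (2 : ℝ) ^ (-2 : ℝ) = 1 / 4 := by
    rw [Real.rpow_neg (by norm_num)]
    norm_num
  rw [h2] at h
  exact h

lemma hphi_unit (s : ℝ) (e : E) (he : ‖e‖ = 1) : hphi s e = s • Lop s e := by
  ext v
  rw [hphi_apply]
  simp only [he, Real.one_rpow, smul_apply, Lop_apply]
  module

lemma hphi_neg (s : ℝ) (e : E) : hphi s (-e) = hphi s e := by
  ext v
  rw [hphi_apply, hphi_apply, norm_neg, inner_neg_left]
  module

lemma hphi_two (s : ℝ) (e : E) (he : ‖e‖ = 1) :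
    hphi s ((2 : ℝ) • e) = (s * kap s) • Lop s e := by
  ext v
  rw [hphi_apply]
  have h1 : ‖(2 : ℝ) • e‖ = 2 := by rw [norm_smul, he]; norm_num
  have h2 : (2 : ℝ) ^ (-s - 4) = kap s / 4 := by
    unfold kap
    have : -s - 4 = (-s - 2) + (-2) := by ring
    rw [this, Real.rpow_add (by norm_num), Real.rpow_neg (by norm_num) (2:ℝ)]
    norm_num
    ring
  have h3 : (2 : ℝ) ^ (-s - 2) = kap s := rfl
  rw [h1, h2, h3, inner_smul_left]
  simp only [smul_apply, Lop_apply, conj_trivial]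
  module

lemma gphi_unit (s : ℝ) (e : E) (he : ‖e‖ = 1) : gphi s e = (-s) • e := by
  simp [gphi, he]

lemma gphi_neg (s : ℝ) (e : E) : gphi s (-e) = -gphi s e := by
  simp [gphi]

lemma gphi_two (s : ℝ) (e : E) (he : ‖e‖ = 1) :
    gphi s ((2 : ℝ) • e) = (-(2 * s * kap s)) • e := by
  have h1 : ‖(2 : ℝ) • e‖ = 2 := by rw [norm_smul, he]; norm_num
  have h3 : (2 : ℝ) ^ (-s - 2) = kap s := rfl
  rw [gphi, h1, h3]
  module

/-- The gradient in `(a, z)` as a function of `(y, (a, z))`. -/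
noncomputable def GG (s : ℝ) (e : E) (p : E × (E × E)) : E × E :=
  (gphi s (p.2.1 - p.1) + gphi s (p.2.1 - p.2.2) + (4 * s) • p.2.1,
   -gphi s (p.2.1 - p.2.2) - gphi s (p.1 - p.2.2) - (s * (1 + 2 * kap s)) • e +
    (2 * s) • (p.2.2 + e))

noncomputable def pY : E × (E × E) →L[ℝ] E := ContinuousLinearMap.fst ℝ E (E × E)
noncomputable def pA : E × (E × E) →L[ℝ] E :=
  (ContinuousLinearMap.fst ℝ E E).comp (ContinuousLinearMap.snd ℝ E (E × E))
noncomputable def pZ : E × (E × E) →L[ℝ] E :=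
  (ContinuousLinearMap.snd ℝ E E).comp (ContinuousLinearMap.snd ℝ E (E × E))

noncomputable def dGG (s : ℝ) (e : E) : E × (E × E) →L[ℝ] E × E :=
  ((s • Lop s e).comp (pA - pY) + (s • Lop s e).comp (pA - pZ) + (4 * s) • pA).prod
  (-(s • Lop s e).comp (pA - pZ) - ((s * kap s) • Lop s e).comp (pY - pZ) + (2 * s) • pZ)

lemma GG_base (s : ℝ) (e : E) (he : ‖e‖ = 1) : GG s e (e, (0, -e)) = 0 := by
  have h1 : (e : E) - -e = (2 : ℝ) • e := by module
  have h2 : (0 : E) - -e = e := by module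
  have h3 : -e + e = 0 := by module
  simp only [GG, h1, h2, h3, zero_sub, gphi_neg, gphi_unit s e he, gphi_two s e he, smul_zero,
    add_zero, neg_add_cancel]
  ext
  · simp
  · simp only [Prod.snd_zero]
    module

lemma hasFDerivAt_GG (s : ℝ) (e : E) (he : ‖e‖ = 1) :
    HasFDerivAt (GG s e) (dGG s e) (e, (0, -e)) := by
  have he0 : e ≠ 0 := by
    intro h; rw [h, norm_zero] at he; exact zero_ne_one he
  have hAY : HasFDerivAt (fun p : E × (E × E) => gphi s (p.2.1 - p.1)) ((s • Lop s e).comp (pA - pY))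
      (e, (0, -e)) := by
    have h := hasFDerivAt_gphi s (x := (0 : E) - e) (by simpa using he0)
    rw [zero_sub, hphi_neg, hphi_unit s e he] at h
    have h2 : HasFDerivAt (fun p : E × (E × E) => p.2.1 - p.1) (pA - pY : E × (E × E) →L[ℝ] E)
      (e, (0, -e)) := (pA - pY : E × (E × E) →L[ℝ] E).hasFDerivAt
    have h3 : HasFDerivAt (gphi s : E → E) (s • Lop s e)
      ((fun p : E × (E × E) => p.2.1 - p.1) (e, (0, -e))) := by simpa using h
    exact HasFDerivAt.comp (f := fun p : E × (E × E) => p.2.1 - p.1) (e, ((0 : E), -e)) h3 h2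
  have hAZ : HasFDerivAt (fun p : E × (E × E) => gphi s (p.2.1 - p.2.2))
      ((s • Lop s e).comp (pA - pZ)) (e, (0, -e)) := by
    have h := hasFDerivAt_gphi s (x := e) he0
    rw [hphi_unit s e he] at h
    have h2 : HasFDerivAt (fun p : E × (E × E) => p.2.1 - p.2.2) (pA - pZ : E × (E × E) →L[ℝ] E)
      (e, (0, -e)) := (pA - pZ : E × (E × E) →L[ℝ] E).hasFDerivAt
    have h3 : HasFDerivAt (gphi s : E → E) (s • Lop s e)
      ((fun p : E × (E × E) => p.2.1 - p.2.2) (e, (0, -e))) := by simpa using h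
    exact HasFDerivAt.comp (f := fun p : E × (E × E) => p.2.1 - p.2.2) (e, ((0 : E), -e)) h3 h2
  have hYZ : HasFDerivAt (fun p : E × (E × E) => gphi s (p.1 - p.2.2))
      (((s * kap s) • Lop s e).comp (pY - pZ)) (e, (0, -e)) := by
    have h := hasFDerivAt_gphi s (x := (2 : ℝ) • e) (by simpa using he0)
    rw [hphi_two s e he] at h
    have h2 : HasFDerivAt (fun p : E × (E × E) => p.1 - p.2.2) (pY - pZ : E × (E × E) →L[ℝ] E)
      (e, (0, -e)) := (pY - pZ : E × (E × E) →L[ℝ] E).hasFDerivAt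
    have h3 : HasFDerivAt (gphi s : E → E) ((s * kap s) • Lop s e)
      ((fun p : E × (E × E) => p.1 - p.2.2) (e, (0, -e))) := by
      have : (fun p : E × (E × E) => p.1 - p.2.2) (e, (0, -e)) = (2 : ℝ) • e := by
        simp only; module
      rw [this]; exact h
    exact HasFDerivAt.comp (f := fun p : E × (E × E) => p.1 - p.2.2) (e, ((0 : E), -e)) h3 h2
  have hA : HasFDerivAt (fun p : E × (E × E) => (4 * s) • p.2.1) ((4 * s) • pA : E × (E × E) →L[ℝ] E)
      (e, (0, -e)) := ((4 * s) • pA : E × (E × E) →L[ℝ] E).hasFDerivAt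
  have hZ : HasFDerivAt (fun p : E × (E × E) => (2 * s) • (p.2.2 + e))
      ((2 * s) • pZ : E × (E × E) →L[ℝ] E) (e, (0, -e)) := by
    have h := ((pZ : E × (E × E) →L[ℝ] E).hasFDerivAt (x := (e, ((0 : E), -e)))).add_const e
    exact h.const_smul (2 * s)
  exact ((hAY.add hAZ).add hA).prodMk (((hAZ.neg.sub hYZ).sub_const _).add hZ)

lemma contDiffAt_GG (s : ℝ) (e : E) (he : ‖e‖ = 1) (n : WithTop ℕ∞) :
    ContDiffAt ℝ n (GG s e) (e, (0, -e)) := by
  have he0 : e ≠ 0 := by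
    intro h; rw [h, norm_zero] at he; exact zero_ne_one he
  have c1 : ContDiffAt ℝ n (fun p : E × (E × E) => p.1) (e, (0, -e)) := contDiffAt_fst
  have c2 : ContDiffAt ℝ n (fun p : E × (E × E) => p.2.1) (e, (0, -e)) := contDiffAt_fst.comp _ contDiffAt_snd
  have c3 : ContDiffAt ℝ n (fun p : E × (E × E) => p.2.2) (e, (0, -e)) := contDiffAt_snd.comp _ contDiffAt_snd
  have hAY : ContDiffAt ℝ n (fun p : E × (E × E) => gphi s (p.2.1 - p.1)) (e, (0, -e)) := by
    have h := contDiffAt_gphi s (x := (0 : E) - e) (by simpa using he0) n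
    exact ContDiffAt.comp (e, ((0 : E), -e)) h (c2.sub c1)
  have hAZ : ContDiffAt ℝ n (fun p : E × (E × E) => gphi s (p.2.1 - p.2.2)) (e, (0, -e)) := by
    have h := contDiffAt_gphi s (x := (0 : E) - (-e)) (by simpa using he0) n
    exact ContDiffAt.comp (e, ((0 : E), -e)) h (c2.sub c3)
  have hYZ : ContDiffAt ℝ n (fun p : E × (E × E) => gphi s (p.1 - p.2.2)) (e, (0, -e)) := by
    have h := contDiffAt_gphi s (x := e - (-e)) (by
      rw [show e - -e = (2 : ℝ) • e by module]; simpa using he0) n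
    exact ContDiffAt.comp (e, ((0 : E), -e)) h (c1.sub c3)
  exact ((hAY.add hAZ).add (c2.const_smul (4 * s))).prodMk
    (((hAZ.neg.sub hYZ).sub contDiffAt_const).add ((c3.add contDiffAt_const).const_smul (2 * s)))

lemma dGG_apply (s : ℝ) (e η ξ ζ : E) : dGG s e (η, (ξ, ζ)) =
    (s • Lop s e (ξ - η) + s • Lop s e (ξ - ζ) + (4 * s) • ξ,
     -(s • Lop s e (ξ - ζ)) - (s * kap s) • Lop s e (η - ζ) + (2 * s) • ζ) := by
  ext
  · simp [dGG, pA, pY, pZ]
    module
  · simp [dGG, pA, pY, pZ]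
    module

lemma dGG_posdef (s : ℝ) (hs : 0 < s) (e : E) (ξ ζ : E) :
    s / 20 * (‖ξ‖ ^ 2 + ‖ζ‖ ^ 2) ≤
      inner ℝ (dGG s e (0, (ξ, ζ))).1 ξ + inner ℝ (dGG s e (0, (ξ, ζ))).2 ζ := by
  rw [dGG_apply]
  have hk0 := kap_pos s
  have hk1 := kap_lt s hs
  have h1 : 0 ≤ ‖ξ + (7 / 10 : ℝ) • ζ‖ ^ 2 := by positivity
  have h2 : ‖ξ + (7 / 10 : ℝ) • ζ‖ ^ 2 = ‖ξ‖ ^ 2 + (7 / 5) * inner ℝ ξ ζ + (49 / 100) * ‖ζ‖ ^ 2 := by
    rw [norm_add_sq_real, inner_smul_right, norm_smul, Real.norm_eq_abs, abs_of_pos (by norm_num)]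
    ring
  have h3 : inner ℝ (s • Lop s e (ξ - 0) + s • Lop s e (ξ - ζ) + (4 * s) • ξ) ξ +
      inner ℝ (-(s • Lop s e (ξ - ζ)) - (s * kap s) • Lop s e (0 - ζ) + (2 * s) • ζ) ζ =
      s * (2 * ‖ξ‖ ^ 2 + 2 * inner ℝ ξ ζ + (1 - kap s) * ‖ζ‖ ^ 2 +
        (s + 2) * (2 * (inner ℝ e ξ) ^ 2 - 2 * inner ℝ e ξ * inner ℝ e ζ +
          (1 + kap s) * (inner ℝ e ζ) ^ 2)) := by
    simp only [Lop_apply, inner_add_left, inner_sub_left, inner_neg_left, inner_smul_left,
      inner_sub_right, inner_neg_right, real_inner_self_eq_norm_sq, conj_trivial,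
      sub_zero, zero_sub, smul_sub]
    rw [real_inner_comm ξ ζ]
    ring
  simp only
  rw [h3]
  set x := inner ℝ e ξ
  set z := inner ℝ e ζ
  set m := inner ℝ ξ ζ
  have h4 : 0 ≤ 2 * x ^ 2 - 2 * x * z + (1 + kap s) * z ^ 2 := by
    have : 2 * x ^ 2 - 2 * x * z + (1 + kap s) * z ^ 2 = x ^ 2 + (x - z) ^ 2 + kap s * z ^ 2 := by ring
    rw [this]; positivity
  have h5 : 0 ≤ (s + 2) * (2 * x ^ 2 - 2 * x * z + (1 + kap s) * z ^ 2) := by positivity
  have h6 : 1 / 20 * (‖ξ‖ ^ 2 + ‖ζ‖ ^ 2) ≤ 2 * ‖ξ‖ ^ 2 + 2 * m + (1 - kap s) * ‖ζ‖ ^ 2 := by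
    have : 0 ≤ ‖ζ‖ ^ 2 := by positivity
    have : 0 ≤ ‖ξ‖ ^ 2 := by positivity
    nlinarith
  calc s / 20 * (‖ξ‖ ^ 2 + ‖ζ‖ ^ 2) = s * (1 / 20 * (‖ξ‖ ^ 2 + ‖ζ‖ ^ 2)) := by ring
    _ ≤ _ := by
      apply mul_le_mul_of_nonneg_left _ hs.le
      linarith

lemma Lop_inj (s : ℝ) (hs : 0 < s) (e : E) (he : ‖e‖ = 1) (v : E) (h : Lop s e v = 0) : v = 0 := by
  rw [Lop_apply] at h
  have h1 : inner ℝ e (((s + 2) * inner ℝ e v) • e - v) = 0 := by rw [h, inner_zero_right]
  rw [inner_sub_right, inner_smul_right, real_inner_self_eq_norm_sq, he] at h1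
  have h2 : inner ℝ e v = 0 := by
    have : (s + 1) * inner ℝ e v = 0 := by linarith
    rcases mul_eq_zero.mp this with h | h
    · linarith
    · exact h
  rw [h2] at h
  simpa using h

lemma dGG_inj_a (s : ℝ) (hs : 0 < s) (e : E) (he : ‖e‖ = 1) (η ζ : E)
    (h : dGG s e (η, (0, ζ)) = 0) : η = 0 := by
  rw [dGG_apply, Prod.mk_eq_zero] at h
  obtain ⟨h1, h2⟩ := h
  have hk0 := kap_pos s
  have hk1 := kap_lt s hs
  have h3 : Lop s e (η + ζ) = 0 := by
    have : s • Lop s e (η + ζ) = 0 := by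
      rw [← neg_eq_zero, ← h1]
      simp only [map_add, map_sub, map_zero, smul_zero, smul_add, smul_sub]
      module
    exact (smul_eq_zero.mp this).resolve_left hs.ne'
  have h4 : ζ = -η := by
    have := Lop_inj s hs e he _ h3
    exact (neg_eq_of_add_eq_zero_right this).symm
  subst h4
  have h5 : (1 + 2 * kap s) • Lop s e η + (2 : ℝ) • η = 0 := by
    have : s • ((1 + 2 * kap s) • Lop s e η + (2 : ℝ) • η) = 0 := by
      rw [← neg_eq_zero, ← h2]
      simp only [map_sub, map_zero, map_neg]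
      module
    exact (smul_eq_zero.mp this).resolve_left hs.ne'
  have h6 : inner ℝ ((1 + 2 * kap s) • Lop s e η + (2 : ℝ) • η) η = 0 := by
    rw [h5, inner_zero_left]
  rw [Lop_apply] at h6
  simp only [inner_add_left, inner_sub_left, inner_smul_left, conj_trivial,
    real_inner_self_eq_norm_sq] at h6
  have h7 : (1 - 2 * kap s) * ‖η‖ ^ 2 ≤ 0 := by
    have : 0 ≤ (1 + 2 * kap s) * ((s + 2) * (inner ℝ e η) ^ 2) := by positivity
    nlinarith
  have h8 : ‖η‖ ^ 2 ≤ 0 := by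
    have : 0 < 1 - 2 * kap s := by linarith
    by_contra hcon
    push Not at hcon
    have := mul_pos this hcon
    linarith
  have h9 : ‖η‖ = 0 := by
    have : 0 ≤ ‖η‖ ^ 2 := by positivity
    exact pow_eq_zero_iff (two_ne_zero) |>.mp (le_antisymm h8 this)
  exact norm_eq_zero.mp h9

lemma dGG_inj_z (s : ℝ) (hs : 0 < s) (e : E) (he : ‖e‖ = 1) (η ξ : E)
    (h : dGG s e (η, (ξ, 0)) = 0) : η = 0 := by
  rw [dGG_apply, Prod.mk_eq_zero] at h
  obtain ⟨h1, h2⟩ := h
  have hk0 := kap_pos s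
  have hk1 := kap_lt s hs
  have h3 : Lop s e (ξ + kap s • η) = 0 := by
    have : s • Lop s e (ξ + kap s • η) = 0 := by
      rw [← neg_eq_zero, ← h2]
      simp only [map_add, smul_zero, map_smul, sub_zero]
      module
    exact (smul_eq_zero.mp this).resolve_left hs.ne'
  have h4 : ξ = -(kap s • η) := by
    have := Lop_inj s hs e he _ h3
    exact eq_neg_of_add_eq_zero_left this
  subst h4
  have h5 : (1 + 2 * kap s) • Lop s e η + (4 * kap s) • η = 0 := by
    have : s • ((1 + 2 * kap s) • Lop s e η + (4 * kap s) • η) = 0 := by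
      rw [← neg_eq_zero, ← h1]
      simp only [map_sub, map_neg, map_smul, sub_zero]
      module
    exact (smul_eq_zero.mp this).resolve_left hs.ne'
  have h6 : inner ℝ ((1 + 2 * kap s) • Lop s e η + (4 * kap s) • η) e = 0 := by
    rw [h5, inner_zero_left]
  rw [Lop_apply] at h6
  simp only [inner_add_left, inner_sub_left, inner_smul_left, conj_trivial,
    real_inner_self_eq_norm_sq, he] at h6
  rw [real_inner_comm e η] at h6
  have h7 : inner ℝ e η = 0 := by
    have h8 : ((1 + 2 * kap s) * (s + 1) + 4 * kap s) * inner ℝ e η = 0 := by linarith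
    have h9 : 0 < (1 + 2 * kap s) * (s + 1) + 4 * kap s := by positivity
    exact (mul_eq_zero.mp h8).resolve_left h9.ne'
  rw [Lop_apply, h7] at h5
  have h10 : (2 * kap s - 1) • η = 0 := by
    rw [← h5]; module
  exact (smul_eq_zero.mp h10).resolve_left (by linarith)

/-- The triple energy minus the explicit potentials of the first and third particle
(up to constants), as a function of `(y, (a, z))`. -/
noncomputable def FF (s : ℝ) (e : E) (p : E × (E × E)) : ℝ :=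
  phi s (p.2.1 - p.1) + phi s (p.2.1 - p.2.2) + phi s (p.1 - p.2.2) +
    2 * s * ‖p.2.1‖ ^ 2 - (s * (1 + 2 * kap s)) * inner ℝ e (p.2.2 + e) + s * ‖p.2.2 + e‖ ^ 2

lemma hasDerivAt_FF (s : ℝ) (e y a z v w : E) (t : ℝ)
    (h1 : a + t • v - y ≠ 0) (h2 : a + t • v - (z + t • w) ≠ 0) (h3 : y - (z + t • w) ≠ 0) :
    HasDerivAt (fun t : ℝ => FF s e (y, (a + t • v, z + t • w)))
      (inner ℝ (GG s e (y, (a + t • v, z + t • w))).1 v +
        inner ℝ (GG s e (y, (a + t • v, z + t • w))).2 w) t := by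
  have ha : HasDerivAt (fun t : ℝ => a + t • v) v t := by
    simpa using ((hasDerivAt_id t).smul_const v).const_add a
  have hz : HasDerivAt (fun t : ℝ => z + t • w) w t := by
    simpa using ((hasDerivAt_id t).smul_const w).const_add z
  have d1 : HasDerivAt (fun t : ℝ => phi s (a + t • v - y))
      (inner ℝ (gphi s (a + t • v - y)) v) t := by
    have := (hasFDerivAt_phi s h1).comp_hasDerivAt t (ha.sub_const y)
    rw [innerSL_apply_apply] at this
    exact this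
  have d2 : HasDerivAt (fun t : ℝ => phi s (a + t • v - (z + t • w)))
      (inner ℝ (gphi s (a + t • v - (z + t • w))) (v - w)) t := by
    have := (hasFDerivAt_phi s h2).comp_hasDerivAt t (ha.sub hz)
    rw [innerSL_apply_apply] at this
    exact this
  have d3 : HasDerivAt (fun t : ℝ => phi s (y - (z + t • w)))
      (inner ℝ (gphi s (y - (z + t • w))) (-w)) t := by
    have := (hasFDerivAt_phi s h3).comp_hasDerivAt t (hz.const_sub y)
    rw [innerSL_apply_apply] at this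
    exact this
  have d4 : HasDerivAt (fun t : ℝ => ‖a + t • v‖ ^ 2) (2 * inner ℝ (a + t • v) v) t := ha.norm_sq
  have d5 : HasDerivAt (fun t : ℝ => ‖z + t • w + e‖ ^ 2) (2 * inner ℝ (z + t • w + e) w) t :=
    (hz.add_const e).norm_sq
  have d6 : HasDerivAt (fun t : ℝ => inner ℝ e (z + t • w + e)) (inner ℝ e w) t := by
    have := ((innerSL ℝ e).hasFDerivAt (x := z + t • w + e)).comp_hasDerivAt t (hz.add_const e)
    rw [innerSL_apply_apply] at this
    exact this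
  have key := ((((d1.add d2).add d3).add (d4.const_mul (2 * s))).sub
    (d6.const_mul (s * (1 + 2 * kap s)))).add (d5.const_mul s)
  have hval : inner ℝ (GG s e (y, (a + t • v, z + t • w))).1 v +
        inner ℝ (GG s e (y, (a + t • v, z + t • w))).2 w =
      inner ℝ (gphi s (a + t • v - y)) v + inner ℝ (gphi s (a + t • v - (z + t • w))) (v - w) +
        inner ℝ (gphi s (y - (z + t • w))) (-w) + 2 * s * (2 * inner ℝ (a + t • v) v) -
        s * (1 + 2 * kap s) * inner ℝ e w + s * (2 * inner ℝ (z + t • w + e) w) := by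
    simp only [GG, inner_add_left, inner_sub_left, inner_neg_left, inner_smul_left, inner_sub_right,
      inner_neg_right, conj_trivial]
    ring
  rw [hval]
  exact key

lemma strict_min (s : ℝ) (hs : 0 < s) (e : E) (he : ‖e‖ = 1) :
    ∃ δ : ℝ, 0 < δ ∧ δ ≤ 1 / 4 ∧ ∀ y ∈ Metric.ball e δ, ∀ w₀ ∈ Metric.ball ((0 : E), -e) δ,
      ∀ w₁ ∈ Metric.ball ((0 : E), -e) δ, GG s e (y, w₀) = 0 → w₁ ≠ w₀ →
        FF s e (y, w₀) < FF s e (y, w₁) := by
  have hstrict : HasStrictFDerivAt (GG s e) (dGG s e) (e, (0, -e)) :=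
    (contDiffAt_GG s e he 1).hasStrictFDerivAt' (hasFDerivAt_GG s e he) one_ne_zero
  have h1 := hstrict.isLittleO.def (c := s / 80) (by positivity)
  rw [Metric.eventually_nhds_iff_ball] at h1
  obtain ⟨δ, hδ, hball⟩ := h1
  refine ⟨min δ (1 / 4), lt_min hδ (by norm_num), min_le_right _ _, ?_⟩
  intro y hy w₀ hw₀ w₁ hw₁ hG hne
  obtain ⟨a, z⟩ := w₀
  obtain ⟨a', z'⟩ := w₁
  have hδ1 : min δ (1 / 4) ≤ δ := min_le_left _ _
  have hδ2 : min δ (1 / 4) ≤ 1 / 4 := min_le_right _ _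
  set v := a' - a with hv
  set w := z' - z with hw
  -- points of the segment
  have hconv := convex_ball ((0 : E), -e) (min δ (1 / 4))
  have hseg : ∀ t ∈ Icc (0 : ℝ) 1, (a + t • v, z + t • w) ∈ Metric.ball ((0 : E), -e) (min δ (1/4)) := by
    intro t ht
    have := hconv hw₀ hw₁ (sub_nonneg.mpr ht.2) ht.1 (by ring)
    convert this using 1
    simp only [Prod.smul_mk, Prod.mk_add_mk, hv, hw]
    ext
    · simp only; module
    · simp only; module
  have hy4 : ‖y - e‖ < 1 / 4 := by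
    have := Metric.mem_ball.mp hy
    rw [dist_eq_norm] at this
    linarith
  have hnz : ∀ t ∈ Icc (0 : ℝ) 1, a + t • v - y ≠ 0 ∧ a + t • v - (z + t • w) ≠ 0 ∧
      y - (z + t • w) ≠ 0 := by
    intro t ht
    have h2 := Metric.mem_ball.mp (hseg t ht)
    rw [Prod.dist_eq, max_lt_iff] at h2
    simp only [dist_eq_norm] at h2
    obtain ⟨h3, h4⟩ := h2
    set A := a + t • v
    set Z := z + t • w
    have h3' : ‖A‖ < 1 / 4 := by rw [sub_zero] at h3; linarith
    have h4' : ‖Z + e‖ < 1 / 4 := by rw [sub_neg_eq_add] at h4; linarith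
    refine ⟨?_, ?_, ?_⟩
    · intro h
      have : e = A - (y - e) - (A - y) := by abel
      have h5 : ‖e‖ ≤ ‖A‖ + ‖y - e‖ := by
        rw [h, sub_zero] at this
        calc ‖e‖ = ‖A - (y - e)‖ := by rw [← this]
          _ ≤ _ := norm_sub_le _ _
      linarith
    · intro h
      have : e = (Z + e) - A + (A - Z) := by abel
      have h5 : ‖e‖ ≤ ‖Z + e‖ + ‖A‖ := by
        rw [h, add_zero] at this
        calc ‖e‖ = ‖(Z + e) - A‖ := by rw [← this]
          _ ≤ _ := norm_sub_le _ _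
      linarith
    · intro h
      have : (2 : ℝ) • e = (Z + e) - (y - e) + (y - Z) := by module
      have h5 : ‖(2 : ℝ) • e‖ ≤ ‖Z + e‖ + ‖y - e‖ := by
        rw [h, add_zero] at this
        calc ‖(2 : ℝ) • e‖ = ‖(Z + e) - (y - e)‖ := by rw [← this]
          _ ≤ _ := norm_sub_le _ _
      rw [norm_smul, he] at h5
      norm_num at h5
      linarith
  have hder : ∀ t ∈ Icc (0 : ℝ) 1, HasDerivAt (fun t : ℝ => FF s e (y, (a + t • v, z + t • w)))
      (inner ℝ (GG s e (y, (a + t • v, z + t • w))).1 v +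
        inner ℝ (GG s e (y, (a + t • v, z + t • w))).2 w) t := by
    intro t ht
    obtain ⟨h2, h3, h4⟩ := hnz t ht
    exact hasDerivAt_FF s e y a z v w t h2 h3 h4
  have hpos : ∀ t ∈ Ioo (0 : ℝ) 1, 0 < inner ℝ (GG s e (y, (a + t • v, z + t • w))).1 v +
        inner ℝ (GG s e (y, (a + t • v, z + t • w))).2 w := by
    intro t ht
    have hmem : ((y, (a + t • v, z + t • w)), (y, (a, z))) ∈
        Metric.ball (((e, ((0 : E), -e)), (e, ((0 : E), -e))) : (E × (E × E)) × (E × (E × E))) δ := by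
      have e1 := Metric.mem_ball.mp (hseg t ⟨ht.1.le, ht.2.le⟩)
      have e2 := Metric.mem_ball.mp hw₀
      have e3 := Metric.mem_ball.mp hy
      have e4 : dist ((y, (a + t • v, z + t • w)) : E × (E × E)) (e, ((0 : E), -e)) < δ := by
        rw [Prod.dist_eq]
        exact max_lt (lt_of_lt_of_le e3 hδ1) (lt_of_lt_of_le e1 hδ1)
      have e5 : dist ((y, (a, z)) : E × (E × E)) (e, ((0 : E), -e)) < δ := by
        rw [Prod.dist_eq]
        exact max_lt (lt_of_lt_of_le e3 hδ1) (lt_of_lt_of_le e2 hδ1)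
      rw [Metric.mem_ball, Prod.dist_eq]
      exact max_lt e4 e5
    have hb := hball _ hmem
    simp only at hb
    have hsub : ((y, (a + t • v, z + t • w)) : E × (E × E)) - (y, (a, z)) = t • (0, (v, w)) := by
      ext <;> simp
    rw [hsub, hG, sub_zero, map_smul, norm_smul, Real.norm_eq_abs, abs_of_pos ht.1] at hb
    set g := GG s e (y, (a + t • v, z + t • w)) with hg
    set D := dGG s e (0, (v, w)) with hD
    set N := ‖((0 : E), (v, w))‖ with hN
    have hNv : ‖v‖ ≤ N := by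
      calc ‖v‖ ≤ ‖((v, w) : E × E)‖ := norm_fst_le (v, w)
        _ ≤ N := norm_snd_le ((0 : E), (v, w))
    have hNw : ‖w‖ ≤ N := by
      calc ‖w‖ ≤ ‖((v, w) : E × E)‖ := norm_snd_le (v, w)
        _ ≤ N := norm_snd_le ((0 : E), (v, w))
    have hN2 : N ^ 2 ≤ ‖v‖ ^ 2 + ‖w‖ ^ 2 := by
      have : N = max ‖v‖ ‖w‖ := by
        rw [hN, Prod.norm_def, Prod.norm_def]
        simp only [norm_zero]
        exact max_eq_right (le_max_of_le_left (norm_nonneg _))
      rw [this]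
      rcases le_total ‖v‖ ‖w‖ with h | h
      · rw [max_eq_right h]; nlinarith [norm_nonneg v]
      · rw [max_eq_left h]; nlinarith [norm_nonneg w]
    have hN0 : 0 < N := by
      rw [hN, norm_pos_iff]
      intro h
      rw [Prod.mk_eq_zero, Prod.mk_eq_zero] at h
      obtain ⟨_, h5, h6⟩ := h
      apply hne
      ext
      · exact sub_eq_zero.mp h5
      · exact sub_eq_zero.mp h6
    have hp := dGG_posdef s hs e v w
    have e1 : inner ℝ g.1 v = t * inner ℝ D.1 v + inner ℝ (g - t • D).1 v := by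
      rw [Prod.fst_sub, inner_sub_left, Prod.smul_fst, inner_smul_left]
      simp
    have e2 : inner ℝ g.2 w = t * inner ℝ D.2 w + inner ℝ (g - t • D).2 w := by
      rw [Prod.snd_sub, inner_sub_left, Prod.smul_snd, inner_smul_left]
      simp
    have e3 : |inner ℝ (g - t • D).1 v| ≤ (s / 80 * (t * N)) * N := by
      calc |inner ℝ (g - t • D).1 v| ≤ ‖(g - t • D).1‖ * ‖v‖ := abs_real_inner_le_norm _ _
        _ ≤ (s / 80 * (t * N)) * N := by
          apply mul_le_mul ((norm_fst_le _).trans hb) hNv (norm_nonneg _)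
          have := ht.1
          positivity
    have e4 : |inner ℝ (g - t • D).2 w| ≤ (s / 80 * (t * N)) * N := by
      calc |inner ℝ (g - t • D).2 w| ≤ ‖(g - t • D).2‖ * ‖w‖ := abs_real_inner_le_norm _ _
        _ ≤ (s / 80 * (t * N)) * N := by
          apply mul_le_mul ((norm_snd_le _).trans hb) hNw (norm_nonneg _)
          have := ht.1
          positivity
    have e5 := (abs_le.mp e3).1
    have e6 := (abs_le.mp e4).1
    rw [e1, e2]
    have e7 : t * (s / 20 * N ^ 2) ≤ t * (inner ℝ D.1 v + inner ℝ D.2 w) := by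
      apply mul_le_mul_of_nonneg_left _ ht.1.le
      calc s / 20 * N ^ 2 ≤ s / 20 * (‖v‖ ^ 2 + ‖w‖ ^ 2) := by
            apply mul_le_mul_of_nonneg_left hN2 (by positivity)
        _ ≤ _ := hp
    have e8 : 0 < s / 40 * t * N ^ 2 := by
      have := ht.1
      positivity
    nlinarith
  have hmono : StrictMonoOn (fun t : ℝ => FF s e (y, (a + t • v, z + t • w))) (Icc 0 1) := by
    apply strictMonoOn_of_deriv_pos (convex_Icc 0 1)
    · intro t ht
      exact (hder t ht).continuousAt.continuousWithinAt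
    · intro t ht
      rw [interior_Icc] at ht
      rw [(hder t ⟨ht.1.le, ht.2.le⟩).deriv]
      exact hpos t ht
  have := hmono (left_mem_Icc.mpr zero_le_one) (right_mem_Icc.mpr zero_le_one) zero_lt_one
  simpa [hv, hw] using this

lemma exists_equiv_of_injective {V : Type*} [NormedAddCommGroup V] [NormedSpace ℝ V]
    [FiniteDimensional ℝ V] (A : V →L[ℝ] V) (h : Function.Injective A) :
    ∃ B : V ≃L[ℝ] V, (B : V →L[ℝ] V) = A := by
  refine ⟨(LinearEquiv.ofInjectiveEndo (A : V →ₗ[ℝ] V) h).toContinuousLinearEquiv, ?_⟩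
  ext v; rfl

/-- Local inverse with analytic inverse. -/
lemma exists_local_homeo [FiniteDimensional ℝ E] (f : E → E) (a b : E) (hab : f a = b)
    (hf : ContDiffAt ℝ ⊤ f a) (A : E →L[ℝ] E) (hA : HasFDerivAt f A a)
    (hinj : Function.Injective A) :
    ∃ (P : OpenPartialHomeomorph E E) (B : E ≃L[ℝ] E), (P : E → E) = f ∧ a ∈ P.source ∧
      b ∈ P.target ∧ P.symm b = a ∧ ContDiffAt ℝ ⊤ P.symm b ∧ (B : E →L[ℝ] E) = A ∧
      HasFDerivAt P.symm (B.symm : E →L[ℝ] E) b := by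
  obtain ⟨B, hB⟩ := exists_equiv_of_injective A hinj
  subst hab
  rw [← hB] at hA
  have hn : (⊤ : WithTop ℕ∞) ≠ 0 := by simp
  refine ⟨hf.toOpenPartialHomeomorph f hA hn, B, rfl, hf.mem_toOpenPartialHomeomorph_source hA hn,
    hf.image_mem_toOpenPartialHomeomorph_target hA hn, hf.localInverse_apply_image hA hn,
    hf.to_localInverse hA hn, hB, ?_⟩
  exact (HasStrictFDerivAt.to_localInverse (hf.hasStrictFDerivAt' hA hn)).hasFDerivAt

lemma exists_implicit [FiniteDimensional ℝ E] (s : ℝ) (hs : 0 < s) (e : E) (he : ‖e‖ = 1) :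
    ∃ (ψ : E → E × E) (ψ' : E →L[ℝ] E × E), ψ e = (0, -e) ∧ ContDiffAt ℝ ⊤ ψ e ∧
      (∀ᶠ y in 𝓝 e, GG s e (y, ψ y) = 0) ∧ HasFDerivAt ψ ψ' e ∧
      ∀ η, dGG s e (η, ψ' η) = 0 := by
  have hcd := contDiffAt_GG s e he ⊤
  have hn : (⊤ : WithTop ℕ∞) ≠ 0 := by simp
  have hfd : fderiv ℝ (GG s e) (e, (0, -e)) = dGG s e := (hasFDerivAt_GG s e he).fderiv
  have hinv : (fderiv ℝ (GG s e) (e, (0, -e)) ∘L .inr ℝ E (E × E)).IsInvertible := by
    rw [hfd]
    have hinj : Function.Injective (dGG s e ∘L .inr ℝ E (E × E)) := by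
      rw [injective_iff_map_eq_zero]
      rintro ⟨ξ, ζ⟩ h
      have h1 : dGG s e (0, (ξ, ζ)) = 0 := h
      have h2 := dGG_posdef s hs e ξ ζ
      rw [h1] at h2
      simp only [Prod.fst_zero, Prod.snd_zero, inner_zero_left, add_zero] at h2
      have h3 : ‖ξ‖ ^ 2 + ‖ζ‖ ^ 2 ≤ 0 := by
        by_contra hcon
        push Not at hcon
        have : 0 < s / 20 * (‖ξ‖ ^ 2 + ‖ζ‖ ^ 2) := by positivity
        linarith
      have h4 : ‖ξ‖ = 0 := by nlinarith [sq_nonneg ‖ξ‖, sq_nonneg ‖ζ‖]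
      have h5 : ‖ζ‖ = 0 := by nlinarith [sq_nonneg ‖ξ‖, sq_nonneg ‖ζ‖]
      rw [norm_eq_zero] at h4 h5
      rw [h4, h5]; rfl
    obtain ⟨B, hB⟩ := exists_equiv_of_injective _ hinj
    exact ⟨B, hB⟩
  refine ⟨hcd.implicitFunction hn hinv, _, hcd.implicitFunction_apply_self hn hinv,
    hcd.contDiffAt_implicitFunction hn hinv, ?_,
    (hcd.hasStrictFDerivAt_implicitFunction hn hinv).hasFDerivAt, ?_⟩
  · have := hcd.eventually_apply_implicitFunction hn hinv
    rw [GG_base s e he] at this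
    exact this
  · have h1 := hcd.eventually_apply_implicitFunction hn hinv
    rw [GG_base s e he] at h1
    have h2 := (hcd.hasStrictFDerivAt_implicitFunction hn hinv).hasFDerivAt
    set ψ := hcd.implicitFunction hn hinv
    set ψ' := -(fderiv ℝ (GG s e) (e, (0, -e)) ∘L .inr ℝ E (E × E)).inverse ∘L
      (fderiv ℝ (GG s e) (e, (0, -e)) ∘L .inl ℝ E (E × E))
    have h3 : HasFDerivAt (fun y : E => (y, ψ y)) ((ContinuousLinearMap.id ℝ E).prod ψ') e :=
      (hasFDerivAt_id e).prodMk h2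
    have h4 : HasFDerivAt (GG s e) (dGG s e) ((fun y : E => (y, ψ y)) e) := by
      have : ψ e = (0, -e) := hcd.implicitFunction_apply_self hn hinv
      simp only [this]
      exact hasFDerivAt_GG s e he
    have h5 := HasFDerivAt.comp (f := fun y : E => (y, ψ y)) e h4 h3
    have h6 : HasFDerivAt (fun y : E => GG s e (y, ψ y)) (0 : E →L[ℝ] E × E) e := by
      have h7 : (fun y : E => GG s e (y, ψ y)) =ᶠ[𝓝 e] fun _ => 0 := h1
      exact (hasFDerivAt_const (0 : E × E) e).congr_of_eventuallyEq h7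
    have h7 := h5.unique h6
    intro η
    have := DFunLike.congr_fun h7 η
    simpa using this

lemma continuousAt_phi (s : ℝ) {x : E} (hx : x ≠ 0) : ContinuousAt (phi s : E → ℝ) x :=
  (hasFDerivAt_phi s hx).continuousAt

lemma continuousAt_FF (s : ℝ) (e : E) (p : E × (E × E)) (h1 : p.2.1 - p.1 ≠ 0)
    (h2 : p.2.1 - p.2.2 ≠ 0) (h3 : p.1 - p.2.2 ≠ 0) : ContinuousAt (FF s e) p := by
  have c1 : ContinuousAt (fun p : E × (E × E) => phi s (p.2.1 - p.1)) p :=
    ContinuousAt.comp (f := fun p : E × (E × E) => p.2.1 - p.1) (continuousAt_phi s h1) (by fun_prop)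
  have c2 : ContinuousAt (fun p : E × (E × E) => phi s (p.2.1 - p.2.2)) p :=
    ContinuousAt.comp (f := fun p : E × (E × E) => p.2.1 - p.2.2) (continuousAt_phi s h2)
      (by fun_prop)
  have c3 : ContinuousAt (fun p : E × (E × E) => phi s (p.1 - p.2.2)) p :=
    ContinuousAt.comp (f := fun p : E × (E × E) => p.1 - p.2.2) (continuousAt_phi s h3)
      (by fun_prop)
  have c4 : ContinuousAt (fun p : E × (E × E) => 2 * s * ‖p.2.1‖ ^ 2) p := by fun_prop
  have c5 : ContinuousAt (fun p : E × (E × E) => (s * (1 + 2 * kap s)) * inner ℝ e (p.2.2 + e)) p := by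
    fun_prop
  have c6 : ContinuousAt (fun p : E × (E × E) => s * ‖p.2.2 + e‖ ^ 2) p := by fun_prop
  exact ((((c1.add c2).add c3).add c4).sub c5).add c6

lemma ne_of_near (e y a z : E) (he : ‖e‖ = 1) (hy : ‖y - e‖ < 1 / 4) (ha : ‖a‖ < 1 / 4)
    (hz : ‖z + e‖ < 1 / 4) : a - y ≠ 0 ∧ a - z ≠ 0 ∧ y - z ≠ 0 := by
  refine ⟨?_, ?_, ?_⟩
  · intro h
    have : e = a - (y - e) - (a - y) := by abel
    have h5 : ‖e‖ ≤ ‖a‖ + ‖y - e‖ := by
      rw [h, sub_zero] at this
      calc ‖e‖ = ‖a - (y - e)‖ := by rw [← this]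
        _ ≤ _ := norm_sub_le _ _
    linarith
  · intro h
    have : e = (z + e) - a + (a - z) := by abel
    have h5 : ‖e‖ ≤ ‖z + e‖ + ‖a‖ := by
      rw [h, add_zero] at this
      calc ‖e‖ = ‖(z + e) - a‖ := by rw [← this]
        _ ≤ _ := norm_sub_le _ _
    linarith
  · intro h
    have : (2 : ℝ) • e = (z + e) - (y - e) + (y - z) := by module
    have h5 : ‖(2 : ℝ) • e‖ ≤ ‖z + e‖ + ‖y - e‖ := by
      rw [h, add_zero] at this
      calc ‖(2 : ℝ) • e‖ = ‖(z + e) - (y - e)‖ := by rw [← this]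
        _ ≤ _ := norm_sub_le _ _
    rw [norm_smul, he] at h5
    norm_num at h5
    linarith

lemma FF_base (s : ℝ) (e : E) (he : ‖e‖ = 1) : FF s e (e, (0, -e)) = 2 + 2 ^ (-s) := by
  have h1 : (e : E) - -e = (2 : ℝ) • e := by module
  have h2 : (0 : E) - -e = e := by module
  have h3 : -e + e = 0 := by module
  have h4 : ‖(2 : ℝ) • e‖ = 2 := by rw [norm_smul, he]; norm_num
  simp only [FF, h1, h2, h3, phi, zero_sub, norm_neg, he, h4, Real.one_rpow, norm_zero,
    inner_zero_right]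
  ring

/-- The local structure of the contact set near `(0, e, -e)`. -/
theorem local_structure [FiniteDimensional ℝ E] (s : ℝ) (hs : 0 < s) (e : E) (he : ‖e‖ = 1) :
    ∃ (δ₀ δ₁ : ℝ) (P Q : OpenPartialHomeomorph E E) (u : E → ℝ),
      0 < δ₀ ∧ δ₀ ≤ 1 / 4 ∧ 0 < δ₁ ∧ P.source = Metric.ball 0 δ₁ ∧ Q.source = Metric.ball 0 δ₁ ∧
      P 0 = e ∧ Q 0 = -e ∧
      (∀ a ∈ Metric.ball (0 : E) δ₁, ContDiffAt ℝ ∞ P a ∧ ContDiffAt ℝ ∞ Q a ∧
        ContDiffAt ℝ ∞ P.symm (P a) ∧ ContDiffAt ℝ ∞ Q.symm (Q a)) ∧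
      ContinuousOn u (Metric.ball e δ₀) ∧ u e = 2 + 2 ^ (-s) ∧
      (∀ a ∈ Metric.ball (0 : E) δ₀, ∀ y ∈ Metric.ball e δ₀, ∀ z ∈ Metric.ball (-e) δ₀,
        u y ≤ FF s e (y, (a, z)) ∧ (u y = FF s e (y, (a, z)) → y = P a ∧ z = Q a)) ∧
      (∀ a ∈ Metric.ball (0 : E) δ₁, u (P a) = FF s e (P a, (a, Q a))) := by
  obtain ⟨ψ, ψ', hψe, hψcd, hψG, hψ', hlin⟩ := exists_implicit s hs e he
  obtain ⟨δ, hδ, hδ4, hmin⟩ := strict_min s hs e he
  -- components
  have hfst : ContDiffAt ℝ ⊤ (fun y => (ψ y).1) e := contDiffAt_fst.comp e hψcd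
  have hsnd : ContDiffAt ℝ ⊤ (fun y => (ψ y).2) e := contDiffAt_snd.comp e hψcd
  have hfst' : HasFDerivAt (fun y => (ψ y).1) ((ContinuousLinearMap.fst ℝ E E).comp ψ') e :=
    hψ'.fst
  have hsnd' : HasFDerivAt (fun y => (ψ y).2) ((ContinuousLinearMap.snd ℝ E E).comp ψ') e :=
    hψ'.snd
  have hinj1 : Function.Injective ((ContinuousLinearMap.fst ℝ E E).comp ψ') := by
    rw [injective_iff_map_eq_zero]
    intro η h
    have h1 := hlin η
    have h2 : ψ' η = (0, (ψ' η).2) := by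
      ext
      · exact h
      · rfl
    rw [h2] at h1
    exact dGG_inj_a s hs e he η _ h1
  have hinj2 : Function.Injective ((ContinuousLinearMap.snd ℝ E E).comp ψ') := by
    rw [injective_iff_map_eq_zero]
    intro η h
    have h1 := hlin η
    have h2 : ψ' η = ((ψ' η).1, 0) := by
      ext
      · rfl
      · exact h
    rw [h2] at h1
    exact dGG_inj_z s hs e he η _ h1
  obtain ⟨P₀, B, hP₀, hP₀s, hP₀t, hP₀e, hP₀cd, hB, hBd⟩ :=
    exists_local_homeo (fun y => (ψ y).1) e 0 (by simp [hψe]) hfst _ hfst' hinj1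
  -- the map to the third particle
  have hQcd : ContDiffAt ℝ ⊤ (fun a => (ψ (P₀.symm a)).2) 0 := by
    have h1 : ContDiffAt ℝ ⊤ (fun y => (ψ y).2) (P₀.symm 0) := by rw [hP₀e]; exact hsnd
    exact ContDiffAt.comp (f := P₀.symm) 0 h1 hP₀cd
  have hQd : HasFDerivAt (fun a => (ψ (P₀.symm a)).2)
      (((ContinuousLinearMap.snd ℝ E E).comp ψ').comp (B.symm : E →L[ℝ] E)) 0 := by
    have h1 : HasFDerivAt (fun y => (ψ y).2) ((ContinuousLinearMap.snd ℝ E E).comp ψ')
      (P₀.symm 0) := by rw [hP₀e]; exact hsnd'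
    exact HasFDerivAt.comp (f := P₀.symm) 0 h1 hBd
  have hinj3 : Function.Injective
      (((ContinuousLinearMap.snd ℝ E E).comp ψ').comp (B.symm : E →L[ℝ] E)) := by
    intro x y hxy
    exact B.symm.injective (hinj2 hxy)
  obtain ⟨Q₀, B', hQ₀, hQ₀s, hQ₀t, hQ₀e, hQ₀cd, hB', hBd'⟩ :=
    exists_local_homeo (fun a => (ψ (P₀.symm a)).2) 0 (-e) (by simp [hP₀e, hψe]) hQcd _ hQd hinj3
  -- δ₀
  have hψc : ContinuousAt ψ e := hψcd.continuousAt
  have ev1 : ∀ᶠ y in 𝓝 e, ψ y ∈ Metric.ball ((0 : E), -e) δ := by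
    apply hψc
    rw [hψe]
    exact Metric.ball_mem_nhds _ hδ
  have ev2 : ∀ᶠ y in 𝓝 e, y ∈ P₀.source := P₀.open_source.mem_nhds hP₀s
  have ev3 : ∀ᶠ y in 𝓝 e, ContinuousAt ψ y := by
    have := (hψcd.analyticAt).eventually_analyticAt
    filter_upwards [this] with y hy
    exact hy.continuousAt
  have evall := ((ev1.and ev2).and ev3).and hψG
  rw [Metric.eventually_nhds_iff_ball] at evall
  obtain ⟨ε₀, hε₀, hball⟩ := evall
  set δ₀ := min ε₀ δ with hδ₀def
  have hδ₀ : 0 < δ₀ := lt_min hε₀ hδ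
  have hδ₀' : δ₀ ≤ δ := min_le_right _ _
  have hδ₀ε : δ₀ ≤ ε₀ := min_le_left _ _
  -- δ₁
  have fv1 : ∀ᶠ a in 𝓝 (0 : E), a ∈ P₀.target := P₀.open_target.mem_nhds hP₀t
  have fv2 : ∀ᶠ a in 𝓝 (0 : E), a ∈ Q₀.source := Q₀.open_source.mem_nhds hQ₀s
  have fv3 : ∀ᶠ a in 𝓝 (0 : E), AnalyticAt ℝ P₀.symm a := hP₀cd.analyticAt.eventually_analyticAt
  have fv4 : ∀ᶠ a in 𝓝 (0 : E), AnalyticAt ℝ (fun a => (ψ (P₀.symm a)).2) a :=
    hQcd.analyticAt.eventually_analyticAt
  have fv5 : ∀ᶠ a in 𝓝 (0 : E), AnalyticAt ℝ (fun y => (ψ y).1) (P₀.symm a) := by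
    have h1 : ∀ᶠ y in 𝓝 e, AnalyticAt ℝ (fun y => (ψ y).1) y := hfst.analyticAt.eventually_analyticAt
    have h2 : ContinuousAt P₀.symm (0 : E) := hP₀cd.continuousAt
    unfold ContinuousAt at h2
    rw [hP₀e] at h2
    exact h2.eventually h1
  have fv6 : ∀ᶠ a in 𝓝 (0 : E), AnalyticAt ℝ Q₀.symm ((ψ (P₀.symm a)).2) := by
    have h1 : ∀ᶠ y in 𝓝 (-e), AnalyticAt ℝ Q₀.symm y := hQ₀cd.analyticAt.eventually_analyticAt
    have h2 : Tendsto (fun a => (ψ (P₀.symm a)).2) (𝓝 0) (𝓝 (-e)) := by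
      have h3 : ContinuousAt (fun a => (ψ (P₀.symm a)).2) 0 := hQcd.continuousAt
      unfold ContinuousAt at h3
      simpa [hP₀e, hψe] using h3
    exact h2.eventually h1
  have fvall := ((((fv1.and fv2).and fv3).and fv4).and fv5).and fv6
  rw [Metric.eventually_nhds_iff_ball] at fvall
  obtain ⟨δ₁, hδ₁, hball1⟩ := fvall
  refine ⟨δ₀, δ₁, P₀.symm.restr (Metric.ball 0 δ₁), Q₀.restr (Metric.ball 0 δ₁),
    fun y => FF s e (y, ψ y), hδ₀, hδ₀'.trans hδ4, hδ₁, ?_, ?_, ?_, ?_, ?_, ?_, ?_, ?_, ?_⟩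
  · rw [OpenPartialHomeomorph.restr_source, Metric.isOpen_ball.interior_eq]
    apply inter_eq_right.mpr
    intro a ha
    exact (hball1 a ha).1.1.1.1.1
  · rw [OpenPartialHomeomorph.restr_source, Metric.isOpen_ball.interior_eq]
    apply inter_eq_right.mpr
    intro a ha
    exact (hball1 a ha).1.1.1.1.2
  · rw [OpenPartialHomeomorph.restr_apply]; exact hP₀e
  · rw [OpenPartialHomeomorph.restr_apply, hQ₀]; simp [hP₀e, hψe]
  · intro a ha
    obtain ⟨⟨⟨⟨⟨g1, g2⟩, g3⟩, g4⟩, g5⟩, g6⟩ := hball1 a ha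
    refine ⟨?_, ?_, ?_, ?_⟩
    · rw [OpenPartialHomeomorph.restr_apply]; exact g3.contDiffAt
    · rw [OpenPartialHomeomorph.restr_apply, hQ₀]; exact g4.contDiffAt
    · have h1 : ((P₀.symm.restr (Metric.ball 0 δ₁)).symm : E → E) = fun y => (ψ y).1 := by
        rw [← hP₀]; rfl
      rw [OpenPartialHomeomorph.restr_apply, h1]
      exact g5.contDiffAt
    · have h1 : ((Q₀.restr (Metric.ball 0 δ₁)).symm : E → E) = Q₀.symm := rfl
      rw [OpenPartialHomeomorph.restr_apply, h1, hQ₀]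
      exact g6.contDiffAt
  · intro y hy
    apply ContinuousAt.continuousWithinAt
    have hy' : y ∈ Metric.ball e ε₀ := Metric.ball_subset_ball hδ₀ε hy
    obtain ⟨⟨⟨g1, g2⟩, g3⟩, g4⟩ := hball y hy'
    have hy4 : ‖y - e‖ < 1 / 4 := by
      have := Metric.mem_ball.mp hy
      rw [dist_eq_norm] at this
      linarith
    have h2 := Metric.mem_ball.mp g1
    rw [Prod.dist_eq, max_lt_iff] at h2
    simp only [dist_eq_norm, sub_zero, sub_neg_eq_add] at h2
    obtain ⟨n1, n2, n3⟩ := ne_of_near e y (ψ y).1 (ψ y).2 he hy4 (by linarith [h2.1])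
      (by linarith [h2.2])
    have h3 : ContinuousAt (FF s e) (y, ψ y) := continuousAt_FF s e (y, ψ y) n1 n2 n3
    exact ContinuousAt.comp (f := fun y => (y, ψ y)) h3 (continuousAt_id.prodMk g3)
  · simp only [hψe]
    exact FF_base s e he
  · intro a ha y hy z hz
    have hy' : y ∈ Metric.ball e ε₀ := Metric.ball_subset_ball hδ₀ε hy
    obtain ⟨⟨⟨g1, g2⟩, g3⟩, g4⟩ := hball y hy'
    have hw : ((a, z) : E × E) ∈ Metric.ball ((0 : E), -e) δ := by
      rw [Metric.mem_ball, Prod.dist_eq]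
      exact max_lt (lt_of_lt_of_le ha hδ₀') (lt_of_lt_of_le hz hδ₀')
    have hkey := hmin y (Metric.ball_subset_ball hδ₀' hy) (ψ y) g1 (a, z) hw g4
    constructor
    · by_cases h : ((a, z) : E × E) = ψ y
      · rw [h]
      · exact (hkey h).le
    · intro heq
      have h : ((a, z) : E × E) = ψ y := by
        by_contra h
        exact absurd heq (hkey h).ne
      have ha' : a = P₀ y := by rw [hP₀]; simp [← h]
      have hPa : P₀.symm a = y := by rw [ha']; exact P₀.left_inv g2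
      rw [OpenPartialHomeomorph.restr_apply, OpenPartialHomeomorph.restr_apply, hQ₀]
      simp only [hPa, ← h, and_self]
  · intro a ha
    obtain ⟨⟨⟨⟨⟨g1, g2⟩, g3⟩, g4⟩, g5⟩, g6⟩ := hball1 a ha
    rw [OpenPartialHomeomorph.restr_apply, OpenPartialHomeomorph.restr_apply, hQ₀]
    have h1 : ψ (P₀.symm a) = (a, (ψ (P₀.symm a)).2) := by
      ext
      · have := P₀.right_inv g1
        rw [hP₀] at this
        exact this
      · rfl
    exact congrArg (fun w => FF s e (P₀.symm a, w)) h1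

end Local

end Crest.Agent.S0175
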