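import Mathlib
import Crest.Prelude.Def_MultiMarginal
import Crest.Agent.S0175Local
import Crest.Agent.S0175Abstract
import Crest.Agent.S0175Density

set_option autoImplicit false
set_option linter.unusedSectionVars false

open MeasureTheory Set Filter
open scoped ENNReal Topology ContDiff
open Crest.AnalysisR.OT

namespace Crest.Agent.S0175

section Global

variable {E : Type*} [NormedAddCommGroup E] [InnerProductSpace ℝ E]

lemma pairCost_eq_phi (s : ℝ) (x y : E) (h : x ≠ y) :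
    pairCost s x y = ENNReal.ofReal (phi s (x - y)) := by
  unfold pairCost phi
  rw [ENNReal.ofReal_rpow_of_pos (norm_pos_iff.mpr (sub_ne_zero.mpr h))]

lemma pairCost_ge (s : ℝ) (hs : 0 < s) (x y : E) (t : ℝ) (ht : 0 < t) (h : ‖x - y‖ ≤ t) :
    ENNReal.ofReal (t ^ (-s)) ≤ pairCost s x y := by
  unfold pairCost
  rw [← ENNReal.ofReal_rpow_of_pos ht, ENNReal.rpow_neg, ENNReal.rpow_neg, ENNReal.inv_le_inv]
  exact ENNReal.rpow_le_rpow (ENNReal.ofReal_le_ofReal h) hs.le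

lemma phi_symm (s : ℝ) (x y : E) : phi s (x - y) = phi s (y - x) := by
  unfold phi; rw [norm_sub_rev]

/-- Potential of the central particle. -/
noncomputable def uA (s β : ℝ) (a : E) : ℝ := 2 + 2 ^ (-s) - 2 * β - 2 * s * ‖a‖ ^ 2

lemma local_package [FiniteDimensional ℝ E] (s : ℝ) (hs : 0 < s) (e : E) (he : ‖e‖ = 1) (β : ℝ) :
    ∃ (δ₀ δ₁ : ℝ) (P Q : OpenPartialHomeomorph E E) (v w : E → ℝ),
      0 < δ₀ ∧ δ₀ ≤ 1 / 4 ∧ 0 < δ₁ ∧ P.source = Metric.ball 0 δ₁ ∧ Q.source = Metric.ball 0 δ₁ ∧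
      P 0 = e ∧ Q 0 = -e ∧
      (∀ a ∈ P.source, ContDiffAt ℝ ∞ P a ∧ ContDiffAt ℝ ∞ P.symm (P a)) ∧
      (∀ a ∈ Q.source, ContDiffAt ℝ ∞ Q a ∧ ContDiffAt ℝ ∞ Q.symm (Q a)) ∧
      ContinuousOn v (Metric.ball e δ₀) ∧ v e = β ∧ Continuous w ∧ w (-e) = β ∧
      (∀ a ∈ Metric.ball (0 : E) δ₀, ∀ y ∈ Metric.ball e δ₀, ∀ z ∈ Metric.ball (-e) δ₀,
        uA s β a + v y + w z ≤ phi s (a - y) + phi s (a - z) + phi s (y - z) ∧
        (uA s β a + v y + w z = phi s (a - y) + phi s (a - z) + phi s (y - z) →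
          y = P a ∧ z = Q a)) ∧
      (∀ a ∈ Metric.ball (0 : E) δ₁, uA s β a + v (P a) + w (Q a) =
        phi s (a - P a) + phi s (a - Q a) + phi s (P a - Q a)) := by
  obtain ⟨δ₀, δ₁, P, Q, u, h1, h2, h3, h4, h5, h6, h7, h8, h9, h10, h11, h12⟩ :=
    local_structure s hs e he
  refine ⟨δ₀, δ₁, P, Q, fun y => u y - (2 + 2 ^ (-s)) + β,
    fun z => β + (s * (1 + 2 * kap s)) * inner ℝ e (z + e) - s * ‖z + e‖ ^ 2,
    h1, h2, h3, h4, h5, h6, h7, ?_, ?_, ?_, ?_, ?_, ?_, ?_, ?_⟩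
  · intro a ha
    rw [h4] at ha
    exact ⟨(h8 a ha).1, (h8 a ha).2.2.1⟩
  · intro a ha
    rw [h5] at ha
    exact ⟨(h8 a ha).2.1, (h8 a ha).2.2.2⟩
  · exact (h9.sub continuousOn_const).add continuousOn_const
  · simp only [h10]; ring
  · fun_prop
  · simp
  · intro a ha y hy z hz
    obtain ⟨q1, q2⟩ := h11 a ha y hy z hz
    simp only [FF] at q1 q2
    simp only [uA]
    constructor
    · linarith
    · intro h
      apply q2
      linarith
  · intro a ha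
    have := h12 a ha
    simp only [FF] at this
    simp only [uA]
    linarith

/-- Opposite index. -/
def opp : Fin 4 → Fin 4 := ![1, 0, 3, 2]

lemma global_package [FiniteDimensional ℝ E] (s : ℝ) (hs : 0 < s) (e₁ e₂ : E) (he₁ : ‖e₁‖ = 1)
    (he₂ : ‖e₂‖ = 1) (horth : inner ℝ e₁ e₂ = 0) (β : ℝ) :
    ∃ (c : Fin 4 → E) (H : Fin 4 → OpenPartialHomeomorph E E) (v : Fin 4 → E → ℝ) (δ₀ δ₁ : ℝ),
      0 < δ₀ ∧ 0 < δ₁ ∧ (∀ i, ‖c i‖ = 1) ∧ (∀ i, H i 0 = c i) ∧
      (∀ i, Metric.ball 0 δ₁ ⊆ (H i).source) ∧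
      (∀ i, ∀ a ∈ (H i).source, ContDiffAt ℝ ∞ (H i) a ∧ ContDiffAt ℝ ∞ (H i).symm (H i a)) ∧
      (∀ i, ContinuousOn (v i) (Metric.ball (c i) δ₀)) ∧ (∀ i, v i (c i) = β) ∧
      (∀ i, ∀ a ∈ Metric.ball (0 : E) δ₀, ∀ y ∈ Metric.ball (c i) δ₀,
        ∀ z ∈ Metric.ball (c (opp i)) δ₀,
        uA s β a + v i y + v (opp i) z ≤ phi s (a - y) + phi s (a - z) + phi s (y - z) ∧
        (uA s β a + v i y + v (opp i) z = phi s (a - y) + phi s (a - z) + phi s (y - z) →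
          y = H i a)) ∧
      (∀ i, ∀ a ∈ Metric.ball (0 : E) δ₁, uA s β a + v i (H i a) + v (opp i) (H (opp i) a) =
        phi s (a - H i a) + phi s (a - H (opp i) a) + phi s (H i a - H (opp i) a)) ∧
      (∀ i j, i ≠ j → j ≠ opp i → ‖c i - c j‖ ^ 2 = 2) ∧ (∀ i, ‖c i - c (opp i)‖ = 2) := by
  obtain ⟨δ₀, δ₁, P, Q, v, w, a1, a2, a3, a4, a5, a6, a7, a8, a9, a10, a11, a12, a13, a14, a15⟩ :=
    local_package s hs e₁ he₁ β
  obtain ⟨δ₀', δ₁', P', Q', v', w', b1, b2, b3, b4, b5, b6, b7, b8, b9, b10, b11, b12, b13, b14,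
    b15⟩ := local_package s hs e₂ he₂ β
  have r1 : ∀ x : E, Metric.ball x (min δ₀ δ₀') ⊆ Metric.ball x δ₀ := fun x =>
    Metric.ball_subset_ball (min_le_left _ _)
  have r2 : ∀ x : E, Metric.ball x (min δ₀ δ₀') ⊆ Metric.ball x δ₀' := fun x =>
    Metric.ball_subset_ball (min_le_right _ _)
  have s1 : ∀ x : E, Metric.ball x (min δ₁ δ₁') ⊆ Metric.ball x δ₁ := fun x =>
    Metric.ball_subset_ball (min_le_left _ _)
  have s2 : ∀ x : E, Metric.ball x (min δ₁ δ₁') ⊆ Metric.ball x δ₁' := fun x =>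
    Metric.ball_subset_ball (min_le_right _ _)
  have horth' : inner ℝ e₂ e₁ = 0 := by rw [real_inner_comm]; exact horth
  refine ⟨![e₁, -e₁, e₂, -e₂], ![P, Q, P', Q'], ![v, w, v', w'], min δ₀ δ₀', min δ₁ δ₁',
    lt_min a1 b1, lt_min a3 b3, ?_, ?_, ?_, ?_, ?_, ?_, ?_, ?_, ?_, ?_⟩
  · intro i; fin_cases i <;> simp [he₁, he₂]
  · intro i; fin_cases i
    · exact a6
    · exact a7
    · exact b6
    · exact b7
  · intro i; fin_cases i
    · show _ ⊆ P.source; rw [a4]; exact s1 0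
    · show _ ⊆ Q.source; rw [a5]; exact s1 0
    · show _ ⊆ P'.source; rw [b4]; exact s2 0
    · show _ ⊆ Q'.source; rw [b5]; exact s2 0
  · intro i; fin_cases i
    · exact a8
    · exact a9
    · exact b8
    · exact b9
  · intro i; fin_cases i
    · exact a10.mono (r1 _)
    · exact a12.continuousOn
    · exact b10.mono (r2 _)
    · exact b12.continuousOn
  · intro i; fin_cases i
    · exact a11
    · exact a13
    · exact b11
    · exact b13
  · intro i; fin_cases i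
    · intro a ha y hy z hz
      obtain ⟨q1, q2⟩ := a14 a (r1 _ ha) y (r1 _ hy) z (r1 _ hz)
      exact ⟨q1, fun h => (q2 h).1⟩
    · intro a ha y hy z hz
      obtain ⟨q1, q2⟩ := a14 a (r1 _ ha) z (r1 _ hz) y (r1 _ hy)
      have hc := phi_symm s z y
      refine ⟨?_, fun h => ?_⟩
      · show uA s β a + w y + v z ≤ phi s (a - y) + phi s (a - z) + phi s (y - z)
        linarith
      · have h' : uA s β a + w y + v z = phi s (a - y) + phi s (a - z) + phi s (y - z) := h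
        exact (q2 (by linarith)).2
    · intro a ha y hy z hz
      obtain ⟨q1, q2⟩ := b14 a (r2 _ ha) y (r2 _ hy) z (r2 _ hz)
      exact ⟨q1, fun h => (q2 h).1⟩
    · intro a ha y hy z hz
      obtain ⟨q1, q2⟩ := b14 a (r2 _ ha) z (r2 _ hz) y (r2 _ hy)
      have hc := phi_symm s z y
      refine ⟨?_, fun h => ?_⟩
      · show uA s β a + w' y + v' z ≤ phi s (a - y) + phi s (a - z) + phi s (y - z)
        linarith
      · have h' : uA s β a + w' y + v' z = phi s (a - y) + phi s (a - z) + phi s (y - z) := h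
        exact (q2 (by linarith)).2
  · intro i; fin_cases i
    · intro a ha
      exact a15 a (s1 _ ha)
    · intro a ha
      have := a15 a (s1 _ ha)
      have hc := phi_symm s (P a) (Q a)
      show uA s β a + w (Q a) + v (P a) = phi s (a - Q a) + phi s (a - P a) + phi s (Q a - P a)
      linarith
    · intro a ha
      exact b15 a (s2 _ ha)
    · intro a ha
      have := b15 a (s2 _ ha)
      have hc := phi_symm s (P' a) (Q' a)
      show uA s β a + w' (Q' a) + v' (P' a) =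
        phi s (a - Q' a) + phi s (a - P' a) + phi s (Q' a - P' a)
      linarith
  · intro i j hij hij'
    have key : ∀ x y : E, ‖x‖ = 1 → ‖y‖ = 1 → inner ℝ x y = 0 → ‖x - y‖ ^ 2 = 2 := by
      intro x y hx hy hxy
      rw [norm_sub_sq_real, hx, hy, hxy]; norm_num
    have n1 : ‖-e₁‖ = 1 := by rw [norm_neg]; exact he₁
    have n2 : ‖-e₂‖ = 1 := by rw [norm_neg]; exact he₂
    have o1 : inner ℝ e₁ (-e₂) = 0 := by rw [inner_neg_right, horth, neg_zero]
    have o2 : inner ℝ (-e₁) e₂ = 0 := by rw [inner_neg_left, horth, neg_zero]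
    have o3 : inner ℝ (-e₁) (-e₂) = 0 := by
      rw [inner_neg_left, inner_neg_right, horth, neg_zero, neg_zero]
    have o4 : inner ℝ e₂ (-e₁) = 0 := by rw [inner_neg_right, horth', neg_zero]
    have o5 : inner ℝ (-e₂) e₁ = 0 := by rw [inner_neg_left, horth', neg_zero]
    have o6 : inner ℝ (-e₂) (-e₁) = 0 := by
      rw [inner_neg_left, inner_neg_right, horth', neg_zero, neg_zero]
    fin_cases i <;> fin_cases j <;> simp only [opp] at hij hij'
    · exact absurd rfl hij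
    · exact absurd rfl hij'
    · exact key _ _ he₁ he₂ horth
    · exact key _ _ he₁ n2 o1
    · exact absurd rfl hij'
    · exact absurd rfl hij
    · exact key _ _ n1 he₂ o2
    · exact key _ _ n1 n2 o3
    · exact key _ _ he₂ he₁ horth'
    · exact key _ _ he₂ n1 o4
    · exact absurd rfl hij
    · exact absurd rfl hij'
    · exact key _ _ n2 he₁ o5
    · exact key _ _ n2 n1 o6
    · exact absurd rfl hij'
    · exact absurd rfl hij
  · intro i
    have key : ∀ e : E, ‖e‖ = 1 → ‖e - -e‖ = 2 := by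
      intro e he
      rw [show e - -e = (2 : ℝ) • e by module, norm_smul, he]; norm_num
    have key' : ∀ e : E, ‖e‖ = 1 → ‖-e - e‖ = 2 := by
      intro e he
      rw [show -e - e = (-2 : ℝ) • e by module, norm_smul, he]; norm_num
    fin_cases i
    · exact key e₁ he₁
    · exact key' e₁ he₁
    · exact key e₂ he₂
    · exact key' e₂ he₂

/-- Choice of the radius. -/
lemma exists_radius (s : ℝ) (hs : 0 < s) (β tol g K0 : ℝ) (htol : 0 < tol) (hg : 0 < g)
    (hK : 0 < K0) (hKβ : 0 < K0 - 2 * β) (c : Fin 4 → E) (v : Fin 4 → E → ℝ) (δ₀ : ℝ)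
    (hδ₀ : 0 < δ₀) (hc : ∀ i, ContinuousOn (v i) (Metric.ball (c i) δ₀))
    (hv : ∀ i, v i (c i) = β) :
    ∃ R : ℝ, 0 < R ∧ R ≤ δ₀ ∧ R ≤ 1 / 24 ∧
      (∀ i, ∀ y ∈ Metric.ball (c i) R, |v i y - β| ≤ tol) ∧
      2 * s * R ^ 2 ≤ K0 - 2 * β ∧ 2 - g / 4 ≤ 2 * (1 + 2 * R) ^ (-s) ∧
      3 * K0 < (2 * R) ^ (-s) := by
  have e1 : ∀ᶠ R in 𝓝[>] (0 : ℝ), 0 < R := eventually_mem_nhdsWithin
  have e2 : ∀ᶠ R in 𝓝[>] (0 : ℝ), R < δ₀ := (gt_mem_nhds hδ₀).filter_mono nhdsWithin_le_nhds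
  have e3 : ∀ᶠ R in 𝓝[>] (0 : ℝ), R < 1 / 24 :=
    (gt_mem_nhds (by norm_num)).filter_mono nhdsWithin_le_nhds
  have e4 : ∀ᶠ R in 𝓝[>] (0 : ℝ), ∀ i, ∀ y ∈ Metric.ball (c i) R, |v i y - β| ≤ tol := by
    rw [eventually_all]
    intro i
    have h1 : ContinuousAt (v i) (c i) :=
      (hc i).continuousAt (Metric.ball_mem_nhds _ hδ₀)
    have h2 : ∀ᶠ y in 𝓝 (c i), |v i y - β| < tol := by
      have h3 := Metric.tendsto_nhds.mp h1 tol htol
      rw [hv i] at h3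
      exact h3
    rw [Metric.eventually_nhds_iff_ball] at h2
    obtain ⟨ε, hε, hball⟩ := h2
    have h4 : ∀ᶠ R in 𝓝[>] (0 : ℝ), R < ε := (gt_mem_nhds hε).filter_mono nhdsWithin_le_nhds
    filter_upwards [h4] with R hR y hy
    exact (hball y (Metric.ball_subset_ball hR.le hy)).le
  have e5 : ∀ᶠ R in 𝓝[>] (0 : ℝ), 2 * s * R ^ 2 < K0 - 2 * β := by
    have h1 : ContinuousAt (fun R : ℝ => 2 * s * R ^ 2) 0 := by fun_prop
    have h2 : (fun R : ℝ => 2 * s * R ^ 2) 0 < K0 - 2 * β := by simpa using hKβ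
    exact (h1.eventually (gt_mem_nhds h2)).filter_mono nhdsWithin_le_nhds
  have e6 : ∀ᶠ R in 𝓝[>] (0 : ℝ), 2 - g / 4 < 2 * (1 + 2 * R) ^ (-s) := by
    have h1 : ContinuousAt (fun R : ℝ => 2 * (1 + 2 * R) ^ (-s)) 0 := by
      apply ContinuousAt.mul continuousAt_const
      apply ContinuousAt.rpow_const
      · fun_prop
      · left; norm_num
    have h2 : 2 - g / 4 < (fun R : ℝ => 2 * (1 + 2 * R) ^ (-s)) 0 := by simp; linarith
    exact (h1.eventually (lt_mem_nhds h2)).filter_mono nhdsWithin_le_nhds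
  have e7 : ∀ᶠ R in 𝓝[>] (0 : ℝ), 3 * K0 < (2 * R) ^ (-s) := by
    set t : ℝ := (3 * K0 + 1) ^ (-(1 / s)) with ht
    have h0 : 0 < 3 * K0 + 1 := by positivity
    have ht0 : 0 < t := Real.rpow_pos_of_pos h0 _
    have ht1 : t ^ (-s) = 3 * K0 + 1 := by
      rw [ht, ← Real.rpow_mul h0.le]
      have : -(1 / s) * -s = 1 := by field_simp
      rw [this, Real.rpow_one]
    have h1 : ∀ᶠ R in 𝓝[>] (0 : ℝ), R < t / 2 :=
      (gt_mem_nhds (by positivity)).filter_mono nhdsWithin_le_nhds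
    filter_upwards [h1, e1] with R hR hR0
    have h2 : t ^ (-s) ≤ (2 * R) ^ (-s) :=
      Real.rpow_le_rpow_of_nonpos (by positivity) (by linarith) (by linarith)
    linarith
  obtain ⟨R, ⟨⟨⟨⟨⟨⟨r1, r2⟩, r3⟩, r4⟩, r5⟩, r6⟩, r7⟩⟩ :=
    ((((((e1.and e2).and e3).and e4).and e5).and e6).and e7).exists
  exact ⟨R, r1, r2.le, r3.le, r4, r5.le, r6.le, r7⟩

end Global

end Crest.Agent.S0175
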