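import Mathlib
import Crest.Prelude.Def_MultiMarginal
import Crest.Agent.S0175Global

set_option autoImplicit false
set_option linter.unusedSectionVars false

open MeasureTheory Set Filter
open scoped ENNReal Topology ContDiff
open Crest.AnalysisR.OT

namespace Crest.Agent.S0175

section DataConstruction

variable {E : Type*} [NormedAddCommGroup E] [InnerProductSpace ℝ E] [FiniteDimensional ℝ E]
  [MeasurableSpace E] [BorelSpace E]

lemma opp_ne (i : Fin 4) : opp i ≠ i := by fin_cases i <;> decide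

lemma measurable_indicator_of_continuousOn {f : E → ℝ≥0∞} {s : Set E} (hf : ContinuousOn f s)
    (hs : MeasurableSet s) : Measurable (s.indicator f) := by
  classical
  rw [← piecewise_eq_indicator]
  exact hf.measurable_piecewise continuousOn_const hs

lemma measurable_piecewise_of_continuousOn {f : E → E} {s : Set E} (hf : ContinuousOn f s)
    (hs : MeasurableSet s) (c : E) :
    Measurable (fun x => open Classical in if x ∈ s then f x else c) := by
  classical
  have := hf.measurable_piecewise (continuousOn_const (c := c)) hs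
  exact this

/-- The geometric core: existence of all blobs and potentials. -/
theorem exists_config (s : ℝ) (hs : 0 < s) (e₁ e₂ : E) (he₁ : ‖e₁‖ = 1)
    (he₂ : ‖e₂‖ = 1) (horth : inner ℝ e₁ e₂ = 0) :
    ∃ (ρ₀ R : ℝ) (c : Fin 4 → E) (H : Fin 4 → OpenPartialHomeomorph E E) (U : E → ℝ≥0∞),
      0 < ρ₀ ∧ ρ₀ ≤ R ∧ R ≤ 1 / 24 ∧ (∀ i, ‖c i‖ = 1) ∧
      (∀ i, Metric.ball 0 ρ₀ ⊆ (H i).source) ∧
      (∀ i, ∀ a ∈ (H i).source, ContDiffAt ℝ ∞ (H i) a ∧ ContDiffAt ℝ ∞ (H i).symm (H i a)) ∧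
      (∀ i, ∀ a ∈ Metric.ball (0 : E) ρ₀, H i a ∈ Metric.ball (c i) R) ∧
      (∀ i, Disjoint (Metric.ball (0 : E) ρ₀) (Metric.ball (c i) R)) ∧
      (∀ i j, i ≠ j → Disjoint (Metric.ball (c i) R) (Metric.ball (c j) R)) ∧
      Measurable U ∧ (∃ C : ℝ≥0∞, C ≠ ⊤ ∧
        ∀ x ∈ Metric.ball (0 : E) ρ₀ ∪ ⋃ i, Metric.ball (c i) R, U x ≤ C) ∧
      (∀ x ∈ Metric.ball (0 : E) ρ₀ ∪ ⋃ i, Metric.ball (c i) R,
        ∀ y ∈ Metric.ball (0 : E) ρ₀ ∪ ⋃ i, Metric.ball (c i) R,
        ∀ z ∈ Metric.ball (0 : E) ρ₀ ∪ ⋃ i, Metric.ball (c i) R,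
        U x + U y + U z ≤ tripleCost s (x, y, z)) ∧
      (∀ a ∈ Metric.ball (0 : E) ρ₀, tripleCost s (a, H 0 a, H 1 a) = U a + U (H 0 a) + U (H 1 a)) ∧
      (∀ a ∈ Metric.ball (0 : E) ρ₀, tripleCost s (a, H 2 a, H 3 a) = U a + U (H 2 a) + U (H 3 a)) ∧
      (∀ a ∈ Metric.ball (0 : E) ρ₀, ∀ y ∈ Metric.ball (0 : E) ρ₀ ∪ ⋃ i, Metric.ball (c i) R,
        ∀ z ∈ Metric.ball (0 : E) ρ₀ ∪ ⋃ i, Metric.ball (c i) R,
        tripleCost s (a, y, z) = U a + U y + U z → ∃ i, y = H i a) := by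
  classical
  -- constants
  set K0 : ℝ := 2 + 2 ^ (-s) with hK0
  set b3 : ℝ := 3 ^ (-s) with hb3
  set β : ℝ := b3 / 2 with hβ
  set g : ℝ := (3 / 2 : ℝ) ^ (-s) - 2 ^ (-s) with hg
  set tol : ℝ := min (b3 / 2) (g / 8) with htol
  have p2 : (0 : ℝ) < 2 ^ (-s) := Real.rpow_pos_of_pos (by norm_num) _
  have p3 : 0 < b3 := Real.rpow_pos_of_pos (by norm_num) _
  have p3' : b3 < 1 := Real.rpow_lt_one_of_one_lt_of_neg (by norm_num) (by linarith)
  have pg : 0 < g := by
    have : (2 : ℝ) ^ (-s) < (3 / 2 : ℝ) ^ (-s) :=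
      Real.rpow_lt_rpow_of_neg (by norm_num) (by norm_num) (by linarith)
    linarith
  have ptol : 0 < tol := lt_min (by linarith) (by linarith)
  have tol1 : tol ≤ b3 / 2 := min_le_left _ _
  have tol2 : tol ≤ g / 8 := min_le_right _ _
  have pK : 0 < K0 := by linarith
  have pKβ : 0 < K0 - 2 * β := by linarith
  obtain ⟨c, H, v, δ₀, δ₁, hδ₀, hδ₁, hc, hH0, hHs, hHd, hvc, hvβ, hloc, heq, hgeo, hgeo'⟩ :=
    global_package s hs e₁ e₂ he₁ he₂ horth β
  obtain ⟨R, hR, hRδ, hR24, hvt, hRA, hR5, hR6⟩ :=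
    exists_radius s hs β tol g K0 ptol pg pK pKβ c v δ₀ hδ₀ hvc hvβ
  -- choice of ρ₀
  have ev : ∀ᶠ a in 𝓝 (0 : E), ∀ i, H i a ∈ Metric.ball (c i) R := by
    rw [eventually_all]
    intro i
    have h1 : (0 : E) ∈ (H i).source := hHs i (Metric.mem_ball_self hδ₁)
    have h2 : ContinuousAt (H i) 0 := ((hHd i 0 h1).1).continuousAt
    apply h2
    rw [hH0 i]
    exact Metric.ball_mem_nhds _ hR
  rw [Metric.eventually_nhds_iff_ball] at ev
  obtain ⟨ρ₁, hρ₁, hball⟩ := ev
  set ρ₀ : ℝ := min (min ρ₁ δ₁) R with hρ₀def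
  have hρ₀ : 0 < ρ₀ := lt_min (lt_min hρ₁ hδ₁) hR
  have hρR : ρ₀ ≤ R := min_le_right _ _
  have hρδ : ρ₀ ≤ δ₁ := (min_le_left _ _).trans (min_le_right _ _)
  have hρρ : ρ₀ ≤ ρ₁ := (min_le_left _ _).trans (min_le_left _ _)
  set A : Set E := Metric.ball 0 ρ₀ with hA
  set B : Fin 4 → Set E := fun i => Metric.ball (c i) R with hB
  have nA : ∀ a ∈ A, ‖a‖ < R := fun a ha => by
    have := Metric.mem_ball.mp ha
    rw [dist_zero_right] at this
    linarith
  have nB : ∀ i, ∀ y ∈ B i, ‖y - c i‖ < R := fun i y hy => by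
    have := Metric.mem_ball.mp hy
    rwa [dist_eq_norm] at this
  -- distances
  have D1 : ∀ i, ∀ a ∈ A, ∀ y ∈ B i, ‖a - y‖ ≤ 1 + 2 * R := by
    intro i a ha y hy
    have : a - y = a - (y - c i) - c i := by abel
    rw [this]
    calc ‖a - (y - c i) - c i‖ ≤ ‖a - (y - c i)‖ + ‖c i‖ := norm_sub_le _ _
      _ ≤ ‖a‖ + ‖y - c i‖ + ‖c i‖ := by gcongr; exact norm_sub_le _ _
      _ ≤ 1 + 2 * R := by linarith [nA a ha, nB i y hy, (hc i).le]
  have D2 : ∀ a ∈ A, ∀ a' ∈ A, ‖a - a'‖ ≤ 2 * R := by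
    intro a ha a' ha'
    calc ‖a - a'‖ ≤ ‖a‖ + ‖a'‖ := norm_sub_le _ _
      _ ≤ 2 * R := by linarith [nA a ha, nA a' ha']
  have Dgen : ∀ i j, ∀ y ∈ B i, ∀ z ∈ B j, ‖y - z‖ ≤ ‖c i - c j‖ + 2 * R := by
    intro i j y hy z hz
    have : y - z = (c i - c j) + ((y - c i) - (z - c j)) := by abel
    rw [this]
    calc ‖(c i - c j) + ((y - c i) - (z - c j))‖ ≤ ‖c i - c j‖ + ‖(y - c i) - (z - c j)‖ :=
          norm_add_le _ _
      _ ≤ ‖c i - c j‖ + (‖y - c i‖ + ‖z - c j‖) := by gcongr; exact norm_sub_le _ _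
      _ ≤ ‖c i - c j‖ + 2 * R := by linarith [nB i y hy, nB j z hz]
  have D3 : ∀ i j, j ≠ opp i → ∀ y ∈ B i, ∀ z ∈ B j, ‖y - z‖ ≤ 3 / 2 := by
    intro i j hij y hy z hz
    have h1 := Dgen i j y hy z hz
    by_cases h : i = j
    · subst h
      rw [sub_self, norm_zero] at h1
      linarith
    · have h2 := hgeo i j h hij
      have h3 : ‖c i - c j‖ ≤ 1415 / 1000 := by
        by_contra hcon
        push Not at hcon
        nlinarith [norm_nonneg (c i - c j)]
      linarith
  have D4 : ∀ i j, ∀ y ∈ B i, ∀ z ∈ B j, ‖y - z‖ ≤ 3 := by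
    intro i j y hy z hz
    have h1 := Dgen i j y hy z hz
    have h2 : ‖c i - c j‖ ≤ 2 := by
      calc ‖c i - c j‖ ≤ ‖c i‖ + ‖c j‖ := norm_sub_le _ _
        _ = 2 := by rw [hc i, hc j]; norm_num
    linarith
  have hAB : ∀ i, Disjoint A (B i) := by
    intro i
    rw [Set.disjoint_left]
    intro x hx hx'
    have h1 := nA x hx
    have h2 := nB i x hx'
    have h3 : ‖c i‖ ≤ ‖x‖ + ‖x - c i‖ := by
      calc ‖c i‖ = ‖x - (x - c i)‖ := by congr 1; abel
        _ ≤ _ := norm_sub_le _ _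
    rw [hc i] at h3
    linarith
  have hBB : ∀ i j, i ≠ j → Disjoint (B i) (B j) := by
    intro i j hij
    rw [Set.disjoint_left]
    intro x hx hx'
    have h1 := nB i x hx
    have h2 := nB j x hx'
    have h3 : ‖c i - c j‖ ≤ ‖x - c j‖ + ‖x - c i‖ := by
      calc ‖c i - c j‖ = ‖(x - c j) - (x - c i)‖ := by congr 1; abel
        _ ≤ _ := norm_sub_le _ _
    have h4 : 1 ≤ ‖c i - c j‖ := by
      by_cases h : j = opp i
      · rw [h, hgeo' i]; norm_num
      · have := hgeo i j hij h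
        nlinarith [norm_nonneg (c i - c j)]
    linarith
  have neAB : ∀ i, ∀ a ∈ A, ∀ y ∈ B i, a ≠ y := by
    intro i a ha y hy h
    exact Set.disjoint_left.mp (hAB i) ha (h ▸ hy)
  have neBB : ∀ i j, i ≠ j → ∀ y ∈ B i, ∀ z ∈ B j, y ≠ z := by
    intro i j hij y hy z hz h
    exact Set.disjoint_left.mp (hBB i j hij) hy (h ▸ hz)
  -- potential
  set U : E → ℝ≥0∞ := fun x => A.indicator (fun x => ENNReal.ofReal (uA s β x)) x +
    ∑ i, (B i).indicator (fun x => ENNReal.ofReal (v i x)) x with hU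
  have mU : Measurable U := by
    apply Measurable.add
    · apply measurable_indicator_of_continuousOn _ measurableSet_ball
      apply Continuous.continuousOn
      unfold uA
      exact ENNReal.continuous_ofReal.comp (by fun_prop)
    · have hm : ∀ i, Measurable ((B i).indicator (fun x => ENNReal.ofReal (v i x))) := by
        intro i
        apply measurable_indicator_of_continuousOn _ measurableSet_ball
        exact ENNReal.continuous_ofReal.comp_continuousOn
          ((hvc i).mono (Metric.ball_subset_ball hRδ))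
      exact Finset.measurable_fun_sum _ (fun i _ => hm i)
  have UA : ∀ a ∈ A, U a = ENNReal.ofReal (uA s β a) := by
    intro a ha
    simp only [hU]
    rw [indicator_of_mem ha, Finset.sum_eq_zero, add_zero]
    intro i _
    rw [indicator_of_notMem]
    exact fun h => Set.disjoint_left.mp (hAB i) ha h
  have UB : ∀ i, ∀ y ∈ B i, U y = ENNReal.ofReal (v i y) := by
    intro i y hy
    simp only [hU]
    rw [indicator_of_notMem (fun h => Set.disjoint_left.mp (hAB i) h hy), zero_add,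
      Finset.sum_eq_single i, indicator_of_mem hy]
    · intro j _ hj
      rw [indicator_of_notMem]
      exact fun h => Set.disjoint_left.mp (hBB j i hj) h hy
    · intro h; exact absurd (Finset.mem_univ i) h
  -- bounds on potentials
  have F1 : ∀ a ∈ A, 0 ≤ uA s β a ∧ uA s β a ≤ K0 - 2 * β := by
    intro a ha
    have h1 := nA a ha
    have h2 : ‖a‖ ^ 2 ≤ R ^ 2 := by
      apply pow_le_pow_left₀ (norm_nonneg a) h1.le
    have h3 : 2 * s * ‖a‖ ^ 2 ≤ 2 * s * R ^ 2 := by
      apply mul_le_mul_of_nonneg_left h2 (by linarith)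
    have h4 : 0 ≤ 2 * s * ‖a‖ ^ 2 := by positivity
    simp only [uA]
    constructor <;> linarith
  have F2 : ∀ i, ∀ y ∈ B i, 0 ≤ v i y ∧ v i y ≤ β + tol := by
    intro i y hy
    have := abs_le.mp (hvt i y hy)
    constructor
    · linarith
    · linarith
  have F3 : ∀ x ∈ A ∪ ⋃ i, B i, U x ≤ ENNReal.ofReal K0 := by
    rintro x (hx | hx)
    · rw [UA x hx]
      exact ENNReal.ofReal_le_ofReal (by linarith [(F1 x hx).2])
    · obtain ⟨i, hi⟩ := mem_iUnion.mp hx
      rw [UB i x hi]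
      exact ENNReal.ofReal_le_ofReal (by linarith [(F2 i x hi).2])
  have F4 : ∀ i, ∀ y ∈ B i, U y ≤ ENNReal.ofReal b3 := by
    intro i y hy
    rw [UB i y hy]
    exact ENNReal.ofReal_le_ofReal (by linarith [(F2 i y hy).2])
  -- two in A
  have G2 : ∀ a ∈ A, ∀ a' ∈ A, ∀ z ∈ A ∪ ⋃ i, B i, U a + U a' + U z < tripleCost s (a, a', z) := by
    intro a ha a' ha' z hz
    have h1 : ENNReal.ofReal ((2 * R) ^ (-s)) ≤ pairCost s a a' :=
      pairCost_ge s hs a a' _ (by linarith) (D2 a ha a' ha')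
    calc U a + U a' + U z ≤ ENNReal.ofReal K0 + ENNReal.ofReal K0 + ENNReal.ofReal K0 := by
          gcongr
          · exact F3 a (Or.inl ha)
          · exact F3 a' (Or.inl ha')
          · exact F3 z hz
      _ = ENNReal.ofReal (3 * K0) := by
          rw [← ENNReal.ofReal_add pK.le pK.le, ← ENNReal.ofReal_add (by linarith) pK.le]
          congr 1; ring
      _ < ENNReal.ofReal ((2 * R) ^ (-s)) := by
          rw [ENNReal.ofReal_lt_ofReal_iff (by linarith)]
          exact hR6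
      _ ≤ pairCost s a a' := h1
      _ ≤ tripleCost s (a, a', z) := by
          simp only [tripleCost, add_assoc]
          exact le_self_add
  -- none in A
  have G0 : ∀ i j k, ∀ x ∈ B i, ∀ y ∈ B j, ∀ z ∈ B k,
      U x + U y + U z ≤ tripleCost s (x, y, z) := by
    intro i j k x hx y hy z hz
    simp only [tripleCost]
    have h1 := pairCost_ge s hs x y 3 (by norm_num) (D4 i j x hx y hy)
    have h2 := pairCost_ge s hs x z 3 (by norm_num) (D4 i k x hx z hz)
    have h3 := pairCost_ge s hs y z 3 (by norm_num) (D4 j k y hy z hz)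
    exact add_le_add (add_le_add ((F4 i x hx).trans h1) ((F4 j y hy).trans h2))
      ((F4 k z hz).trans h3)
  -- one in A
  have G1 : ∀ a ∈ A, ∀ i j, ∀ y ∈ B i, ∀ z ∈ B j, U a + U y + U z ≤ tripleCost s (a, y, z) ∧
      (tripleCost s (a, y, z) = U a + U y + U z → y = H i a) := by
    intro a ha i j y hy z hz
    have f1 := F1 a ha
    have f2 := F2 i y hy
    have f3 := F2 j z hz
    have hsum : U a + U y + U z = ENNReal.ofReal (uA s β a + v i y + v j z) := by
      rw [UA a ha, UB i y hy, UB j z hz, ← ENNReal.ofReal_add f1.1 f2.1,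
        ← ENNReal.ofReal_add (by linarith) f3.1]
    by_cases hij : j = opp i
    · subst hij
      have n1 := neAB i a ha y hy
      have n2 := neAB (opp i) a ha z hz
      have n3 := neBB i (opp i) (opp_ne i).symm y hy z hz
      have hcost : tripleCost s (a, y, z) =
          ENNReal.ofReal (phi s (a - y) + phi s (a - z) + phi s (y - z)) := by
        simp only [tripleCost]
        have q1 : 0 ≤ phi s (a - y) := Real.rpow_nonneg (norm_nonneg _) _
        have q2 : 0 ≤ phi s (a - z) := Real.rpow_nonneg (norm_nonneg _) _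
        have q3 : 0 ≤ phi s (y - z) := Real.rpow_nonneg (norm_nonneg _) _
        rw [pairCost_eq_phi s a y n1, pairCost_eq_phi s a z n2, pairCost_eq_phi s y z n3,
          ← ENNReal.ofReal_add q1 q2, ← ENNReal.ofReal_add (by linarith) q3]
      have ha' : a ∈ Metric.ball (0 : E) δ₀ := Metric.ball_subset_ball (hρR.trans hRδ) ha
      have hy' : y ∈ Metric.ball (c i) δ₀ := Metric.ball_subset_ball hRδ hy
      have hz' : z ∈ Metric.ball (c (opp i)) δ₀ := Metric.ball_subset_ball hRδ hz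
      obtain ⟨l1, l2⟩ := hloc i a ha' y hy' z hz'
      rw [hsum, hcost]
      refine ⟨ENNReal.ofReal_le_ofReal l1, fun h => l2 ?_⟩
      have h0 : 0 ≤ uA s β a + v i y + v (opp i) z := by linarith
      rw [ENNReal.ofReal_eq_ofReal_iff (h0.trans l1) h0] at h
      exact h.symm
    · have hlt : U a + U y + U z < tripleCost s (a, y, z) := by
        rw [hsum]
        have h1 := pairCost_ge s hs a y (1 + 2 * R) (by linarith) (D1 i a ha y hy)
        have h2 := pairCost_ge s hs a z (1 + 2 * R) (by linarith) (D1 j a ha z hz)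
        have h3 := pairCost_ge s hs y z (3 / 2) (by norm_num) (D3 i j hij y hy z hz)
        have q1 : 0 ≤ (1 + 2 * R) ^ (-s) := Real.rpow_nonneg (by linarith) _
        have q2 : (0 : ℝ) ≤ (3 / 2) ^ (-s) := Real.rpow_nonneg (by norm_num) _
        have hlt' : uA s β a + v i y + v j z < (1 + 2 * R) ^ (-s) + (1 + 2 * R) ^ (-s) +
            (3 / 2 : ℝ) ^ (-s) := by
          have : (3 / 2 : ℝ) ^ (-s) = 2 ^ (-s) + g := by rw [hg]; ring
          rw [this]
          linarith
        calc ENNReal.ofReal (uA s β a + v i y + v j z)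
            < ENNReal.ofReal ((1 + 2 * R) ^ (-s) + (1 + 2 * R) ^ (-s) + (3 / 2 : ℝ) ^ (-s)) := by
              rw [ENNReal.ofReal_lt_ofReal_iff (by linarith)]
              exact hlt'
          _ = ENNReal.ofReal ((1 + 2 * R) ^ (-s)) + ENNReal.ofReal ((1 + 2 * R) ^ (-s)) +
              ENNReal.ofReal ((3 / 2 : ℝ) ^ (-s)) := by
              rw [ENNReal.ofReal_add (by linarith) q2, ENNReal.ofReal_add q1 q1]
          _ ≤ tripleCost s (a, y, z) := by
              simp only [tripleCost]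
              exact add_le_add (add_le_add h1 h2) h3
      exact ⟨hlt.le, fun h => absurd h hlt.ne'⟩
  refine ⟨ρ₀, R, c, H, U, hρ₀, hρR, hR24, hc, ?_, hHd, ?_, hAB, hBB, mU, ?_, ?_, ?_, ?_, ?_⟩
  · intro i
    exact (Metric.ball_subset_ball hρδ).trans (hHs i)
  · intro i a ha
    exact hball a (Metric.ball_subset_ball hρρ ha) i
  · exact ⟨ENNReal.ofReal K0, ENNReal.ofReal_ne_top, F3⟩
  · rintro x hx y hy z hz
    rcases hx with hx | hx
    · rcases hy with hy | hy
      · exact (G2 x hx y hy z hz).le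
      · rcases hz with hz | hz
        · have := (G2 x hx z hz y (Or.inr hy)).le
          rw [tripleCost_swap] at this
          calc U x + U y + U z = U x + U z + U y := by ring
            _ ≤ _ := this
        · obtain ⟨i, hi⟩ := mem_iUnion.mp hy
          obtain ⟨j, hj⟩ := mem_iUnion.mp hz
          exact (G1 x hx i j y hi z hj).1
    · obtain ⟨i, hi⟩ := mem_iUnion.mp hx
      rcases hy with hy | hy
      · rcases hz with hz | hz
        · have := (G2 y hy z hz x (Or.inr hx)).le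
          rw [tripleCost_rot] at this
          calc U x + U y + U z = U y + U z + U x := by ring
            _ ≤ _ := this
        · obtain ⟨j, hj⟩ := mem_iUnion.mp hz
          have := (G1 y hy j i z hj x hi).1
          rw [tripleCost_rot] at this
          calc U x + U y + U z = U y + U z + U x := by ring
            _ ≤ _ := this
      · obtain ⟨j, hj⟩ := mem_iUnion.mp hy
        rcases hz with hz | hz
        · have := (G1 z hz i j x hi y hj).1
          rw [← tripleCost_rot] at this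
          calc U x + U y + U z = U z + U x + U y := by ring
            _ ≤ _ := this
        · obtain ⟨k, hk⟩ := mem_iUnion.mp hz
          exact G0 i j k x hi y hj z hk
  · intro a ha
    have h := heq 0 a (Metric.ball_subset_ball hρδ ha)
    have ho : opp 0 = 1 := rfl
    rw [ho] at h
    have m0 := hball a (Metric.ball_subset_ball hρρ ha) 0
    have m1 := hball a (Metric.ball_subset_ball hρρ ha) 1
    have n1 := neAB 0 a ha _ m0
    have n2 := neAB 1 a ha _ m1
    have n3 := neBB 0 1 (by decide) _ m0 _ m1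
    have q1 : 0 ≤ phi s (a - H 0 a) := Real.rpow_nonneg (norm_nonneg _) _
    have q2 : 0 ≤ phi s (a - H 1 a) := Real.rpow_nonneg (norm_nonneg _) _
    have q3 : 0 ≤ phi s (H 0 a - H 1 a) := Real.rpow_nonneg (norm_nonneg _) _
    have f1 := F1 a ha
    have f2 := F2 0 _ m0
    have f3 := F2 1 _ m1
    simp only [tripleCost]
    rw [pairCost_eq_phi s _ _ n1, pairCost_eq_phi s _ _ n2, pairCost_eq_phi s _ _ n3,
      ← ENNReal.ofReal_add q1 q2, ← ENNReal.ofReal_add (by linarith) q3, UA a ha, UB 0 _ m0,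
      UB 1 _ m1, ← ENNReal.ofReal_add f1.1 f2.1, ← ENNReal.ofReal_add (by linarith) f3.1, h]
  · intro a ha
    have h := heq 2 a (Metric.ball_subset_ball hρδ ha)
    have ho : opp 2 = 3 := rfl
    rw [ho] at h
    have m0 := hball a (Metric.ball_subset_ball hρρ ha) 2
    have m1 := hball a (Metric.ball_subset_ball hρρ ha) 3
    have n1 := neAB 2 a ha _ m0
    have n2 := neAB 3 a ha _ m1
    have n3 := neBB 2 3 (by decide) _ m0 _ m1
    have q1 : 0 ≤ phi s (a - H 2 a) := Real.rpow_nonneg (norm_nonneg _) _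
    have q2 : 0 ≤ phi s (a - H 3 a) := Real.rpow_nonneg (norm_nonneg _) _
    have q3 : 0 ≤ phi s (H 2 a - H 3 a) := Real.rpow_nonneg (norm_nonneg _) _
    have f1 := F1 a ha
    have f2 := F2 2 _ m0
    have f3 := F2 3 _ m1
    simp only [tripleCost]
    rw [pairCost_eq_phi s _ _ n1, pairCost_eq_phi s _ _ n2, pairCost_eq_phi s _ _ n3,
      ← ENNReal.ofReal_add q1 q2, ← ENNReal.ofReal_add (by linarith) q3, UA a ha, UB 2 _ m0,
      UB 3 _ m1, ← ENNReal.ofReal_add f1.1 f2.1, ← ENNReal.ofReal_add (by linarith) f3.1, h]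
  · intro a ha y hy z hz heq'
    rcases hy with hy | hy
    · exact absurd heq' (G2 a ha y hy z hz).ne'
    · rcases hz with hz | hz
      · have := G2 a ha z hz y (Or.inr hy)
        rw [tripleCost_swap] at this
        have h2 : U a + U z + U y = U a + U y + U z := by ring
        rw [h2] at this
        exact absurd heq' this.ne'
      · obtain ⟨i, hi⟩ := mem_iUnion.mp hy
        obtain ⟨j, hj⟩ := mem_iUnion.mp hz
        exact ⟨i, (G1 a ha i j y hi z hj).2 heq'⟩

/-- Uniform comparison of pair costs. -/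
lemma exists_unif (s : ℝ) (ρ₀ R : ℝ) (hρR : ρ₀ ≤ R) (hR : R ≤ 1 / 24) (c : Fin 4 → E)
    (hc : ∀ i, ‖c i‖ = 1) (ε : ℝ≥0∞) (hε : 0 < ε) :
    ∃ δ : ℝ, 0 < δ ∧ ∀ a ∈ Metric.ball (0 : E) ρ₀, ∀ a' ∈ Metric.ball (0 : E) ρ₀, dist a' a < δ →
      ∀ i, ∀ y ∈ Metric.ball (c i) R, pairCost s a y ≤ pairCost s a' y + ε := by
  obtain ⟨ε', hε'0, hε'⟩ : ∃ ε' : ℝ, 0 < ε' ∧ ENNReal.ofReal ε' ≤ ε := by
    rcases eq_or_ne ε ⊤ with h | h
    · exact ⟨1, one_pos, by rw [h]; exact le_top⟩
    · exact ⟨ε.toReal, ENNReal.toReal_pos hε.ne' h, by rw [ENNReal.ofReal_toReal h]⟩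
  have hcont : ContinuousOn (fun t : ℝ => t ^ (-s)) (Icc (1 / 2) (3 / 2)) := by
    intro t ht
    apply ContinuousAt.continuousWithinAt
    apply Real.continuousAt_rpow_const
    left
    have := ht.1
    intro h
    rw [h] at this
    norm_num at this
  have huc := isCompact_Icc.uniformContinuousOn_of_continuous hcont
  rw [Metric.uniformContinuousOn_iff] at huc
  obtain ⟨δ, hδ, hδ'⟩ := huc ε' hε'0
  have key : ∀ a ∈ Metric.ball (0 : E) ρ₀, ∀ i, ∀ y ∈ Metric.ball (c i) R,
      ‖a - y‖ ∈ Icc (1 / 2 : ℝ) (3 / 2) := by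
    intro a ha i y hy
    have h1 : ‖a‖ < R := by
      have := Metric.mem_ball.mp ha
      rw [dist_zero_right] at this
      linarith
    have h2 : ‖y - c i‖ < R := by
      have := Metric.mem_ball.mp hy
      rwa [dist_eq_norm] at this
    have h3 : ‖c i‖ ≤ ‖a - y‖ + ‖a‖ + ‖y - c i‖ := by
      calc ‖c i‖ = ‖a - (a - y) - (y - c i)‖ := by congr 1; abel
        _ ≤ ‖a - (a - y)‖ + ‖y - c i‖ := norm_sub_le _ _
        _ ≤ ‖a‖ + ‖a - y‖ + ‖y - c i‖ := by gcongr; exact norm_sub_le _ _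
        _ = _ := by ring
    have h4 : ‖a - y‖ ≤ ‖a‖ + ‖y - c i‖ + ‖c i‖ := by
      calc ‖a - y‖ = ‖a - (y - c i) - c i‖ := by congr 1; abel
        _ ≤ ‖a - (y - c i)‖ + ‖c i‖ := norm_sub_le _ _
        _ ≤ _ := by gcongr; exact norm_sub_le _ _
    rw [hc i] at h3 h4
    constructor <;> linarith
  refine ⟨δ, hδ, ?_⟩
  intro a ha a' ha' hd i y hy
  have k1 := key a ha i y hy
  have k2 := key a' ha' i y hy
  have h1 : dist ‖a - y‖ ‖a' - y‖ < δ := by
    rw [Real.dist_eq]
    calc |‖a - y‖ - ‖a' - y‖| ≤ ‖(a - y) - (a' - y)‖ := abs_norm_sub_norm_le _ _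
      _ = ‖a - a'‖ := by congr 1; abel
      _ < δ := by rw [← dist_eq_norm, dist_comm]; exact hd
  have h2 := hδ' _ k1 _ k2 h1
  rw [Real.dist_eq, abs_lt] at h2
  have p1 : 0 < ‖a - y‖ := by linarith [k1.1]
  have p2 : 0 < ‖a' - y‖ := by linarith [k2.1]
  unfold pairCost
  rw [ENNReal.ofReal_rpow_of_pos p1, ENNReal.ofReal_rpow_of_pos p2]
  calc ENNReal.ofReal (‖a - y‖ ^ (-s)) ≤ ENNReal.ofReal (‖a' - y‖ ^ (-s) + ε') := by
        apply ENNReal.ofReal_le_ofReal
        linarith [h2.2]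
    _ = ENNReal.ofReal (‖a' - y‖ ^ (-s)) + ENNReal.ofReal ε' :=
        ENNReal.ofReal_add (Real.rpow_nonneg (norm_nonneg _) _) hε'0.le
    _ ≤ _ := by gcongr

end DataConstruction

end Crest.Agent.S0175
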