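import Crest.Statements.S0175
import Crest.Agent.S0175Data

set_option autoImplicit false
open MeasureTheory
open scoped ENNReal ContDiff
open Crest.AnalysisR.OT
open Crest Crest.AnalysisR Crest.AnalysisR.OT

namespace Crest.Agent.S0175

lemma sq_sum_of_disjoint (t0 t1 t2 t3 t4 r : ℝ) (h01 : t0 * t1 = 0) (h02 : t0 * t2 = 0)
    (h03 : t0 * t3 = 0) (h04 : t0 * t4 = 0) (h12 : t1 * t2 = 0) (h13 : t1 * t3 = 0)
    (h14 : t1 * t4 = 0) (h23 : t2 * t3 = 0) (h24 : t2 * t4 = 0) (h34 : t3 * t4 = 0)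
    (hr : r ^ 2 = 2⁻¹) :
    (t0 + r * (t1 + t2 + t3 + t4)) ^ 2 =
      t0 ^ 2 + 2⁻¹ * (t1 ^ 2 + t2 ^ 2 + t3 ^ 2 + t4 ^ 2) := by
  have : (t0 + r * (t1 + t2 + t3 + t4)) ^ 2 = t0 ^ 2 + r ^ 2 * (t1 ^ 2 + t2 ^ 2 + t3 ^ 2 + t4 ^ 2) +
      2 * r * (t0 * t1 + t0 * t2 + t0 * t3 + t0 * t4) +
      2 * r ^ 2 * (t1 * t2 + t1 * t3 + t1 * t4 + t2 * t3 + t2 * t4 + t3 * t4) := by ring
  rw [this, h01, h02, h03, h04, h12, h13, h14, h23, h24, h34, hr]
  ring

lemma norm_sgl {d : ℕ} (i : Fin d) : ‖(EuclideanSpace.single i (1:ℝ) : EuclideanSpace ℝ (Fin d))‖ = 1 := by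
  rw [EuclideanSpace.norm_single]; simp

lemma inner_sgl {d : ℕ} (i j : Fin d) (hij : i ≠ j) :
    inner ℝ (EuclideanSpace.single i (1:ℝ) : EuclideanSpace ℝ (Fin d))
      (EuclideanSpace.single j (1:ℝ)) = 0 := by
  rw [EuclideanSpace.inner_single_left]
  simp [hij]

theorem exists_density {d : ℕ} (hd : 2 ≤ d) (s : ℝ) (hs : 0 < s) :
    ∃ (η : EuclideanSpace ℝ (Fin d) → ℝ) (D : Data s (EuclideanSpace ℝ (Fin d))),
      (∀ x, 0 ≤ η x) ∧ ContDiff ℝ ∞ η ∧ HasCompactSupport η ∧ ∫ x, η x ^ 2 = 1 ∧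
      measOfDensity (fun x => η x ^ 2) = D.μ ∧ D.ν ≪ volume := by
  classical
  set E := EuclideanSpace ℝ (Fin d) with hE
  set e₁ : E := EuclideanSpace.single ⟨0, by omega⟩ 1 with he₁
  set e₂ : E := EuclideanSpace.single ⟨1, by omega⟩ 1 with he₂
  have n1 : ‖e₁‖ = 1 := norm_sgl _
  have n2 : ‖e₂‖ = 1 := norm_sgl _
  have horth : inner ℝ e₁ e₂ = 0 := inner_sgl _ _ (by simp)
  obtain ⟨ρ₀, R, c, H, U, hρ₀, hρR, hR24, hc, hHs, hHd, hHB, hAB, hBB, mU, hUfin, hineq, heq0,
    heq1, hrigid⟩ := exists_config s hs e₁ e₂ n1 n2 horth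
  set A : Set E := Metric.ball 0 ρ₀ with hA
  set B : Fin 4 → Set E := fun i => Metric.ball (c i) R with hB
  -- bump
  let f : ContDiffBump (0 : E) := ⟨ρ₀ / 4, ρ₀ / 2, by positivity, by linarith⟩
  have hfsupp : ∀ x, f x ≠ 0 → x ∈ Metric.closedBall (0 : E) (ρ₀ / 2) := by
    intro x hx
    have : x ∈ Function.support f := hx
    rw [f.support_eq] at this
    exact Metric.ball_subset_closedBall this
  set K : Set E := Metric.closedBall (0 : E) (ρ₀ / 2) with hK
  have hKA : K ⊆ A := Metric.closedBall_subset_ball (by linarith)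
  have hKc : IsCompact K := isCompact_closedBall _ _
  have hfcont : Continuous f := f.continuous
  have hf2int : Integrable (fun x => f x ^ 2) := by
    apply Continuous.integrable_of_hasCompactSupport (by fun_prop)
    apply HasCompactSupport.intro hKc
    intro x hx
    by_contra hne
    exact hx (hfsupp x (fun h => hne (by rw [h]; ring)))
  set I : ℝ := ∫ x, f x ^ 2 with hI
  have hIpos : 0 < I := by
    rw [hI, integral_pos_iff_support_of_nonneg (fun x => sq_nonneg _) hf2int]
    have h1 : Metric.ball (0 : E) (ρ₀ / 4) ⊆ Function.support (fun x => f x ^ 2) := by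
      intro x hx
      have : f x = 1 := f.one_of_mem_closedBall (Metric.ball_subset_closedBall hx)
      simp [this]
    exact lt_of_lt_of_le (Metric.measure_ball_pos volume _ (by positivity)) (measure_mono h1)
  set k : ℝ := Real.sqrt (1 / (3 * I)) with hk
  have hk0 : 0 ≤ k := Real.sqrt_nonneg _
  have hk2 : k ^ 2 = 1 / (3 * I) := Real.sq_sqrt (by positivity)
  set χ : E → ℝ := fun x => k * f x with hχ
  have χnn : ∀ x, 0 ≤ χ x := fun x => mul_nonneg hk0 f.nonneg
  have χcd : ContDiff ℝ ∞ χ := contDiff_const.mul f.contDiff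
  have χsup : ∀ x, χ x ≠ 0 → x ∈ K := fun x hx => hfsupp x (right_ne_zero_of_mul hx)
  have χcs : HasCompactSupport χ := by
    apply HasCompactSupport.intro hKc
    intro x hx
    by_contra hne
    exact hx (χsup x hne)
  have χint : Integrable (fun x => χ x ^ 2) := by
    have : (fun x => χ x ^ 2) = fun x => k ^ 2 * f x ^ 2 := by ext x; simp only [hχ]; ring
    rw [this]
    exact hf2int.const_mul _
  have χI : ∫ x, χ x ^ 2 = 1 / 3 := by
    have : (fun x => χ x ^ 2) = fun x => k ^ 2 * f x ^ 2 := by ext x; simp only [hχ]; ring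
    rw [this, integral_const_mul, hk2, ← hI]
    field_simp
  -- the base measure
  set ν : Measure E := volume.withDensity (fun x => ENNReal.ofReal (χ x ^ 2)) with hν
  have hνuniv : ν Set.univ = ENNReal.ofReal (1 / 3) := by
    rw [hν, withDensity_apply _ MeasurableSet.univ, setLIntegral_univ,
      ← ofReal_integral_eq_lintegral_ofReal χint (Filter.Eventually.of_forall fun x => sq_nonneg _), χI]
  have hνac : ν ≪ volume := withDensity_absolutelyContinuous _ _
  have mχ : Measurable (fun x => ENNReal.ofReal (χ x ^ 2)) :=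
    ENNReal.measurable_ofReal.comp (χcd.continuous.measurable.pow_const 2)
  have hνA : ν Aᶜ = 0 := by
    rw [hν, withDensity_apply _ measurableSet_ball.compl]
    have : ∫⁻ x in Aᶜ, ENNReal.ofReal (χ x ^ 2) = ∫⁻ x in Aᶜ, (0 : ℝ≥0∞) := by
      apply setLIntegral_congr_fun measurableSet_ball.compl
      intro x hx
      have : χ x = 0 := by
        by_contra hne
        exact hx (hKA (χsup x hne))
      simp [this]
    rw [this, lintegral_zero]
  -- the maps
  set h : Fin 4 → E → E := fun i x => if x ∈ A then H i x else c i with hh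
  set g : Fin 4 → E → E := fun i x => if x ∈ (H i).target then (H i).symm x else 0 with hg
  have mh : ∀ i, Measurable (h i) := by
    intro i
    have := measurable_piecewise_of_continuousOn ((H i).continuousOn.mono (hHs i))
      measurableSet_ball (c i)
    convert this using 3
  have mg : ∀ i, Measurable (g i) := by
    intro i
    have := measurable_piecewise_of_continuousOn (H i).symm.continuousOn
      (H i).open_target.measurableSet (0 : E)
    exact this
  have hhA : ∀ i, ∀ a ∈ A, h i a = H i a := fun i a ha => by simp only [hh, if_pos ha]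
  have hgh : ∀ i, ∀ a ∈ A, g i (h i a) = a := by
    intro i a ha
    have has := hHs i ha
    rw [hhA i a ha]
    simp only [hg, if_pos ((H i).map_source has)]
    exact (H i).left_inv has
  let D : Data s E :=
    { ν := ν
      fin := ⟨by rw [hνuniv]; exact ENNReal.ofReal_lt_top⟩
      ne := by
        intro h0
        rw [h0] at hνuniv
        have h3 : (0 : ℝ≥0∞) < ENNReal.ofReal (1 / 3) := ENNReal.ofReal_pos.mpr (by norm_num)
        exact h3.ne hνuniv
      A := A
      B := B
      h := h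
      g := g
      U := U
      mA := measurableSet_ball
      mB := fun i => measurableSet_ball
      mh := mh
      mg := mg
      mU := mU
      νA := hνA
      dAB := hAB
      dBB := hBB
      hB := fun i a ha => by rw [hhA i a ha]; exact hHB i a ha
      gh := hgh
      Ufin := hUfin
      ineq := hineq
      eq₀ := fun a ha => by rw [hhA 0 a ha, hhA 1 a ha]; exact heq0 a ha
      eq₁ := fun a ha => by rw [hhA 2 a ha, hhA 3 a ha]; exact heq1 a ha
      rigid := fun a ha y hy z hz he => by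
        obtain ⟨i, hi⟩ := hrigid a ha y hy z hz he
        exact ⟨i, by rw [hhA i a ha]; exact hi⟩
      unif := fun ε hε => exists_unif s ρ₀ R hρR hR24 c hc ε hε }
  -- transported densities
  have hchi : ∀ i, ContDiff ℝ ∞ (chi (H i) χ) ∧ HasCompactSupport (chi (H i) χ) := fun i =>
    chi_contDiff (H i) χ χcd K hKc (hKA.trans (hHs i)) χsup (fun a ha => (hHd i a ha).1)
      (fun a ha => (hHd i a ha).2)
  have hpush : ∀ i, ν.map (h i) = volume.withDensity (fun x => ENNReal.ofReal (chi (H i) χ x ^ 2)) := by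
    intro i
    apply pushforward_density (H i) χ A (fun a ha => hKA (χsup a ha)) (hHs i) _ (h i) (mh i)
      (hhA i)
    intro x hx
    have := (hHd i _ ((H i).map_target hx)).2
    rw [(H i).right_inv hx] at this
    exact this.differentiableAt (by simp)
  have chisup : ∀ i x, chi (H i) χ x ≠ 0 → x ∈ B i := by
    intro i x hx
    obtain ⟨a, ha, rfl⟩ := chi_support (H i) χ K χsup x hx
    exact hHB i a (hKA ha)
  set r : ℝ := Real.sqrt 2⁻¹ with hr
  have hr0 : 0 ≤ r := Real.sqrt_nonneg _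
  have hr2 : r ^ 2 = 2⁻¹ := Real.sq_sqrt (by norm_num)
  set η : E → ℝ := fun x => χ x + r * (chi (H 0) χ x + chi (H 1) χ x + chi (H 2) χ x +
    chi (H 3) χ x) with hη
  have z0 : ∀ i x, χ x * chi (H i) χ x = 0 := by
    intro i x
    by_contra hne
    exact Set.disjoint_left.mp (hAB i) (hKA (χsup x (left_ne_zero_of_mul hne)))
      (chisup i x (right_ne_zero_of_mul hne))
  have zz : ∀ i j, i ≠ j → ∀ x, chi (H i) χ x * chi (H j) χ x = 0 := by
    intro i j hij x
    by_contra hne
    exact Set.disjoint_left.mp (hBB i j hij) (chisup i x (left_ne_zero_of_mul hne))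
      (chisup j x (right_ne_zero_of_mul hne))
  have hη2 : ∀ x, η x ^ 2 = χ x ^ 2 + 2⁻¹ * (chi (H 0) χ x ^ 2 + chi (H 1) χ x ^ 2 +
      chi (H 2) χ x ^ 2 + chi (H 3) χ x ^ 2) := by
    intro x
    exact sq_sum_of_disjoint _ _ _ _ _ r (z0 0 x) (z0 1 x) (z0 2 x) (z0 3 x)
      (zz 0 1 (by decide) x) (zz 0 2 (by decide) x) (zz 0 3 (by decide) x) (zz 1 2 (by decide) x)
      (zz 1 3 (by decide) x) (zz 2 3 (by decide) x) hr2
  have hηnn : ∀ x, 0 ≤ η x := by
    intro x
    have q := fun i => chi_nonneg (H i) χ χnn x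
    have := q 0
    have := q 1
    have := q 2
    have := q 3
    have := χnn x
    simp only [hη]
    positivity
  have hηcd : ContDiff ℝ ∞ η :=
    χcd.add (contDiff_const.mul ((((hchi 0).1.add (hchi 1).1).add (hchi 2).1).add (hchi 3).1))
  have hηcs : HasCompactSupport η := by
    apply HasCompactSupport.add χcs
    apply HasCompactSupport.mul_left
    exact (((hchi 0).2.add (hchi 1).2).add (hchi 2).2).add (hchi 3).2
  have mchi : ∀ i, Measurable (fun x => ENNReal.ofReal (chi (H i) χ x ^ 2)) := fun i =>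
    ENNReal.measurable_ofReal.comp ((hchi i).1.continuous.measurable.pow_const 2)
  have hμ : measOfDensity (fun x => η x ^ 2) = D.μ := by
    have e1 : (fun x => ENNReal.ofReal (η x ^ 2)) = (fun x => ENNReal.ofReal (χ x ^ 2)) +
        (2⁻¹ : ℝ≥0∞) • ((fun x => ENNReal.ofReal (chi (H 0) χ x ^ 2)) +
          (fun x => ENNReal.ofReal (chi (H 1) χ x ^ 2)) +
          (fun x => ENNReal.ofReal (chi (H 2) χ x ^ 2)) +
          (fun x => ENNReal.ofReal (chi (H 3) χ x ^ 2))) := by
      ext x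
      simp only [Pi.add_apply, Pi.smul_apply, smul_eq_mul]
      rw [hη2 x, ENNReal.ofReal_add (by positivity) (by positivity),
        ENNReal.ofReal_mul (by positivity), ENNReal.ofReal_add (by positivity) (by positivity),
        ENNReal.ofReal_add (by positivity) (by positivity),
        ENNReal.ofReal_add (by positivity) (by positivity),
        ENNReal.ofReal_inv_of_pos (by norm_num), ENNReal.ofReal_ofNat]
    show volume.withDensity (fun x => ENNReal.ofReal (η x ^ 2)) = D.μ
    rw [e1, withDensity_add_left mχ, withDensity_smul _ (by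
      exact (((mchi 0).add (mchi 1)).add (mchi 2)).add (mchi 3)),
      withDensity_add_right _ (mchi 3), withDensity_add_right _ (mchi 2),
      withDensity_add_right _ (mchi 1), ← hpush 0, ← hpush 1, ← hpush 2, ← hpush 3]
    rfl
  refine ⟨η, D, hηnn, hηcd, hηcs, ?_, hμ, hνac⟩
  -- total mass
  have hμuniv : D.μ Set.univ = 1 := by
    have q : ∀ i, ν.map (h i) Set.univ = ENNReal.ofReal (1 / 3) := fun i => by
      rw [Measure.map_apply (mh i) MeasurableSet.univ, Set.preimage_univ, hνuniv]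
    show (ν + (2⁻¹ : ℝ≥0∞) • (ν.map (h 0) + ν.map (h 1) + ν.map (h 2) + ν.map (h 3))) Set.univ = 1
    rw [Measure.add_apply, Measure.smul_apply, Measure.add_apply, Measure.add_apply,
      Measure.add_apply, q 0, q 1, q 2, q 3, hνuniv, smul_eq_mul]
    have t0 : (0 : ℝ) ≤ 1 / 3 := by norm_num
    rw [← ENNReal.ofReal_add t0 t0, ← ENNReal.ofReal_add (by norm_num) t0,
      ← ENNReal.ofReal_add (by norm_num) t0]
    have t2 : (2⁻¹ : ℝ≥0∞) = ENNReal.ofReal (2⁻¹) := by
      rw [ENNReal.ofReal_inv_of_pos (by norm_num), ENNReal.ofReal_ofNat]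
    rw [t2, ← ENNReal.ofReal_mul (by norm_num), ← ENNReal.ofReal_add t0 (by norm_num)]
    norm_num
  rw [integral_eq_lintegral_of_nonneg_ae (Filter.Eventually.of_forall fun x => sq_nonneg _)
    (hηcd.continuous.pow 2).aestronglyMeasurable]
  have : ∫⁻ x, ENNReal.ofReal (η x ^ 2) = D.μ Set.univ := by
    rw [← hμ]
    show _ = volume.withDensity (fun x => ENNReal.ofReal (η x ^ 2)) Set.univ
    rw [withDensity_apply _ MeasurableSet.univ, setLIntegral_univ]
  rw [this, hμuniv]
  simp

lemma coord_null {d : ℕ} (i : Fin d) (t : ℝ) :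
    volume ((fun x : EuclideanSpace ℝ (Fin d) => x i) ⁻¹' {t}) = 0 := by
  have h1 := (EuclideanSpace.volume_preserving_symm_measurableEquiv_toLp (Fin d))
  have h2 : (fun x : EuclideanSpace ℝ (Fin d) => x i) ⁻¹' {t} =
      (MeasurableEquiv.toLp 2 (Fin d → ℝ)).symm ⁻¹' {f | f i = t} := by
    ext x; rfl
  rw [h2, h1.measure_preimage_equiv]
  exact Measure.pi_hyperplane (α := fun _ : Fin d => ℝ) (fun _ => volume) i t

/-- For every d ≥ 2 and s > 0 there is a smooth, compactly supported, nonnegative ρ on ℝᵈ with integral 1 and smooth square root such that, for μ = ρ dx and the cost summing ‖xᵢ - xⱼ‖^(-s) over the three pairs of a triple: some coupling with all three marginals μ has finite cost, minimal among all such couplings; every pair of Borel maps T₂, T₃ pushing μ to itself gives the plan x ↦ (x, T₂ x, T₃ x) strictly larger cost; and such pairs have costs arbitrarily close to that minimum. -/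
theorem result
    (d : ℕ) (hd : 2 ≤ d) (s : ℝ) (hs : 0 < s) :
    ∃ ρ : EuclideanSpace ℝ (Fin d) → ℝ, (∀ x, 0 ≤ ρ x) ∧ ContDiff ℝ ∞ ρ ∧ HasCompactSupport ρ ∧
      ContDiff ℝ ∞ (fun x => Real.sqrt (ρ x)) ∧ ∫ x, ρ x = 1 ∧
      ∃ π₀ : Measure (EuclideanSpace ℝ (Fin d) × EuclideanSpace ℝ (Fin d) × EuclideanSpace ℝ (Fin d)),
        IsCoupling₃ (measOfDensity ρ) π₀ ∧ ∫⁻ p, tripleCost s p ∂π₀ < ⊤ ∧
        (∀ π : Measure (EuclideanSpace ℝ (Fin d) × EuclideanSpace ℝ (Fin d) × EuclideanSpace ℝ (Fin d)), IsCoupling₃ (measOfDensity ρ) π →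
          ∫⁻ p, tripleCost s p ∂π₀ ≤ ∫⁻ p, tripleCost s p ∂π) ∧
        (∀ T₂ T₃ : EuclideanSpace ℝ (Fin d) → EuclideanSpace ℝ (Fin d), Measurable T₂ → Measurable T₃ →
          (measOfDensity ρ).map T₂ = measOfDensity ρ → (measOfDensity ρ).map T₃ = measOfDensity ρ →
          ∫⁻ p, tripleCost s p ∂π₀ < ∫⁻ x, tripleCost s (x, T₂ x, T₃ x) ∂(measOfDensity ρ)) ∧
        (∀ ε : ℝ≥0∞, 0 < ε → ∃ T₂ T₃ : EuclideanSpace ℝ (Fin d) → EuclideanSpace ℝ (Fin d), Measurable T₂ ∧ Measurable T₃ ∧
          (measOfDensity ρ).map T₂ = measOfDensity ρ ∧ (measOfDensity ρ).map T₃ = measOfDensity ρ ∧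
          ∫⁻ x, tripleCost s (x, T₂ x, T₃ x) ∂(measOfDensity ρ) < ∫⁻ p, tripleCost s p ∂π₀ + ε) := by
  obtain ⟨η, D, h1, h2, h3, h4, h5, h6⟩ := exists_density hd s hs
  refine ⟨fun x => η x ^ 2, fun x => sq_nonneg _, h2.pow 2, ?_, ?_, h4, D.π₀, ?_⟩
  · have : (fun x => η x ^ 2) = fun x => η x * η x := by ext x; ring
    rw [this]
    exact h3.mul_left
  · have : (fun x => Real.sqrt (η x ^ 2)) = η := by
      ext x; exact Real.sqrt_sq (h1 x)
    rw [this]
    exact h2
  · rw [h5]
    refine ⟨D.π₀_coupling, D.π₀_lt_top, D.π₀_min, ?_, ?_⟩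
    · intro T₂ T₃ m2 m3 q2 q3
      exact D.monge_strict T₂ T₃ m2 m3 q2 q3
    · intro ε hε
      exact D.monge_approx (fun x => x ⟨0, by omega⟩) (by fun_prop)
        (fun t => h6 (coord_null _ t)) ε hε

end Crest.Agent.S0175
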