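import Crest.Statements.S0209
import Crest.Agent.Kac.Final

set_option autoImplicit false
open Crest Crest.ProbabilityR

namespace Crest.Agent.S0209

/-- There is a bounded continuous stable radial pair potential in three-space (energy of `N` particles `≥ -B N`) with `φ(r)` at most `C r^(-3-1/32)` in size for `r ≥ 1`, an open density interval centred at `5p/3`, `p > 0` the unit-separation packing density (`packingNumber L / L^3 → p`), and one `β_c ∈ [7/8, 9/8]` such that at each `ρ` in it the free energy per volume `-lim_L log Z_{[0,L]^3, ⌊ρL^3⌋}(β)/(β L^3)` exists for `β > 0`, with one-sided `β`-derivatives at `β_c`, left above right. -/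
theorem result :
    ∃ φ : ℝ → ℝ, Continuous φ ∧ (∃ M : ℝ, ∀ r : ℝ, |φ r| ≤ M) ∧
      (∃ B : ℝ, ∀ (N : ℕ) (x : Fin N → Crest.ProbabilityR.Continuum.Pt), -B * N ≤ Crest.ProbabilityR.Continuum.energy φ x) ∧
      (∃ C : ℝ, ∀ r : ℝ, 1 ≤ r → |φ r| ≤ C * r ^ (-(3 + 1 / 32 : ℝ))) ∧
      ∃ p η βc : ℝ, 0 < p ∧
        Filter.Tendsto (fun L : ℝ => (Crest.ProbabilityR.Continuum.packingNumber L : ℝ) / L ^ 3)
          Filter.atTop (nhds p) ∧
        0 < η ∧ η ≤ 5 * p / 3 ∧ 7 / 8 ≤ βc ∧ βc ≤ 9 / 8 ∧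
        ∃ f : ℝ → ℝ → ℝ,
          (∀ ρ : ℝ, 5 * p / 3 - η < ρ → ρ < 5 * p / 3 + η → ∀ β : ℝ, 0 < β →
            Filter.Tendsto (fun L : ℝ => -(1 / (β * L ^ 3)) *
                Real.log (Crest.ProbabilityR.Continuum.partitionFn φ L ⌊ρ * L ^ 3⌋₊ β))
              Filter.atTop (nhds (f β ρ))) ∧
          (∀ ρ : ℝ, 5 * p / 3 - η < ρ → ρ < 5 * p / 3 + η → ∃ Dl Dr : ℝ,
            HasDerivWithinAt (fun β => f β ρ) Dl (Set.Iio βc) βc ∧
            HasDerivWithinAt (fun β => f β ρ) Dr (Set.Ioi βc) βc ∧ Dr < Dl) := by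
  obtain ⟨j, C, K0, κ, w, p, hj, hK0, hκ, hκ1, hw, hw1, hp1, hp, hcore⟩ :=
    Crest.Agent.Kac.core_kink
  obtain ⟨φ0, hφ0c, ⟨M0, hM0⟩, hφ0⟩ := Crest.Agent.Kac.exists_base_cont hK0 hκ hκ1 hw hw1
  obtain ⟨Q, -, θ, hθ, hs, blo, βc, bhi, ρ1, ρ2, hblo, hb1, hb2, hρ1, hρ12, hkink⟩ :=
    hcore φ0 hφ0 0
  have hQ2 : 2 ≤ Q := le_trans (by norm_num) hs.Q4
  have hβc : 0 < βc := hblo.trans hb1
  have hppos : 0 < p := by linarith
  -- the unscaled potential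
  set φ : ℝ → ℝ := fun r => φ0 r - θ * Crest.Agent.Kac.Jinf j Q r with hφ
  have hφc : Continuous φ := hφ0c.sub ((Crest.Agent.Kac.continuous_Jinf hj hQ2).const_smul θ)
  -- the length scale
  set a : ℝ := ((ρ1 + ρ2) / 2 / (5 * p / 3)) ^ (1 / 3 : ℝ) with ha_def
  have hρ2 : 0 < ρ2 := hρ1.trans hρ12
  have hq : 0 < (ρ1 + ρ2) / 2 / (5 * p / 3) := by positivity
  have ha : 0 < a := Real.rpow_pos_of_pos hq _
  have ha3 : a ^ 3 = (ρ1 + ρ2) / 2 / (5 * p / 3) := by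
    rw [ha_def, ← Real.rpow_natCast, ← Real.rpow_mul hq.le]
    norm_num
  have ha3c : a ^ 3 * (5 * p / 3) = (ρ1 + ρ2) / 2 := by
    rw [ha3]; field_simp
  have ha3pos : 0 < a ^ 3 := by positivity
  obtain ⟨f, hf1, hf2⟩ := Crest.Agent.Kac.assembly (φ := φ) (R0 := 2) (by norm_num)
    hφc.measurable (fun β hβ => Crest.Agent.Kac.adm_inf hs hβ.le) hblo hb1 hb2 hρ1.le ha hβc
    (fun ρ hρ => Crest.Agent.Kac.Pinf_convex hs hρ) hkink
  obtain ⟨B, hB⟩ := (Crest.Agent.Kac.adm_inf hs (β := 1) zero_le_one).stab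
  simp only [one_mul] at hB
  obtain ⟨MJ, hMJ⟩ := Crest.Agent.Kac.Jinf_bdd hj hQ2
  refine ⟨fun r => βc * φ (r / a), ?_, ?_, ?_, ?_, p, min (5 * p / 3) ((ρ2 - ρ1) / 2 / a ^ 3), 1,
    hppos, hp, ?_, min_le_left _ _, by norm_num, by norm_num, f, ?_, ?_⟩
  · exact (hφc.comp (continuous_id.div_const a)).const_smul βc
  · refine ⟨βc * (M0 + MJ), fun r => ?_⟩
    have h1 := hM0 (r / a)
    have h2 := hMJ (r / a)
    have h3 := Crest.Agent.Kac.Jinf_nonneg hj hQ2 (r / a)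
    have h4 : θ * Crest.Agent.Kac.Jinf j Q (r / a) ≤ Crest.Agent.Kac.Jinf j Q (r / a) := by
      nlinarith [hs.θ1]
    have h5 : 0 ≤ θ * Crest.Agent.Kac.Jinf j Q (r / a) := mul_nonneg hθ.le h3
    rw [abs_mul, abs_of_pos hβc]
    apply mul_le_mul_of_nonneg_left _ hβc.le
    rw [abs_le] at h1 ⊢
    simp only [hφ]
    constructor <;> linarith [h1.1, h1.2]
  · exact ⟨βc * B, Crest.Agent.Kac.stable_scale ha hβc hB⟩
  · exact Crest.Agent.Kac.decay_scale hs ha hβc ⟨M0, fun r _ _ => hM0 r⟩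
  · apply lt_min
    · positivity
    · have : 0 < ρ2 - ρ1 := by linarith
      positivity
  · intro ρ h1 _ β hβ
    have h3 := min_le_left (5 * p / 3) ((ρ2 - ρ1) / 2 / a ^ 3)
    exact hf1 ρ (by linarith) β hβ
  · intro ρ h1 h2
    have h3 := min_le_right (5 * p / 3) ((ρ2 - ρ1) / 2 / a ^ 3)
    have h4 : a ^ 3 * ((ρ2 - ρ1) / 2 / a ^ 3) = (ρ2 - ρ1) / 2 := by field_simp
    have h5 : a ^ 3 * min (5 * p / 3) ((ρ2 - ρ1) / 2 / a ^ 3) ≤ (ρ2 - ρ1) / 2 :=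
      (mul_le_mul_of_nonneg_left h3 ha3pos.le).trans h4.le
    have h6 := mul_lt_mul_of_pos_left h1 ha3pos
    have h7 := mul_lt_mul_of_pos_left h2 ha3pos
    rw [mul_sub] at h6
    rw [mul_add] at h7
    obtain ⟨Dl, Dr, g1, g2, g3⟩ := hf2 ρ (by linarith) (by linarith)
    rw [div_self hβc.ne'] at g1 g2
    exact ⟨Dl, Dr, g1, g2, g3⟩

end Crest.Agent.S0209
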