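import Crest.Statements.S0210
import Crest.Agent.Kac.Final

set_option autoImplicit false
open Crest Crest.ProbabilityR

namespace Crest.Agent.S0210

/-- There is a measurable radial pair potential in three-space, finite and locally bounded at positive distances, tending to `+∞` at `0`, below `-a < 0` on an interval, with `r² φ(r)` integrable at large `r`, `r³ φ(r) → 0`, and stable on configurations of distinct points, whose canonical free energy per volume `-lim_L log Z_{[0,L]^3, ⌊ρL^3⌋}(β)/(β L^3)` exists for all `β, ρ > 0` and has, on some open density interval, at one `β_c ∈ (1/2, 3/2)` a left `β`-derivative strictly above the right. -/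
theorem result :
    ∃ φ : ℝ → ℝ, Measurable φ ∧
      (∀ a b : ℝ, 0 < a → a ≤ b → ∃ M : ℝ, ∀ r : ℝ, a ≤ r → r ≤ b → |φ r| ≤ M) ∧
      Filter.Tendsto φ (nhdsWithin 0 (Set.Ioi 0)) Filter.atTop ∧
      (∃ r₁ r₂ a : ℝ, 0 < r₁ ∧ r₁ < r₂ ∧ 0 < a ∧ ∀ r : ℝ, r₁ ≤ r → r ≤ r₂ → φ r ≤ -a) ∧
      (∃ R : ℝ, 0 < R ∧ MeasureTheory.IntegrableOn (fun r : ℝ => r ^ 2 * |φ r|) (Set.Ioi R)) ∧
      Filter.Tendsto (fun r : ℝ => r ^ 3 * φ r) Filter.atTop (nhds 0) ∧
      (∃ B : ℝ, ∀ (N : ℕ) (x : Fin N → Crest.ProbabilityR.Continuum.Pt), Function.Injective x →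
        -B * N ≤ Crest.ProbabilityR.Continuum.energy φ x) ∧
      ∃ f : ℝ → ℝ → ℝ,
        (∀ ρ : ℝ, 0 < ρ → ∀ β : ℝ, 0 < β →
          Filter.Tendsto (fun L : ℝ => -(1 / (β * L ^ 3)) *
              Real.log (Crest.ProbabilityR.Continuum.partitionFn φ L ⌊ρ * L ^ 3⌋₊ β))
            Filter.atTop (nhds (f β ρ))) ∧
        ∃ ρ₁ ρ₂ βc : ℝ, 0 ≤ ρ₁ ∧ ρ₁ < ρ₂ ∧ 1 / 2 < βc ∧ βc < 3 / 2 ∧
          ∀ ρ : ℝ, ρ₁ < ρ → ρ < ρ₂ → ∃ Dl Dr : ℝ,
            HasDerivWithinAt (fun β => f β ρ) Dl (Set.Iio βc) βc ∧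
            HasDerivWithinAt (fun β => f β ρ) Dr (Set.Ioi βc) βc ∧ Dr < Dl := by
  obtain ⟨j, C, K0, κ, w, p, hj, hK0, hκ, hκ1, hw, hw1, hp1, hp, hcore⟩ :=
    Crest.Agent.Kac.core_kink
  obtain ⟨φ0, hφ0m, hφ0div, hφ0loc, hφ0⟩ := Crest.Agent.Kac.exists_base_div hK0 hκ hκ1 hw hw1
  obtain ⟨Q1, hQ1⟩ := Crest.Agent.Kac.Jinf_pos hj
  obtain ⟨Q, hQQ, θ, hθ, hs, blo, βc, bhi, ρ1, ρ2, hblo, hb1, hb2, hρ1, hρ12, hkink⟩ :=
    hcore φ0 hφ0 Q1
  obtain ⟨α, hα, hαJ⟩ := hQ1 Q hQQ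
  have hQ2 : 2 ≤ Q := le_trans (by norm_num) hs.Q4
  have hβc : 0 < βc := hblo.trans hb1
  -- the potential
  set φ : ℝ → ℝ := fun r => φ0 r - θ * Crest.Agent.Kac.Jinf j Q r with hφ
  have hJc := Crest.Agent.Kac.continuous_Jinf hj hQ2
  have hφm : Measurable φ := hφ0m.sub (hJc.measurable.const_mul θ)
  obtain ⟨f, hf1, hf2⟩ := Crest.Agent.Kac.assembly (φ := φ) (R0 := 2) (a := 1) (by norm_num)
    hφm (fun β hβ => Crest.Agent.Kac.adm_inf hs hβ.le) hblo hb1 hb2 hρ1.le one_pos hβc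
    (fun ρ hρ => Crest.Agent.Kac.Pinf_convex hs hρ) hkink
  obtain ⟨B, hB⟩ := (Crest.Agent.Kac.adm_inf hs (β := 1) zero_le_one).stab
  simp only [one_mul] at hB
  obtain ⟨MJ, hMJ⟩ := Crest.Agent.Kac.Jinf_bdd hj hQ2
  obtain ⟨D, hD⟩ := Crest.Agent.Kac.decay_scale hs (a := 1) one_pos hβc (by
    obtain ⟨M, hM⟩ := hφ0loc 1 2 one_pos (by norm_num)
    exact ⟨M, fun r h1 h2 => hM r (by simpa using h1) h2⟩)
  simp only [div_one] at hf1 hf2 hD
  have hθJ : ∀ r, 0 ≤ θ * Crest.Agent.Kac.Jinf j Q r ∧ θ * Crest.Agent.Kac.Jinf j Q r ≤ MJ := by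
    intro r
    have h2 := hMJ r
    have h3 := Crest.Agent.Kac.Jinf_nonneg hj hQ2 r
    exact ⟨mul_nonneg hθ.le h3, by nlinarith [hs.θ1]⟩
  refine ⟨fun r => βc * φ r, hφm.const_mul βc, ?_, ?_, ?_, ?_, ?_, ?_, f, ?_, ρ1, ρ2, 1, hρ1.le,
    hρ12, by norm_num, by norm_num, ?_⟩
  · -- local boundedness
    intro a b ha hab
    obtain ⟨M, hM⟩ := hφ0loc a b ha hab
    refine ⟨βc * (M + MJ), fun r h1 h2 => ?_⟩
    have h3 := hM r h1 h2
    have h4 := hθJ r
    rw [abs_mul, abs_of_pos hβc]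
    apply mul_le_mul_of_nonneg_left _ hβc.le
    rw [abs_le] at h3 ⊢
    simp only [hφ]
    constructor <;> linarith [h3.1, h3.2, h4.1, h4.2]
  · -- divergence at the origin
    apply Filter.Tendsto.const_mul_atTop hβc
    have : Filter.Tendsto (fun r => φ0 r + (-MJ)) (nhdsWithin 0 (Set.Ioi 0)) Filter.atTop :=
      Filter.tendsto_atTop_add_const_right _ _ hφ0div
    apply Filter.tendsto_atTop_mono _ this
    intro r
    have h4 := hθJ r
    simp only [hφ]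
    linarith [h4.2]
  · -- attraction
    refine ⟨2, 3, βc * (θ * α), by norm_num, by norm_num, by positivity, ?_⟩
    intro r h1 h2
    have h3 := hαJ r h1 h2
    have h4 : φ0 r = 0 := hφ0.zero r (by linarith [hφ0.κ_le])
    simp only [hφ, h4]
    have h5 : θ * α ≤ θ * Crest.Agent.Kac.Jinf j Q r := mul_le_mul_of_nonneg_left h3 hθ.le
    nlinarith
  · -- integrability
    refine ⟨1, one_pos, ?_⟩
    have hint : MeasureTheory.IntegrableOn (fun r : ℝ => D * r ^ (-(1 + 1 / 32 : ℝ))) (Set.Ioi 1) := by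
      apply MeasureTheory.Integrable.const_mul
      exact integrableOn_Ioi_rpow_of_lt (by norm_num) one_pos
    apply MeasureTheory.Integrable.mono' hint
    · exact ((measurable_id.pow_const 2).mul
        (hφm.const_mul βc).norm).aestronglyMeasurable
    · filter_upwards [MeasureTheory.ae_restrict_mem measurableSet_Ioi] with r hr
      have hr1 : (1 : ℝ) < r := hr
      have hr0 : 0 < r := by linarith
      have h1 := hD r hr1.le
      rw [Real.norm_eq_abs, abs_mul, abs_of_nonneg (by positivity : (0 : ℝ) ≤ r ^ 2), abs_abs]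
      have h2 : r ^ 2 * |βc * φ r| ≤ r ^ 2 * (D * r ^ (-(3 + 1 / 32 : ℝ))) :=
        mul_le_mul_of_nonneg_left h1 (by positivity)
      have h3 : r ^ 2 * (D * r ^ (-(3 + 1 / 32 : ℝ))) = D * r ^ (-(1 + 1 / 32 : ℝ)) := by
        rw [← Real.rpow_natCast r 2, mul_left_comm, ← Real.rpow_add hr0]
        norm_num
      linarith
  · -- r³ φ → 0
    have hlim : Filter.Tendsto (fun r : ℝ => D * r ^ (-(1 / 32 : ℝ))) Filter.atTop (nhds 0) := by
      have := (tendsto_rpow_neg_atTop (by norm_num : (0 : ℝ) < 1 / 32)).const_mul D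
      simpa using this
    apply squeeze_zero_norm' _ hlim
    filter_upwards [Filter.eventually_ge_atTop (1 : ℝ)] with r hr1
    have hr0 : 0 < r := by linarith
    have h1 := hD r hr1
    rw [Real.norm_eq_abs, abs_mul, abs_of_nonneg (by positivity : (0 : ℝ) ≤ r ^ 3)]
    have h2 : r ^ 3 * |βc * φ r| ≤ r ^ 3 * (D * r ^ (-(3 + 1 / 32 : ℝ))) :=
      mul_le_mul_of_nonneg_left h1 (by positivity)
    have h3 : r ^ 3 * (D * r ^ (-(3 + 1 / 32 : ℝ))) = D * r ^ (-(1 / 32 : ℝ)) := by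
      rw [← Real.rpow_natCast r 3, mul_left_comm, ← Real.rpow_add hr0]
      norm_num
    linarith
  · -- stability
    refine ⟨βc * B, fun N x _ => ?_⟩
    have := Crest.Agent.Kac.stable_scale (a := 1) one_pos hβc hB N x
    simpa only [div_one] using this
  · intro ρ hρ β hβ
    exact hf1 ρ hρ.le β hβ
  · intro ρ h1 h2
    obtain ⟨Dl, Dr, g1, g2, g3⟩ := hf2 ρ (by linarith) (by linarith)
    rw [div_self hβc.ne'] at g1 g2
    exact ⟨Dl, Dr, g1, g2, g3⟩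

end Crest.Agent.S0210
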