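import Crest.Statements.S0218
import Crest.Agent.RC.Asm
import Crest.Agent.RC.Lo
import Crest.Agent.RC.Approx
import Crest.Agent.RC.Trial
import Crest.Agent.RL.Lo
import Crest.Agent.RL.Lim
import Crest.Agent.RH.Hi

set_option autoImplicit false
open Crest Crest.ProbabilityR

namespace Crest.Agent.S0218

open Crest.Agent.RC Crest.Agent.RS Crest.Agent.MP Finset

/-- stage predicate for `α < a / 2^r` -/
def hiT (a r : ℕ) (d : DT) : Bool := !decide (0 ≤ PhiQ a r d)

theorem computable_hiT : Computable fun x : (ℕ × ℕ) × DT => hiT x.1.1 x.1.2 x.2 := by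
  have h0 : Computable fun _ : (ℕ × ℕ) × DT => (0 : ℚ) := Computable.const 0
  have h1 := Crest.Agent.CompRat.computable_le.comp h0 computable_PhiQ
  have h2 := Primrec.not.to_comp.comp h1
  exact h2

theorem hiT_iff (a r : ℕ) (d : DT) : hiT a r d = true ↔ PhiQ a r d < 0 := by
  unfold hiT
  rw [Bool.not_eq_true', decide_eq_false_iff_not, not_le]

theorem AR_congr {cc : ℝ} {j K R : ℕ} (hK : 0 < K) {c q c' q' : ℕ → ℝ}
    (hc : ∀ J, J ≤ R → c' J = c J) (hq : ∀ a, a < K ^ (R + 1) → q' a = q a) :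
    AR cc j K R c' q' = AR cc j K R c q := by
  unfold AR
  simp only [siteV_congr hK hc hq, edgeV_congr hK hc hq]

theorem hi_sound' {α : ℝ} (hα : RandomSAT.IsSharpThreshold (RandomSAT.satProb 3) α) (a r : ℕ)
    (d : DT) (h : PhiQ (a + 1) r d < 0) : α ≤ ((a + 1 : ℕ) : ℝ) / 2 ^ r := by
  have hcc : (0 : ℝ) < ((a + 1 : ℕ) : ℝ) / 2 ^ r := by positivity
  obtain ⟨t, hK, hR, hc, hq⟩ := exists_trial_of_DT d
  refine hi_sound hα hcc d.j t ?_
  have e1 : t.A 3 (((a + 1 : ℕ) : ℝ) / 2 ^ r) (satLaw d.j).toLaw nu0 =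
      AR (((a + 1 : ℕ) : ℝ) / 2 ^ r) d.j t.K t.r (tc t) (tq t) := A_eq_AR t hcc d.j _ _
  rw [e1, hK, hR, AR_congr d.adm.K_pos hc hq]
  have h1 := AR_le_PhiR hcc d.j d.adm (log_two_le_lam d.N1) (elow_nonneg (a + 1) r d.N1)
    (elow_le (a + 1) r d.N1) d.k0 d.N0
  rw [← PhiQ_eq] at h1
  have h2 : ((PhiQ (a + 1) r d : ℚ) : ℝ) < 0 := by exact_mod_cast h
  linarith

theorem hi_complete' {α : ℝ} (hα : RandomSAT.IsSharpThreshold (RandomSAT.satProb 3) α) (a r : ℕ)
    (h : α < ((a + 1 : ℕ) : ℝ) / 2 ^ r) : ∃ d : DT, PhiQ (a + 1) r d < 0 := by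
  have hcc : (0 : ℝ) < ((a + 1 : ℕ) : ℝ) / 2 ^ r := by positivity
  obtain ⟨j, t, ht⟩ := hi_complete hα hcc h
  have e1 : t.A 3 (((a + 1 : ℕ) : ℝ) / 2 ^ r) (satLaw j).toLaw nu0 =
      AR (((a + 1 : ℕ) : ℝ) / 2 ^ r) j t.K t.r (tc t) (tq t) := A_eq_AR t hcc j _ _
  rw [e1] at ht
  obtain ⟨k0, N0, h1⟩ := exists_PhiR_neg hcc j (trial_adm t) ht
  exact exists_PhiQ_neg (trial_adm t) h1

/-- Suppose formulas of independent uniformly random clauses, each with three literals of fair sign on three distinct variables among `n`, have a sharp satisfiability threshold at clause density `α`: at every fixed density below `α` the probability of satisfiability tends to `1` as `n → ∞`, and at every fixed density above `α` it tends to `0`. Then `α` is a computable real number: some computable function `f` on the natural numbers has `f r / 2 ^ r` within `2⁻ʳ` of `α` for every `r`. -/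
theorem result (α : ℝ)
    (hα : Crest.ProbabilityR.RandomSAT.IsSharpThreshold (Crest.ProbabilityR.RandomSAT.satProb 3) α) :
    ∃ f : ℕ → ℕ, Computable f ∧ ∀ r : ℕ, |(f r : ℝ) / 2 ^ r - α| ≤ 1 / 2 ^ r := by
  obtain ⟨C, hC⟩ := lo_main
  obtain ⟨hlo1, hlo2⟩ := hC α hα
  refine exists_computable_of_stages α (threshold_nonneg hα) (loT C) hiT (computable_loT C)
    computable_hiT ?_ ?_ ?_ ?_
  · intro a r s hs
    rw [loT_iff] at hs
    exact (hlo1 _ (s.1 + 3) s.2 (by omega) hs).le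
  · intro a r h
    obtain ⟨n, M, hn, h1⟩ := hlo2 _ h
    refine ⟨(n - 3, M), ?_⟩
    rw [loT_iff]
    have : n - 3 + 3 = n := by omega
    simp only [this]
    exact h1
  · intro a r s hs
    exact hi_sound' hα a r s ((hiT_iff _ _ _).1 hs)
  · intro a r h
    obtain ⟨d, hd⟩ := hi_complete' hα a r h
    exact ⟨d, (hiT_iff _ _ _).2 hd⟩

end Crest.Agent.S0218
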