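import Crest.Statements.S0222
import Crest.Agent.Lib.Row155.Bridge
import Crest.Agent.Lib.Row155.T2
import Crest.Agent.Lib.Row155.Reveal
import Crest.Agent.Lib.Row155.TupleErr2
import Crest.Agent.Lib.Row155.EvolveEnergy
import Crest.Agent.Lib.Row155.T21
import Crest.Agent.Lib.Row155.GoodProb
import Crest.Agent.Lib.Row155.PsiConv
import Crest.Agent.Lib.Row155.RGood
import Crest.Agent.Lib.Row155.PsiRGood
import Crest.Agent.Lib.Row155.LevelBound
import Crest.Agent.Lib.Row155.QuadHigh

set_option autoImplicit false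
open Crest Crest.ProbabilityR

namespace Crest.Agent.S0222

open Filter Topology in
/-- The fresh-environment error tends to `0` (C12). -/
theorem freshErr_tendsto :
    Tendsto (fun d : ℕ => Thorp.freshErr (Fin (2 ^ d)) (d + 1) 33) atTop (𝓝 0) :=
  Thorp.freshErr_tendsto_of Thorp.good_prob
    (fun r hr hc q hq B W hB hW h k hk => Thorp.psi_convPow_le r hr hc q hq B W hB hW h k hk)
    Thorp.rGood_nonneg Thorp.rGood_class Thorp.rGood_inv Thorp.rGood_pos Thorp.rGood_mass
    Thorp.freshErr_le
    (fun d K b s l g hg hW τ => Thorp.psi_rGood_full d K b s l g hg hW τ)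
    (fun d K b s l g hg hW τ q hq => Thorp.psi_rGood_part d K b s l g hg hW τ q hq)
    (fun r hr hm hc hi hp j1 hj1 k η hη hh qf hqf M hM Minf hMinf =>
      Thorp.level_bound r hr hm hc hi hp j1 hj1 k η hη hh qf hqf M hM Minf hMinf)
    (fun d K b s j hj hs f hf => Thorp.quad_rGood_high d K b s j hj hs f hf)

open Filter Topology in
/-- The tuple error tends to `0` (C4). -/
theorem tupleErr_tendsto :
    Tendsto (fun d : ℕ => Thorp.tupleErr (d + 1) 46 (2 ^ d)) atTop (𝓝 0) :=
  Thorp.tupleErr_tendsto_of_T5
    (fun D => Thorp.evolve_BS D)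
    (fun D => Thorp.evolve_energy D)

/-- Shuffle a deck of `n = 2 * 2 ^ d` cards `1600 * (d + 1)` times, that is `1600 * log₂ n` times. The total variation distance between the law of the resulting arrangement of the whole deck and the uniform law on all arrangements tends to `0` as `d → ∞`. -/
theorem result :
    Filter.Tendsto (fun d : ℕ => Crest.ProbabilityR.Shuffle.tvFromUniform (2 ^ d) (1600 * (d + 1)))
      Filter.atTop (nhds 0) := by
  have h1 : Filter.Tendsto (fun d : ℕ => (33 + 1) * Thorp.tupleErr (d + 1) 46 (2 ^ d) +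
      Thorp.freshErr (Fin (2 ^ d)) (d + 1) 33) Filter.atTop (nhds 0) := by
    simpa using (tupleErr_tendsto.const_mul (33 + 1)).add freshErr_tendsto
  refine squeeze_zero (fun d => ?_) (fun d => ?_) h1
  · rw [Thorp.bridge]
    exact mul_nonneg (by norm_num) (Finset.sum_nonneg fun _ _ => abs_nonneg _)
  · rw [Thorp.bridge]
    refine (Thorp.tv_passLaw_anti (d + 1) (K := 33 * (46 + 1)) (by norm_num)).trans ?_
    exact_mod_cast Thorp.passLaw_le d 33 46 (by norm_num)

end Crest.Agent.S0222
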