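import Crest.Statements.S0223
-- import your own Crest.Agent.* helpers here

set_option autoImplicit false
open Crest Crest.ProbabilityR

namespace Crest.Agent.S0223

open Crest.ProbabilityR.Shuffle Finset

theorem stepPos_injective (m : ℕ) (c : Fin m → Bool) : Function.Injective (stepPos m c) := by
  intro x y h
  have hx := x.isLt
  have hy := y.isLt
  have hm : 0 < m := by omega
  unfold stepPos at h
  rw [Fin.mk.injEq] at h
  have hxm : x.val % m < m := Nat.mod_lt _ hm
  have hym : y.val % m < m := Nat.mod_lt _ hm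
  have h1 : x.val % m = y.val % m := by
    split_ifs at h <;> omega
  have h2 : decide (m ≤ x.val) = decide (m ≤ y.val) := by
    have hc : c ⟨x.val % m, hxm⟩ = c ⟨y.val % m, hym⟩ := by
      congr 1
      exact Fin.ext h1
    rw [hc] at h
    generalize c ⟨y.val % m, hym⟩ = b at h
    cases hdx : decide (m ≤ x.val) <;> cases hdy : decide (m ≤ y.val) <;> cases b <;>
      simp [hdx, hdy] at h ⊢ <;> omega
  have hx2 := Nat.div_add_mod x.val m
  have hy2 := Nat.div_add_mod y.val m
  have hxd : x.val / m < 2 := (Nat.div_lt_iff_lt_mul hm).2 hx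
  have hyd : y.val / m < 2 := (Nat.div_lt_iff_lt_mul hm).2 hy
  have hxc : m ≤ x.val ↔ x.val / m = 1 := by
    constructor
    · intro h3
      have : 1 ≤ x.val / m := (Nat.one_le_div_iff hm).2 h3
      omega
    · intro h3
      exact (Nat.one_le_div_iff hm).1 (by omega)
  have hyc : m ≤ y.val ↔ y.val / m = 1 := by
    constructor
    · intro h3
      have : 1 ≤ y.val / m := (Nat.one_le_div_iff hm).2 h3
      omega
    · intro h3
      exact (Nat.one_le_div_iff hm).1 (by omega)
  have h3 : x.val / m = y.val / m := by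
    have h4 : (m ≤ x.val) ↔ (m ≤ y.val) := by
      simpa using h2
    rw [hxc, hyc] at h4
    clear hx2 hy2 hxc hyc
    generalize x.val / m = a at hxd h4 ⊢
    generalize y.val / m = b at hyd h4 ⊢
    omega
  apply Fin.ext
  rw [← hx2, ← hy2, h1, h3]

theorem iterPos_injective (m : ℕ) : ∀ (t : ℕ) (cs : Fin t → Fin m → Bool),
    Function.Injective (iterPos m t cs)
  | 0, _ => fun _ _ h => h
  | t + 1, _ => (stepPos_injective m _).comp (iterPos_injective m t _)

/-- the permutation -/
noncomputable def sg (m t : ℕ) (cs : Fin t → Fin m → Bool) : Equiv.Perm (Fin (2 * m)) :=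
  Equiv.ofBijective (iterPos m t cs) (Finite.injective_iff_bijective.1 (iterPos_injective m t cs))

theorem sg_eq_iff (m t : ℕ) (cs : Fin t → Fin m → Bool) (g : Equiv.Perm (Fin (2 * m))) :
    iterPos m t cs = ⇑g ↔ sg m t cs = g := by
  constructor
  · intro h
    ext x
    simp [sg, h]
  · intro h
    rw [← h]
    rfl

theorem tv_lower {Ω G : Type*} [Fintype Ω] [Fintype G] [DecidableEq G] [Nonempty Ω] [Nonempty G]
    (σ : Ω → G) (p : G → ℝ)
    (hp : ∀ g, p g = ((univ.filter (fun ω => σ ω = g)).card : ℝ) / Fintype.card Ω) :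
    1 - (Fintype.card Ω : ℝ) / (Fintype.card G : ℝ) ≤
      (1 / 2) * ∑ g, |p g - 1 / (Fintype.card G : ℝ)| := by
  classical
  set u : ℝ := 1 / (Fintype.card G : ℝ) with hu
  have hGpos : (0 : ℝ) < Fintype.card G := by exact_mod_cast Fintype.card_pos
  have hΩpos : (0 : ℝ) < Fintype.card Ω := by exact_mod_cast Fintype.card_pos
  set S : Finset G := univ.image σ with hS
  have hScard : (S.card : ℝ) ≤ Fintype.card Ω := by
    exact_mod_cast Finset.card_image_le
  have hpS : ∑ g ∈ S, p g = 1 := by
    have h1 : ∑ g ∈ S, ((univ.filter (fun ω => σ ω = g)).card : ℝ) = Fintype.card Ω := by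
      have h2 := Finset.card_eq_sum_card_image σ (univ : Finset Ω)
      rw [← Nat.cast_sum, ← h2]
      rfl
    calc ∑ g ∈ S, p g = (∑ g ∈ S, ((univ.filter (fun ω => σ ω = g)).card : ℝ)) / Fintype.card Ω := by
          rw [Finset.sum_div]
          exact Finset.sum_congr rfl fun g _ => hp g
      _ = 1 := by rw [h1]; exact div_self hΩpos.ne'
  have hpz : ∀ g, g ∉ S → p g = 0 := by
    intro g hg
    rw [hp]
    have : univ.filter (fun ω => σ ω = g) = ∅ := by
      rw [Finset.filter_eq_empty_iff]
      intro ω _ h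
      exact hg (Finset.mem_image.2 ⟨ω, Finset.mem_univ _, h⟩)
    rw [this]; simp
  have h1 : ∑ g ∈ S, (p g - u) ≤ ∑ g ∈ S, |p g - u| :=
    Finset.sum_le_sum fun g _ => le_abs_self _
  have h2 : ∑ g ∈ Sᶜ, (u - p g) ≤ ∑ g ∈ Sᶜ, |p g - u| :=
    Finset.sum_le_sum fun g _ => by rw [abs_sub_comm]; exact le_abs_self _
  have h3 : ∑ g ∈ Sᶜ, (u - p g) = (Fintype.card G - S.card) * u := by
    have : ∀ g ∈ Sᶜ, u - p g = u := by
      intro g hg
      rw [hpz g (Finset.mem_compl.1 hg), sub_zero]
    rw [Finset.sum_congr rfl this, Finset.sum_const, nsmul_eq_mul, Finset.card_compl,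
      Nat.cast_sub (Finset.card_le_univ S)]
  have h4 : ∑ g ∈ S, (p g - u) = 1 - S.card * u := by
    rw [Finset.sum_sub_distrib, hpS, Finset.sum_const, nsmul_eq_mul]
  have h5 : ∑ g, |p g - u| = ∑ g ∈ S, |p g - u| + ∑ g ∈ Sᶜ, |p g - u| :=
    (Finset.sum_add_sum_compl S _).symm
  have h6 : (Fintype.card G : ℝ) * u = 1 := by rw [hu]; field_simp
  have hu0 : 0 ≤ u := by positivity
  have h7 : (S.card : ℝ) * u ≤ Fintype.card Ω * u := mul_le_mul_of_nonneg_right hScard hu0
  have h8 : (Fintype.card Ω : ℝ) / (Fintype.card G : ℝ) = Fintype.card Ω * u := by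
    rw [hu]; ring
  rw [h8, h5]
  have h9 : (Fintype.card G - S.card : ℝ) * u = 1 - S.card * u := by
    rw [sub_mul, h6]
  rw [h9] at h3
  linarith

/-- For a deck of `2 * 2 ^ d` cards and every number `t` of shuffles, the total variation distance between the law of the arrangement of the deck and the uniform law on all arrangements is at least `1 - 2 ^ (2 ^ d * t) / (2 * 2 ^ d)!`. -/
theorem result (d t : ℕ) :
    1 - (2 : ℝ) ^ (2 ^ d * t) / ((2 * 2 ^ d).factorial : ℝ)
      ≤ Crest.ProbabilityR.Shuffle.tvFromUniform (2 ^ d) t := by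
  classical
  have hG : (Fintype.card (Equiv.Perm (Fin (2 * 2 ^ d)))) = (2 * 2 ^ d).factorial := by
    rw [Fintype.card_perm, Fintype.card_fin]
  have hΩ : (Fintype.card (Fin t → Fin (2 ^ d) → Bool)) = 2 ^ (2 ^ d * t) := by
    simp [pow_mul]
  have h := tv_lower (sg (2 ^ d) t)
    (fun g => Crest.FinProb.uniformProb {cs : Fin t → Fin (2 ^ d) → Bool |
      iterPos (2 ^ d) t cs = ⇑g}) (by
      intro g
      unfold Crest.FinProb.uniformProb
      congr 2
      apply congrArg Finset.card
      ext cs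
      simp only [Finset.mem_filter, Finset.mem_univ, true_and, Set.mem_ofPred_eq]
      exact sg_eq_iff _ _ _ _)
  rw [hG, hΩ] at h
  unfold tvFromUniform
  exact_mod_cast h

end Crest.Agent.S0223
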