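import Crest.Statements.S0241
import Crest.Agent.Lib.Row160.Final2
import Crest.Agent.Lib.Row160.Dynamic

set_option autoImplicit false
universe u
open Crest Crest.ProbabilityR

namespace Crest.Agent.S0241

open MeasureTheory Filter Topology Crest.Agent.Lib.Row160

/-- Let `d ≥ 3`, `β ≥ 0`, `tanh β ≤ (d-1)^(-1/2)`. On every connected acyclic graph with all degrees `d` (the infinite `d`-regular tree) some measurable map from `[0,1]^V` to spin configurations commutes with every automorphism on every input and, fed independent uniform labels, outputs the free zero-field Ising state: each spin pattern on a finite connected vertex set `S` has probability `1/2` times the product over edges inside `S` of `(1 ± tanh β)/2`, with `+` for agreeing endpoints. -/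
theorem result (d : ℕ) (hd : 3 ≤ d) (β : ℝ)
    (hβ : 0 ≤ β) (hθ : Real.tanh β ≤ ((d : ℝ) - 1) ^ (-(1 / 2 : ℝ))) (V : Type u)
    (G : SimpleGraph V) [G.LocallyFinite] (hT : G.IsTree) (hreg : G.IsRegularOfDegree d) :
    ∃ Φ : (V → unitInterval) → (V → Bool),
      Measurable Φ ∧
      (∀ (g : G ≃g G) (x : V → unitInterval), Φ (x ∘ ⇑g) = Φ x ∘ ⇑g) ∧
      ∀ (S : Finset V) (η : V → Bool), (G.induce (S : Set V)).Connected →
        (Crest.ProbabilityR.Labels.labelMeasure V).map Φ {σ | ∀ v ∈ S, σ v = η v} =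
          ENNReal.ofReal (Crest.ProbabilityR.TreeIsing.isingWeight G (Real.tanh β) S η) := by
  have hd3 : (3 : ℝ) ≤ d := by exact_mod_cast hd
  have hb : (0 : ℝ) < (d : ℝ) - 1 := by linarith
  have h0 : 0 ≤ Real.tanh β := by
    rw [Real.tanh_eq_sinh_div_cosh]
    exact div_nonneg (Real.sinh_nonneg_iff.2 hβ) (Real.cosh_pos β).le
  have hsq : (((d : ℝ) - 1) ^ (-(1 / 2 : ℝ))) ^ 2 = ((d : ℝ) - 1)⁻¹ := by
    rw [← Real.rpow_natCast, ← Real.rpow_mul hb.le, ← Real.rpow_neg_one]
    norm_num
  have hle : ((d : ℝ) - 1) * Real.tanh β ^ 2 ≤ 1 := by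
    have h1 : Real.tanh β ^ 2 ≤ ((d : ℝ) - 1)⁻¹ := by
      rw [← hsq]; exact pow_le_pow_left₀ h0 hθ 2
    calc ((d : ℝ) - 1) * Real.tanh β ^ 2 ≤ ((d : ℝ) - 1) * ((d : ℝ) - 1)⁻¹ := by gcongr
      _ = 1 := mul_inv_cancel₀ hb.ne'
  rcases hle.lt_or_eq with hlt | heq
  · refine result_of_cauchy' hT hd hreg (fun _ => Real.tanh β) (fun _ => h0) (fun _ => hlt)
      tendsto_const_nhds fun k v => ?_
    simp only [sub_self, ne_eq, OfNat.ofNat_ne_zero, not_false_eq_true, zero_pow, integral_zero]
    exact tendsto_const_nhds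
  · have hpos : 0 < Real.tanh β := by
      rcases h0.eq_or_lt with h | h
      · rw [← h] at heq; norm_num at heq
      · exact h
    obtain ⟨θs, hθ0, hθ1, hlim, hC⟩ := critical_cauchy (G := G) hT hd hreg hpos heq
    exact result_of_cauchy' hT hd hreg θs hθ0 hθ1 hlim hC

end Crest.Agent.S0241
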