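import Crest.Statements.S0248
import Crest.Agent.RI.BlockField
import Crest.Agent.RI.UBStmt
import Crest.Agent.RI.LBMain
import Crest.Agent.RI.RBG

set_option autoImplicit false
open Crest Crest.ProbabilityR

namespace Crest.Agent.S0248

/-- Randomly rotated deterministic-spectrum Ising model with the spectral and Haar hypotheses of the zero-field statement, plus an external field taking finitely many distinct values c_j, the proportion of sites carrying c_j tending to a positive rational γ_j. The finite-alphabet value (supremum over rational mean spins m_j in (-1,1) of Σ_j γ_j c_j m_j plus the infimum over trial paths of S_m(p) + G(p)) is finite, and the pressure with field tends to it in expectation and almost surely. -/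
theorem result
    (μ : MeasureTheory.Measure ℝ)
    [MeasureTheory.IsProbabilityMeasure μ] (lamMinus lamPlus : ℝ) (hle : lamMinus ≤ lamPlus)
    (hsupp : μ (Set.Icc lamMinus lamPlus) = 1)
    (hedge : ∀ ε : ℝ, 0 < ε →
      0 < μ (Set.Icc lamMinus (lamMinus + ε)) ∧ 0 < μ (Set.Icc (lamPlus - ε) lamPlus))
    (eig : (N : ℕ) → Fin N → ℝ)
    (hweak : ∀ φ : ℝ → ℝ, Continuous φ → (∃ C : ℝ, ∀ x, |φ x| ≤ C) →
      Filter.Tendsto (fun N : ℕ => (1 / (N : ℝ)) * ∑ i : Fin N, φ (eig N i)) Filter.atTop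
        (nhds (∫ x, φ x ∂μ)))
    (hext : ∀ ε : ℝ, 0 < ε → ∀ᶠ N : ℕ in Filter.atTop, ∀ i : Fin N,
      lamMinus - ε ≤ eig N i ∧ eig N i ≤ lamPlus + ε)
    (J : ℕ) (cval : Fin J → ℝ) (hinj : Function.Injective cval)
    (γ : Fin J → ℚ) (hγpos : ∀ j, 0 < γ j) (hγsum : ∑ j, γ j = 1)
    (lab : (N : ℕ) → Fin N → Fin J)
    (hprop : ∀ j : Fin J, Filter.Tendsto
      (fun N : ℕ => ((Finset.univ.filter fun r : Fin N => lab N r = j).card : ℝ) / (N : ℝ))
      Filter.atTop (nhds ((γ j : ℚ) : ℝ)))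
    (Ω : Type) [MeasurableSpace Ω] (P : MeasureTheory.Measure Ω) [MeasureTheory.IsProbabilityMeasure P]
    (Us : (N : ℕ) → Ω → (Fin N → Fin N → ℝ)) (hmeas : ∀ N, Measurable (Us N))
    (horth : ∀ N, ∀ᵐ ω ∂P, Matrix.of (Us N ω) ∈ Matrix.orthogonalGroup (Fin N) ℝ)
    (hHaar : ∀ (N : ℕ) (O : Matrix (Fin N) (Fin N) ℝ), O ∈ Matrix.orthogonalGroup (Fin N) ℝ →
      P.map (fun ω => fun i j => (Matrix.of (Us N ω) * O) i j) = P.map (Us N)) :
    ∃ F : ℝ, Crest.ProbabilityR.InvariantGlass.magneticValue μ lamPlus cval γ = (F : EReal) ∧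
      Filter.Tendsto (fun N : ℕ => ∫ ω, Crest.ProbabilityR.InvariantGlass.pressureFieldN (eig N) (Matrix.of (Us N ω))
          (fun r => cval (lab N r)) ∂P) Filter.atTop (nhds F) ∧
      ∀ᵐ ω ∂P, Filter.Tendsto (fun N : ℕ => Crest.ProbabilityR.InvariantGlass.pressureFieldN (eig N) (Matrix.of (Us N ω))
          (fun r => cval (lab N r))) Filter.atTop (nhds F) :=
  Crest.Agent.RI.S0248_of_block
    (Crest.Agent.RI.block_field_of Crest.Agent.RI.UBmain_stmt Crest.Agent.RI.LBmain
      Crest.Agent.RI.Blk.G_lip)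
    μ lamMinus lamPlus hle hsupp hedge eig hweak hext J cval γ hγpos hγsum lab hprop Ω P Us hmeas
    horth hHaar

end Crest.Agent.S0248
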