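import Crest.Statements.S0249
import Crest.Agent.S0248
import Crest.Agent.RI.W1Core

set_option autoImplicit false
open Crest Crest.ProbabilityR

namespace Crest.Agent.S0249

/-- Same model and hypotheses, with field vectors whose empirical laws converge in first-moment transport distance to a probability law ν on the reals with finite first absolute moment. There is a real F such that: (i) along every sequence of finite field alphabets with distinct values and positive rational proportions summing to 1 whose laws tend to ν in transport distance, the finite-alphabet values tend to F, and (ii) the pressure with field tends to F in expectation and almost surely. -/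
theorem result
    (μ : MeasureTheory.Measure ℝ)
    [MeasureTheory.IsProbabilityMeasure μ] (lamMinus lamPlus : ℝ) (hle : lamMinus ≤ lamPlus)
    (hsupp : μ (Set.Icc lamMinus lamPlus) = 1)
    (hedge : ∀ ε : ℝ, 0 < ε →
      0 < μ (Set.Icc lamMinus (lamMinus + ε)) ∧ 0 < μ (Set.Icc (lamPlus - ε) lamPlus))
    (eig : (N : ℕ) → Fin N → ℝ)
    (hweak : ∀ φ : ℝ → ℝ, Continuous φ → (∃ C : ℝ, ∀ x, |φ x| ≤ C) →
      Filter.Tendsto (fun N : ℕ => (1 / (N : ℝ)) * ∑ i : Fin N, φ (eig N i)) Filter.atTop
        (nhds (∫ x, φ x ∂μ)))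
    (hext : ∀ ε : ℝ, 0 < ε → ∀ᶠ N : ℕ in Filter.atTop, ∀ i : Fin N,
      lamMinus - ε ≤ eig N i ∧ eig N i ≤ lamPlus + ε)
    (ν : MeasureTheory.Measure ℝ) [MeasureTheory.IsProbabilityMeasure ν]
    (hν : MeasureTheory.Integrable (fun x : ℝ => x) ν)
    (c : (N : ℕ) → Fin N → ℝ)
    (hW : Filter.Tendsto (fun N : ℕ => Crest.ProbabilityR.InvariantGlass.transportCost (Crest.ProbabilityR.InvariantGlass.empiricalLaw (c N)) ν)
      Filter.atTop (nhds 0))
    (Ω : Type) [MeasurableSpace Ω] (P : MeasureTheory.Measure Ω) [MeasureTheory.IsProbabilityMeasure P]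
    (Us : (N : ℕ) → Ω → (Fin N → Fin N → ℝ)) (hmeas : ∀ N, Measurable (Us N))
    (horth : ∀ N, ∀ᵐ ω ∂P, Matrix.of (Us N ω) ∈ Matrix.orthogonalGroup (Fin N) ℝ)
    (hHaar : ∀ (N : ℕ) (O : Matrix (Fin N) (Fin N) ℝ), O ∈ Matrix.orthogonalGroup (Fin N) ℝ →
      P.map (fun ω => fun i j => (Matrix.of (Us N ω) * O) i j) = P.map (Us N)) :
    ∃ F : ℝ,
      (∀ (Jq : ℕ → ℕ) (cq : (q : ℕ) → Fin (Jq q) → ℝ) (γq : (q : ℕ) → Fin (Jq q) → ℚ),
        (∀ q, Function.Injective (cq q) ∧ (∀ j, 0 < γq q j) ∧ ∑ j, γq q j = 1) →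
        Filter.Tendsto (fun q : ℕ => Crest.ProbabilityR.InvariantGlass.transportCost
            (∑ j : Fin (Jq q), ENNReal.ofReal ((γq q j : ℚ) : ℝ) • MeasureTheory.Measure.dirac (cq q j)) ν)
          Filter.atTop (nhds 0) →
        Filter.Tendsto (fun q : ℕ => Crest.ProbabilityR.InvariantGlass.magneticValue μ lamPlus (cq q) (γq q))
          Filter.atTop (nhds (F : EReal))) ∧
      Filter.Tendsto (fun N : ℕ => ∫ ω, Crest.ProbabilityR.InvariantGlass.pressureFieldN (eig N) (Matrix.of (Us N ω)) (c N) ∂P)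
        Filter.atTop (nhds F) ∧
      ∀ᵐ ω ∂P, Filter.Tendsto (fun N : ℕ => Crest.ProbabilityR.InvariantGlass.pressureFieldN (eig N) (Matrix.of (Us N ω)) (c N))
        Filter.atTop (nhds F) := by
  exact Crest.Agent.RI.s249_core hmeas horth hW
    (fun J cval hinj γ hγpos hγsum lab hprop => Crest.Agent.S0248.result μ lamMinus lamPlus hle hsupp
      hedge eig hweak hext J cval hinj γ hγpos hγsum lab hprop Ω P Us hmeas horth hHaar)

end Crest.Agent.S0249
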