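import Crest.Statements.S0254
import Crest.Agent.Lib.Row168.Factor
import Crest.Agent.Lib.Row168.Balls
import Crest.Agent.Lib.Row168.Fusf
import Crest.Agent.Lib.Row168.EdgeNoise

set_option autoImplicit false
open Crest Crest.ProbabilityR

namespace Crest.Agent.S0254

open MeasureTheory Filter Topology Crest.Agent.Lib.Row168
open Crest.ProbabilityR.GraphTables

lemma PL_map_equiv {ι κ : Type*} (e : ι ≃ κ) :
    (PL κ).map (fun (g : κ → ℝ) (i : ι) => g (e i)) = PL ι := by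
  have h := Measure.infinitePi_map_piCongrLeft (X := fun _ : ι => ℝ)
    (μ := fun _ : ι => logis) e.symm
  have h2 : (fun (g : κ → ℝ) (i : ι) => g (e i)) =
      MeasurableEquiv.piCongrLeft (fun _ : ι => ℝ) e.symm := by
    funext g i
    rw [MeasurableEquiv.coe_piCongrLeft]
    have := Equiv.piCongrLeft_apply_apply (P := fun _ : ι => ℝ) e.symm g (e i)
    rw [Equiv.symm_apply_apply] at this
    exact this.symm
  rw [h2]
  exact h

/-- the permutation of pairs induced by a permutation -/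
def sE (σ : Equiv.Perm ℕ) : Sym2 ℕ ≃ Sym2 ℕ where
  toFun := Sym2.map ⇑σ
  invFun := Sym2.map ⇑σ.symm
  left_inv f := by rw [Sym2.map_map]; simp
  right_inv f := by rw [Sym2.map_map]; simp

/-- the same as an embedding -/
def sM (σ : Equiv.Perm ℕ) : Sym2 ℕ ↪ Sym2 ℕ := ⟨Sym2.map ⇑σ, Sym2.map.injective σ.injective⟩

lemma sM_apply (σ : Equiv.Perm ℕ) (f : Sym2 ℕ) : sM σ f = Sym2.map ⇑σ f := rfl

lemma map_surj (σ : Equiv.Perm ℕ) (Λ : Finset (Sym2 ℕ)) : ∃ Λ₁ : Finset (Sym2 ℕ), Λ₁.map (sM σ) = Λ := by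
  classical
  refine ⟨Λ.map (sM σ⁻¹), ?_⟩
  rw [Finset.map_map]
  have : (sM σ⁻¹).trans (sM σ) = Function.Embedding.refl _ := by
    ext f
    · simp only [Function.Embedding.trans_apply, sM_apply, Sym2.map_map, Function.Embedding.refl_apply]
      have : (⇑σ ∘ ⇑σ⁻¹) = id := by ext x; simp
      rw [this, Sym2.map_id]; rfl
  rw [this, Finset.map_refl]

variable (ν : SimpleGraph ℕ → Measure (Sym2 ℕ → Bool))

/-- indicator -/
def XG (G : SimpleGraph ℕ) (Λ : Finset (Sym2 ℕ)) (k : ℕ) (g : Sym2 ℕ → ℝ) (e : Sym2 ℕ) : Prop :=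
  XX (winW (ν G) Λ) Λ k g e

/-- good radius -/
def GR (G : SimpleGraph ℕ) (e : Sym2 ℕ) (k R : ℕ) : Prop :=
  ∀ Λ Λ' : Finset (Sym2 ℕ), eball G e R ⊆ (Λ : Set (Sym2 ℕ)) → eball G e R ⊆ (Λ' : Set (Sym2 ℕ)) →
    (PL (Sym2 ℕ)) {g | ¬ (XG ν G Λ k g e ↔ XG ν G Λ' k g e)} ≤ ENNReal.ofReal ((1 / 2) ^ k)

/-- selected window -/
def SW (G : SimpleGraph ℕ) (e : Sym2 ℕ) (k : ℕ) (Λ : Finset (Sym2 ℕ)) : Prop :=
  ∃ R, (GR ν G e k R ∧ ∀ R' < R, ¬ GR ν G e k R') ∧ (Λ : Set (Sym2 ℕ)) = eball G e R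

/-- the value at `e` -/
def VL (G : SimpleGraph ℕ) (g : Sym2 ℕ → ℝ) (e : Sym2 ℕ) : Prop :=
  e ∈ G.edgeSet ∧ ∃ᶠ k in atTop, ∃ Λ, SW ν G e k Λ ∧ XG ν G Λ k g e

section measurability

variable (hm : ∀ Λ S : Finset (Sym2 ℕ),
  Measurable (fun A : ℕ → ℕ → Bool => winW (ν (graphOfTable A)) Λ S))

include hm

lemma measurable_winG (Λ : Finset (Sym2 ℕ)) :
    Measurable (fun p : (ℕ → ℕ → Bool) × (Sym2 ℕ → ℝ) => (winW (ν (graphOfTable p.1)) Λ, p.2)) := by
  refine Measurable.prodMk ?_ measurable_snd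
  exact measurable_pi_lambda _ fun S => (hm Λ S).comp measurable_fst

lemma measurableSet_XG (Λ : Finset (Sym2 ℕ)) (k : ℕ) (e : Sym2 ℕ) :
    MeasurableSet {p : (ℕ → ℕ → Bool) × (Sym2 ℕ → ℝ) | XG ν (graphOfTable p.1) Λ k p.2 e} :=
  measurable_winG ν hm Λ (measurableSet_XX Λ k e)

lemma measurableSet_GR (e : Sym2 ℕ) (k R : ℕ) :
    MeasurableSet {A : ℕ → ℕ → Bool | GR ν (graphOfTable A) e k R} := by
  have hsub : ∀ Λ : Finset (Sym2 ℕ),
      MeasurableSet {A : ℕ → ℕ → Bool | eball (graphOfTable A) e R ⊆ (Λ : Set (Sym2 ℕ))} := by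
    intro Λ
    have : {A : ℕ → ℕ → Bool | eball (graphOfTable A) e R ⊆ (Λ : Set (Sym2 ℕ))} =
        ⋂ f : Sym2 ℕ, ({A | f ∈ eball (graphOfTable A) e R}ᶜ ∪ {_A | f ∈ Λ}) := by
      ext A
      simp only [Set.mem_ofPred_eq, Set.mem_iInter, Set.mem_union, Set.mem_compl_iff,
        Set.subset_def, Finset.mem_coe]
      exact forall_congr' fun f => by tauto
    rw [this]
    exact MeasurableSet.iInter fun f =>
      (measurableSet_mem_eball e f R).compl.union (MeasurableSet.const _)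
  have hP : ∀ Λ Λ' : Finset (Sym2 ℕ), MeasurableSet {A : ℕ → ℕ → Bool |
      (PL (Sym2 ℕ)) {g | ¬ (XG ν (graphOfTable A) Λ k g e ↔ XG ν (graphOfTable A) Λ' k g e)} ≤
        ENNReal.ofReal ((1 / 2) ^ k)} := by
    intro Λ Λ'
    have hs : MeasurableSet {p : (ℕ → ℕ → Bool) × (Sym2 ℕ → ℝ) |
        ¬ (XG ν (graphOfTable p.1) Λ k p.2 e ↔ XG ν (graphOfTable p.1) Λ' k p.2 e)} :=
      (measurableSet_iff (measurableSet_XG ν hm Λ k e) (measurableSet_XG ν hm Λ' k e)).compl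
    exact measurableSet_le (measurable_measure_prodMk_left (ν := PL (Sym2 ℕ)) hs) measurable_const
  have : {A : ℕ → ℕ → Bool | GR ν (graphOfTable A) e k R} =
      ⋂ Λ : Finset (Sym2 ℕ), ⋂ Λ' : Finset (Sym2 ℕ),
        ({A : ℕ → ℕ → Bool | eball (graphOfTable A) e R ⊆ (Λ : Set (Sym2 ℕ))}ᶜ ∪
        ({A : ℕ → ℕ → Bool | eball (graphOfTable A) e R ⊆ (Λ' : Set (Sym2 ℕ))}ᶜ ∪
        {A : ℕ → ℕ → Bool |
      (PL (Sym2 ℕ)) {g | ¬ (XG ν (graphOfTable A) Λ k g e ↔ XG ν (graphOfTable A) Λ' k g e)} ≤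
        ENNReal.ofReal ((1 / 2) ^ k)})) := by
    ext A
    simp only [Set.mem_iInter, Set.mem_union, Set.mem_compl_iff, Set.mem_ofPred_eq, GR]
    exact forall₂_congr fun Λ Λ' => by tauto
  rw [this]
  exact MeasurableSet.iInter fun Λ => MeasurableSet.iInter fun Λ' =>
    (hsub Λ).compl.union ((hsub Λ').compl.union (hP Λ Λ'))

lemma measurableSet_SW (e : Sym2 ℕ) (k : ℕ) (Λ : Finset (Sym2 ℕ)) :
    MeasurableSet {A : ℕ → ℕ → Bool | SW ν (graphOfTable A) e k Λ} := by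
  have : {A : ℕ → ℕ → Bool | SW ν (graphOfTable A) e k Λ} =
      ⋃ R : ℕ, (({A | GR ν (graphOfTable A) e k R} ∩
        ⋂ R' : ℕ, ({_A : ℕ → ℕ → Bool | R' < R}ᶜ ∪ {A | GR ν (graphOfTable A) e k R'}ᶜ)) ∩
        ⋂ f : Sym2 ℕ, {A | f ∈ Λ ↔ f ∈ eball (graphOfTable A) e R}) := by
    ext A
    simp only [SW, Set.mem_ofPred_eq, Set.mem_iUnion, Set.mem_inter_iff, Set.mem_iInter,
      Set.mem_union, Set.mem_compl_iff, Set.ext_iff, Finset.mem_coe]
    refine exists_congr fun R => ?_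
    refine and_congr (and_congr Iff.rfl (forall_congr' fun R' => by tauto)) Iff.rfl
  rw [this]
  refine MeasurableSet.iUnion fun R => ((measurableSet_GR ν hm e k R).inter ?_).inter ?_
  · exact MeasurableSet.iInter fun R' =>
      (MeasurableSet.const _).compl.union (measurableSet_GR ν hm e k R').compl
  · exact MeasurableSet.iInter fun f =>
      measurableSet_iff (MeasurableSet.const _) (measurableSet_mem_eball e f R)

lemma measurableSet_VL (e : Sym2 ℕ) :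
    MeasurableSet {p : (ℕ → ℕ → Bool) × (Sym2 ℕ → ℝ) | VL ν (graphOfTable p.1) p.2 e} := by
  have : {p : (ℕ → ℕ → Bool) × (Sym2 ℕ → ℝ) | VL ν (graphOfTable p.1) p.2 e} =
      {p | e ∈ (graphOfTable p.1).edgeSet} ∩
      ⋂ n : ℕ, ⋃ k : ℕ, ⋃ (_ : n ≤ k), ⋃ Λ : Finset (Sym2 ℕ),
        ({p : (ℕ → ℕ → Bool) × (Sym2 ℕ → ℝ) | SW ν (graphOfTable p.1) e k Λ} ∩
        {p : (ℕ → ℕ → Bool) × (Sym2 ℕ → ℝ) | XG ν (graphOfTable p.1) Λ k p.2 e}) := by
    ext p
    simp only [VL, Set.mem_ofPred_eq, frequently_atTop, Set.mem_inter_iff, Set.mem_iInter,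
      Set.mem_iUnion, exists_prop]
  rw [this]
  refine (measurable_fst (measurableSet_mem_edgeSet e)).inter ?_
  refine MeasurableSet.iInter fun n => MeasurableSet.iUnion fun k => MeasurableSet.iUnion fun _ =>
    MeasurableSet.iUnion fun Λ => ?_
  exact (measurable_fst (measurableSet_SW ν hm e k Λ)).inter (measurableSet_XG ν hm Λ k e)

end measurability

section equivariance

variable (hq : ∀ (σ : Equiv.Perm ℕ) (G : SimpleGraph ℕ) (Λ S : Finset (Sym2 ℕ)), S ⊆ Λ →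
        winW (ν (G.comap ⇑σ)) Λ S = winW (ν G)
          (Λ.map ⟨Sym2.map ⇑σ, Sym2.map.injective σ.injective⟩)
          (S.map ⟨Sym2.map ⇑σ, Sym2.map.injective σ.injective⟩))

include hq

lemma XG_comap (σ : Equiv.Perm ℕ) (G : SimpleGraph ℕ) (Λ : Finset (Sym2 ℕ)) (k : ℕ)
    (g : Sym2 ℕ → ℝ) (e : Sym2 ℕ) :
    XG ν (G.comap ⇑σ) Λ k (fun f => g (sE σ f)) e ↔
      XG ν G (Λ.map (sM σ)) k g (Sym2.map ⇑σ e) := by
  unfold XG XX
  have h := W_map (sM σ) (q := winW (ν (G.comap ⇑σ)) Λ) (q' := winW (ν G) (Λ.map (sM σ))) (Λ := Λ)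
    (fun S hS => (hq σ G Λ S hS).symm) 0 k g e
  rw [← sM_apply, h]
  rfl

lemma PL_XG_comap (hmX : ∀ (G : SimpleGraph ℕ) (Λ : Finset (Sym2 ℕ)) (k : ℕ) (e : Sym2 ℕ),
      MeasurableSet {g : Sym2 ℕ → ℝ | XG ν G Λ k g e})
    (σ : Equiv.Perm ℕ) (G : SimpleGraph ℕ) (Λ Λ' : Finset (Sym2 ℕ)) (k : ℕ) (e : Sym2 ℕ) :
    (PL (Sym2 ℕ)) {g | ¬ (XG ν (G.comap ⇑σ) Λ k g e ↔ XG ν (G.comap ⇑σ) Λ' k g e)} =
    (PL (Sym2 ℕ)) {g | ¬ (XG ν G (Λ.map (sM σ)) k g (Sym2.map ⇑σ e) ↔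
      XG ν G (Λ'.map (sM σ)) k g (Sym2.map ⇑σ e))} := by
  have hm : Measurable (fun (g : Sym2 ℕ → ℝ) (i : Sym2 ℕ) => g (sE σ i)) := by fun_prop
  have hms : MeasurableSet {g : Sym2 ℕ → ℝ |
      ¬ (XG ν (G.comap ⇑σ) Λ k g e ↔ XG ν (G.comap ⇑σ) Λ' k g e)} :=
    (measurableSet_iff (hmX _ _ _ _) (hmX _ _ _ _)).compl
  have h3 := Measure.map_apply (μ := PL (Sym2 ℕ)) hm hms
  rw [PL_map_equiv] at h3
  rw [h3]
  congr 1
  ext g
  simp only [Set.mem_preimage, Set.mem_ofPred_eq, XG_comap ν hq]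

omit hq in
lemma eball_sub_comap (σ : Equiv.Perm ℕ) (G : SimpleGraph ℕ) (e : Sym2 ℕ) (R : ℕ)
    (Λ : Finset (Sym2 ℕ)) :
    eball (G.comap ⇑σ) e R ⊆ (Λ : Set (Sym2 ℕ)) ↔
      eball G (Sym2.map ⇑σ e) R ⊆ ((Λ.map (sM σ) : Finset (Sym2 ℕ)) : Set (Sym2 ℕ)) := by
  constructor
  · intro h f hf
    have e1 : Sym2.map ⇑σ ((sE σ).symm f) = f := (sE σ).apply_symm_apply f
    have : (sE σ).symm f ∈ eball (G.comap ⇑σ) e R := by
      rw [mem_eball_comap, e1]; exact hf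
    have h2 := h this
    rw [Finset.mem_coe] at h2 ⊢
    rw [← e1, ← sM_apply, Finset.mem_map']
    exact h2
  · intro h f hf
    rw [mem_eball_comap] at hf
    have h2 := h hf
    rw [Finset.mem_coe, ← sM_apply, Finset.mem_map'] at h2
    exact h2

omit hq in
lemma eball_eq_comap (σ : Equiv.Perm ℕ) (G : SimpleGraph ℕ) (e : Sym2 ℕ) (R : ℕ)
    (Λ : Finset (Sym2 ℕ)) :
    (Λ : Set (Sym2 ℕ)) = eball (G.comap ⇑σ) e R ↔
      ((Λ.map (sM σ) : Finset (Sym2 ℕ)) : Set (Sym2 ℕ)) = eball G (Sym2.map ⇑σ e) R := by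
  constructor
  · intro h
    ext f
    have e1 : Sym2.map ⇑σ ((sE σ).symm f) = f := (sE σ).apply_symm_apply f
    have h2 : (sE σ).symm f ∈ (Λ : Set (Sym2 ℕ)) ↔ (sE σ).symm f ∈ eball (G.comap ⇑σ) e R := by
      rw [h]
    rw [mem_eball_comap, e1] at h2
    rw [← h2, Finset.mem_coe, Finset.mem_coe]
    conv_lhs => rw [← e1, ← sM_apply, Finset.mem_map']
  · intro h
    ext f
    rw [mem_eball_comap, ← h, Finset.mem_coe, Finset.mem_coe, ← sM_apply, Finset.mem_map']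

lemma GR_comap (hmX : ∀ (G : SimpleGraph ℕ) (Λ : Finset (Sym2 ℕ)) (k : ℕ) (e : Sym2 ℕ),
      MeasurableSet {g : Sym2 ℕ → ℝ | XG ν G Λ k g e})
    (σ : Equiv.Perm ℕ) (G : SimpleGraph ℕ) (e : Sym2 ℕ) (k R : ℕ) :
    GR ν (G.comap ⇑σ) e k R ↔ GR ν G (Sym2.map ⇑σ e) k R := by
  constructor
  · intro h Λ Λ' hΛ hΛ'
    obtain ⟨Λ₁, rfl⟩ := map_surj σ Λ
    obtain ⟨Λ₁', rfl⟩ := map_surj σ Λ'
    rw [← PL_XG_comap ν hq hmX]
    exact h Λ₁ Λ₁' ((eball_sub_comap σ G e R Λ₁).2 hΛ) ((eball_sub_comap σ G e R Λ₁').2 hΛ')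
  · intro h Λ Λ' hΛ hΛ'
    rw [PL_XG_comap ν hq hmX]
    exact h _ _ ((eball_sub_comap σ G e R Λ).1 hΛ) ((eball_sub_comap σ G e R Λ').1 hΛ')

lemma SW_comap (hmX : ∀ (G : SimpleGraph ℕ) (Λ : Finset (Sym2 ℕ)) (k : ℕ) (e : Sym2 ℕ),
      MeasurableSet {g : Sym2 ℕ → ℝ | XG ν G Λ k g e})
    (σ : Equiv.Perm ℕ) (G : SimpleGraph ℕ) (e : Sym2 ℕ) (k : ℕ) (Λ : Finset (Sym2 ℕ)) :
    SW ν (G.comap ⇑σ) e k Λ ↔ SW ν G (Sym2.map ⇑σ e) k (Λ.map (sM σ)) := by
  unfold SW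
  refine exists_congr fun R => ?_
  rw [GR_comap ν hq hmX, eball_eq_comap]
  simp only [GR_comap ν hq hmX]

lemma VL_comap (hmX : ∀ (G : SimpleGraph ℕ) (Λ : Finset (Sym2 ℕ)) (k : ℕ) (e : Sym2 ℕ),
      MeasurableSet {g : Sym2 ℕ → ℝ | XG ν G Λ k g e})
    (σ : Equiv.Perm ℕ) (G : SimpleGraph ℕ) (g : Sym2 ℕ → ℝ) (e : Sym2 ℕ) :
    VL ν (G.comap ⇑σ) (fun f => g (sE σ f)) e ↔ VL ν G g (Sym2.map ⇑σ e) := by
  unfold VL
  rw [mem_edgeSet_comap]
  refine and_congr Iff.rfl ?_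
  refine frequently_congr (Eventually.of_forall fun k => ?_)
  simp only [SW_comap ν hq hmX, XG_comap ν hq]
  constructor
  · rintro ⟨Λ, h1, h2⟩
    exact ⟨_, h1, h2⟩
  · rintro ⟨Λ, h1, h2⟩
    obtain ⟨Λ₁, rfl⟩ := map_surj σ Λ
    exact ⟨Λ₁, h1, h2⟩

end equivariance

lemma graphOfTable_tableOf (G : SimpleGraph ℕ) : graphOfTable (tableOf G) = G := by
  ext i j
  simp only [graphOfTable, tableOf, SimpleGraph.fromRel_adj, decide_eq_true_eq]
  constructor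
  · rintro ⟨_, h | h⟩
    · exact h
    · exact h.symm
  · intro h
    exact ⟨h.ne, Or.inl h⟩

section law

variable [hprob : ∀ G, IsProbabilityMeasure (ν G)]

/-- existence of good radii -/
lemma exists_GR {C : ℝ} {G : SimpleGraph ℕ} (hG : Good (ν G) C) (hc : G.Connected)
    (h0 : ∀ e, e ∉ G.edgeSet → ν G {ω | ω e = true} = 0) (e : Sym2 ℕ) (k : ℕ) :
    ∃ R, GR ν G e k R := by
  classical
  obtain ⟨Λ₀, _, h⟩ := XX_cauchy (ν G) hG k e (δ := (1 / 2) ^ k) (by positivity)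
  obtain ⟨R, hR⟩ := eball_exhaust hc e (Λ₀.filter (· ∈ G.edgeSet)) (by
    intro f hf
    rw [Finset.mem_coe, Finset.mem_filter] at hf
    exact hf.2)
  refine ⟨R, fun Λ Λ' hΛ hΛ' => ?_⟩
  have key : ∀ Λ : Finset (Sym2 ℕ), eball G e R ⊆ (Λ : Set (Sym2 ℕ)) → ∀ g,
      (XG ν G Λ k g e ↔ XX (winW (ν G) (Λ ∪ Λ₀)) (Λ ∪ Λ₀) k g e) := by
    intro Λ hΛ g
    unfold XG XX
    rw [W_winW_null (ν G) (Λ := Λ) (Λ' := Λ ∪ Λ₀) Finset.subset_union_left (fun i hi hi' => ?_)]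
    refine h0 i fun hiE => hi' ?_
    rcases Finset.mem_union.1 hi with hi1 | hi1
    · exact hi1
    · have : i ∈ ((Λ₀.filter (· ∈ G.edgeSet) : Finset (Sym2 ℕ)) : Set (Sym2 ℕ)) := by
        rw [Finset.mem_coe, Finset.mem_filter]; exact ⟨hi1, hiE⟩
      exact hΛ (hR this)
  simp only [key Λ hΛ, key Λ' hΛ']
  exact h _ _ Finset.subset_union_right Finset.subset_union_right

/-- The law of the value process. -/
lemma VL_law {C : ℝ} {G : SimpleGraph ℕ} (hG : Good (ν G) C) (hc : G.Connected)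
    (hlf : ∀ v : ℕ, (G.neighborSet v).Finite)
    (h0 : ∀ e, e ∉ G.edgeSet → ν G {ω | ω e = true} = 0) (F : Finset (Sym2 ℕ))
    (hF : (↑F : Set (Sym2 ℕ)) ⊆ G.edgeSet) :
    (PL (Sym2 ℕ)) {g | ∀ e ∈ F, VL ν G g e} = ν G {ω | ∀ e ∈ F, ω e = true} ∧
    MeasurableSet {g | ∀ e ∈ F, VL ν G g e} ∧
    (∀ g g' : Sym2 ℕ → ℝ, (∀ e ∈ G.edgeSet, g e = g' e) →
      ((∀ e ∈ F, VL ν G g e) ↔ (∀ e ∈ F, VL ν G g' e))) := by
  classical
  set R : Sym2 ℕ → ℕ → ℕ := fun e k => Nat.find (exists_GR ν hG hc h0 e k) with hR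
  have hR1 : ∀ e k, GR ν G e k (R e k) := fun e k => Nat.find_spec (exists_GR ν hG hc h0 e k)
  have hR2 : ∀ e k, ∀ R' < R e k, ¬ GR ν G e k R' := fun e k R' h =>
    Nat.find_min (exists_GR ν hG hc h0 e k) h
  set Λ : Sym2 ℕ → ℕ → Finset (Sym2 ℕ) := fun e k => (eball_finite hlf e (R e k)).toFinset with hΛ
  have hΛc : ∀ e k, ((Λ e k : Finset (Sym2 ℕ)) : Set (Sym2 ℕ)) = eball G e (R e k) := fun e k =>
    Set.Finite.coe_toFinset _
  have hSW : ∀ e k Λ', SW ν G e k Λ' ↔ Λ' = Λ e k := by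
    intro e k Λ'
    constructor
    · rintro ⟨R', ⟨h1, h2⟩, h3⟩
      have : R' = R e k := by
        rcases lt_trichotomy R' (R e k) with h | h | h
        · exact absurd h1 (hR2 e k R' h)
        · exact h
        · exact absurd (hR1 e k) (h2 _ h)
      rw [this, ← hΛc] at h3
      exact Finset.coe_injective h3
    · rintro rfl
      exact ⟨R e k, ⟨hR1 e k, hR2 e k⟩, hΛc e k⟩
  have hVL : ∀ e ∈ F, ∀ g, VL ν G g e ↔ Lim (ν G) (Λ e) g e := by
    intro e he g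
    unfold VL Lim
    constructor
    · rintro ⟨_, h⟩
      refine h.mono fun k hk => ?_
      obtain ⟨Λ', h1, h2⟩ := hk
      rw [(hSW e k Λ').1 h1] at h2
      exact h2
    · intro h
      exact ⟨hF he, h.mono fun k hk => ⟨Λ e k, (hSW e k _).2 rfl, hk⟩⟩
  have hmem : ∀ e ∈ F, ∀ k, e ∈ Λ e k := by
    intro e he k
    rw [← Finset.mem_coe, hΛc]
    exact mem_eball_self (hF he) _
  have hgood : ∀ e ∈ F, WinGood (ν G) (Λ e) e := by
    intro e he k
    refine ⟨hmem e he k, fun Λ' hΛ' => ?_⟩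
    exact hR1 e k (Λ e k) Λ' (hΛc e k).symm.subset
      ((hΛc e k).symm.subset.trans (Finset.coe_subset.2 hΛ'))
  refine ⟨?_, ?_, ?_⟩
  · have h := Lim_law (ν G) hG Λ F hgood F
    have e1 : {g : Sym2 ℕ → ℝ | ∀ e ∈ F, VL ν G g e} =
        {g | ∀ v ∈ F, (Lim (ν G) (Λ v) g v ↔ v ∈ F)} := by
      ext g
      simp only [Set.mem_ofPred_eq]
      refine forall₂_congr fun v hv => ?_
      rw [hVL v hv g]
      simp [hv]
    have e2 : {ω : Sym2 ℕ → Bool | ∀ e ∈ F, ω e = true} = wev F F := by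
      ext ω
      simp only [Set.mem_ofPred_eq, wev]
      refine forall₂_congr fun v hv => ?_
      simp [hv]
    rw [e1, e2, h]
  · have e1 : {g : Sym2 ℕ → ℝ | ∀ e ∈ F, VL ν G g e} =
        ⋂ e ∈ F, {g | Lim (ν G) (Λ e) g e} := by
      ext g
      simp only [Set.mem_ofPred_eq, Set.mem_iInter]
      exact forall₂_congr fun v hv => hVL v hv g
    rw [e1]
    exact Finset.measurableSet_biInter _ fun e _ => measurableSet_Lim (ν G) (Λ e) e
  · intro g g' hgg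
    refine forall₂_congr fun e he => ?_
    rw [hVL e he, hVL e he]
    unfold Lim
    refine frequently_congr (Eventually.of_forall fun k => ?_)
    unfold XX
    rw [W_congr (g := g) (g' := g') (fun v hv => hgg v ?_) (hmem e he k)]
    rw [← Finset.mem_coe, hΛc] at hv
    exact hv.1

end law

/-- One rule from (graph on `ℕ`, labels in `[0,1]^ℕ`) to edge sets, jointly measurable in (adjacency table, labels) and commuting on every input with every permutation of `ℕ` acting on graph, labels and pairs, gives i.i.d. uniform labels the free uniform spanning forest's law on every connected locally finite graph: along every exhaustion by finite connected induced pieces, for finite edge sets `F` the chance that the piece's uniform spanning tree contains `F` tends to that for the output. -/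
theorem result :
    ∃ Φ : SimpleGraph ℕ → (ℕ → unitInterval) → (Sym2 ℕ → Bool),
      Measurable (fun p : (ℕ → ℕ → Bool) × (ℕ → unitInterval) =>
          Φ (Crest.ProbabilityR.GraphTables.graphOfTable p.1) p.2) ∧
      (∀ (σ : Equiv.Perm ℕ) (G : SimpleGraph ℕ) (x : ℕ → unitInterval),
          Φ (G.comap ⇑σ) (x ∘ ⇑σ) = Φ G x ∘ Sym2.map ⇑σ) ∧
      ∀ G : SimpleGraph ℕ, G.Connected → (∀ v : ℕ, (G.neighborSet v).Finite) →
        ∀ S : ℕ → Finset ℕ, Monotone S → (∀ v : ℕ, ∃ n, v ∈ S n) →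
          (∀ n, (G.induce (S n : Set ℕ)).Connected) →
          ∀ F : Finset (Sym2 ℕ), (↑F : Set (Sym2 ℕ)) ⊆ G.edgeSet →
            Filter.Tendsto (fun n => Crest.ProbabilityR.SpanningTrees.ustContains G (S n) F) Filter.atTop
              (nhds (((Crest.ProbabilityR.Labels.labelMeasure ℕ).map (Φ G) {ω | ∀ e ∈ F, ω e = true}).toReal)) := by
  classical
  obtain ⟨ν, hprob, h0, hlim, ⟨C, hC, hlip⟩, hm, hq⟩ := exists_fusf
  obtain ⟨nz, hnzm, hnzσ, hnz0, hnzlaw⟩ := exists_edge_noise logis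
  have hGood : ∀ G, Good (ν G) C := fun G Λ =>
    ⟨fun S _ => winW_nonneg (ν G) Λ S, winW_sum (ν G) Λ, hC, hlip G Λ⟩
  have hmX : ∀ (G : SimpleGraph ℕ) (Λ : Finset (Sym2 ℕ)) (k : ℕ) (e : Sym2 ℕ),
      MeasurableSet {g : Sym2 ℕ → ℝ | XG ν G Λ k g e} := fun G Λ k e =>
    measurableSet_XX' _ _ _ _
  set Φ : SimpleGraph ℕ → (ℕ → unitInterval) → (Sym2 ℕ → Bool) := fun G x e =>
    decide (VL ν G (nz G x) e) with hΦ
  have hΦm : Measurable (fun p : (ℕ → ℕ → Bool) × (ℕ → unitInterval) =>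
      Φ (graphOfTable p.1) p.2) := by
    refine measurable_pi_lambda _ fun e => measurable_to_bool ?_
    have h1 : Measurable (fun p : (ℕ → ℕ → Bool) × (ℕ → unitInterval) =>
        (p.1, nz (graphOfTable p.1) p.2)) := measurable_fst.prodMk hnzm
    have h2 := h1 (measurableSet_VL ν hm e)
    convert h2 using 1
    ext p
    simp [hΦ]
  have hsec : ∀ {β : Type} [MeasurableSpace β] (Ψ : SimpleGraph ℕ → (ℕ → unitInterval) → β),
      Measurable (fun p : (ℕ → ℕ → Bool) × (ℕ → unitInterval) => Ψ (graphOfTable p.1) p.2) →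
      ∀ G, Measurable (Ψ G) := by
    intro β _ Ψ hΨ G
    have h1 : Measurable (fun x : ℕ → unitInterval => (tableOf G, x)) := by fun_prop
    have h2 := hΨ.comp h1
    simp only [Function.comp_def, graphOfTable_tableOf] at h2
    exact h2
  refine ⟨Φ, hΦm, ?_, ?_⟩
  · intro σ G x
    funext e
    simp only [hΦ, Function.comp_apply, hnzσ]
    congr 1
    exact propext (VL_comap ν hq hmX σ G (nz G x) e)
  · intro G hc hlf S hS1 hS2 hS3 F hF
    have hl := hlim G hc S hS1 hS2 hS3 F hF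
    obtain ⟨hlaw, hTm, hTdep⟩ := VL_law ν (hGood G) hc hlf (h0 G) F hF
    have hΦGm : Measurable (Φ G) := hsec Φ hΦm G
    have hnzGm : Measurable (nz G) := hsec nz hnzm G
    have hmsF : MeasurableSet {ω : Sym2 ℕ → Bool | ∀ e ∈ F, ω e = true} := by
      have e2 : {ω : Sym2 ℕ → Bool | ∀ e ∈ F, ω e = true} = wev F F := by
        ext ω
        simp only [Set.mem_ofPred_eq, wev]
        refine forall₂_congr fun v hv => ?_
        simp [hv]
      rw [e2]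
      exact measurableSet_wev F F
    set T : Set (Sym2 ℕ → ℝ) := {g | ∀ e ∈ F, VL ν G g e} with hT
    -- extension by zero
    set ext0 : (G.edgeSet → ℝ) → (Sym2 ℕ → ℝ) := fun y e => if h : e ∈ G.edgeSet then y ⟨e, h⟩ else 0
      with hext
    have hextm : Measurable ext0 := by
      refine measurable_pi_lambda _ fun v => ?_
      by_cases h : v ∈ G.edgeSet
      · simp only [hext, h, dif_pos]; fun_prop
      · simp only [hext, h, dif_neg, not_false_iff]; fun_prop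
    have hfac : ∀ g : Sym2 ℕ → ℝ, g ∈ T ↔ G.edgeSet.domRestrict g ∈ ext0 ⁻¹' T := by
      intro g
      refine hTdep g _ fun e he => ?_
      simp [hext, he]
    have hresm : Measurable (G.edgeSet.domRestrict : (Sym2 ℕ → ℝ) → (G.edgeSet → ℝ)) := by
      fun_prop
    have hkey : (Labels.labelMeasure ℕ) {x | nz G x ∈ T} = (PL (Sym2 ℕ)) T := by
      have h1 := hnzlaw G hlf
      have h2 : (PL (Sym2 ℕ)).map G.edgeSet.domRestrict = Measure.infinitePi (fun _ : G.edgeSet => logis) :=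
        Measure.infinitePi_map_restrict' (μ := fun _ : Sym2 ℕ => logis)
      have h3 : Measurable (fun (x : ℕ → unitInterval) (e : G.edgeSet) => nz G x e) :=
        measurable_pi_lambda _ fun e => (measurable_pi_apply _).comp hnzGm
      have hT' : MeasurableSet (ext0 ⁻¹' T) := hextm hTm
      calc (Labels.labelMeasure ℕ) {x | nz G x ∈ T}
          = (Labels.labelMeasure ℕ) ((fun (x : ℕ → unitInterval) (e : G.edgeSet) => nz G x e) ⁻¹'
            (ext0 ⁻¹' T)) := by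
            congr 1
            ext x
            exact hfac (nz G x)
        _ = Measure.infinitePi (fun _ : G.edgeSet => logis) (ext0 ⁻¹' T) := by
            rw [← Measure.map_apply h3 hT', h1]
        _ = (PL (Sym2 ℕ)) (G.edgeSet.domRestrict ⁻¹' (ext0 ⁻¹' T)) := by
            rw [← h2, Measure.map_apply hresm hT']
        _ = (PL (Sym2 ℕ)) T := by
            congr 1
            ext g
            exact (hfac g).symm
    have hfin : (Labels.labelMeasure ℕ).map (Φ G) {ω | ∀ e ∈ F, ω e = true} =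
        ν G {ω | ∀ e ∈ F, ω e = true} := by
      rw [Measure.map_apply hΦGm hmsF, ← hlaw, ← hkey]
      congr 1
      ext x
      simp only [Set.mem_preimage, Set.mem_ofPred_eq, hΦ, decide_eq_true_eq, hT]
    rw [hfin]
    exact hl

end Crest.Agent.S0254
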