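import Crest.Statements.S0255
import Crest.Agent.Lib.Row168.Factor
import Crest.Agent.Lib.Row168.J3

set_option autoImplicit false
open Crest Crest.ProbabilityR

namespace Crest.Agent.S0255

open MeasureTheory Filter Topology Crest.Agent.Lib.Row168
open Crest.ProbabilityR.StronglyRayleigh

lemma PL_map_equiv {ι κ : Type*} (e : ι ≃ κ) :
    (PL κ).map (fun (g : κ → ℝ) (i : ι) => g (e i)) = PL ι := by
  have h := Measure.infinitePi_map_piCongrLeft (X := fun _ : ι => ℝ)
    (μ := fun _ : ι => logis) e.symm
  have h2 : (fun (g : κ → ℝ) (i : ι) => g (e i)) =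
      MeasurableEquiv.piCongrLeft (fun _ : ι => ℝ) e.symm := by
    funext g i
    rw [MeasurableEquiv.coe_piCongrLeft]
    have := Equiv.piCongrLeft_apply_apply (P := fun _ : ι => ℝ) e.symm g (e i)
    rw [Equiv.symm_apply_apply] at this
    exact this.symm
  rw [h2]
  exact h

/-- measures on configurations are determined by the window events -/
lemma ext_of_wev {ι : Type*} {μ ν : Measure (ι → Bool)} [IsProbabilityMeasure μ]
    [IsProbabilityMeasure ν] (h : ∀ B S : Finset ι, μ (wev B S) = ν (wev B S)) : μ = ν := by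
  classical
  have hν : IsProjectiveLimit ν (fun B : Finset ι => ν.map B.restrict) := fun B => rfl
  have hμ : IsProjectiveLimit μ (fun B : Finset ι => ν.map B.restrict) := by
    intro B
    refine Measure.ext_of_singleton fun a => ?_
    rw [Measure.map_apply (Finset.measurable_restrict B) (measurableSet_singleton a),
      Measure.map_apply (Finset.measurable_restrict B) (measurableSet_singleton a)]
    have : (B.restrict ⁻¹' ({a} : Set ((i : B) → Bool)) : Set (ι → Bool)) = wev B
        ((Finset.univ.filter fun i : B => a i = true).map (Function.Embedding.subtype _)) := by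
      ext ω
      simp only [Set.mem_preimage, Set.mem_singleton_iff, wev, Set.mem_ofPred_eq]
      constructor
      · rintro rfl i hi
        simp [hi]
      · intro hω
        ext ⟨i, hi⟩
        have := hω i hi
        simp only [Finset.mem_map, Finset.mem_filter, Finset.mem_univ, true_and,
          Function.Embedding.coe_subtype, Subtype.exists, exists_and_right, exists_eq_right] at this
        rw [Finset.restrict]
        cases h1 : ω i <;> cases h2 : a ⟨i, hi⟩ <;> simp_all
    rw [this]
    exact h _ _
  have : ∀ B : Finset ι, IsFiniteMeasure (ν.map B.restrict) := fun B => inferInstance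
  exact hμ.unique hν

section

variable {Γ : Type*} [Group Γ] (ν : Measure (Γ → Bool)) [IsProbabilityMeasure ν]

/-- left multiplication as an embedding -/
def mulL (γ : Γ) : Γ ↪ Γ := (Equiv.mulLeft γ).toEmbedding

lemma mulL_apply (γ x : Γ) : mulL γ x = γ * x := rfl

omit [IsProbabilityMeasure ν] in
lemma winW_mulL (hinv : IsShiftInvariant ν) (γ : Γ) (Λ S : Finset Γ) :
    winW ν (Λ.map (mulL γ)) (S.map (mulL γ)) = winW ν Λ S := by
  rw [winW_eq, winW_eq, ← hinv γ⁻¹ _ (measurableSet_wev Λ S)]
  congr 2
  ext ω
  simp only [wev, Set.mem_ofPred_eq, Set.mem_preimage, leftShift, inv_inv]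
  constructor
  · intro h i hi
    have := h (γ * i) (by rw [← mulL_apply]; exact Finset.mem_map_of_mem _ hi)
    rw [this, ← mulL_apply, Finset.mem_map']
  · intro h i hi
    obtain ⟨j, hj, rfl⟩ := Finset.mem_map.1 hi
    rw [mulL_apply, h j hj, ← mulL_apply, Finset.mem_map']

omit [IsProbabilityMeasure ν] in
lemma XX_mulL (hinv : IsShiftInvariant ν) (γ : Γ) (Λ : Finset Γ) (k : ℕ) (g : Γ → ℝ) :
    XX (winW ν (Λ.map (mulL γ))) (Λ.map (mulL γ)) k g γ ↔
      XX (winW ν Λ) Λ k (fun x => g (γ * x)) 1 := by
  unfold XX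
  have h := W_map (mulL γ) (q := winW ν Λ) (q' := winW ν (Λ.map (mulL γ))) (Λ := Λ)
    (fun S _ => winW_mulL ν hinv γ Λ S) 0 k g 1
  rw [mulL_apply, mul_one] at h
  rw [h]
  rfl

lemma winGood_mulL (hinv : IsShiftInvariant ν) (γ : Γ) {Λ : ℕ → Finset Γ} (hΛ : WinGood ν Λ 1) :
    WinGood ν (fun k => (Λ k).map (mulL γ)) γ := by
  classical
  intro k
  constructor
  · have := Finset.mem_map_of_mem (mulL γ) (hΛ k).1
    rwa [mulL_apply, mul_one] at this
  · intro Λ' hΛ'
    set Λ'' := Λ'.map (mulL γ⁻¹) with hΛ''
    have h1 : Λ' = Λ''.map (mulL γ) := by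
      ext x
      simp only [hΛ'', Finset.mem_map, mulL_apply, exists_exists_and_eq_and, mul_inv_cancel_left,
        exists_eq_right]
    have h2 : Λ k ⊆ Λ'' := by
      intro x hx
      have := hΛ' (Finset.mem_map_of_mem (mulL γ) hx)
      rw [h1, Finset.mem_map'] at this
      exact this
    rw [h1]
    simp only [XX_mulL ν hinv]
    have hm : Measurable (fun (g : Γ → ℝ) (i : Γ) => g ((Equiv.mulLeft γ) i)) := by fun_prop
    have hms : MeasurableSet {g : Γ → ℝ | ¬ (XX (winW ν (Λ k)) (Λ k) k g 1 ↔
        XX (winW ν Λ'') Λ'' k g 1)} :=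
      (measurableSet_iff (measurableSet_XX' _ _ _ _) (measurableSet_XX' _ _ _ _)).compl
    have h3 := Measure.map_apply (μ := PL Γ) hm hms
    rw [PL_map_equiv] at h3
    have h4 := (hΛ k).2 Λ'' h2
    rw [h3] at h4
    exact h4

end

/-- For a countable group `Γ` and a strongly Rayleigh probability law `ν` on binary configurations `Γ → Bool` that is invariant under every left shift `a ↦ (h ↦ a (g⁻¹ h))`, there is a measurable map from independent uniform labels indexed by `Γ` to configurations that commutes with every left shift and pushes the label law forward to `ν`. -/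
theorem result (Γ : Type*) [Group Γ]
    [Countable Γ] (ν : MeasureTheory.Measure (Γ → Bool)) [MeasureTheory.IsProbabilityMeasure ν]
    (hsr : Crest.ProbabilityR.StronglyRayleigh.IsStronglyRayleigh ν)
    (hinv : Crest.ProbabilityR.StronglyRayleigh.IsShiftInvariant ν) :
    ∃ Φ : (Γ → unitInterval) → (Γ → Bool), Measurable Φ ∧
      (∀ (g : Γ) (u : Γ → unitInterval),
        Φ (Crest.ProbabilityR.StronglyRayleigh.leftShift g u) =
          Crest.ProbabilityR.StronglyRayleigh.leftShift g (Φ u)) ∧
      (Crest.ProbabilityR.Labels.labelMeasure Γ).map Φ = ν := by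
  classical
  obtain ⟨C, hC, hlip⟩ := mf_lipschitz_of_stronglyRayleigh ν hsr
  have hG : Good ν C := fun Λ => ⟨fun S _ => winW_nonneg ν Λ S, winW_sum ν Λ, hC, hlip Λ⟩
  choose Λ hΛ1 hΛ2 using fun k : ℕ => XX_cauchy ν hG k (1 : Γ) (δ := (1 / 2) ^ k) (by positivity)
  have hgood : WinGood ν Λ 1 := fun k => ⟨hΛ1 k, fun Λ' h => hΛ2 k _ _ subset_rfl h⟩
  obtain ⟨q, hq, hqm⟩ := MeasureTheory.Measure.exists_measurable_map_eq logis
  have hDec : ∀ P : Prop, Decidable P := Classical.propDecidable
  set Ψ : (Γ → ℝ) → (Γ → Bool) := fun g h => decide (Lim ν Λ (fun x => g (h * x)) 1) with hΨ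
  set N : (Γ → unitInterval) → (Γ → ℝ) := fun u x => q (u x) with hN
  have hNm : Measurable N := by
    refine measurable_pi_lambda _ fun x => hq.comp (measurable_pi_apply x)
  have hΨm : Measurable Ψ := by
    refine measurable_pi_lambda _ fun h => ?_
    refine measurable_to_bool ?_
    have hm : Measurable (fun (g : Γ → ℝ) (x : Γ) => g (h * x)) := by fun_prop
    have := hm (measurableSet_Lim ν Λ 1)
    convert this using 1
    ext g
    simp [hΨ]
  refine ⟨fun u => Ψ (N u), hΨm.comp hNm, ?_, ?_⟩
  · intro g u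
    funext h
    simp only [hΨ, hN, leftShift, mul_assoc]
  · have h1 : (Labels.labelMeasure Γ).map N = PL Γ := by
      unfold Labels.labelMeasure PL
      have := Measure.infinitePi_map_pi (μ := fun _ : Γ => (volume : Measure unitInterval))
        (f := fun _ => q) (fun _ => hq)
      rw [hqm] at this
      exact this
    have hmap : (Labels.labelMeasure Γ).map (fun u => Ψ (N u)) = (PL Γ).map Ψ := by
      rw [← h1, Measure.map_map hΨm hNm]
      rfl
    rw [hmap]
    have hp : IsProbabilityMeasure ((PL Γ).map Ψ) := Measure.isProbabilityMeasure_map hΨm.aemeasurable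
    refine ext_of_wev fun B S => ?_
    rw [Measure.map_apply hΨm (measurableSet_wev B S)]
    have hlaw := Lim_law ν hG (fun γ k => (Λ k).map (mulL γ)) B
      (fun v _ => winGood_mulL ν hinv v hgood) S
    rw [← hlaw]
    congr 1
    ext g
    simp only [Set.mem_preimage, wev, Set.mem_ofPred_eq]
    refine forall₂_congr fun v _ => ?_
    simp only [hΨ, decide_eq_true_eq, Lim, XX_mulL ν hinv]

end Crest.Agent.S0255
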