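import Crest.Statements.S0316
import Crest.Agent.S0316Lib.Points

set_option autoImplicit false
open Crest Crest.GeometryTopology

namespace Crest.Agent.S0316

open Crest.GeometryTopology.Quadric

/-! ### the three fixed lines -/

noncomputable def xq : ℝ := 12 * Real.sqrt 482 / 313

lemma xq_sq : xq ^ 2 = 144 * 482 / 313 ^ 2 := by
  unfold xq
  rw [div_pow, mul_pow, Real.sq_sqrt (by norm_num)]
  norm_num

lemma xq_pos : 0 < xq := by
  unfold xq
  have : 0 < Real.sqrt 482 := Real.sqrt_pos.2 (by norm_num)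
  positivity

noncomputable def eq' : ℝ := Real.sqrt (xq ^ 2 + (156/313) ^ 2)

lemma eq'_sq : eq' ^ 2 = xq ^ 2 + (156/313) ^ 2 := by
  unfold eq'
  rw [Real.sq_sqrt (by positivity)]

lemma eq'_ne : eq' ≠ 0 := by
  have : 0 < eq' := by
    unfold eq'
    apply Real.sqrt_pos.2
    positivity
  exact this.ne'

/-- admissible parameters -/
def Adm (x m e : ℝ) : Prop := e ≠ 0 ∧ e ^ 2 = x ^ 2 + m ^ 2 ∧ x ^ 2 + (169/144) * m ^ 2 = 1 ∧
  13 * (x ^ 2 - m ^ 2) = 12 * m

lemma adm0 : Adm 0 (-12/13) (12/13) := by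
  refine ⟨by norm_num, by norm_num, by norm_num, by norm_num⟩

lemma adm1 : Adm xq (156/313) eq' := by
  refine ⟨eq'_ne, eq'_sq, ?_, ?_⟩ <;> rw [xq_sq] <;> norm_num

lemma adm2 : Adm (-xq) (156/313) eq' := by
  refine ⟨eq'_ne, ?_, ?_, ?_⟩
  · rw [eq'_sq]; ring
  · rw [neg_sq, xq_sq]; norm_num
  · rw [neg_sq, xq_sq]; norm_num

lemma adm_mem_fixed {x m e : ℝ} (h : Adm x m e) :
    Submodule.span ℂ {zz x m e} ∈ fixedLines theLift := by
  obtain ⟨he, he2, h1, h2⟩ := h
  refine ⟨zz x m e, zz_mem he he2 h1, rfl, ?_⟩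
  rw [theLift_Ψ]
  obtain ⟨c, hc⟩ := zz_fixed he he2 h1 h2
  rw [hc]
  exact Submodule.smul_mem _ _ (Submodule.mem_span_singleton_self _)

lemma norm_one_of_smul {z z' : C5} (hz : z ∈ unitCone) (hz' : z' ∈ unitCone) {c : ℂ}
    (h : z' = c • z) : ‖c‖ = 1 := by
  have h1 := hz'.1
  rw [h] at h1
  have h3 : herm (c • z) (c • z) = (starRingEnd ℂ c * c) * herm z z := by
    simp only [herm, Pi.smul_apply, smul_eq_mul, map_mul, Finset.mul_sum]
    refine Finset.sum_congr rfl fun j _ => ?_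
    ring
  rw [h3, hz.1, mul_one, mul_comm, Complex.mul_conj, Complex.normSq_eq_norm_sq] at h1
  have h4 : ‖c‖ ^ 2 = 1 := by exact_mod_cast h1
  have h5 : 0 ≤ ‖c‖ := norm_nonneg c
  nlinarith

lemma adm_inj {x m e x' m' e' : ℝ} (h : Adm x m e) (h' : Adm x' m' e')
    (hs : Submodule.span ℂ {zz x m e} = Submodule.span ℂ {zz x' m' e'}) : x = x' ∧ m = m' := by
  obtain ⟨he, he2, h1, h2⟩ := h
  obtain ⟨he', he2', h1', h2'⟩ := h'
  have hmem : zz x' m' e' ∈ Submodule.span ℂ {zz x m e} := by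
    rw [hs]; exact Submodule.mem_span_singleton_self _
  obtain ⟨c, hc⟩ := Submodule.mem_span_singleton.1 hmem
  have hn := norm_one_of_smul (zz_mem he he2 h1) (zz_mem he' he2' h1') hc.symm
  have a := J0_smul c hn (zz x m e)
  have b := K0_smul c hn (zz x m e)
  rw [hc, zz_J0 he, zz_J0 he'] at a
  rw [hc, zz_K0 he, zz_K0 he'] at b
  constructor <;> linarith

lemma eq_span_of_param {z : C5} (hz : z ∈ unitCone) (h4 : z 4 = 0) {x m e : ℝ} (h : Adm x m e)
    (j0 : J0 z = x + m) (j1 : J1 z = x + m) (j2 : J2 z = 0) (k0 : K0 z = x - m)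
    (k1 : K1 z = m - x) (k2 : K2 z = 5/6 * m) :
    Submodule.span ℂ {z} = Submodule.span ℂ {zz x m e} := by
  obtain ⟨he, he2, h1, h2⟩ := h
  have hzz := zz_mem he he2 h1
  have hPl : ∀ i j, Pl (zz x m e) i j = Pl z i j := by
    apply Pl_eq zz_4 h4
    · rw [zz_J0 he, j0]
    · rw [zz_J1 he, j1]
    · rw [zz_J2, j2]
    · rw [zz_K0 he, k0]
    · rw [zz_K1 he, k1]
    · rw [zz_K2 he he2, k2]
  have heq := eq_smul_of_momentum hzz hz hPl
  have hn := norm_one_of_smul hzz hz heq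
  have hne : herm (zz x m e) z ≠ 0 := by
    intro h0
    rw [h0] at hn
    simp at hn
  conv_lhs => rw [heq]
  exact Submodule.span_singleton_smul_eq (IsUnit.mk0 _ hne) _

lemma fixedLines_eq : fixedLines theLift = {Submodule.span ℂ {zz 0 (-12/13) (12/13)},
    Submodule.span ℂ {zz xq (156/313) eq'}, Submodule.span ℂ {zz (-xq) (156/313) eq'}} := by
  ext ℓ
  constructor
  · rintro ⟨z, hz, rfl, hfix⟩
    rw [theLift_Ψ] at hfix
    obtain ⟨c, hc⟩ := Submodule.mem_span_singleton.1 hfix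
    obtain ⟨m, x, j0, j1, j2, k0, k1, k2, hmx⟩ := fixed_classify hz hc.symm
    have h4 := z4_zero hz hc.symm
    rcases hmx with ⟨rfl, rfl⟩ | ⟨rfl, hx⟩
    · left
      exact eq_span_of_param hz h4 adm0 j0 j1 j2 k0 k1 k2
    · right
      have : (x - xq) * (x + xq) = 0 := by
        have := xq_sq
        linear_combination hx - this
      rcases mul_eq_zero.1 this with h | h
      · left
        have hx' : x = xq := by linarith
        subst hx'
        exact eq_span_of_param hz h4 adm1 j0 j1 j2 k0 k1 k2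
      · right
        have hx' : x = -xq := by linarith
        subst hx'
        exact eq_span_of_param hz h4 adm2 j0 j1 j2 k0 k1 k2
  · rintro (rfl | rfl | rfl)
    · exact adm_mem_fixed adm0
    · exact adm_mem_fixed adm1
    · exact adm_mem_fixed adm2

lemma ncard_fixedLines : (fixedLines theLift).ncard = 3 := by
  rw [Set.ncard_eq_three]
  refine ⟨_, _, _, ?_, ?_, ?_, fixedLines_eq⟩
  · intro h
    have := (adm_inj adm0 adm1 h).2
    norm_num at this
  · intro h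
    have := (adm_inj adm0 adm2 h).2
    norm_num at this
  · intro h
    have := (adm_inj adm1 adm2 h).1
    have := xq_pos
    linarith

/-! ### degeneracy -/

noncomputable def zd : C5 := ![⟨6/13, 0⟩, ⟨-6/13, 0⟩, ⟨-5/26, 1/2⟩, ⟨-5/26, -1/2⟩, 0]

lemma zd_mem : zd ∈ unitCone := by
  apply mem_cone <;> simp only [zd, Matrix.cons_val, Complex.zero_re, Complex.zero_im] <;> norm_num

noncomputable def wd : C5 := ![⟨1/2, -5/26⟩, ⟨1/2, 5/26⟩, ⟨0, -6/13⟩, ⟨0, -6/13⟩, 0]

lemma zd_J0 : J0 zd = -12/13 := by simp only [J0, zd, Matrix.cons_val]; norm_num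
lemma zd_J1 : J1 zd = -12/13 := by simp only [J1, zd, Matrix.cons_val]; norm_num
lemma zd_J2 : J2 zd = 0 := by simp only [J2, zd, Matrix.cons_val]; norm_num
lemma zd_NJ : NJ zd = 288/169 := by rw [NJ, zd_J0, zd_J1, zd_J2]; norm_num

lemma zd_dJ0 : dJ0 zd wd = 2 := by simp only [dJ0, zd, wd, Matrix.cons_val]; norm_num
lemma zd_dJ1 : dJ1 zd wd = 0 := by simp only [dJ1, zd, wd, Matrix.cons_val]; norm_num
lemma zd_dJ2 : dJ2 zd wd = 0 := by simp only [dJ2, zd, wd, Matrix.cons_val]; norm_num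

lemma hasDerivAt_NJ' : HasDerivAt (fun ε : ℝ => NJ (zd + ε • wd)) (-48/13) 0 := by
  have h := (((hasDerivAt_J0 zd wd).fun_pow 2).fun_add ((hasDerivAt_J1 zd wd).fun_pow 2)).fun_add
    ((hasDerivAt_J2 zd wd).fun_pow 2)
  refine h.congr_deriv ?_
  simp only [zero_smul, add_zero]
  rw [zd_J0, zd_J1, zd_J2, zd_dJ0, zd_dJ1, zd_dJ2]
  norm_num

lemma hasDerivAt_Pf' : HasDerivAt (fun ε : ℝ => Pf s0 (NJ (zd + ε • wd))) (7800/9409) 0 := by
  unfold Pf
  have h1 := (hasDerivAt_NJ'.const_mul (s0 ^ 2)).const_sub 1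
  have h2 := (hasDerivAt_NJ'.const_mul (s0 ^ 2)).const_add 1
  have h3 := h1.fun_div h2 (den_pos s0 _ (NJ_nonneg _)).ne'
  refine h3.congr_deriv ?_
  simp only [zero_smul, add_zero]
  rw [zd_NJ, s0]
  norm_num

lemma hasDerivAt_Qf' : HasDerivAt (fun ε : ℝ => Qf s0 (NJ (zd + ε • wd))) (21125/56454) 0 := by
  unfold Qf
  have h1 := hasDerivAt_const (0:ℝ) (2 * s0)
  have h2 := (hasDerivAt_NJ'.const_mul (s0 ^ 2)).const_add 1
  have h3 := h1.fun_div h2 (den_pos s0 _ (NJ_nonneg _)).ne'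
  refine h3.congr_deriv ?_
  simp only [zero_smul, add_zero]
  rw [zd_NJ, s0]
  norm_num

lemma zd_Pf : Pf s0 (NJ zd) = 47/97 := by
  rw [zd_NJ, s0, Pf]; norm_num

lemma zd_Qf : Qf s0 (NJ zd) = 65/97 := by
  rw [zd_NJ, s0, Qf]; norm_num

lemma hasDerivAt_coord' (i : Fin 5) :
    HasDerivAt (fun ε : ℝ => (zd + ε • wd) i) (wd i) 0 :=
  (hasDerivAt_pi.1 (hasDerivAt_line zd wd)) i

noncomputable def vd : C5 := ![⟨13009/18818, 4795/244634⟩, ⟨959/18818, -168725/244634⟩,
  ⟨-4320/9409, -5754/122317⟩, ⟨0, -6/13⟩, 0]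

lemma hasDerivAt_cay0 : HasDerivAt (fun ε : ℝ => Cay s0 (zd + ε • wd) 0) (vd 0) 0 := by
  have hP := hasDerivAt_Pf'.ofReal_comp
  have hQ := hasDerivAt_Qf'.ofReal_comp
  have h0 := (hasDerivAt_J0 zd wd).ofReal_comp
  have h1 := (hasDerivAt_J1 zd wd).ofReal_comp
  have h2 := (hasDerivAt_J2 zd wd).ofReal_comp
  have hc := (h1.fun_mul (hasDerivAt_coord' 2)).fun_sub (h2.fun_mul (hasDerivAt_coord' 1))
  have h := (hP.fun_mul (hasDerivAt_coord' 0)).fun_add (hQ.fun_mul hc)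
  have e : (fun ε : ℝ => Cay s0 (zd + ε • wd) 0) = fun ε : ℝ =>
      ((Pf s0 (NJ (zd + ε • wd)) : ℝ) : ℂ) * (zd + ε • wd) 0 +
      ((Qf s0 (NJ (zd + ε • wd)) : ℝ) : ℂ) * (((J1 (zd + ε • wd) : ℝ) : ℂ) * (zd + ε • wd) 2 -
      ((J2 (zd + ε • wd) : ℝ) : ℂ) * (zd + ε • wd) 1) := by
    ext ε
    simp [Cay, cr]
  rw [e]
  refine h.congr_deriv ?_
  simp only [zero_smul, add_zero]
  rw [zd_Pf, zd_Qf, zd_J1, zd_J2, zd_dJ1, zd_dJ2]
  apply Complex.ext <;> simp [zd, wd, vd] <;> norm_num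

lemma hasDerivAt_cay1 : HasDerivAt (fun ε : ℝ => Cay s0 (zd + ε • wd) 1) (vd 1) 0 := by
  have hP := hasDerivAt_Pf'.ofReal_comp
  have hQ := hasDerivAt_Qf'.ofReal_comp
  have h0 := (hasDerivAt_J0 zd wd).ofReal_comp
  have h1 := (hasDerivAt_J1 zd wd).ofReal_comp
  have h2 := (hasDerivAt_J2 zd wd).ofReal_comp
  have hc := (h2.fun_mul (hasDerivAt_coord' 0)).fun_sub (h0.fun_mul (hasDerivAt_coord' 2))
  have h := (hP.fun_mul (hasDerivAt_coord' 1)).fun_add (hQ.fun_mul hc)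
  have e : (fun ε : ℝ => Cay s0 (zd + ε • wd) 1) = fun ε : ℝ =>
      ((Pf s0 (NJ (zd + ε • wd)) : ℝ) : ℂ) * (zd + ε • wd) 1 +
      ((Qf s0 (NJ (zd + ε • wd)) : ℝ) : ℂ) * (((J2 (zd + ε • wd) : ℝ) : ℂ) * (zd + ε • wd) 0 -
      ((J0 (zd + ε • wd) : ℝ) : ℂ) * (zd + ε • wd) 2) := by
    ext ε
    simp [Cay, cr]
  rw [e]
  refine h.congr_deriv ?_
  simp only [zero_smul, add_zero]
  rw [zd_Pf, zd_Qf, zd_J0, zd_J2, zd_dJ0, zd_dJ2]
  apply Complex.ext <;> simp [zd, wd, vd] <;> norm_num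

lemma hasDerivAt_cay2 : HasDerivAt (fun ε : ℝ => Cay s0 (zd + ε • wd) 2) (vd 2) 0 := by
  have hP := hasDerivAt_Pf'.ofReal_comp
  have hQ := hasDerivAt_Qf'.ofReal_comp
  have h0 := (hasDerivAt_J0 zd wd).ofReal_comp
  have h1 := (hasDerivAt_J1 zd wd).ofReal_comp
  have h2 := (hasDerivAt_J2 zd wd).ofReal_comp
  have hc := (h0.fun_mul (hasDerivAt_coord' 1)).fun_sub (h1.fun_mul (hasDerivAt_coord' 0))
  have h := (hP.fun_mul (hasDerivAt_coord' 2)).fun_add (hQ.fun_mul hc)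
  have e : (fun ε : ℝ => Cay s0 (zd + ε • wd) 2) = fun ε : ℝ =>
      ((Pf s0 (NJ (zd + ε • wd)) : ℝ) : ℂ) * (zd + ε • wd) 2 +
      ((Qf s0 (NJ (zd + ε • wd)) : ℝ) : ℂ) * (((J0 (zd + ε • wd) : ℝ) : ℂ) * (zd + ε • wd) 1 -
      ((J1 (zd + ε • wd) : ℝ) : ℂ) * (zd + ε • wd) 0) := by
    ext ε
    simp [Cay, cr]
  rw [e]
  refine h.congr_deriv ?_
  simp only [zero_smul, add_zero]
  rw [zd_Pf, zd_Qf, zd_J0, zd_J1, zd_dJ0, zd_dJ1]
  apply Complex.ext <;> simp [zd, wd, vd] <;> norm_num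

lemma hasDerivAt_cay : HasDerivAt (fun ε : ℝ => Cay s0 (zd + ε • wd)) vd 0 := by
  rw [hasDerivAt_pi]
  intro i
  fin_cases i
  · exact hasDerivAt_cay0
  · exact hasDerivAt_cay1
  · exact hasDerivAt_cay2
  · have e : (fun ε : ℝ => Cay s0 (zd + ε • wd) 3) = fun ε : ℝ => (zd + ε • wd) 3 := by
      ext ε; exact Cay_3 _ _
    exact (e ▸ (hasDerivAt_coord' 3)).congr_deriv (by simp [vd, wd])
  · have e : (fun ε : ℝ => Cay s0 (zd + ε • wd) 4) = fun ε : ℝ => (zd + ε • wd) 4 := by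
      ext ε; exact Cay_4 _ _
    exact (e ▸ (hasDerivAt_coord' 4)).congr_deriv (by simp [vd, wd])

lemma hasDerivAt_G {f : ℝ → C5} {v : C5} {t : ℝ} (h : HasDerivAt f v t) :
    HasDerivAt (fun ε => G (f ε)) (G v) t := by
  have hh := hasDerivAt_pi.1 h
  rw [hasDerivAt_pi]
  intro i
  unfold G
  fin_cases i
  · exact ((((hh 0).const_mul _).fun_sub ((hh 2).const_mul _)).fun_sub ((hh 3).const_mul _)).fun_sub
      ((hh 1).const_mul _)
  · exact ((((hh 1).const_mul _).fun_add ((hh 3).const_mul _)).fun_add ((hh 2).const_mul _)).fun_sub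
      ((hh 0).const_mul _)
  · exact ((((hh 2).const_mul _).fun_add ((hh 0).const_mul _)).fun_sub ((hh 1).const_mul _)).fun_add
      ((hh 3).const_mul _)
  · exact ((((hh 3).const_mul _).fun_sub ((hh 1).const_mul _)).fun_add ((hh 0).const_mul _)).fun_add
      ((hh 2).const_mul _)
  · exact hh 4

noncomputable def cd : ℂ := ⟨-72/97, 65/97⟩

lemma G_zd : G (Cay s0 zd) = cd • zd := by
  have hC : Cay s0 zd = ![⟨432/1261, -30/97⟩, ⟨-432/1261, 30/97⟩, ⟨1205/2522, 47/194⟩,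
      ⟨-5/26, -1/2⟩, 0] := by
    ext i
    rw [Cay, zd_Pf, zd_Qf, cr, zd_J0, zd_J1, zd_J2]
    fin_cases i <;> apply Complex.ext <;> simp [zd] <;> norm_num
  rw [hC]
  ext i
  fin_cases i <;> apply Complex.ext <;> simp [zd, G, cd] <;> norm_num

lemma degenerate : HasDegenerateFixedPoint theLift := by
  refine ⟨zd, zd_mem, cd, ?_, wd, ?_, ?_, 60/97, ?_⟩
  · rw [theLift_Ψ, G_zd]
  · refine ⟨?_, ?_⟩
    · simp only [herm, Fin.sum_univ_five, zd, wd, Matrix.cons_val, Complex.add_re, Complex.mul_re,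
        Complex.conj_re, Complex.conj_im, Complex.zero_re, Complex.zero_im]
      norm_num
    · apply Complex.ext
      · simp only [Fin.sum_univ_five, zd, wd, Matrix.cons_val, Complex.add_re, Complex.mul_re,
          Complex.zero_re, Complex.zero_im]
        norm_num
      · simp only [Fin.sum_univ_five, zd, wd, Matrix.cons_val, Complex.add_im, Complex.mul_im,
          Complex.zero_re, Complex.zero_im]
        norm_num
  · intro r hr
    have h0 := congrArg Complex.re (congrFun hr 0)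
    simp [wd, zd] at h0
  · have hd : DifferentiableAt ℝ (fun x : C5 => theLift.Ψ (1, x)) zd := by
      have : ContDiff ℝ (⊤ : ℕ∞) (fun x : C5 => theLift.Ψ (1, x)) :=
        theLift.smooth_Ψ.comp (contDiff_const.prodMk contDiff_id)
      exact (this.differentiable (by simp)).differentiableAt
    have hline : HasDerivAt (fun ε : ℝ => theLift.Ψ (1, zd + ε • wd)) (G vd) 0 := by
      have e : (fun ε : ℝ => theLift.Ψ (1, zd + ε • wd)) =
          fun ε : ℝ => G (Cay s0 (zd + ε • wd)) := by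
        ext ε
        rw [theLift_Ψ]
      rw [e]
      exact hasDerivAt_G hasDerivAt_cay
    have hf : fderiv ℝ (fun x : C5 => theLift.Ψ (1, x)) zd wd = G vd :=
      fderiv_eq_of_line (f := fun x : C5 => theLift.Ψ (1, x)) hd hline
    rw [hf]
    ext i
    fin_cases i <;> apply Complex.ext <;> simp [zd, G, cd, wd, vd] <;> norm_num

/-- There is a Hamiltonian diffeomorphism of the complex quadric threefold (the zero set of z₀² + ⋯ + z₄² in complex projective 4-space, with the restricted Fubini–Study form) having exactly three fixed points, at least one of them degenerate. Hamiltonian isotopies are encoded by smooth lifts to the unit isotropic cone in ℂ⁵ obeying Hamilton's equation; points of the quadric are complex lines through cone points; degenerate means the differential of the time-one map fixes a nonzero tangent vector. -/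
theorem result :
    ∃ L : Crest.GeometryTopology.Quadric.HamiltonianConeLift,
      (Crest.GeometryTopology.Quadric.fixedLines L).ncard = 3 ∧
      Crest.GeometryTopology.Quadric.HasDegenerateFixedPoint L := by
  exact ⟨theLift, ncard_fixedLines, degenerate⟩

end Crest.Agent.S0316
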