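import Crest.Statements.S0324
import Crest.Agent.Lib.TetraCover
import Crest.Agent.Lib.TetraProj

set_option autoImplicit false
open MeasureTheory
open scoped ENNReal
open Crest Crest.GeometryTopology Crest.GeometryTopology.Convex

namespace Crest.Agent.S0324

open Crest.Agent.Lib.TetraArea Crest.Agent.Lib.TetraCover

/-- The regular tetrahedron `K` with vertices `(±1, 0, 0)`, `(0, ±1, √2)` is covered by finitely many cylinders `Bᵢ + ℝ uᵢ`, each with unit direction `uᵢ` and base `Bᵢ` a triangle (convex hull of three points) in the plane `uᵢ^⊥`, whose total base area `∑ᵢ area(Bᵢ)` is smaller, by a positive margin, than half the area of the orthogonal projection of `K` onto `v^⊥` for every unit vector `v`; areas are 2-dimensional Hausdorff measure. -/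
theorem result :
    ∃ (m : ℕ) (u p q r : Fin m → EuclideanSpace ℝ (Fin 3)),
      (∀ i, ‖u i‖ = 1) ∧
      (∀ i, inner ℝ (p i) (u i) = 0 ∧ inner ℝ (q i) (u i) = 0 ∧ inner ℝ (r i) (u i) = 0) ∧
      convexHull ℝ {!₂[1, 0, 0], !₂[-1, 0, 0], !₂[0, 1, Real.sqrt 2], !₂[0, -1, Real.sqrt 2]} ⊆
        ⋃ i, {x : EuclideanSpace ℝ (Fin 3) | ∃ b ∈ convexHull ℝ {p i, q i, r i}, ∃ t : ℝ, x = b + t • u i} ∧
      ∃ δ : ℝ, 0 < δ ∧ ∀ v : EuclideanSpace ℝ (Fin 3), ‖v‖ = 1 →
        ∑ i, (μH[(2 : ℝ)] (convexHull ℝ {p i, q i, r i})).toReal + δ ≤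
          (μH[(2 : ℝ)] ((fun y => y - inner ℝ y v • v) '' convexHull ℝ {!₂[1, 0, 0], !₂[-1, 0, 0], !₂[0, 1, Real.sqrt 2], !₂[0, -1, Real.sqrt 2]})).toReal / 2 := by
  obtain ⟨M, u, p, q, r, hM, hu, horth, hcov, harea⟩ := tetra_cover
  obtain ⟨c, hc, hfac⟩ := exists_factor
  have hs : (0:ℝ) < Real.sqrt 2 := by positivity
  refine ⟨M, u, p, q, r, hu, horth, hcov, Real.sqrt 2 / 1000000 / c, by positivity, ?_⟩
  intro v hv
  have hproj := Crest.Agent.Lib.TetraProj.proj_ge v hv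
  have hv0 : v ≠ 0 := by
    intro h; rw [h, norm_zero] at hv; norm_num at hv
  have hfin : μHE[2] ((fun y : E3 => y - inner ℝ y v • v) '' convexHull ℝ {!₂[1, 0, 0], !₂[-1, 0, 0], !₂[0, 1, Real.sqrt 2], !₂[0, -1, Real.sqrt 2]}) < ⊤ := by
    apply area_lt_top hv0
    · rintro _ ⟨y, _, rfl⟩
      simp only
      rw [inner_sub_left, real_inner_smul_left, real_inner_self_eq_norm_sq, hv]
      ring
    · apply IsCompact.isBounded
      apply IsCompact.image
      · exact Set.Finite.isCompact_convexHull ℝ (Set.toFinite _)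
      · fun_prop
  have h1 : Real.sqrt 2 ≤ c * (μH[(2 : ℝ)] ((fun y : E3 => y - inner ℝ y v • v) '' convexHull ℝ {!₂[1, 0, 0], !₂[-1, 0, 0], !₂[0, 1, Real.sqrt 2], !₂[0, -1, Real.sqrt 2]})).toReal := by
    rw [← hfac]
    exact (ENNReal.ofReal_le_iff_le_toReal hfin.ne).mp hproj
  have h2 : c * ∑ i, (μH[(2 : ℝ)] (convexHull ℝ ({p i, q i, r i} : Set E3))).toReal ≤
      Real.sqrt 2 * (1 / 2 - 1 / 1000000) := by
    rw [Finset.mul_sum]
    simp_rw [← hfac]
    exact harea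
  have h3 : c * (Real.sqrt 2 / 1000000 / c) = Real.sqrt 2 / 1000000 := by field_simp
  have h4 : c * (∑ i, (μH[(2 : ℝ)] (convexHull ℝ ({p i, q i, r i} : Set E3))).toReal +
      Real.sqrt 2 / 1000000 / c) ≤ c * ((μH[(2 : ℝ)] ((fun y : E3 => y - inner ℝ y v • v) '' convexHull ℝ {!₂[1, 0, 0], !₂[-1, 0, 0], !₂[0, 1, Real.sqrt 2], !₂[0, -1, Real.sqrt 2]})).toReal / 2) := by
    rw [mul_add, h3]
    linarith
  exact le_of_mul_le_mul_left h4 hc

end Crest.Agent.S0324
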