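import Crest.Statements.S0325
import Crest.Agent.Lib.TetraCover
import Crest.Agent.Lib.TetraProj

set_option autoImplicit false
open MeasureTheory
open scoped ENNReal
open Crest Crest.GeometryTopology Crest.GeometryTopology.Convex

namespace Crest.Agent.S0325

open Crest.Agent.Lib.TetraArea Crest.Agent.Lib.TetraCover

/-- Let K be the regular tetrahedron with vertices (±1, 0, 0), (0, ±1, √2); areas are Lebesgue-normalised 2-dimensional Hausdorff measure. (1) The least area of an orthogonal projection of K onto a plane is √2: each map y ↦ y − ⟪y, v⟫ v with ‖v‖ = 1 sends K to a set of area ≥ √2, equal for some v. (2) For every 0 < ε ≤ 5·10⁻⁴, K is covered by 2⌈2/ε²⌉ cylinders Bᵢ + ℝ uᵢ, uᵢ a unit vector, Bᵢ a triangle (convex hull of three points) in uᵢ^⊥, of total area A with ‖A/√2 − 1/2 + 13 ε²/6000‖ ≤ 2 ε⁴. -/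
theorem result :
    ((∀ v : EuclideanSpace ℝ (Fin 3), ‖v‖ = 1 →
        ENNReal.ofReal (Real.sqrt 2) ≤ μHE[2] ((fun y => y - inner ℝ y v • v) '' convexHull ℝ {!₂[1, 0, 0], !₂[-1, 0, 0], !₂[0, 1, Real.sqrt 2], !₂[0, -1, Real.sqrt 2]})) ∧
      ∃ v : EuclideanSpace ℝ (Fin 3), ‖v‖ = 1 ∧
        μHE[2] ((fun y => y - inner ℝ y v • v) '' convexHull ℝ {!₂[1, 0, 0], !₂[-1, 0, 0], !₂[0, 1, Real.sqrt 2], !₂[0, -1, Real.sqrt 2]}) = ENNReal.ofReal (Real.sqrt 2)) ∧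
    ∀ ε : ℝ, 0 < ε → ε ≤ 1 / 2000 →
      ∃ (u p q r : Fin (2 * ⌈2 / ε ^ 2⌉₊) → EuclideanSpace ℝ (Fin 3)),
        (∀ i, ‖u i‖ = 1) ∧
        (∀ i, inner ℝ (p i) (u i) = 0 ∧ inner ℝ (q i) (u i) = 0 ∧ inner ℝ (r i) (u i) = 0) ∧
        convexHull ℝ {!₂[1, 0, 0], !₂[-1, 0, 0], !₂[0, 1, Real.sqrt 2], !₂[0, -1, Real.sqrt 2]} ⊆
          ⋃ i, {x : EuclideanSpace ℝ (Fin 3) | ∃ b ∈ convexHull ℝ {p i, q i, r i}, ∃ t : ℝ, x = b + t • u i} ∧
        abs ((∑ i, (μHE[2] (convexHull ℝ ({p i, q i, r i} : Set (EuclideanSpace ℝ (Fin 3))))).toReal) / Real.sqrt 2 -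
            (1 / 2 - 13 / 6000 * ε ^ 2)) ≤ 2 * ε ^ 4 := by
  refine ⟨⟨Crest.Agent.Lib.TetraProj.proj_ge, Crest.Agent.Lib.TetraProj.proj_eq⟩, ?_⟩
  intro ε hε hε2
  obtain ⟨M, u, p, q, r, hM, hu, horth, hcov, harea⟩ := tetra_cover
  have hs : (0:ℝ) < Real.sqrt 2 := by positivity
  obtain ⟨N, hN⟩ : ∃ N, N = 2 * ⌈2 / ε ^ 2⌉₊ := ⟨_, rfl⟩
  rw [← hN]
  have hNM : M + 1 ≤ N := by
    have h1 : (8000000 : ℝ) ≤ 2 / ε ^ 2 := by
      rw [le_div_iff₀ (by positivity)]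
      nlinarith
    have h2 : (8000000 : ℝ) ≤ (⌈2 / ε ^ 2⌉₊ : ℝ) := h1.trans (Nat.le_ceil _)
    have h3 : 8000000 ≤ ⌈2 / ε ^ 2⌉₊ := by exact_mod_cast h2
    omega
  obtain ⟨k, hk⟩ : ∃ k, N = M + (k + 1) := ⟨N - M - 1, by omega⟩
  subst hk
  set A : ℝ := ∑ i, (μHE[2] (convexHull ℝ ({p i, q i, r i} : Set E3))).toReal with hA
  set T : ℝ := Real.sqrt 2 * (1 / 2 - 13 / 6000 * ε ^ 2) with hT
  have hx0 : 0 ≤ T - A := by
    have h1 : ε ^ 2 ≤ (1 / 2000) ^ 2 := pow_le_pow_left₀ hε.le hε2 2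
    rw [hT]
    have h2 : Real.sqrt 2 * (1 / 2 - 1 / 1000000) ≤ Real.sqrt 2 * (1 / 2 - 13 / 6000 * ε ^ 2) := by
      apply mul_le_mul_of_nonneg_left _ hs.le
      linarith
    linarith
  have hk0 : (0:ℝ) < (k:ℝ) + 1 := by positivity
  set y : ℝ := (T - A) / (k + 1) with hy
  have hy0 : 0 ≤ y := by positivity
  have hextra : (μHE[2] (convexHull ℝ ({(0 : E3), !₂[0, 2 * y, 0], !₂[0, 0, 1]} : Set E3))).toReal = y := by
    rw [area_triangle_toReal]
    unfold pArea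
    rw [norm_sq_e3, norm_sq_e3, inner_e3]
    have : Real.sqrt ((2 * y) ^ 2) = 2 * y := Real.sqrt_sq (by linarith)
    simp
    rw [this]
    ring
  refine ⟨Fin.append u (fun _ => !₂[1, 0, 0]), Fin.append p (fun _ => 0),
    Fin.append q (fun _ => !₂[0, 2 * y, 0]), Fin.append r (fun _ => !₂[0, 0, 1]), ?_, ?_, ?_, ?_⟩
  · intro i
    refine Fin.addCases (fun i => ?_) (fun i => ?_) i
    · simpa only [Fin.append_left] using hu i
    · simp only [Fin.append_right]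
      rw [EuclideanSpace.norm_eq]
      simp [Fin.sum_univ_three]
  · intro i
    refine Fin.addCases (fun i => ?_) (fun i => ?_) i
    · simpa only [Fin.append_left] using horth i
    · simp only [Fin.append_right, inner_e3]
      simp
  · intro z hz
    have hz' := hcov hz
    rw [Set.mem_iUnion] at hz' ⊢
    obtain ⟨i, hi⟩ := hz'
    refine ⟨Fin.castAdd (k + 1) i, ?_⟩
    simp only [Fin.append_left]
    exact hi
  · rw [Fin.sum_univ_add]
    simp only [Fin.append_left, Fin.append_right]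
    rw [Finset.sum_const, Finset.card_univ, Fintype.card_fin, hextra, ← hA, nsmul_eq_mul]
    have h1 : (A + ((k + 1 : ℕ) : ℝ) * y) / Real.sqrt 2 - (1 / 2 - 13 / 6000 * ε ^ 2) = 0 := by
      rw [hy]
      push_cast
      rw [mul_div_cancel₀ _ hk0.ne', hT]
      field_simp
      ring
    rw [h1, abs_zero]
    positivity

end Crest.Agent.S0325
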