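import Crest.Statements.S0326
-- import your own Crest.Agent.* helpers here

set_option autoImplicit false
open MeasureTheory
open scoped ENNReal
open Crest Crest.GeometryTopology Crest.GeometryTopology.Convex

namespace Crest.Agent.S0326

section Helpers
open scoped Pointwise

abbrev E2 := EuclideanSpace ℝ (Fin 2)


/-- cover lemma, both coefficients nonnegative -/
lemma cover_pos (α β : ℝ) (hα : 0 ≤ α) (hβ : 0 ≤ β) (hab : α * β < 1) (X Y : ℝ) :
    ∃ i j : ℤ, 0 ≤ X - (i + β * j) ∧ X - (i + β * j) ≤ 1 ∧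
      0 ≤ Y - (j + α * i) ∧ Y - (j + α * i) ≤ 1 := by
  classical
  set φ : ℤ → ℝ := fun i => i + β * (⌊Y - α * i⌋ : ℤ) with hφ
  have hδ : 0 < 1 - α * β := by linarith
  -- lower bound
  have hlow : ∀ i : ℤ, (i : ℝ) * (1 - α * β) + β * Y - β ≤ φ i := by
    intro i
    have h1 : Y - α * i - 1 < (⌊Y - α * i⌋ : ℤ) := Int.sub_one_lt_floor _
    have h2 : β * (Y - α * i - 1) ≤ β * (⌊Y - α * i⌋ : ℤ) := mul_le_mul_of_nonneg_left h1.le hβ
    simp only [hφ]
    nlinarith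
  have hupp : ∀ i : ℤ, φ i ≤ (i : ℝ) * (1 - α * β) + β * Y := by
    intro i
    have h1 : ((⌊Y - α * i⌋ : ℤ) : ℝ) ≤ Y - α * i := Int.floor_le _
    have h2 : β * (⌊Y - α * i⌋ : ℤ) ≤ β * (Y - α * i) := mul_le_mul_of_nonneg_left h1 hβ
    simp only [hφ]
    nlinarith
  -- the set of i with φ i ≤ X is nonempty and bounded above
  have hne : ∃ i : ℤ, φ i ≤ X := by
    refine ⟨⌊(X - β * Y) / (1 - α * β)⌋, ?_⟩
    have h1 : ((⌊(X - β * Y) / (1 - α * β)⌋ : ℤ) : ℝ) ≤ (X - β * Y) / (1 - α * β) := Int.floor_le _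
    have h2 := hupp ⌊(X - β * Y) / (1 - α * β)⌋
    have h3 : ((⌊(X - β * Y) / (1 - α * β)⌋ : ℤ) : ℝ) * (1 - α * β) ≤ X - β * Y := by
      rwa [le_div_iff₀ hδ] at h1
    linarith
  have hbdd : ∃ b : ℤ, ∀ z : ℤ, φ z ≤ X → z ≤ b := by
    refine ⟨⌊(X - β * Y + β) / (1 - α * β)⌋, fun z hz => ?_⟩
    rw [Int.le_floor, le_div_iff₀ hδ]
    have := hlow z
    linarith
  obtain ⟨i, hi, hmax⟩ := Int.exists_greatest_of_bdd hbdd hne
  have hi1 : X < φ (i + 1) := by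
    by_contra h
    push Not at h
    have := hmax (i + 1) h
    omega
  have hmono : (⌊Y - α * ((i + 1 : ℤ) : ℝ)⌋ : ℤ) ≤ ⌊Y - α * (i : ℝ)⌋ := by
    apply Int.floor_le_floor
    push_cast
    nlinarith
  have hmono' : ((⌊Y - α * ((i + 1 : ℤ) : ℝ)⌋ : ℤ) : ℝ) ≤ (⌊Y - α * (i : ℝ)⌋ : ℤ) := by
    exact_mod_cast hmono
  have hstep : φ (i + 1) ≤ φ i + 1 := by
    simp only [hφ]
    have := mul_le_mul_of_nonneg_left hmono' hβ
    push_cast at this ⊢
    linarith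
  refine ⟨i, ⌊Y - α * i⌋, ?_, ?_, ?_, ?_⟩
  · have : φ i ≤ X := hi
    simp only [hφ] at this
    linarith
  · have h1 : X < φ i + 1 := lt_of_lt_of_le hi1 hstep
    simp only [hφ] at h1
    linarith
  · have := Int.floor_le (Y - α * (i : ℝ))
    linarith
  · have := Int.lt_floor_add_one (Y - α * (i : ℝ))
    linarith

lemma cover (α β : ℝ) (h0 : 0 ≤ α * β) (hab : α * β < 1) (X Y : ℝ) :
    ∃ i j : ℤ, 0 ≤ X - (i + β * j) ∧ X - (i + β * j) ≤ 1 ∧
      0 ≤ Y - (j + α * i) ∧ Y - (j + α * i) ≤ 1 := by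
  rcases mul_nonneg_iff.1 h0 with ⟨hα, hβ⟩ | ⟨hα, hβ⟩
  · exact cover_pos α β hα hβ hab X Y
  · obtain ⟨i, j, h1, h2, h3, h4⟩ := cover_pos (-α) (-β) (by linarith) (by linarith)
      (by linarith [neg_mul_neg α β]) X (1 - Y)
    refine ⟨i, -j, ?_, ?_, ?_, ?_⟩
    · push_cast; linarith
    · push_cast; linarith
    · push_cast; linarith
    · push_cast; linarith

/-- the bound on the lattice point -/
lemma cover_bound (α β c0 K x y : ℝ) (hc0 : 0 < c0) (hK : 0 ≤ K) (hα : |α| ≤ K) (hβ : |β| ≤ K)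
    (h0 : c0 ≤ 1 - α * β) (h1 : 0 ≤ x + β * y) (h2 : x + β * y ≤ 1)
    (h3 : 0 ≤ y + α * x) (h4 : y + α * x ≤ 1) :
    |x| ≤ (1 + K) / c0 ∧ |y| ≤ (1 + K) / c0 := by
  have hx : (1 - α * β) * x = (x + β * y) - β * (y + α * x) := by ring
  have hy : (1 - α * β) * y = (y + α * x) - α * (x + β * y) := by ring
  have hpos : 0 < 1 - α * β := lt_of_lt_of_le hc0 h0
  have key : ∀ z u v γ : ℝ, (1 - α * β) * z = u - γ * v → 0 ≤ u → u ≤ 1 → 0 ≤ v → v ≤ 1 →
      |γ| ≤ K → |z| ≤ (1 + K) / c0 := by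
    intro z u v γ hz hu hu1 hv hv1 hγ
    rw [le_div_iff₀ hc0]
    have h5 : |z| * c0 ≤ |z| * (1 - α * β) := mul_le_mul_of_nonneg_left h0 (abs_nonneg _)
    have h6 : |z| * (1 - α * β) = |(1 - α * β) * z| := by
      rw [abs_mul, abs_of_pos hpos, mul_comm]
    have h7 : |(1 - α * β) * z| ≤ 1 + K := by
      rw [hz]
      have h8 : |u - γ * v| ≤ |u| + |γ * v| := abs_sub _ _
      have h9 : |u| ≤ 1 := by rw [abs_of_nonneg hu]; exact hu1
      have h10 : |γ * v| ≤ K := by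
        rw [abs_mul, abs_of_nonneg hv]
        calc |γ| * v ≤ |γ| * 1 := mul_le_mul_of_nonneg_left hv1 (abs_nonneg _)
          _ = |γ| := mul_one _
          _ ≤ K := hγ
      linarith
    linarith
  exact ⟨key x _ _ β hx h1 h2 h3 h4 hβ, key y _ _ α hy h3 h4 h1 h2 hα⟩



lemma rot_basis (θ : ℝ) : ∃ b : OrthonormalBasis (Fin 2) ℝ E2,
    b 0 = !₂[Real.cos θ, Real.sin θ] ∧ b 1 = !₂[-Real.sin θ, Real.cos θ] := by
  have ho : Orthonormal ℝ ![(!₂[Real.cos θ, Real.sin θ] : E2), (!₂[-Real.sin θ, Real.cos θ] : E2)] := by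
    rw [orthonormal_iff_ite]
    intro i j
    have e1 := Real.sin_sq_add_cos_sq θ
    fin_cases i <;> fin_cases j
    · show inner ℝ (!₂[Real.cos θ, Real.sin θ] : E2) (!₂[Real.cos θ, Real.sin θ] : E2) = (1:ℝ)
      rw [PiLp.inner_apply, Fin.sum_univ_two]
      show Real.cos θ * Real.cos θ + Real.sin θ * Real.sin θ = 1
      nlinarith
    · show inner ℝ (!₂[Real.cos θ, Real.sin θ] : E2) (!₂[-Real.sin θ, Real.cos θ] : E2) = (0:ℝ)
      rw [PiLp.inner_apply, Fin.sum_univ_two]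
      show -Real.sin θ * Real.cos θ + Real.cos θ * Real.sin θ = 0
      ring
    · show inner ℝ (!₂[-Real.sin θ, Real.cos θ] : E2) (!₂[Real.cos θ, Real.sin θ] : E2) = (0:ℝ)
      rw [PiLp.inner_apply, Fin.sum_univ_two]
      show Real.cos θ * -Real.sin θ + Real.sin θ * Real.cos θ = 0
      ring
    · show inner ℝ (!₂[-Real.sin θ, Real.cos θ] : E2) (!₂[-Real.sin θ, Real.cos θ] : E2) = (1:ℝ)
      rw [PiLp.inner_apply, Fin.sum_univ_two]
      show -Real.sin θ * -Real.sin θ + Real.cos θ * Real.cos θ = 1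
      nlinarith
  have hs : ⊤ ≤ Submodule.span ℝ (Set.range ![(!₂[Real.cos θ, Real.sin θ] : E2), (!₂[-Real.sin θ, Real.cos θ] : E2)]) := by
    rw [ho.linearIndependent.span_eq_top_of_card_eq_finrank' (by simp)]
  refine ⟨OrthonormalBasis.mk ho hs, ?_, ?_⟩
  · rw [OrthonormalBasis.coe_mk]; rfl
  · rw [OrthonormalBasis.coe_mk]; rfl

lemma frame (A : E2 →ₗ[ℝ] E2) (htr : LinearMap.trace ℝ _ A = 0) :
    ∃ (b : OrthonormalBasis (Fin 2) ℝ E2) (k1 k2 : ℝ), A (b 0) = k1 • b 1 ∧ A (b 1) = k2 • b 0 ∧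
      LinearMap.det A = -(k1 * k2) := by
  -- find θ
  have hcont : Continuous fun θ : ℝ => (inner ℝ (!₂[Real.cos θ, Real.sin θ] : E2) (A !₂[Real.cos θ, Real.sin θ]) : ℝ) := by
    have h1 : Continuous fun θ : ℝ => (!₂[Real.cos θ, Real.sin θ] : E2) := by
      refine (PiLp.continuous_toLp 2 _).comp ?_
      refine continuous_pi fun i => ?_
      fin_cases i
      · exact Real.continuous_cos
      · exact Real.continuous_sin
    have h2 : Continuous A := LinearMap.continuous_of_finiteDimensional A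
    exact h1.inner (h2.comp h1)
  obtain ⟨b0, hb00, hb01⟩ := rot_basis 0
  have htr0 := htr
  rw [LinearMap.trace_eq_sum_inner A b0, Fin.sum_univ_two, hb00, hb01] at htr0
  have hex : ∃ θ : ℝ, (inner ℝ (!₂[Real.cos θ, Real.sin θ] : E2) (A !₂[Real.cos θ, Real.sin θ]) : ℝ) = 0 := by
    have hivt := intermediate_value_uIcc (a := (0:ℝ)) (b := Real.pi / 2) hcont.continuousOn
    have h0 : (0:ℝ) ∈ Set.uIcc
        (inner ℝ (!₂[Real.cos 0, Real.sin 0] : E2) (A !₂[Real.cos 0, Real.sin 0]) : ℝ)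
        (inner ℝ (!₂[Real.cos (Real.pi/2), Real.sin (Real.pi/2)] : E2) (A !₂[Real.cos (Real.pi/2), Real.sin (Real.pi/2)]) : ℝ) := by
      have e1 : (!₂[Real.cos (Real.pi/2), Real.sin (Real.pi/2)] : E2) = !₂[-Real.sin 0, Real.cos 0] := by
        simp
      rw [e1]
      rw [Set.mem_uIcc]
      rcases le_total 0 (inner ℝ (!₂[Real.cos 0, Real.sin 0] : E2) (A !₂[Real.cos 0, Real.sin 0]) : ℝ) with h | h
      · right; constructor <;> linarith
      · left; constructor <;> linarith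
    obtain ⟨θ, _, hθ⟩ := hivt h0
    exact ⟨θ, hθ⟩
  obtain ⟨θ, hθ⟩ := hex
  obtain ⟨b, hb0, hb1⟩ := rot_basis θ
  have h00 : (inner ℝ (b 0) (A (b 0)) : ℝ) = 0 := by rw [hb0]; exact hθ
  have h11 : (inner ℝ (b 1) (A (b 1)) : ℝ) = 0 := by
    have := htr
    rw [LinearMap.trace_eq_sum_inner A b, Fin.sum_univ_two, h00] at this
    linarith
  have hA0 : A (b 0) = (inner ℝ (b 1) (A (b 0)) : ℝ) • b 1 := by
    conv_lhs => rw [← b.sum_repr' (A (b 0))]
    rw [Fin.sum_univ_two, h00, zero_smul, zero_add]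
  have hA1 : A (b 1) = (inner ℝ (b 0) (A (b 1)) : ℝ) • b 0 := by
    conv_lhs => rw [← b.sum_repr' (A (b 1))]
    rw [Fin.sum_univ_two, h11, zero_smul, add_zero]
  refine ⟨b, _, _, hA0, hA1, ?_⟩
  rw [← LinearMap.det_toMatrix b.toBasis, Matrix.det_fin_two]
  simp only [LinearMap.toMatrix_apply, OrthonormalBasis.coe_toBasis, OrthonormalBasis.coe_toBasis_repr_apply,
    OrthonormalBasis.repr_apply_apply]
  rw [h00, h11]
  ring



def qc (r : ℝ) (k : ℤ × ℤ) : Set E2 :=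
  {p | (r * k.1 ≤ p 0 ∧ p 0 < r * (k.1 + 1)) ∧ (r * k.2 ≤ p 1 ∧ p 1 < r * (k.2 + 1))}

lemma qc_eq (r : ℝ) (k : ℤ × ℤ) : qc r k = (WithLp.ofLp : E2 → Fin 2 → ℝ) ⁻¹'
    (Set.pi Set.univ fun l => Set.Ico ((![r * k.1, r * k.2] : Fin 2 → ℝ) l)
      ((![r * (k.1 + 1), r * (k.2 + 1)] : Fin 2 → ℝ) l)) := by
  ext p
  simp only [qc, Set.mem_setOf_eq, Set.mem_preimage, Set.mem_pi, Set.mem_univ, true_imp_iff,
    Fin.forall_fin_two, Set.mem_Ico]
  rfl

lemma meas_qc (r : ℝ) (k : ℤ × ℤ) : MeasurableSet (qc r k) := by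
  rw [qc_eq]
  exact (PiLp.volume_preserving_ofLp (Fin 2)).measurable
    (MeasurableSet.univ_pi fun l => measurableSet_Ico)

lemma vol_qc (r : ℝ) (hr : 0 < r) (k : ℤ × ℤ) : volume (qc r k) = ENNReal.ofReal (r ^ 2) := by
  rw [qc_eq, (PiLp.volume_preserving_ofLp (Fin 2)).measure_preimage
    (MeasurableSet.univ_pi fun l => measurableSet_Ico).nullMeasurableSet, Real.volume_pi_Ico,
    Fin.prod_univ_two, ← ENNReal.ofReal_mul]
  · congr 1
    simp
    ring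
  · simp; nlinarith

lemma vol_box (u : Fin 2 → ℝ) (w : ℝ) (hw : 0 ≤ w) :
    volume {z : E2 | ∀ l, u l ≤ z l ∧ z l ≤ u l + w} = ENNReal.ofReal (w ^ 2) := by
  have : {z : E2 | ∀ l, u l ≤ z l ∧ z l ≤ u l + w} = (WithLp.ofLp : E2 → Fin 2 → ℝ) ⁻¹'
    (Set.Icc u (fun l => u l + w)) := by
    ext p
    simp only [Set.mem_setOf_eq, Set.mem_preimage, Set.mem_Icc, Pi.le_def]
    constructor
    · intro h; exact ⟨fun l => (h l).1, fun l => (h l).2⟩
    · intro h l; exact ⟨h.1 l, h.2 l⟩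
  rw [this, (PiLp.volume_preserving_ofLp (Fin 2)).measure_preimage
    measurableSet_Icc.nullMeasurableSet, Real.volume_Icc_pi, Fin.prod_univ_two, ← ENNReal.ofReal_mul]
  · congr 1; ring
  · linarith

lemma qc_disjoint (r : ℝ) (hr : 0 < r) (k k' : ℤ × ℤ) (h : k ≠ k') : Disjoint (qc r k) (qc r k') := by
  rw [Set.disjoint_left]
  intro p hp hp'
  apply h
  obtain ⟨⟨a1, a2⟩, ⟨a3, a4⟩⟩ := hp
  obtain ⟨⟨b1, b2⟩, ⟨b3, b4⟩⟩ := hp'
  have h1 : (k.1 : ℝ) < k'.1 + 1 := by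
    by_contra hc; push Not at hc
    have := mul_le_mul_of_nonneg_left hc hr.le
    linarith
  have h2 : (k'.1 : ℝ) < k.1 + 1 := by
    by_contra hc; push Not at hc
    have := mul_le_mul_of_nonneg_left hc hr.le
    linarith
  have h3 : (k.2 : ℝ) < k'.2 + 1 := by
    by_contra hc; push Not at hc
    have := mul_le_mul_of_nonneg_left hc hr.le
    linarith
  have h4 : (k'.2 : ℝ) < k.2 + 1 := by
    by_contra hc; push Not at hc
    have := mul_le_mul_of_nonneg_left hc hr.le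
    linarith
  have h1' : k.1 < k'.1 + 1 := by exact_mod_cast h1
  have h2' : k'.1 < k.1 + 1 := by exact_mod_cast h2
  have h3' : k.2 < k'.2 + 1 := by exact_mod_cast h3
  have h4' : k'.2 < k.2 + 1 := by exact_mod_cast h4
  ext <;> omega

lemma coord_le (v : E2) (l : Fin 2) : |v l| ≤ ‖v‖ := by
  have := PiLp.norm_apply_le v l
  simpa using this

lemma repr_symm_eq (b : OrthonormalBasis (Fin 2) ℝ E2) (v : E2) :
    b.repr.symm v = v 0 • b 0 + v 1 • b 1 := by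
  rw [← b.sum_repr_symm v, Fin.sum_univ_two]

lemma norm_frame_le (b : OrthonormalBasis (Fin 2) ℝ E2) (x y : ℝ) :
    ‖x • b 0 + y • b 1‖ ≤ |x| + |y| := by
  refine (norm_add_le _ _).trans ?_
  rw [norm_smul, norm_smul, b.norm_eq_one, b.norm_eq_one, Real.norm_eq_abs, Real.norm_eq_abs]
  linarith

lemma count (b : OrthonormalBasis (Fin 2) ℝ E2) (q : E2) (m w : ℝ) (hm : 0 < m) (hw : 0 ≤ w)
    (u : Fin 2 → ℝ) (S : Finset (ℤ × ℤ))
    (hS : ∀ ij ∈ S, ∀ l, u l ≤ (q + m • ((ij.1 : ℝ) • b 0 + (ij.2 : ℝ) • b 1) : E2) l ∧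
      (q + m • ((ij.1 : ℝ) • b 0 + (ij.2 : ℝ) • b 1) : E2) l ≤ u l + w) :
    (S.card : ℝ) * m ^ 2 ≤ (w + 4 * m) ^ 2 := by
  set T : Set E2 := ⋃ ij ∈ S, qc 1 ij with hT
  have hvT : volume T = (S.card : ℝ≥0∞) := by
    rw [hT, measure_biUnion_finset]
    · simp only [vol_qc 1 one_pos]
      simp
    · intro k _ k' _ hkk
      exact qc_disjoint 1 one_pos k k' hkk
    · intro k _
      exact meas_qc 1 k
  set f : E2 → E2 := fun v => q + m • b.repr.symm v with hf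
  have himg : f '' T = q +ᵥ (m • (b.repr.symm '' T)) := by
    ext z
    simp only [hf, Set.mem_image, Set.mem_vadd_set, Set.mem_smul_set]
    constructor
    · rintro ⟨v, hv, rfl⟩
      exact ⟨_, ⟨_, ⟨v, hv, rfl⟩, rfl⟩, rfl⟩
    · rintro ⟨_, ⟨_, ⟨v, hv, rfl⟩, rfl⟩, rfl⟩
      exact ⟨v, hv, rfl⟩
  have hvol : volume (f '' T) = ENNReal.ofReal (m ^ 2) * (S.card : ℝ≥0∞) := by
    rw [himg, measure_vadd, Measure.addHaar_smul]
    have hTm : MeasurableSet T := by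
      rw [hT]
      exact Finset.measurableSet_biUnion _ fun k _ => meas_qc 1 k
    have h1 : volume (b.repr.symm '' T) = volume T := by
      have e1 : b.repr.symm '' T = b.repr ⁻¹' T := by
        ext z
        simp only [Set.mem_image, Set.mem_preimage]
        constructor
        · rintro ⟨v, hv, rfl⟩
          simpa using hv
        · intro hz
          exact ⟨b.repr z, hz, by simp⟩
      rw [e1]
      exact b.measurePreserving_repr.measure_preimage hTm.nullMeasurableSet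
    rw [h1, hvT]
    congr 2
    simp
  have hsub : f '' T ⊆ {z : E2 | ∀ l, (fun l => u l - 2 * m) l ≤ z l ∧ z l ≤ (fun l => u l - 2 * m) l + (w + 4 * m)} := by
    rintro _ ⟨v, hv, rfl⟩ l
    rw [hT, Set.mem_iUnion₂] at hv
    obtain ⟨ij, hij, hv⟩ := hv
    obtain ⟨⟨a1, a2⟩, ⟨a3, a4⟩⟩ := hv
    have hz := hS ij hij l
    have e1 : f v = (q + m • ((ij.1 : ℝ) • b 0 + (ij.2 : ℝ) • b 1) : E2) +
        m • ((v 0 - ij.1) • b 0 + (v 1 - ij.2) • b 1) := by
      simp only [hf, repr_symm_eq]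
      module
    have e2 : |(m • ((v 0 - ij.1) • b 0 + (v 1 - ij.2) • b 1) : E2) l| ≤ 2 * m := by
      refine (coord_le _ l).trans ?_
      rw [norm_smul, Real.norm_eq_abs, abs_of_pos hm]
      have := norm_frame_le b (v 0 - ij.1) (v 1 - ij.2)
      have h5 : |v 0 - ij.1| ≤ 1 := by rw [abs_le]; constructor <;> linarith
      have h6 : |v 1 - ij.2| ≤ 1 := by rw [abs_le]; constructor <;> linarith
      nlinarith
    rw [e1]
    rw [abs_le] at e2
    rw [PiLp.add_apply]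
    simp only []
    constructor <;> linarith
  have hle := (hvol.symm.trans_le (measure_mono hsub))
  rw [vol_box _ _ (by positivity)] at hle
  have hle2 : ENNReal.ofReal ((S.card : ℝ) * m ^ 2) ≤ ENNReal.ofReal ((w + 4 * m) ^ 2) := by
    refine le_trans (le_of_eq ?_) hle
    rw [mul_comm, ENNReal.ofReal_mul (by positivity)]
    simp
  rwa [ENNReal.ofReal_le_ofReal_iff (by positivity)] at hle2


lemma norm_le_coord (v : E2) : ‖v‖ ≤ |v 0| + |v 1| := by
  rw [EuclideanSpace.norm_eq, Fin.sum_univ_two, Real.norm_eq_abs, Real.norm_eq_abs]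
  apply Real.sqrt_le_iff.2
  constructor
  · positivity
  · nlinarith [abs_nonneg (v 0), abs_nonneg (v 1), mul_nonneg (abs_nonneg (v 0)) (abs_nonneg (v 1))]

lemma abs_inner_basis_le (b : OrthonormalBasis (Fin 2) ℝ E2) (i : Fin 2) (v : E2) :
    |(inner ℝ (b i) v : ℝ)| ≤ ‖v‖ := by
  have := abs_real_inner_le_norm (b i) v
  rwa [b.norm_eq_one, one_mul] at this

lemma expand (b : OrthonormalBasis (Fin 2) ℝ E2) (v : E2) :
    v = (inner ℝ (b 0) v : ℝ) • b 0 + (inner ℝ (b 1) v : ℝ) • b 1 := by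
  conv_lhs => rw [← b.sum_repr' v]
  rw [Fin.sum_univ_two]

lemma cell (V : E2 → E2) (p0 : E2) (A : E2 →L[ℝ] E2) (b : OrthonormalBasis (Fin 2) ℝ E2)
    (k1 k2 L B c0 r m η : ℝ) (hA0 : A (b 0) = k1 • b 1) (hA1 : A (b 1) = k2 • b 0)
    (hL : 0 < L) (hB : ‖A‖ ≤ B) (hc0 : 0 < c0)
    (h0 : 0 ≤ k1 * k2) (h1 : c0 ≤ 1 - L ^ 2 * (k1 * k2)) (hr : 0 < r) (hm : 0 < m) (hη : 0 ≤ η)
    (k : ℤ × ℤ) (hp0 : p0 ∈ qc r k) :
    ∃ (S : Finset (ℤ × ℤ)) (z : ℤ × ℤ → E2),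
      (S.card : ℝ) * m ^ 2 ≤ (r + 4 * ((1 + L * B) / c0) * m + 4 * m) ^ 2 ∧
      (∀ ij ∈ S, ‖z ij - p0‖ ≤ 2 * (r + 4 * ((1 + L * B) / c0) * m)) ∧
      (∀ p ∈ qc r k, L * ‖V p - V p0 - A (p - p0)‖ ≤ η * m → ∀ s : ℝ, |s| ≤ L →
        ∃ ij ∈ S, ∃ x ∈ Set.Icc (0 : ℝ) 1, ∃ y ∈ Set.Icc (0 : ℝ) 1,
          p + s • V p = (z ij - (η * m) • (b 0 + b 1)) + x • (((1 + 2 * η) * m) • b 0) +
            y • (((1 + 2 * η) * m) • b 1) + s • (V p0 + A (z ij - p0))) := by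
  classical
  have hB0 : 0 ≤ B := (norm_nonneg _).trans hB
  set C : ℝ := (1 + L * B) / c0 with hC
  have hCpos : 0 ≤ C := by positivity
  have hk1 : |k1| ≤ B := by
    have e : ‖A (b 0)‖ = |k1| := by rw [hA0, norm_smul, b.norm_eq_one, mul_one, Real.norm_eq_abs]
    rw [← e]
    calc ‖A (b 0)‖ ≤ ‖A‖ * ‖b 0‖ := A.le_opNorm _
      _ = ‖A‖ := by rw [b.norm_eq_one, mul_one]
      _ ≤ B := hB
  have hk2 : |k2| ≤ B := by
    have e : ‖A (b 1)‖ = |k2| := by rw [hA1, norm_smul, b.norm_eq_one, mul_one, Real.norm_eq_abs]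
    rw [← e]
    calc ‖A (b 1)‖ ≤ ‖A‖ * ‖b 1‖ := A.le_opNorm _
      _ = ‖A‖ := by rw [b.norm_eq_one, mul_one]
      _ ≤ B := hB
  set z : ℤ × ℤ → E2 := fun ij => p0 + m • ((ij.1 : ℝ) • b 0 + (ij.2 : ℝ) • b 1) with hz
  set u : Fin 2 → ℝ := ![r * k.1 - 2 * C * m, r * k.2 - 2 * C * m] with hu
  set w : ℝ := r + 4 * C * m with hw
  have hw0 : 0 ≤ w := by positivity
  set Ss : Set (ℤ × ℤ) := {ij | ∀ l, u l ≤ z ij l ∧ z ij l ≤ u l + w} with hSs
  have hcount : ∀ F : Finset (ℤ × ℤ), (F : Set (ℤ × ℤ)) ⊆ Ss → (F.card : ℝ) * m ^ 2 ≤ (w + 4 * m) ^ 2 := by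
    intro F hF
    exact count b p0 m w hm hw0 u F (fun ij hij l => hF hij l)
  have hfin : Ss.Finite := by
    by_contra hinf
    obtain ⟨F, hF, hFc⟩ := Set.Infinite.exists_subset_card_eq hinf (⌈(w + 4 * m) ^ 2 / m ^ 2⌉₊ + 1)
    have h2 := hcount F hF
    rw [hFc] at h2
    have h3 := Nat.le_ceil ((w + 4 * m) ^ 2 / m ^ 2)
    rw [div_le_iff₀ (by positivity)] at h3
    push_cast at h2
    have : 0 < m ^ 2 := by positivity
    nlinarith
  have hp0box : ∀ p ∈ qc r k, ∀ l, u l + 2 * C * m ≤ p l ∧ p l ≤ u l + w - 2 * C * m := by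
    intro p hp l
    obtain ⟨⟨a1, a2⟩, ⟨a3, a4⟩⟩ := hp
    fin_cases l
    · simp only [hu, hw]
      show r * k.1 - 2 * C * m + 2 * C * m ≤ p 0 ∧ p 0 ≤ r * k.1 - 2 * C * m + (r + 4 * C * m) - 2 * C * m
      constructor <;> linarith
    · simp only [hu, hw]
      show r * k.2 - 2 * C * m + 2 * C * m ≤ p 1 ∧ p 1 ≤ r * k.2 - 2 * C * m + (r + 4 * C * m) - 2 * C * m
      constructor <;> linarith
  refine ⟨hfin.toFinset, z, ?_, ?_, ?_⟩
  · exact hcount _ (by simp)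
  · intro ij hij
    rw [Set.Finite.mem_toFinset] at hij
    refine (norm_le_coord _).trans ?_
    have key : ∀ l, |(z ij - p0) l| ≤ w := by
      intro l
      obtain ⟨h2, h3⟩ := hij l
      obtain ⟨h4, h5⟩ := hp0box p0 hp0 l
      have : 0 ≤ 2 * C * m := by positivity
      rw [PiLp.sub_apply, abs_le]
      constructor <;> linarith
    have := key 0
    have := key 1
    linarith
  · intro p hp he s hs
    set e : E2 := V p - V p0 - A (p - p0) with hedef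
    set x0 : ℝ := (inner ℝ (b 0) (p - p0) : ℝ) / m with hx0
    set y0 : ℝ := (inner ℝ (b 1) (p - p0) : ℝ) / m with hy0
    have hv : p - p0 = m • (x0 • b 0 + y0 • b 1) := by
      conv_lhs => rw [expand b (p - p0)]
      rw [smul_add, smul_smul, smul_smul, hx0, hy0]
      congr 2 <;> field_simp
    have hss : s ^ 2 ≤ L ^ 2 := by
      rw [← sq_abs]
      exact pow_le_pow_left₀ (abs_nonneg _) hs 2
    have hab : (s * k1) * (s * k2) = s ^ 2 * (k1 * k2) := by ring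
    have h2 : c0 ≤ 1 - (s * k1) * (s * k2) := by
      rw [hab]
      have := mul_le_mul_of_nonneg_right hss h0
      linarith
    obtain ⟨i, j, hi1, hi2, hj1, hj2⟩ := cover (s * k1) (s * k2) (by rw [hab]; positivity) (by linarith)
      (x0 + s * k2 * y0) (y0 + s * k1 * x0)
    have hLB : ∀ κ : ℝ, |κ| ≤ B → |s * κ| ≤ L * B := by
      intro κ hκ
      rw [abs_mul]
      exact mul_le_mul hs hκ (abs_nonneg _) hL.le
    obtain ⟨hxi, hyj⟩ := cover_bound (s * k1) (s * k2) c0 (L * B) (x0 - i) (y0 - j) hc0 (by positivity)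
      (hLB _ hk1) (hLB _ hk2) h2 (by linarith) (by linarith) (by linarith) (by linarith)
    rw [← hC] at hxi hyj
    have hpz : ‖p - z (i, j)‖ ≤ 2 * C * m := by
      have e1 : p - z (i, j) = m • ((x0 - i) • b 0 + (y0 - j) • b 1) := by
        have : p = p0 + m • (x0 • b 0 + y0 • b 1) := by rw [← hv]; abel
        simp only [hz]
        rw [this]
        module
      rw [e1, norm_smul, Real.norm_eq_abs, abs_of_pos hm]
      have := norm_frame_le b (x0 - i) (y0 - j)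
      nlinarith
    have hzS : (i, j) ∈ hfin.toFinset := by
      rw [Set.Finite.mem_toFinset]
      intro l
      have h3 := (coord_le (p - z (i, j)) l).trans hpz
      rw [PiLp.sub_apply, abs_le] at h3
      obtain ⟨h4, h5⟩ := hp0box p hp l
      constructor <;> linarith
    have he0 : ∀ l, |(inner ℝ (b l) (s • e) : ℝ)| ≤ η * m := by
      intro l
      refine (abs_inner_basis_le b l _).trans ?_
      rw [norm_smul, Real.norm_eq_abs]
      exact (mul_le_mul_of_nonneg_right hs (norm_nonneg _)).trans he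
    have hq : 0 < (1 + 2 * η) * m := by positivity
    refine ⟨(i, j), hzS, (m * (x0 + s * k2 * y0 - (i + s * k2 * j)) + inner ℝ (b 0) (s • e) + η * m) / ((1 + 2 * η) * m), ?_,
      (m * (y0 + s * k1 * x0 - (j + s * k1 * i)) + inner ℝ (b 1) (s • e) + η * m) / ((1 + 2 * η) * m), ?_, ?_⟩
    · have h3 := abs_le.1 (he0 0)
      constructor
      · apply div_nonneg _ hq.le
        have t1 := mul_nonneg hm.le hi1
        linarith [h3.1]
      · rw [div_le_one hq]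
        have t1 := mul_le_mul_of_nonneg_left hi2 hm.le
        linarith [h3.2]
    · have h3 := abs_le.1 (he0 1)
      constructor
      · apply div_nonneg _ hq.le
        have t1 := mul_nonneg hm.le hj1
        linarith [h3.1]
      · rw [div_le_one hq]
        have t1 := mul_le_mul_of_nonneg_left hj2 hm.le
        linarith [h3.2]
    · rw [smul_smul, smul_smul, div_mul_cancel₀ _ hq.ne', div_mul_cancel₀ _ hq.ne']
      have hVp : V p = V p0 + A (p - p0) + e := by rw [hedef]; abel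
      have hAp : A (p - p0) = (m * x0 * k1) • b 1 + (m * y0 * k2) • b 0 := by
        rw [hv, map_smul, map_add, map_smul, map_smul, hA0, hA1]
        module
      have hAz : A (z (i, j) - p0) = (m * i * k1) • b 1 + (m * j * k2) • b 0 := by
        have e1 : z (i, j) - p0 = m • ((i : ℝ) • b 0 + (j : ℝ) • b 1) := by
          simp only [hz]; abel
        rw [e1, map_smul, map_add, map_smul, map_smul, hA0, hA1]
        module
      have hse := expand b (s • e)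
      have hp' : p = p0 + m • (x0 • b 0 + y0 • b 1) := by rw [← hv]; abel
      have hzz : z (i, j) = p0 + m • ((i : ℝ) • b 0 + (j : ℝ) • b 1) := rfl
      rw [hAz, hzz]
      conv_lhs => rw [hVp, hAp, smul_add, hse, hp']
      generalize (inner ℝ (b 0) (s • e) : ℝ) = E0
      generalize (inner ℝ (b 1) (s • e) : ℝ) = E1
      module

lemma unif_diff (D : Set E2) (hD : IsCompact D) (V : E2 → E2) (U : Set E2)
    (hU : IsOpen U) (hDU : D ⊆ U) (hV : ContDiffOn ℝ 1 V U) (τ : ℝ) (hτ : 0 < τ) :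
    ∃ ρ > 0, ∀ p0 ∈ D, ∀ p, ‖p - p0‖ ≤ ρ →
      ‖V p - V p0 - fderiv ℝ V p0 (p - p0)‖ ≤ τ * ‖p - p0‖ := by
  obtain ⟨δ0, hδ0, hsub⟩ := hD.exists_cthickening_subset_open hU hDU
  have hK : IsCompact (Metric.cthickening δ0 D) := hD.cthickening
  have hcont : ContinuousOn (fderiv ℝ V) (Metric.cthickening δ0 D) :=
    (hV.continuousOn_fderiv_of_isOpen hU le_rfl).mono hsub
  have huc := hK.uniformContinuousOn_of_continuous hcont
  rw [Metric.uniformContinuousOn_iff] at huc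
  obtain ⟨δ1, hδ1, hδ⟩ := huc τ hτ
  refine ⟨min δ0 (δ1 / 2), by positivity, ?_⟩
  intro p0 hp0 p hp
  have hball : Metric.closedBall p0 (min δ0 (δ1 / 2)) ⊆ Metric.cthickening δ0 D := by
    intro x hx
    rw [Metric.mem_closedBall] at hx
    exact Metric.mem_cthickening_of_dist_le x p0 δ0 D hp0 (hx.trans (min_le_left _ _))
  have hp0K : p0 ∈ Metric.cthickening δ0 D := Metric.self_subset_cthickening _ hp0
  refine Convex.norm_image_sub_le_of_norm_hasFDerivWithin_le' (s := Metric.closedBall p0 (min δ0 (δ1 / 2)))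
    (f' := fderiv ℝ V) (φ := fderiv ℝ V p0) (𝕜 := ℝ) ?_ ?_ (convex_closedBall _ _) ?_ ?_
  · intro x hx
    have hxU : x ∈ U := hsub (hball hx)
    exact ((hV.differentiableOn one_ne_zero).differentiableAt (hU.mem_nhds hxU)).hasFDerivAt.hasFDerivWithinAt
  · intro x hx
    have h1 : dist x p0 < δ1 := by
      rw [Metric.mem_closedBall] at hx
      have := hx.trans (min_le_right _ _)
      linarith
    have := hδ x (hball hx) p0 hp0K h1
    rw [dist_eq_norm] at this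
    exact this.le
  · exact Metric.mem_closedBall_self (by positivity)
  · rw [Metric.mem_closedBall, dist_eq_norm]; exact hp

noncomputable def JJ (h : ℝ) (g : E2) : ℝ := 1 / Real.sqrt (1 + (g 0) ^ 2 + h ^ 2 * (g 1) ^ 2)

lemma JJ_nonneg (h : ℝ) (g : E2) : 0 ≤ JJ h g := by unfold JJ; positivity

lemma JJ_le_one (h : ℝ) (g : E2) : JJ h g ≤ 1 := by
  unfold JJ
  rw [div_le_one (by positivity)]
  rw [Real.one_le_sqrt]
  nlinarith [sq_nonneg (g 0), sq_nonneg (h * g 1)]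

lemma JJ_lip (h : ℝ) (hh : 0 < h) (g g' : E2) : |JJ h g - JJ h g'| ≤ (1 + h) * ‖g - g'‖ := by
  set N : E2 → ℝ := fun g => ‖(!₂[1, g 0, h * g 1] : EuclideanSpace ℝ (Fin 3))‖ with hN
  have hNeq : ∀ g : E2, Real.sqrt (1 + (g 0) ^ 2 + h ^ 2 * (g 1) ^ 2) = N g := by
    intro g
    simp only [hN]
    rw [EuclideanSpace.norm_eq, Fin.sum_univ_three]
    congr 1
    simp only [Real.norm_eq_abs, sq_abs]
    show 1 + (g 0) ^ 2 + h ^ 2 * (g 1) ^ 2 = 1 ^ 2 + (g 0) ^ 2 + (h * g 1) ^ 2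
    ring
  have hN1 : ∀ g : E2, 1 ≤ N g := by
    intro g
    rw [← hNeq, Real.one_le_sqrt]
    nlinarith [sq_nonneg (g 0), sq_nonneg (h * g 1)]
  have hNl : |N g - N g'| ≤ (1 + h) * ‖g - g'‖ := by
    have h1 : |N g - N g'| ≤ ‖(!₂[1, g 0, h * g 1] : EuclideanSpace ℝ (Fin 3)) - !₂[1, g' 0, h * g' 1]‖ :=
      abs_norm_sub_norm_le _ _
    refine h1.trans ?_
    have h2 : ‖(!₂[1, g 0, h * g 1] : EuclideanSpace ℝ (Fin 3)) - !₂[1, g' 0, h * g' 1]‖ ≤
        |(g - g') 0| + h * |(g - g') 1| := by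
      rw [EuclideanSpace.norm_eq, Fin.sum_univ_three]
      apply Real.sqrt_le_iff.2
      constructor
      · positivity
      · simp only [Real.norm_eq_abs, sq_abs]
        show (1 - 1 : ℝ) ^ 2 + (g 0 - g' 0) ^ 2 + (h * g 1 - h * g' 1) ^ 2 ≤
          (|g 0 - g' 0| + h * |g 1 - g' 1|) ^ 2
        have e1 : (g 0 - g' 0) ^ 2 = |g 0 - g' 0| ^ 2 := (sq_abs _).symm
        have e2 : (h * g 1 - h * g' 1) ^ 2 = h ^ 2 * |g 1 - g' 1| ^ 2 := by
          rw [sq_abs]; ring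
        rw [e1, e2]
        have : 0 ≤ |g 0 - g' 0| * (h * |g 1 - g' 1|) := by positivity
        nlinarith
    have h3 := coord_le (g - g') 0
    have h4 := coord_le (g - g') 1
    have h5 := mul_le_mul_of_nonneg_left h4 hh.le
    linarith
  unfold JJ
  rw [hNeq, hNeq]
  have p1 : 0 < N g := lt_of_lt_of_le one_pos (hN1 g)
  have p2 : 0 < N g' := lt_of_lt_of_le one_pos (hN1 g')
  have e3 : 1 / N g - 1 / N g' = (N g' - N g) / (N g * N g') := by
    field_simp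
  rw [e3, abs_div, abs_of_pos (mul_pos p1 p2), abs_sub_comm]
  have h6 : |N g - N g'| / (N g * N g') ≤ |N g - N g'| := by
    apply div_le_self (abs_nonneg _)
    have := mul_le_mul (hN1 g) (hN1 g') zero_le_one p1.le
    linarith
  exact h6.trans hNl

lemma qc_diam (r : ℝ) (k : ℤ × ℤ) (p q : E2) (hp : p ∈ qc r k) (hq : q ∈ qc r k) :
    ‖p - q‖ ≤ 2 * r := by
  obtain ⟨⟨a1, a2⟩, ⟨a3, a4⟩⟩ := hp
  obtain ⟨⟨b1, b2⟩, ⟨b3, b4⟩⟩ := hq
  refine (norm_le_coord _).trans ?_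
  have h1 : |(p - q) 0| ≤ r := by
    rw [PiLp.sub_apply, abs_le]; constructor <;> linarith
  have h2 : |(p - q) 1| ≤ r := by
    rw [PiLp.sub_apply, abs_le]; constructor <;> linarith
  linarith

lemma mem_qc (r : ℝ) (hr : 0 < r) (p : E2) : p ∈ qc r (⌊p 0 / r⌋, ⌊p 1 / r⌋) := by
  have h1 := Int.floor_le (p 0 / r)
  have h2 := Int.lt_floor_add_one (p 0 / r)
  have h3 := Int.floor_le (p 1 / r)
  have h4 := Int.lt_floor_add_one (p 1 / r)
  rw [le_div_iff₀ hr] at h1 h3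
  rw [div_lt_iff₀ hr] at h2 h4
  refine ⟨⟨?_, ?_⟩, ⟨?_, ?_⟩⟩ <;> simp only <;> linarith

/-- The Riemann sum bound. -/
lemma riemann (D : Set E2) (hD : IsCompact D) (f : E2 → ℝ) (hf : ContinuousOn f D)
    (hf0 : ∀ p, 0 ≤ f p) (hf1 : ∀ p, f p ≤ 1) (r ω : ℝ) (hr : 0 < r) (hω : 0 ≤ ω)
    (hosc : ∀ p ∈ D, ∀ q ∈ D, ‖p - q‖ ≤ 2 * r → |f p - f q| ≤ ω) :
    ∃ (K : Finset (ℤ × ℤ)) (c : ℤ × ℤ → E2), (∀ k ∈ K, c k ∈ D ∧ c k ∈ qc r k) ∧
      (∀ p ∈ D, ∃ k ∈ K, p ∈ qc r k) ∧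
      (K.card : ℝ) * r ^ 2 ≤ (volume (Metric.cthickening (2 * r) D)).toReal ∧
      ∑ k ∈ K, r ^ 2 * f (c k) ≤ (∫ p in D, f p) + ω * (volume D).toReal +
        ((volume (Metric.cthickening (2 * r) D)).toReal - (volume D).toReal) := by
  classical
  set Kc : Set E2 := Metric.cthickening (2 * r) D with hKc
  have hKcc : IsCompact Kc := hD.cthickening
  have hKfin : volume Kc < ⊤ := hKcc.measure_lt_top
  have hDfin : volume D < ⊤ := hD.measure_lt_top
  have hDm : MeasurableSet D := hD.isClosed.measurableSet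
  have hKm : MeasurableSet Kc := hKcc.isClosed.measurableSet
  have hDK : D ⊆ Kc := Metric.self_subset_cthickening _
  set Ks : Set (ℤ × ℤ) := {k | ∃ p ∈ D, p ∈ qc r k} with hKs
  have hcell : ∀ k ∈ Ks, qc r k ⊆ Kc := by
    rintro k ⟨p, hpD, hpk⟩ q hq
    exact Metric.mem_cthickening_of_dist_le q p (2 * r) D hpD (by rw [dist_eq_norm]; exact qc_diam r k q p hq hpk)
  have hcnt : ∀ F : Finset (ℤ × ℤ), (F : Set (ℤ × ℤ)) ⊆ Ks → (F.card : ℝ) * r ^ 2 ≤ (volume Kc).toReal := by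
    intro F hF
    have h1 : volume (⋃ k ∈ F, qc r k) ≤ volume Kc :=
      measure_mono (Set.iUnion₂_subset fun k hk => hcell k (hF hk))
    rw [measure_biUnion_finset] at h1
    · simp only [vol_qc r hr] at h1
      have h2 := ENNReal.toReal_mono hKfin.ne h1
      rw [ENNReal.toReal_sum (by simp)] at h2
      rw [ENNReal.toReal_ofReal (by positivity)] at h2
      simpa using h2
    · intro k _ k' _ hkk
      exact qc_disjoint r hr k k' hkk
    · intro k _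
      exact meas_qc r k
  have hfin : Ks.Finite := by
    by_contra hinf
    obtain ⟨F, hF, hFc⟩ := Set.Infinite.exists_subset_card_eq hinf (⌈(volume Kc).toReal / r ^ 2⌉₊ + 1)
    have h2 := hcnt F hF
    rw [hFc] at h2
    have h3 := Nat.le_ceil ((volume Kc).toReal / r ^ 2)
    rw [div_le_iff₀ (by positivity)] at h3
    push_cast at h2
    have : 0 < r ^ 2 := by positivity
    nlinarith
  choose! c hc using (fun k (hk : k ∈ Ks) => (show ∃ p, p ∈ D ∧ p ∈ qc r k from hk))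
  refine ⟨hfin.toFinset, c, ?_, ?_, ?_, ?_⟩
  · intro k hk
    rw [Set.Finite.mem_toFinset] at hk
    exact hc k hk
  · intro p hp
    refine ⟨(⌊p 0 / r⌋, ⌊p 1 / r⌋), ?_, mem_qc r hr p⟩
    rw [Set.Finite.mem_toFinset]
    exact ⟨p, hp, mem_qc r hr p⟩
  · exact hcnt _ (by simp)
  · set F : E2 → ℝ := fun p => D.indicator (fun p => f p + ω) p + Dᶜ.indicator (fun _ => (1 : ℝ)) p with hF
    have hFnn : ∀ p, 0 ≤ F p := by
      intro p
      simp only [hF]
      apply add_nonneg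
      · exact Set.indicator_nonneg (fun x _ => add_nonneg (hf0 x) hω) p
      · exact Set.indicator_nonneg (fun x _ => zero_le_one) p
    have hfi : IntegrableOn f D := hf.integrableOn_compact hD
    have hconst : IntegrableOn (fun _ : E2 => ω) D := integrableOn_const (hs := hDfin.ne)
    have hFi : IntegrableOn F Kc := by
      refine Integrable.add ?_ ?_
      · exact ((integrable_indicator_iff hDm).2 (hfi.add hconst)).integrableOn
      · have : IntegrableOn (fun _ : E2 => (1 : ℝ)) Kc := integrableOn_const (hs := hKfin.ne)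
        exact this.indicator hDm.compl
    have h1 : ∀ k ∈ hfin.toFinset, r ^ 2 * f (c k) ≤ ∫ p in qc r k, F p := by
      intro k hk
      rw [Set.Finite.mem_toFinset] at hk
      obtain ⟨hcD, hcq⟩ := hc k hk
      have e1 : r ^ 2 * f (c k) = ∫ p in qc r k, f (c k) := by
        rw [setIntegral_const, measureReal_def, vol_qc r hr, ENNReal.toReal_ofReal (by positivity), smul_eq_mul]
      rw [e1]
      apply setIntegral_mono_on
      · exact integrableOn_const (hs := by rw [vol_qc r hr]; exact ENNReal.ofReal_ne_top)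
      · exact hFi.mono_set (hcell k hk)
      · exact meas_qc r k
      · intro p hp
        by_cases hpD : p ∈ D
        · simp only [hF, Set.indicator_of_mem hpD]
          rw [Set.indicator_of_notMem (by simpa using hpD)]
          have := hosc (c k) hcD p hpD (qc_diam r k _ _ hcq hp)
          rw [abs_le] at this
          linarith
        · simp only [hF, Set.indicator_of_notMem hpD]
          rw [Set.indicator_of_mem (show p ∈ Dᶜ from hpD)]
          linarith [hf1 (c k)]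
    have h2 : ∑ k ∈ hfin.toFinset, ∫ p in qc r k, F p = ∫ p in ⋃ k ∈ hfin.toFinset, qc r k, F p := by
      rw [integral_biUnion_finset]
      · intro k _; exact meas_qc r k
      · intro k _ k' _ hkk; exact qc_disjoint r hr k k' hkk
      · intro k hk
        rw [Set.Finite.mem_toFinset] at hk
        exact hFi.mono_set (hcell k hk)
    have h3 : ∫ p in ⋃ k ∈ hfin.toFinset, qc r k, F p ≤ ∫ p in Kc, F p := by
      apply setIntegral_mono_set hFi
      · exact Filter.Eventually.of_forall hFnn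
      · apply HasSubset.Subset.eventuallyLE
        apply Set.iUnion₂_subset
        intro k hk
        rw [Set.Finite.mem_toFinset] at hk
        exact hcell k hk
    have h4 : ∫ p in Kc, F p = (∫ p in D, f p) + ω * (volume D).toReal +
        ((volume Kc).toReal - (volume D).toReal) := by
      simp only [hF]
      rw [integral_add]
      · rw [setIntegral_indicator hDm, setIntegral_indicator hDm.compl, Set.inter_eq_self_of_subset_right hDK]
        rw [integral_add hfi hconst, setIntegral_const, setIntegral_const]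
        have e1 : Kc ∩ Dᶜ = Kc \ D := rfl
        rw [e1, measureReal_def, measureReal_def, measure_diff hDK hDm.nullMeasurableSet hDfin.ne,
          ENNReal.toReal_sub_of_le (measure_mono hDK) hKfin.ne]
        simp only [smul_eq_mul, mul_one]
        ring
      · exact ((integrable_indicator_iff hDm).2 (hfi.add hconst)).integrableOn
      · have : IntegrableOn (fun _ : E2 => (1 : ℝ)) Kc := integrableOn_const (hs := hKfin.ne)
        exact this.indicator hDm.compl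
    calc ∑ k ∈ hfin.toFinset, r ^ 2 * f (c k) ≤ ∑ k ∈ hfin.toFinset, ∫ p in qc r k, F p :=
          Finset.sum_le_sum h1
      _ = ∫ p in ⋃ k ∈ hfin.toFinset, qc r k, F p := h2
      _ ≤ ∫ p in Kc, F p := h3
      _ = _ := h4

lemma cell' (V : E2 → E2) (p0 : E2) (A : E2 →L[ℝ] E2)
    (htr : LinearMap.trace ℝ _ A.toLinearMap = 0) (L B c0 r m η : ℝ)
    (hL : 0 < L) (hB : ‖A‖ ≤ B) (hc0 : 0 < c0)
    (h0 : LinearMap.det A.toLinearMap ≤ 0) (h1 : c0 ≤ 1 + L ^ 2 * LinearMap.det A.toLinearMap)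
    (hr : 0 < r) (hm : 0 < m) (hη : 0 ≤ η)
    (k : ℤ × ℤ) (hp0 : p0 ∈ qc r k) :
    ∃ (S : Finset (ℤ × ℤ)) (z : ℤ × ℤ → E2) (b : OrthonormalBasis (Fin 2) ℝ E2),
      (S.card : ℝ) * m ^ 2 ≤ (r + 4 * ((1 + L * B) / c0) * m + 4 * m) ^ 2 ∧
      (∀ ij ∈ S, ‖z ij - p0‖ ≤ 2 * (r + 4 * ((1 + L * B) / c0) * m)) ∧
      (∀ p ∈ qc r k, L * ‖V p - V p0 - A (p - p0)‖ ≤ η * m → ∀ s : ℝ, |s| ≤ L →
        ∃ ij ∈ S, ∃ x ∈ Set.Icc (0 : ℝ) 1, ∃ y ∈ Set.Icc (0 : ℝ) 1,
          p + s • V p = (z ij - (η * m) • (b 0 + b 1)) + x • (((1 + 2 * η) * m) • b 0) +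
            y • (((1 + 2 * η) * m) • b 1) + s • (V p0 + A (z ij - p0))) := by
  obtain ⟨b, k1, k2, hA0, hA1, hdet⟩ := frame A.toLinearMap htr
  rw [hdet] at h0 h1
  obtain ⟨S, z, h2, h3, h4⟩ := cell V p0 A b k1 k2 L B c0 r m η hA0 hA1 hL hB hc0 (by linarith)
    (by linarith) hr hm hη k hp0
  exact ⟨S, z, b, h2, h3, h4⟩

lemma choose_t (I ε C : ℝ) (hε : 0 < ε) : ∃ t : ℝ, 0 < t ∧
    ((1 + 2 * t) ^ 2 * (1 + 4 * (C + 1) * t) ^ 2) * (I + ε / 2) ≤ I + ε := by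
  have hc : Continuous fun t : ℝ => ((1 + 2 * t) ^ 2 * (1 + 4 * (C + 1) * t) ^ 2) * (I + ε / 2) := by
    fun_prop
  have h0 : ((1 + 2 * (0:ℝ)) ^ 2 * (1 + 4 * (C + 1) * 0) ^ 2) * (I + ε / 2) < I + ε := by
    norm_num; linarith
  have h1 : ∀ᶠ t : ℝ in nhds 0, ((1 + 2 * t) ^ 2 * (1 + 4 * (C + 1) * t) ^ 2) * (I + ε / 2) < I + ε :=
    (hc.tendsto 0).eventually (gt_mem_nhds h0)
  have h2 : ∀ᶠ t : ℝ in nhdsWithin 0 (Set.Ioi 0), ((1 + 2 * t) ^ 2 * (1 + 4 * (C + 1) * t) ^ 2) * (I + ε / 2) < I + ε ∧ 0 < t :=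
    (Filter.Eventually.filter_mono nhdsWithin_le_nhds h1).and self_mem_nhdsWithin
  obtain ⟨t, ht1, ht2⟩ := h2.exists
  exact ⟨t, ht2, ht1.le⟩

lemma choose_r (D : Set E2) (hD : IsCompact D) (ρ a b δ : ℝ) (hρ : 0 < ρ) (hδ : 0 < δ) :
    ∃ r : ℝ, 0 < r ∧ 2 * r ≤ ρ ∧ a * r ≤ δ ∧ b * r ≤ δ ∧
      (volume (Metric.cthickening (2 * r) D)).toReal ≤ (volume D).toReal + δ := by
  have hlin : ∀ c κ : ℝ, 0 < κ → ∀ᶠ r : ℝ in nhds 0, c * r < κ := by
    intro c κ hκ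
    have : Continuous fun r : ℝ => c * r := by fun_prop
    refine (this.tendsto 0).eventually (gt_mem_nhds ?_)
    simpa using hκ
  have hvol : ∀ᶠ r : ℝ in nhds 0, (volume (Metric.cthickening (2 * r) D)).toReal < (volume D).toReal + δ := by
    have h1 : Filter.Tendsto (fun r : ℝ => (volume (Metric.cthickening r D)).toReal) (nhds 0) (nhds (volume D).toReal) :=
      (ENNReal.tendsto_toReal hD.measure_lt_top.ne).comp (tendsto_measure_cthickening_of_isCompact hD)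
    have h2 : Filter.Tendsto (fun r : ℝ => 2 * r) (nhds 0) (nhds 0) := by
      have : Continuous fun r : ℝ => 2 * r := by fun_prop
      simpa using this.tendsto 0
    exact (h1.comp h2).eventually (gt_mem_nhds (by linarith))
  have hall := ((hlin 2 ρ hρ).and ((hlin a δ hδ).and ((hlin b δ hδ).and hvol)))
  have h2 : ∀ᶠ r : ℝ in nhdsWithin 0 (Set.Ioi 0), (2 * r < ρ ∧ a * r < δ ∧ b * r < δ ∧
      (volume (Metric.cthickening (2 * r) D)).toReal < (volume D).toReal + δ) ∧ 0 < r :=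
    (Filter.Eventually.filter_mono nhdsWithin_le_nhds hall).and self_mem_nhdsWithin
  obtain ⟨r, ⟨h3, h4, h5, h6⟩, h7⟩ := h2.exists
  exact ⟨r, h7, h3.le, h4.le, h5.le, h6.le⟩

theorem main_thm
    (D : Set E2) (hD : IsCompact D)
    (V : E2 → E2) (U : Set E2)
    (hU : IsOpen U) (hDU : D ⊆ U) (hV : ContDiffOn ℝ 1 V U) (L h : ℝ) (hL : 0 < L) (hh : 0 < h)
    (htr : ∀ p ∈ D, LinearMap.trace ℝ _ (fderiv ℝ V p).toLinearMap = 0)
    (hdet : ∀ p ∈ D, -(L ^ 2)⁻¹ < LinearMap.det (fderiv ℝ V p).toLinearMap ∧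
      LinearMap.det (fderiv ℝ V p).toLinearMap ≤ 0)
    (ε : ℝ) (hε : 0 < ε) :
    ∃ (k : ℕ) (c a b g : Fin k → E2),
      (∀ i, a i ≠ 0 ∧ ‖b i‖ = ‖a i‖ ∧ inner ℝ (a i) (b i) = 0) ∧
      {z : ℝ × E2 | ∃ p ∈ D, abs z.1 ≤ L ∧ z.2 = p + z.1 • V p} ⊆
        ⋃ i, {z : ℝ × E2 | ∃ x ∈ Set.Icc (0 : ℝ) 1, ∃ y ∈ Set.Icc (0 : ℝ) 1,
          z.2 = c i + x • a i + y • b i + z.1 • g i} ∧
      ∑ i, ‖a i‖ ^ 2 / Real.sqrt (1 + (g i 0) ^ 2 + h ^ 2 * (g i 1) ^ 2) ≤
        (∫ p in D, 1 / Real.sqrt (1 + (V p 0) ^ 2 + h ^ 2 * (V p 1) ^ 2)) + ε := by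
  classical
  rcases D.eq_empty_or_nonempty with hDe | hDne
  · refine ⟨0, Fin.elim0, Fin.elim0, Fin.elim0, Fin.elim0, fun i => i.elim0, ?_, ?_⟩
    · rintro z ⟨p, hp, _⟩
      rw [hDe] at hp
      exact absurd hp (Set.notMem_empty p)
    · rw [hDe]; simp [hε.le]
  have hfc : ContinuousOn (fderiv ℝ V) D := (hV.continuousOn_fderiv_of_isOpen hU le_rfl).mono hDU
  obtain ⟨B, hB⟩ := hD.exists_bound_of_continuousOn hfc
  have hdetc : ContinuousOn (fun p => 1 + L ^ 2 * LinearMap.det (fderiv ℝ V p).toLinearMap) D := by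
    have : ContinuousOn (fun p => (fderiv ℝ V p).det) D :=
      ContinuousLinearMap.continuous_det.comp_continuousOn hfc
    exact continuousOn_const.add (continuousOn_const.mul this)
  obtain ⟨ps, hps, hmin⟩ := hD.exists_isMinOn hDne hdetc
  set c0 : ℝ := 1 + L ^ 2 * LinearMap.det (fderiv ℝ V ps).toLinearMap with hc0def
  have hc0 : 0 < c0 := by
    have h1 := (hdet ps hps).1
    have h2 : 0 < L ^ 2 := by positivity
    have h3 := mul_lt_mul_of_pos_left h1 h2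
    rw [mul_neg, mul_inv_cancel₀ h2.ne'] at h3
    linarith
  have hB0 : 0 ≤ B := (norm_nonneg _).trans (hB ps hps)
  set C : ℝ := (1 + L * B) / c0 with hC
  have hC0 : 0 ≤ C := by positivity
  set f : E2 → ℝ := fun p => JJ h (V p) with hf
  set I : ℝ := ∫ p in D, f p with hI
  obtain ⟨t, ht, htI⟩ := choose_t I ε C hε
  set τ : ℝ := t ^ 2 / (2 * L) with hτ
  have hτ0 : 0 < τ := by positivity
  obtain ⟨ρ, hρ, hdiff⟩ := unif_diff D hD V U hU hDU hV τ hτ0
  set vD : ℝ := (volume D).toReal with hvD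
  have hvD0 : 0 ≤ vD := ENNReal.toReal_nonneg
  obtain ⟨r, hr, hr1, hr2, hr3, hr4⟩ := choose_r D hD ρ ((1 + h) * (B + τ) * 2 * vD)
    ((1 + h) * B * (2 * (1 + 4 * C * t)) * (vD + ε / 8)) (ε / 8) hρ (by positivity)
  set ω : ℝ := (1 + h) * ((B + τ) * (2 * r)) with hω
  set ω1 : ℝ := (1 + h) * (B * (2 * (r + 4 * C * (t * r)))) with hω1
  have hω0 : 0 ≤ ω := by positivity
  have hω10 : 0 ≤ ω1 := by positivity
  have hVc : ContinuousOn V D := hV.continuousOn.mono hDU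
  have hJc : Continuous (JJ h) := by
    unfold JJ
    refine Continuous.div continuous_const ?_ ?_
    · fun_prop
    · intro g
      have : 0 < 1 + (g 0) ^ 2 + h ^ 2 * (g 1) ^ 2 := by positivity
      positivity
  have hfcont : ContinuousOn f D := hJc.comp_continuousOn hVc
  have hosc : ∀ p ∈ D, ∀ q ∈ D, ‖p - q‖ ≤ 2 * r → |f p - f q| ≤ ω := by
    intro p hp q hq hpq
    refine (JJ_lip h hh _ _).trans ?_
    rw [hω]
    apply mul_le_mul_of_nonneg_left _ (by positivity)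
    have h1 := hdiff q hq p (hpq.trans hr1)
    have h2 : V p - V q = (V p - V q - fderiv ℝ V q (p - q)) + fderiv ℝ V q (p - q) := by abel
    rw [h2]
    refine (norm_add_le _ _).trans ?_
    have h3 : ‖fderiv ℝ V q (p - q)‖ ≤ B * ‖p - q‖ :=
      ((fderiv ℝ V q).le_opNorm _).trans (mul_le_mul_of_nonneg_right (hB q hq) (norm_nonneg _))
    have h4 : (B + τ) * ‖p - q‖ ≤ (B + τ) * (2 * r) := mul_le_mul_of_nonneg_left hpq (by positivity)
    linarith
  obtain ⟨K, c, hcK, hcov, hcard, hsum⟩ := riemann D hD f hfcont (fun p => JJ_nonneg h _)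
    (fun p => JJ_le_one h _) r ω hr hω0 hosc
  have hm : 0 < t * r := by positivity
  have hcell : ∀ k : ℤ × ℤ, ∃ (S : Finset (ℤ × ℤ)) (z : ℤ × ℤ → E2) (b : OrthonormalBasis (Fin 2) ℝ E2),
      k ∈ K → (S.card : ℝ) * (t * r) ^ 2 ≤ (r + 4 * C * (t * r) + 4 * (t * r)) ^ 2 ∧
      (∀ ij ∈ S, ‖z ij - c k‖ ≤ 2 * (r + 4 * C * (t * r))) ∧
      (∀ p ∈ qc r k, L * ‖V p - V (c k) - fderiv ℝ V (c k) (p - c k)‖ ≤ t * (t * r) → ∀ s : ℝ, |s| ≤ L →
        ∃ ij ∈ S, ∃ x ∈ Set.Icc (0 : ℝ) 1, ∃ y ∈ Set.Icc (0 : ℝ) 1,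
          p + s • V p = (z ij - (t * (t * r)) • (b 0 + b 1)) + x • (((1 + 2 * t) * (t * r)) • b 0) +
            y • (((1 + 2 * t) * (t * r)) • b 1) + s • (V (c k) + fderiv ℝ V (c k) (z ij - c k))) := by
    intro k
    by_cases hk : k ∈ K
    · obtain ⟨hkD, hkq⟩ := hcK k hk
      obtain ⟨S, z, b, h1⟩ := cell' V (c k) (fderiv ℝ V (c k)) (htr _ hkD) L B c0 r (t * r) t hL
        (hB _ hkD) hc0 (hdet _ hkD).2 (hmin hkD) hr hm ht.le k hkq
      exact ⟨S, z, b, fun _ => h1⟩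
    · exact ⟨∅, 0, (rot_basis 0).choose, fun h => absurd h hk⟩
  choose S z b hS using hcell
  set T : Finset (Σ _ : ℤ × ℤ, ℤ × ℤ) := K.sigma S with hT
  set e := T.equivFin with he
  set q : ℝ := (1 + 2 * t) * (t * r) with hq
  have hq0 : 0 < q := by positivity
  have hna : ∀ x : Σ _ : ℤ × ℤ, ℤ × ℤ, ‖q • b x.1 0‖ = q := by
    intro x; rw [norm_smul, OrthonormalBasis.norm_eq_one, mul_one, Real.norm_eq_abs, abs_of_pos hq0]
  have hnb : ∀ x : Σ _ : ℤ × ℤ, ℤ × ℤ, ‖q • b x.1 1‖ = q := by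
    intro x; rw [norm_smul, OrthonormalBasis.norm_eq_one, mul_one, Real.norm_eq_abs, abs_of_pos hq0]
  set G : (Σ _ : ℤ × ℤ, ℤ × ℤ) → E2 := fun x => V (c x.1) + fderiv ℝ V (c x.1) (z x.1 x.2 - c x.1) with hG
  refine ⟨T.card,
    fun i => z (e.symm i).1.1 (e.symm i).1.2 - (t * (t * r)) • (b (e.symm i).1.1 0 + b (e.symm i).1.1 1),
    fun i => q • b (e.symm i).1.1 0,
    fun i => q • b (e.symm i).1.1 1,
    fun i => G (e.symm i).1, ?_, ?_, ?_⟩
  · intro i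
    refine ⟨?_, ?_, ?_⟩
    · intro h0
      have h9 := hna (e.symm i).1
      have h0' : q • b (e.symm i).1.1 0 = 0 := h0
      rw [h0', norm_zero] at h9
      linarith
    · rw [hna, hnb]
    · rw [real_inner_smul_left, real_inner_smul_right]
      have := (b (e.symm i).1.1).orthonormal.2 (show (0 : Fin 2) ≠ 1 by decide)
      rw [this]; ring
  · rintro ⟨s, ξ⟩ ⟨p, hpD, hs, hξ⟩
    simp only at hs hξ
    obtain ⟨k, hkK, hpk⟩ := hcov p hpD
    obtain ⟨hkD, hkq⟩ := hcK k hkK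
    obtain ⟨_, _, h3⟩ := hS k hkK
    have hpc : ‖p - c k‖ ≤ 2 * r := qc_diam r k p (c k) hpk hkq
    have herr : L * ‖V p - V (c k) - fderiv ℝ V (c k) (p - c k)‖ ≤ t * (t * r) := by
      have h4 := hdiff (c k) hkD p (hpc.trans hr1)
      have h5 : τ * ‖p - c k‖ ≤ τ * (2 * r) := mul_le_mul_of_nonneg_left hpc hτ0.le
      have h6 : L * (τ * (2 * r)) = t * (t * r) := by rw [hτ]; field_simp
      rw [← h6]
      exact mul_le_mul_of_nonneg_left (h4.trans h5) hL.le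
    obtain ⟨ij, hij, x, hx, y, hy, hxy⟩ := h3 p hpk herr s hs
    have hmem : (⟨k, ij⟩ : Σ _ : ℤ × ℤ, ℤ × ℤ) ∈ T := by
      rw [hT, Finset.mem_sigma]; exact ⟨hkK, hij⟩
    rw [Set.mem_iUnion]
    refine ⟨e ⟨⟨k, ij⟩, hmem⟩, x, hx, y, hy, ?_⟩
    simp only [Equiv.symm_apply_apply, hξ]
    exact hxy
  · have hconv : ∑ i : Fin T.card, ‖q • b (e.symm i).1.1 0‖ ^ 2 /
        Real.sqrt (1 + (G (e.symm i).1 0) ^ 2 + h ^ 2 * (G (e.symm i).1 1) ^ 2) =
        ∑ k ∈ K, ∑ ij ∈ S k, q ^ 2 * JJ h (G ⟨k, ij⟩) := by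
      rw [Finset.sum_sigma' K S (fun k ij => q ^ 2 * JJ h (G ⟨k, ij⟩)), ← hT,
        ← Finset.sum_coe_sort T (fun x => q ^ 2 * JJ h (G ⟨x.1, x.2⟩))]
      rw [← Equiv.sum_comp e.symm]
      apply Finset.sum_congr rfl
      intro i _
      rw [hna, JJ]
      ring
    rw [hconv]
    have hkbound : ∀ k ∈ K, ∑ ij ∈ S k, q ^ 2 * JJ h (G ⟨k, ij⟩) ≤
        ((1 + 2 * t) ^ 2 * (1 + 4 * (C + 1) * t) ^ 2) * (r ^ 2 * f (c k) + r ^ 2 * ω1) := by
      intro k hk
      obtain ⟨hkD, hkq⟩ := hcK k hk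
      obtain ⟨h1, h2, _⟩ := hS k hk
      have h3 : ∀ ij ∈ S k, q ^ 2 * JJ h (G ⟨k, ij⟩) ≤ q ^ 2 * (f (c k) + ω1) := by
        intro ij hij
        apply mul_le_mul_of_nonneg_left _ (by positivity)
        have h4 := JJ_lip h hh (G ⟨k, ij⟩) (V (c k))
        have h5 : G ⟨k, ij⟩ - V (c k) = fderiv ℝ V (c k) (z k ij - c k) := by
          simp only [hG]; abel
        have h6 : ‖fderiv ℝ V (c k) (z k ij - c k)‖ ≤ B * (2 * (r + 4 * C * (t * r))) :=
          ((fderiv ℝ V (c k)).le_opNorm _).trans (mul_le_mul (hB _ hkD) (h2 ij hij) (norm_nonneg _) hB0)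
        rw [h5] at h4
        have h7 := mul_le_mul_of_nonneg_left h6 (show 0 ≤ 1 + h by positivity)
        have h8 := (abs_le.1 (h4.trans h7)).2
        simp only [hf]
        linarith
      have hfnn : 0 ≤ f (c k) + ω1 := add_nonneg (JJ_nonneg h _) hω10
      calc ∑ ij ∈ S k, q ^ 2 * JJ h (G ⟨k, ij⟩) ≤ ∑ ij ∈ S k, q ^ 2 * (f (c k) + ω1) :=
            Finset.sum_le_sum h3
        _ = (1 + 2 * t) ^ 2 * (((S k).card : ℝ) * (t * r) ^ 2) * (f (c k) + ω1) := by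
            rw [Finset.sum_const, nsmul_eq_mul, hq]; ring
        _ ≤ (1 + 2 * t) ^ 2 * ((r + 4 * C * (t * r) + 4 * (t * r)) ^ 2) * (f (c k) + ω1) := by
            apply mul_le_mul_of_nonneg_right _ hfnn
            exact mul_le_mul_of_nonneg_left h1 (by positivity)
        _ = _ := by ring
    have hΦ : 0 ≤ (1 + 2 * t) ^ 2 * (1 + 4 * (C + 1) * t) ^ 2 := by positivity
    calc ∑ k ∈ K, ∑ ij ∈ S k, q ^ 2 * JJ h (G ⟨k, ij⟩)
        ≤ ∑ k ∈ K, ((1 + 2 * t) ^ 2 * (1 + 4 * (C + 1) * t) ^ 2) * (r ^ 2 * f (c k) + r ^ 2 * ω1) :=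
          Finset.sum_le_sum hkbound
      _ = ((1 + 2 * t) ^ 2 * (1 + 4 * (C + 1) * t) ^ 2) *
          (∑ k ∈ K, r ^ 2 * f (c k) + ((K.card : ℝ) * r ^ 2) * ω1) := by
          rw [← Finset.mul_sum, Finset.sum_add_distrib, Finset.sum_const, nsmul_eq_mul]; ring
      _ ≤ ((1 + 2 * t) ^ 2 * (1 + 4 * (C + 1) * t) ^ 2) * (I + ε / 2) := by
          apply mul_le_mul_of_nonneg_left _ hΦ
          have h1 : ((K.card : ℝ) * r ^ 2) * ω1 ≤ (vD + ε / 8) * ω1 :=
            mul_le_mul_of_nonneg_right (hcard.trans hr4) hω10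
          have h2 : (vD + ε / 8) * ω1 ≤ ε / 8 := by
            refine le_trans (le_of_eq ?_) hr3
            rw [hω1]; ring
          have h3 : ω * vD ≤ ε / 8 := by
            refine le_trans (le_of_eq ?_) hr2
            rw [hω]; ring
          linarith
      _ ≤ I + ε := htI
      _ = _ := by rw [hI]; rfl


end Helpers

/-- Let D ⊂ ℝ² be compact, V : ℝ² → ℝ² be C¹ on an open set containing D, and L, h > 0, with tr DV(p) = 0 and −1/L² < det DV(p) ≤ 0 for p ∈ D. Let E ⊂ ℝ × ℝ² be the ruled set of points (s, p + s V(p)), p ∈ D, −L ≤ s ≤ L. For every ε > 0, finitely many squares Tᵢ = cᵢ + [0,1]aᵢ + [0,1]bᵢ (aᵢ ⊥ bᵢ of equal nonzero length) and velocities gᵢ ∈ ℝ² exist whose sheared cylinders {(s, ξ) : ξ ∈ Tᵢ + s gᵢ} cover E, with ∑ᵢ area(Tᵢ) J(gᵢ) ≤ ∫_D J(V(p)) dp + ε, where J(g) = (1 + g₁² + h² g₂²)^(−1/2). -/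
theorem result
    (D : Set (EuclideanSpace ℝ (Fin 2))) (hD : IsCompact D)
    (V : EuclideanSpace ℝ (Fin 2) → EuclideanSpace ℝ (Fin 2)) (U : Set (EuclideanSpace ℝ (Fin 2)))
    (hU : IsOpen U) (hDU : D ⊆ U) (hV : ContDiffOn ℝ 1 V U) (L h : ℝ) (hL : 0 < L) (hh : 0 < h)
    (htr : ∀ p ∈ D, LinearMap.trace ℝ _ (fderiv ℝ V p).toLinearMap = 0)
    (hdet : ∀ p ∈ D, -(L ^ 2)⁻¹ < LinearMap.det (fderiv ℝ V p).toLinearMap ∧
      LinearMap.det (fderiv ℝ V p).toLinearMap ≤ 0)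
    (ε : ℝ) (hε : 0 < ε) :
    ∃ (k : ℕ) (c a b g : Fin k → EuclideanSpace ℝ (Fin 2)),
      (∀ i, a i ≠ 0 ∧ ‖b i‖ = ‖a i‖ ∧ inner ℝ (a i) (b i) = 0) ∧
      {z : ℝ × EuclideanSpace ℝ (Fin 2) | ∃ p ∈ D, abs z.1 ≤ L ∧ z.2 = p + z.1 • V p} ⊆
        ⋃ i, {z : ℝ × EuclideanSpace ℝ (Fin 2) | ∃ x ∈ Set.Icc (0 : ℝ) 1, ∃ y ∈ Set.Icc (0 : ℝ) 1,
          z.2 = c i + x • a i + y • b i + z.1 • g i} ∧
      ∑ i, ‖a i‖ ^ 2 / Real.sqrt (1 + (g i 0) ^ 2 + h ^ 2 * (g i 1) ^ 2) ≤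
        (∫ p in D, 1 / Real.sqrt (1 + (V p 0) ^ 2 + h ^ 2 * (V p 1) ^ 2)) + ε := by
  exact main_thm D hD V U hU hDU hV L h hL hh htr hdet ε hε

end Crest.Agent.S0326
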