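import Crest.Statements.S0328
import Crest.Agent.Lib.TetraArea
import Crest.Agent.Lib.TetraSweep

set_option autoImplicit false
open MeasureTheory
open scoped ENNReal
open Crest Crest.GeometryTopology Crest.GeometryTopology.Convex

namespace Crest.Agent.S0328

open Crest.Agent.Lib.TetraArea Crest.Agent.Lib.TetraSweep

theorem sum_tele (N : ℕ) (F : Fin (N + 1) → ℝ) :
    ∑ i : Fin N, (F i.succ - F i.castSucc) = F (Fin.last N) - F 0 := by
  induction N with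
  | zero => simp
  | succ n ih =>
    rw [Fin.sum_univ_castSucc]
    have h := ih (fun i => F i.castSucc)
    simp only [Fin.succ_castSucc] at h ⊢
    rw [h]
    simp

theorem find_piece {N : ℕ} {t : Fin (N + 1) → ℝ} {α β τ : ℝ} (hαβ : α < β)
    (h0 : t 0 = α) (h1 : t (Fin.last N) = β) (hτ : τ ∈ Set.Icc α β) :
    ∃ i : Fin N, t i.castSucc ≤ τ ∧ τ ≤ t i.succ := by
  by_contra hcon
  push Not at hcon
  have hall : ∀ k : Fin (N + 1), t k ≤ τ := by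
    intro k
    induction k using Fin.induction with
    | zero => rw [h0]; exact hτ.1
    | succ i ih => exact (hcon i ih).le
  cases N with
  | zero =>
    have : (Fin.last 0) = (0 : Fin 1) := rfl
    rw [this, h0] at h1
    linarith
  | succ n =>
    have h2 := hcon (Fin.last n) (hall _)
    rw [Fin.succ_last, h1] at h2
    linarith [hτ.2]

theorem ftc_le (a b : E3) (α β : ℝ) (w : ℝ → E3) (lam : ℝ → ℝ)
    (hlam : ContinuousOn lam (Set.Icc α β))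
    (hw' : ∀ t ∈ Set.Icc α β, HasDerivWithinAt w (lam t • (a + t • b)) (Set.Icc α β) t)
    (c τ : ℝ) (hc : c ∈ Set.Icc α β) (hτ : τ ∈ Set.Icc α β) (hcτ : c ≤ τ) :
    w τ - w c = (∫ t in c..τ, lam t) • a + (∫ t in c..τ, lam t * t) • b := by
  have hsub : Set.Icc c τ ⊆ Set.Icc α β := Set.Icc_subset_Icc hc.1 hτ.2
  have hint1 : IntervalIntegrable lam volume c τ :=
    (hlam.mono (by rw [Set.uIcc_of_le hcτ]; exact hsub)).intervalIntegrable
  have hint2 : IntervalIntegrable (fun t => lam t * t) volume c τ :=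
    ((hlam.mul continuousOn_id).mono (by rw [Set.uIcc_of_le hcτ]; exact hsub)).intervalIntegrable
  have hint3 : IntervalIntegrable (fun t => lam t • a) volume c τ :=
    ((hlam.smul continuousOn_const).mono (by rw [Set.uIcc_of_le hcτ]; exact hsub)).intervalIntegrable
  have hint4 : IntervalIntegrable (fun t => (lam t * t) • b) volume c τ :=
    (((hlam.mul continuousOn_id).smul continuousOn_const).mono
      (by rw [Set.uIcc_of_le hcτ]; exact hsub)).intervalIntegrable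
  have h1 : ∫ t in c..τ, (lam t • (a + t • b)) = w τ - w c := by
    apply intervalIntegral.integral_eq_sub_of_hasDeriv_right_of_le hcτ
    · intro x hx
      exact ((hw' x (hsub hx)).continuousWithinAt).mono hsub
    · intro x hx
      have hx' : x ∈ Set.Ioo α β := ⟨lt_of_le_of_lt hc.1 hx.1, lt_of_lt_of_le hx.2 hτ.2⟩
      have := (hw' x (Set.Ioo_subset_Icc_self hx')).hasDerivAt (Icc_mem_nhds hx'.1 hx'.2)
      exact this.hasDerivWithinAt
    · have h3 : (fun t => lam t • (a + t • b)) = fun t => lam t • a + (lam t * t) • b := by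
        ext1 t; module
      rw [h3]
      exact hint3.add hint4
  rw [← h1]
  have h3 : (fun t => lam t • (a + t • b)) = fun t => lam t • a + (lam t * t) • b := by
    ext1 t; module
  rw [h3, intervalIntegral.integral_add hint3 hint4,
    intervalIntegral.integral_smul_const, intervalIntegral.integral_smul_const]

theorem ftc (a b : E3) (α β : ℝ) (w : ℝ → E3) (lam : ℝ → ℝ)
    (hlam : ContinuousOn lam (Set.Icc α β))
    (hw' : ∀ t ∈ Set.Icc α β, HasDerivWithinAt w (lam t • (a + t • b)) (Set.Icc α β) t)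
    (c τ : ℝ) (hc : c ∈ Set.Icc α β) (hτ : τ ∈ Set.Icc α β) :
    w τ - w c = (∫ t in c..τ, lam t) • a + (∫ t in c..τ, lam t * t) • b := by
  rcases le_total c τ with h | h
  · exact ftc_le a b α β w lam hlam hw' c τ hc hτ h
  · have := ftc_le a b α β w lam hlam hw' τ c hτ hc h
    rw [intervalIntegral.integral_symm τ c, intervalIntegral.integral_symm τ c, ← neg_sub, this]
    module

/-- The increments of `w` in the basis `a, b`, with the bounds needed for the covering. -/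
theorem incr (a b : E3) (α β : ℝ) (w : ℝ → E3) (lam : ℝ → ℝ)
    (hlam : ContinuousOn lam (Set.Icc α β))
    (hw' : ∀ t ∈ Set.Icc α β, HasDerivWithinAt w (lam t • (a + t • b)) (Set.Icc α β) t)
    (K : ℝ) (hK0 : 0 ≤ K) (hK : ∀ t ∈ Set.Icc α β, |lam t| ≤ K)
    (t₀ t₁ c τ : ℝ) (h0 : α ≤ t₀) (h1 : t₁ ≤ β) (hc : c ∈ Set.Icc t₀ t₁)
    (hτ : τ ∈ Set.Icc t₀ t₁) :
    ∃ Λ M : ℝ, w τ = w c + Λ • a + M • b ∧ |Λ| ≤ K * (t₁ - t₀) ∧
      |M - t₀ * Λ| ≤ K * (t₁ - t₀) ^ 2 ∧ |t₁ * Λ - M| ≤ K * (t₁ - t₀) ^ 2 := by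
  have hc' : c ∈ Set.Icc α β := ⟨h0.trans hc.1, hc.2.trans h1⟩
  have hτ' : τ ∈ Set.Icc α β := ⟨h0.trans hτ.1, hτ.2.trans h1⟩
  have hd : 0 ≤ t₁ - t₀ := by linarith [hc.1, hc.2]
  have hcτ : |τ - c| ≤ t₁ - t₀ := by
    rw [abs_le]; constructor <;> linarith [hc.1, hc.2, hτ.1, hτ.2]
  have hsub : Set.uIcc c τ ⊆ Set.Icc t₀ t₁ := Set.uIcc_subset_Icc hc hτ
  have hsub' : Set.uIcc c τ ⊆ Set.Icc α β := Set.uIcc_subset_Icc hc' hτ'
  have hint1 : IntervalIntegrable lam volume c τ := (hlam.mono hsub').intervalIntegrable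
  have hint2 : IntervalIntegrable (fun t => lam t * t) volume c τ :=
    ((hlam.mul continuousOn_id).mono hsub').intervalIntegrable
  refine ⟨∫ t in c..τ, lam t, ∫ t in c..τ, lam t * t, ?_, ?_, ?_, ?_⟩
  · have := ftc a b α β w lam hlam hw' c τ hc' hτ'
    rw [sub_eq_iff_eq_add] at this
    rw [this]; abel
  · have := intervalIntegral.norm_integral_le_of_norm_le_const (a := c) (b := τ) (f := lam) (C := K)
      (fun x hx => hK x (hsub' (Set.uIoc_subset_uIcc hx)))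
    calc _ ≤ K * |τ - c| := this
      _ ≤ _ := mul_le_mul_of_nonneg_left hcτ hK0
  · have h2 : (∫ t in c..τ, lam t * t) - t₀ * ∫ t in c..τ, lam t = ∫ t in c..τ, lam t * (t - t₀) := by
      rw [← intervalIntegral.integral_const_mul, ← intervalIntegral.integral_sub hint2
        (hint1.const_mul t₀)]
      congr 1; ext1 t; ring
    rw [h2]
    have := intervalIntegral.norm_integral_le_of_norm_le_const (a := c) (b := τ)
      (f := fun t => lam t * (t - t₀)) (C := K * (t₁ - t₀)) (fun x hx => by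
        have hx1 := hsub (Set.uIoc_subset_uIcc hx)
        have hx2 := hsub' (Set.uIoc_subset_uIcc hx)
        rw [Real.norm_eq_abs, abs_mul]
        apply mul_le_mul (hK x hx2) _ (abs_nonneg _) hK0
        rw [abs_le]; constructor <;> linarith [hx1.1, hx1.2])
    calc _ ≤ K * (t₁ - t₀) * |τ - c| := this
      _ ≤ K * (t₁ - t₀) * (t₁ - t₀) := mul_le_mul_of_nonneg_left hcτ (by positivity)
      _ = _ := by ring
  · have h2 : t₁ * (∫ t in c..τ, lam t) - (∫ t in c..τ, lam t * t) = ∫ t in c..τ, lam t * (t₁ - t) := by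
      rw [← intervalIntegral.integral_const_mul, ← intervalIntegral.integral_sub
        (hint1.const_mul t₁) hint2]
      congr 1; ext1 t; ring
    rw [h2]
    have := intervalIntegral.norm_integral_le_of_norm_le_const (a := c) (b := τ)
      (f := fun t => lam t * (t₁ - t)) (C := K * (t₁ - t₀)) (fun x hx => by
        have hx1 := hsub (Set.uIoc_subset_uIcc hx)
        have hx2 := hsub' (Set.uIoc_subset_uIcc hx)
        rw [Real.norm_eq_abs, abs_mul]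
        apply mul_le_mul (hK x hx2) _ (abs_nonneg _) hK0
        rw [abs_le]; constructor <;> linarith [hx1.1, hx1.2])
    calc _ ≤ K * (t₁ - t₀) * |τ - c| := this
      _ ≤ K * (t₁ - t₀) * (t₁ - t₀) := mul_le_mul_of_nonneg_left hcτ (by positivity)
      _ = _ := by ring

/-- A point of a sweep piece, modulo the tag direction, lies in the covering triangle. -/
theorem sweep_point (a b p₀ e w₀ : E3) (C t₀ t₁ B L K Λ M ρ τ s R : ℝ) (ht : t₀ < t₁)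
    (hL : 0 ≤ L) (hC : L * K ≤ C) (hC0 : 0 < C)
    (hτ : τ ∈ Set.Icc t₀ t₁) (hρ : 0 ≤ ρ) (hρR : ρ ≤ R) (hs : |s| ≤ L)
    (hΛ : |Λ| ≤ K * (t₁ - t₀)) (hM0 : |M - t₀ * Λ| ≤ K * (t₁ - t₀) ^ 2)
    (hM1 : |t₁ * Λ - M| ≤ K * (t₁ - t₀) ^ 2) (hB : R + C * (t₁ - t₀) ≤ B) :
    ∃ z ∈ convexHull ℝ
      ({vP a b p₀ C t₀ t₁, vQ a b p₀ C t₀ t₁ B, vR a b p₀ C t₀ t₁ B} : Set E3),
      p₀ + ρ • (a + τ • b) + s • (e + (w₀ + Λ • a + M • b)) = z + s • (e + w₀) := by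
  have hd : 0 < t₁ - t₀ := by linarith
  have hCd : 0 < C * (t₁ - t₀) := by positivity
  refine ⟨p₀ + (ρ + s * Λ) • a + (ρ * τ + s * M) • b, ?_, by module⟩
  have key : ∀ x y : ℝ, 0 ≤ y → |x| ≤ K * y → |s * x| ≤ C * y := by
    intro x y hy hx
    rw [abs_mul]
    calc |s| * |x| ≤ L * (K * y) := mul_le_mul hs hx (abs_nonneg _) hL
      _ = (L * K) * y := by ring
      _ ≤ C * y := mul_le_mul_of_nonneg_right hC hy
  have k1 := key Λ (t₁ - t₀) hd.le hΛ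
  have k2 := key (M - t₀ * Λ) ((t₁ - t₀) ^ 2) (by positivity) hM0
  have k3 := key (t₁ * Λ - M) ((t₁ - t₀) ^ 2) (by positivity) hM1
  rw [abs_le] at k1 k2 k3
  apply piece_mem
  · exact ht
  · have : 0 ≤ R := hρ.trans hρR
    nlinarith
  · nlinarith [mul_nonneg hρ (sub_nonneg.mpr hτ.1), k2.1]
  · nlinarith [mul_nonneg hρ (sub_nonneg.mpr hτ.2), k3.1]
  · linarith [k1.2]

theorem up_bound (Rτ Rc Jτ Jc η₁ Rb A : ℝ) (h0 : 0 ≤ Rτ) (h1 : Rτ ≤ Rb) (h2 : |Rc - Rτ| ≤ η₁)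
    (hJ0 : 0 ≤ Jτ) (hJ1 : Jτ ≤ 1) (hJc0 : 0 ≤ Jc) (hJ : |Jc - Jτ| ≤ η₁)
    (hA0 : 0 ≤ A) (hA : A ≤ Rc + 2 * η₁) (hη0 : 0 < η₁) (hη1 : η₁ ≤ 1) :
    A ^ 2 * Jc ≤ Rτ ^ 2 * Jτ + η₁ * (6 * Rb + 9 + (Rb + 3) ^ 2) := by
  rw [abs_le] at h2 hJ
  have hA' : A ≤ Rτ + 3 * η₁ := by linarith [h2.2]
  have hJ' : Jc ≤ Jτ + η₁ := by linarith [hJ.2]
  have e1 : A ^ 2 ≤ (Rτ + 3 * η₁) ^ 2 := pow_le_pow_left₀ hA0 hA' 2
  have e2 : A ^ 2 * Jc ≤ (Rτ + 3 * η₁) ^ 2 * (Jτ + η₁) :=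
    mul_le_mul e1 hJ' hJc0 (by positivity)
  have e3 : (Rτ + 3 * η₁) ^ 2 ≤ (Rb + 3) ^ 2 := pow_le_pow_left₀ (by positivity) (by linarith) 2
  have e4 : (Rτ + 3 * η₁) ^ 2 * Jτ ≤ Rτ ^ 2 * Jτ + η₁ * (6 * Rb + 9) := by
    have : (Rτ + 3 * η₁) ^ 2 = Rτ ^ 2 + (6 * Rτ + 9 * η₁) * η₁ := by ring
    rw [this, add_mul]
    have h3 : (6 * Rτ + 9 * η₁) * η₁ * Jτ ≤ (6 * Rτ + 9 * η₁) * η₁ :=
      mul_le_of_le_one_right (by positivity) hJ1
    have h4 : (6 * Rτ + 9 * η₁) * η₁ ≤ (6 * Rb + 9) * η₁ :=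
      mul_le_mul_of_nonneg_right (by linarith) hη0.le
    linarith
  have e5 : (Rτ + 3 * η₁) ^ 2 * η₁ ≤ (Rb + 3) ^ 2 * η₁ := mul_le_mul_of_nonneg_right e3 hη0.le
  nlinarith

theorem low_bound (Rτ Rm Jτ Jc η₁ Rb : ℝ) (h0 : 0 ≤ Rτ) (h1 : Rτ ≤ Rb) (h2 : Rτ ≤ Rm + 2 * η₁)
    (hm0 : 0 ≤ Rm) (hm1 : Rm ≤ Rτ)
    (hJ0 : 0 ≤ Jτ) (hJ1 : Jτ ≤ 1) (hJ : |Jc - Jτ| ≤ η₁) (hη0 : 0 < η₁) :
    Rτ ^ 2 * Jτ - η₁ * (6 * Rb + 9 + (Rb + 3) ^ 2) ≤ Rm ^ 2 * Jc := by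
  rw [abs_le] at hJ
  have hRb : 0 ≤ Rb := h0.trans h1
  have e1 : Rτ ^ 2 - 4 * η₁ * Rτ ≤ Rm ^ 2 := by
    rcases le_total Rτ (2 * η₁) with h | h
    · nlinarith [sq_nonneg Rm]
    · have : (Rτ - 2 * η₁) ^ 2 ≤ Rm ^ 2 := pow_le_pow_left₀ (by linarith) (by linarith) 2
      nlinarith [sq_nonneg η₁]
  have e2 : Rm ^ 2 * (Jτ - η₁) ≤ Rm ^ 2 * Jc :=
    mul_le_mul_of_nonneg_left (by linarith [hJ.1]) (by positivity)
  have e3 : Rm ^ 2 ≤ Rb ^ 2 := pow_le_pow_left₀ hm0 (by linarith) 2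
  have e4 : (Rτ ^ 2 - 4 * η₁ * Rτ) * Jτ ≤ Rm ^ 2 * Jτ := mul_le_mul_of_nonneg_right e1 hJ0
  have e5 : 4 * η₁ * Rτ * Jτ ≤ 4 * η₁ * Rb := by
    calc 4 * η₁ * Rτ * Jτ ≤ 4 * η₁ * Rτ := mul_le_of_le_one_right (by positivity) hJ1
      _ ≤ _ := mul_le_mul_of_nonneg_left h1 (by positivity)
  have e6 : Rm ^ 2 * η₁ ≤ Rb ^ 2 * η₁ := mul_le_mul_of_nonneg_right e3 hη0.le
  nlinarith [mul_nonneg hη0.le hRb]

set_option maxHeartbeats 2000000 in
/-- The per-piece statement. -/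
theorem piece_lemma (e a b p₀ : E3) (he : ‖e‖ = 1)
    (ha : inner ℝ a e = 0) (hb : inner ℝ b e = 0)
    (hab : LinearIndependent ℝ ![a, b]) (L : ℝ) (hL : 0 < L) (α β : ℝ)
    (R : ℝ → ℝ) (hR : ContinuousOn R (Set.Icc α β)) (hR0 : ∀ t ∈ Set.Icc α β, 0 ≤ R t)
    (w : ℝ → E3) (hw : ∀ t ∈ Set.Icc α β, inner ℝ (w t) e = 0)
    (lam : ℝ → ℝ) (hlam : ContinuousOn lam (Set.Icc α β))
    (hw' : ∀ t ∈ Set.Icc α β, HasDerivWithinAt w (lam t • (a + t • b)) (Set.Icc α β) t)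
    (K : ℝ) (hK0 : 0 ≤ K) (hK : ∀ t ∈ Set.Icc α β, |lam t| ≤ K)
    (Rb : ℝ) (hRb : ∀ t ∈ Set.Icc α β, R t ≤ Rb)
    (η₁ : ℝ) (hη0 : 0 < η₁) (hη1 : η₁ ≤ 1)
    (t₀ t₁ c : ℝ) (h0 : α ≤ t₀) (h1 : t₁ ≤ β) (h01 : t₀ < t₁) (hc : c ∈ Set.Icc t₀ t₁)
    (hRc : ∀ τ ∈ Set.Icc t₀ t₁, |R c - R τ| ≤ η₁)
    (hJc : ∀ τ ∈ Set.Icc t₀ t₁, |(Real.sqrt (1 + ‖w c‖ ^ 2))⁻¹ - (Real.sqrt (1 + ‖w τ‖ ^ 2))⁻¹| ≤ η₁)
    (hδ : 3 * (L * K + 1) * (t₁ - t₀) ≤ η₁) :
    ∃ p q r : E3,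
      (inner ℝ p (e + w c) = 0 ∧ inner ℝ q (e + w c) = 0 ∧ inner ℝ r (e + w c) = 0) ∧
      AffineIndependent ℝ ![p, q, r] ∧
      (∀ τ ∈ Set.Icc t₀ t₁, ∀ ρ ∈ Set.Icc 0 (R τ), ∀ s : ℝ, |s| ≤ L →
        ∃ y ∈ convexHull ℝ ({p, q, r} : Set E3), ∃ σ : ℝ,
          p₀ + ρ • (a + τ • b) + s • (e + w τ) = y + σ • (e + w c)) ∧
      |(μHE[2] (convexHull ℝ ({p, q, r} : Set E3))).toReal -
        pArea a b * ∫ τ in t₀..t₁, R τ ^ 2 / (2 * Real.sqrt (1 + ‖w τ‖ ^ 2))| ≤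
        pArea a b * (t₁ - t₀) * (η₁ * (6 * Rb + 9 + (Rb + 3) ^ 2)) ∧
      |(μHE[2] ((fun y => y - (inner ℝ y (e + w c) / ‖e + w c‖ ^ 2) • (e + w c)) ''
            {x : E3 | ∃ τ ∈ Set.Icc t₀ t₁, ∃ ρ ∈ Set.Icc 0 (R τ),
              ∃ s : ℝ, abs s ≤ L ∧ x = p₀ + ρ • (a + τ • b) + s • (e + w τ)})).toReal -
        pArea a b * ∫ τ in t₀..t₁, R τ ^ 2 / (2 * Real.sqrt (1 + ‖w τ‖ ^ 2))| ≤
        pArea a b * (t₁ - t₀) * (η₁ * (6 * Rb + 9 + (Rb + 3) ^ 2)) := by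
  set C : ℝ := L * K + 1 with hCdef
  have hC0 : 0 < C := by positivity
  have hd : 0 < t₁ - t₀ := by linarith
  have hcαβ : c ∈ Set.Icc α β := ⟨h0.trans hc.1, hc.2.trans h1⟩
  have hwc := hw c hcαβ
  have hsub : Set.Icc t₀ t₁ ⊆ Set.Icc α β := Set.Icc_subset_Icc h0 h1
  have hRc0 : 0 ≤ R c := hR0 c hcαβ
  have hu : e + w c ≠ 0 := e_add_ne_zero e (w c) he hwc
  have hκ0 : 0 < pArea a b :=
    lt_of_le_of_ne (pArea_nonneg a b) (Ne.symm (pArea_ne_zero_of_linearIndependent hab))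
  set B : ℝ := R c + η₁ + C * (t₁ - t₀) with hBdef
  set P := vP a b p₀ C t₀ t₁ with hPdef
  have hm : 0 < B + 2 * C * (t₁ - t₀) := by positivity
  -- containment of sweep points
  have hcont : ∀ τ ∈ Set.Icc t₀ t₁, ∀ ρ ∈ Set.Icc 0 (R τ), ∀ s : ℝ, |s| ≤ L →
      ∃ z ∈ convexHull ℝ ({vP a b p₀ C t₀ t₁, vQ a b p₀ C t₀ t₁ B, vR a b p₀ C t₀ t₁ B} : Set E3),
        p₀ + ρ • (a + τ • b) + s • (e + w τ) = z + s • (e + w c) := by
    intro τ hτ ρ hρ s hs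
    obtain ⟨Λ, M, e1, e2, e3, e4⟩ := incr a b α β w lam hlam hw' K hK0 hK t₀ t₁ c τ h0 h1 hc hτ
    have := sweep_point a b p₀ e (w c) C t₀ t₁ B L K Λ M ρ τ s (R τ) h01 hL.le
      (by rw [hCdef]; linarith) hC0 hτ hρ.1 hρ.2 hs e2 e3 e4 (by
        have := hRc τ hτ
        rw [abs_le] at this
        rw [hBdef]; linarith [this.1])
    rw [e1]
    exact this
  -- the area of the triangle
  set Jc : ℝ := (Real.sqrt (1 + ‖w c‖ ^ 2))⁻¹ with hJcdef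
  set A : ℝ := B + 2 * C * (t₁ - t₀) with hAdef
  have hJc0 : 0 < Jc := by
    rw [hJcdef]
    exact inv_pos.mpr (Real.sqrt_pos.mpr (by positivity))
  have hareaUp : (μHE[2] (convexHull ℝ ({prj (e + w c) (vP a b p₀ C t₀ t₁),
      prj (e + w c) (vQ a b p₀ C t₀ t₁ B), prj (e + w c) (vR a b p₀ C t₀ t₁ B)} : Set E3))).toReal =
      A ^ 2 * (t₁ - t₀) / 2 * (pArea a b * Jc) := by
    have := area_wedge e (w c) a b (vP a b p₀ C t₀ t₁) t₀ t₁ A he hwc ha hb h01.le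
    rw [hJcdef, ← div_eq_mul_inv]
    exact this
  set Rm : ℝ := max (R c - η₁) 0 with hRmdef
  have hareaLow : (μHE[2] (convexHull ℝ ({prj (e + w c) p₀,
      prj (e + w c) (p₀ + Rm • (a + t₀ • b)), prj (e + w c) (p₀ + Rm • (a + t₁ • b))} : Set E3))).toReal =
      Rm ^ 2 * (t₁ - t₀) / 2 * (pArea a b * Jc) := by
    have := area_wedge e (w c) a b p₀ t₀ t₁ Rm he hwc ha hb h01.le
    rw [hJcdef, ← div_eq_mul_inv]
    exact this
  -- integral
  set f : ℝ → ℝ := fun τ => R τ ^ 2 / (2 * Real.sqrt (1 + ‖w τ‖ ^ 2)) with hfdef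
  have hJpos : ∀ τ, 0 < Real.sqrt (1 + ‖w τ‖ ^ 2) := fun τ => Real.sqrt_pos.mpr (by positivity)
  have hJle : ∀ τ, (Real.sqrt (1 + ‖w τ‖ ^ 2))⁻¹ ≤ 1 := by
    intro τ
    apply inv_le_one_of_one_le₀
    rw [Real.one_le_sqrt]
    nlinarith [sq_nonneg ‖w τ‖]
  have hf : ∀ τ, f τ = R τ ^ 2 * (Real.sqrt (1 + ‖w τ‖ ^ 2))⁻¹ / 2 := by
    intro τ
    have := hJpos τ
    rw [hfdef]
    field_simp
  have hwcont : ContinuousOn w (Set.Icc α β) := fun t ht => (hw' t ht).continuousWithinAt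
  have hfcont : ContinuousOn f (Set.Icc t₀ t₁) := by
    apply ContinuousOn.div
    · exact (hR.mono hsub).pow 2
    · apply ContinuousOn.mul continuousOn_const
      apply ContinuousOn.sqrt
      exact continuousOn_const.add ((hwcont.mono hsub).norm.pow 2)
    · intro τ _
      have := hJpos τ
      positivity
  have hfint : IntervalIntegrable f volume t₀ t₁ := by
    apply ContinuousOn.intervalIntegrable
    rw [Set.uIcc_of_le h01.le]
    exact hfcont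
  set K₁ : ℝ := 6 * Rb + 9 + (Rb + 3) ^ 2 with hK₁
  have hRb0 : 0 ≤ Rb := hRc0.trans (hRb c hcαβ)
  have hK₁0 : 0 ≤ K₁ := by positivity
  have hA1 : A ≤ R c + 2 * η₁ := by rw [hAdef, hBdef]; linarith
  have hup : (t₁ - t₀) * (A ^ 2 * Jc / 2) ≤ (∫ τ in t₀..t₁, f τ) + (t₁ - t₀) * (η₁ * K₁ / 2) := by
    have h2 : ∫ τ in t₀..t₁, (A ^ 2 * Jc / 2 - η₁ * K₁ / 2) ≤ ∫ τ in t₀..t₁, f τ := by
      apply intervalIntegral.integral_mono_on h01.le (by simp) hfint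
      intro τ hτ
      have := up_bound (R τ) (R c) (Real.sqrt (1 + ‖w τ‖ ^ 2))⁻¹ Jc η₁ Rb A (hR0 τ (hsub hτ))
        (hRb τ (hsub hτ)) (hRc τ hτ) (inv_nonneg.mpr (Real.sqrt_nonneg _)) (hJle τ) hJc0.le
        (hJc τ hτ) hm.le hA1 hη0 hη1
      rw [hf]
      linarith
    rw [intervalIntegral.integral_const, smul_eq_mul] at h2
    linarith
  have hlow : (∫ τ in t₀..t₁, f τ) - (t₁ - t₀) * (η₁ * K₁ / 2) ≤ (t₁ - t₀) * (Rm ^ 2 * Jc / 2) := by
    have h2 : ∫ τ in t₀..t₁, f τ ≤ ∫ τ in t₀..t₁, (Rm ^ 2 * Jc / 2 + η₁ * K₁ / 2) := by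
      apply intervalIntegral.integral_mono_on h01.le hfint (by simp)
      intro τ hτ
      have hRcτ := hRc τ hτ
      rw [abs_le] at hRcτ
      have hRτ0 := hR0 τ (hsub hτ)
      have := low_bound (R τ) Rm (Real.sqrt (1 + ‖w τ‖ ^ 2))⁻¹ Jc η₁ Rb hRτ0
        (hRb τ (hsub hτ)) (by
          have : R c - η₁ ≤ Rm := le_max_left _ _
          linarith [hRcτ.1]) (le_max_right _ _) (by
          apply max_le _ hRτ0
          linarith [hRcτ.2]) (inv_nonneg.mpr (Real.sqrt_nonneg _)) (hJle τ)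
        (hJc τ hτ) hη0
      rw [hf]
      linarith
    rw [intervalIntegral.integral_const, smul_eq_mul] at h2
    linarith
  have hRmA : Rm ≤ A := by
    apply max_le
    · have : 0 < C * (t₁ - t₀) := by positivity
      rw [hAdef, hBdef]; linarith
    · exact hm.le
  have hRm0 : 0 ≤ Rm := le_max_right _ _
  have hRmA2 : Rm ^ 2 ≤ A ^ 2 := pow_le_pow_left₀ hRm0 hRmA 2
  -- bound for any x between the two areas
  have hbetween : ∀ x : ℝ, Rm ^ 2 * (t₁ - t₀) / 2 * (pArea a b * Jc) ≤ x →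
      x ≤ A ^ 2 * (t₁ - t₀) / 2 * (pArea a b * Jc) →
      |x - pArea a b * ∫ τ in t₀..t₁, f τ| ≤ pArea a b * (t₁ - t₀) * (η₁ * K₁) := by
    intro x hx1 hx2
    have k1 : pArea a b * ((t₁ - t₀) * (A ^ 2 * Jc / 2)) ≤
        pArea a b * ((∫ τ in t₀..t₁, f τ) + (t₁ - t₀) * (η₁ * K₁ / 2)) :=
      mul_le_mul_of_nonneg_left hup hκ0.le
    have k2 : pArea a b * ((∫ τ in t₀..t₁, f τ) - (t₁ - t₀) * (η₁ * K₁ / 2)) ≤
        pArea a b * ((t₁ - t₀) * (Rm ^ 2 * Jc / 2)) :=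
      mul_le_mul_of_nonneg_left hlow hκ0.le
    have k3 : 0 ≤ pArea a b * ((t₁ - t₀) * (η₁ * K₁)) := by positivity
    rw [abs_le]
    constructor <;> linarith
  refine ⟨prj (e + w c) (vP a b p₀ C t₀ t₁), prj (e + w c) (vQ a b p₀ C t₀ t₁ B),
    prj (e + w c) (vR a b p₀ C t₀ t₁ B), ⟨inner_prj_self _ _ hu, inner_prj_self _ _ hu,
    inner_prj_self _ _ hu⟩, ?_, ?_, ?_, ?_⟩
  · apply affineIndependent_of_pArea_ne_zero
    have h2 := hareaUp
    rw [area_triangle_toReal] at h2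
    intro h3
    rw [h3] at h2
    have : 0 < A ^ 2 * (t₁ - t₀) / 2 * (pArea a b * Jc) := by positivity
    linarith
  · intro τ hτ ρ hρ s hs
    obtain ⟨z, hz, hz2⟩ := hcont τ hτ ρ hρ s hs
    refine ⟨prj (e + w c) z, prj_convexHull _ _ _ _ _ hz,
      inner ℝ z (e + w c) / ‖e + w c‖ ^ 2 + s, ?_⟩
    rw [hz2, add_smul, ← add_assoc, ← eq_prj_add]
  · apply hbetween
    · rw [hareaUp]
      apply mul_le_mul_of_nonneg_right _ (by positivity)
      have := mul_le_mul_of_nonneg_right hRmA2 hd.le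
      linarith
    · rw [hareaUp]
  · apply hbetween
    · rw [← hareaLow]
      apply ENNReal.toReal_mono
      · -- finite
        have : (fun y => y - (inner ℝ y (e + w c) / ‖e + w c‖ ^ 2) • (e + w c)) ''
            {x : E3 | ∃ τ ∈ Set.Icc t₀ t₁, ∃ ρ ∈ Set.Icc 0 (R τ),
              ∃ s : ℝ, abs s ≤ L ∧ x = p₀ + ρ • (a + τ • b) + s • (e + w τ)} ⊆
              convexHull ℝ ({prj (e + w c) (vP a b p₀ C t₀ t₁),
              prj (e + w c) (vQ a b p₀ C t₀ t₁ B), prj (e + w c) (vR a b p₀ C t₀ t₁ B)} : Set E3) := by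
          rintro _ ⟨x, ⟨τ, hτ, ρ, hρ, s, hs, rfl⟩, rfl⟩
          obtain ⟨z, hz, hz2⟩ := hcont τ hτ ρ hρ s hs
          have h3 : prj (e + w c) (z + s • (e + w c)) = prj (e + w c) z := by
            rw [prj_add, prj_smul, prj_self _ hu, smul_zero, add_zero]
          have h4 := prj_convexHull (e + w c) _ _ _ _ hz
          rw [← h3] at h4
          rw [hz2]
          exact h4
        exact ne_top_of_le_ne_top (area_wedge_lt_top _ _ _) (measure_mono this)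
      · apply measure_mono
        intro y hy
        obtain ⟨z, hz, rfl⟩ := prj_convexHull' _ _ _ _ _ hy
        rw [mem_convexHull_triple] at hz
        obtain ⟨x1, x2, g0, g1, g2, rfl⟩ := hz
        refine ⟨_, ?_, rfl⟩
        by_cases hz0 : x1 + x2 = 0
        · have g3 : x1 = 0 := by linarith
          have g4 : x2 = 0 := by linarith
          subst g3; subst g4
          refine ⟨t₀, ⟨le_refl _, h01.le⟩, 0, ⟨le_refl _, hR0 t₀ (hsub ⟨le_refl _, h01.le⟩)⟩, 0,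
            by simpa using hL.le, by simp⟩
        · have hpos : 0 < x1 + x2 := lt_of_le_of_ne (by linarith) (Ne.symm hz0)
          have hmem : (x1 * t₀ + x2 * t₁) / (x1 + x2) ∈ Set.Icc t₀ t₁ := by
            constructor
            · rw [le_div_iff₀ hpos]; nlinarith
            · rw [div_le_iff₀ hpos]; nlinarith
          refine ⟨(x1 * t₀ + x2 * t₁) / (x1 + x2), hmem, Rm * (x1 + x2),
            ⟨by positivity, ?_⟩, 0, by simpa using hL.le, ?_⟩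
          · have hRcτ := hRc _ hmem
            rw [abs_le] at hRcτ
            calc Rm * (x1 + x2) ≤ Rm := mul_le_of_le_one_right hRm0 g2
              _ ≤ _ := max_le (by linarith [hRcτ.2]) (hR0 _ (hsub hmem))
          · rw [add_sub_cancel_left, add_sub_cancel_left, zero_smul, add_zero]
            have e7 : (Rm * (x1 + x2)) • (a + ((x1 * t₀ + x2 * t₁) / (x1 + x2)) • b) =
              (Rm * (x1 + x2)) • a + (Rm * ((x1 + x2) * ((x1 * t₀ + x2 * t₁) / (x1 + x2)))) • b := by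
              module
            rw [e7, mul_div_cancel₀ _ hz0]
            module
    · rw [← hareaUp]
      apply ENNReal.toReal_mono (area_wedge_lt_top _ _ _)
      apply measure_mono
      rintro _ ⟨x, ⟨τ, hτ, ρ, hρ, s, hs, rfl⟩, rfl⟩
      obtain ⟨z, hz, hz2⟩ := hcont τ hτ ρ hρ s hs
      have h3 : prj (e + w c) (z + s • (e + w c)) = prj (e + w c) z := by
        rw [prj_add, prj_smul, prj_self _ hu, smul_zero, add_zero]
      have h4 := prj_convexHull (e + w c) _ _ _ _ hz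
      rw [← h3] at h4
      rw [hz2]
      exact h4

set_option maxHeartbeats 2000000 in
/-- Unit e; a, b, p₀ ∈ e^⊥, a, b independent; α < β; L > 0; R ≥ 0, λ both continuous on [α, β]; w(t) ∈ e^⊥, w′ = λ(t)(a + tb). S = {p₀ + ρ(a + t b) + s(e + w t) : α ≤ t ≤ β, 0 ≤ ρ ≤ R t, ‖s‖ ≤ L}; A = κ ∫_α^β R²/(2√(1 + ‖w‖²)), κ = area spanned by a, b. For η > 0 a δ > 0 makes each partition t₀ < … < t_N of [α, β] of mesh ≤ δ, tags cᵢ, admit N cylinders (axes e + w(cᵢ), nondegenerate triangle bases) covering S, total area within η of A; same for S's pieces tᵢ ≤ t ≤ tᵢ₊₁ projected along these axes. -/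
theorem result
    (e a b p₀ : EuclideanSpace ℝ (Fin 3)) (he : ‖e‖ = 1)
    (ha : inner ℝ a e = 0) (hb : inner ℝ b e = 0) (hp₀ : inner ℝ p₀ e = 0)
    (hab : LinearIndependent ℝ ![a, b]) (L : ℝ) (hL : 0 < L) (α β : ℝ) (hαβ : α < β)
    (R : ℝ → ℝ) (hR : ContinuousOn R (Set.Icc α β)) (hR0 : ∀ t ∈ Set.Icc α β, 0 ≤ R t)
    (w : ℝ → EuclideanSpace ℝ (Fin 3)) (hw : ∀ t ∈ Set.Icc α β, inner ℝ (w t) e = 0)
    (lam : ℝ → ℝ) (hlam : ContinuousOn lam (Set.Icc α β))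
    (hw' : ∀ t ∈ Set.Icc α β, HasDerivWithinAt w (lam t • (a + t • b)) (Set.Icc α β) t)
    (η : ℝ) (hη : 0 < η) :
    ∃ δ : ℝ, 0 < δ ∧ ∀ (N : ℕ) (t : Fin (N + 1) → ℝ) (c : Fin N → ℝ),
      StrictMono t → t 0 = α → t (Fin.last N) = β →
      (∀ i : Fin N, t i.succ - t i.castSucc ≤ δ) →
      (∀ i : Fin N, t i.castSucc ≤ c i ∧ c i ≤ t i.succ) →
      (∃ (p q r : Fin N → EuclideanSpace ℝ (Fin 3)),
        (∀ i, inner ℝ (p i) (e + w (c i)) = 0 ∧ inner ℝ (q i) (e + w (c i)) = 0 ∧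
          inner ℝ (r i) (e + w (c i)) = 0) ∧
        (∀ i, AffineIndependent ℝ ![p i, q i, r i]) ∧
        {x : EuclideanSpace ℝ (Fin 3) | ∃ τ ∈ Set.Icc α β, ∃ ρ ∈ Set.Icc 0 (R τ), ∃ s : ℝ, abs s ≤ L ∧
            x = p₀ + ρ • (a + τ • b) + s • (e + w τ)} ⊆
          ⋃ i, {x : EuclideanSpace ℝ (Fin 3) | ∃ y ∈ convexHull ℝ {p i, q i, r i}, ∃ σ : ℝ,
            x = y + σ • (e + w (c i))} ∧
        abs ((∑ i, (μHE[2] (convexHull ℝ ({p i, q i, r i} : Set (EuclideanSpace ℝ (Fin 3))))).toReal) -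
            Real.sqrt (‖a‖ ^ 2 * ‖b‖ ^ 2 - inner ℝ a b ^ 2) *
              ∫ τ in α..β, R τ ^ 2 / (2 * Real.sqrt (1 + ‖w τ‖ ^ 2))) ≤ η) ∧
      abs ((∑ i : Fin N, (μHE[2] ((fun y => y - (inner ℝ y (e + w (c i)) / ‖e + w (c i)‖ ^ 2) • (e + w (c i))) ''
            {x : EuclideanSpace ℝ (Fin 3) | ∃ τ ∈ Set.Icc (t i.castSucc) (t i.succ), ∃ ρ ∈ Set.Icc 0 (R τ),
              ∃ s : ℝ, abs s ≤ L ∧ x = p₀ + ρ • (a + τ • b) + s • (e + w τ)})).toReal) -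
          Real.sqrt (‖a‖ ^ 2 * ‖b‖ ^ 2 - inner ℝ a b ^ 2) *
            ∫ τ in α..β, R τ ^ 2 / (2 * Real.sqrt (1 + ‖w τ‖ ^ 2))) ≤ η := by
  have hκ : Real.sqrt (‖a‖ ^ 2 * ‖b‖ ^ 2 - inner ℝ a b ^ 2) = pArea a b := rfl
  simp only [hκ]
  obtain ⟨K, hK0, hK⟩ : ∃ K : ℝ, 0 ≤ K ∧ ∀ t ∈ Set.Icc α β, |lam t| ≤ K := by
    obtain ⟨K, hK⟩ := isCompact_Icc.exists_bound_of_continuousOn hlam
    exact ⟨max K 0, le_max_right _ _, fun t ht => (hK t ht).trans (le_max_left _ _)⟩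
  obtain ⟨Rb, hRb⟩ : ∃ Rb : ℝ, ∀ t ∈ Set.Icc α β, R t ≤ Rb := by
    obtain ⟨K, hK⟩ := isCompact_Icc.exists_bound_of_continuousOn hR
    exact ⟨K, fun t ht => (le_abs_self _).trans (hK t ht)⟩
  have hRb0 : 0 ≤ Rb := (hR0 α ⟨le_refl _, hαβ.le⟩).trans (hRb α ⟨le_refl _, hαβ.le⟩)
  have hwcont : ContinuousOn w (Set.Icc α β) := fun t ht => (hw' t ht).continuousWithinAt
  set J : ℝ → ℝ := fun τ => (Real.sqrt (1 + ‖w τ‖ ^ 2))⁻¹ with hJdef
  have hJcont : ContinuousOn J (Set.Icc α β) := by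
    apply ContinuousOn.inv₀
    · apply ContinuousOn.sqrt
      exact continuousOn_const.add (hwcont.norm.pow 2)
    · intro τ _
      have : 0 < Real.sqrt (1 + ‖w τ‖ ^ 2) := Real.sqrt_pos.mpr (by positivity)
      exact this.ne'
  have hκ0 : 0 ≤ pArea a b := pArea_nonneg a b
  set K₁ : ℝ := 6 * Rb + 9 + (Rb + 3) ^ 2 with hK₁
  have hK₁0 : 0 ≤ K₁ := by positivity
  set D : ℝ := pArea a b * (β - α) * K₁ + 1 with hD
  have hba : 0 < β - α := by linarith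
  have hD0 : 0 < D := by positivity
  set η₁ : ℝ := min 1 (η / D) with hη₁
  have hη₁0 : 0 < η₁ := lt_min one_pos (by positivity)
  have hη₁1 : η₁ ≤ 1 := min_le_left _ _
  have hη₁D : pArea a b * (β - α) * (η₁ * K₁) ≤ η := by
    have h1 : η₁ ≤ η / D := min_le_right _ _
    have h2 : η₁ * D ≤ η := by rwa [le_div_iff₀ hD0] at h1
    have h3 : η₁ * D = pArea a b * (β - α) * (η₁ * K₁) + η₁ := by rw [hD]; ring
    linarith
  have hRu := isCompact_Icc.uniformContinuousOn_of_continuous hR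
  have hJu := isCompact_Icc.uniformContinuousOn_of_continuous hJcont
  rw [Metric.uniformContinuousOn_iff] at hRu hJu
  obtain ⟨δ₁, hδ₁, hRδ⟩ := hRu η₁ hη₁0
  obtain ⟨δ₂, hδ₂, hJδ⟩ := hJu η₁ hη₁0
  refine ⟨min (min (δ₁ / 2) (δ₂ / 2)) (η₁ / (3 * (L * K + 1))), by positivity, ?_⟩
  intro N t c hmono ht0 ht1 hmesh htag
  have hαt : ∀ i, α ≤ t i := fun i => by rw [← ht0]; exact hmono.monotone (Fin.zero_le _)
  have htβ : ∀ i, t i ≤ β := fun i => by rw [← ht1]; exact hmono.monotone (Fin.le_last _)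
  have hlt : ∀ i : Fin N, t i.castSucc < t i.succ := fun i => hmono Fin.castSucc_lt_succ
  have key : ∀ i : Fin N, ∃ p q r : E3,
      (inner ℝ p (e + w (c i)) = 0 ∧ inner ℝ q (e + w (c i)) = 0 ∧ inner ℝ r (e + w (c i)) = 0) ∧
      AffineIndependent ℝ ![p, q, r] ∧
      (∀ τ ∈ Set.Icc (t i.castSucc) (t i.succ), ∀ ρ ∈ Set.Icc 0 (R τ), ∀ s : ℝ, |s| ≤ L →
        ∃ y ∈ convexHull ℝ ({p, q, r} : Set E3), ∃ σ : ℝ,
          p₀ + ρ • (a + τ • b) + s • (e + w τ) = y + σ • (e + w (c i))) ∧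
      |(μHE[2] (convexHull ℝ ({p, q, r} : Set E3))).toReal -
        pArea a b * ∫ τ in (t i.castSucc)..(t i.succ), R τ ^ 2 / (2 * Real.sqrt (1 + ‖w τ‖ ^ 2))| ≤
        pArea a b * (t i.succ - t i.castSucc) * (η₁ * K₁) ∧
      |(μHE[2] ((fun y => y - (inner ℝ y (e + w (c i)) / ‖e + w (c i)‖ ^ 2) • (e + w (c i))) ''
            {x : E3 | ∃ τ ∈ Set.Icc (t i.castSucc) (t i.succ), ∃ ρ ∈ Set.Icc 0 (R τ),
              ∃ s : ℝ, abs s ≤ L ∧ x = p₀ + ρ • (a + τ • b) + s • (e + w τ)})).toReal -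
        pArea a b * ∫ τ in (t i.castSucc)..(t i.succ), R τ ^ 2 / (2 * Real.sqrt (1 + ‖w τ‖ ^ 2))| ≤
        pArea a b * (t i.succ - t i.castSucc) * (η₁ * K₁) := by
    intro i
    have hm := hmesh i
    have hm1 : t i.succ - t i.castSucc ≤ δ₁ / 2 :=
      hm.trans ((min_le_left _ _).trans (min_le_left _ _))
    have hm2 : t i.succ - t i.castSucc ≤ δ₂ / 2 :=
      hm.trans ((min_le_left _ _).trans (min_le_right _ _))
    have hm3 : t i.succ - t i.castSucc ≤ η₁ / (3 * (L * K + 1)) := hm.trans (min_le_right _ _)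
    have hsub : Set.Icc (t i.castSucc) (t i.succ) ⊆ Set.Icc α β :=
      Set.Icc_subset_Icc (hαt _) (htβ _)
    have hdist : ∀ τ ∈ Set.Icc (t i.castSucc) (t i.succ), |c i - τ| ≤ t i.succ - t i.castSucc := by
      intro τ hτ
      rw [abs_le]
      constructor <;> linarith [(htag i).1, (htag i).2, hτ.1, hτ.2]
    apply piece_lemma e a b p₀ he ha hb hab L hL α β R hR hR0 w hw lam hlam hw' K hK0 hK Rb hRb
      η₁ hη₁0 hη₁1 (t i.castSucc) (t i.succ) (c i) (hαt _) (htβ _) (hlt i) (htag i)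
    · intro τ hτ
      have := hRδ (c i) (hsub (htag i)) τ (hsub hτ) (by
        rw [Real.dist_eq]
        linarith [hdist τ hτ])
      rw [Real.dist_eq] at this
      exact this.le
    · intro τ hτ
      have := hJδ (c i) (hsub (htag i)) τ (hsub hτ) (by
        rw [Real.dist_eq]
        linarith [hdist τ hτ])
      rw [Real.dist_eq] at this
      exact this.le
    · have h3 : 0 < 3 * (L * K + 1) := by positivity
      rw [le_div_iff₀ h3] at hm3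
      linarith
  choose p q r hpqr haff hcov harea hproj using key
  have hfcont : ContinuousOn (fun τ => R τ ^ 2 / (2 * Real.sqrt (1 + ‖w τ‖ ^ 2))) (Set.Icc α β) := by
    apply ContinuousOn.div
    · exact hR.pow 2
    · apply ContinuousOn.mul continuousOn_const
      apply ContinuousOn.sqrt
      exact continuousOn_const.add (hwcont.norm.pow 2)
    · intro τ _
      have : 0 < Real.sqrt (1 + ‖w τ‖ ^ 2) := Real.sqrt_pos.mpr (by positivity)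
      positivity
  have hfint : ∀ x ∈ Set.Icc α β, ∀ y ∈ Set.Icc α β, IntervalIntegrable
      (fun τ => R τ ^ 2 / (2 * Real.sqrt (1 + ‖w τ‖ ^ 2))) volume x y := fun x hx y hy =>
    (hfcont.mono (Set.uIcc_subset_Icc hx hy)).intervalIntegrable
  have hαmem : α ∈ Set.Icc α β := ⟨le_refl _, hαβ.le⟩
  have hsumI : ∑ i : Fin N, (∫ τ in (t i.castSucc)..(t i.succ),
      R τ ^ 2 / (2 * Real.sqrt (1 + ‖w τ‖ ^ 2))) =
      ∫ τ in α..β, R τ ^ 2 / (2 * Real.sqrt (1 + ‖w τ‖ ^ 2)) := by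
    have h := sum_tele N (fun i => ∫ τ in α..(t i), R τ ^ 2 / (2 * Real.sqrt (1 + ‖w τ‖ ^ 2)))
    simp only [ht0, ht1, intervalIntegral.integral_same, sub_zero] at h
    rw [← h]
    apply Finset.sum_congr rfl
    intro i _
    rw [intervalIntegral.integral_interval_sub_left]
    · exact hfint _ hαmem _ ⟨hαt _, htβ _⟩
    · exact hfint _ hαmem _ ⟨hαt _, htβ _⟩
  have hsumδ : ∑ i : Fin N, (t i.succ - t i.castSucc) = β - α := by
    rw [sum_tele, ht0, ht1]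
  have hfinal : ∀ x : Fin N → ℝ, (∀ i, |x i - pArea a b * ∫ τ in (t i.castSucc)..(t i.succ),
      R τ ^ 2 / (2 * Real.sqrt (1 + ‖w τ‖ ^ 2))| ≤
        pArea a b * (t i.succ - t i.castSucc) * (η₁ * K₁)) →
      |(∑ i, x i) - pArea a b * ∫ τ in α..β, R τ ^ 2 / (2 * Real.sqrt (1 + ‖w τ‖ ^ 2))| ≤ η := by
    intro x hx
    rw [← hsumI, Finset.mul_sum, ← Finset.sum_sub_distrib]
    calc _ ≤ ∑ i, |x i - pArea a b * ∫ τ in (t i.castSucc)..(t i.succ),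
              R τ ^ 2 / (2 * Real.sqrt (1 + ‖w τ‖ ^ 2))| := Finset.abs_sum_le_sum_abs _ _
      _ ≤ ∑ i : Fin N, pArea a b * (t i.succ - t i.castSucc) * (η₁ * K₁) :=
          Finset.sum_le_sum (fun i _ => hx i)
      _ = pArea a b * (β - α) * (η₁ * K₁) := by
          rw [← hsumδ, Finset.mul_sum, Finset.sum_mul]
      _ ≤ η := hη₁D
  refine ⟨⟨p, q, r, hpqr, haff, ?_, hfinal _ harea⟩, hfinal _ hproj⟩
  rintro x ⟨τ, hτ, ρ, hρ, s, hs, rfl⟩
  obtain ⟨i, hi1, hi2⟩ := find_piece hαβ ht0 ht1 hτ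
  rw [Set.mem_iUnion]
  exact ⟨i, hcov i τ ⟨hi1, hi2⟩ ρ hρ s hs⟩

end Crest.Agent.S0328
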