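import Crest.Statements.S0329
import Crest.Agent.S0326
import Crest.Agent.Lib.MuHE2

set_option autoImplicit false
open MeasureTheory
open scoped ENNReal

namespace Crest.Agent.S0329

open Crest.Agent.Lib.MuHE2

local notation "E3" => EuclideanSpace ℝ (Fin 3)

/-- the un-normalised direction -/
noncomputable def dir (h : ℝ) (g : E2) : E3 := !₂[1, g 0, h * g 1]

noncomputable def nrm (h : ℝ) (g : E2) : ℝ := Real.sqrt (1 + (g 0) ^ 2 + h ^ 2 * (g 1) ^ 2)

lemma nrm_pos (h : ℝ) (g : E2) : 0 < nrm h g := by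
  unfold nrm; apply Real.sqrt_pos.mpr; positivity

lemma nrm_sq (h : ℝ) (g : E2) : nrm h g ^ 2 = 1 + (g 0) ^ 2 + h ^ 2 * (g 1) ^ 2 := by
  unfold nrm; apply Real.sq_sqrt; positivity

noncomputable def udir (h : ℝ) (g : E2) : E3 := (nrm h g)⁻¹ • dir h g

lemma udir_norm (h : ℝ) (g : E2) : ‖udir h g‖ = 1 := by
  have h1 : ‖dir h g‖ = nrm h g := by
    rw [EuclideanSpace.norm_eq, nrm]
    congr 1
    simp [Fin.sum_univ_three, dir]
    ring
  rw [udir, norm_smul, h1, norm_inv, Real.norm_of_nonneg (nrm_pos h g).le,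
    inv_mul_cancel₀ (nrm_pos h g).ne']

/-- the map `π : ℝ³ → ℝ²` along the direction onto the plane `x₀ = 0` -/
noncomputable def pr (h : ℝ) (g : E2) (x : E3) : E2 := !₂[x 1 - x 0 * g 0, (x 2 - x 0 * (h * g 1)) / h]

lemma pr_cont (h : ℝ) (g : E2) : Continuous (pr h g) := by
  unfold pr
  fun_prop

noncomputable def lift (h : ℝ) (ξ : E2) : E3 := !₂[0, ξ 0, h * ξ 1]

noncomputable def proj (u : E3) (y : E3) : E3 := y - (inner ℝ y u) • u

lemma proj_inner (u y : E3) (hu : ‖u‖ = 1) : inner ℝ (proj u y) u = 0 := by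
  unfold proj
  rw [inner_sub_left, inner_smul_left, real_inner_self_eq_norm_sq, hu]
  simp

/-- area of projected vectors -/
lemma area_proj (h : ℝ) (hh : 0 < h) (g a b : E2) (hab : inner ℝ a b = 0) (hn : ‖b‖ = ‖a‖) :
    area (proj (udir h g) (lift h a)) (proj (udir h g) (lift h b)) = h * (‖a‖ ^ 2 / nrm h g) := by
  have hN := nrm_pos h g
  have hN2 := nrm_sq h g
  have key : area (proj (udir h g) (lift h a)) (proj (udir h g) (lift h b)) ^ 2
      = (h * (‖a‖ ^ 2 / nrm h g)) ^ 2 := by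
    rw [area_sq]
    have hinner : a 0 * b 0 + a 1 * b 1 = 0 := by
      have := hab
      rw [PiLp.inner_apply] at this
      simp at this
      linarith
    have ha2 : ‖a‖ ^ 2 = a 0 ^ 2 + a 1 ^ 2 := by
      rw [EuclideanSpace.norm_sq_eq]; simp
    have hb2 : b 0 ^ 2 + b 1 ^ 2 = a 0 ^ 2 + a 1 ^ 2 := by
      rw [← ha2, ← hn, EuclideanSpace.norm_sq_eq]; simp
    have hdet : (a 0 * b 1 - a 1 * b 0) ^ 2 = (‖a‖ ^ 2) ^ 2 := by
      rw [ha2]
      have : (a 0 * b 1 - a 1 * b 0) ^ 2 = (a 0 ^ 2 + a 1 ^ 2) * (b 0 ^ 2 + b 1 ^ 2) - (a 0 * b 0 + a 1 * b 1) ^ 2 := by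
        ring
      rw [this, hinner, hb2]; ring
    set N := nrm h g with hNdef
    have e1 : ∀ ξ : E2, inner ℝ (lift h ξ) (udir h g) = N⁻¹ * (ξ 0 * g 0 + h ^ 2 * ξ 1 * g 1) := by
      intro ξ
      rw [PiLp.inner_apply]
      simp [Fin.sum_univ_three, lift, udir, dir]
      ring
    have e2 : ∀ ξ η : E2, inner ℝ (proj (udir h g) (lift h ξ)) (proj (udir h g) (lift h η)) =
        (ξ 0 * η 0 + h ^ 2 * ξ 1 * η 1) - N⁻¹ ^ 2 * (ξ 0 * g 0 + h ^ 2 * ξ 1 * g 1) * (η 0 * g 0 + h ^ 2 * η 1 * g 1) := by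
      intro ξ η
      have e3 : inner ℝ (proj (udir h g) (lift h ξ)) (proj (udir h g) (lift h η)) =
        inner ℝ (lift h ξ) (lift h η) - inner ℝ (lift h ξ) (udir h g) * inner ℝ (lift h η) (udir h g) := by
        unfold proj
        rw [inner_sub_left, inner_sub_right, inner_sub_right, inner_smul_left, inner_smul_right, inner_smul_right,
          inner_smul_left, real_inner_self_eq_norm_sq (udir h g), udir_norm]
        rw [real_inner_comm (lift h η) (udir h g)]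
        simp only [conj_trivial]
        ring
      rw [e3, e1, e1]
      have : inner ℝ (lift h ξ) (lift h η) = ξ 0 * η 0 + h ^ 2 * ξ 1 * η 1 := by
        rw [PiLp.inner_apply]
        simp [Fin.sum_univ_three, lift]
        ring
      rw [this]; ring
    rw [← real_inner_self_eq_norm_sq, ← real_inner_self_eq_norm_sq, e2, e2, e2]
    have hNi : N⁻¹ ^ 2 * (1 + (g 0) ^ 2 + h ^ 2 * (g 1) ^ 2) = 1 := by
      rw [← hN2]; field_simp
    have hg0 : N⁻¹ ^ 2 * ((g 0) ^ 2 + h ^ 2 * (g 1) ^ 2) = 1 - N⁻¹ ^ 2 := by linarith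
    have : (h * (‖a‖ ^ 2 / N)) ^ 2 = h ^ 2 * (a 0 * b 1 - a 1 * b 0) ^ 2 * N⁻¹ ^ 2 := by
      rw [hdet]; field_simp
    rw [this]
    set w := N⁻¹ ^ 2
    linear_combination (-(h ^ 2) * (a 0 * b 1 - a 1 * b 0) ^ 2) * hg0
  exact (pow_left_inj₀ (area_nonneg _ _) (by positivity) two_ne_zero).mp key

/-- the relatively open base -/
def base (h : ℝ) (g c a b : E2) (θ : ℝ) : Set E3 :=
  {x | ∃ s ∈ Set.Ioo (-θ) (1 + θ), ∃ t ∈ Set.Ioo (-θ) (1 + θ), pr h g x = c + s • a + t • b} ∩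
    {x | inner ℝ x (udir h g) = 0}

lemma pr_add (h : ℝ) (g : E2) (x y : E3) : pr h g (x + y) = pr h g x + pr h g y := by
  ext i; fin_cases i <;> simp [pr] <;> ring

lemma pr_smul (h : ℝ) (g : E2) (c : ℝ) (x : E3) : pr h g (c • x) = c • pr h g x := by
  ext i; fin_cases i <;> simp [pr] <;> ring

lemma pr_udir (h : ℝ) (hh : 0 < h) (g : E2) : pr h g (udir h g) = 0 := by
  rw [udir, pr_smul]
  have : pr h g (dir h g) = 0 := by
    ext i; fin_cases i <;> simp [pr, dir]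
  rw [this, smul_zero]

lemma pr_lift (h : ℝ) (hh : 0 < h) (g ξ : E2) : pr h g (lift h ξ) = ξ := by
  ext i; fin_cases i <;> simp [pr, lift]
  field_simp

lemma pr_proj (h : ℝ) (hh : 0 < h) (g : E2) (y : E3) : pr h g (proj (udir h g) y) = pr h g y := by
  have : proj (udir h g) y = y + (-(inner ℝ y (udir h g))) • udir h g := by
    unfold proj; rw [neg_smul]; abel
  rw [this, pr_add, pr_smul, pr_udir h hh, smul_zero, add_zero]

lemma lift_add (h : ℝ) (x y : E2) : lift h (x + y) = lift h x + lift h y := by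
  ext i; fin_cases i <;> simp [lift] <;> ring

lemma lift_smul (h : ℝ) (c : ℝ) (x : E2) : lift h (c • x) = c • lift h x := by
  ext i; fin_cases i <;> simp [lift] <;> ring

lemma proj_add (u x y : E3) : proj u (x + y) = proj u x + proj u y := by
  unfold proj; rw [inner_add_left, add_smul]; abel

lemma proj_smul (u : E3) (c : ℝ) (x : E3) : proj u (c • x) = c • proj u x := by
  unfold proj; rw [inner_smul_left, smul_sub, smul_smul]; simp

lemma eq_lift_pr (h : ℝ) (hh : 0 < h) (g : E2) (x : E3) :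
    x = lift h (pr h g x) + (x 0 * nrm h g) • udir h g := by
  have hN := (nrm_pos h g).ne'
  rw [udir, smul_smul, mul_assoc, mul_inv_cancel₀ hN, mul_one]
  ext i; fin_cases i <;> simp [pr, lift, dir]
  field_simp
  ring

lemma proj_of_orth (u x : E3) (hx : inner ℝ x u = 0) : proj u x = x := by
  unfold proj; rw [hx]; simp

lemma proj_self (u : E3) (hu : ‖u‖ = 1) : proj u u = 0 := by
  unfold proj; rw [real_inner_self_eq_norm_sq, hu]; simp

lemma base_eq (h : ℝ) (hh : 0 < h) (g c a b : E2) (θ : ℝ) :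
    base h g c a b θ = {x : E3 | ∃ s t : ℝ, (s, t) ∈ (Set.Ioo (-θ) (1 + θ) ×ˢ Set.Ioo (-θ) (1 + θ)) ∧
      x = proj (udir h g) (lift h c) + s • proj (udir h g) (lift h a) + t • proj (udir h g) (lift h b)} := by
  ext x
  simp only [base, Set.mem_inter_iff, Set.mem_ofPred_eq, Set.mem_prod]
  constructor
  · rintro ⟨⟨s, hs, t, ht, hpr⟩, hx⟩
    refine ⟨s, t, ⟨hs, ht⟩, ?_⟩
    have h1 := eq_lift_pr h hh g x
    have h2 : proj (udir h g) x = x := proj_of_orth _ _ hx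
    rw [← h2]
    conv_lhs => rw [h1]
    rw [proj_add, proj_smul _ (x 0 * nrm h g), proj_self _ (udir_norm h g), smul_zero, add_zero, hpr, lift_add, lift_add,
      lift_smul, lift_smul, proj_add, proj_add, proj_smul, proj_smul]
  · rintro ⟨s, t, ⟨hs, ht⟩, rfl⟩
    refine ⟨⟨s, hs, t, ht, ?_⟩, ?_⟩
    · rw [pr_add, pr_add, pr_smul, pr_smul, pr_proj h hh, pr_proj h hh, pr_proj h hh, pr_lift h hh,
        pr_lift h hh, pr_lift h hh]
    · rw [inner_add_left, inner_add_left, inner_smul_left, inner_smul_left,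
        proj_inner _ _ (udir_norm h g), proj_inner _ _ (udir_norm h g), proj_inner _ _ (udir_norm h g)]
      simp

lemma base_measure (h : ℝ) (hh : 0 < h) (g c a b : E2) (θ : ℝ) (hθ : 0 < θ)
    (hab : inner ℝ a b = 0) (hn : ‖b‖ = ‖a‖) :
    (μHE[2] (base h g c a b θ)).toReal = (1 + 2 * θ) ^ 2 * (h * (‖a‖ ^ 2 / nrm h g)) := by
  rw [base_eq h hh, muHE2_prod_image, area_proj h hh g a b hab hn, Measure.volume_eq_prod,
    Measure.prod_prod, Real.volume_Ioo, ENNReal.toReal_mul, ENNReal.toReal_mul,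
    ENNReal.toReal_ofReal, ENNReal.toReal_ofReal]
  · ring
  · linarith
  · have := nrm_pos h g; positivity

lemma base_bounded (h : ℝ) (hh : 0 < h) (g c a b : E2) (θ : ℝ) :
    Bornology.IsBounded (base h g c a b θ) := by
  rw [base_eq h hh]
  have hcomp : IsCompact (Set.Icc (-θ) (1 + θ) ×ˢ Set.Icc (-θ) (1 + θ)) := isCompact_Icc.prod isCompact_Icc
  have hc : Continuous (fun z : ℝ × ℝ => proj (udir h g) (lift h c) + z.1 • proj (udir h g) (lift h a) +
      z.2 • proj (udir h g) (lift h b)) := by fun_prop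
  refine (hcomp.image hc).isBounded.subset ?_
  rintro x ⟨s, t, ⟨hs, ht⟩, rfl⟩
  exact ⟨(s, t), ⟨Set.Ioo_subset_Icc_self hs, Set.Ioo_subset_Icc_self ht⟩, rfl⟩

/-- for a square with `a ≠ 0` the open parallelogram is open -/
lemma isOpen_par (c a b : E2) (ha : a ≠ 0) (hn : ‖b‖ = ‖a‖) (hab : inner ℝ a b = 0) (θ : ℝ) :
    IsOpen {ξ : E2 | ∃ s ∈ Set.Ioo (-θ) (1 + θ), ∃ t ∈ Set.Ioo (-θ) (1 + θ), ξ = c + s • a + t • b} := by
  have hna : ‖a‖ ≠ 0 := by simpa using ha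
  have hb2 : b 0 ^ 2 + b 1 ^ 2 = ‖a‖ ^ 2 := by
    rw [← hn, EuclideanSpace.norm_sq_eq]; simp
  have ha2 : a 0 ^ 2 + a 1 ^ 2 = ‖a‖ ^ 2 := by
    rw [EuclideanSpace.norm_sq_eq]; simp
  have hinner : a 0 * b 0 + a 1 * b 1 = 0 := by
    have := hab
    rw [PiLp.inner_apply] at this
    simp at this
    linarith
  have key : {ξ : E2 | ∃ s ∈ Set.Ioo (-θ) (1 + θ), ∃ t ∈ Set.Ioo (-θ) (1 + θ), ξ = c + s • a + t • b} =
      {ξ : E2 | inner ℝ (ξ - c) a / ‖a‖ ^ 2 ∈ Set.Ioo (-θ) (1 + θ)} ∩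
      {ξ : E2 | inner ℝ (ξ - c) b / ‖a‖ ^ 2 ∈ Set.Ioo (-θ) (1 + θ)} := by
    ext ξ
    simp only [Set.mem_inter_iff, Set.mem_ofPred_eq]
    constructor
    · rintro ⟨s, hs, t, ht, rfl⟩
      have e : c + s • a + t • b - c = s • a + t • b := by abel
      rw [e, inner_add_left, inner_add_left, inner_smul_left, inner_smul_left, inner_smul_left, inner_smul_left,
        real_inner_self_eq_norm_sq, real_inner_self_eq_norm_sq, real_inner_comm, hab, hn]
      have h1 : ((starRingEnd ℝ) s * ‖a‖ ^ 2 + (starRingEnd ℝ) t * 0) / ‖a‖ ^ 2 = s := by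
        simp; field_simp
      have h2 : ((starRingEnd ℝ) s * 0 + (starRingEnd ℝ) t * ‖a‖ ^ 2) / ‖a‖ ^ 2 = t := by
        simp; field_simp
      rw [h1, h2]
      exact ⟨hs, ht⟩
    · rintro ⟨hs, ht⟩
      refine ⟨_, hs, _, ht, ?_⟩
      have hna2 : ‖a‖ ^ 2 ≠ 0 := by positivity
      -- expansion in the orthogonal basis
      have e : ∀ ζ : E2, ζ = (inner ℝ ζ a / ‖a‖ ^ 2) • a + (inner ℝ ζ b / ‖a‖ ^ 2) • b := by
        intro ζ
        have i1 : inner ℝ ζ a = ζ 0 * a 0 + ζ 1 * a 1 := by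
          rw [PiLp.inner_apply]; simp; ring
        have i2 : inner ℝ ζ b = ζ 0 * b 0 + ζ 1 * b 1 := by
          rw [PiLp.inner_apply]; simp; ring
        have hb0 : a 0 ^ 2 + b 0 ^ 2 = ‖a‖ ^ 2 ∧ a 1 ^ 2 + b 1 ^ 2 = ‖a‖ ^ 2 ∧ a 0 * a 1 + b 0 * b 1 = 0 := by
          have hsq : (a 0 * b 1 - a 1 * b 0) ^ 2 = (‖a‖ ^ 2) ^ 2 := by
            have : (a 0 * b 1 - a 1 * b 0) ^ 2 = (a 0 ^ 2 + a 1 ^ 2) * (b 0 ^ 2 + b 1 ^ 2) - (a 0 * b 0 + a 1 * b 1) ^ 2 := by
              ring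
            rw [this, hinner, hb2, ha2]; ring
          have hb1' : b 1 ^ 2 * ‖a‖ ^ 2 = a 0 ^ 2 * ‖a‖ ^ 2 := by
            calc b 1 ^ 2 * ‖a‖ ^ 2 = b 1 ^ 2 * a 0 ^ 2 + (a 1 * b 1) ^ 2 := by rw [← ha2]; ring
              _ = b 1 ^ 2 * a 0 ^ 2 + (a 0 * b 0) ^ 2 := by
                  have : a 1 * b 1 = - (a 0 * b 0) := by linarith
                  rw [this]; ring
              _ = a 0 ^ 2 * ‖a‖ ^ 2 := by rw [← hb2]; ring
          have hb1 : b 1 ^ 2 = a 0 ^ 2 := mul_right_cancel₀ hna2 hb1'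
          have hb0' : b 0 ^ 2 = a 1 ^ 2 := by linarith
          refine ⟨by linarith, by linarith, ?_⟩
          have : (a 0 * a 1 + b 0 * b 1) * ‖a‖ ^ 2 = 0 := by
            have : (a 0 * a 1 + b 0 * b 1) * ‖a‖ ^ 2 = (a 0 * a 1 + b 0 * b 1) * (a 0 ^ 2 + a 1 ^ 2) := by rw [ha2]
            rw [this]
            linear_combination a 0 * (-(a 1) * hb1 + b 1 * hinner) + a 1 * (-(a 0) * hb0' + b 0 * hinner)
          exact (mul_eq_zero.mp this).resolve_right hna2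
        ext i
        fin_cases i
        · simp [i1, i2]
          field_simp
          linear_combination (-ζ 0) * hb0.1 - ζ 1 * hb0.2.2
        · simp [i1, i2]
          field_simp
          linear_combination (-ζ 1) * hb0.2.1 - ζ 0 * hb0.2.2
      have := e (ξ - c)
      rw [add_assoc, ← this]; abel
  rw [key]
  apply IsOpen.inter
  · exact isOpen_Ioo.preimage (by fun_prop)
  · exact isOpen_Ioo.preimage (by fun_prop)

lemma base_open (h : ℝ) (g c a b : E2) (ha : a ≠ 0) (hn : ‖b‖ = ‖a‖) (hab : inner ℝ a b = 0) (θ : ℝ) :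
    ∃ O : Set E3, IsOpen O ∧ base h g c a b θ = O ∩ {x | inner ℝ x (udir h g) = 0} :=
  ⟨_, (isOpen_par c a b ha hn hab θ).preimage (pr_cont h g), rfl⟩

theorem result
    (h M : ℝ) (hh : 0 < h) (hM : 0 < M) (D : Set (EuclideanSpace ℝ (Fin 2))) (hD : IsCompact D)
    (hbd : volume (frontier D) = 0)
    (V : EuclideanSpace ℝ (Fin 2) → EuclideanSpace ℝ (Fin 2)) (U : Set (EuclideanSpace ℝ (Fin 2)))
    (hU : IsOpen U) (hDU : D ⊆ U) (hV : ContDiffOn ℝ 1 V U)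
    (htr : ∀ p ∈ D, LinearMap.trace ℝ _ (fderiv ℝ V p).toLinearMap = 0)
    (hdet : ∀ p ∈ D, -(M ^ 2)⁻¹ < LinearMap.det (fderiv ℝ V p).toLinearMap ∧
      LinearMap.det (fderiv ℝ V p).toLinearMap < 0)
    (ε : ℝ) (hε : 0 < ε) :
    ∃ (k : ℕ) (u : Fin k → EuclideanSpace ℝ (Fin 3)) (B : Fin k → Set (EuclideanSpace ℝ (Fin 3))),
      (∀ i, ‖u i‖ = 1) ∧
      (∀ i, Bornology.IsBounded (B i) ∧ ∃ O : Set (EuclideanSpace ℝ (Fin 3)), IsOpen O ∧
        B i = O ∩ {x | inner ℝ x (u i) = 0}) ∧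
      {z : EuclideanSpace ℝ (Fin 3) | ∃ p ∈ D, ∃ x : ℝ, abs x ≤ M ∧
          z = !₂[x, p 0 + x * V p 0, h * (p 1 + x * V p 1)]} ⊆
        ⋃ i, {z : EuclideanSpace ℝ (Fin 3) | ∃ y ∈ B i, ∃ τ : ℝ, z = y + τ • u i} ∧
      ∑ i, (μHE[2] (B i)).toReal ≤
        h * (∫ p in D, 1 / Real.sqrt (1 + (V p 0) ^ 2 + h ^ 2 * (V p 1) ^ 2)) + ε := by
  set I := ∫ p in D, 1 / Real.sqrt (1 + (V p 0) ^ 2 + h ^ 2 * (V p 1) ^ 2) with hI
  have hI0 : 0 ≤ I := by
    apply integral_nonneg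
    intro p
    positivity
  obtain ⟨k, c, a, b, g, h1, h2, h3⟩ := Crest.Agent.S0326.result D hD V U hU hDU hV M h hM hh htr
    (fun p hp => ⟨(hdet p hp).1, (hdet p hp).2.le⟩) (ε / (2 * h)) (by positivity)
  set C := h * I + ε / 2 with hC
  have hC0 : 0 < C := by positivity
  set θ := min 1 (ε / (16 * (C + 1))) with hθ
  have hθ0 : 0 < θ := by positivity
  have hθ1 : θ ≤ 1 := min_le_left _ _
  have hθ2 : θ ≤ ε / (16 * (C + 1)) := min_le_right _ _
  refine ⟨k, fun i => udir h (g i), fun i => base h (g i) (c i) (a i) (b i) θ, fun i => udir_norm _ _,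
    fun i => ⟨base_bounded h hh _ _ _ _ _, base_open h _ _ _ _ (h1 i).1 (h1 i).2.1 (h1 i).2.2 θ⟩, ?_, ?_⟩
  · rintro z ⟨p, hp, x, hx, rfl⟩
    have hz : ((x, p + x • V p) : ℝ × E2) ∈ {z : ℝ × EuclideanSpace ℝ (Fin 2) | ∃ p ∈ D, abs z.1 ≤ M ∧ z.2 = p + z.1 • V p} :=
      ⟨p, hp, hx, rfl⟩
    have hz2 := h2 hz
    rw [Set.mem_iUnion] at hz2
    obtain ⟨i, s, hs, t, ht, heq⟩ := hz2
    simp only at heq
    rw [Set.mem_iUnion]
    refine ⟨i, ?_⟩
    set z : E3 := !₂[x, p 0 + x * V p 0, h * (p 1 + x * V p 1)] with hzdef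
    refine ⟨proj (udir h (g i)) z, ⟨⟨s, ⟨by linarith [hs.1], by linarith [hs.2]⟩, t,
      ⟨by linarith [ht.1], by linarith [ht.2]⟩, ?_⟩, proj_inner _ _ (udir_norm _ _)⟩, inner ℝ z (udir h (g i)), ?_⟩
    · rw [pr_proj h hh]
      have e : pr h (g i) z = p + x • V p - x • g i := by
        ext j; fin_cases j <;> simp [pr, hzdef]
        field_simp
      rw [e, heq]; abel
    · unfold proj; abel
  · have e1 : ∀ i, (μHE[2] (base h (g i) (c i) (a i) (b i) θ)).toReal =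
        (1 + 2 * θ) ^ 2 * (h * (‖a i‖ ^ 2 / Real.sqrt (1 + (g i 0) ^ 2 + h ^ 2 * (g i 1) ^ 2))) := fun i =>
      base_measure h hh _ _ _ _ θ hθ0 (h1 i).2.2 (h1 i).2.1
    simp_rw [e1]
    rw [← Finset.mul_sum, ← Finset.mul_sum]
    have h4 : h * ∑ i, ‖a i‖ ^ 2 / Real.sqrt (1 + (g i 0) ^ 2 + h ^ 2 * (g i 1) ^ 2) ≤ C := by
      calc h * ∑ i, ‖a i‖ ^ 2 / Real.sqrt (1 + (g i 0) ^ 2 + h ^ 2 * (g i 1) ^ 2)
          ≤ h * (I + ε / (2 * h)) := mul_le_mul_of_nonneg_left h3 hh.le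
        _ = C := by rw [hC]; field_simp
    calc (1 + 2 * θ) ^ 2 * (h * ∑ i, ‖a i‖ ^ 2 / Real.sqrt (1 + (g i 0) ^ 2 + h ^ 2 * (g i 1) ^ 2))
        ≤ (1 + 2 * θ) ^ 2 * C := mul_le_mul_of_nonneg_left h4 (by positivity)
      _ ≤ (1 + 8 * θ) * C := by
          apply mul_le_mul_of_nonneg_right _ hC0.le
          nlinarith
      _ = C + 8 * C * θ := by ring
      _ ≤ C + ε / 2 := by
          have : 8 * C * θ ≤ 8 * C * (ε / (16 * (C + 1))) := mul_le_mul_of_nonneg_left hθ2 (by positivity)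
          have h5 : 8 * C * (ε / (16 * (C + 1))) ≤ ε / 2 := by
            rw [mul_div_assoc', div_le_div_iff₀ (by positivity) (by positivity)]
            nlinarith
          linarith
      _ = h * I + ε := by rw [hC]; ring

end Crest.Agent.S0329
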