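import Mathlib
import Crest.Prelude.Def_QuadricBundle

/-!
Shared definitions for S0396 (explicit ample rank-two bundle on the quadric which is not
Griffiths positive).
-/

set_option autoImplicit false

noncomputable section

namespace Crest.Agent.S0396

open Crest.AlgGeometry.QuadricBundle
open MvPolynomial (X C)

/-- The real number `c` with `c ^ 4 = 8 c ^ 2 + 2`, `c > 2`. -/
def cr : ℝ := Real.sqrt (4 + 3 * Real.sqrt 2)

/-- `c` as a complex number. -/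
def cc : ℂ := (cr : ℂ)

section Generic
variable {R : Type*} [CommRing R]

/-- Equation of `D` in the charts `(0,0)`, `(1,1)`. -/
def fE (c z w : R) : R :=
  (z + w) ^ 3 - 3 * c ^ 2 * z * w * (z + w) - c ^ 3 * (1 + z ^ 3 * w ^ 3)

/-- Equation of `D` in the charts `(0,1)`, `(1,0)`. -/
def fS (c z w : R) : R :=
  z ^ 3 * w ^ 3 + 3 * (1 - c ^ 2) * z ^ 2 * w ^ 2 + 3 * (1 - c ^ 2) * z * w + 1
    - c ^ 3 * w ^ 3 - c ^ 3 * z ^ 3

/-- The function `J` in the charts `(0,0)`, `(1,1)`. -/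
def JE (c z w : R) : R :=
  1 + (60 * c - 80 * c ^ 3) * w ^ 3 + (388 + 1602 * c ^ 2) * w ^ 6
    + (108 * c - 8 * c ^ 3) * z * w ^ 2 + (-320 - 1320 * c ^ 2) * z * w ^ 5
    + (132 * c + 544 * c ^ 3) * z * w ^ 8 + (32 * c - 4 * c ^ 3) * z ^ 2 * w
    + (12 + 58 * c ^ 2) * z ^ 2 * w ^ 4 + (-100 * c - 412 * c ^ 3) * z ^ 2 * w ^ 7

/-- The function `J` in the charts `(0,1)`, `(1,0)`: `w ^ 8 * JE z (1/w)`. -/
def JS (c z w : R) : R :=
  (388 + 1602 * c ^ 2) * w ^ 2 + (60 * c - 80 * c ^ 3) * w ^ 5 + w ^ 8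
    + (132 * c + 544 * c ^ 3) * z + (-320 - 1320 * c ^ 2) * z * w ^ 3
    + (108 * c - 8 * c ^ 3) * z * w ^ 6 + (-100 * c - 412 * c ^ 3) * z ^ 2 * w
    + (12 + 58 * c ^ 2) * z ^ 2 * w ^ 4 + (32 * c - 4 * c ^ 3) * z ^ 2 * w ^ 7

/-- `z ^ 2 * w ^ 8 * JE (1/z) (1/w)`. -/
def JH (c z w : R) : R :=
  (-100 * c - 412 * c ^ 3) * w + (12 + 58 * c ^ 2) * w ^ 4 + (32 * c - 4 * c ^ 3) * w ^ 7
    + (132 * c + 544 * c ^ 3) * z + (-320 - 1320 * c ^ 2) * z * w ^ 3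
    + (108 * c - 8 * c ^ 3) * z * w ^ 6 + (388 + 1602 * c ^ 2) * z ^ 2 * w ^ 2
    + (60 * c - 80 * c ^ 3) * z ^ 2 * w ^ 5 + z ^ 2 * w ^ 8

/-- `z ^ 2` times the off-diagonal transition entry, charts `(0,0)`, `(1,1)`. -/
def EE (c z w : R) : R :=
  (12 + 50 * c ^ 2) * w + (32 * c - 4 * c ^ 3) * w ^ 4 + (-16 - 66 * c ^ 2) * z
    + (-12 * c + 4 * c ^ 3) * z * w ^ 3 + (-19 * c ^ 3) * z ^ 2 * w ^ 2 + z ^ 2 * w ^ 5
    + (4 * c + 22 * c ^ 3) * z ^ 3 * w + (-3 - 5 * c ^ 2) * z ^ 3 * w ^ 4 + (-c ^ 3) * z ^ 4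
    + (16 + 57 * c ^ 2) * z ^ 4 * w ^ 3 + (-16 - 57 * c ^ 2) * z ^ 5 * w ^ 2
    + c ^ 3 * z ^ 5 * w ^ 5 + (3 + 5 * c ^ 2) * z ^ 6 * w + (-4 * c - 22 * c ^ 3) * z ^ 6 * w ^ 4
    - z ^ 7 + (19 * c ^ 3) * z ^ 7 * w ^ 3 + (12 * c - 4 * c ^ 3) * z ^ 8 * w ^ 2
    + (16 + 66 * c ^ 2) * z ^ 8 * w ^ 5 + (-32 * c + 4 * c ^ 3) * z ^ 9 * w
    + (-12 - 50 * c ^ 2) * z ^ 9 * w ^ 4

/-- `w ^ 5 * EE z (1/w)`. -/
def ES (c z w : R) : R :=
  (32 * c - 4 * c ^ 3) * w + (12 + 50 * c ^ 2) * w ^ 4 + (-12 * c + 4 * c ^ 3) * z * w ^ 2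
    + (-16 - 66 * c ^ 2) * z * w ^ 5 + z ^ 2 + (-19 * c ^ 3) * z ^ 2 * w ^ 3
    + (-3 - 5 * c ^ 2) * z ^ 3 * w + (4 * c + 22 * c ^ 3) * z ^ 3 * w ^ 4
    + (16 + 57 * c ^ 2) * z ^ 4 * w ^ 2 + (-c ^ 3) * z ^ 4 * w ^ 5 + c ^ 3 * z ^ 5
    + (-16 - 57 * c ^ 2) * z ^ 5 * w ^ 3 + (-4 * c - 22 * c ^ 3) * z ^ 6 * w
    + (3 + 5 * c ^ 2) * z ^ 6 * w ^ 4 + (19 * c ^ 3) * z ^ 7 * w ^ 2 - z ^ 7 * w ^ 5
    + (16 + 66 * c ^ 2) * z ^ 8 + (12 * c - 4 * c ^ 3) * z ^ 8 * w ^ 3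
    + (-12 - 50 * c ^ 2) * z ^ 9 * w + (-32 * c + 4 * c ^ 3) * z ^ 9 * w ^ 4

end Generic

/-- Polynomials in the two chart coordinates. -/
abbrev A : Type := MvPolynomial (Fin 2) ℂ

/-- `f` in chart `α`, as a polynomial in the chart coordinates. -/
def fP (α : Chart) : A :=
  if α.1 = α.2 then fE (C cc) (X 0) (X 1) else fS (C cc) (X 0) (X 1)

/-- `J` in chart `α`, as a polynomial in the chart coordinates. -/
def JP (α : Chart) : A :=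
  if α.1 = α.2 then JE (C cc) (X 0) (X 1) else JS (C cc) (X 0) (X 1)

/-- `z ^ 2 *` off-diagonal entry in chart `α`, as a polynomial in the chart coordinates. -/
def EP (α : Chart) : A :=
  if α.1 = α.2 then EE (C cc) (X 0) (X 1) else ES (C cc) (X 0) (X 1)

/-- Transition matrices of the nef bundle `E`; frame order `(ε₂, ε₁)`:
`ε₂` spans the sub line bundle `O(-3,5)`, `ε₁` the quotient `O(8,0)`. -/
def Gt : Transition 2 := fun α β p =>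
  !![lineTrans (-3) 5 α β p,
     if α.1 = β.1 then 0 else (p 0) ^ (-2 : ℤ) * MvPolynomial.eval p (EP α);
     0, lineTrans 8 0 α β p]

/-- Coordinatewise `n`-th power. -/
def pw (n : ℕ) (p : Fin 2 → ℂ) : Fin 2 → ℂ := fun i => (p i) ^ n

/-- The bundle `F_n^* E ⊗ O(1,1)`. -/
def gn (n : ℕ) : Transition 2 := fun α β p => lineTrans 1 1 α β p • Gt α β (pw n p)

/-- Global sections of `Symᵐ ⊗ O(j, j')` for integer twists. -/
def IsSec (G : Transition 2) (m : ℕ) (j j' : ℤ)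
    (Q : Chart → (Fin 2 → ℂ) → MvPolynomial (Fin 2) ℂ) : Prop :=
  (∀ α p, (Q α p).IsHomogeneous m) ∧
  (∀ α (d : Fin 2 →₀ ℕ), Differentiable ℂ (fun p => MvPolynomial.coeff d (Q α p))) ∧
  ∀ α β, ∀ p ∈ overlap α β,
    Q α p = lineTrans j j' α β p • frameSubst (G α β p) (Q β (tau α β p))

/-- Bounded-bidegree polynomials: `z`-degree `< n`, `w`-degree `< n'`. -/
def B (n n' : ℕ) : Submodule ℂ A :=
  MvPolynomial.restrictSupport ℂ {d | d 0 < n ∧ d 1 < n'}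

/-- The substitution `X₀ ↦ z¹⁰ X₀`, `X₁ ↦ X₁ - Ẽ X₀`. -/
def sub1 : MvPolynomial (Fin 2) A →ₐ[A] MvPolynomial (Fin 2) A :=
  MvPolynomial.bind₁ ![C ((X 0) ^ 10) * X 0, X 1 - C (EP (0, 0)) * X 0]

/-- Polynomial model of the space of global sections of `Symᵐ E ⊗ O(s-1, s'-1)`. -/
def V (m s s' : ℕ) : Submodule ℂ (MvPolynomial (Fin 2) A) where
  carrier := {P | P.IsHomogeneous m ∧
    ∀ d, MvPolynomial.coeff d (sub1 P) ∈ B (s + 8 * m - d 0) (s' + 5 * d 0)}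
  zero_mem' := by
    refine ⟨MvPolynomial.isHomogeneous_zero _ _ _, fun d => ?_⟩
    simp
  add_mem' := by
    intro P Q hP hQ
    refine ⟨hP.1.add hQ.1, fun d => ?_⟩
    rw [map_add, MvPolynomial.coeff_add]
    exact Submodule.add_mem _ (hP.2 d) (hQ.2 d)
  smul_mem' := by
    intro a P hP
    refine ⟨?_, fun d => ?_⟩
    · intro d hd
      apply hP.1
      intro h
      apply hd
      rw [MvPolynomial.coeff_smul, h, smul_zero]
    · have : sub1 (a • P) = a • sub1 P := by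
        rw [← algebraMap_smul A a P, map_smul, algebraMap_smul]
      rw [this, MvPolynomial.coeff_smul]
      exact Submodule.smul_mem _ a (hP.2 d)

/-- Homogeneous pairing `P ↦ P(f, J)`. -/
def Th : MvPolynomial (Fin 2) A →ₐ[A] A :=
  MvPolynomial.aeval ![fP (0, 0), JP (0, 0)]

end Crest.Agent.S0396
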