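import Mathlib
import Crest.Agent.S0396_Defs

set_option autoImplicit false

noncomputable section

namespace Crest.Agent.S0396

open Crest.AlgGeometry.QuadricBundle
open MvPolynomial (X C C_mul C_1)

section Generic
variable {R : Type*} [CommRing R]

theorem idA1 (c z w : R) (hc : c ^ 4 = 8 * c ^ 2 + 2) :
    fE c z w * EE c z w = JH c z w - z ^ 10 * JE c z w := by
  have : fE c z w * EE c z w - (JH c z w - z ^ 10 * JE c z w) = 0 := by
    have h5 : c ^ 5 = 8 * c ^ 3 + 2 * c := by linear_combination c * hc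
    have h6 : c ^ 6 = 66 * c ^ 2 + 16 := by linear_combination (c ^ 2 + 8) * hc
    unfold fE EE JH JE
    ring_nf
    rw [h6, h5, hc]
    ring
  exact sub_eq_zero.mp this

/-- `z ^ 2 * JE (1/z) w`. -/
def JHS (c z w : R) : R :=
  (32 * c - 4 * c ^ 3) * w + (12 + 58 * c ^ 2) * w ^ 4 + (-100 * c - 412 * c ^ 3) * w ^ 7
    + (108 * c - 8 * c ^ 3) * z * w ^ 2 + (-320 - 1320 * c ^ 2) * z * w ^ 5
    + (132 * c + 544 * c ^ 3) * z * w ^ 8
    + z ^ 2 + (60 * c - 80 * c ^ 3) * z ^ 2 * w ^ 3 + (388 + 1602 * c ^ 2) * z ^ 2 * w ^ 6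

theorem idA2 (c z w : R) (hc : c ^ 4 = 8 * c ^ 2 + 2) :
    fS c z w * ES c z w = JHS c z w - z ^ 10 * JS c z w := by
  have : fS c z w * ES c z w - (JHS c z w - z ^ 10 * JS c z w) = 0 := by
    have h5 : c ^ 5 = 8 * c ^ 3 + 2 * c := by linear_combination c * hc
    have h6 : c ^ 6 = 66 * c ^ 2 + 16 := by linear_combination (c ^ 2 + 8) * hc
    unfold fS ES JHS JS
    ring_nf
    rw [h6, h5, hc]
    ring
  exact sub_eq_zero.mp this

/-- Cofactor in `J(z,w) J(w,z) = ρ² + f K`. -/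
def KK (c z w : R) : R :=
  (3264 * c + 13124 * c ^ 3) + (388 + 1602 * c ^ 2) * w ^ 3 + (-9016 - 34546 * c ^ 2) * z * w ^ 2 + (-268 * c - 1008 * c ^ 3) * z * w ^ 5 + (-9016 - 34546 * c ^ 2) * z ^ 2 * w + (2544 * c + 10408 * c ^ 3) * z ^ 2 * w ^ 4 + (-1056 - 4352 * c ^ 2) * z ^ 2 * w ^ 7 + (388 + 1602 * c ^ 2) * z ^ 3 + (872 * c + 3904 * c ^ 3) * z ^ 3 * w ^ 3 + (23616 + 97328 * c ^ 2) * z ^ 3 * w ^ 6 + (2544 * c + 10408 * c ^ 3) * z ^ 4 * w ^ 2 + (-22816 - 94032 * c ^ 2) * z ^ 4 * w ^ 5 + (-268 * c - 1008 * c ^ 3) * z ^ 5 * w + (-22816 - 94032 * c ^ 2) * z ^ 5 * w ^ 4 + (55984 * c + 230728 * c ^ 3) * z ^ 5 * w ^ 7 + (23616 + 97328 * c ^ 2) * z ^ 6 * w ^ 3 + (-116320 * c - 479392 * c ^ 3) * z ^ 6 * w ^ 6 + (-1056 - 4352 * c ^ 2) * z ^ 7 * w ^ 2 + (55984 * c + 230728 * c ^ 3) * z ^ 7 * w ^ 5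

theorem idA3 (c z w : R) (hc : c ^ 4 = 8 * c ^ 2 + 2) :
    JE c z w * JE c w z = (216513 + 892296 * c ^ 2) + fE c z w * KK c z w := by
  have : JE c z w * JE c w z - ((216513 + 892296 * c ^ 2) + fE c z w * KK c z w) = 0 := by
    have h5 : c ^ 5 = 8 * c ^ 3 + 2 * c := by linear_combination c * hc
    have h6 : c ^ 6 = 66 * c ^ 2 + 16 := by linear_combination (c ^ 2 + 8) * hc
    unfold fE KK JE
    ring_nf
    rw [h6, h5, hc]
    ring
  exact sub_eq_zero.mp this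

/-- Cofactor in `J = (1 - c w)^8 + f₀ K₀`. -/
def K0 (c z w : R) : R :=
  (-8) * w + (60 * c - 4 * c ^ 3) * w ^ 2 + (20 * c ^ 2) * w ^ 3 + (20 * c + 70 * c ^ 3) * w ^ 4 + (-92 - 378 * c ^ 2) * w ^ 5 + (-4 * c - 16 * c ^ 3) * w ^ 6 + (-132 - 544 * c ^ 2) * w ^ 7 + (32 * c - 4 * c ^ 3) * z * w + (-8) * z * w ^ 2 + (-8 * c) * z * w ^ 3 + (12 + 50 * c ^ 2) * z * w ^ 4 + (12 * c + 50 * c ^ 3) * z * w ^ 5 + (100 + 412 * c ^ 2) * z * w ^ 6

theorem idA4 (c z w : R) (hc : c ^ 4 = 8 * c ^ 2 + 2) :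
    JE c z w = (1 - c * w) ^ 8 + (z + w - c - c * z * w) * K0 c z w := by
  have : JE c z w - ((1 - c * w) ^ 8 + (z + w - c - c * z * w) * K0 c z w) = 0 := by
    have h5 : c ^ 5 = 8 * c ^ 3 + 2 * c := by linear_combination c * hc
    have h6 : c ^ 6 = 66 * c ^ 2 + 16 := by linear_combination (c ^ 2 + 8) * hc
    have h7 : c ^ 7 = 66 * c ^ 3 + 16 * c := by linear_combination (c ^ 3 + 8 * c) * hc
    have h8 : c ^ 8 = 544 * c ^ 2 + 132 := by linear_combination (c ^ 4 + 8 * c ^ 2 + 66) * hc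
    unfold K0 JE
    ring_nf
    rw [h8, h7, h6, h5, hc]
    ring
  exact sub_eq_zero.mp this

/-- invariance under the rotation by a cube root of unity -/
theorem JE_rot (c z w o : R) (ho : o ^ 3 = 1) : JE c (o * z) (o * w) = JE c z w := by
  have h6 : o ^ 6 = 1 := by rw [show (6:ℕ) = 3 * 2 from rfl, pow_mul, ho, one_pow]
  have h9 : o ^ 9 = 1 := by rw [show (9:ℕ) = 3 * 3 from rfl, pow_mul, ho, one_pow]
  unfold JE
  ring_nf
  rw [h9, h6, ho]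
  ring

theorem fE_rot (c z w o : R) (ho : o ^ 3 = 1) : fE c (o * z) (o * w) = fE c z w := by
  have h6 : o ^ 6 = 1 := by rw [show (6:ℕ) = 3 * 2 from rfl, pow_mul, ho, one_pow]
  unfold fE
  ring_nf
  rw [h6, ho]
  ring

/-- factorisation of `f` with a primitive cube root of unity -/
theorem fE_factor (c z w o : R) (ho : o ^ 2 + o + 1 = 0) :
    fE c z w = (z + w - c - c * z * w) * (o * z + o * w - c - c * (o * z) * (o * w)) *
      (o ^ 2 * z + o ^ 2 * w - c - c * (o ^ 2 * z) * (o ^ 2 * w)) := by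
  have h2 : o ^ 2 = -o - 1 := by linear_combination ho
  have h3 : o ^ 3 = 1 := by linear_combination (o - 1) * ho
  have h4 : o ^ 4 = o := by linear_combination (o ^ 2 - o) * ho
  have h5 : o ^ 5 = -o - 1 := by linear_combination (o ^ 3 - o ^ 2 + 1) * ho
  have h6 : o ^ 6 = 1 := by rw [show (6:ℕ) = 3 * 2 from rfl, pow_mul, h3, one_pow]
  unfold fE
  ring_nf
  simp only [h2, h3, h4, h5, h6]
  ring

theorem fE_symm (c z w : R) : fE c z w = fE c w z := by unfold fE; ring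

end Generic

/-! ### Inversions -/

section Field
variable {K : Type*} [Field K]

theorem fE_inv0 (c z w : K) (hz : z ≠ 0) : fE c z⁻¹ w = z⁻¹ ^ 3 * fS c z w := by
  unfold fE fS; field_simp; ring

theorem fS_inv0 (c z w : K) (hz : z ≠ 0) : fS c z⁻¹ w = z⁻¹ ^ 3 * fE c z w := by
  unfold fE fS; field_simp; ring

theorem fE_inv1 (c z w : K) (hw : w ≠ 0) : fE c z w⁻¹ = w⁻¹ ^ 3 * fS c z w := by
  unfold fE fS; field_simp; ring

theorem fS_inv1 (c z w : K) (hw : w ≠ 0) : fS c z w⁻¹ = w⁻¹ ^ 3 * fE c z w := by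
  unfold fE fS; field_simp; ring

theorem JE_inv0 (c z w : K) (hz : z ≠ 0) : JE c z⁻¹ w = z⁻¹ ^ 2 * JHS c z w := by
  unfold JE JHS; field_simp; ring

theorem JS_inv0 (c z w : K) (hz : z ≠ 0) : JS c z⁻¹ w = z⁻¹ ^ 2 * JH c z w := by
  unfold JS JH; field_simp; ring

theorem JE_inv1 (c z w : K) (hw : w ≠ 0) : JE c z w⁻¹ = w⁻¹ ^ 8 * JS c z w := by
  unfold JE JS; field_simp; ring

theorem JS_inv1 (c z w : K) (hw : w ≠ 0) : JS c z w⁻¹ = w⁻¹ ^ 8 * JE c z w := by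
  unfold JE JS; field_simp; ring

theorem EE_inv1 (c z w : K) (hw : w ≠ 0) : EE c z w⁻¹ = w⁻¹ ^ 5 * ES c z w := by
  unfold EE ES; field_simp; ring

theorem ES_inv1 (c z w : K) (hw : w ≠ 0) : ES c z w⁻¹ = w⁻¹ ^ 5 * EE c z w := by
  unfold EE ES; field_simp; ring

theorem EE_inv0 (c z w : K) (hz : z ≠ 0) : EE c z⁻¹ w = -(z⁻¹ ^ 9 * ES c z w) := by
  unfold EE ES; field_simp; ring

theorem ES_inv0 (c z w : K) (hz : z ≠ 0) : ES c z⁻¹ w = -(z⁻¹ ^ 9 * EE c z w) := by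
  unfold EE ES; field_simp; ring

end Field

/-! ### The number `c` -/

theorem cr_sq : cr ^ 2 = 4 + 3 * Real.sqrt 2 := by
  unfold cr
  rw [Real.sq_sqrt (by positivity)]

theorem cr_pow4 : cr ^ 4 = 8 * cr ^ 2 + 2 := by
  have h2 : Real.sqrt 2 ^ 2 = 2 := Real.sq_sqrt (by norm_num)
  have : cr ^ 4 = (cr ^ 2) ^ 2 := by ring
  rw [this, cr_sq]
  linear_combination 9 * h2

theorem one_lt_sqrt2 : 1 < Real.sqrt 2 := by
  rw [Real.lt_sqrt (by norm_num)]; norm_num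

theorem sqrt2_lt : Real.sqrt 2 < 3 / 2 := by
  rw [Real.sqrt_lt' (by norm_num)]; norm_num

theorem cr_gt : 2 < cr := by
  unfold cr
  rw [Real.lt_sqrt (by norm_num)]
  linarith [one_lt_sqrt2]

theorem cr_lt : cr < 3 := by
  unfold cr
  rw [Real.sqrt_lt' (by norm_num)]
  linarith [sqrt2_lt]

theorem cc_pow4 : cc ^ 4 = 8 * cc ^ 2 + 2 := by
  have := cr_pow4
  unfold cc
  exact_mod_cast this

theorem cc_ne_zero : cc ≠ 0 := by
  unfold cc
  have : cr ≠ 0 := by linarith [cr_gt]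
  exact_mod_cast this

/-! ### Evaluations of the chart polynomials -/

section Eval

variable (p : Fin 2 → ℂ)

theorem eval_fE : MvPolynomial.eval p (fE (C cc) (X 0) (X 1)) = fE cc (p 0) (p 1) := by
  simp [fE]

theorem eval_fS : MvPolynomial.eval p (fS (C cc) (X 0) (X 1)) = fS cc (p 0) (p 1) := by
  simp [fS]

theorem eval_JE : MvPolynomial.eval p (JE (C cc) (X 0) (X 1)) = JE cc (p 0) (p 1) := by
  simp [JE]

theorem eval_JS : MvPolynomial.eval p (JS (C cc) (X 0) (X 1)) = JS cc (p 0) (p 1) := by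
  simp [JS]

theorem eval_EE : MvPolynomial.eval p (EE (C cc) (X 0) (X 1)) = EE cc (p 0) (p 1) := by
  simp [EE]

theorem eval_ES : MvPolynomial.eval p (ES (C cc) (X 0) (X 1)) = ES cc (p 0) (p 1) := by
  simp [ES]

theorem eval_fP (α : Chart) : MvPolynomial.eval p (fP α) =
    if α.1 = α.2 then fE cc (p 0) (p 1) else fS cc (p 0) (p 1) := by
  unfold fP; split_ifs <;> simp [eval_fE, eval_fS]

theorem eval_JP (α : Chart) : MvPolynomial.eval p (JP α) =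
    if α.1 = α.2 then JE cc (p 0) (p 1) else JS cc (p 0) (p 1) := by
  unfold JP; split_ifs <;> simp [eval_JE, eval_JS]

theorem eval_EP (α : Chart) : MvPolynomial.eval p (EP α) =
    if α.1 = α.2 then EE cc (p 0) (p 1) else ES cc (p 0) (p 1) := by
  unfold EP; split_ifs <;> simp [eval_EE, eval_ES]

end Eval

theorem rr1 (z w : ℂ) (hw : w ≠ 0) : fE cc z w * w ^ 5 = w ^ 8 * fS cc z w⁻¹ ∧
    JE cc z w = w ^ 8 * JS cc z w⁻¹ := by
  rw [fS_inv1 _ _ _ hw, JS_inv1 _ _ _ hw]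
  constructor <;> field_simp

theorem rr2 (z w : ℂ) (hw : w ≠ 0) : fS cc z w * w ^ 5 = w ^ 8 * fE cc z w⁻¹ ∧
    JS cc z w = w ^ 8 * JE cc z w⁻¹ := by
  rw [fE_inv1 _ _ _ hw, JE_inv1 _ _ _ hw]
  constructor <;> field_simp

theorem rr3 (z w : ℂ) (hz : z ≠ 0) : fE cc z w * (z ^ 3)⁻¹ = fS cc z⁻¹ w ∧
    fE cc z w * ((z ^ 2)⁻¹ * EE cc z w) + JE cc z w * z ^ 8 = JS cc z⁻¹ w := by
  have hA1 := idA1 cc z w cc_pow4
  rw [fS_inv0 _ _ _ hz, JS_inv0 _ _ _ hz]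
  constructor
  · field_simp
  · field_simp
    linear_combination hA1

theorem rr4 (z w : ℂ) (hz : z ≠ 0) : fS cc z w * (z ^ 3)⁻¹ = fE cc z⁻¹ w ∧
    fS cc z w * ((z ^ 2)⁻¹ * ES cc z w) + JS cc z w * z ^ 8 = JE cc z⁻¹ w := by
  have hA2 := idA2 cc z w cc_pow4
  rw [fE_inv0 _ _ _ hz, JE_inv0 _ _ _ hz]
  constructor
  · field_simp
  · field_simp
    linear_combination hA2

theorem rr5 (z w : ℂ) (hz : z ≠ 0) (hw : w ≠ 0) :
    fE cc z w * ((z ^ 3)⁻¹ * w ^ 5) = w ^ 8 * fE cc z⁻¹ w⁻¹ ∧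
    fE cc z w * ((z ^ 2)⁻¹ * EE cc z w) + JE cc z w * z ^ 8 = w ^ 8 * JE cc z⁻¹ w⁻¹ := by
  obtain ⟨h1, h2⟩ := rr3 z w hz
  obtain ⟨h3, h4⟩ := rr1 z⁻¹ w hw
  obtain ⟨h5, h6⟩ := rr2 z⁻¹ w hw
  rw [← h5, ← h6, ← h1, h2]
  exact ⟨by ring, rfl⟩

theorem rr6 (z w : ℂ) (hz : z ≠ 0) (hw : w ≠ 0) :
    fS cc z w * ((z ^ 3)⁻¹ * w ^ 5) = w ^ 8 * fS cc z⁻¹ w⁻¹ ∧
    fS cc z w * ((z ^ 2)⁻¹ * ES cc z w) + JS cc z w * z ^ 8 = w ^ 8 * JS cc z⁻¹ w⁻¹ := by
  obtain ⟨h1, h2⟩ := rr4 z w hz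
  obtain ⟨h3, h4⟩ := rr1 z⁻¹ w hw
  rw [← h3, ← h4, ← h1, h2]
  exact ⟨by ring, rfl⟩

/-- The fundamental relation: `(f, J)` is a bundle map `E → O(0,8)`. -/
theorem row_rel (α β : Chart) (p : Fin 2 → ℂ) (hp : p ∈ overlap α β) :
    Matrix.vecMul ![MvPolynomial.eval p (fP α), MvPolynomial.eval p (JP α)] (Gt α β p) =
      lineTrans 0 8 α β p • ![MvPolynomial.eval (tau α β p) (fP β),
        MvPolynomial.eval (tau α β p) (JP β)] := by
  obtain ⟨a, b⟩ := α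
  obtain ⟨a', b'⟩ := β
  obtain ⟨h0, h1⟩ := hp
  simp only [eval_fP, eval_JP]
  fin_cases a <;> fin_cases b <;> fin_cases a' <;> fin_cases b' <;>
    simp [Gt, eval_EP, lineTrans, tau, Matrix.vecMul_cons, zpow_neg, zpow_ofNat] at h0 h1 ⊢ <;>
    first
    | exact rr1 _ _ h1
    | exact rr2 _ _ h1
    | exact rr3 _ _ h0
    | exact rr4 _ _ h0
    | exact rr5 _ _ h0 h1
    | exact rr6 _ _ h0 h1

theorem rho2_ne : (216513 + 892296 * cc ^ 2 : ℂ) ≠ 0 := by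
  have h : (216513 + 892296 * cc ^ 2 : ℂ) = ((216513 + 892296 * cr ^ 2 : ℝ) : ℂ) := by
    unfold cc; push_cast; ring
  rw [h]
  have : (216513 + 892296 * cr ^ 2 : ℝ) ≠ 0 := by positivity
  exact_mod_cast this

theorem fE_JE_ne (z w : ℂ) : ¬ (fE cc z w = 0 ∧ JE cc z w = 0) := by
  rintro ⟨h1, h2⟩
  have h := idA3 cc z w cc_pow4
  rw [h1, h2] at h
  apply rho2_ne
  linear_combination -h

theorem fS_JS_ne (z w : ℂ) : ¬ (fS cc z w = 0 ∧ JS cc z w = 0) := by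
  rintro ⟨h1, h2⟩
  by_cases hw : w = 0
  · by_cases hz : z = 0
    · subst hw; subst hz
      simp [fS] at h1
    · obtain ⟨h3, h4⟩ := rr4 z w hz
      apply fE_JE_ne z⁻¹ w
      rw [← h3, ← h4, h1, h2]
      simp
  · obtain ⟨h3, h4⟩ := rr2 z w hw
    apply fE_JE_ne z w⁻¹
    rw [h1, zero_mul] at h3
    rw [h2] at h4
    have h8 : w ^ 8 ≠ 0 := pow_ne_zero _ hw
    constructor
    · rcases mul_eq_zero.mp h3.symm with h | h
      · exact absurd h h8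
      · exact h
    · rcases mul_eq_zero.mp h4.symm with h | h
      · exact absurd h h8
      · exact h

theorem fJ_ne (α : Chart) (p : Fin 2 → ℂ) :
    ¬ (MvPolynomial.eval p (fP α) = 0 ∧ MvPolynomial.eval p (JP α) = 0) := by
  rw [eval_fP, eval_JP]
  split_ifs
  · exact fE_JE_ne _ _
  · exact fS_JS_ne _ _

theorem fP_JP_coprime : IsCoprime (fP (0, 0)) (JP (0, 0)) := by
  have hc : (C cc : A) ^ 4 = 8 * (C cc : A) ^ 2 + 2 := by
    have := congrArg (MvPolynomial.C : ℂ →+* A) cc_pow4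
    simpa only [map_add, map_mul, map_pow, map_ofNat] using this
  have h := idA3 (C cc : A) (X 0) (X 1) hc
  have h1 : (216513 + 892296 * (C cc : A) ^ 2) = (MvPolynomial.C : ℂ →+* A) (216513 + 892296 * cc ^ 2) := by
    simp only [map_add, map_mul, map_pow, map_ofNat]
  rw [h1] at h
  refine ⟨-(C (216513 + 892296 * cc ^ 2)⁻¹) * KK (C cc) (X 0) (X 1),
    C (216513 + 892296 * cc ^ 2)⁻¹ * JE (C cc) (X 1) (X 0), ?_⟩
  have h2 : (C (216513 + 892296 * cc ^ 2)⁻¹ : A) * C (216513 + 892296 * cc ^ 2) = 1 := by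
    rw [← C_mul, inv_mul_cancel₀ rho2_ne, C_1]
  simp only [fP, JP, if_true]
  linear_combination (C (216513 + 892296 * cc ^ 2)⁻¹ : A) * h + h2

/-- polynomial form of the basic identity -/
theorem fP_mul_EP : fP (0, 0) * EP (0, 0) = JH (C cc) (X 0) (X 1) - (X 0) ^ 10 * JP (0, 0) := by
  have hc : (C cc : A) ^ 4 = 8 * (C cc : A) ^ 2 + 2 := by
    have := congrArg (MvPolynomial.C : ℂ →+* A) cc_pow4
    simpa only [map_add, map_mul, map_pow, map_ofNat] using this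
  simp only [fP, JP, EP, if_true]
  exact idA1 (C cc : A) (X 0) (X 1) hc

end Crest.Agent.S0396
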