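import Mathlib
import Crest.Agent.S0396_Id

set_option autoImplicit false

noncomputable section

namespace Crest.Agent.S0396

open Crest.AlgGeometry.QuadricBundle
open MvPolynomial (X C)

theorem lineTrans_self (r t : ℤ) (α : Chart) (p : Fin 2 → ℂ) : lineTrans r t α α p = 1 := by
  simp [lineTrans]

theorem lineTrans_ne_zero (r t : ℤ) (α β : Chart) (p : Fin 2 → ℂ) (hp : p ∈ overlap α β) :
    lineTrans r t α β p ≠ 0 := by
  obtain ⟨h0, h1⟩ := hp
  unfold lineTrans
  apply mul_ne_zero
  · split_ifs with h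
    · exact one_ne_zero
    · exact zpow_ne_zero _ (h0 h)
  · split_ifs with h
    · exact one_ne_zero
    · exact zpow_ne_zero _ (h1 h)

theorem lineTrans_mul (r t r' t' : ℤ) (α β : Chart) (p : Fin 2 → ℂ) (hp : p ∈ overlap α β) :
    lineTrans r t α β p * lineTrans r' t' α β p = lineTrans (r + r') (t + t') α β p := by
  obtain ⟨h0, h1⟩ := hp
  unfold lineTrans
  by_cases h : α.1 = β.1 <;> by_cases h' : α.2 = β.2 <;> simp [h, h']
  · rw [← zpow_add₀ (h1 h')]
  · rw [← zpow_add₀ (h0 h)]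
  · rw [zpow_add₀ (h1 h'), zpow_add₀ (h0 h)]; ring

theorem lineTrans_pow (r t : ℤ) (m : ℕ) (α β : Chart) (p : Fin 2 → ℂ) :
    lineTrans r t α β p ^ m = lineTrans (m * r) (m * t) α β p := by
  unfold lineTrans
  by_cases h : α.1 = β.1 <;> by_cases h' : α.2 = β.2 <;> simp [h, h', mul_pow, zpow_mul, zpow_natCast,
    mul_comm (m : ℤ)]

theorem tau_mem (α β : Chart) (p : Fin 2 → ℂ) (hp : p ∈ overlap α β) :
    tau α β p ∈ overlap β α := by
  obtain ⟨h0, h1⟩ := hp
  constructor
  · intro h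
    have h' : α.1 ≠ β.1 := fun e => h e.symm
    simp [tau, h', h0 h']
  · intro h
    have h' : α.2 ≠ β.2 := fun e => h e.symm
    simp [tau, h', h1 h']

theorem tau_tau (α β : Chart) (p : Fin 2 → ℂ) : tau β α (tau α β p) = p := by
  funext i
  fin_cases i
  · by_cases h : α.1 = β.1
    · simp [tau, h]
    · have h2 : ¬ β.1 = α.1 := fun e => h e.symm
      simp [tau, h, h2]
  · by_cases h : α.2 = β.2
    · simp [tau, h]
    · have h2 : ¬ β.2 = α.2 := fun e => h e.symm
      simp [tau, h, h2]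

theorem fin2_trans {a b c : Fin 2} (h1 : a ≠ b) (h2 : b ≠ c) : a = c := by omega

theorem tau_comp (α β γ : Chart) (p : Fin 2 → ℂ) : tau β γ (tau α β p) = tau α γ p := by
  funext i
  fin_cases i
  · by_cases h : α.1 = β.1 <;> by_cases h' : β.1 = γ.1
    · simp [tau, h, h']
    · simp [tau, h, h']
    · have : α.1 ≠ γ.1 := by rw [← h']; exact h
      simp [tau, h', this]
    · have : α.1 = γ.1 := fin2_trans h h'
      have h2 : ¬ γ.1 = β.1 := fun e => h' e.symm
      simp [tau, h', this, h2]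
  · by_cases h : α.2 = β.2 <;> by_cases h' : β.2 = γ.2
    · simp [tau, h, h']
    · simp [tau, h, h']
    · have : α.2 ≠ γ.2 := by rw [← h']; exact h
      simp [tau, h', this]
    · have : α.2 = γ.2 := fin2_trans h h'
      have h2 : ¬ γ.2 = β.2 := fun e => h' e.symm
      simp [tau, h', this, h2]

theorem lineTrans_cocycle (r t : ℤ) (α β γ : Chart) (p : Fin 2 → ℂ)
    (hp : p ∈ overlap α β ∩ overlap α γ) :
    lineTrans r t α β p * lineTrans r t β γ (tau α β p) = lineTrans r t α γ p := by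
  obtain ⟨⟨h0, h1⟩, ⟨h2, h3⟩⟩ := hp
  obtain ⟨a, b⟩ := α
  obtain ⟨a', b'⟩ := β
  obtain ⟨a'', b''⟩ := γ
  simp only at h0 h1 h2 h3
  have key : ∀ (x y z : Fin 2) (q : ℂ) (e : ℤ), (x ≠ y → q ≠ 0) → (x ≠ z → q ≠ 0) →
      (if x = y then 1 else q ^ e) * (if y = z then 1 else (if x = y then q else q⁻¹) ^ e) =
        (if x = z then 1 else q ^ e) := by
    intro x y z q e hxy hxz
    by_cases h : x = y <;> by_cases h' : y = z
    · simp [h, h']
    · simp [h, h']
    · have : x ≠ z := by rw [← h']; exact h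
      simp [h', this]
    · have : x = z := fin2_trans h h'
      have hq := hxy h
      have h2 : ¬ z = y := fun e => h' e.symm
      simp [h', this, h2, mul_inv_cancel₀ (zpow_ne_zero e hq)]
  unfold lineTrans tau
  simp only [Matrix.cons_val_zero, Matrix.cons_val_one]
  rw [← key a a' a'' (p 0) r h0 h2, ← key b b' b'' (p 1) t h1 h3]
  ring


theorem differentiable_eval (q : A) : Differentiable ℂ (fun p : Fin 2 → ℂ => MvPolynomial.eval p q) := by
  induction q using MvPolynomial.induction_on with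
  | C a => simp
  | add p q hp hq =>
    simp only [map_add]
    exact hp.fun_add hq
  | mul_X p i hp =>
    simp only [map_mul, MvPolynomial.eval_X]
    exact hp.fun_mul (differentiable_apply i)

theorem pw_mem (n : ℕ) (α β : Chart) (p : Fin 2 → ℂ) (hp : p ∈ overlap α β) :
    pw n p ∈ overlap α β :=
  ⟨fun h => pow_ne_zero _ (hp.1 h), fun h => pow_ne_zero _ (hp.2 h)⟩

theorem tau_pw (n : ℕ) (α β : Chart) (p : Fin 2 → ℂ) :
    tau α β (pw n p) = pw n (tau α β p) := by
  funext i
  fin_cases i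
  · by_cases h : α.1 = β.1 <;> simp [tau, pw, h]
  · by_cases h : α.2 = β.2 <;> simp [tau, pw, h]

theorem lineTrans_pw (n : ℕ) (r t : ℤ) (α β : Chart) (p : Fin 2 → ℂ) :
    lineTrans r t α β (pw n p) = lineTrans (n * r) (n * t) α β p := by
  unfold lineTrans pw
  simp only [← zpow_natCast, ← zpow_mul]

theorem Gt_refl (α : Chart) (p : Fin 2 → ℂ) : Gt α α p = 1 := by
  unfold Gt
  simp only [lineTrans_self, if_true]
  ext i j
  fin_cases i <;> fin_cases j <;> simp

theorem EP_rel1 (α β : Chart) (h : α.1 = β.1) (p : Fin 2 → ℂ) (hp : p ∈ overlap α β) :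
    lineTrans (-3) 5 α β p * MvPolynomial.eval (tau α β p) (EP β) = MvPolynomial.eval p (EP α) := by
  obtain ⟨a, b⟩ := α
  obtain ⟨a', b'⟩ := β
  obtain ⟨h0, h1⟩ := hp
  simp only at h h0 h1
  subst h
  rw [eval_EP, eval_EP]
  have e5 : ∀ x y : ℂ, x ≠ 0 → x ^ 5 * (x⁻¹ ^ 5 * y) = y := by
    intro x y hx; field_simp
  fin_cases a <;> fin_cases b <;> fin_cases b' <;>
    simp [lineTrans, tau, zpow_ofNat] at h0 h1 ⊢ <;>
    first
    | (rw [ES_inv1 _ _ _ h1, e5 _ _ h1])
    | (rw [EE_inv1 _ _ _ h1, e5 _ _ h1])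

theorem EP_rel2 (α β : Chart) (h : α.1 ≠ β.1) (p : Fin 2 → ℂ) (hp : p ∈ overlap α β) :
    lineTrans (-3) 5 α β p * MvPolynomial.eval (tau α β p) (EP β) =
      -((p 0) ^ (-12 : ℤ) * MvPolynomial.eval p (EP α)) := by
  obtain ⟨a, b⟩ := α
  obtain ⟨a', b'⟩ := β
  obtain ⟨h0, h1⟩ := hp
  simp only at h h0 h1
  have hz := h0 h
  rw [eval_EP, eval_EP]
  fin_cases a <;> fin_cases a' <;> fin_cases b <;> fin_cases b' <;>
    simp [lineTrans, tau, zpow_ofNat, zpow_neg] at h h0 h1 ⊢ <;>
    first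
    | (rw [EE_inv1 _ _ _ h1, ES_inv0 _ _ _ hz]; field_simp)
    | (rw [ES_inv1 _ _ _ h1, EE_inv0 _ _ _ hz]; field_simp)
    | (rw [ES_inv0 _ _ _ hz]; field_simp)
    | (rw [EE_inv0 _ _ _ hz]; field_simp)

theorem Gt_cocycle (α β γ : Chart) (p : Fin 2 → ℂ) (hp : p ∈ overlap α β ∩ overlap α γ) :
    Gt α β p * Gt β γ (tau α β p) = Gt α γ p := by
  have hA := lineTrans_cocycle (-3) 5 α β γ p hp
  have hD := lineTrans_cocycle 8 0 α β γ p hp
  have h01 : lineTrans (-3) 5 α β p *
        (if β.1 = γ.1 then 0 else (tau α β p 0) ^ (-2 : ℤ) * MvPolynomial.eval (tau α β p) (EP β)) +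
      (if α.1 = β.1 then 0 else (p 0) ^ (-2 : ℤ) * MvPolynomial.eval p (EP α)) *
        lineTrans 8 0 β γ (tau α β p) =
      (if α.1 = γ.1 then 0 else (p 0) ^ (-2 : ℤ) * MvPolynomial.eval p (EP α)) := by
    by_cases h1 : α.1 = β.1 <;> by_cases h2 : β.1 = γ.1
    · simp [h1, h2]
    · have h3 : α.1 ≠ γ.1 := by rw [h1]; exact h2
      have ht : tau α β p 0 = p 0 := by simp [tau, h1]
      rw [if_neg h2, if_pos h1, if_neg h3, ht, ← EP_rel1 α β h1 p hp.1]
      ring
    · have h3 : α.1 ≠ γ.1 := by rw [← h2]; exact h1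
      have hl : lineTrans 8 0 β γ (tau α β p) = 1 := by simp [lineTrans, h2]
      rw [if_pos h2, if_neg h1, if_neg h3, hl]
      ring
    · have h3 : α.1 = γ.1 := fin2_trans h1 h2
      have ht : tau α β p 0 = (p 0)⁻¹ := by simp [tau, h1]
      have hz : p 0 ≠ 0 := hp.1.1 h1
      have hl : lineTrans 8 0 β γ (tau α β p) = (p 0) ^ (-8 : ℤ) := by
        simp [lineTrans, h2, ht]
      rw [if_neg h2, if_neg h1, if_pos h3, hl, ht]
      have := EP_rel2 α β h1 p hp.1
      calc _ = (p 0)⁻¹ ^ (-2 : ℤ) * (lineTrans (-3) 5 α β p * MvPolynomial.eval (tau α β p) (EP β)) +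
            (p 0) ^ (-2 : ℤ) * (p 0) ^ (-8 : ℤ) * MvPolynomial.eval p (EP α) := by ring
        _ = 0 := by
          rw [this, inv_zpow', ← zpow_add₀ hz]
          have : (p 0) ^ (-(-2) : ℤ) * -((p 0) ^ (-12 : ℤ) * MvPolynomial.eval p (EP α)) =
            -((p 0) ^ (-10 : ℤ) * MvPolynomial.eval p (EP α)) := by
            rw [mul_neg, ← mul_assoc, ← zpow_add₀ hz]; norm_num
          rw [this]; norm_num
  unfold Gt
  rw [Matrix.mul_fin_two, hA, hD, h01]
  simp

theorem differentiableOn_lineTrans (r t : ℤ) (α β : Chart) :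
    DifferentiableOn ℂ (fun p : Fin 2 → ℂ => lineTrans r t α β p) (overlap α β) := by
  intro p hp
  apply DifferentiableAt.differentiableWithinAt
  unfold lineTrans
  apply DifferentiableAt.fun_mul
  · by_cases h : α.1 = β.1
    · simp [h]
    · simp only [h, if_false]
      exact DifferentiableAt.zpow (differentiableAt_apply 0 p) (Or.inl (hp.1 h))
  · by_cases h : α.2 = β.2
    · simp [h]
    · simp only [h, if_false]
      exact DifferentiableAt.zpow (differentiableAt_apply 1 p) (Or.inl (hp.2 h))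

theorem differentiable_pw (n : ℕ) : Differentiable ℂ (pw n) := by
  unfold pw
  rw [differentiable_pi]
  intro i
  exact (differentiable_apply i).fun_pow n

theorem gn_isHoloCocycle (n : ℕ) : IsHoloCocycle (gn n) where
  refl := by
    intro α p
    unfold gn
    rw [Gt_refl, lineTrans_self, one_smul]
  holo := by
    intro α β i j
    have h1 := differentiableOn_lineTrans 1 1 α β
    have h2 : ∀ r t : ℤ, DifferentiableOn ℂ (fun p : Fin 2 → ℂ => lineTrans r t α β (pw n p))
        (overlap α β) := by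
      intro r t
      simp only [lineTrans_pw]
      exact differentiableOn_lineTrans _ _ α β
    have h3 : DifferentiableOn ℂ (fun p : Fin 2 → ℂ => if α.1 = β.1 then (0:ℂ) else
        (pw n p 0) ^ (-2 : ℤ) * MvPolynomial.eval (pw n p) (EP α)) (overlap α β) := by
      by_cases h : α.1 = β.1
      · simp only [h, if_true]
        exact differentiableOn_const 0
      · simp only [h, if_false]
        apply DifferentiableOn.fun_mul
        · intro p hp
          apply DifferentiableAt.differentiableWithinAt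
          refine DifferentiableAt.zpow ?_ (Or.inl (pow_ne_zero _ (hp.1 h)))
          exact (differentiableAt_apply 0 p).fun_pow n
        · exact ((differentiable_eval (EP α)).comp (differentiable_pw n)).differentiableOn
    fin_cases i <;> fin_cases j
    · simpa [gn, Gt] using h1.fun_mul (h2 (-3) 5)
    · simpa [gn, Gt] using h1.fun_mul h3
    · simp [gn, Gt]
    · simpa [gn, Gt] using h1.fun_mul (h2 8 0)
  cocycle := by
    intro α β γ p hp
    unfold gn
    rw [smul_mul_smul_comm, lineTrans_cocycle 1 1 α β γ p hp, ← tau_pw,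
      Gt_cocycle α β γ (pw n p) ⟨pw_mem n α β p hp.1, pw_mem n α γ p hp.2⟩]

end Crest.Agent.S0396
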