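import Mathlib
import Crest.Agent.S0396_Cocycle

set_option autoImplicit false

noncomputable section

namespace Crest.Agent.S0396

open Crest.AlgGeometry.QuadricBundle

theorem bind1_smul_hom {P : MvPolynomial (Fin 2) ℂ} {m : ℕ} (hP : P.IsHomogeneous m) (a : ℂ)
    (f : Fin 2 → MvPolynomial (Fin 2) ℂ) :
    MvPolynomial.bind₁ (fun j => a • f j) P = a ^ m • MvPolynomial.bind₁ f P := by
  rw [MvPolynomial.bind₁, MvPolynomial.bind₁, MvPolynomial.aeval_def, MvPolynomial.aeval_def,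
    MvPolynomial.eval₂_eq', MvPolynomial.eval₂_eq', Finset.smul_sum]
  apply Finset.sum_congr rfl
  intro d hd
  have h1 : d.degree = m := by
    by_contra hne
    have := hP.coeff_eq_zero hne
    rw [MvPolynomial.mem_support_iff] at hd
    exact hd this
  have h2 : d 0 + d 1 = m := by
    rw [← h1, Finsupp.degree_eq_sum, Fin.sum_univ_two]
  rw [Fin.prod_univ_two, Fin.prod_univ_two]
  simp only [smul_pow, Algebra.smul_mul_assoc, Algebra.mul_smul_comm, smul_smul, ← h2, pow_add]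
  rw [mul_comm (a ^ d 1)]

theorem frameSubst_smul (a : ℂ) (G : Matrix (Fin 2) (Fin 2) ℂ) {P : MvPolynomial (Fin 2) ℂ} {m : ℕ}
    (hP : P.IsHomogeneous m) : frameSubst (a • G) P = a ^ m • frameSubst G P := by
  unfold frameSubst
  rw [← bind1_smul_hom hP]
  congr 1
  congr 1
  funext j
  rw [Finset.smul_sum]
  apply Finset.sum_congr rfl
  intro i _
  rw [Matrix.smul_apply, smul_eq_mul, MvPolynomial.C_mul, MvPolynomial.smul_eq_C_mul]
  ring

theorem frameSubst_smul' (a : ℂ) (G : Matrix (Fin 2) (Fin 2) ℂ) (P : MvPolynomial (Fin 2) ℂ) :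
    frameSubst G (a • P) = a • frameSubst G P := by
  unfold frameSubst
  rw [map_smul]

/-- the monomial section of `O(d,d)`, equal to `1` in chart `α` -/
def mon (d : ℕ) (α β : Chart) (q : Fin 2 → ℂ) : ℂ :=
  (if β.1 = α.1 then 1 else (q 0) ^ d) * (if β.2 = α.2 then 1 else (q 1) ^ d)

theorem mon_self (d : ℕ) (α : Chart) (q : Fin 2 → ℂ) : mon d α α q = 1 := by simp [mon]

theorem mon_diff (d : ℕ) (α β : Chart) : Differentiable ℂ (mon d α β) := by
  unfold mon
  split_ifs <;> fun_prop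

theorem mon_rel (d : ℕ) (α β γ : Chart) (q : Fin 2 → ℂ) (hq : q ∈ overlap β γ) :
    mon d α β q = lineTrans d d β γ q * mon d α γ (tau β γ q) := by
  obtain ⟨a0, a1⟩ := α
  obtain ⟨b0, b1⟩ := β
  obtain ⟨c0, c1⟩ := γ
  obtain ⟨h0, h1⟩ := hq
  simp only at h0 h1
  have e0 : (if b0 = a0 then (1:ℂ) else (q 0) ^ d) =
      (if b0 = c0 then (1:ℂ) else (q 0) ^ (d:ℤ)) *
      (if c0 = a0 then (1:ℂ) else (if b0 = c0 then q 0 else (q 0)⁻¹) ^ d) := by
    by_cases h : b0 = c0
    · subst h; simp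
    · have hq0 := h0 h
      by_cases h' : c0 = a0
      · subst h'; simp [h]
      · have : b0 = a0 := fin2_trans h h'
        subst this
        simp only [if_true, if_neg h, if_neg h', zpow_natCast]
        rw [← mul_pow, mul_inv_cancel₀ hq0, one_pow]
  have e1 : (if b1 = a1 then (1:ℂ) else (q 1) ^ d) =
      (if b1 = c1 then (1:ℂ) else (q 1) ^ (d:ℤ)) *
      (if c1 = a1 then (1:ℂ) else (if b1 = c1 then q 1 else (q 1)⁻¹) ^ d) := by
    by_cases h : b1 = c1
    · subst h; simp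
    · have hq0 := h1 h
      by_cases h' : c1 = a1
      · subst h'; simp [h]
      · have : b1 = a1 := fin2_trans h h'
        subst this
        simp only [if_true, if_neg h, if_neg h', zpow_natCast]
        rw [← mul_pow, mul_inv_cancel₀ hq0, one_pow]
  simp only [mon, lineTrans, tau, Matrix.cons_val_zero, Matrix.cons_val_one,
    Matrix.cons_val_fin_one]
  rw [e0, e1]
  ring

theorem ample_of_GG (hGG : ∀ (m : ℕ) (α : Chart) (p : Fin 2 → ℂ) (R : MvPolynomial (Fin 2) ℂ),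
    R.IsHomogeneous m → ∃ Q, IsSec Gt m 3 3 Q ∧ Q α p = R) (n : ℕ) : IsAmple (gn n) := by
  intro k
  refine ⟨3 * n + k, ?_⟩
  intro m hm α p R hR
  obtain ⟨Q, ⟨hQ1, hQ2, hQ3⟩, hQR⟩ := hGG m α (pw n p) R hR
  obtain ⟨d, hd⟩ : ∃ d, m = 3 * n + k + d := Nat.exists_eq_add_of_le hm
  refine ⟨fun β q => mon d α β q • Q β (pw n q), ⟨?_, ?_, ?_⟩, ?_⟩
  · intro β q
    exact (MvPolynomial.homogeneousSubmodule (Fin 2) ℂ m).smul_mem _ (hQ1 β (pw n q))
  · intro β e
    simp only [MvPolynomial.coeff_smul, smul_eq_mul]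
    exact (mon_diff d α β).mul ((hQ2 β e).comp (differentiable_pw n))
  · intro β γ q hq
    have h1 := hQ3 β γ (pw n q) (pw_mem n β γ q hq)
    show mon d α β q • Q β (pw n q) = _ • frameSubst _ (mon d α γ (tau β γ q) • Q γ (pw n (tau β γ q)))
    rw [frameSubst_smul', gn, frameSubst_smul _ _ (hQ1 γ _), h1, tau_pw, lineTrans_pw,
      mon_rel d α β γ q hq, lineTrans_pow, smul_smul, smul_smul, smul_smul]
    congr 1
    have e1 := lineTrans_mul (-(k:ℤ)) (-(k:ℤ)) ((m:ℤ) * 1) ((m:ℤ) * 1) β γ q hq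
    have e2 := lineTrans_mul (d:ℤ) (d:ℤ) ((n:ℤ) * 3) ((n:ℤ) * 3) β γ q hq
    have e3 : (-(k:ℤ) + (m:ℤ) * 1) = (d:ℤ) + (n:ℤ) * 3 := by
      rw [hd]; push_cast; ring
    rw [e3] at e1
    linear_combination (mon d α γ (tau β γ q)) * (e2 - e1)
  · simp only [mon_self, one_smul]
    exact hQR

end Crest.Agent.S0396
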