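import Crest.Agent.S0396_Id

/-!
S0396, chunk C1: the dimension count.
-/

set_option autoImplicit false

noncomputable section

namespace Crest.Agent.S0396

open Crest.AlgGeometry.QuadricBundle
open MvPolynomial (X C)

namespace C1

/-! ### bounded bidegree -/

lemma mem_B {n n' : ℕ} {p : A} : p ∈ B n n' ↔ ∀ d ∈ p.support, d 0 < n ∧ d 1 < n' :=
  Iff.rfl

lemma mem_B_iff {n n' : ℕ} {p : A} (hp : p ≠ 0) :
    p ∈ B n n' ↔ p.degreeOf 0 < n ∧ p.degreeOf 1 < n' := by
  rw [mem_B]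
  have hne : p.support.Nonempty := MvPolynomial.support_nonempty.2 hp
  constructor
  · intro h
    obtain ⟨d, hd⟩ := hne
    refine ⟨(MvPolynomial.degreeOf_lt_iff (lt_of_le_of_lt (Nat.zero_le _) (h d hd).1)).2
      fun e he => (h e he).1, (MvPolynomial.degreeOf_lt_iff
        (lt_of_le_of_lt (Nat.zero_le _) (h d hd).2)).2 fun e he => (h e he).2⟩
  · rintro ⟨h0, h1⟩ d hd
    exact ⟨lt_of_le_of_lt (MvPolynomial.le_degreeOf_of_mem_support 0 hd) h0,
      lt_of_le_of_lt (MvPolynomial.le_degreeOf_of_mem_support 1 hd) h1⟩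

lemma B_mono {n n' k k' : ℕ} (h : n ≤ k) (h' : n' ≤ k') : B n n' ≤ B k k' := by
  intro p hp d hd
  exact ⟨lt_of_lt_of_le (hp hd).1 h, lt_of_lt_of_le (hp hd).2 h'⟩

lemma mul_mem_B {n n' k k' N N' : ℕ} {p q : A} (hp : p ∈ B n n') (hq : q ∈ B k k')
    (h : n + k ≤ N + 1) (h' : n' + k' ≤ N' + 1) : p * q ∈ B N N' := by
  by_cases hp0 : p = 0
  · rw [hp0, zero_mul]; exact Submodule.zero_mem _
  by_cases hq0 : q = 0
  · rw [hq0, mul_zero]; exact Submodule.zero_mem _
  rw [mem_B_iff hp0] at hp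
  rw [mem_B_iff hq0] at hq
  rw [mem_B_iff (mul_ne_zero hp0 hq0), MvPolynomial.degreeOf_mul_eq hp0 hq0,
    MvPolynomial.degreeOf_mul_eq hp0 hq0]
  omega

lemma div_mem_B {n n' i j : ℕ} {g p : A} (hg : g ≠ 0) (hi : g.degreeOf 0 = i)
    (hj : g.degreeOf 1 = j) (h : g * p ∈ B n n') : p ∈ B (n - i) (n' - j) := by
  by_cases hp0 : p = 0
  · rw [hp0]; exact Submodule.zero_mem _
  rw [mem_B_iff (mul_ne_zero hg hp0), MvPolynomial.degreeOf_mul_eq hg hp0,
    MvPolynomial.degreeOf_mul_eq hg hp0] at h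
  rw [mem_B_iff hp0]
  omega

lemma C_mem_B (a : ℂ) : (C a : A) ∈ B 1 1 := by
  by_cases ha : a = 0
  · rw [ha, map_zero]; exact Submodule.zero_mem _
  rw [mem_B_iff (by simpa using ha)]
  simp

lemma one_mem_B : (1 : A) ∈ B 1 1 := C_mem_B 1

lemma X0_mem_B : (X 0 : A) ∈ B 2 1 := by
  rw [mem_B_iff (MvPolynomial.X_ne_zero _)]
  simp [MvPolynomial.degreeOf_X]

lemma X1_mem_B : (X 1 : A) ∈ B 1 2 := by
  rw [mem_B_iff (MvPolynomial.X_ne_zero _)]
  simp [MvPolynomial.degreeOf_X]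

lemma pow_mem_B {k k' : ℕ} {p : A} (hp : p ∈ B (k + 1) (k' + 1)) (n : ℕ) :
    p ^ n ∈ B (n * k + 1) (n * k' + 1) := by
  induction n with
  | zero => simpa using one_mem_B
  | succ n ih =>
    rw [pow_succ]
    exact mul_mem_B ih hp (by ring_nf; omega) (by ring_nf; omega)

lemma mono_mem_B (a : ℂ) (i j : ℕ) {n n' : ℕ} (hi : i < n) (hj : j < n') :
    (C a * X 0 ^ i * X 1 ^ j : A) ∈ B n n' := by
  have h1 : (X 0 ^ i : A) ∈ B (i * 1 + 1) (i * 0 + 1) := pow_mem_B X0_mem_B i
  have h2 : (X 1 ^ j : A) ∈ B (j * 0 + 1) (j * 1 + 1) := pow_mem_B X1_mem_B j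
  exact mul_mem_B (mul_mem_B (C_mem_B a) h1 (N := i + 1) (N' := 1) (by omega) (by omega)) h2
    (by omega) (by omega)

lemma finrank_B (n n' : ℕ) : Module.finrank ℂ (B n n') = n * n' := by
  classical
  have b := MvPolynomial.basisRestrictSupport ℂ {d : Fin 2 →₀ ℕ | d 0 < n ∧ d 1 < n'}
  let e : {d : Fin 2 →₀ ℕ | d 0 < n ∧ d 1 < n'} ≃ Fin n × Fin n' :=
    { toFun := fun d => (⟨d.1 0, d.2.1⟩, ⟨d.1 1, d.2.2⟩)
      invFun := fun x => ⟨Finsupp.single 0 x.1.1 + Finsupp.single 1 x.2.1, by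
        constructor <;> simp⟩
      left_inv := by
        intro d
        apply Subtype.ext
        ext i
        fin_cases i <;> simp
      right_inv := by
        intro x
        simp }
  have h := Module.finrank_eq_nat_card_basis b
  rw [Nat.card_congr e, Nat.card_prod, Nat.card_fin, Nat.card_fin] at h
  exact h

instance finite_B (n n' : ℕ) : Module.Finite ℂ (B n n') := by
  have b := MvPolynomial.basisRestrictSupport ℂ {d : Fin 2 →₀ ℕ | d 0 < n ∧ d 1 < n'}
  have hfin : Finite {d : Fin 2 →₀ ℕ | d 0 < n ∧ d 1 < n'} := by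
    refine Finite.of_injective
      (fun d => ((⟨d.1 0, d.2.1⟩, ⟨d.1 1, d.2.2⟩) : Fin n × Fin n')) ?_
    intro d e h
    apply Subtype.ext
    ext i
    simp only [Prod.mk.injEq, Fin.mk.injEq] at h
    fin_cases i
    · exact h.1
    · exact h.2
  exact Module.Finite.of_basis b

/-! ### abstract rank count -/

lemma rank_count {M N : Type*} [AddCommGroup M] [Module ℂ M] [AddCommGroup N] [Module ℂ N]
    (U U' : Submodule ℂ M) (T : Submodule ℂ N) [Module.Finite ℂ U] [Module.Finite ℂ U']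
    [Module.Finite ℂ T] (φ : M →ₗ[ℂ] N) (μ : M →ₗ[ℂ] M) (hφ : ∀ P ∈ U, φ P ∈ T)
    (hker : ∀ P ∈ U, φ P = 0 → ∃ P' ∈ U', μ P' = P) :
    Module.finrank ℂ U ≤ Module.finrank ℂ T + Module.finrank ℂ U' ∧
      (Module.finrank ℂ U = Module.finrank ℂ T + Module.finrank ℂ U' →
        ∀ q ∈ T, ∃ P ∈ U, φ P = q) := by
  have h1 := LinearMap.finrank_range_add_finrank_ker (φ.domRestrict U)
  have h2 : LinearMap.range (φ.domRestrict U) ≤ T := by
    rintro _ ⟨P, rfl⟩
    exact hφ P.1 P.2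
  have h3 : Module.finrank ℂ (LinearMap.range (φ.domRestrict U)) ≤ Module.finrank ℂ T :=
    Submodule.finrank_mono h2
  have h4 : (LinearMap.ker (φ.domRestrict U)).map U.subtype ≤ U'.map μ := by
    rintro _ ⟨P, hP, rfl⟩
    obtain ⟨P', hP', h⟩ := hker P.1 P.2 (by simpa using hP)
    exact ⟨P', hP', h⟩
  have h5 : Module.finrank ℂ (LinearMap.ker (φ.domRestrict U)) ≤ Module.finrank ℂ U' := by
    calc Module.finrank ℂ (LinearMap.ker (φ.domRestrict U))
        = Module.finrank ℂ ((LinearMap.ker (φ.domRestrict U)).map U.subtype) :=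
          (Submodule.finrank_map_subtype_eq U _).symm
      _ ≤ Module.finrank ℂ (U'.map μ) := Submodule.finrank_mono h4
      _ ≤ Module.finrank ℂ U' := Submodule.finrank_map_le _ _
  refine ⟨by omega, fun heq q hq => ?_⟩
  have h6 : LinearMap.range (φ.domRestrict U) = T :=
    Submodule.eq_of_le_of_finrank_le h2 (by omega)
  rw [← h6] at hq
  obtain ⟨P, hP⟩ := hq
  exact ⟨P.1, P.2, hP⟩

/-! ### bivariate forms over `A` -/

/-- the exponent `(a, b)`. -/
def idx (a b : ℕ) : Fin 2 →₀ ℕ := Finsupp.single 0 a + Finsupp.single 1 b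

@[simp] lemma idx_zero (a b : ℕ) : idx a b 0 = a := by simp [idx]
@[simp] lemma idx_one (a b : ℕ) : idx a b 1 = b := by simp [idx]

lemma idx_eta (d : Fin 2 →₀ ℕ) : idx (d 0) (d 1) = d := by
  ext i; fin_cases i <;> simp

lemma idx_inj {a b a' b' : ℕ} : idx a b = idx a' b' ↔ a = a' ∧ b = b' := by
  constructor
  · intro h
    exact ⟨by simpa using DFunLike.congr_fun h 0, by simpa using DFunLike.congr_fun h 1⟩
  · rintro ⟨rfl, rfl⟩; rfl

lemma degree_fin2 (d : Fin 2 →₀ ℕ) : d.degree = d 0 + d 1 := by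
  rw [Finsupp.degree_eq_sum, Fin.sum_univ_two]

abbrev M : Type := MvPolynomial (Fin 2) A

lemma hom_coeff {P : M} {m : ℕ} (hP : P.IsHomogeneous m) {d : Fin 2 →₀ ℕ}
    (hd : d 0 + d 1 ≠ m) : P.coeff d = 0 :=
  hP.coeff_eq_zero (by rwa [degree_fin2])

/-- a homogeneous form is determined by its coefficients `(a, m - a)`. -/
lemma hom_ext {P Q : M} {m : ℕ} (hP : P.IsHomogeneous m) (hQ : Q.IsHomogeneous m)
    (h : ∀ a ≤ m, P.coeff (idx a (m - a)) = Q.coeff (idx a (m - a))) : P = Q := by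
  ext1 d
  by_cases hd : d 0 + d 1 = m
  · have h1 : d = idx (d 0) (m - d 0) := by
      conv_lhs => rw [← idx_eta d]
      rw [idx_inj]; omega
    rw [h1]; exact h _ (by omega)
  · rw [hom_coeff hP hd, hom_coeff hQ hd]

/-- divisibility by `X 0`. -/
lemma exists_X0_mul {P : M} {m : ℕ} (hP : P.IsHomogeneous (m + 1))
    (h0 : P.coeff (Finsupp.single 1 (m + 1)) = 0) :
    ∃ Q : M, Q.IsHomogeneous m ∧ P = X 0 * Q := by
  have hdvd : (X 0 : M) ∣ P := by
    rw [MvPolynomial.X_dvd_iff_modMonomial_eq_zero]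
    ext1 d
    by_cases hd : Finsupp.single 0 1 ≤ d
    · rw [MvPolynomial.coeff_modMonomial_of_le _ hd, MvPolynomial.coeff_zero]
    · rw [MvPolynomial.coeff_modMonomial_of_not_le _ hd, MvPolynomial.coeff_zero]
      have hd0 : d 0 = 0 := by
        by_contra hne
        apply hd
        rw [Finsupp.single_le_iff]
        omega
      by_cases hd1 : d 1 = m + 1
      · have : d = Finsupp.single 1 (m + 1) := by
          ext i; fin_cases i <;> simp [hd0, hd1]
        rw [this, h0]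
      · exact hom_coeff hP (by omega)
  obtain ⟨Q, hQ⟩ := hdvd
  refine ⟨Q, ?_, hQ⟩
  intro d hd
  have h1 : P.coeff (d + Finsupp.single 0 1) ≠ 0 := by
    rw [hQ, add_comm, MvPolynomial.coeff_X_mul]
    exact hd
  have h2 : (d + Finsupp.single 0 1).degree = m + 1 := by
    by_contra hne
    exact h1 (hP.coeff_eq_zero hne)
  rw [degree_fin2] at h2
  have h3 : d.degree = m := by
    rw [degree_fin2]
    simp at h2
    omega
  rw [← h3, Finsupp.degree_eq_weight_one]
  rfl

/-! ### the substitutions -/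

/-- `X₀ ↦ z¹⁰ X₀`. -/
def dg : M →ₐ[A] M := MvPolynomial.bind₁ ![C ((X 0) ^ 10) * X 0, X 1]

/-- `X₁ ↦ X₁ + E X₀`. -/
def sp : M →ₐ[A] M := MvPolynomial.bind₁ ![X 0, X 1 + C (EP (0, 0)) * X 0]

/-- `X₁ ↦ X₁ - E X₀`. -/
def sm : M →ₐ[A] M := MvPolynomial.bind₁ ![X 0, X 1 - C (EP (0, 0)) * X 0]

lemma sm_sp (P : M) : sm (sp P) = P := by
  have : sm.comp sp = AlgHom.id A M := by
    apply MvPolynomial.algHom_ext
    intro i
    fin_cases i <;> simp [sm, sp]
  exact DFunLike.congr_fun this P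

lemma sp_sm (P : M) : sp (sm P) = P := by
  have : sp.comp sm = AlgHom.id A M := by
    apply MvPolynomial.algHom_ext
    intro i
    fin_cases i <;> simp [sm, sp]
  exact DFunLike.congr_fun this P

lemma sub1_eq (P : M) : sub1 P = sm (dg P) := by
  have : sub1 = sm.comp dg := by
    apply MvPolynomial.algHom_ext
    intro i
    fin_cases i <;> simp [sm, dg, sub1]
  exact DFunLike.congr_fun this P

lemma sp_sub1 (P : M) : sp (sub1 P) = dg P := by
  rw [sub1_eq, sp_sm]

lemma mono_eq {R : Type*} [CommSemiring R] (d : Fin 2 →₀ ℕ) (a : R) :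
    MvPolynomial.monomial d a = C a * (X 0 ^ d 0 * X 1 ^ d 1) := by
  rw [MvPolynomial.monomial_eq, Finsupp.prod_fintype _ _ (fun i => pow_zero _),
    Fin.prod_univ_two]

lemma coeff_dg (P : M) (d : Fin 2 →₀ ℕ) : (dg P).coeff d = X 0 ^ (10 * d 0) * P.coeff d := by
  induction P using MvPolynomial.induction_on' with
  | monomial e a =>
    have h1 : dg (MvPolynomial.monomial e a) = MvPolynomial.monomial e (X 0 ^ (10 * e 0) * a) := by
      rw [mono_eq, mono_eq, dg]
      simp only [map_mul, map_pow, MvPolynomial.bind₁_X_right, MvPolynomial.bind₁_C_right,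
        Matrix.cons_val_zero, Matrix.cons_val_one]
      ring
    rw [h1]
    simp only [MvPolynomial.coeff_monomial]
    split_ifs with h
    · rw [h]
    · rw [mul_zero]
  | add p q hp hq =>
    rw [map_add, MvPolynomial.coeff_add, hp, hq, MvPolynomial.coeff_add, mul_add]

lemma dg_injective : Function.Injective dg := by
  intro P Q h
  ext1 d
  have h1 := congrArg (MvPolynomial.coeff d) h
  rw [coeff_dg, coeff_dg] at h1
  exact mul_left_cancel₀ (pow_ne_zero _ (MvPolynomial.X_ne_zero _)) h1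

lemma sub1_injective : Function.Injective sub1 := by
  intro P Q h
  apply dg_injective
  rw [← sp_sub1, ← sp_sub1, h]

lemma sub1_hom {P : M} {m : ℕ} (hP : P.IsHomogeneous m) : (sub1 P).IsHomogeneous m := by
  have h := hP.aeval (![C ((X 0) ^ 10) * X 0, X 1 - C (EP (0, 0)) * X 0] : Fin 2 → M) (n := 1) (by
    intro i
    fin_cases i
    · exact MvPolynomial.isHomogeneous_C_mul_X _ _
    · exact (MvPolynomial.isHomogeneous_X _ _).sub (MvPolynomial.isHomogeneous_C_mul_X _ _))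
  rw [one_mul] at h
  exact h

lemma sp_hom {P : M} {m : ℕ} (hP : P.IsHomogeneous m) : (sp P).IsHomogeneous m := by
  have h := hP.aeval (![X 0, X 1 + C (EP (0, 0)) * X 0] : Fin 2 → M) (n := 1) (by
    intro i
    fin_cases i
    · exact MvPolynomial.isHomogeneous_X _ _
    · exact (MvPolynomial.isHomogeneous_X _ _).add (MvPolynomial.isHomogeneous_C_mul_X _ _))
  rw [one_mul] at h
  exact h

/-- evaluation at `(x, y)` of a form of degree `m`. -/
lemma aeval_hom (P : M) (x y : A) :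
    MvPolynomial.aeval ![x, y] P = ∑ d ∈ P.support, P.coeff d * (x ^ d 0 * y ^ d 1) := by
  rw [MvPolynomial.aeval_def, MvPolynomial.eval₂_eq']
  refine Finset.sum_congr rfl fun d _ => ?_
  simp [Fin.prod_univ_two]

lemma aeval_zero_one {P : M} {m : ℕ} (hP : P.IsHomogeneous m) :
    MvPolynomial.aeval ![(0 : A), 1] P = P.coeff (Finsupp.single 1 m) := by
  rw [aeval_hom]
  rw [Finset.sum_eq_single (Finsupp.single 1 m)]
  · simp
  · intro d hd hne
    by_cases h0 : d 0 = 0
    · exfalso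
      have h1 : d 0 + d 1 = m := by
        by_contra h
        exact (MvPolynomial.mem_support_iff.1 hd) (hom_coeff hP h)
      apply hne
      ext i
      fin_cases i
      · simpa using h0
      · simp; omega
    · rw [zero_pow h0]; ring
  · intro h
    rw [MvPolynomial.notMem_support_iff.1 h]; ring

lemma coeff_sub1_zero {P : M} {m : ℕ} (hP : P.IsHomogeneous m) :
    (sub1 P).coeff (Finsupp.single 1 m) = P.coeff (Finsupp.single 1 m) := by
  rw [← aeval_zero_one hP, ← aeval_zero_one (sub1_hom hP)]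
  have : (MvPolynomial.aeval ![(0 : A), 1]).comp sub1 =
      (MvPolynomial.aeval ![(0 : A), 1] : M →ₐ[A] A) := by
    apply MvPolynomial.algHom_ext
    intro i
    fin_cases i <;> simp [sub1]
  exact DFunLike.congr_fun this P

lemma mem_V {m s s' : ℕ} {P : M} : P ∈ V m s s' ↔ P.IsHomogeneous m ∧
    ∀ d, MvPolynomial.coeff d (sub1 P) ∈ B (s + 8 * m - d 0) (s' + 5 * d 0) := Iff.rfl

/-- coefficient extraction, over `ℂ`. -/
def cf (d : Fin 2 →₀ ℕ) : M →ₗ[ℂ] A where
  toFun P := P.coeff d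
  map_add' P Q := MvPolynomial.coeff_add _ _ _
  map_smul' a P := by simp [MvPolynomial.coeff_smul]

@[simp] lemma cf_apply (d : Fin 2 →₀ ℕ) (P : M) : cf d P = P.coeff d := rfl

/-- coefficient extraction, over `ℂ`. -/
def cf' (d : Fin 2 →₀ ℕ) : A →ₗ[ℂ] ℂ where
  toFun P := P.coeff d
  map_add' P Q := MvPolynomial.coeff_add _ _ _
  map_smul' a P := by simp [MvPolynomial.coeff_smul]

@[simp] lemma cf'_apply (d : Fin 2 →₀ ℕ) (P : A) : cf' d P = P.coeff d := rfl

/-- an `A`-algebra hom as a `ℂ`-linear map. -/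
def lin (φ : M →ₐ[A] M) : M →ₗ[ℂ] M := φ.toLinearMap.restrictScalars ℂ

@[simp] lemma lin_apply (φ : M →ₐ[A] M) (P : M) : lin φ P = φ P := rfl

/-- the space of tuples. -/
abbrev Pr (m s s' : ℕ) : Type := (b : Fin (m + 1)) → B (s + 8 * m - b) (s' + 5 * b)

/-- `P ↦` the coefficients of `sub1 P`. -/
def Psi (m s s' : ℕ) : V m s s' →ₗ[ℂ] Pr m s s' :=
  LinearMap.pi fun b => ((cf (idx b (m - b))).comp ((lin sub1).comp (V m s s').subtype)).codRestrict
    _ (by
      intro P
      have h := P.2.2 (idx b (m - b))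
      rw [idx_zero] at h
      exact h)

lemma Psi_apply {m s s' : ℕ} (P : V m s s') (b : Fin (m + 1)) :
    ((Psi m s s' P b : B (s + 8 * m - b) (s' + 5 * b)) : A) =
      (sub1 (P : M)).coeff (idx b (m - b)) := rfl

lemma Psi_injective (m s s' : ℕ) : Function.Injective (Psi m s s') := by
  intro P Q h
  apply Subtype.ext
  apply sub1_injective
  apply hom_ext (sub1_hom P.2.1) (sub1_hom Q.2.1)
  intro a ha
  have h1 := congrArg Subtype.val (congrFun h ⟨a, Nat.lt_succ_of_le ha⟩)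
  exact h1

instance finite_V (m s s' : ℕ) : Module.Finite ℂ (V m s s') :=
  Module.Finite.of_injective (Psi m s s') (Psi_injective m s s')

/-- the inverse construction. -/
def Phi (m s s' : ℕ) : Pr m s s' →ₗ[ℂ] M where
  toFun S := ∑ b : Fin (m + 1), MvPolynomial.monomial (idx b (m - b)) ((S b : B _ _) : A)
  map_add' S T := by
    rw [← Finset.sum_add_distrib]
    refine Finset.sum_congr rfl fun b _ => ?_
    simp
  map_smul' a S := by
    rw [RingHom.id_apply, Finset.smul_sum]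
    refine Finset.sum_congr rfl fun b _ => ?_
    rw [MvPolynomial.smul_monomial]
    rfl

lemma Phi_apply {m s s' : ℕ} (S : Pr m s s') :
    Phi m s s' S = ∑ b : Fin (m + 1), MvPolynomial.monomial (idx b (m - b)) ((S b : B _ _) : A) :=
  rfl

lemma Phi_hom {m s s' : ℕ} (S : Pr m s s') : (Phi m s s' S).IsHomogeneous m := by
  rw [Phi_apply]
  apply MvPolynomial.IsHomogeneous.sum
  intro b _
  apply MvPolynomial.isHomogeneous_monomial
  rw [degree_fin2, idx_zero, idx_one]
  omega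

lemma coeff_Phi {m s s' : ℕ} (S : Pr m s s') (b : Fin (m + 1)) :
    (Phi m s s' S).coeff (idx b (m - b)) = (S b : A) := by
  classical
  rw [Phi_apply, MvPolynomial.coeff_sum, Finset.sum_eq_single b]
  · simp
  · intro c _ hc
    rw [MvPolynomial.coeff_monomial, if_neg]
    rw [idx_inj]
    intro h
    exact hc (Fin.ext h.1)
  · simp

/-! ### the `w`-degree filtration -/

/-- polynomials of `w`-degree `< n`. -/
def Bw (n : ℕ) : Submodule ℂ A := MvPolynomial.restrictSupport ℂ {d | d 1 < n}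

lemma mem_Bw {n : ℕ} {p : A} : p ∈ Bw n ↔ ∀ d ∈ p.support, d 1 < n := Iff.rfl

lemma B_le_Bw (n n' : ℕ) : B n n' ≤ Bw n' := fun _ hp _ hd => (hp hd).2

lemma Bw_mono {n k : ℕ} (h : n ≤ k) : Bw n ≤ Bw k := fun _ hp _ hd => lt_of_lt_of_le (hp hd) h

lemma mem_Bw_iff {n : ℕ} {p : A} (hp : p ≠ 0) : p ∈ Bw n ↔ p.degreeOf 1 < n := by
  rw [mem_Bw]
  have hne : p.support.Nonempty := MvPolynomial.support_nonempty.2 hp
  constructor
  · intro h
    obtain ⟨d, hd⟩ := hne
    exact (MvPolynomial.degreeOf_lt_iff (lt_of_le_of_lt (Nat.zero_le _) (h d hd))).2 h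
  · intro h1 d hd
    exact lt_of_le_of_lt (MvPolynomial.le_degreeOf_of_mem_support 1 hd) h1

lemma mul_mem_Bw {n k N : ℕ} {p q : A} (hp : p ∈ Bw n) (hq : q ∈ Bw k)
    (h : n + k ≤ N + 1) : p * q ∈ Bw N := by
  by_cases hp0 : p = 0
  · rw [hp0, zero_mul]; exact Submodule.zero_mem _
  by_cases hq0 : q = 0
  · rw [hq0, mul_zero]; exact Submodule.zero_mem _
  rw [mem_Bw_iff hp0] at hp
  rw [mem_Bw_iff hq0] at hq
  rw [mem_Bw_iff (mul_ne_zero hp0 hq0), MvPolynomial.degreeOf_mul_eq hp0 hq0]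
  omega

/-- the filtration on forms: the coefficient of `X₀^a X₁^b` has `w`-degree `< t + 5 a`. -/
def W (t : ℕ) : Submodule ℂ M where
  carrier := {P | ∀ d, P.coeff d ∈ Bw (t + 5 * d 0)}
  zero_mem' := fun d => by simp
  add_mem' := fun {P Q} hP hQ d => by
    rw [MvPolynomial.coeff_add]; exact Submodule.add_mem _ (hP d) (hQ d)
  smul_mem' := fun a P hP d => by
    rw [MvPolynomial.coeff_smul]; exact Submodule.smul_mem _ _ (hP d)

lemma mem_W {t : ℕ} {P : M} : P ∈ W t ↔ ∀ d, P.coeff d ∈ Bw (t + 5 * d 0) := Iff.rfl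

lemma mul_mem_W {t : ℕ} {P Q : M} (hP : P ∈ W t) (hQ : Q ∈ W 1) : P * Q ∈ W t := by
  classical
  intro d
  rw [MvPolynomial.coeff_mul]
  refine Submodule.sum_mem _ fun x hx => ?_
  rw [Finset.HasAntidiagonal.mem_antidiagonal] at hx
  have h0 : x.1 0 + x.2 0 = d 0 := by rw [← hx]; rfl
  exact mul_mem_Bw (hP x.1) (hQ x.2) (by omega)

lemma one_mem_W : (1 : M) ∈ W 1 := by
  classical
  intro d
  rw [MvPolynomial.coeff_one]
  split_ifs with h
  · exact Bw_mono (by omega) (B_le_Bw _ _ one_mem_B)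
  · exact Submodule.zero_mem _

lemma pow_mem_W {P : M} (hP : P ∈ W 1) (n : ℕ) : P ^ n ∈ W 1 := by
  induction n with
  | zero => simpa using one_mem_W
  | succ n ih => rw [pow_succ]; exact mul_mem_W ih hP

lemma monomial_mem_W {t : ℕ} {d : Fin 2 →₀ ℕ} {a : A} (ha : a ∈ Bw (t + 5 * d 0)) :
    MvPolynomial.monomial d a ∈ W t := by
  classical
  intro e
  rw [MvPolynomial.coeff_monomial]
  split_ifs with h
  · rwa [← h]
  · exact Submodule.zero_mem _

lemma X_mem_W (i : Fin 2) : (X i : M) ∈ W 1 := by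
  refine monomial_mem_W ?_
  exact Bw_mono (by omega) (B_le_Bw _ _ one_mem_B)

lemma sp_mem_W (hE : EP (0, 0) ∈ B 10 6) {t : ℕ} {P : M} (hP : P ∈ W t) : sp P ∈ W t := by
  have h1 : sp P = ∑ d ∈ P.support, MvPolynomial.monomial (Finsupp.single 0 (d 0)) (P.coeff d) *
      (X 1 + C (EP (0, 0)) * X 0) ^ d 1 := by
    conv_lhs => rw [P.as_sum]
    rw [map_sum]
    refine Finset.sum_congr rfl fun d _ => ?_
    rw [mono_eq, mono_eq, sp]
    simp only [map_mul, map_pow, MvPolynomial.bind₁_X_right, MvPolynomial.bind₁_C_right,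
      Matrix.cons_val_zero, Matrix.cons_val_one]
    simp
    ring
  rw [h1]
  refine Submodule.sum_mem _ fun d _ => ?_
  refine mul_mem_W (monomial_mem_W ?_) (pow_mem_W (Submodule.add_mem _ (X_mem_W 1) ?_) _)
  · simpa using hP d
  · have : (C (EP (0, 0)) * X 0 : M) = MvPolynomial.monomial (Finsupp.single 0 1) (EP (0, 0)) := by
      rw [mono_eq]; simp
    rw [this]
    refine monomial_mem_W ?_
    simp only [Finsupp.single_eq_same]
    exact B_le_Bw _ _ hE

/-! ### the lower bound -/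

/-- the obstruction map. -/
def Om (m s s' : ℕ) : Pr m s s' →ₗ[ℂ]
    ((a : Fin (m + 1)) → Fin (10 * a) → Fin (s' + 5 * a) → ℂ) :=
  LinearMap.pi fun a => LinearMap.pi fun k => LinearMap.pi fun l =>
    (cf' (idx k l)).comp ((cf (idx a (m - a))).comp ((lin sp).comp (Phi m s s')))

lemma Om_apply {m s s' : ℕ} (S : Pr m s s') (a : Fin (m + 1)) (k : Fin (10 * a))
    (l : Fin (s' + 5 * a)) :
    Om m s s' S a k l = ((sp (Phi m s s' S)).coeff (idx a (m - a))).coeff (idx k l) := rfl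

lemma X0_pow_dvd {n : ℕ} {p : A} (h : ∀ k l, k < n → p.coeff (idx k l) = 0) :
    (X 0 : A) ^ n ∣ p := by
  have h1 : (X 0 : A) ^ n = MvPolynomial.monomial (Finsupp.single 0 n) 1 := by
    rw [MvPolynomial.X_pow_eq_monomial]
  rw [h1, MvPolynomial.monomial_one_dvd_iff_modMonomial_eq_zero]
  ext1 d
  by_cases hd : Finsupp.single 0 n ≤ d
  · rw [MvPolynomial.coeff_modMonomial_of_le _ hd, MvPolynomial.coeff_zero]
  · rw [MvPolynomial.coeff_modMonomial_of_not_le _ hd, MvPolynomial.coeff_zero, ← idx_eta d]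
    apply h
    by_contra hne
    apply hd
    rw [Finsupp.single_le_iff]
    omega

lemma exists_of_ker (hE : EP (0, 0) ∈ B 10 6) {m s s' : ℕ} (S : Pr m s s')
    (hS : Om m s s' S = 0) : ∃ P : V m s s', Psi m s s' P = S := by
  classical
  set T := sp (Phi m s s' S) with hT
  have hThom : T.IsHomogeneous m := sp_hom (Phi_hom S)
  have hTW : T ∈ W s' := by
    apply sp_mem_W hE
    rw [Phi_apply]
    refine Submodule.sum_mem _ fun b _ => monomial_mem_W ?_
    rw [idx_zero]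
    exact B_le_Bw _ _ (S b).2
  have hdvd : ∀ d : Fin 2 →₀ ℕ, ∃ r : A, X 0 ^ (10 * d 0) * r = T.coeff d ∧
      (T.coeff d = 0 → r = 0) := by
    intro d
    by_cases hd0 : T.coeff d = 0
    · exact ⟨0, by rw [hd0, mul_zero], fun _ => rfl⟩
    · have hd : d 0 + d 1 = m := by
        by_contra h
        exact hd0 (hom_coeff hThom h)
      have h1 : (X 0 : A) ^ (10 * d 0) ∣ T.coeff d := by
        apply X0_pow_dvd
        intro k l hk
        by_cases hl : l < s' + 5 * d 0
        · have h2 := congrFun (congrFun (congrFun hS ⟨d 0, by omega⟩) ⟨k, hk⟩) ⟨l, hl⟩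
          rw [Om_apply] at h2
          have h3 : idx (d 0) (m - d 0) = d := by
            conv_rhs => rw [← idx_eta d]
            rw [idx_inj]; omega
          simp only [h3] at h2
          exact h2
        · by_contra hne
          have h2 := mem_Bw.1 (hTW d) (idx k l) (MvPolynomial.mem_support_iff.2 hne)
          rw [idx_one] at h2
          exact hl h2
      obtain ⟨r, hr⟩ := h1
      exact ⟨r, hr.symm, fun h => absurd h hd0⟩
  choose r hr hr0 using hdvd
  let P : M := ∑ d ∈ T.support, MvPolynomial.monomial d (r d)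
  have hPc : ∀ d, P.coeff d = r d := by
    intro d
    simp only [P, MvPolynomial.coeff_sum, MvPolynomial.coeff_monomial]
    rw [Finset.sum_ite_eq']
    split_ifs with h
    · rfl
    · rw [hr0 d (MvPolynomial.notMem_support_iff.1 h)]
  have hPdg : dg P = T := by
    ext1 d
    rw [coeff_dg, hPc, hr]
  have hPsub : sub1 P = Phi m s s' S := by
    have h1 : sp (sub1 P) = sp (Phi m s s' S) := by rw [sp_sub1, hPdg]
    rw [← sm_sp (sub1 P), h1, sm_sp]
  have hPhom : P.IsHomogeneous m := by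
    apply MvPolynomial.IsHomogeneous.sum
    intro d hd
    apply MvPolynomial.isHomogeneous_monomial
    rw [degree_fin2]
    by_contra h
    exact (MvPolynomial.mem_support_iff.1 hd) (hom_coeff hThom h)
  refine ⟨⟨P, hPhom, fun d => ?_⟩, ?_⟩
  · rw [hPsub]
    by_cases hd : d 0 + d 1 = m
    · have h3 : idx (d 0) (m - d 0) = d := by
        conv_rhs => rw [← idx_eta d]
        rw [idx_inj]; omega
      have h4 := coeff_Phi S ⟨d 0, by omega⟩
      simp only [h3] at h4
      rw [h4]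
      exact (S ⟨d 0, by omega⟩).2
    · rw [hom_coeff (Phi_hom S) hd]
      exact Submodule.zero_mem _
  · funext b
    apply Subtype.ext
    rw [Psi_apply]
    simp only [hPsub]
    exact coeff_Phi S b

lemma finrank_V_ge (hE : EP (0, 0) ∈ B 10 6) (m s s' : ℕ) :
    ∑ b ∈ Finset.range (m + 1), (s + 8 * m - b) * (s' + 5 * b) ≤
      Module.finrank ℂ (V m s s') + ∑ a ∈ Finset.range (m + 1), 10 * a * (s' + 5 * a) := by
  have h1 : Module.finrank ℂ (Pr m s s') =
      ∑ b ∈ Finset.range (m + 1), (s + 8 * m - b) * (s' + 5 * b) := by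
    rw [Module.finrank_pi_fintype, Finset.sum_range]
    exact Finset.sum_congr rfl fun b _ => finrank_B _ _
  have h2 : Module.finrank ℂ ((a : Fin (m + 1)) → Fin (10 * a) → Fin (s' + 5 * a) → ℂ) =
      ∑ a ∈ Finset.range (m + 1), 10 * a * (s' + 5 * a) := by
    rw [Module.finrank_pi_fintype, Finset.sum_range]
    refine Finset.sum_congr rfl fun a _ => ?_
    rw [Module.finrank_pi_fintype]
    simp
  have h3 := LinearMap.finrank_range_add_finrank_ker (Om m s s')
  have h4 : Module.finrank ℂ (LinearMap.range (Om m s s')) ≤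
      Module.finrank ℂ ((a : Fin (m + 1)) → Fin (10 * a) → Fin (s' + 5 * a) → ℂ) :=
    Submodule.finrank_le _
  have h5 : LinearMap.ker (Om m s s') ≤ LinearMap.range (Psi m s s') := by
    intro S hS
    exact exists_of_ker hE S hS
  have h6 := Submodule.finrank_mono h5
  have h7 : Module.finrank ℂ (LinearMap.range (Psi m s s')) = Module.finrank ℂ (V m s s') :=
    LinearMap.finrank_range_of_inj (Psi_injective m s s')
  omega

/-! ### degrees of the explicit polynomials -/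

/-- a finite list of monomials as a polynomial. -/
def ofL (L : List (ℂ × ℕ × ℕ)) : A :=
  (L.map fun t => C t.1 * X 0 ^ t.2.1 * X 1 ^ t.2.2).sum

lemma ofL_mem (L : List (ℂ × ℕ × ℕ)) {n n' : ℕ} (h : ∀ t ∈ L, t.2.1 < n ∧ t.2.2 < n') :
    ofL L ∈ B n n' := by
  unfold ofL
  apply list_sum_mem
  intro p hp
  rw [List.mem_map] at hp
  obtain ⟨t, ht, rfl⟩ := hp
  exact mono_mem_B _ _ _ (h t ht).1 (h t ht).2

lemma coeff_mono_idx (a : ℂ) (i j k l : ℕ) :
    (C a * X 0 ^ i * X 1 ^ j : A).coeff (idx k l) = if i = k ∧ j = l then a else 0 := by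
  classical
  have h1 : (C a * X 0 ^ i * X 1 ^ j : A) = MvPolynomial.monomial (idx i j) a := by
    rw [mono_eq, idx_zero, idx_one]; ring
  rw [h1, MvPolynomial.coeff_monomial]
  simp only [idx_inj]

lemma coeff_ofL (L : List (ℂ × ℕ × ℕ)) (k l : ℕ) : (ofL L).coeff (idx k l) =
    (L.map fun t => if t.2.1 = k ∧ t.2.2 = l then t.1 else 0).sum := by
  induction L with
  | nil => simp [ofL]
  | cons t L ih =>
    have h1 : ofL (t :: L) = C t.1 * X 0 ^ t.2.1 * X 1 ^ t.2.2 + ofL L := by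
      simp [ofL]
    rw [h1, MvPolynomial.coeff_add, ih, coeff_mono_idx, List.map_cons, List.sum_cons]

lemma fP_eq : fP (0, 0) = ofL [(1, 3, 0), (3 - 3 * cc ^ 2, 2, 1), (3 - 3 * cc ^ 2, 1, 2),
    (1, 0, 3), (- cc ^ 3, 0, 0), (- cc ^ 3, 3, 3)] := by
  simp only [fP, fE, ofL, List.map_cons, List.map_nil, List.sum_cons, List.sum_nil]
  simp only [map_sub, map_mul, map_neg, map_pow, map_one, map_ofNat, if_true]
  ring

lemma fP_mem : fP (0, 0) ∈ B 4 4 := by
  rw [fP_eq]
  apply ofL_mem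
  simp

lemma JH_mem : JH (C cc) (X 0) (X 1) ∈ B 3 9 := by
  have h : JH (C cc) (X 0 : A) (X 1) = ofL [(-100 * cc - 412 * cc ^ 3, 0, 1),
      (12 + 58 * cc ^ 2, 0, 4), (32 * cc - 4 * cc ^ 3, 0, 7), (132 * cc + 544 * cc ^ 3, 1, 0),
      (-320 - 1320 * cc ^ 2, 1, 3), (108 * cc - 8 * cc ^ 3, 1, 6), (388 + 1602 * cc ^ 2, 2, 2),
      (60 * cc - 80 * cc ^ 3, 2, 5), (1, 2, 8)] := by
    simp only [JH, ofL, List.map_cons, List.map_nil, List.sum_cons, List.sum_nil]
    simp only [map_sub, map_add, map_mul, map_neg, map_pow, map_one, map_ofNat]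
    ring
  rw [h]
  apply ofL_mem
  simp

lemma EP_mem : EP (0, 0) ∈ B 10 6 := by
  have h : EP (0, 0) = ofL [(12 + 50 * cc ^ 2, 0, 1), (32 * cc - 4 * cc ^ 3, 0, 4),
      (-16 - 66 * cc ^ 2, 1, 0), (-12 * cc + 4 * cc ^ 3, 1, 3), (-19 * cc ^ 3, 2, 2), (1, 2, 5),
      (4 * cc + 22 * cc ^ 3, 3, 1), (-3 - 5 * cc ^ 2, 3, 4), (-cc ^ 3, 4, 0),
      (16 + 57 * cc ^ 2, 4, 3), (-16 - 57 * cc ^ 2, 5, 2), (cc ^ 3, 5, 5),
      (3 + 5 * cc ^ 2, 6, 1), (-4 * cc - 22 * cc ^ 3, 6, 4), (-1, 7, 0), (19 * cc ^ 3, 7, 3),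
      (12 * cc - 4 * cc ^ 3, 8, 2), (16 + 66 * cc ^ 2, 8, 5), (-32 * cc + 4 * cc ^ 3, 9, 1),
      (-12 - 50 * cc ^ 2, 9, 4)] := by
    simp only [EP, EE, ofL, List.map_cons, List.map_nil, List.sum_cons, List.sum_nil]
    simp only [map_sub, map_add, map_mul, map_neg, map_pow, map_one, map_ofNat, if_true]
    ring
  rw [h]
  apply ofL_mem
  simp

lemma fP_coeff30 : (fP (0, 0)).coeff (idx 3 0) = 1 := by
  rw [fP_eq, coeff_ofL]
  simp

lemma fP_coeff03 : (fP (0, 0)).coeff (idx 0 3) = 1 := by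
  rw [fP_eq, coeff_ofL]
  simp

lemma fP_ne : fP (0, 0) ≠ 0 := by
  intro h
  have := fP_coeff30
  rw [h] at this
  simp at this

lemma fP_deg0 : (fP (0, 0)).degreeOf 0 = 3 := by
  have h1 := (mem_B_iff fP_ne).1 fP_mem
  have h2 := MvPolynomial.le_degreeOf_of_mem_support (p := fP (0, 0)) 0
    (s := idx 3 0) (by rw [MvPolynomial.mem_support_iff, fP_coeff30]; exact one_ne_zero)
  rw [idx_zero] at h2
  omega

lemma fP_deg1 : (fP (0, 0)).degreeOf 1 = 3 := by
  have h1 := (mem_B_iff fP_ne).1 fP_mem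
  have h2 := MvPolynomial.le_degreeOf_of_mem_support (p := fP (0, 0)) 1
    (s := idx 0 3) (by rw [MvPolynomial.mem_support_iff, fP_coeff03]; exact one_ne_zero)
  rw [idx_one] at h2
  omega

/-! ### the map `λ` (coefficient of `X₁^m`) -/

lemma lam_mem {m s s' : ℕ} {P : M} (hP : P ∈ V m s s') :
    P.coeff (Finsupp.single 1 m) ∈ B (8 * m + s) s' := by
  have h := hP.2 (Finsupp.single 1 m)
  rw [coeff_sub1_zero hP.1] at h
  refine B_mono ?_ ?_ h
  · simp; omega
  · simp

lemma X0_pow_deg0 (n : ℕ) : ((X 0 : A) ^ n).degreeOf 0 = n :=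
  MvPolynomial.degreeOf_X_self_pow 0 n

lemma X0_pow_deg1 (n : ℕ) : ((X 0 : A) ^ n).degreeOf 1 = 0 := by
  rw [MvPolynomial.degreeOf_pow_eq _ _ _ (MvPolynomial.X_ne_zero _), MvPolynomial.degreeOf_X]
  simp

lemma lam_ker {m s s' : ℕ} {P : M} (hP : P ∈ V (m + 1) (s + 3) s')
    (h0 : P.coeff (Finsupp.single 1 (m + 1)) = 0) :
    ∃ Q ∈ V m s (s' + 5), X 0 * Q = P := by
  obtain ⟨Q, hQ, rfl⟩ := exists_X0_mul hP.1 h0
  refine ⟨Q, ⟨hQ, fun d => ?_⟩, rfl⟩
  have h1 := hP.2 (Finsupp.single 0 1 + d)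
  have h2 : sub1 (X 0 * Q) = X 0 * (C ((X 0) ^ 10) * sub1 Q) := by
    rw [map_mul, sub1, MvPolynomial.bind₁_X_right]
    simp only [Matrix.cons_val_zero]
    ring
  rw [h2, MvPolynomial.coeff_X_mul, MvPolynomial.coeff_C_mul] at h1
  have h3 := div_mem_B (pow_ne_zero _ (MvPolynomial.X_ne_zero _)) (X0_pow_deg0 10)
    (X0_pow_deg1 10) h1
  refine B_mono ?_ ?_ h3
  · simp; omega
  · simp; omega

/-! ### the map `Th` -/

lemma F_mul_E : EP (0, 0) * fP (0, 0) = JH (C cc) (X 0) (X 1) - (X 0) ^ 10 * JP (0, 0) := by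
  rw [mul_comm]; exact fP_mul_EP

lemma ev_sub1 {P : M} {m : ℕ} (hP : P.IsHomogeneous m) :
    MvPolynomial.aeval ![fP (0, 0), JH (C cc) (X 0) (X 1)] (sub1 P) = X 0 ^ (10 * m) * Th P := by
  have h1 : (MvPolynomial.aeval ![fP (0, 0), JH (C cc) (X 0) (X 1)]).comp sub1 =
      (MvPolynomial.aeval ![X 0 ^ 10 * fP (0, 0), X 0 ^ 10 * JP (0, 0)] : M →ₐ[A] A) := by
    apply MvPolynomial.algHom_ext
    intro i
    fin_cases i
    · simp [sub1]
    · simp [sub1, F_mul_E]
  have h2 := DFunLike.congr_fun h1 P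
  rw [AlgHom.comp_apply] at h2
  rw [h2, Th, aeval_hom, aeval_hom, Finset.mul_sum]
  refine Finset.sum_congr rfl fun d hd => ?_
  have hdm : d 0 + d 1 = m := by
    by_contra h
    exact (MvPolynomial.mem_support_iff.1 hd) (hom_coeff hP h)
  rw [← hdm]
  ring

lemma Th_mem {m s s' : ℕ} {P : M} (hP : P ∈ V m s s') : Th P ∈ B s (8 * m + s') := by
  have h1 : X 0 ^ (10 * m) * Th P ∈ B (s + 10 * m) (s' + 8 * m) := by
    rw [← ev_sub1 hP.1, aeval_hom]
    refine Submodule.sum_mem _ fun d hd => ?_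
    have hdm : d 0 + d 1 = m := by
      by_contra h
      exact (MvPolynomial.mem_support_iff.1 hd) (hom_coeff (sub1_hom hP.1) h)
    have hF := pow_mem_B (k := 3) (k' := 3) fP_mem (d 0)
    have hH := pow_mem_B (k := 2) (k' := 8) JH_mem (d 1)
    have hFH := mul_mem_B (N := d 0 * 3 + d 1 * 2 + 1) (N' := d 0 * 3 + d 1 * 8 + 1) hF hH
      (by omega) (by omega)
    exact mul_mem_B (hP.2 d) hFH (by omega) (by omega)
  have h2 := div_mem_B (pow_ne_zero _ (MvPolynomial.X_ne_zero _)) (X0_pow_deg0 (10 * m))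
    (X0_pow_deg1 (10 * m)) h1
  exact B_mono (by omega) (by omega) h2

/-- the form `f X₁ - J X₀`. -/
def kap : M := C (fP (0, 0)) * X 1 - C (JP (0, 0)) * X 0

lemma sub1_kap : sub1 kap = C (fP (0, 0)) * X 1 - C (JH (C cc) (X 0) (X 1)) * X 0 := by
  have h : JH (C cc) (X 0 : A) (X 1) = EP (0, 0) * fP (0, 0) + (X 0) ^ 10 * JP (0, 0) := by
    rw [F_mul_E]; ring
  rw [h, kap, sub1]
  simp only [map_sub, map_mul, map_add, MvPolynomial.bind₁_X_right, MvPolynomial.bind₁_C_right,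
    Matrix.cons_val_zero, Matrix.cons_val_one]
  ring

/-- divisibility by `κ`. -/
lemma exists_kap_mul {P : M} {m : ℕ} (hP : P.IsHomogeneous (m + 1)) (h0 : Th P = 0) :
    ∃ Q : M, Q.IsHomogeneous m ∧ P = kap * Q := by
  obtain ⟨u, v, huv⟩ := fP_JP_coprime
  let g : Fin 2 → M := ![C (fP (0, 0)) * X 1 - C v * X 0, C (JP (0, 0)) * X 1 + C u * X 0]
  let g' : Fin 2 → M := ![kap, C u * X 0 + C v * X 1]
  have hC : (C u * C (fP (0, 0)) + C v * C (JP (0, 0)) : M) = 1 := by
    rw [← map_mul, ← map_mul, ← map_add, huv, map_one]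
  have hinv : (MvPolynomial.bind₁ g').comp (MvPolynomial.bind₁ g) = AlgHom.id A M := by
    apply MvPolynomial.algHom_ext
    intro i
    fin_cases i
    · simp only [AlgHom.comp_apply, g, g', MvPolynomial.bind₁_X_right, Fin.zero_eta,
        Matrix.cons_val_zero, map_sub, map_mul, MvPolynomial.bind₁_C_right,
        Matrix.cons_val_one, AlgHom.id_apply, kap]
      linear_combination (X 0) * hC
    · simp only [AlgHom.comp_apply, g, g', MvPolynomial.bind₁_X_right, Fin.mk_one,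
        Matrix.cons_val_zero, map_add, map_mul, MvPolynomial.bind₁_C_right,
        Matrix.cons_val_one, AlgHom.id_apply, kap]
      linear_combination (X 1) * hC
  have hghom : (MvPolynomial.bind₁ g P).IsHomogeneous (m + 1) := by
    have h := hP.aeval g (n := 1) (by
      intro i
      fin_cases i
      · exact (MvPolynomial.isHomogeneous_C_mul_X _ _).sub (MvPolynomial.isHomogeneous_C_mul_X _ _)
      · exact (MvPolynomial.isHomogeneous_C_mul_X _ _).add
          (MvPolynomial.isHomogeneous_C_mul_X _ _))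
    rw [one_mul] at h
    exact h
  have hcoef : (MvPolynomial.bind₁ g P).coeff (Finsupp.single 1 (m + 1)) = 0 := by
    rw [← aeval_zero_one hghom]
    refine Eq.trans ?_ h0
    have : (MvPolynomial.aeval ![(0 : A), 1]).comp (MvPolynomial.bind₁ g) = Th := by
      apply MvPolynomial.algHom_ext
      intro i
      fin_cases i <;> simp [g, Th]
    exact DFunLike.congr_fun this P
  obtain ⟨Q, hQ, hQ'⟩ := exists_X0_mul hghom hcoef
  refine ⟨MvPolynomial.bind₁ g' Q, ?_, ?_⟩
  · have h := hQ.aeval g' (n := 1) (by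
      intro i
      fin_cases i
      · exact (MvPolynomial.isHomogeneous_C_mul_X _ _).sub (MvPolynomial.isHomogeneous_C_mul_X _ _)
      · exact (MvPolynomial.isHomogeneous_C_mul_X _ _).add
          (MvPolynomial.isHomogeneous_C_mul_X _ _))
    rw [one_mul] at h
    exact h
  · have h1 := DFunLike.congr_fun hinv P
    rw [AlgHom.comp_apply, hQ', map_mul, MvPolynomial.bind₁_X_right] at h1
    exact h1.symm

lemma Th_ker {m s s' : ℕ} {P : M} (hP : P ∈ V (m + 1) s (s' + 3)) (h0 : Th P = 0) :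
    ∃ Q ∈ V m (s + 5) s', kap * Q = P := by
  classical
  obtain ⟨Q, hQ, rfl⟩ := exists_kap_mul hP.1 h0
  refine ⟨Q, ⟨hQ, ?_⟩, rfl⟩
  have hrec : ∀ d : Fin 2 →₀ ℕ, fP (0, 0) * (sub1 Q).coeff d =
      (sub1 (kap * Q)).coeff (Finsupp.single 1 1 + d) +
        JH (C cc) (X 0) (X 1) * (X 0 * sub1 Q).coeff (Finsupp.single 1 1 + d) := by
    intro d
    have h1 : sub1 (kap * Q) = X 1 * (C (fP (0, 0)) * sub1 Q) -
        C (JH (C cc) (X 0) (X 1)) * (X 0 * sub1 Q) := by
      rw [map_mul, sub1_kap]; ring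
    rw [h1, MvPolynomial.coeff_sub, MvPolynomial.coeff_X_mul, MvPolynomial.coeff_C_mul,
      MvPolynomial.coeff_C_mul]
    ring
  have key : ∀ b : ℕ, b ≤ m → ∀ d : Fin 2 →₀ ℕ, d 0 = b →
      (sub1 Q).coeff d ∈ B (s + 5 + 8 * m - b) (s' + 5 * b) := by
    intro b
    induction b with
    | zero =>
      intro _ d hd
      have h1 := hrec d
      rw [MvPolynomial.coeff_X_mul', if_neg (by
        rw [Finsupp.mem_support_iff]; simp [hd]), mul_zero, add_zero] at h1
      have h2 := hP.2 (Finsupp.single 1 1 + d)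
      rw [← h1] at h2
      have h3 := div_mem_B fP_ne fP_deg0 fP_deg1 h2
      refine B_mono ?_ ?_ h3
      · simp [hd]; omega
      · simp [hd]
    | succ b ih =>
      intro hb d hd
      have h1 := hrec d
      have h2 := hP.2 (Finsupp.single 1 1 + d)
      have h3 : (X 0 * sub1 Q).coeff (Finsupp.single 1 1 + d) ∈
          B (s + 5 + 8 * m - b) (s' + 5 * b) := by
        rw [MvPolynomial.coeff_X_mul']
        split_ifs
        · apply ih (by omega)
          simp [hd]
        · exact Submodule.zero_mem _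
      have h4 := mul_mem_B (N := s + 8 * (m + 1) - (b + 1)) (N' := s' + 3 + 5 * (b + 1))
        JH_mem h3 (by omega) (by omega)
      have h5 : fP (0, 0) * (sub1 Q).coeff d ∈
          B (s + 8 * (m + 1) - (b + 1)) (s' + 3 + 5 * (b + 1)) := by
        rw [h1]
        refine Submodule.add_mem _ ?_ h4
        refine B_mono ?_ ?_ h2
        · simp [hd]
        · simp [hd]
      have h6 := div_mem_B fP_ne fP_deg0 fP_deg1 h5
      exact B_mono (by omega) (by omega) h6
  intro d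
  by_cases hd : d 0 + d 1 = m
  · exact key (d 0) (by omega) d rfl
  · rw [hom_coeff (sub1_hom hQ) hd]
    exact Submodule.zero_mem _

/-! ### counting -/

/-- the expected dimension. -/
def chi (m s s' : ℕ) : ℤ :=
  ∑ b ∈ Finset.range (m + 1), ((s : ℤ) + 8 * m - 11 * b) * (s' + 5 * b)

lemma chi_rec1 (m s s' : ℕ) :
    chi (m + 1) (s + 3) s' = (8 * (m + 1) + (s + 3)) * s' + chi m s (s' + 5) := by
  unfold chi
  rw [Finset.sum_range_succ']
  push_cast
  rw [add_comm]
  congr 1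
  · ring
  · refine Finset.sum_congr rfl fun b _ => ?_
    ring

lemma sum_closed (n : ℕ) (u v : ℤ) :
    6 * ∑ b ∈ Finset.range n, (u - 11 * b) * (v + 5 * b) =
      6 * n * u * v + 3 * (5 * u - 11 * v) * n * (n - 1) - 55 * (n - 1) * n * (2 * n - 1) := by
  induction n with
  | zero => simp
  | succ n ih =>
    rw [Finset.sum_range_succ, mul_add, ih]
    push_cast
    ring

lemma chi_rec2 (m s s' : ℕ) :
    chi (m + 1) s (s' + 3) = s * (8 * (m + 1) + (s' + 3)) + chi m (s + 5) s' := by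
  have h1 := sum_closed (m + 1 + 1) (s + 8 * (m + 1 : ℕ)) (s' + 3 : ℕ)
  have h2 := sum_closed (m + 1) ((s + 5 : ℕ) + 8 * m) s'
  unfold chi
  push_cast at h1 h2 ⊢
  linarith

lemma chi_le (m s s' : ℕ) : chi m s s' ≤ Module.finrank ℂ (V m s s') := by
  have h := finrank_V_ge EP_mem m s s'
  have h1 : ((∑ b ∈ Finset.range (m + 1), (s + 8 * m - b) * (s' + 5 * b) : ℕ) : ℤ) =
      chi m s s' + ((∑ a ∈ Finset.range (m + 1), 10 * a * (s' + 5 * a) : ℕ) : ℤ) := by
    unfold chi
    rw [Nat.cast_sum, Nat.cast_sum, ← Finset.sum_add_distrib]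
    refine Finset.sum_congr rfl fun b hb => ?_
    rw [Finset.mem_range] at hb
    have h2 : ((s + 8 * m - b : ℕ) : ℤ) = s + 8 * m - b := by
      rw [Nat.cast_sub (by omega)]; push_cast; ring
    rw [Nat.cast_mul, h2]
    push_cast
    ring
  have h3 : ((∑ b ∈ Finset.range (m + 1), (s + 8 * m - b) * (s' + 5 * b) : ℕ) : ℤ) ≤
      Module.finrank ℂ (V m s s') +
        ((∑ a ∈ Finset.range (m + 1), 10 * a * (s' + 5 * a) : ℕ) : ℤ) := by
    exact_mod_cast h
  linarith

/-- `Th` over `ℂ`. -/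
def thl : M →ₗ[ℂ] A := Th.toLinearMap.restrictScalars ℂ

@[simp] lemma thl_apply (P : M) : thl P = Th P := rfl

/-- multiplication by a form. -/
def mul' (R : M) : M →ₗ[ℂ] M where
  toFun P := R * P
  map_add' P Q := mul_add _ _ _
  map_smul' a P := by
    rw [RingHom.id_apply, mul_smul_comm]

@[simp] lemma mul'_apply (R P : M) : mul' R P = R * P := rfl

lemma step1 (m s s' : ℕ) :
    Module.finrank ℂ (V (m + 1) (s + 3) s') ≤
      (8 * (m + 1) + (s + 3)) * s' + Module.finrank ℂ (V m s (s' + 5)) ∧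
      (Module.finrank ℂ (V (m + 1) (s + 3) s') =
        (8 * (m + 1) + (s + 3)) * s' + Module.finrank ℂ (V m s (s' + 5)) →
        ∀ q ∈ B (8 * (m + 1) + (s + 3)) s', ∃ P ∈ V (m + 1) (s + 3) s',
          cf (Finsupp.single 1 (m + 1)) P = q) := by
  have h := rank_count (V (m + 1) (s + 3) s') (V m s (s' + 5)) (B (8 * (m + 1) + (s + 3)) s')
    (cf (Finsupp.single 1 (m + 1))) (mul' (X 0)) (fun P hP => lam_mem hP)
    (fun P hP h0 => lam_ker hP h0)
  rw [finrank_B] at h
  exact h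

lemma step2 (m s s' : ℕ) :
    Module.finrank ℂ (V (m + 1) s (s' + 3)) ≤
      s * (8 * (m + 1) + (s' + 3)) + Module.finrank ℂ (V m (s + 5) s') ∧
      (Module.finrank ℂ (V (m + 1) s (s' + 3)) =
        s * (8 * (m + 1) + (s' + 3)) + Module.finrank ℂ (V m (s + 5) s') →
        ∀ q ∈ B s (8 * (m + 1) + (s' + 3)), ∃ P ∈ V (m + 1) s (s' + 3), thl P = q) := by
  have h := rank_count (V (m + 1) s (s' + 3)) (V m (s + 5) s') (B s (8 * (m + 1) + (s' + 3)))
    thl (mul' kap) (fun P hP => Th_mem hP) (fun P hP h0 => Th_ker hP h0)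
  rw [finrank_B] at h
  exact h

lemma C_mem_V0 {s s' : ℕ} {q : A} (hq : q ∈ B s s') : (C q : M) ∈ V 0 s s' := by
  classical
  refine ⟨MvPolynomial.isHomogeneous_C _ _, fun d => ?_⟩
  have h : sub1 (C q) = C q := by
    rw [sub1, MvPolynomial.bind₁_C_right]
  rw [h, MvPolynomial.coeff_C]
  split_ifs with hd
  · rw [← hd]; simpa using hq
  · exact Submodule.zero_mem _

lemma finrank_V0_le (s s' : ℕ) : Module.finrank ℂ (V 0 s s') ≤ s * s' := by
  have h := LinearMap.finrank_le_finrank_of_injective (Psi_injective 0 s s')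
  rw [Module.finrank_pi_fintype] at h
  simpa [finrank_B] using h

lemma finrank_eq (m : ℕ) :
    (∀ s s' : ℕ, 3 ≤ s → 3 ≤ s' → (Module.finrank ℂ (V m s s') : ℤ) = chi m s s') ∧
      (∀ s s' : ℕ, 8 ≤ s' → (Module.finrank ℂ (V m s s') : ℤ) = chi m s s') := by
  induction m with
  | zero =>
    have h : ∀ s s' : ℕ, (Module.finrank ℂ (V 0 s s') : ℤ) = chi 0 s s' := by
      intro s s'
      apply le_antisymm _ (chi_le 0 s s')
      have h1 := finrank_V0_le s s'
      have h2 : chi 0 s s' = ((s * s' : ℕ) : ℤ) := by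
        simp [chi]
      rw [h2]
      exact_mod_cast h1
    exact ⟨fun s s' _ _ => h s s', fun s s' _ => h s s'⟩
  | succ m ih =>
    obtain ⟨ih1, ih2⟩ := ih
    constructor
    · intro s s' hs hs'
      obtain ⟨s, rfl⟩ := Nat.exists_eq_add_of_le' hs
      apply le_antisymm _ (chi_le _ _ _)
      rw [chi_rec1, ← ih2 s (s' + 5) (by omega)]
      exact_mod_cast (step1 m s s').1
    · intro s s' hs'
      obtain ⟨s', rfl⟩ := Nat.exists_eq_add_of_le' (show 3 ≤ s' by omega)
      apply le_antisymm _ (chi_le _ _ _)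
      rw [chi_rec2, ← ih1 (s + 5) s' (by omega) (by omega)]
      exact_mod_cast (step2 m s s').1

end C1

open C1 in
/-- the coefficient of `X₁^m` is onto. -/
theorem V_lambda_surj (m s s' : ℕ) (hs : 3 ≤ s) (hs' : 3 ≤ s') (q : A)
    (hq : q ∈ B (8 * m + s) s') :
    ∃ P ∈ V m s s', MvPolynomial.coeff (Finsupp.single 1 m) P = q := by
  cases m with
  | zero =>
    refine ⟨C q, C_mem_V0 (by simpa using hq), ?_⟩
    simp
  | succ m =>
    obtain ⟨s, rfl⟩ := Nat.exists_eq_add_of_le' hs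
    refine (step1 m s s').2 ?_ q hq
    have h1 := (finrank_eq (m + 1)).1 (s + 3) s' hs hs'
    have h2 := (finrank_eq m).2 s (s' + 5) (by omega)
    have h3 := chi_rec1 m s s'
    rw [← h1, ← h2] at h3
    exact_mod_cast h3

open C1 in
/-- evaluation at `(f, J)` is onto. -/
theorem V_Th_surj (m s s' : ℕ) (hs' : 8 ≤ s') (q : A) (hq : q ∈ B s (8 * m + s')) :
    ∃ P ∈ V m s s', Th P = q := by
  cases m with
  | zero =>
    refine ⟨C q, C_mem_V0 (by simpa using hq), ?_⟩
    simp [Th]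
  | succ m =>
    obtain ⟨s', rfl⟩ := Nat.exists_eq_add_of_le' (show 3 ≤ s' by omega)
    refine (step2 m s s').2 ?_ q hq
    have h1 := (finrank_eq (m + 1)).2 s (s' + 3) hs'
    have h2 := (finrank_eq m).1 (s + 5) s' (by omega) (by omega)
    have h3 := chi_rec2 m s s'
    rw [← h1, ← h2] at h3
    exact_mod_cast h3

end Crest.Agent.S0396
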