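import Mathlib
import Crest.Agent.S0396_C1
import Crest.Agent.S0396_Ample

/-!
S0396, chunk C2: global sections of `Sym^m E(j,j')` from polynomials, and global generation.
-/

set_option autoImplicit false

noncomputable section

namespace Crest.Agent.S0396

open Crest.AlgGeometry.QuadricBundle
open MvPolynomial (X C)

namespace C2

/-! ### binary forms -/

/-- the binary form with coefficients `c b` of `X₀^b X₁^(m-b)`. -/
def bf (m : ℕ) (c : ℕ → ℂ) : MvPolynomial (Fin 2) ℂ :=
  ∑ b ∈ Finset.range (m + 1), MvPolynomial.monomial (C1.idx b (m - b)) (c b)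

lemma coeff_bf (m : ℕ) (c : ℕ → ℂ) (d : Fin 2 →₀ ℕ) :
    (bf m c).coeff d = if d 0 + d 1 = m then c (d 0) else 0 := by
  classical
  unfold bf
  rw [MvPolynomial.coeff_sum]
  simp only [MvPolynomial.coeff_monomial]
  split_ifs with h
  · rw [Finset.sum_eq_single (d 0)]
    · have : C1.idx (d 0) (m - d 0) = d := by
        conv_rhs => rw [← C1.idx_eta d]
        rw [C1.idx_inj]; omega
      rw [if_pos this]
    · intro b hb hne
      rw [if_neg]
      intro he
      apply hne
      rw [← he]; simp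
    · intro hb; exfalso; apply hb; rw [Finset.mem_range]; omega
  · apply Finset.sum_eq_zero
    intro b hb
    rw [if_neg]
    intro he
    apply h
    rw [← he]
    rw [Finset.mem_range] at hb
    simp; omega

lemma bf_hom (m : ℕ) (c : ℕ → ℂ) : (bf m c).IsHomogeneous m := by
  intro d hd
  have : d 0 + d 1 = m := by
    by_contra h
    rw [coeff_bf, if_neg h] at hd
    exact hd rfl
  rw [← this, ← C1.degree_fin2, Finsupp.degree_eq_weight_one]
  rfl

lemma hom_eq_bf {F : MvPolynomial (Fin 2) ℂ} {m : ℕ} (hF : F.IsHomogeneous m) :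
    F = bf m (fun b => F.coeff (C1.idx b (m - b))) := by
  ext1 d
  rw [coeff_bf]
  split_ifs with h
  · congr 1
    conv_lhs => rw [← C1.idx_eta d]
    rw [C1.idx_inj]; omega
  · exact hF.coeff_eq_zero (by rwa [C1.degree_fin2])

lemma bf_congr {m : ℕ} {c c' : ℕ → ℂ} (h : ∀ b ≤ m, c b = c' b) : bf m c = bf m c' := by
  ext1 d
  rw [coeff_bf, coeff_bf]
  split_ifs with h'
  · exact h _ (by omega)
  · rfl

lemma smul_bf (a : ℂ) (m : ℕ) (c : ℕ → ℂ) : a • bf m c = bf m (fun b => a * c b) := by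
  ext1 d
  rw [MvPolynomial.coeff_smul, coeff_bf, coeff_bf, smul_eq_mul]
  split_ifs <;> simp

lemma frameSubst_bf (G : Matrix (Fin 2) (Fin 2) ℂ) (m : ℕ) (c : ℕ → ℂ) :
    frameSubst G (bf m c) = ∑ b ∈ Finset.range (m + 1),
      C (c b) * ((∑ i, C (G i 0) * X i) ^ b * (∑ i, C (G i 1) * X i) ^ (m - b)) := by
  unfold frameSubst bf
  rw [map_sum]
  refine Finset.sum_congr rfl fun b _ => ?_
  rw [C1.mono_eq]
  simp only [map_mul, map_pow, MvPolynomial.bind₁_X_right, MvPolynomial.bind₁_C_right,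
    C1.idx_zero, C1.idx_one]

lemma frameSubst_diag (a d : ℂ) (m : ℕ) (c : ℕ → ℂ) :
    frameSubst !![a, 0; 0, d] (bf m c) = bf m (fun b => c b * (a ^ b * d ^ (m - b))) := by
  rw [frameSubst_bf]
  unfold bf
  refine Finset.sum_congr rfl fun b _ => ?_
  rw [C1.mono_eq]
  simp only [Fin.sum_univ_two, Matrix.of_apply, Matrix.cons_val', Matrix.cons_val_zero,
    Matrix.cons_val_one, Matrix.cons_val_fin_one, map_zero, zero_mul, add_zero, zero_add,
    C1.idx_zero, C1.idx_one, map_mul, map_pow]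
  ring

lemma frameSubst_comp (M N : Matrix (Fin 2) (Fin 2) ℂ) (Q : MvPolynomial (Fin 2) ℂ) :
    frameSubst M (frameSubst N Q) = frameSubst (M * N) Q := by
  unfold frameSubst
  rw [MvPolynomial.bind₁_bind₁]
  congr 2
  funext j
  simp only [Fin.sum_univ_two, map_add, map_mul, MvPolynomial.bind₁_X_right,
    MvPolynomial.bind₁_C_right, Matrix.mul_apply]
  ring

lemma frameSubst_one (Q : MvPolynomial (Fin 2) ℂ) : frameSubst 1 Q = Q := by
  unfold frameSubst
  have : (fun j : Fin 2 => ∑ i, C ((1 : Matrix (Fin 2) (Fin 2) ℂ) i j) * X i :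
      Fin 2 → MvPolynomial (Fin 2) ℂ) = X := by
    funext j
    have h01 : (0 : Fin 2) ≠ 1 := by decide
    have h10 : (1 : Fin 2) ≠ 0 := by decide
    fin_cases j
    · show ∑ i, C ((1 : Matrix (Fin 2) (Fin 2) ℂ) i 0) * X i = X 0
      rw [Fin.sum_univ_two, Matrix.one_apply_eq, Matrix.one_apply_ne h10]
      simp
    · show ∑ i, C ((1 : Matrix (Fin 2) (Fin 2) ℂ) i 1) * X i = X 1
      rw [Fin.sum_univ_two, Matrix.one_apply_eq, Matrix.one_apply_ne h01]
      simp
  rw [this, MvPolynomial.bind₁_X_left]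
  rfl

lemma eval_bf (x y : ℂ) (m : ℕ) (c : ℕ → ℂ) :
    MvPolynomial.eval ![x, y] (bf m c) = ∑ b ∈ Finset.range (m + 1), c b * (x ^ b * y ^ (m - b)) := by
  unfold bf
  rw [map_sum]
  refine Finset.sum_congr rfl fun b _ => ?_
  rw [C1.mono_eq]
  simp

lemma eval01_bf (m : ℕ) (c : ℕ → ℂ) : MvPolynomial.eval ![0, 1] (bf m c) = c 0 := by
  rw [eval_bf, Finset.sum_range_succ']
  simp

/-- divisibility by `X₀`. -/
lemma exists_X0 {m : ℕ} {c : ℕ → ℂ} (h0 : c 0 = 0) :
    bf (m + 1) c = X 0 * bf m (fun b => c (b + 1)) := by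
  unfold bf
  rw [Finset.sum_range_succ', h0, Finset.mul_sum]
  simp only [map_zero, add_zero]
  refine Finset.sum_congr rfl fun b _ => ?_
  rw [C1.mono_eq, C1.mono_eq]
  simp only [C1.idx_zero, C1.idx_one, Nat.add_sub_add_right]
  ring

/-- divisibility by `f X₁ - J X₀`. -/
lemma exists_kap {m : ℕ} {R : MvPolynomial (Fin 2) ℂ} (hR : R.IsHomogeneous (m + 1)) {f J : ℂ}
    (hfJ : ¬ (f = 0 ∧ J = 0)) (h0 : MvPolynomial.eval ![f, J] R = 0) :
    ∃ R' : MvPolynomial (Fin 2) ℂ, R'.IsHomogeneous m ∧ R = (C f * X 1 - C J * X 0) * R' := by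
  obtain ⟨u, v, huv⟩ : ∃ u v : ℂ, u * f + v * J = 1 := by
    by_cases hf : f = 0
    · have hJ : J ≠ 0 := fun h => hfJ ⟨hf, h⟩
      exact ⟨0, J⁻¹, by simp [hJ]⟩
    · exact ⟨f⁻¹, 0, by simp [hf]⟩
  let g : Fin 2 → MvPolynomial (Fin 2) ℂ := ![C f * X 1 - C v * X 0, C J * X 1 + C u * X 0]
  let g' : Fin 2 → MvPolynomial (Fin 2) ℂ := ![C f * X 1 - C J * X 0, C u * X 0 + C v * X 1]
  have hC : (C u * C f + C v * C J : MvPolynomial (Fin 2) ℂ) = 1 := by
    rw [← map_mul, ← map_mul, ← map_add, huv, map_one]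
  have hinv : (MvPolynomial.bind₁ g').comp (MvPolynomial.bind₁ g) =
      AlgHom.id ℂ (MvPolynomial (Fin 2) ℂ) := by
    apply MvPolynomial.algHom_ext
    intro i
    fin_cases i
    · simp only [AlgHom.comp_apply, g, g', MvPolynomial.bind₁_X_right, Fin.zero_eta,
        Matrix.cons_val_zero, map_sub, map_mul, MvPolynomial.bind₁_C_right,
        Matrix.cons_val_one, AlgHom.id_apply]
      linear_combination (X 0) * hC
    · simp only [AlgHom.comp_apply, g, g', MvPolynomial.bind₁_X_right, Fin.mk_one,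
        Matrix.cons_val_zero, map_add, map_mul, MvPolynomial.bind₁_C_right,
        Matrix.cons_val_one, AlgHom.id_apply]
      linear_combination (X 1) * hC
  have hg : (MvPolynomial.bind₁ g R).IsHomogeneous (m + 1) := by
    have h := hR.aeval g (n := 1) (by
      intro i
      fin_cases i
      · exact (MvPolynomial.isHomogeneous_C_mul_X _ _).sub (MvPolynomial.isHomogeneous_C_mul_X _ _)
      · exact (MvPolynomial.isHomogeneous_C_mul_X _ _).add (MvPolynomial.isHomogeneous_C_mul_X _ _))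
    rw [one_mul] at h
    exact h
  have hev : MvPolynomial.eval ![0, 1] (MvPolynomial.bind₁ g R) = 0 := by
    have : ∀ S : MvPolynomial (Fin 2) ℂ, MvPolynomial.eval ![0, 1] (MvPolynomial.bind₁ g S) =
        MvPolynomial.eval ![f, J] S := by
      intro S
      induction S using MvPolynomial.induction_on with
      | C a => simp
      | add p q hp hq => simp only [map_add, hp, hq]
      | mul_X p i hp =>
        rw [map_mul, map_mul, map_mul, hp, MvPolynomial.bind₁_X_right]
        congr 1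
        fin_cases i <;> simp [g]
    rw [this R, h0]
  have h1 := hom_eq_bf hg
  rw [h1, eval01_bf] at hev
  have h2 := exists_X0 (m := m)
    (c := fun b => (MvPolynomial.bind₁ g R).coeff (C1.idx b (m + 1 - b))) hev
  rw [← h1] at h2
  have h3 := congrArg (MvPolynomial.bind₁ g') h2
  have h4 : MvPolynomial.bind₁ g' (MvPolynomial.bind₁ g R) = R := DFunLike.congr_fun hinv R
  rw [h4, map_mul, MvPolynomial.bind₁_X_right] at h3
  refine ⟨_, ?_, h3⟩
  have h := (bf_hom m (fun b => (MvPolynomial.bind₁ g R).coeff (C1.idx (b + 1) (m + 1 - (b + 1))))).aeval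
    g' (n := 1) (by
      intro i
      fin_cases i
      · exact (MvPolynomial.isHomogeneous_C_mul_X _ _).sub (MvPolynomial.isHomogeneous_C_mul_X _ _)
      · exact (MvPolynomial.isHomogeneous_C_mul_X _ _).add (MvPolynomial.isHomogeneous_C_mul_X _ _))
  rw [one_mul] at h
  exact h

/-! ### the sections attached to a polynomial -/

/-- reversal of a polynomial from chart `(0,0)` to chart `β`. -/
def rv (β : Chart) (N N' : ℕ) (g : A) : A :=
  ∑ d ∈ g.support, MvPolynomial.monomial
    (C1.idx (if β.1 = 0 then d 0 else N - d 0) (if β.2 = 0 then d 1 else N' - d 1)) (g.coeff d)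

lemma rv_aux (x : ℂ) (i : Fin 2) (N d : ℕ) (hx : i ≠ 0 → x ≠ 0) (hd : i ≠ 0 → d ≤ N) :
    x ^ (if i = 0 then d else N - d) =
      (if i = 0 then 1 else x ^ (N : ℤ)) * (if i = 0 then x else x⁻¹) ^ d := by
  by_cases h : i = 0
  · simp [h]
  · simp only [if_neg h, zpow_natCast]
    rw [inv_pow, pow_sub₀ x (hx h) (hd h)]

lemma eval_rv (β : Chart) (N N' : ℕ) (g : A) (q : Fin 2 → ℂ) (hq : q ∈ overlap β (0, 0))
    (h0 : β.1 ≠ 0 → ∀ d ∈ g.support, d 0 ≤ N) (h1 : β.2 ≠ 0 → ∀ d ∈ g.support, d 1 ≤ N') :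
    MvPolynomial.eval q (rv β N N' g) =
      lineTrans N N' β (0, 0) q * MvPolynomial.eval (tau β (0, 0) q) g := by
  unfold rv
  rw [map_sum, MvPolynomial.eval_eq', Finset.mul_sum]
  refine Finset.sum_congr rfl fun d hd => ?_
  rw [C1.mono_eq, Fin.prod_univ_two]
  simp only [map_mul, map_pow, MvPolynomial.eval_C, MvPolynomial.eval_X, C1.idx_zero, C1.idx_one]
  rw [rv_aux (q 0) β.1 N (d 0) hq.1 (fun h => h0 h d hd),
    rv_aux (q 1) β.2 N' (d 1) hq.2 (fun h => h1 h d hd)]
  simp only [lineTrans, tau, Matrix.cons_val_zero, Matrix.cons_val_one, Matrix.cons_val_fin_one]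
  ring

/-- the coefficient polynomial (chart `(0,0)` coordinates) used in chart `β`. -/
def cP (m : ℕ) (P : C1.M) (β : Chart) (b : ℕ) : A :=
  if β.1 = 0 then P.coeff (C1.idx b (m - b)) else (sub1 P).coeff (C1.idx b (m - b))

/-- the section attached to `P`. -/
def Qs (m j j' : ℕ) (P : C1.M) (β : Chart) (q : Fin 2 → ℂ) : MvPolynomial (Fin 2) ℂ :=
  bf m (fun b => MvPolynomial.eval q (rv β (j + 8 * m - b) (j' + 5 * b) (cP m P β b)))

lemma V_W {m s s' : ℕ} {P : C1.M} (hP : P ∈ V m s s') (d : Fin 2 →₀ ℕ) :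
    P.coeff d ∈ C1.Bw (s' + 5 * d 0) := by
  have h1 : sub1 P ∈ C1.W s' := fun e => C1.B_le_Bw _ _ (hP.2 e)
  have h2 : C1.sp (sub1 P) ∈ C1.W s' := C1.sp_mem_W C1.EP_mem h1
  rw [C1.sp_sub1] at h2
  have h3 := h2 d
  rw [C1.coeff_dg] at h3
  by_cases hc : P.coeff d = 0
  · rw [hc]; exact Submodule.zero_mem _
  have hX : (X 0 : A) ^ (10 * d 0) ≠ 0 := pow_ne_zero _ (MvPolynomial.X_ne_zero _)
  rw [C1.mem_Bw_iff (mul_ne_zero hX hc), MvPolynomial.degreeOf_mul_eq hX hc,
    C1.X0_pow_deg1] at h3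
  rw [C1.mem_Bw_iff hc]
  omega

lemma frameSubst_C_mul_X (N : Matrix (Fin 2) (Fin 2) ℂ) (a : ℂ) (i : Fin 2) :
    frameSubst N (C a * X i) = C a * (C (N 0 i) * X 0 + C (N 1 i) * X 1) := by
  unfold frameSubst
  rw [map_mul, MvPolynomial.bind₁_C_right, MvPolynomial.bind₁_X_right, Fin.sum_univ_two]

lemma frameSubst_sub (N : Matrix (Fin 2) (Fin 2) ℂ) (P Q : MvPolynomial (Fin 2) ℂ) :
    frameSubst N (P - Q) = frameSubst N P - frameSubst N Q := by
  unfold frameSubst; rw [map_sub]

lemma frameSubst_add (N : Matrix (Fin 2) (Fin 2) ℂ) (P Q : MvPolynomial (Fin 2) ℂ) :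
    frameSubst N (P + Q) = frameSubst N P + frameSubst N Q := by
  unfold frameSubst; rw [map_add]

lemma frameSubst_mul (N : Matrix (Fin 2) (Fin 2) ℂ) (P Q : MvPolynomial (Fin 2) ℂ) :
    frameSubst N (P * Q) = frameSubst N P * frameSubst N Q := by
  unfold frameSubst; rw [map_mul]

lemma frameSubst_X (N : Matrix (Fin 2) (Fin 2) ℂ) (i : Fin 2) :
    frameSubst N (X i) = C (N 0 i) * X 0 + C (N 1 i) * X 1 := by
  unfold frameSubst
  rw [MvPolynomial.bind₁_X_right, Fin.sum_univ_two]

/-- the key factorisation of the frame substitution through `sub1`. -/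
lemma frameSubst_key (m : ℕ) (P : C1.M) (hP : P.IsHomogeneous m) (β : Chart) (hβ : β.1 ≠ 0)
    (q : Fin 2 → ℂ) (hq : q ∈ overlap β (0, 0)) :
    frameSubst (Gt β (0, 0) q) (MvPolynomial.map (MvPolynomial.eval (tau β (0, 0) q)) P) =
      (q 0 ^ 8) ^ m • frameSubst !![lineTrans (-1) 5 β (0, 0) q, 0; 0, 1]
        (MvPolynomial.map (MvPolynomial.eval (tau β (0, 0) q)) (sub1 P)) := by
  have hq0 : q 0 ≠ 0 := hq.1 hβ
  have hβ' : ¬ β.1 = ((0, 0) : Chart).1 := hβ
  set p := tau β (0, 0) q with hp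
  have hp0 : p 0 = (q 0)⁻¹ := by simp [hp, tau, hβ]
  have hF : (MvPolynomial.map (MvPolynomial.eval p) P).IsHomogeneous m := hP.map _
  have hE := EP_rel2 β (0, 0) hβ' q hq
  rw [← hp] at hE
  unfold sub1
  rw [MvPolynomial.map_bind₁]
  have e1 : frameSubst !![lineTrans (-1) 5 β (0, 0) q, 0; 0, 1]
      (MvPolynomial.bind₁ (fun i => MvPolynomial.map (MvPolynomial.eval p)
        ((![C ((X 0) ^ 10) * X 0, X 1 - C (EP (0, 0)) * X 0] : Fin 2 → C1.M) i))
        (MvPolynomial.map (MvPolynomial.eval p) P)) =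
      MvPolynomial.bind₁ (fun i => frameSubst !![lineTrans (-1) 5 β (0, 0) q, 0; 0, 1]
        (MvPolynomial.map (MvPolynomial.eval p)
        ((![C ((X 0) ^ 10) * X 0, X 1 - C (EP (0, 0)) * X 0] : Fin 2 → C1.M) i)))
        (MvPolynomial.map (MvPolynomial.eval p) P) := by
    unfold frameSubst
    rw [MvPolynomial.bind₁_bind₁]
  rw [e1, ← bind1_smul_hom hF]
  unfold frameSubst
  congr 2
  funext i
  have ht : lineTrans (-3) 5 β (0, 0) q = (q 0) ^ (-2 : ℤ) * lineTrans (-1) 5 β (0, 0) q := by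
    simp only [lineTrans, if_neg hβ']
    rw [← mul_assoc, ← zpow_add₀ hq0]
    norm_num
  fin_cases i
  · simp only [Fin.zero_eta, Matrix.cons_val_zero, map_mul, MvPolynomial.map_C,
      MvPolynomial.map_X, MvPolynomial.bind₁_C_right, MvPolynomial.bind₁_X_right,
      Fin.sum_univ_two, Gt, Matrix.of_apply, Matrix.cons_val', Matrix.cons_val_zero,
      Matrix.cons_val_one, Matrix.cons_val_fin_one, map_zero, zero_mul, add_zero, map_pow,
      MvPolynomial.eval_X, MvPolynomial.smul_eq_C_mul, ht, hp0]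
    rw [← mul_assoc, ← mul_assoc]
    congr 1
    simp only [← map_mul, ← map_pow]
    congr 1
    rw [zpow_neg, zpow_ofNat]
    field_simp
  · simp only [Fin.mk_one, Matrix.cons_val_one, map_sub, map_mul, MvPolynomial.map_C,
      MvPolynomial.map_X, MvPolynomial.bind₁_C_right, MvPolynomial.bind₁_X_right,
      Fin.sum_univ_two, Gt, Matrix.of_apply, Matrix.cons_val', Matrix.cons_val_zero,
      Matrix.cons_val_one, Matrix.cons_val_fin_one, map_zero, zero_mul, add_zero, zero_add,
      map_one, one_mul, if_neg hβ', MvPolynomial.smul_eq_C_mul, smul_sub]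
    have h8 : lineTrans 8 0 β (0, 0) q = q 0 ^ 8 := by
      simp only [lineTrans, if_neg hβ', zpow_zero, ite_self, mul_one]
      norm_cast
    have h12 : q 0 ^ (-2 : ℤ) * MvPolynomial.eval q (EP β) =
        - (q 0 ^ 8 * (MvPolynomial.eval p (EP (0, 0)) * lineTrans (-1) 5 β (0, 0) q)) := by
      rw [ht] at hE
      have h3 : (q 0) ^ (-12 : ℤ) = (q 0) ^ (-2 : ℤ) * (q 0) ^ (-10 : ℤ) := by
        rw [← zpow_add₀ hq0]; norm_num
      rw [h3] at hE
      have h4 : (q 0) ^ (-2 : ℤ) ≠ 0 := zpow_ne_zero _ hq0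
      have h5 : lineTrans (-1) 5 β (0, 0) q * MvPolynomial.eval p (EP (0, 0)) =
          -((q 0) ^ (-10 : ℤ) * MvPolynomial.eval q (EP β)) := by
        apply mul_left_cancel₀ h4
        linear_combination hE
      have h6 : q 0 ^ 8 * (q 0) ^ (-10 : ℤ) = (q 0) ^ (-2 : ℤ) := by
        rw [← zpow_natCast, ← zpow_add₀ hq0]; norm_num
      rw [← h6]
      linear_combination ((q 0) ^ 8) * h5
    have h13 := congrArg (C : ℂ →+* MvPolynomial (Fin 2) ℂ) h12
    rw [map_mul, map_neg, map_mul, map_mul] at h13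
    rw [h8]
    linear_combination (X 0) * h13

/-- relation with chart `(0,0)`. -/
lemma Qs_rel0 {m j j' : ℕ} {P : C1.M} (hP : P ∈ V m (j + 1) (j' + 1)) (β : Chart)
    (q : Fin 2 → ℂ) (hq : q ∈ overlap β (0, 0)) :
    Qs m j j' P β q = lineTrans j j' β (0, 0) q •
      frameSubst (Gt β (0, 0) q) (MvPolynomial.map (MvPolynomial.eval (tau β (0, 0) q)) P) := by
  by_cases hβ : β.1 = 0
  · have hβ' : β.1 = ((0, 0) : Chart).1 := hβ
    have hG : Gt β (0, 0) q = !![lineTrans (-3) 5 β (0, 0) q, 0; 0, 1] := by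
      unfold Gt
      rw [if_pos hβ']
      simp [lineTrans, hβ]
    rw [hG, hom_eq_bf (hP.1.map (MvPolynomial.eval (tau β (0, 0) q))), frameSubst_diag, smul_bf]
    unfold Qs
    refine bf_congr fun b hb => ?_
    rw [eval_rv β _ _ _ q hq (fun h => absurd hβ h), cP, if_pos hβ, MvPolynomial.coeff_map]
    · have := lineTrans_mul j j' (b * (-3)) (b * 5) β (0, 0) q hq
      rw [lineTrans_pow, one_pow, mul_one]
      have h1 : lineTrans ((j + 8 * m - b : ℕ) : ℤ) ((j' + 5 * b : ℕ) : ℤ) β (0, 0) q =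
          lineTrans (j + b * (-3)) (j' + b * 5) β (0, 0) q := by
        simp only [lineTrans, if_pos hβ']
        push_cast
        ring_nf
      rw [h1, ← this]
      ring
    · intro _ d hd
      rw [cP, if_pos hβ] at hd
      have := V_W hP (C1.idx b (m - b))
      have h2 := (C1.mem_Bw.1 this) d hd
      rw [C1.idx_zero] at h2
      omega
  · have hβ' : ¬ β.1 = ((0, 0) : Chart).1 := hβ
    rw [frameSubst_key m P hP.1 β hβ q hq,
      hom_eq_bf ((C1.sub1_hom hP.1).map (MvPolynomial.eval (tau β (0, 0) q))), frameSubst_diag,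
      smul_bf, smul_bf]
    unfold Qs
    refine bf_congr fun b hb => ?_
    have hc := hP.2 (C1.idx b (m - b))
    rw [C1.idx_zero] at hc
    rw [eval_rv β _ _ _ q hq, cP, if_neg hβ, MvPolynomial.coeff_map]
    · have h1 := lineTrans_mul j j' (8 * m) 0 β (0, 0) q hq
      have h2 := lineTrans_mul (j + 8 * m) (j' + 0) (b * (-1)) (b * 5) β (0, 0) q hq
      have h3 : lineTrans (8 * m) 0 β (0, 0) q = (q 0 ^ 8) ^ m := by
        simp only [lineTrans, if_neg hβ', zpow_zero, ite_self, mul_one]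
        rw [← pow_mul]
        norm_cast
      have h4 : lineTrans ((j + 8 * m - b : ℕ) : ℤ) ((j' + 5 * b : ℕ) : ℤ) β (0, 0) q =
          lineTrans (j + 8 * m + b * (-1)) (j' + 0 + b * 5) β (0, 0) q := by
        rw [Nat.cast_sub (by omega)]
        push_cast
        ring_nf
      rw [lineTrans_pow, one_pow, mul_one, h4, ← h2, ← h1, h3]
      ring
    · intro _ d hd
      rw [cP, if_neg hβ] at hd
      have := (C1.mem_B.1 hc) d hd
      omega
    · intro _ d hd
      rw [cP, if_neg hβ] at hd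
      have := (C1.mem_B.1 hc) d hd
      omega

/-! ### density and continuity -/

lemma isOpen_overlap (α β : Chart) : IsOpen (overlap α β) := by
  have h : ∀ (i : Fin 2) (P : Prop), IsOpen {p : Fin 2 → ℂ | P → p i ≠ 0} := by
    intro i P
    by_cases hP : P
    · simp only [hP, true_imp_iff]
      exact isOpen_ne_fun (continuous_apply i) continuous_const
    · simp only [hP, false_imp_iff, Set.ofPred_true]
      exact isOpen_univ
  exact (h 0 _).inter (h 1 _)

lemma dense_torus : Dense {p : Fin 2 → ℂ | p 0 ≠ 0 ∧ p 1 ≠ 0} := by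
  have h := dense_pi (s := fun _ : Fin 2 => ({0}ᶜ : Set ℂ)) Set.univ
    (fun _ _ => dense_compl_singleton 0)
  convert h using 1
  ext p
  simp [Set.mem_pi, Fin.forall_fin_two]

lemma eq_of_torus (α β : Chart) (f g : (Fin 2 → ℂ) → ℂ) (hf : ContinuousOn f (overlap α β))
    (hg : ContinuousOn g (overlap α β))
    (h : ∀ p ∈ overlap α β, p 0 ≠ 0 → p 1 ≠ 0 → f p = g p) :
    ∀ p ∈ overlap α β, f p = g p := by
  intro p hp
  have h1 : p ∈ closure (overlap α β ∩ {p : Fin 2 → ℂ | p 0 ≠ 0 ∧ p 1 ≠ 0}) :=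
    dense_torus.open_subset_closure_inter (isOpen_overlap α β) hp
  rw [mem_closure_iff_nhdsWithin_neBot] at h1
  have h2 := ((hf p hp).mono (Set.inter_subset_left
    (t := {p : Fin 2 → ℂ | p 0 ≠ 0 ∧ p 1 ≠ 0})))
  have h3 := ((hg p hp).mono (Set.inter_subset_left
    (t := {p : Fin 2 → ℂ | p 0 ≠ 0 ∧ p 1 ≠ 0})))
  refine tendsto_nhds_unique_of_eventuallyEq h2 h3 ?_
  filter_upwards [self_mem_nhdsWithin] with x hx
  exact h x hx.1 hx.2.1 hx.2.2

/-- coefficientwise continuity. -/
def CC (F : (Fin 2 → ℂ) → MvPolynomial (Fin 2) ℂ) (s : Set (Fin 2 → ℂ)) : Prop :=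
  ∀ d, ContinuousOn (fun p => (F p).coeff d) s

lemma CC.add {F G : (Fin 2 → ℂ) → MvPolynomial (Fin 2) ℂ} {s : Set (Fin 2 → ℂ)}
    (hF : CC F s) (hG : CC G s) : CC (fun p => F p + G p) s := by
  intro d
  simp only [MvPolynomial.coeff_add]
  exact (hF d).add (hG d)

lemma CC.mul {F G : (Fin 2 → ℂ) → MvPolynomial (Fin 2) ℂ} {s : Set (Fin 2 → ℂ)}
    (hF : CC F s) (hG : CC G s) : CC (fun p => F p * G p) s := by
  classical
  intro d
  simp only [MvPolynomial.coeff_mul]
  exact continuousOn_finsetSum _ fun x _ => (hF x.1).mul (hG x.2)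

lemma CC.const (Q : MvPolynomial (Fin 2) ℂ) (s : Set (Fin 2 → ℂ)) : CC (fun _ => Q) s :=
  fun _ => continuousOn_const

lemma CC.pow {F : (Fin 2 → ℂ) → MvPolynomial (Fin 2) ℂ} {s : Set (Fin 2 → ℂ)}
    (hF : CC F s) (n : ℕ) : CC (fun p => F p ^ n) s := by
  induction n with
  | zero => simpa using CC.const 1 s
  | succ n ih => simp only [pow_succ]; exact ih.mul hF

lemma CC.C {g : (Fin 2 → ℂ) → ℂ} {s : Set (Fin 2 → ℂ)} (hg : ContinuousOn g s) :
    CC (fun p => MvPolynomial.C (g p)) s := by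
  classical
  intro d
  simp only [MvPolynomial.coeff_C]
  split_ifs
  · exact hg
  · exact continuousOn_const

lemma CC.sum {ι : Type*} (t : Finset ι) {F : ι → (Fin 2 → ℂ) → MvPolynomial (Fin 2) ℂ}
    {s : Set (Fin 2 → ℂ)} (hF : ∀ i ∈ t, CC (F i) s) : CC (fun p => ∑ i ∈ t, F i p) s := by
  intro d
  simp only [MvPolynomial.coeff_sum]
  exact continuousOn_finsetSum _ fun i hi => hF i hi d

lemma contOn_lineTrans (r t : ℤ) (α β : Chart) :
    ContinuousOn (fun p : Fin 2 → ℂ => lineTrans r t α β p) (overlap α β) :=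
  (differentiableOn_lineTrans r t α β).continuousOn

lemma contOn_Gt (α β : Chart) (i j : Fin 2) :
    ContinuousOn (fun p : Fin 2 → ℂ => Gt α β p i j) (overlap α β) := by
  have h3 : ContinuousOn (fun p : Fin 2 → ℂ => if α.1 = β.1 then (0:ℂ) else
      (p 0) ^ (-2 : ℤ) * MvPolynomial.eval p (EP α)) (overlap α β) := by
    by_cases h : α.1 = β.1
    · simp only [h, if_true]
      exact continuousOn_const
    · simp only [h, if_false]
      apply ContinuousOn.mul
      · exact ContinuousOn.zpow₀ (continuous_apply 0).continuousOn _ fun p hp => Or.inl (hp.1 h)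
      · exact (differentiable_eval (EP α)).continuous.continuousOn
  fin_cases i <;> fin_cases j
  · simpa [Gt] using contOn_lineTrans (-3) 5 α β
  · simpa [Gt] using h3
  · simpa [Gt] using continuousOn_const
  · simpa [Gt] using contOn_lineTrans 8 0 α β

lemma contOn_tau (α β : Chart) : ContinuousOn (tau α β) (overlap α β) := by
  rw [continuousOn_pi]
  intro i
  fin_cases i
  · by_cases h : α.1 = β.1
    · simp only [tau, h, if_true, Fin.zero_eta, Matrix.cons_val_zero]
      exact (continuous_apply 0).continuousOn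
    · simp only [tau, h, if_false, Fin.zero_eta, Matrix.cons_val_zero]
      exact (continuous_apply 0).continuousOn.inv₀ fun p hp => hp.1 h
  · by_cases h : α.2 = β.2
    · simp only [tau, h, if_true, Fin.mk_one, Matrix.cons_val_one]
      exact (continuous_apply 1).continuousOn
    · simp only [tau, h, if_false, Fin.mk_one, Matrix.cons_val_one]
      exact (continuous_apply 1).continuousOn.inv₀ fun p hp => hp.2 h

lemma tau_self (α : Chart) (p : Fin 2 → ℂ) : tau α α p = p := by
  funext i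
  fin_cases i <;> simp [tau]

lemma self_overlap (α : Chart) (p : Fin 2 → ℂ) : p ∈ overlap α α :=
  ⟨fun h => absurd rfl h, fun h => absurd rfl h⟩

/-- value of the section in chart `(0,0)`. -/
lemma Qs_zero {m j j' : ℕ} {P : C1.M} (hP : P ∈ V m (j + 1) (j' + 1)) (p : Fin 2 → ℂ) :
    Qs m j j' P (0, 0) p = MvPolynomial.map (MvPolynomial.eval p) P := by
  rw [Qs_rel0 hP (0, 0) p (self_overlap _ _), lineTrans_self, one_smul, Gt_refl, frameSubst_one,
    tau_self]

lemma Qs_diff (m j j' : ℕ) (P : C1.M) (β : Chart) (d : Fin 2 →₀ ℕ) :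
    Differentiable ℂ (fun p => MvPolynomial.coeff d (Qs m j j' P β p)) := by
  unfold Qs
  simp only [coeff_bf]
  split_ifs
  · exact differentiable_eval _
  · exact differentiable_const _

/-- extension lemma: the section attached to `P ∈ V`. -/
theorem Qs_isSec {m j j' : ℕ} {P : C1.M} (hP : P ∈ V m (j + 1) (j' + 1)) :
    IsSec Gt m j j' (Qs m j j' P) := by
  refine ⟨fun α p => bf_hom _ _, Qs_diff m j j' P, ?_⟩
  intro α β p hp
  ext1 d
  revert p hp
  apply eq_of_torus α β
  · exact (Qs_diff m j j' P α d).continuous.continuousOn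
  · have h1 : CC (fun p => lineTrans j j' α β p • frameSubst (Gt α β p)
        (Qs m j j' P β (tau α β p))) (overlap α β) := by
      unfold Qs
      simp only [frameSubst_bf, MvPolynomial.smul_eq_C_mul]
      refine (CC.C (contOn_lineTrans j j' α β)).mul (CC.sum _ fun b _ => ?_)
      refine (CC.C ?_).mul ((CC.pow (CC.sum _ fun i _ => ?_) _).mul
        (CC.pow (CC.sum _ fun i _ => ?_) _))
      · exact (differentiable_eval _).continuous.comp_continuousOn (contOn_tau α β)
      · exact (CC.C (contOn_Gt α β i 0)).mul (CC.const _ _)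
      · exact (CC.C (contOn_Gt α β i 1)).mul (CC.const _ _)
    exact h1 d
  · intro p hp hp0 hp1
    have hα : p ∈ overlap α (0, 0) := ⟨fun _ => hp0, fun _ => hp1⟩
    have hβ : tau α β p ∈ overlap β (0, 0) := by
      constructor
      · intro _
        simp only [tau, Matrix.cons_val_zero]
        split_ifs
        · exact hp0
        · exact inv_ne_zero hp0
      · intro _
        simp only [tau, Matrix.cons_val_one, Matrix.cons_val_fin_one]
        split_ifs
        · exact hp1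
        · exact inv_ne_zero hp1
    congr 1
    rw [Qs_rel0 hP β _ hβ, Qs_rel0 hP α p hα, tau_comp, frameSubst_smul', frameSubst_comp,
      Gt_cocycle α β (0, 0) p ⟨hp, hα⟩, smul_smul, lineTrans_cocycle j j' α β (0, 0) p ⟨hp, hα⟩]

/-! ### operations on sections -/

lemma IsSec.add' {m : ℕ} {j j' : ℤ} {Q Q' : Chart → (Fin 2 → ℂ) → MvPolynomial (Fin 2) ℂ}
    (hQ : IsSec Gt m j j' Q) (hQ' : IsSec Gt m j j' Q') :
    IsSec Gt m j j' (fun α p => Q α p + Q' α p) := by
  refine ⟨fun α p => (hQ.1 α p).add (hQ'.1 α p), ?_, ?_⟩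
  · intro α d
    simp only [MvPolynomial.coeff_add]
    exact (hQ.2.1 α d).fun_add (hQ'.2.1 α d)
  · intro α β p hp
    rw [frameSubst_add, smul_add, ← hQ.2.2 α β p hp, ← hQ'.2.2 α β p hp]

lemma IsSec.smul' {m : ℕ} {j j' : ℤ} {Q : Chart → (Fin 2 → ℂ) → MvPolynomial (Fin 2) ℂ}
    (hQ : IsSec Gt m j j' Q) (r : ℂ) :
    IsSec Gt m j j' (fun α p => r • Q α p) := by
  refine ⟨fun α p => (MvPolynomial.homogeneousSubmodule (Fin 2) ℂ m).smul_mem _ (hQ.1 α p), ?_, ?_⟩
  · intro α d
    simp only [MvPolynomial.coeff_smul]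
    exact (hQ.2.1 α d).fun_const_smul r
  · intro α β p hp
    rw [frameSubst_smul', smul_comm, ← hQ.2.2 α β p hp]

lemma IsSec.mul' {m m' : ℕ} {j j' k k' : ℤ} {Q Q' : Chart → (Fin 2 → ℂ) → MvPolynomial (Fin 2) ℂ}
    (hQ : IsSec Gt m j j' Q) (hQ' : IsSec Gt m' k k' Q') :
    IsSec Gt (m + m') (j + k) (j' + k') (fun α p => Q α p * Q' α p) := by
  classical
  refine ⟨fun α p => (hQ.1 α p).mul (hQ'.1 α p), ?_, ?_⟩
  · intro α d
    simp only [MvPolynomial.coeff_mul]
    exact Differentiable.fun_sum fun x _ => (hQ.2.1 α x.1).fun_mul (hQ'.2.1 α x.2)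
  · intro α β p hp
    rw [frameSubst_mul, ← lineTrans_mul j j' k k' α β p hp, ← smul_mul_smul_comm,
      ← hQ.2.2 α β p hp, ← hQ'.2.2 α β p hp]

lemma isSec_X0 : IsSec Gt 1 3 (-5) (fun _ _ => X 0) := by
  refine ⟨fun _ _ => MvPolynomial.isHomogeneous_X _ _, ?_, ?_⟩
  · intro α d
    exact differentiable_const _
  · intro α β p hp
    rw [frameSubst_X]
    have h1 : Gt α β p 0 0 = lineTrans (-3) 5 α β p := rfl
    have h2 : Gt α β p 1 0 = 0 := rfl
    have h3 := lineTrans_mul 3 (-5) (-3) 5 α β p hp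
    rw [h1, h2, map_zero, zero_mul, add_zero, MvPolynomial.smul_eq_C_mul, ← mul_assoc, ← map_mul,
      h3]
    have h4 : lineTrans (3 + -3) (-5 + 5) α β p = 1 := by
      simp [lineTrans]
    rw [h4, map_one, one_mul]

/-- the section `κ = f X₁ - J X₀`. -/
def kapS (α : Chart) (p : Fin 2 → ℂ) : MvPolynomial (Fin 2) ℂ :=
  C (MvPolynomial.eval p (fP α)) * X 1 - C (MvPolynomial.eval p (JP α)) * X 0

lemma isSec_kap : IsSec Gt 1 (-5) 3 kapS := by
  classical
  refine ⟨fun _ _ => (MvPolynomial.isHomogeneous_C_mul_X _ _).sub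
    (MvPolynomial.isHomogeneous_C_mul_X _ _), ?_, ?_⟩
  · intro α d
    simp only [kapS, MvPolynomial.coeff_sub, MvPolynomial.coeff_C_mul]
    exact ((differentiable_eval _).fun_mul (differentiable_const _)).fun_sub
      ((differentiable_eval _).fun_mul (differentiable_const _))
  · intro α β p hp
    have hr := row_rel α β p hp
    have h0 := congrFun hr 0
    have h1 := congrFun hr 1
    simp only [Matrix.vecMul, dotProduct, Fin.sum_univ_two, Matrix.cons_val_zero,
      Matrix.cons_val_one, Matrix.cons_val_fin_one, Pi.smul_apply, smul_eq_mul] at h0 h1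
    have g00 : Gt α β p 0 0 = lineTrans (-3) 5 α β p := rfl
    have g10 : Gt α β p 1 0 = 0 := rfl
    have g11 : Gt α β p 1 1 = lineTrans 8 0 α β p := rfl
    rw [g00, g10, mul_zero, add_zero] at h0
    rw [g11] at h1
    unfold kapS
    rw [frameSubst_sub, frameSubst_mul, frameSubst_mul, frameSubst_X, frameSubst_X,
      g00, g10, g11]
    have hC : ∀ a : ℂ, frameSubst (Gt α β p) (C a) = C a := by
      intro a; unfold frameSubst; exact MvPolynomial.bind₁_C_right _ _
    rw [hC, hC, MvPolynomial.smul_eq_C_mul]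
    set f := MvPolynomial.eval p (fP α)
    set J := MvPolynomial.eval p (JP α)
    set f' := MvPolynomial.eval (tau α β p) (fP β)
    set J' := MvPolynomial.eval (tau α β p) (JP β)
    set e := Gt α β p 0 1
    have l1 := lineTrans_mul (-5) 3 8 0 α β p hp
    have l2 := lineTrans_mul (-5) 3 (-3) 5 α β p hp
    have l3 := lineTrans_mul (-5) (-5) 0 8 α β p hp
    have hne := lineTrans_ne_zero 0 8 α β p hp
    have hne2 := lineTrans_ne_zero (-3) 5 α β p hp
    -- relations
    have k1 : f = lineTrans (-5) 3 α β p * lineTrans 8 0 α β p * f' := by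
      apply mul_right_cancel₀ hne2
      rw [h0]
      have : lineTrans (-5) 3 α β p * lineTrans 8 0 α β p * lineTrans (-3) 5 α β p =
          lineTrans 0 8 α β p := by
        rw [l1, lineTrans_mul _ _ _ _ α β p hp]; norm_num
      linear_combination (-f') * this
    have k2 : -J = lineTrans (-5) 3 α β p * (f' * e - J' * lineTrans (-3) 5 α β p) := by
      apply mul_right_cancel₀ hne
      have t1 : lineTrans (-5) 3 α β p * lineTrans (-3) 5 α β p = lineTrans (-8) 8 α β p := by
        rw [l2]; norm_num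
      have t2 : lineTrans (-8) 8 α β p * lineTrans 8 0 α β p = lineTrans 0 8 α β p := by
        rw [lineTrans_mul _ _ _ _ α β p hp]; norm_num
      linear_combination (lineTrans (-5) 3 α β p * e) * h0 -
        (lineTrans (-5) 3 α β p * lineTrans (-3) 5 α β p) * h1 + J * t2 +
        (J * lineTrans 8 0 α β p) * t1
    have K1 := congrArg (C : ℂ →+* MvPolynomial (Fin 2) ℂ) k1
    have K2 := congrArg (C : ℂ →+* MvPolynomial (Fin 2) ℂ) k2
    simp only [map_neg, map_mul, map_sub] at K1 K2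
    rw [map_zero]
    linear_combination (X 1) * K1 + (X 0) * K2

/-! ### the two surjectivities in every chart -/

/-- the monomial of bidegree `(N, N')` in the coordinates in which `α` differs from `(0,0)`. -/
def mo (α : Chart) (N N' : ℕ) : A :=
  MvPolynomial.monomial (C1.idx (if α.1 = 0 then 0 else N) (if α.2 = 0 then 0 else N')) 1

lemma mo_mem (α : Chart) (N N' : ℕ) : mo α N N' ∈ B (N + 1) (N' + 1) := by
  unfold mo
  rw [C1.mono_eq, ← mul_assoc]
  refine C1.mono_mem_B 1 _ _ ?_ ?_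
  · rw [C1.idx_zero]; split_ifs <;> omega
  · rw [C1.idx_one]; split_ifs <;> omega

lemma mo_eval (α : Chart) (N N' : ℕ) (q : Fin 2 → ℂ) (hq : q ∈ overlap α (0, 0)) :
    lineTrans N N' α (0, 0) q * MvPolynomial.eval (tau α (0, 0) q) (mo α N N') = 1 := by
  obtain ⟨a, b⟩ := α
  obtain ⟨h0, h1⟩ := hq
  simp only at h0 h1
  unfold mo
  rw [C1.mono_eq]
  simp only [map_mul, map_pow, MvPolynomial.eval_C, MvPolynomial.eval_X, C1.idx_zero, C1.idx_one,
    lineTrans, tau, Matrix.cons_val_zero, Matrix.cons_val_one, Matrix.cons_val_fin_one, one_mul]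
  by_cases ha : a = 0 <;> by_cases hb : b = 0
  · simp [ha, hb]
  · have hw : q 1 ≠ 0 := h1 hb
    simp [ha, hb, hw]
  · have hz : q 0 ≠ 0 := h0 ha
    simp [ha, hb, hz]
  · have hw : q 1 ≠ 0 := h1 hb
    have hz : q 0 ≠ 0 := h0 ha
    simp only [if_neg ha, if_neg hb, zpow_natCast, inv_pow]
    field_simp

lemma eval01 {m : ℕ} {F : MvPolynomial (Fin 2) ℂ} (hF : F.IsHomogeneous m) :
    MvPolynomial.eval ![0, 1] F = F.coeff (Finsupp.single 1 m) := by
  conv_lhs => rw [hom_eq_bf hF]
  rw [eval01_bf]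
  congr 1
  ext i; fin_cases i <;> simp

/-- evaluation of a frame substitution. -/
lemma eval_frameSubst (G : Matrix (Fin 2) (Fin 2) ℂ) (u : Fin 2 → ℂ) (F : MvPolynomial (Fin 2) ℂ) :
    MvPolynomial.eval u (frameSubst G F) = MvPolynomial.eval (Matrix.vecMul u G) F := by
  unfold frameSubst
  induction F using MvPolynomial.induction_on with
  | C a => simp
  | add p q hp hq => simp only [map_add, hp, hq]
  | mul_X p i hp =>
    rw [map_mul, map_mul, map_mul, hp, MvPolynomial.bind₁_X_right]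
    congr 1
    simp [Matrix.vecMul, dotProduct, mul_comm]

lemma eval_smul_hom {m : ℕ} {F : MvPolynomial (Fin 2) ℂ} (hF : F.IsHomogeneous m) (a : ℂ)
    (u : Fin 2 → ℂ) : MvPolynomial.eval (a • u) F = a ^ m * MvPolynomial.eval u F := by
  rw [MvPolynomial.eval_eq', MvPolynomial.eval_eq', Finset.mul_sum]
  refine Finset.sum_congr rfl fun d hd => ?_
  have hdm : d 0 + d 1 = m := by
    by_contra h
    exact (MvPolynomial.mem_support_iff.1 hd) (hF.coeff_eq_zero (by rwa [C1.degree_fin2]))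
  simp only [Fin.prod_univ_two, Pi.smul_apply, smul_eq_mul, mul_pow]
  rw [← hdm, pow_add]
  ring

lemma continuous_eval_bf (m : ℕ) (c : ℕ → (Fin 2 → ℂ) → ℂ) (x y : (Fin 2 → ℂ) → ℂ)
    (hc : ∀ b, Continuous (c b)) (hx : Continuous x) (hy : Continuous y) :
    Continuous (fun p => MvPolynomial.eval ![x p, y p] (bf m (fun b => c b p))) := by
  simp only [eval_bf]
  exact continuous_finsetSum _ fun b _ => (hc b).mul ((hx.pow b).mul (hy.pow _))

/-- sections with `X₁^m`-coefficient `1` in chart `α`. -/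
lemma exists_lam (m j j' : ℕ) (hj : 2 ≤ j) (hj' : 2 ≤ j') (α : Chart) :
    ∃ Q, IsSec Gt m j j' Q ∧ ∀ p, MvPolynomial.eval ![0, 1] (Q α p) = 1 := by
  obtain ⟨P, hP, hPq⟩ := V_lambda_surj m (j + 1) (j' + 1) (by omega) (by omega)
    (mo α (8 * m + j) j') (mo_mem α (8 * m + j) j')
  refine ⟨Qs m j j' P, Qs_isSec hP, ?_⟩
  have h1 : ∀ p ∈ overlap α α, MvPolynomial.eval ![0, 1] (Qs m j j' P α p) = 1 := by
    apply eq_of_torus α α
    · refine Continuous.continuousOn ?_
      exact continuous_eval_bf m _ (fun _ => 0) (fun _ => 1)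
        (fun b => (differentiable_eval _).continuous) continuous_const continuous_const
    · exact continuousOn_const
    · intro p _ hp0 hp1
      have hα : p ∈ overlap α (0, 0) := ⟨fun _ => hp0, fun _ => hp1⟩
      have hF := hP.1.map (MvPolynomial.eval (tau α (0, 0) p))
      rw [Qs_rel0 hP α p hα, MvPolynomial.smul_eval, eval_frameSubst]
      have hv : Matrix.vecMul ![0, 1] (Gt α (0, 0) p) =
          lineTrans 8 0 α (0, 0) p • ![(0 : ℂ), 1] := by
        funext i
        fin_cases i <;> simp [Matrix.vecMul, dotProduct, Gt]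
      rw [hv, eval_smul_hom hF, eval01 hF, MvPolynomial.coeff_map, hPq, lineTrans_pow,
        ← mul_assoc, lineTrans_mul _ _ _ _ α (0, 0) p hα]
      have := mo_eval α (8 * m + j) j' p hα
      rw [← this]
      congr 2
      push_cast
      ring_nf
  exact fun p => h1 p (self_overlap _ _)

/-- sections with value `1` at `(f, J)` in chart `α`. -/
lemma exists_Th (m j j' : ℕ) (hj' : 7 ≤ j') (α : Chart) :
    ∃ Q, IsSec Gt m j j' Q ∧ ∀ p, MvPolynomial.eval
      ![MvPolynomial.eval p (fP α), MvPolynomial.eval p (JP α)] (Q α p) = 1 := by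
  obtain ⟨P, hP, hPq⟩ := V_Th_surj m (j + 1) (j' + 1) (by omega)
    (mo α j (8 * m + j')) (mo_mem α j (8 * m + j'))
  refine ⟨Qs m j j' P, Qs_isSec hP, ?_⟩
  have h1 : ∀ p ∈ overlap α α, MvPolynomial.eval
      ![MvPolynomial.eval p (fP α), MvPolynomial.eval p (JP α)] (Qs m j j' P α p) = 1 := by
    apply eq_of_torus α α
    · refine Continuous.continuousOn ?_
      exact continuous_eval_bf m _ _ _
        (fun b => (differentiable_eval _).continuous) (differentiable_eval _).continuous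
        (differentiable_eval _).continuous
    · exact continuousOn_const
    · intro p _ hp0 hp1
      have hα : p ∈ overlap α (0, 0) := ⟨fun _ => hp0, fun _ => hp1⟩
      have hF := hP.1.map (MvPolynomial.eval (tau α (0, 0) p))
      rw [Qs_rel0 hP α p hα, MvPolynomial.smul_eval, eval_frameSubst, row_rel α (0, 0) p hα,
        eval_smul_hom hF]
      have hT : MvPolynomial.eval ![MvPolynomial.eval (tau α (0, 0) p) (fP (0, 0)),
          MvPolynomial.eval (tau α (0, 0) p) (JP (0, 0))]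
          (MvPolynomial.map (MvPolynomial.eval (tau α (0, 0) p)) P) =
          MvPolynomial.eval (tau α (0, 0) p) (Th P) := by
        unfold Th
        rw [C1.aeval_hom, map_sum, MvPolynomial.eval_map, MvPolynomial.eval₂_eq']
        refine Finset.sum_congr rfl fun d _ => ?_
        simp [Fin.prod_univ_two]
      rw [hT, hPq, lineTrans_pow, ← mul_assoc, lineTrans_mul _ _ _ _ α (0, 0) p hα]
      have := mo_eval α j (8 * m + j') p hα
      rw [← this]
      congr 2
      push_cast
      ring_nf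
  exact fun p => h1 p (self_overlap _ _)

/-! ### global generation -/

lemma hom0 {R : MvPolynomial (Fin 2) ℂ} (hR : R.IsHomogeneous 0) (x y : ℂ) :
    R = C (MvPolynomial.eval ![x, y] R) := by
  rw [hom_eq_bf hR, eval_bf]
  unfold bf
  simp [C1.mono_eq]

lemma GG_both (m : ℕ) :
    (∀ (j j' : ℕ), 3 ≤ j → 3 ≤ j' → ∀ (α : Chart) (p : Fin 2 → ℂ) (R : MvPolynomial (Fin 2) ℂ),
      R.IsHomogeneous m → ∃ Q, IsSec Gt m j j' Q ∧ Q α p = R) ∧
    (∀ (j j' : ℕ), 8 ≤ j' → ∀ (α : Chart) (p : Fin 2 → ℂ) (R : MvPolynomial (Fin 2) ℂ),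
      R.IsHomogeneous m → ∃ Q, IsSec Gt m j j' Q ∧ Q α p = R) := by
  induction m with
  | zero =>
    constructor
    · intro j j' hj hj' α p R hR
      obtain ⟨Q, hQ, h1⟩ := exists_lam 0 j j' (by omega) (by omega) α
      refine ⟨fun β q => MvPolynomial.eval ![0, 1] R • Q β q, IsSec.smul' hQ _, ?_⟩
      have h2 := hom0 (hQ.1 α p) 0 1
      rw [h1 p] at h2
      show MvPolynomial.eval ![0, 1] R • Q α p = R
      rw [h2, MvPolynomial.smul_eq_C_mul, map_one, mul_one]
      exact (hom0 hR 0 1).symm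
    · intro j j' hj' α p R hR
      obtain ⟨Q, hQ, h1⟩ := exists_Th 0 j j' (by omega) α
      refine ⟨fun β q => MvPolynomial.eval ![0, 1] R • Q β q, IsSec.smul' hQ _, ?_⟩
      have h2 := hom0 (hQ.1 α p) (MvPolynomial.eval p (fP α)) (MvPolynomial.eval p (JP α))
      rw [h1 p] at h2
      show MvPolynomial.eval ![0, 1] R • Q α p = R
      rw [h2, MvPolynomial.smul_eq_C_mul, map_one, mul_one]
      exact (hom0 hR 0 1).symm
  | succ m ih =>
    constructor
    · intro j j' hj hj' α p R hR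
      obtain ⟨Q, hQ, h1⟩ := exists_lam (m + 1) j j' (by omega) (by omega) α
      set r := MvPolynomial.eval ![0, 1] R with hr
      have hS : (R - r • Q α p).IsHomogeneous (m + 1) :=
        hR.sub ((MvPolynomial.homogeneousSubmodule (Fin 2) ℂ (m + 1)).smul_mem _ (hQ.1 α p))
      have h0 : MvPolynomial.eval ![0, 1] (R - r • Q α p) = 0 := by
        rw [map_sub, MvPolynomial.smul_eval, h1 p, ← hr]; ring
      have h2 := hom_eq_bf hS
      rw [h2, eval01_bf] at h0
      have h3 := exists_X0 (m := m)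
        (c := fun b => (R - r • Q α p).coeff (C1.idx b (m + 1 - b))) h0
      rw [← h2] at h3
      obtain ⟨j, rfl⟩ := Nat.exists_eq_add_of_le' hj
      obtain ⟨Q', hQ', h4⟩ := ih.2 j (j' + 5) (by omega) α p _ (bf_hom m _)
      have h5 := IsSec.mul' isSec_X0 hQ'
      have e1 : (3 : ℤ) + (j : ℕ) = ((j + 3 : ℕ) : ℤ) := by push_cast; ring
      have e2 : (-5 : ℤ) + ((j' + 5 : ℕ) : ℤ) = (j' : ℤ) := by push_cast; ring
      rw [e1, e2, add_comm 1 m] at h5
      refine ⟨_, IsSec.add' (IsSec.smul' hQ r) h5, ?_⟩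
      show r • Q α p + X 0 * Q' α p = R
      rw [h4, ← h3]
      ring
    · intro j j' hj' α p R hR
      obtain ⟨Q, hQ, h1⟩ := exists_Th (m + 1) j j' (by omega) α
      set f := MvPolynomial.eval p (fP α) with hf
      set J := MvPolynomial.eval p (JP α) with hJ
      set r := MvPolynomial.eval ![f, J] R with hr
      have hS : (R - r • Q α p).IsHomogeneous (m + 1) :=
        hR.sub ((MvPolynomial.homogeneousSubmodule (Fin 2) ℂ (m + 1)).smul_mem _ (hQ.1 α p))
      have h0 : MvPolynomial.eval ![f, J] (R - r • Q α p) = 0 := by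
        rw [map_sub, MvPolynomial.smul_eval, h1 p, ← hr]; ring
      obtain ⟨R', hR', h3⟩ := exists_kap hS (fJ_ne α p) h0
      obtain ⟨j', rfl⟩ := Nat.exists_eq_add_of_le' (show 3 ≤ j' by omega)
      obtain ⟨Q', hQ', h4⟩ := ih.1 (j + 5) j' (by omega) (by omega) α p R' hR'
      have h5 := IsSec.mul' isSec_kap hQ'
      have e1 : (-5 : ℤ) + ((j + 5 : ℕ) : ℤ) = (j : ℤ) := by push_cast; ring
      have e2 : (3 : ℤ) + (j' : ℕ) = ((j' + 3 : ℕ) : ℤ) := by push_cast; ring
      rw [e1, e2, add_comm 1 m] at h5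
      refine ⟨_, IsSec.add' (IsSec.smul' hQ r) h5, ?_⟩
      show r • Q α p + kapS α p * Q' α p = R
      unfold kapS
      rw [h4, ← hf, ← hJ, ← h3]
      ring

end C2

/-- global generation of `Sym^m E(3,3)`. -/
theorem GG (m : ℕ) (α : Chart) (p : Fin 2 → ℂ) (R : MvPolynomial (Fin 2) ℂ)
    (hR : R.IsHomogeneous m) : ∃ Q, IsSec Gt m 3 3 Q ∧ Q α p = R := by
  have := (C2.GG_both m).1 3 3 le_rfl le_rfl α p R hR
  exact_mod_cast this

/-- the bundle `gn n` is ample. -/
theorem ample (n : ℕ) : IsAmple (gn n) := ample_of_GG GG n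

end Crest.Agent.S0396
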