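import Mathlib

set_option autoImplicit false

noncomputable section

namespace Crest.Agent.S0396

open Filter Topology

/-- "No local max" property for a function on `ℂ`, against local holomorphic multipliers. -/
def NoMax (a : ℂ → ℝ) : Prop :=
  ∀ (s0 : ℂ) (h : ℂ → ℂ), (∀ᶠ s in 𝓝 s0, DifferentiableAt ℂ h s) → h s0 ≠ 0 →
    ¬ IsLocalMax (fun s => ‖h s‖ * a s) s0

/-- local `n`-th root of the inverse of a nonvanishing holomorphic function, in modulus -/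
theorem exists_root (n : ℕ) (hn : 1 ≤ n) (g : ℂ → ℂ) (s0 : ℂ)
    (hg : ∀ᶠ s in 𝓝 s0, DifferentiableAt ℂ g s) (h0 : g s0 ≠ 0) :
    ∃ h : ℂ → ℂ, (∀ᶠ s in 𝓝 s0, DifferentiableAt ℂ h s) ∧ h s0 ≠ 0 ∧
      ∀ᶠ s in 𝓝 s0, ‖h s‖ ^ n * ‖g s‖ = ‖g s0‖ := by
  have hn0 : (n : ℂ) ≠ 0 := by exact_mod_cast (by omega : n ≠ 0)
  refine ⟨fun s => Complex.exp (-(1 / (n:ℂ)) * Complex.log (g s / g s0)), ?_, Complex.exp_ne_zero _, ?_⟩
  · have hc : ContinuousAt g s0 := hg.self_of_nhds.continuousAt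
    have h1 : ∀ᶠ s in 𝓝 s0, g s / g s0 ∈ Complex.slitPlane := by
      have : ContinuousAt (fun s => g s / g s0) s0 := hc.div_const _
      apply this.eventually_mem
      rw [div_self h0]
      exact Complex.isOpen_slitPlane.mem_nhds (by simp [Complex.slitPlane])
    filter_upwards [h1, hg] with s hs hgs
    apply DifferentiableAt.cexp
    apply DifferentiableAt.const_mul
    exact DifferentiableAt.clog (hgs.div_const _) hs
  · have hc : ContinuousAt g s0 := hg.self_of_nhds.continuousAt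
    have h1 : ∀ᶠ s in 𝓝 s0, g s ≠ 0 := hc.eventually_ne h0
    filter_upwards [h1] with s hs
    rw [← norm_pow, ← Complex.exp_nat_mul]
    have : (n:ℂ) * (-(1 / (n:ℂ)) * Complex.log (g s / g s0)) = -Complex.log (g s / g s0) := by
      field_simp
    rw [this, Complex.exp_neg, Complex.exp_log (div_ne_zero hs h0), norm_inv, norm_div]
    have : ‖g s‖ ≠ 0 := norm_ne_zero_iff.mpr hs
    have : ‖g s0‖ ≠ 0 := norm_ne_zero_iff.mpr h0
    field_simp

/-- A function with `NoMax` has no local max of `a^n / ‖g‖`. -/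
theorem NoMax.not_localMax {a : ℂ → ℝ} (ha : NoMax a) (hpos : ∀ s, 0 ≤ a s) (n : ℕ) (hn : 1 ≤ n)
    (g : ℂ → ℂ) (s0 : ℂ) (hg : ∀ᶠ s in 𝓝 s0, DifferentiableAt ℂ g s) (h0 : g s0 ≠ 0)
    (hmax : IsLocalMax (fun s => a s ^ n / ‖g s‖) s0) : False := by
  obtain ⟨h, hd, hh0, hh⟩ := exists_root n hn g s0 hg h0
  refine ha s0 h hd hh0 ?_
  have hc : ContinuousAt g s0 := hg.self_of_nhds.continuousAt
  have h1 : ∀ᶠ s in 𝓝 s0, g s ≠ 0 := hc.eventually_ne h0
  have e0 := hh.self_of_nhds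
  filter_upwards [hmax, hh, h1] with s hs hs2 hs3
  have p1 : 0 < ‖g s‖ := norm_pos_iff.mpr hs3
  have p0 : 0 < ‖g s0‖ := norm_pos_iff.mpr h0
  have key : (‖h s‖ * a s) ^ n ≤ (‖h s0‖ * a s0) ^ n := by
    rw [mul_pow, mul_pow]
    have e1 : ‖h s‖ ^ n = ‖g s0‖ / ‖g s‖ := by rw [eq_div_iff p1.ne']; exact hs2
    have e2 : ‖h s0‖ ^ n = ‖g s0‖ / ‖g s0‖ := by rw [eq_div_iff p0.ne']; exact e0
    rw [e1, e2]
    have : ‖g s0‖ / ‖g s‖ * a s ^ n = ‖g s0‖ * (a s ^ n / ‖g s‖) := by ring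
    rw [this]
    have : ‖g s0‖ / ‖g s0‖ * a s0 ^ n = ‖g s0‖ * (a s0 ^ n / ‖g s0‖) := by ring
    rw [this]
    exact mul_le_mul_of_nonneg_left hs p0.le
  exact le_of_pow_le_pow_left₀ (by omega) (mul_nonneg (norm_nonneg _) (hpos _)) key

theorem barrier (n : ℕ) (hn : 1 ≤ n) (zh : ℂ) (hz : ‖zh‖ = 1) (a0 a1 : ℂ → ℝ)
    (h0 : Continuous a0) (h1 : Continuous a1) (p0 : ∀ s, 0 ≤ a0 s) (p1 : ∀ s, 0 ≤ a1 s)
    (hglue : ∀ s, s ≠ 0 → a0 s = ‖s‖ * a1 s⁻¹)
    (n0 : NoMax a0) (n1 : NoMax a1) (M θ δ : ℝ) (hM : 0 < M) (hδ : 0 < δ) (hδ1 : δ < 1)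
    (hθ0 : 0 ≤ θ) (hθ1 : θ < 1)
    (hθ : ∀ s, ‖s ^ n - zh‖ ≤ δ → a0 s ≤ θ * M) (hn2 : θ ^ n * 2 < δ)
    (s : ℂ) (hs : ‖s‖ ≤ 1) : a0 s < M ∧ a1 s < M := by
  set W0 : Set ℂ := {s | ‖s‖ ≤ 1 ∧ δ ≤ ‖s ^ n - zh‖} with hW0
  set W1 : Set ℂ := {s | ‖s‖ ≤ 1 ∧ δ * ‖s‖ ^ n ≤ ‖1 - zh * s ^ n‖} with hW1
  have hne1 : ∀ s ∈ W1, (1 - zh * s ^ n) ≠ 0 := by
    intro s hs h
    have h2 := hs.2
    rw [h, norm_zero] at h2
    have h3 : ‖s‖ ^ n ≤ 0 := by
      by_contra hc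
      push Not at hc
      nlinarith [mul_pos hδ hc]
    have h4 : s = 0 := by
      have : ‖s‖ ^ n = 0 := le_antisymm h3 (by positivity)
      exact norm_eq_zero.mp (pow_eq_zero_iff (by omega) |>.mp this)
    rw [h4, zero_pow (by omega), mul_zero, sub_zero] at h
    exact one_ne_zero h
  have hne0 : ∀ s ∈ W0, (s ^ n - zh) ≠ 0 := by
    intro s hs h
    have h2 := hs.2
    rw [h, norm_zero] at h2
    linarith
  have hcl : IsCompact (Metric.closedBall (0:ℂ) 1) := isCompact_closedBall 0 1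
  have hW0c : IsCompact W0 := by
    have : W0 = Metric.closedBall (0:ℂ) 1 ∩ {s | δ ≤ ‖s ^ n - zh‖} := by
      ext s; simp [hW0]
    rw [this]
    apply hcl.inter_right
    exact isClosed_le continuous_const (by fun_prop)
  have hW1c : IsCompact W1 := by
    have : W1 = Metric.closedBall (0:ℂ) 1 ∩ {s | δ * ‖s‖ ^ n ≤ ‖1 - zh * s ^ n‖} := by
      ext s; simp [hW1]
    rw [this]
    apply hcl.inter_right
    exact isClosed_le (by fun_prop) (by fun_prop)
  have hW0n : (0:ℂ) ∈ W0 := by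
    refine ⟨by simp, ?_⟩
    rw [zero_pow (by omega), zero_sub, norm_neg, hz]; exact hδ1.le
  have hW1n : (0:ℂ) ∈ W1 := by
    refine ⟨by simp, ?_⟩
    simp [zero_pow (by omega : n ≠ 0)]
  set Ψ0 : ℂ → ℝ := fun s => a0 s ^ n / ‖s ^ n - zh‖ with hΨ0
  set Ψ1 : ℂ → ℝ := fun s => a1 s ^ n / ‖1 - zh * s ^ n‖ with hΨ1
  have hΨ : ∀ s, s ≠ 0 → Ψ0 s = Ψ1 s⁻¹ := by
    intro s hs
    have hsn : ‖s‖ ≠ 0 := norm_ne_zero_iff.mpr hs
    have e : s ^ n - zh = s ^ n * (1 - zh * s⁻¹ ^ n) := by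
      have : s ^ n ≠ 0 := pow_ne_zero _ hs
      rw [inv_pow]; field_simp
    simp only [hΨ0, hΨ1]
    rw [hglue s hs, e, norm_mul, norm_pow, mul_pow]
    by_cases h : (1 - zh * s⁻¹ ^ n) = 0
    · rw [h]; simp
    · have : ‖(1 - zh * s⁻¹ ^ n)‖ ≠ 0 := norm_ne_zero_iff.mpr h
      have h5 : ‖s‖ ^ n ≠ 0 := pow_ne_zero _ hsn
      field_simp
  have hc0 : ContinuousOn Ψ0 W0 := by
    apply ContinuousOn.div
    · exact (h0.pow n).continuousOn
    · fun_prop
    · intro s hs; exact norm_ne_zero_iff.mpr (hne0 s hs)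
  have hc1 : ContinuousOn Ψ1 W1 := by
    apply ContinuousOn.div
    · exact (h1.pow n).continuousOn
    · fun_prop
    · intro s hs; exact norm_ne_zero_iff.mpr (hne1 s hs)
  obtain ⟨x0, hx0, hx0m⟩ := hW0c.exists_isMaxOn ⟨0, hW0n⟩ hc0
  obtain ⟨x1, hx1, hx1m⟩ := hW1c.exists_isMaxOn ⟨0, hW1n⟩ hc1
  set K : ℝ := (θ * M) ^ n / δ with hK
  -- transfer between the two regions
  have t01 : ∀ s ∈ W0, s ≠ 0 → ‖s‖ = 1 → s⁻¹ ∈ W1 := by
    intro s hs h h'
    refine ⟨by simp [h'], ?_⟩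
    have e : s ^ n - zh = s ^ n * (1 - zh * s⁻¹ ^ n) := by
      have : s ^ n ≠ 0 := pow_ne_zero _ h
      rw [inv_pow]; field_simp
    have h2 := hs.2
    rw [e, norm_mul, norm_pow, h', one_pow, one_mul] at h2
    simpa [h'] using h2
  have out0 : ∀ s : ℂ, 1 < ‖s‖ → δ ≤ ‖s ^ n - zh‖ → s⁻¹ ∈ W1 := by
    intro s h1s h2s
    have hs0 : s ≠ 0 := by intro h; rw [h, norm_zero] at h1s; linarith
    have e : s ^ n - zh = s ^ n * (1 - zh * s⁻¹ ^ n) := by
      have : s ^ n ≠ 0 := pow_ne_zero _ hs0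
      rw [inv_pow]; field_simp
    refine ⟨by rw [norm_inv]; exact inv_le_one_of_one_le₀ h1s.le, ?_⟩
    rw [e, norm_mul, norm_pow] at h2s
    have hp : 0 < ‖s‖ ^ n := by positivity
    rw [norm_inv, inv_pow, ← div_eq_mul_inv, div_le_iff₀ hp]
    linarith [mul_comm (‖1 - zh * s⁻¹ ^ n‖) (‖s‖ ^ n)]
  have out1 : ∀ s : ℂ, 1 < ‖s‖ → δ * ‖s‖ ^ n ≤ ‖1 - zh * s ^ n‖ → s⁻¹ ∈ W0 := by
    intro s h1s h2s
    have hs0 : s ≠ 0 := by intro h; rw [h, norm_zero] at h1s; linarith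
    have e : 1 - zh * s ^ n = s ^ n * (s⁻¹ ^ n - zh) := by
      have : s ^ n ≠ 0 := pow_ne_zero _ hs0
      rw [inv_pow]; field_simp
    refine ⟨by rw [norm_inv]; exact inv_le_one_of_one_le₀ h1s.le, ?_⟩
    rw [e, norm_mul, norm_pow] at h2s
    have hp : 0 < ‖s‖ ^ n := by positivity
    nlinarith
  have hm : Ψ0 x0 ≤ K ∧ Ψ1 x1 ≤ K := by
    rcases le_total (Ψ1 x1) (Ψ0 x0) with hle | hle
    · suffices h : Ψ0 x0 ≤ K from ⟨h, hle.trans h⟩
      by_contra hlt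
      push Not at hlt
      have hstrict : δ < ‖x0 ^ n - zh‖ := by
        refine lt_of_le_of_ne hx0.2 ?_
        intro heq
        have h2 := hθ x0 heq.symm.le
        have h3 : Ψ0 x0 ≤ K := by
          simp only [hΨ0, hK, ← heq]
          exact div_le_div_of_nonneg_right (pow_le_pow_left₀ (p0 x0) h2 n) hδ.le
        linarith
      refine n0.not_localMax p0 n hn (fun s => s ^ n - zh) x0 ?_ (hne0 x0 hx0) ?_
      · exact Eventually.of_forall (fun s => by fun_prop)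
      · have hev : ∀ᶠ s in 𝓝 x0, δ < ‖s ^ n - zh‖ := by
          have : ContinuousAt (fun s : ℂ => ‖s ^ n - zh‖) x0 := by fun_prop
          exact this.eventually_const_lt hstrict
        filter_upwards [hev] with s hs
        by_cases h1s : ‖s‖ ≤ 1
        · exact hx0m ⟨h1s, hs.le⟩
        · push Not at h1s
          have hs0 : s ≠ 0 := by intro h; rw [h, norm_zero] at h1s; linarith
          have := hx1m (out0 s h1s hs.le)
          calc Ψ0 s = Ψ1 s⁻¹ := hΨ s hs0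
            _ ≤ Ψ1 x1 := this
            _ ≤ Ψ0 x0 := hle
    · suffices h : Ψ1 x1 ≤ K from ⟨hle.trans h, h⟩
      by_contra hlt
      push Not at hlt
      have hstrict : δ * ‖x1‖ ^ n < ‖1 - zh * x1 ^ n‖ := by
        refine lt_of_le_of_ne hx1.2 ?_
        intro heq
        have hx10 : x1 ≠ 0 := by
          intro h
          rw [h] at heq
          simp [zero_pow (by omega : n ≠ 0)] at heq
        have e : 1 - zh * x1 ^ n = x1 ^ n * (x1⁻¹ ^ n - zh) := by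
          have : x1 ^ n ≠ 0 := pow_ne_zero _ hx10
          rw [inv_pow]; field_simp
        have hp : 0 < ‖x1‖ ^ n := by positivity
        rw [e, norm_mul, norm_pow] at heq
        have heq2 : ‖x1⁻¹ ^ n - zh‖ = δ := by
          have : ‖x1‖ ^ n * ‖x1⁻¹ ^ n - zh‖ = ‖x1‖ ^ n * δ := by rw [← heq]; ring
          exact mul_left_cancel₀ hp.ne' this
        have h2 := hθ x1⁻¹ heq2.le
        have h3 : Ψ1 x1 ≤ K := by
          have h4 := hΨ x1⁻¹ (inv_ne_zero hx10)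
          rw [inv_inv] at h4
          rw [← h4]
          simp only [hΨ0, hK, heq2]
          exact div_le_div_of_nonneg_right (pow_le_pow_left₀ (p0 _) h2 n) hδ.le
        linarith
      refine n1.not_localMax p1 n hn (fun s => 1 - zh * s ^ n) x1 ?_ (hne1 x1 hx1) ?_
      · exact Eventually.of_forall (fun s => by fun_prop)
      · have hev : ∀ᶠ s in 𝓝 x1, δ * ‖s‖ ^ n < ‖1 - zh * s ^ n‖ := by
          have h6 : ContinuousAt (fun s : ℂ => ‖1 - zh * s ^ n‖) x1 := by fun_prop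
          have h7 : ContinuousAt (fun s : ℂ => δ * ‖s‖ ^ n) x1 := by fun_prop
          exact h7.eventually_lt h6 hstrict
        filter_upwards [hev] with s hs
        by_cases h1s : ‖s‖ ≤ 1
        · exact hx1m ⟨h1s, hs.le⟩
        · push Not at h1s
          have hs0 : s ≠ 0 := by intro h; rw [h, norm_zero] at h1s; linarith
          have h8 := hx0m (out1 s h1s hs.le)
          have h9 := hΨ s⁻¹ (inv_ne_zero hs0)
          rw [inv_inv] at h9
          calc Ψ1 s = Ψ0 s⁻¹ := h9.symm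
            _ ≤ Ψ0 x0 := h8
            _ ≤ Ψ1 x1 := hle
  have hKM : K * 2 < M ^ n := by
    rw [hK, mul_pow, div_mul_eq_mul_div, div_lt_iff₀ hδ]
    have : 0 < M ^ n := by positivity
    nlinarith
  constructor
  · by_cases hsW : s ∈ W0
    · have h2 : Ψ0 s ≤ K := le_trans (hx0m hsW) hm.1
      have h3 : 0 < ‖s ^ n - zh‖ := norm_pos_iff.mpr (hne0 s hsW)
      have h4 : a0 s ^ n ≤ K * ‖s ^ n - zh‖ := (div_le_iff₀ h3).mp h2
      have h5 : ‖s ^ n - zh‖ ≤ 2 := by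
        calc ‖s ^ n - zh‖ ≤ ‖s ^ n‖ + ‖zh‖ := norm_sub_le _ _
          _ ≤ 1 + 1 := by
            rw [hz, norm_pow]
            have : ‖s‖ ^ n ≤ 1 := pow_le_one₀ (norm_nonneg _) hs
            linarith
          _ = 2 := by norm_num
      have hK0 : 0 ≤ K := by positivity
      have h6 : a0 s ^ n < M ^ n := by nlinarith
      exact lt_of_pow_lt_pow_left₀ n hM.le h6
    · have h2 : ‖s ^ n - zh‖ < δ := by
        by_contra hc
        push Not at hc
        exact hsW ⟨hs, hc⟩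
      have := hθ s h2.le
      nlinarith
  · by_cases hsW : s ∈ W1
    · have h2 : Ψ1 s ≤ K := le_trans (hx1m hsW) hm.2
      have h3 : 0 < ‖1 - zh * s ^ n‖ := norm_pos_iff.mpr (hne1 s hsW)
      have h4 : a1 s ^ n ≤ K * ‖1 - zh * s ^ n‖ := (div_le_iff₀ h3).mp h2
      have h5 : ‖1 - zh * s ^ n‖ ≤ 2 := by
        calc ‖1 - zh * s ^ n‖ ≤ ‖(1:ℂ)‖ + ‖zh * s ^ n‖ := norm_sub_le _ _
          _ ≤ 1 + 1 := by
            rw [norm_mul, hz, norm_pow, one_mul, norm_one]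
            have : ‖s‖ ^ n ≤ 1 := pow_le_one₀ (norm_nonneg _) hs
            linarith
          _ = 2 := by norm_num
      have hK0 : 0 ≤ K := by positivity
      have h6 : a1 s ^ n < M ^ n := by nlinarith
      exact lt_of_pow_lt_pow_left₀ n hM.le h6
    · have h2 : ‖1 - zh * s ^ n‖ < δ * ‖s‖ ^ n := by
        by_contra hc
        push Not at hc
        exact hsW ⟨hs, hc⟩
      have hs0 : s ≠ 0 := by
        intro h
        have h0' : δ * ‖s‖ ^ n = 0 := by rw [h, norm_zero, zero_pow (by omega), mul_zero]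
        rw [h0'] at h2
        exact absurd h2 (not_lt.mpr (norm_nonneg _))
      have e : 1 - zh * s ^ n = s ^ n * (s⁻¹ ^ n - zh) := by
        have : s ^ n ≠ 0 := pow_ne_zero _ hs0
        rw [inv_pow]; field_simp
      have hp : 0 < ‖s‖ ^ n := by positivity
      rw [e, norm_mul, norm_pow] at h2
      have h3 : ‖s⁻¹ ^ n - zh‖ ≤ δ := by nlinarith
      have h4 := hθ s⁻¹ h3
      have h5 := hglue s⁻¹ (inv_ne_zero hs0)
      rw [inv_inv] at h5
      have hsp : 0 < ‖s‖ := norm_pos_iff.mpr hs0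
      have h6 : a1 s = ‖s‖ * a0 s⁻¹ := by
        rw [h5, norm_inv]; field_simp
      rw [h6]
      have := p0 s⁻¹
      nlinarith

end Crest.Agent.S0396
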