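import Mathlib
import Crest.Agent.S0396_Defs

set_option autoImplicit false

noncomputable section

namespace Crest.Agent.S0396

open Crest.AlgGeometry.QuadricBundle
open Filter Topology
open scoped ComplexOrder ComplexConjugate Matrix

def dn (K : Matrix (Fin 2) (Fin 2) ℂ) (u : Fin 2 → ℂ) : ℝ :=
  Real.sqrt ((∑ i, u i * (starRingEnd ℂ) ((K⁻¹.mulVec u) i)).re)

/-- squared norm of a vector -/
def vn (K : Matrix (Fin 2) (Fin 2) ℂ) (v : Fin 2 → ℂ) : ℝ :=
  (∑ i, ∑ j, K i j * v i * conj (v j)).re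

theorem dn_nonneg (K : Matrix (Fin 2) (Fin 2) ℂ) (u : Fin 2 → ℂ) : 0 ≤ dn K u :=
  Real.sqrt_nonneg _

theorem dn_smul (K : Matrix (Fin 2) (Fin 2) ℂ) (a : ℂ) (u : Fin 2 → ℂ) :
    dn K (a • u) = ‖a‖ * dn K u := by
  unfold dn
  have h : (∑ i, (a • u) i * (starRingEnd ℂ) ((K⁻¹.mulVec (a • u)) i)) =
      ((‖a‖ ^ 2 : ℝ) : ℂ) * ∑ i, u i * (starRingEnd ℂ) ((K⁻¹.mulVec u) i) := by
    rw [Matrix.mulVec_smul, Finset.mul_sum]
    apply Finset.sum_congr rfl
    intro i _
    simp only [Pi.smul_apply, smul_eq_mul, map_mul]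
    have : ((‖a‖ ^ 2 : ℝ) : ℂ) = a * conj a := by
      rw [Complex.mul_conj, Complex.normSq_eq_norm_sq]
    rw [this]; ring
  rw [h, Complex.re_ofReal_mul, Real.sqrt_mul (by positivity), Real.sqrt_sq (norm_nonneg _)]

theorem posDef_det_ne {K : Matrix (Fin 2) (Fin 2) ℂ} (hK : K.PosDef) : K.det ≠ 0 :=
  hK.det_pos.ne'

theorem K_mul_inv {K : Matrix (Fin 2) (Fin 2) ℂ} (hK : K.PosDef) (u : Fin 2 → ℂ) :
    K.mulVec (K⁻¹.mulVec u) = u := by
  rw [Matrix.mulVec_mulVec, Matrix.mul_nonsing_inv _ (isUnit_iff_ne_zero.2 (posDef_det_ne hK)),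
    Matrix.one_mulVec]

theorem herm {K : Matrix (Fin 2) (Fin 2) ℂ} (hK : K.PosDef) (i j : Fin 2) :
    conj (K i j) = K j i := hK.isHermitian.apply j i

theorem dn_sq_pos_arg {K : Matrix (Fin 2) (Fin 2) ℂ} (hK : K.PosDef) (u : Fin 2 → ℂ) (hu : u ≠ 0) :
    0 < (∑ i, u i * (starRingEnd ℂ) ((K⁻¹.mulVec u) i)).re := by
  have h := hK.inv.re_dotProduct_pos hu
  have e : (∑ i, u i * (starRingEnd ℂ) ((K⁻¹.mulVec u) i)) =
      conj (star u ⬝ᵥ (K⁻¹.mulVec u)) := by
    rw [dotProduct, map_sum]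
    apply Finset.sum_congr rfl
    intro i _
    simp
  rw [e, Complex.conj_re]
  exact h

theorem dn_pos (K : Matrix (Fin 2) (Fin 2) ℂ) (hK : K.PosDef) (u : Fin 2 → ℂ) (hu : u ≠ 0) :
    0 < dn K u := Real.sqrt_pos.2 (dn_sq_pos_arg hK u hu)

theorem dn_sq {K : Matrix (Fin 2) (Fin 2) ℂ} (hK : K.PosDef) (u : Fin 2 → ℂ) :
    dn K u ^ 2 = (∑ i, u i * (starRingEnd ℂ) ((K⁻¹.mulVec u) i)).re := by
  unfold dn
  rw [Real.sq_sqrt]
  by_cases hu : u = 0
  · subst hu; simp
  · exact (dn_sq_pos_arg hK u hu).le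

theorem vn_pos {K : Matrix (Fin 2) (Fin 2) ℂ} (hK : K.PosDef) (v : Fin 2 → ℂ) (hv : v ≠ 0) :
    0 < vn K v := by
  have hv' : star v ≠ 0 := by simpa using hv
  have h := hK.re_dotProduct_pos hv'
  have e : (∑ i, ∑ j, K i j * v i * conj (v j)) = star (star v) ⬝ᵥ (K.mulVec (star v)) := by
    rw [dotProduct]
    apply Finset.sum_congr rfl
    intro i _
    rw [Matrix.mulVec, dotProduct, Finset.mul_sum]
    apply Finset.sum_congr rfl
    intro j _
    simp
    ring
  unfold vn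
  rw [e]; exact h

theorem vn_nonneg {K : Matrix (Fin 2) (Fin 2) ℂ} (hK : K.PosDef) (v : Fin 2 → ℂ) :
    0 ≤ vn K v := by
  by_cases hv : v = 0
  · subst hv; simp [vn]
  · exact (vn_pos hK v hv).le

theorem vn_smul {K : Matrix (Fin 2) (Fin 2) ℂ} (a : ℂ) (v : Fin 2 → ℂ) :
    vn K (a • v) = ‖a‖ ^ 2 * vn K v := by
  unfold vn
  have : (∑ i, ∑ j, K i j * (a • v) i * conj ((a • v) j)) =
      ((‖a‖ ^ 2 : ℝ) : ℂ) * ∑ i, ∑ j, K i j * v i * conj (v j) := by
    rw [Finset.mul_sum]
    apply Finset.sum_congr rfl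
    intro i _
    rw [Finset.mul_sum]
    apply Finset.sum_congr rfl
    intro j _
    have : ((‖a‖ ^ 2 : ℝ) : ℂ) = a * conj a := by
      rw [Complex.mul_conj, Complex.normSq_eq_norm_sq]
    rw [this]
    simp only [Pi.smul_apply, smul_eq_mul, map_mul]
    ring
  rw [this, Complex.re_ofReal_mul]

/-- Cauchy–Schwarz -/
theorem dn_bound {K : Matrix (Fin 2) (Fin 2) ℂ} (hK : K.PosDef) (u v : Fin 2 → ℂ) :
    ‖∑ i, u i * v i‖ ^ 2 ≤ dn K u ^ 2 * vn K v := by
  rw [dn_sq hK]
  set w := K⁻¹.mulVec u with hw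
  have hu : u = K.mulVec w := (K_mul_inv hK u).symm
  have h00 : (K 0 0).im = 0 := Complex.conj_eq_iff_im.1 (herm hK 0 0)
  have h11 : (K 1 1).im = 0 := Complex.conj_eq_iff_im.1 (herm hK 1 1)
  have h10 : K 1 0 = conj (K 0 1) := (herm hK 0 1).symm
  have hdet : 0 < K.det := hK.det_pos
  have hdet' : 0 < (K 0 0).re * (K 1 1).re - ((K 0 1).re ^ 2 + (K 0 1).im ^ 2) := by
    have := (Complex.lt_def.1 hdet).1
    rw [Matrix.det_fin_two, h10] at this
    simp [h00, h11] at this
    nlinarith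
  have hu0 : u 0 = K 0 0 * w 0 + K 0 1 * w 1 := by
    conv_lhs => rw [hu]
    simp [Matrix.mulVec, dotProduct, Fin.sum_univ_two]
  have hu1 : u 1 = K 1 0 * w 0 + K 1 1 * w 1 := by
    conv_lhs => rw [hu]
    simp [Matrix.mulVec, dotProduct, Fin.sum_univ_two]
  have key : (∑ i, u i * conj (w i)).re * vn K v - ‖∑ i, u i * v i‖ ^ 2 =
      ((K 0 0).re * (K 1 1).re - ((K 0 1).re ^ 2 + (K 0 1).im ^ 2)) *
        ‖w 0 * conj (v 1) - w 1 * conj (v 0)‖ ^ 2 := by
    unfold vn
    simp only [Fin.sum_univ_two, hu0, hu1, h10]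
    simp only [← Complex.normSq_eq_norm_sq, Complex.normSq_apply]
    simp only [Complex.add_re, Complex.mul_re, Complex.conj_re, Complex.conj_im, Complex.add_im,
      Complex.mul_im, Complex.sub_re, Complex.sub_im, h00, h11]
    ring
  have : 0 ≤ ((K 0 0).re * (K 1 1).re - ((K 0 1).re ^ 2 + (K 0 1).im ^ 2)) *
        ‖w 0 * conj (v 1) - w 1 * conj (v 0)‖ ^ 2 := by positivity
  linarith

theorem dn_bound' {K : Matrix (Fin 2) (Fin 2) ℂ} (hK : K.PosDef) (u v : Fin 2 → ℂ) :
    ‖∑ i, u i * v i‖ ≤ dn K u * Real.sqrt (vn K v) := by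
  have h := dn_bound hK u v
  have h2 : ‖∑ i, u i * v i‖ ^ 2 ≤ (dn K u * Real.sqrt (vn K v)) ^ 2 := by
    rw [mul_pow, Real.sq_sqrt (vn_nonneg hK v)]; exact h
  exact le_of_pow_le_pow_left₀ two_ne_zero (mul_nonneg (dn_nonneg _ _) (Real.sqrt_nonneg _)) h2

/-- the dual norm is attained -/
theorem dn_attained {K : Matrix (Fin 2) (Fin 2) ℂ} (hK : K.PosDef) (u : Fin 2 → ℂ) (hu : u ≠ 0) :
    ∃ v : Fin 2 → ℂ, v ≠ 0 ∧ ‖∑ i, u i * v i‖ ^ 2 = dn K u ^ 2 * vn K v := by
  set w := K⁻¹.mulVec u with hw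
  have hu' : u = K.mulVec w := (K_mul_inv hK u).symm
  refine ⟨fun i => conj (w i), ?_, ?_⟩
  · intro h
    apply hu
    have : w = 0 := by
      funext i
      have := congrFun h i
      simpa using this
    rw [hu', this, Matrix.mulVec_zero]
  · have h1 : vn K (fun i => conj (w i)) = dn K u ^ 2 := by
      rw [dn_sq hK, ← hw]
      unfold vn
      have : (∑ i, ∑ j, K i j * conj (w i) * conj (conj (w j))) = ∑ i, u i * conj (w i) := by
        apply Finset.sum_congr rfl
        intro i _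
        conv_rhs => rw [hu']
        rw [Matrix.mulVec, dotProduct, Finset.sum_mul]
        apply Finset.sum_congr rfl
        intro j _
        rw [Complex.conj_conj]; ring
      rw [this]
    have h2 : (∑ i, u i * conj (w i)) = ((dn K u ^ 2 : ℝ) : ℂ) := by
      rw [dn_sq hK, ← hw]
      apply Complex.ext
      · simp
      · rw [Complex.ofReal_im]
        have h00 : (K 0 0).im = 0 := Complex.conj_eq_iff_im.1 (herm hK 0 0)
        have h11 : (K 1 1).im = 0 := Complex.conj_eq_iff_im.1 (herm hK 1 1)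
        have h10 : K 1 0 = conj (K 0 1) := (herm hK 0 1).symm
        have hu0 : u 0 = K 0 0 * w 0 + K 0 1 * w 1 := by
          conv_lhs => rw [hu']
          simp [Matrix.mulVec, dotProduct, Fin.sum_univ_two]
        have hu1 : u 1 = K 1 0 * w 0 + K 1 1 * w 1 := by
          conv_lhs => rw [hu']
          simp [Matrix.mulVec, dotProduct, Fin.sum_univ_two]
        simp only [Fin.sum_univ_two, hu0, hu1, h10]
        simp only [Complex.add_re, Complex.mul_re, Complex.conj_re, Complex.conj_im, Complex.add_im,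
          Complex.mul_im, h00, h11]
        ring
    rw [h1]
    change ‖∑ i, u i * conj (w i)‖ ^ 2 = _
    rw [h2, Complex.norm_real, Real.norm_eq_abs, sq_abs]; ring

theorem dn_add_le (K : Matrix (Fin 2) (Fin 2) ℂ) (hK : K.PosDef) (u u' : Fin 2 → ℂ) :
    dn K (u + u') ≤ dn K u + dn K u' := by
  by_cases h0 : u + u' = 0
  · rw [h0]
    have : dn K 0 = 0 := by simp [dn]
    rw [this]
    exact add_nonneg (dn_nonneg _ _) (dn_nonneg _ _)
  obtain ⟨v, hv, he⟩ := dn_attained hK (u + u') h0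
  have hp := Real.sqrt_pos.2 (vn_pos hK v hv)
  have he' : ‖∑ i, (u + u') i * v i‖ = dn K (u + u') * Real.sqrt (vn K v) := by
    have : ‖∑ i, (u + u') i * v i‖ ^ 2 = (dn K (u + u') * Real.sqrt (vn K v)) ^ 2 := by
      rw [mul_pow, Real.sq_sqrt (vn_nonneg hK v)]; exact he
    exact (pow_left_inj₀ (norm_nonneg _) (mul_nonneg (dn_nonneg _ _) (Real.sqrt_nonneg _))
      two_ne_zero).1 this
  have h1 := dn_bound' hK u v
  have h2 := dn_bound' hK u' v
  have h3 : (∑ i, (u + u') i * v i) = (∑ i, u i * v i) + ∑ i, u' i * v i := by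
    rw [← Finset.sum_add_distrib]
    apply Finset.sum_congr rfl
    intro i _
    simp [add_mul]
  have h4 := norm_add_le (∑ i, u i * v i) (∑ i, u' i * v i)
  rw [← h3, he'] at h4
  have : dn K (u + u') * Real.sqrt (vn K v) ≤ (dn K u + dn K u') * Real.sqrt (vn K v) := by
    rw [add_mul]; linarith
  exact le_of_mul_le_mul_right this hp

theorem dn_continuous {g : Transition 2} {H : MetricData 2} (hH : IsHermitianMetric g H)
    {T : Type*} [TopologicalSpace T] (α : Chart) (p : T → (Fin 2 → ℂ)) (hp : Continuous p)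
    (u : T → (Fin 2 → ℂ)) (hu : Continuous u) :
    Continuous (fun x => dn (H α (p x)) (u x)) := by
  have hK : Continuous (fun x => H α (p x)) :=
    continuous_matrix fun i j => (hH.smooth α i j).continuous.comp hp
  have hdet : Continuous (fun x => (H α (p x)).det) := hK.matrix_det
  have hinv : Continuous (fun x => (H α (p x))⁻¹) := by
    have : (fun x => (H α (p x))⁻¹) = fun x => ((H α (p x)).det)⁻¹ • (H α (p x)).adjugate := by
      funext x
      rw [Matrix.inv_def, Ring.inverse_eq_inv']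
    rw [this]
    exact (hdet.inv₀ (fun x => posDef_det_ne (hH.posDef α (p x)))).smul hK.matrix_adjugate
  unfold dn
  apply Real.continuous_sqrt.comp
  apply Complex.continuous_re.comp
  apply continuous_finsetSum
  intro i _
  apply Continuous.mul
  · exact (continuous_apply i).comp hu
  · apply Complex.continuous_conj.comp
    exact (continuous_apply i).comp (hinv.matrix_mulVec hu)

theorem inv_mulVec_cancel {A : Matrix (Fin 2) (Fin 2) ℂ} (hA : A.det ≠ 0) (x : Fin 2 → ℂ) :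
    A⁻¹.mulVec (A.mulVec x) = x := by
  rw [Matrix.mulVec_mulVec, Matrix.nonsing_inv_mul _ (isUnit_iff_ne_zero.2 hA), Matrix.one_mulVec]

theorem dn_compat {g : Transition 2} {H : MetricData 2} (hH : IsHermitianMetric g H)
    (α β : Chart) (p : Fin 2 → ℂ) (hp : p ∈ overlap α β) (hdet : (g α β p).det ≠ 0)
    (u : Fin 2 → ℂ) :
    dn (H β (tau α β p)) (Matrix.vecMul u (g α β p)) = dn (H α p) u := by
  have hc := hH.compat α β p hp
  have hKβ := hH.posDef β (tau α β p)
  have hKα := hH.posDef α p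
  set G := g α β p with hG
  set K := H α p with hKdef
  set K' := H β (tau α β p) with hK'def
  set w' := K'⁻¹.mulVec (Matrix.vecMul u G) with hw'
  set w := K⁻¹.mulVec u with hw
  have e1 : K'.mulVec w' = G.transpose.mulVec u := by
    rw [hw', K_mul_inv hKβ, Matrix.mulVec_transpose]
  have hGu : G.transpose.det ≠ 0 := by
    rw [Matrix.det_transpose]; exact hdet
  have e2 : K.mulVec ((G.map conj).mulVec w') = u := by
    have h1 : G.transpose.mulVec (K.mulVec ((G.map conj).mulVec w')) = G.transpose.mulVec u := by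
      rw [← e1, hc, Matrix.mulVec_mulVec, Matrix.mulVec_mulVec, Matrix.mul_assoc]
    rw [← inv_mulVec_cancel hGu (K.mulVec ((G.map conj).mulVec w')), h1, inv_mulVec_cancel hGu]
  have e3 : (G.map conj).mulVec w' = w := by
    have e4 := inv_mulVec_cancel (posDef_det_ne hKα) ((G.map conj).mulVec w')
    rw [e2] at e4
    exact e4.symm
  unfold dn
  rw [← hw', ← hw]
  congr 2
  rw [← e3]
  simp only [Matrix.vecMul, Matrix.mulVec, dotProduct, Fin.sum_univ_two, Matrix.map_apply, map_add,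
    map_mul, Complex.conj_conj]
  ring

/-- second derivative test, converse direction -/
theorem second_deriv_nonneg (f : ℝ → ℝ) (hmin : IsLocalMin f 0) (hc : ContinuousAt f 0) :
    0 ≤ deriv (deriv f) 0 := by
  by_contra h
  push Not at h
  have hd : deriv f 0 = 0 := hmin.deriv_eq_zero
  have hmax := isLocalMax_of_deriv_deriv_neg h hd hc
  have hconst : f =ᶠ[𝓝 0] fun _ => f 0 := by
    filter_upwards [hmin, hmax] with x h1 h2
    exact le_antisymm h2 h1
  have h1 : deriv f =ᶠ[𝓝 0] fun _ => 0 := by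
    have := hconst.deriv
    simpa using this
  have h2 : deriv (deriv f) 0 = 0 := by
    rw [h1.deriv_eq]; simp
  linarith

theorem diff_deriv {a : ℝ → ℝ} (ha : ContDiffAt ℝ 2 a 0) :
    (∀ᶠ r in 𝓝 (0:ℝ), DifferentiableAt ℝ a r) ∧ DifferentiableAt ℝ (deriv a) 0 := by
  constructor
  · have := ha.eventually (by simp)
    filter_upwards [this] with r hr
    exact hr.differentiableAt (by simp)
  · have h : ContDiffAt ℝ 1 (fderiv ℝ a) 0 := ha.fderiv_right (by norm_num)
    have e : deriv a = fun r => fderiv ℝ a r 1 := by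
      funext r; exact fderiv_apply_one_eq_deriv.symm
    rw [e]
    exact (h.clm_apply contDiffAt_const).differentiableAt (by simp)

theorem deriv2_sub (a b : ℝ → ℝ) (c : ℝ) (ha : ContDiffAt ℝ 2 a 0) (hb : ContDiffAt ℝ 2 b 0) :
    deriv (deriv (fun r => c * a r - b r)) 0 = c * deriv (deriv a) 0 - deriv (deriv b) 0 := by
  obtain ⟨a1, a2⟩ := diff_deriv ha
  obtain ⟨b1, b2⟩ := diff_deriv hb
  have h1 : deriv (fun r => c * a r - b r) =ᶠ[𝓝 0] fun r => c * deriv a r - deriv b r := by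
    filter_upwards [a1, b1] with r ha hb
    exact ((ha.hasDerivAt.const_mul c).sub hb.hasDerivAt).deriv
  rw [h1.deriv_eq]
  exact ((a2.hasDerivAt.const_mul c).sub b2.hasDerivAt).deriv

theorem deriv2_normSq (A A' : ℝ → ℂ) (A'' : ℂ) (h1 : ∀ᶠ r in 𝓝 (0:ℝ), HasDerivAt A (A' r) r)
    (h2 : HasDerivAt A' A'' 0) :
    deriv (deriv (fun r => Complex.normSq (A r))) 0 =
      2 * Complex.normSq (A' 0) + 2 * ((A 0).re * A''.re + (A 0).im * A''.im) := by
  have hre : ∀ (B : ℝ → ℂ) (B' : ℂ) (r : ℝ), HasDerivAt B B' r →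
      HasDerivAt (fun r => (B r).re) B'.re r := by
    intro B B' r h
    exact Complex.reCLM.hasFDerivAt.comp_hasDerivAt r h
  have him : ∀ (B : ℝ → ℂ) (B' : ℂ) (r : ℝ), HasDerivAt B B' r →
      HasDerivAt (fun r => (B r).im) B'.im r := by
    intro B B' r h
    exact Complex.imCLM.hasFDerivAt.comp_hasDerivAt r h
  have e1 : deriv (fun r => Complex.normSq (A r)) =ᶠ[𝓝 0]
      fun r => 2 * ((A r).re * (A' r).re + (A r).im * (A' r).im) := by
    filter_upwards [h1] with r hr
    have h3 := hre A (A' r) r hr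
    have h4 := him A (A' r) r hr
    have h5 := (h3.mul h3).add (h4.mul h4)
    have h6 : (fun r => Complex.normSq (A r)) =
        ((fun r => (A r).re) * fun r => (A r).re) + (fun r => (A r).im) * fun r => (A r).im := by
      funext r; simp [Complex.normSq_apply]
    rw [h6, h5.deriv]; ring
  rw [e1.deriv_eq]
  have h0 := h1.self_of_nhds
  have r0 := hre A _ 0 h0
  have i0 := him A _ 0 h0
  have r1 := hre A' _ 0 h2
  have i1 := him A' _ 0 h2
  have h7 := ((r0.mul r1).add (i0.mul i1)).const_mul 2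
  have h8 : (fun r => 2 * ((A r).re * (A' r).re + (A r).im * (A' r).im)) =
      fun y => 2 * ((((fun r => (A r).re) * fun r => (A' r).re) +
        (fun r => (A r).im) * fun r => (A' r).im) y) := by
    funext r; simp
  rw [h8, h7.deriv, Complex.normSq_apply]
  ring

theorem lap_normSq (φ : ℂ → ℂ) (hφ : ∀ᶠ z in 𝓝 (0:ℂ), DifferentiableAt ℂ φ z) :
    deriv (deriv (fun r : ℝ => Complex.normSq (φ ((r:ℂ) * 1)))) 0 +
      deriv (deriv (fun r : ℝ => Complex.normSq (φ ((r:ℂ) * Complex.I)))) 0 =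
      4 * Complex.normSq (deriv φ 0) := by
  have han : AnalyticAt ℂ φ 0 := Complex.analyticAt_iff_eventually_differentiableAt.2 hφ
  have hd2 : HasDerivAt (deriv φ) (deriv (deriv φ) 0) 0 := han.deriv.differentiableAt.hasDerivAt
  have key : ∀ e : ℂ, deriv (deriv (fun r : ℝ => Complex.normSq (φ ((r:ℂ) * e)))) 0 =
      2 * Complex.normSq (e * deriv φ 0) + 2 * ((φ 0).re * (e * (e * deriv (deriv φ) 0)).re +
        (φ 0).im * (e * (e * deriv (deriv φ) 0)).im) := by
    intro e
    have hin : ∀ r : ℝ, HasDerivAt (fun r : ℝ => (r:ℂ) * e) e r := by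
      intro r
      simpa using (Complex.ofRealCLM.hasDerivAt (x := r)).mul_const e
    have ht : Tendsto (fun r : ℝ => (r:ℂ) * e) (𝓝 0) (𝓝 0) := by
      have : Continuous (fun r : ℝ => (r:ℂ) * e) := by fun_prop
      simpa using this.tendsto 0
    have h := deriv2_normSq (fun r : ℝ => φ ((r:ℂ) * e)) (fun r : ℝ => e * deriv φ ((r:ℂ) * e))
      (e * (e * deriv (deriv φ) 0)) ?_ ?_
    · simpa using h
    · filter_upwards [ht.eventually hφ] with r hr
      have := HasDerivAt.scomp (h := fun r : ℝ => (r:ℂ) * e) r hr.hasDerivAt (hin r)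
      exact this
    · have h0 : HasDerivAt (deriv φ) (deriv (deriv φ) 0) ((fun r : ℝ => (r:ℂ) * e) 0) := by
        simpa using hd2
      have := HasDerivAt.scomp (h := fun r : ℝ => (r:ℂ) * e) 0 h0 (hin 0)
      exact this.const_mul e
  rw [key 1, key Complex.I]
  have e1 : Complex.I * (Complex.I * deriv (deriv φ) 0) = -deriv (deriv φ) 0 := by
    rw [← mul_assoc, Complex.I_mul_I]; ring
  rw [e1, Complex.normSq_mul, Complex.normSq_mul, Complex.normSq_I]
  simp only [one_mul, Complex.neg_re, Complex.neg_im, map_one]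
  ring


theorem dn_no_local_max {g : Transition 2} {H : MetricData 2} (hH : IsHermitianMetric g H)
    (hG : IsGriffithsPositive H) (α : Chart) (p ξ : Fin 2 → ℂ) (hξ : ξ ≠ 0)
    (u : ℂ → Fin 2 → ℂ) (hu : ∀ᶠ t in nhds 0, DifferentiableAt ℂ u t) (hu0 : u 0 ≠ 0) :
    ¬ IsLocalMax (fun t : ℂ => dn (H α (p + t • ξ)) (u t)) 0 := by
  intro hmax
  obtain ⟨v, hv, hatt⟩ := dn_attained (hH.posDef α p) (u 0) hu0
  obtain ⟨U, s, hU, hpU, hs, hsp, hlevi⟩ := hG α p ξ v hξ hv
  set N0 : ℝ := dn (H α p) (u 0) with hN0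
  have hN0pos : 0 < N0 := dn_pos _ (hH.posDef α p) _ hu0
  -- the line
  have hline : Continuous (fun t : ℂ => p + t • ξ) := by fun_prop
  have htl : Tendsto (fun t : ℂ => p + t • ξ) (𝓝 0) (𝓝 p) := by
    have := hline.tendsto 0
    simpa using this
  have hU' : ∀ᶠ t in 𝓝 (0:ℂ), p + t • ξ ∈ U := htl.eventually (hU.mem_nhds hpU)
  have hσ : ∀ᶠ t in 𝓝 (0:ℂ), DifferentiableAt ℂ (fun t => s (p + t • ξ)) t := by
    filter_upwards [hU'] with t ht
    have h1 : DifferentiableAt ℂ s (p + t • ξ) := hs.differentiableAt (hU.mem_nhds ht)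
    exact DifferentiableAt.comp t h1 (by fun_prop)
  set φ : ℂ → ℂ := fun t => ∑ i, u t i * s (p + t • ξ) i with hφdef
  have hφ : ∀ᶠ t in 𝓝 (0:ℂ), DifferentiableAt ℂ φ t := by
    filter_upwards [hu, hσ] with t h1 h2
    rw [differentiableAt_pi] at h1 h2
    simp only [hφdef]
    exact DifferentiableAt.fun_sum fun i _ => (h1 i).mul (h2 i)
  set S : ℂ → ℝ := fun t => vn (H α (p + t • ξ)) (s (p + t • ξ)) with hSdef
  -- smoothness
  have hSsm : ContDiffAt ℝ 2 S 0 := by
    have hσi : ∀ i : Fin 2, ContDiffAt ℝ 2 (fun t : ℂ => s (p + t • ξ) i) 0 := by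
      intro i
      have : ∀ᶠ t in 𝓝 (0:ℂ), DifferentiableAt ℂ (fun t => s (p + t • ξ) i) t := by
        filter_upwards [hσ] with t h
        exact (differentiableAt_pi.1 h) i
      have han := Complex.analyticAt_iff_eventually_differentiableAt.2 this
      exact (han.contDiffAt (n := 2)).restrict_scalars ℝ
    have hl : ContDiff ℝ 2 (fun t : ℂ => p + t • ξ) := by fun_prop
    have hKi : ∀ i j : Fin 2, ContDiffAt ℝ 2 (fun t : ℂ => H α (p + t • ξ) i j) 0 := by
      intro i j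
      have h1 : ContDiff ℝ 2 (fun q => H α q i j) := contDiff_infty.1 (hH.smooth α i j) 2
      exact (h1.comp hl).contDiffAt
    have hconj : ContDiff ℝ 2 (fun z : ℂ => conj z) := Complex.conjCLE.contDiff
    have hre : ContDiff ℝ 2 (fun z : ℂ => z.re) := Complex.reCLM.contDiff
    have : ContDiffAt ℝ 2 (fun t : ℂ => ∑ i, ∑ j, H α (p + t • ξ) i j * s (p + t • ξ) i *
        conj (s (p + t • ξ) j)) 0 := by
      apply ContDiffAt.sum
      intro i _
      apply ContDiffAt.sum
      intro j _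
      exact ((hKi i j).mul (hσi i)).mul (hconj.contDiffAt.comp (0:ℂ) (hσi j))
    exact hre.contDiffAt.comp (0:ℂ) this
  have hPsm : ContDiffAt ℝ 2 (fun t => Complex.normSq (φ t)) 0 := by
    have han := Complex.analyticAt_iff_eventually_differentiableAt.2 hφ
    have h1 : ContDiffAt ℝ 2 φ 0 := (han.contDiffAt (n := 2)).restrict_scalars ℝ
    have hre : ContDiff ℝ 2 (fun z : ℂ => z.re) := Complex.reCLM.contDiff
    have him : ContDiff ℝ 2 (fun z : ℂ => z.im) := Complex.imCLM.contDiff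
    have h2 := hre.contDiffAt.comp (0:ℂ) h1
    have h3 := him.contDiffAt.comp (0:ℂ) h1
    have h4 := (h2.mul h2).add (h3.mul h3)
    refine h4.congr_of_eventuallyEq (Eventually.of_forall fun t => ?_)
    simp [Complex.normSq_apply]
  -- the minimum
  have hG0 : N0 ^ 2 * S 0 - Complex.normSq (φ 0) = 0 := by
    have e1 : S 0 = vn (H α p) v := by simp [hSdef, hsp]
    have e2 : φ 0 = ∑ i, u 0 i * v i := by simp [hφdef, hsp]
    rw [e1, e2, Complex.normSq_eq_norm_sq, hatt]; ring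
  have hmin : ∀ᶠ t in 𝓝 (0:ℂ), 0 ≤ N0 ^ 2 * S t - Complex.normSq (φ t) := by
    filter_upwards [hmax] with t ht
    have h1 := dn_bound (hH.posDef α (p + t • ξ)) (u t) (s (p + t • ξ))
    have h2 : dn (H α (p + t • ξ)) (u t) ≤ N0 := by simpa using ht
    have h3 : dn (H α (p + t • ξ)) (u t) ^ 2 ≤ N0 ^ 2 := pow_le_pow_left₀ (dn_nonneg _ _) h2 2
    have h4 := vn_nonneg (hH.posDef α (p + t • ξ)) (s (p + t • ξ))
    have h5 : Complex.normSq (φ t) ≤ N0 ^ 2 * S t := by
      rw [Complex.normSq_eq_norm_sq]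
      exact h1.trans (mul_le_mul_of_nonneg_right h3 h4)
    linarith
  -- second derivatives along `e`
  have key : ∀ e : ℂ, 0 ≤ N0 ^ 2 * deriv (deriv (fun r : ℝ => S ((r:ℂ) * e))) 0 -
      deriv (deriv (fun r : ℝ => Complex.normSq (φ ((r:ℂ) * e)))) 0 := by
    intro e
    have hin : ContDiff ℝ 2 (fun r : ℝ => (r:ℂ) * e) := by
      have : ContDiff ℝ 2 (fun r : ℝ => (r:ℂ)) := Complex.ofRealCLM.contDiff
      exact this.mul contDiff_const
    have h0 : (fun r : ℝ => (r:ℂ) * e) 0 = 0 := by simp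
    have ha : ContDiffAt ℝ 2 (fun r : ℝ => S ((r:ℂ) * e)) 0 := by
      have : ContDiffAt ℝ 2 S ((fun r : ℝ => (r:ℂ) * e) 0) := by rw [h0]; exact hSsm
      exact ContDiffAt.comp (g := S) (f := fun r : ℝ => (r:ℂ) * e) (0:ℝ) this hin.contDiffAt
    have hb : ContDiffAt ℝ 2 (fun r : ℝ => Complex.normSq (φ ((r:ℂ) * e))) 0 := by
      have : ContDiffAt ℝ 2 (fun t => Complex.normSq (φ t)) ((fun r : ℝ => (r:ℂ) * e) 0) := by
        rw [h0]; exact hPsm
      exact ContDiffAt.comp (g := fun t => Complex.normSq (φ t)) (f := fun r : ℝ => (r:ℂ) * e) (0:ℝ)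
        this hin.contDiffAt
    rw [← deriv2_sub _ _ _ ha hb]
    apply second_deriv_nonneg
    · have ht : Tendsto (fun r : ℝ => (r:ℂ) * e) (𝓝 0) (𝓝 0) := by
        have := hin.continuous.tendsto 0
        simpa using this
      filter_upwards [ht.eventually hmin] with r hr
      have : N0 ^ 2 * S (((0:ℝ):ℂ) * e) - Complex.normSq (φ (((0:ℝ):ℂ) * e)) = 0 := by
        simpa using hG0
      rw [this]; exact hr
    · exact ((continuousAt_const.mul ha.continuousAt).sub hb.continuousAt)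
  have k1 := key 1
  have k2 := key Complex.I
  have hlap := lap_normSq φ hφ
  have hlv : leviAlong (fun q => hNormSq H α q (s q)) p ξ =
      deriv (deriv (fun r : ℝ => S ((r:ℂ) * 1))) 0 +
        deriv (deriv (fun r : ℝ => S ((r:ℂ) * Complex.I))) 0 := by
    unfold leviAlong secondDerivAlong
    congr 3
    · funext r
      simp only [hSdef, mul_one]
      rfl
    · funext r
      simp only [hSdef, smul_smul]
      rfl
  have hn : 0 ≤ Complex.normSq (deriv φ 0) := Complex.normSq_nonneg _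
  rw [hlv] at hlevi
  have : 0 < N0 ^ 2 := by positivity
  nlinarith

end Crest.Agent.S0396
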