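import Mathlib
import Crest.Agent.S0396_Id

set_option autoImplicit false

noncomputable section

namespace Crest.Agent.S0396

open Crest.AlgGeometry.QuadricBundle
open Filter Topology

/-- primitive cube root of unity -/
def om : ℂ := ⟨-1 / 2, Real.sqrt 3 / 2⟩

theorem om_rel : om ^ 2 + om + 1 = 0 := by
  have h3 : Real.sqrt 3 * Real.sqrt 3 = 3 := Real.mul_self_sqrt (by norm_num)
  apply Complex.ext
  · simp [om, pow_two, Complex.mul_re]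
    nlinarith [h3]
  · simp [om, pow_two, Complex.mul_im]
    ring

theorem om_pow3 : om ^ 3 = 1 := by linear_combination (om - 1) * om_rel

theorem om_norm : ‖om‖ = 1 := by
  have h : ‖om‖ ^ 3 = 1 := by rw [← norm_pow, om_pow3, norm_one]
  exact (pow_eq_one_iff_of_nonneg (norm_nonneg _) (by norm_num)).mp h

theorem om_ne_zero : om ≠ 0 := by
  intro h; have := om_norm; rw [h, norm_zero] at this; norm_num at this

/-- some rotation has real part at least 1/2 -/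
theorem exists_rot (w : ℂ) (hw : ‖w‖ = 1) : ∃ o : ℂ, o ^ 3 = 1 ∧ 1 / 2 ≤ (o * w).re := by
  have h3 : Real.sqrt 3 * Real.sqrt 3 = 3 := Real.mul_self_sqrt (by norm_num)
  have hn : w.re ^ 2 + w.im ^ 2 = 1 := by
    have := Complex.sq_norm w
    rw [hw, Complex.normSq_apply] at this
    linarith
  by_contra hcon
  push Not at hcon
  have h1 := hcon 1 (by norm_num)
  have h2 := hcon om om_pow3
  have h4 := hcon (om ^ 2) (by rw [← pow_mul, show 2 * 3 = 3 * 2 by norm_num, pow_mul, om_pow3, one_pow])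
  have e2 : om ^ 2 = ⟨-1 / 2, -(Real.sqrt 3 / 2)⟩ := by
    apply Complex.ext
    · simp [om, pow_two, Complex.mul_re]; nlinarith [h3]
    · simp [om, pow_two, Complex.mul_im]; ring
  rw [e2] at h4
  simp only [one_mul] at h1
  simp only [om, Complex.mul_re] at h2 h4
  -- x < 1/2, -x/2 - s y < 1/2, -x/2 + s y < 1/2 with s = √3/2
  set x := w.re
  set y := w.im
  set s := Real.sqrt 3 / 2 with hs
  have hs2 : s * s = 3 / 4 := by rw [hs]; nlinarith [h3]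
  have a1 : 0 < 1 / 2 - x := by linarith
  have a2 : 0 < 1 / 2 + x / 2 + s * y := by nlinarith
  have a3 : 0 < 1 / 2 + x / 2 - s * y := by nlinarith
  have hp : 0 < (1 / 2 - x) * ((1 / 2 + x / 2 + s * y) * (1 / 2 + x / 2 - s * y)) := by positivity
  have e : (1 / 2 - x) * ((1 / 2 + x / 2 + s * y) * (1 / 2 + x / 2 - s * y)) =
      (1 / 2 - x) * ((1 / 2 + x / 2) ^ 2 - (s * s) * y ^ 2) := by ring
  rw [e, hs2] at hp
  have hy : y ^ 2 = 1 - x ^ 2 := by linarith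
  rw [hy] at hp
  -- (1/2 - x) * ((1+x)^2/4 - 3/4 (1-x^2)) = (1/2-x) (1+x) (x - 1/2) ... ≤ 0
  have hx1 : -1 ≤ x := by nlinarith [sq_nonneg y, sq_nonneg (x+1)]
  have : (1 / 2 - x) * ((1 / 2 + x / 2) ^ 2 - 3 / 4 * (1 - x ^ 2)) =
      -((x - 1 / 2) ^ 2 * (1 + x)) := by ring
  rw [this] at hp
  have : 0 ≤ (x - 1 / 2) ^ 2 * (1 + x) := by
    apply mul_nonneg (sq_nonneg _); linarith
  linarith

theorem norm_one_sub_cw_sq (w : ℂ) (hw : ‖w‖ = 1) : ‖1 - cc * w‖ ^ 2 = 1 - 2 * cr * w.re + cr ^ 2 := by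
  have hn : w.re ^ 2 + w.im ^ 2 = 1 := by
    have := Complex.sq_norm w
    rw [hw, Complex.normSq_apply] at this
    linarith
  rw [Complex.sq_norm, Complex.normSq_apply]
  simp [cc]
  nlinarith [hn]

theorem norm_c_sub_w_sq (w : ℂ) (hw : ‖w‖ = 1) : ‖cc - w‖ ^ 2 = 1 - 2 * cr * w.re + cr ^ 2 := by
  have hn : w.re ^ 2 + w.im ^ 2 = 1 := by
    have := Complex.sq_norm w
    rw [hw, Complex.normSq_apply] at this
    linarith
  rw [Complex.sq_norm, Complex.normSq_apply]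
  simp [cc]
  nlinarith [hn]

theorem norm_c_sub_w (w : ℂ) (hw : ‖w‖ = 1) : ‖cc - w‖ = ‖1 - cc * w‖ := by
  have h : ‖cc - w‖ ^ 2 = ‖1 - cc * w‖ ^ 2 := by rw [norm_one_sub_cw_sq w hw, norm_c_sub_w_sq w hw]
  exact (sq_eq_sq₀ (norm_nonneg _) (norm_nonneg _)).mp h

theorem norm_one_sub_cw_ge (w : ℂ) (hw : ‖w‖ = 1) : 1 < ‖1 - cc * w‖ := by
  have h1 : ‖cc * w‖ - ‖(1:ℂ)‖ ≤ ‖cc * w - 1‖ := norm_sub_norm_le _ _
  rw [norm_mul, hw, norm_one, mul_one, norm_sub_rev] at h1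
  have h2 : ‖cc‖ = cr := by
    rw [cc, Complex.norm_real, Real.norm_eq_abs, abs_of_pos (by linarith [cr_gt])]
  rw [h2] at h1
  linarith [cr_gt]

theorem contraction1 (w : ℂ) (hw : ‖w‖ = 1) :
    ∃ zh : ℂ, ‖zh‖ = 1 ∧ fE cc zh w = 0 ∧ ‖JE cc zh w‖ ≤ (cr ^ 2 - cr + 1) ^ 4 := by
  obtain ⟨o, ho, hre⟩ := exists_rot w hw
  have hon : ‖o‖ = 1 := by
    have h : ‖o‖ ^ 3 = 1 := by rw [← norm_pow, ho, norm_one]
    exact (pow_eq_one_iff_of_nonneg (norm_nonneg _) (by norm_num)).mp h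
  have ho0 : o ≠ 0 := by intro h; rw [h, norm_zero] at hon; norm_num at hon
  set w' := o * w with hw'
  have hw'n : ‖w'‖ = 1 := by rw [hw', norm_mul, hon, hw, one_mul]
  have hne : 1 - cc * w' ≠ 0 := by
    intro h; have := norm_one_sub_cw_ge w' hw'n; rw [h, norm_zero] at this; linarith
  set z' := (cc - w') / (1 - cc * w') with hz'
  have hz'n : ‖z'‖ = 1 := by
    rw [hz', norm_div, norm_c_sub_w w' hw'n, div_self (norm_ne_zero_iff.mpr hne)]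
  have hf0 : z' + w' - cc - cc * z' * w' = 0 := by
    rw [hz']; field_simp; ring
  have hfz : fE cc z' w' = 0 := by
    rw [fE_factor cc z' w' om om_rel, hf0, zero_mul, zero_mul]
  refine ⟨o⁻¹ * z', ?_, ?_, ?_⟩
  · rw [norm_mul, norm_inv, hon, hz'n]; norm_num
  · have : fE cc (o * (o⁻¹ * z')) (o * w) = fE cc (o⁻¹ * z') w := fE_rot cc _ _ o ho
    rw [← this, mul_inv_cancel_left₀ ho0]; exact hfz
  · have : JE cc (o * (o⁻¹ * z')) (o * w) = JE cc (o⁻¹ * z') w := JE_rot cc _ _ o ho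
    rw [← this, mul_inv_cancel_left₀ ho0, idA4 cc z' (o * w) cc_pow4, ← hw', hf0, zero_mul, add_zero, norm_pow]
    have h2 : ‖1 - cc * w'‖ ^ 2 ≤ cr ^ 2 - cr + 1 := by
      rw [norm_one_sub_cw_sq w' hw'n]
      nlinarith [cr_gt, hre]
    calc ‖1 - cc * w'‖ ^ 8 = (‖1 - cc * w'‖ ^ 2) ^ 4 := by ring
      _ ≤ (cr ^ 2 - cr + 1) ^ 4 := pow_le_pow_left₀ (by positivity) h2 4

theorem rho_sq : (cr ^ 2 - 1) ^ 8 = 216513 + 892296 * cr ^ 2 := by
  have h := cr_pow4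
  have h2 : (cr ^ 2 - 1) ^ 2 = 6 * cr ^ 2 + 3 := by linear_combination h
  have h4 : (cr ^ 2 - 1) ^ 4 = 324 * cr ^ 2 + 81 := by
    rw [show (cr ^ 2 - 1) ^ 4 = ((cr ^ 2 - 1) ^ 2) ^ 2 by ring, h2]
    linear_combination 36 * h
  rw [show (cr ^ 2 - 1) ^ 8 = ((cr ^ 2 - 1) ^ 4) ^ 2 by ring, h4]
  linear_combination 104976 * h

theorem eta_lt : (cr ^ 2 - cr + 1) ^ 4 < (cr ^ 2 - 1) ^ 4 := by
  have := cr_gt
  apply pow_lt_pow_left₀ (by linarith) (by nlinarith) (by norm_num)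

theorem contraction2 (z : ℂ) (hz : ‖z‖ = 1) :
    ∃ wh : ℂ, ‖wh‖ = 1 ∧ fE cc z wh = 0 ∧
      (cr ^ 2 - 1) ^ 8 ≤ (cr ^ 2 - cr + 1) ^ 4 * ‖JE cc z wh‖ := by
  obtain ⟨wh, h1, h2, h3⟩ := contraction1 z hz
  refine ⟨wh, h1, by rw [fE_symm]; exact h2, ?_⟩
  have h := idA3 cc wh z cc_pow4
  rw [h2, zero_mul, add_zero] at h
  have hn : ‖JE cc wh z‖ * ‖JE cc z wh‖ = (cr ^ 2 - 1) ^ 8 := by
    rw [← norm_mul, h, rho_sq]
    have : (216513 + 892296 * cc ^ 2 : ℂ) = ((216513 + 892296 * cr ^ 2 : ℝ) : ℂ) := by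
      unfold cc; push_cast; ring
    rw [this, Complex.norm_real, Real.norm_eq_abs, abs_of_pos (by positivity)]
  rw [← hn]
  exact mul_le_mul_of_nonneg_right h3 (norm_nonneg _)

theorem f0_ge (z w : ℂ) (hz : ‖z‖ = 2) (hw : ‖w‖ = 1) : 1 ≤ ‖z + w - cc - cc * z * w‖ := by
  have e : z + w - cc - cc * z * w = z * (1 - cc * w) - (cc - w) := by ring
  rw [e]
  have h1 : ‖z * (1 - cc * w)‖ - ‖cc - w‖ ≤ ‖z * (1 - cc * w) - (cc - w)‖ := norm_sub_norm_le _ _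
  rw [norm_mul, hz, norm_c_sub_w w hw] at h1
  linarith [norm_one_sub_cw_ge w hw]

theorem fE_ge (z w : ℂ) (hz : ‖z‖ = 2) (hw : ‖w‖ = 1) : 1 ≤ ‖fE cc z w‖ := by
  rw [fE_factor cc z w om om_rel, norm_mul, norm_mul]
  have h1 := f0_ge z w hz hw
  have h2 := f0_ge (om * z) (om * w) (by rw [norm_mul, om_norm, hz, one_mul])
    (by rw [norm_mul, om_norm, hw, one_mul])
  have h3 := f0_ge (om ^ 2 * z) (om ^ 2 * w) (by rw [norm_mul, norm_pow, om_norm, hz]; norm_num)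
    (by rw [norm_mul, norm_pow, om_norm, hw]; norm_num)
  calc (1:ℝ) = 1 * 1 * 1 := by norm_num
    _ ≤ _ := by gcongr

theorem fE_ge' (z w : ℂ) (hz : ‖z‖ = 1) (hw : ‖w‖ = 2) : 1 ≤ ‖fE cc z w‖ := by
  rw [fE_symm]; exact fE_ge w z hw hz

theorem exists_CJ : ∃ CJ : ℝ, 0 ≤ CJ ∧ ∀ z w : ℂ, ‖z‖ ≤ 2 → ‖w‖ ≤ 2 → ‖JE cc z w‖ ≤ CJ := by
  have hK : IsCompact (Metric.closedBall (0:ℂ) 2 ×ˢ Metric.closedBall (0:ℂ) 2) :=
    (isCompact_closedBall 0 2).prod (isCompact_closedBall 0 2)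
  generalize hF : (fun q : ℂ × ℂ => JE cc q.1 q.2) = F
  have hc : Continuous F := by rw [← hF]; unfold JE; fun_prop
  have hF' : ∀ z w, JE cc z w = F (z, w) := by intro z w; rw [← hF]
  obtain ⟨CJ, hCJ⟩ := hK.exists_bound_of_continuousOn hc.continuousOn
  refine ⟨max CJ 0, le_max_right _ _, ?_⟩
  intro z w hz hw
  rw [hF' z w]
  refine le_trans (hCJ (z, w) ?_) (le_max_left _ _)
  rw [Set.mem_prod]
  exact ⟨by simpa using hz, by simpa using hw⟩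

theorem unif (ε : ℝ) (hε : 0 < ε) : ∃ δ : ℝ, 0 < δ ∧ ∀ z w z' w' : ℂ, ‖z‖ ≤ 2 → ‖w‖ ≤ 2 →
    ‖z'‖ ≤ 2 → ‖w'‖ ≤ 2 → ‖z - z'‖ ≤ δ → ‖w - w'‖ ≤ δ →
    ‖fE cc z w - fE cc z' w'‖ ≤ ε ∧ ‖JE cc z w - JE cc z' w'‖ ≤ ε := by
  have hK : IsCompact (Metric.closedBall (0:ℂ) 2 ×ˢ Metric.closedBall (0:ℂ) 2) :=
    (isCompact_closedBall 0 2).prod (isCompact_closedBall 0 2)
  generalize hF : (fun q : ℂ × ℂ => fE cc q.1 q.2) = F
  generalize hG : (fun q : ℂ × ℂ => JE cc q.1 q.2) = G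
  have hc1 : Continuous F := by rw [← hF]; unfold fE; fun_prop
  have hc2 : Continuous G := by rw [← hG]; unfold JE; fun_prop
  have hF' : ∀ z w, fE cc z w = F (z, w) := by intro z w; rw [← hF]
  have hG' : ∀ z w, JE cc z w = G (z, w) := by intro z w; rw [← hG]
  have u1 := hK.uniformContinuousOn_of_continuous hc1.continuousOn
  have u2 := hK.uniformContinuousOn_of_continuous hc2.continuousOn
  rw [Metric.uniformContinuousOn_iff_le] at u1 u2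
  obtain ⟨δ1, hδ1, H1⟩ := u1 ε hε
  obtain ⟨δ2, hδ2, H2⟩ := u2 ε hε
  refine ⟨min δ1 δ2, lt_min hδ1 hδ2, ?_⟩
  intro z w z' w' hz hw hz' hw' h1 h2
  have m1 : (z, w) ∈ Metric.closedBall (0:ℂ) 2 ×ˢ Metric.closedBall (0:ℂ) 2 := by simp [hz, hw]
  have m2 : (z', w') ∈ Metric.closedBall (0:ℂ) 2 ×ˢ Metric.closedBall (0:ℂ) 2 := by simp [hz', hw']
  have d : dist (z, w) (z', w') ≤ min δ1 δ2 := by
    rw [Prod.dist_eq, dist_eq_norm, dist_eq_norm]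
    exact max_le h1 h2
  have r1 := H1 _ m1 _ m2 (d.trans (min_le_left _ _))
  have r2 := H2 _ m1 _ m2 (d.trans (min_le_right _ _))
  rw [dist_eq_norm] at r1 r2
  rw [hF', hF', hG', hG']
  exact ⟨r1, r2⟩

end Crest.Agent.S0396
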