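import Mathlib
import Crest.Agent.S0396_Cocycle
import Crest.Agent.S0396_Geo
import Crest.Agent.S0396_Barrier
import Crest.Agent.S0396_D1

set_option autoImplicit false

noncomputable section

namespace Crest.Agent.S0396

open Crest.AlgGeometry.QuadricBundle
open Filter Topology
open scoped ComplexOrder

/-- covector `(f, J)` on the chart `α` of the pulled back bundle -/
def e1 (n : ℕ) (α : Chart) (p : Fin 2 → ℂ) : Fin 2 → ℂ :=
  ![MvPolynomial.eval (pw n p) (fP α), MvPolynomial.eval (pw n p) (JP α)]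

def e2 : Fin 2 → ℂ := ![0, 1]

def e3 : Fin 2 → ℂ := ![1, 0]

def N1 (n : ℕ) (H : MetricData 2) (α : Chart) (p : Fin 2 → ℂ) : ℝ := dn (H α p) (e1 n α p)

def N2 (H : MetricData 2) (α : Chart) (p : Fin 2 → ℂ) : ℝ := dn (H α p) e2

def N3 (H : MetricData 2) (α : Chart) (p : Fin 2 → ℂ) : ℝ := dn (H α p) e3

theorem e2_ne : e2 ≠ 0 := by
  intro h; have := congrFun h 1; simp [e2] at this

theorem e3_ne : e3 ≠ 0 := by
  intro h; have := congrFun h 0; simp [e3] at this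

theorem e1_ne (n : ℕ) (α : Chart) (p : Fin 2 → ℂ) : e1 n α p ≠ 0 := by
  intro h
  apply fJ_ne α (pw n p)
  constructor
  · have := congrFun h 0; simpa [e1] using this
  · have := congrFun h 1; simpa [e1] using this

theorem e1_diff (n : ℕ) (α : Chart) : Differentiable ℂ (e1 n α) := by
  rw [differentiable_pi]
  intro i
  fin_cases i
  · exact (differentiable_eval (fP α)).comp (differentiable_pw n)
  · exact (differentiable_eval (JP α)).comp (differentiable_pw n)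

theorem gn_det (n : ℕ) (α β : Chart) (p : Fin 2 → ℂ) (hp : p ∈ overlap α β) :
    (gn n α β p).det ≠ 0 := by
  have h1 := lineTrans_ne_zero 1 1 α β p hp
  have h2 := lineTrans_ne_zero (-3) 5 α β (pw n p) (pw_mem n α β p hp)
  have h3 := lineTrans_ne_zero 8 0 α β (pw n p) (pw_mem n α β p hp)
  rw [gn, Matrix.det_smul, Gt, Matrix.det_fin_two]
  simp [h1, h2, h3]

theorem e1_trans (n : ℕ) (α β : Chart) (p : Fin 2 → ℂ) (hp : p ∈ overlap α β) :
    Matrix.vecMul (e1 n α p) (gn n α β p) =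
      lineTrans 1 (8 * n + 1) α β p • e1 n β (tau α β p) := by
  have h := row_rel α β (pw n p) (pw_mem n α β p hp)
  rw [gn, Matrix.vecMul_smul, e1, h, smul_smul, lineTrans_pw, lineTrans_mul _ _ _ _ _ _ _ hp, tau_pw]
  congr 2
  ring

theorem e2_trans (n : ℕ) (α β : Chart) (p : Fin 2 → ℂ) (hp : p ∈ overlap α β) :
    Matrix.vecMul e2 (gn n α β p) = lineTrans (8 * n + 1) 1 α β p • e2 := by
  rw [gn, Matrix.vecMul_smul]
  have : Matrix.vecMul e2 (Gt α β (pw n p)) = lineTrans 8 0 α β (pw n p) • e2 := by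
    funext i
    fin_cases i <;> simp [e2, Gt, Matrix.vecMul, dotProduct]
  rw [this, smul_smul, lineTrans_pw, lineTrans_mul _ _ _ _ _ _ _ hp]
  congr 2
  ring

section Metric

variable {n : ℕ} {H : MetricData 2} (hH : IsHermitianMetric (gn n) H)
include hH

theorem N1_trans (α β : Chart) (p : Fin 2 → ℂ) (hp : p ∈ overlap α β) :
    N1 n H α p = ‖lineTrans 1 (8 * n + 1) α β p‖ * N1 n H β (tau α β p) := by
  have h := dn_compat hH α β p hp (gn_det n α β p hp) (e1 n α p)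
  rw [e1_trans n α β p hp, dn_smul] at h
  exact h.symm

theorem N2_trans (α β : Chart) (p : Fin 2 → ℂ) (hp : p ∈ overlap α β) :
    N2 H α p = ‖lineTrans (8 * n + 1) 1 α β p‖ * N2 H β (tau α β p) := by
  have h := dn_compat hH α β p hp (gn_det n α β p hp) e2
  rw [e2_trans n α β p hp, dn_smul] at h
  exact h.symm

theorem N1_le (α : Chart) (p : Fin 2 → ℂ) :
    N1 n H α p ≤ ‖MvPolynomial.eval (pw n p) (fP α)‖ * N3 H α p +
      ‖MvPolynomial.eval (pw n p) (JP α)‖ * N2 H α p := by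
  have h : e1 n α p = MvPolynomial.eval (pw n p) (fP α) • e3 +
      MvPolynomial.eval (pw n p) (JP α) • e2 := by
    funext i; fin_cases i <;> simp [e1, e2, e3]
  unfold N1 N2 N3
  rw [h]
  refine (dn_add_le _ (hH.posDef α p) _ _).trans ?_
  rw [dn_smul, dn_smul]

theorem N3_le (α : Chart) (p : Fin 2 → ℂ) :
    ‖MvPolynomial.eval (pw n p) (fP α)‖ * N3 H α p ≤ N1 n H α p +
      ‖MvPolynomial.eval (pw n p) (JP α)‖ * N2 H α p := by
  have h : MvPolynomial.eval (pw n p) (fP α) • e3 = e1 n α p +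
      (-MvPolynomial.eval (pw n p) (JP α)) • e2 := by
    funext i; fin_cases i <;> simp [e1, e2, e3]
  unfold N1 N2 N3
  rw [← dn_smul, h]
  refine (dn_add_le _ (hH.posDef α p) _ _).trans ?_
  rw [dn_smul, norm_neg]

theorem N2_le (α : Chart) (p : Fin 2 → ℂ) :
    ‖MvPolynomial.eval (pw n p) (JP α)‖ * N2 H α p ≤ N1 n H α p +
      ‖MvPolynomial.eval (pw n p) (fP α)‖ * N3 H α p := by
  have h : MvPolynomial.eval (pw n p) (JP α) • e2 = e1 n α p +
      (-MvPolynomial.eval (pw n p) (fP α)) • e3 := by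
    funext i; fin_cases i <;> simp [e1, e2, e3]
  unfold N1 N2 N3
  rw [← dn_smul, h]
  refine (dn_add_le _ (hH.posDef α p) _ _).trans ?_
  rw [dn_smul, norm_neg]

theorem noMax_line (hG : IsGriffithsPositive H) (α : Chart) (p ξ : Fin 2 → ℂ) (hξ : ξ ≠ 0)
    (v : (Fin 2 → ℂ) → (Fin 2 → ℂ)) (hv : Differentiable ℂ v) (hv0 : ∀ q, v q ≠ 0) :
    NoMax (fun s => dn (H α (p + s • ξ)) (v (p + s • ξ))) := by
  intro s0 h hd h0 hmax
  refine dn_no_local_max hH hG α (p + s0 • ξ) ξ hξ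
    (fun t => h (s0 + t) • v (p + (s0 + t) • ξ)) ?_ ?_ ?_
  · have ht : Tendsto (fun t : ℂ => s0 + t) (𝓝 0) (𝓝 s0) := by
      have : Continuous (fun t : ℂ => s0 + t) := by fun_prop
      simpa using this.tendsto 0
    filter_upwards [ht.eventually hd] with t ht'
    have h1 : DifferentiableAt ℂ (fun t => h (s0 + t)) t := by
      apply DifferentiableAt.comp t ht'
      fun_prop
    have h2 : DifferentiableAt ℂ (fun t : ℂ => v (p + (s0 + t) • ξ)) t := by
      apply DifferentiableAt.comp t hv.differentiableAt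
      fun_prop
    exact h1.smul h2
  · simp only [add_zero]
    exact smul_ne_zero h0 (hv0 _)
  · have ht : Tendsto (fun t : ℂ => s0 + t) (𝓝 0) (𝓝 s0) := by
      have : Continuous (fun t : ℂ => s0 + t) := by fun_prop
      simpa using this.tendsto 0
    have e : ∀ t : ℂ, dn (H α (p + s0 • ξ + t • ξ)) (h (s0 + t) • v (p + (s0 + t) • ξ)) =
        ‖h (s0 + t)‖ * dn (H α (p + (s0 + t) • ξ)) (v (p + (s0 + t) • ξ)) := by
      intro t
      rw [dn_smul, add_assoc, ← add_smul]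
    unfold IsLocalMax IsMaxFilter
    simp only [e]
    have := ht.eventually hmax
    simpa using this

end Metric

theorem slice0 (τ s : ℂ) : (![0, τ] : Fin 2 → ℂ) + s • ![1, 0] = ![s, τ] := by
  funext i; fin_cases i <;> simp

theorem slice1 (σ s : ℂ) : (![σ, 0] : Fin 2 → ℂ) + s • ![0, 1] = ![σ, s] := by
  funext i; fin_cases i <;> simp

/-! ### chart flips -/

theorem ne_flip (a : Fin 2) : a ≠ a + 1 := by revert a; decide

theorem lineTrans_flip0 (r t : ℤ) (a b : Fin 2) (p : Fin 2 → ℂ) :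
    lineTrans r t (a, b) (a + 1, b) p = (p 0) ^ r := by
  simp [lineTrans]

theorem lineTrans_flip1 (r t : ℤ) (a b : Fin 2) (p : Fin 2 → ℂ) :
    lineTrans r t (a, b) (a, b + 1) p = (p 1) ^ t := by
  simp [lineTrans]

theorem tau_flip0 (a b : Fin 2) (p : Fin 2 → ℂ) :
    tau (a, b) (a + 1, b) p = ![(p 0)⁻¹, p 1] := by
  simp [tau]

theorem tau_flip1 (a b : Fin 2) (p : Fin 2 → ℂ) :
    tau (a, b) (a, b + 1) p = ![p 0, (p 1)⁻¹] := by
  simp [tau]

theorem mem_flip0 (a b : Fin 2) (p : Fin 2 → ℂ) (h : p 0 ≠ 0) : p ∈ overlap (a, b) (a + 1, b) :=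
  ⟨fun _ => h, fun h' => absurd rfl h'⟩

theorem mem_flip1 (a b : Fin 2) (p : Fin 2 → ℂ) (h : p 1 ≠ 0) : p ∈ overlap (a, b) (a, b + 1) :=
  ⟨fun h' => absurd rfl h', fun _ => h⟩

/-- the power estimate -/
theorem pow_est (n : ℕ) (hn : 1 ≤ n) (x r : ℝ) (hr : 1 ≤ r) (hx0 : 0 ≤ x) (hx : x ^ n ≤ r) :
    (max 1 x) ^ (8 * n + 1) ≤ r ^ 9 := by
  have h1 : (max 1 x) ^ n ≤ r := by
    rcases le_total x 1 with h | h
    · rw [max_eq_left h, one_pow]; exact hr
    · rw [max_eq_right h]; exact hx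
  have h0 : 1 ≤ max 1 x := le_max_left _ _
  have h2 : max 1 x ≤ r := le_trans (le_self_pow₀ h0 (by omega)) h1
  calc (max 1 x) ^ (8 * n + 1) = ((max 1 x) ^ n) ^ 8 * max 1 x := by rw [← pow_mul, mul_comm n 8, pow_succ]
    _ ≤ r ^ 8 * r := by gcongr
    _ = r ^ 9 := by ring

/-- bound for the norm of `e3` on `|s^n| ≤ 2` -/
theorem n3_bound (n : ℕ) (hn : 1 ≤ n) (x1 x2 x3 F G : ℂ → ℝ) (M CJ : ℝ) (hM : 0 < M) (hCJ : 0 ≤ CJ)
    (p3 : ∀ s, 0 ≤ x3 s) (hx3 : NoMax x3) (hc : Continuous x3)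
    (hF : ∀ s : ℂ, ‖s ^ n‖ = 2 → 1 ≤ F s) (hG : ∀ s : ℂ, ‖s ^ n‖ ≤ 2 → G s ≤ CJ)
    (hG0 : ∀ s, 0 ≤ G s)
    (h : ∀ s, F s * x3 s ≤ x1 s + G s * x2 s)
    (b1 : ∀ s, x1 s ≤ (max 1 ‖s‖) ^ (8 * n + 1) * M)
    (b2 : ∀ s, x2 s ≤ (max 1 ‖s‖) ^ (8 * n + 1) * M) (s : ℂ) (hs : ‖s ^ n‖ ≤ 2) :
    x3 s ≤ 2 ^ 9 * (1 + CJ) * M := by
  have hD : IsCompact {s : ℂ | ‖s ^ n‖ ≤ 2} := by
    apply Metric.isCompact_of_isClosed_isBounded
    · exact isClosed_le (by fun_prop) continuous_const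
    · apply (Metric.isBounded_closedBall (x := (0:ℂ)) (r := 2)).subset
      intro s hs
      simp only [Set.mem_setOf_eq, norm_pow] at hs
      simp only [Metric.mem_closedBall, dist_zero_right]
      by_contra hc2
      push Not at hc2
      have : (2:ℝ) ^ 1 ≤ 2 ^ n := pow_le_pow_right₀ (by norm_num) hn
      have h2 : (2:ℝ) ^ n < ‖s‖ ^ n := pow_lt_pow_left₀ hc2 (by norm_num) (by omega)
      linarith
  obtain ⟨s1, hs1, hs1m⟩ := hD.exists_isMaxOn ⟨0, by simp [zero_pow (by omega : n ≠ 0)]⟩ hc.continuousOn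
  have hb : ‖s1 ^ n‖ = 2 := by
    by_contra hne
    have hlt : ‖s1 ^ n‖ < 2 := lt_of_le_of_ne hs1 hne
    refine hx3 s1 (fun _ => 1) (Eventually.of_forall fun s => by fun_prop) one_ne_zero ?_
    have hev : ∀ᶠ s in 𝓝 s1, ‖s ^ n‖ < 2 := by
      have : ContinuousAt (fun s : ℂ => ‖s ^ n‖) s1 := by fun_prop
      exact this.eventually_lt_const hlt
    filter_upwards [hev] with s hs
    simp only [norm_one, one_mul]
    exact hs1m hs.le
  have h1 := h s1
  have h2 := hF s1 hb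
  have h3 := b1 s1
  have h4 := b2 s1
  have h5 := pow_est n hn ‖s1‖ 2 (by norm_num) (norm_nonneg _) (by rw [← norm_pow]; exact hb.le)
  have h6 : x3 s ≤ x3 s1 := hs1m hs
  have h7 := hG s1 hb.le
  have h8 := p3 s1
  have h9 : x3 s1 ≤ F s1 * x3 s1 := by nlinarith
  have h10 : x1 s1 ≤ 2 ^ 9 * M := h3.trans (by gcongr)
  have h11 : x2 s1 ≤ 2 ^ 9 * M := h4.trans (by gcongr)
  have h12 : G s1 * x2 s1 ≤ CJ * (2 ^ 9 * M) := by
    calc G s1 * x2 s1 ≤ G s1 * (2 ^ 9 * M) := mul_le_mul_of_nonneg_left h11 (hG0 s1)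
      _ ≤ CJ * (2 ^ 9 * M) := mul_le_mul_of_nonneg_right h7 (by positivity)
  nlinarith

end Crest.Agent.S0396
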