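import Mathlib
import Crest.Agent.S0396_D2

set_option autoImplicit false

noncomputable section

namespace Crest.Agent.S0396

open Crest.AlgGeometry.QuadricBundle
open Filter Topology
open scoped ComplexOrder

/-- choice of the small constant -/
theorem choose_eps (ρ η C1 : ℝ) (hη : 0 < η) (hρ : η < ρ) (hC1 : 0 ≤ C1) :
    ∃ θ ε : ℝ, 0 ≤ θ ∧ θ < 1 ∧ 0 < ε ∧ ε < 1 ∧ 0 < ρ ^ 2 / η - ε ∧
      ε * C1 + (η + ε) * ((1 + ε) ^ 9 / ρ) ≤ θ ∧
      ((1 + ε) ^ 9 + ε * C1) * ρ ≤ θ * (ρ ^ 2 / η - ε) := by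
  have hρ0 : 0 < ρ := hη.trans hρ
  have h1 : η / ρ < 1 := (div_lt_one hρ0).mpr hρ
  have h0 : 0 < η / ρ := div_pos hη hρ0
  set θ : ℝ := (1 + η / ρ) / 2 with hθ
  have hθ1 : θ < 1 := by rw [hθ]; linarith
  have hθ2 : η / ρ < θ := by rw [hθ]; linarith
  have hθ0 : 0 ≤ θ := by linarith
  have c1 : ContinuousAt (fun ε : ℝ => ε * C1 + (η + ε) * ((1 + ε) ^ 9 / ρ)) 0 := by fun_prop
  have c2 : ContinuousAt (fun ε : ℝ => ((1 + ε) ^ 9 + ε * C1) * ρ - θ * (ρ ^ 2 / η - ε)) 0 := by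
    fun_prop
  have c3 : ContinuousAt (fun ε : ℝ => ρ ^ 2 / η - ε) 0 := by fun_prop
  have e1 : ∀ᶠ ε : ℝ in 𝓝 0, ε * C1 + (η + ε) * ((1 + ε) ^ 9 / ρ) < θ := by
    apply c1.eventually_lt_const
    simp only [zero_mul, add_zero, zero_add, one_pow]
    rw [mul_one_div]; exact hθ2
  have e2 : ∀ᶠ ε : ℝ in 𝓝 0, ((1 + ε) ^ 9 + ε * C1) * ρ - θ * (ρ ^ 2 / η - ε) < 0 := by
    apply c2.eventually_lt_const
    simp only [zero_mul, add_zero, one_pow, one_mul, sub_zero]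
    have : ρ < θ * (ρ ^ 2 / η) := by
      have h3 : η / ρ * (ρ ^ 2 / η) = ρ := by field_simp
      have h4 : 0 < ρ ^ 2 / η := by positivity
      nlinarith
    linarith
  have e3 : ∀ᶠ ε : ℝ in 𝓝 0, 0 < ρ ^ 2 / η - ε := by
    apply c3.eventually_const_lt
    simp only [sub_zero]; positivity
  have e4 : ∀ᶠ ε : ℝ in 𝓝 0, ε < 1 := eventually_lt_nhds one_pos
  have e5 : ∀ᶠ ε : ℝ in 𝓝[>] 0, 0 < ε := eventually_mem_nhdsWithin
  obtain ⟨ε, ⟨⟨⟨h1, h2⟩, h3⟩, h4⟩, h5⟩ :=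
    ((((e1.and e2).and e3).and e4).filter_mono nhdsWithin_le_nhds |>.and e5).exists
  exact ⟨θ, ε, hθ0, hθ1, h5, h4, h3, h1.le, by linarith⟩

section Metric

variable {n : ℕ} {H : MetricData 2} (hH : IsHermitianMetric (gn n) H)
include hH

/-- bounds in direction 0: chart-wise growth -/
theorem Bd0 (M ρ : ℝ) (hρ : 1 ≤ ρ)
    (hM : ∀ α (p : Fin 2 → ℂ), ‖p 0‖ ≤ 1 → ‖p 1‖ ≤ 1 → N1 n H α p ≤ M ∧ ρ * N2 H α p ≤ M)
    (hM0 : 0 ≤ M) (α : Chart) (p : Fin 2 → ℂ) (hp : ‖p 1‖ ≤ 1) :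
    N1 n H α p ≤ (max 1 ‖p 0‖) ^ (8 * n + 1) * M ∧
      ρ * N2 H α p ≤ (max 1 ‖p 0‖) ^ (8 * n + 1) * M := by
  obtain ⟨a, b⟩ := α
  rcases le_or_gt ‖p 0‖ 1 with h | h
  · rw [max_eq_left h, one_pow, one_mul]; exact hM _ p h hp
  · have hne : p 0 ≠ 0 := by
      intro h0; rw [h0, norm_zero] at h; linarith
    have hq0 : ‖(![(p 0)⁻¹, p 1] : Fin 2 → ℂ) 0‖ ≤ 1 := by
      simp only [Matrix.cons_val_zero, norm_inv]
      exact inv_le_one_of_one_le₀ h.le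
    have hq1 : ‖(![(p 0)⁻¹, p 1] : Fin 2 → ℂ) 1‖ ≤ 1 := by
      simpa using hp
    have hb := hM (a + 1, b) ![(p 0)⁻¹, p 1] hq0 hq1
    have t1 := N1_trans hH (a, b) (a + 1, b) p (mem_flip0 a b p hne)
    have t2 := N2_trans hH (a, b) (a + 1, b) p (mem_flip0 a b p hne)
    rw [lineTrans_flip0, tau_flip0] at t1 t2
    rw [t1, t2, max_eq_right h.le]
    constructor
    · rw [zpow_one]
      have : ‖p 0‖ ≤ ‖p 0‖ ^ (8 * n + 1) := le_self_pow₀ h.le (by omega)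
      calc ‖p 0‖ * N1 n H (a + 1, b) ![(p 0)⁻¹, p 1] ≤ ‖p 0‖ * M :=
            mul_le_mul_of_nonneg_left hb.1 (norm_nonneg _)
        _ ≤ ‖p 0‖ ^ (8 * n + 1) * M := mul_le_mul_of_nonneg_right this hM0
    · have e : ‖(p 0) ^ (8 * (n:ℤ) + 1)‖ = ‖p 0‖ ^ (8 * n + 1) := by
        rw [show (8 * (n:ℤ) + 1) = ((8 * n + 1 : ℕ) : ℤ) by push_cast; ring, zpow_natCast, norm_pow]
      rw [e]
      calc ρ * (‖p 0‖ ^ (8 * n + 1) * N2 H (a + 1, b) ![(p 0)⁻¹, p 1])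
            = ‖p 0‖ ^ (8 * n + 1) * (ρ * N2 H (a + 1, b) ![(p 0)⁻¹, p 1]) := by ring
        _ ≤ ‖p 0‖ ^ (8 * n + 1) * M := mul_le_mul_of_nonneg_left hb.2 (by positivity)

/-- bounds in direction 1 -/
theorem Bd1 (M ρ : ℝ) (hρ : 1 ≤ ρ)
    (hM : ∀ α (p : Fin 2 → ℂ), ‖p 0‖ ≤ 1 → ‖p 1‖ ≤ 1 → N1 n H α p ≤ M ∧ ρ * N2 H α p ≤ M)
    (hM0 : 0 ≤ M) (α : Chart) (p : Fin 2 → ℂ) (hp : ‖p 0‖ ≤ 1) :
    N1 n H α p ≤ (max 1 ‖p 1‖) ^ (8 * n + 1) * M ∧
      ρ * N2 H α p ≤ (max 1 ‖p 1‖) ^ (8 * n + 1) * M := by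
  obtain ⟨a, b⟩ := α
  rcases le_or_gt ‖p 1‖ 1 with h | h
  · rw [max_eq_left h, one_pow, one_mul]; exact hM _ p hp h
  · have hne : p 1 ≠ 0 := by
      intro h0; rw [h0, norm_zero] at h; linarith
    have hq1 : ‖(![p 0, (p 1)⁻¹] : Fin 2 → ℂ) 1‖ ≤ 1 := by
      simp only [Matrix.cons_val_one, Matrix.cons_val_fin_one, norm_inv]
      exact inv_le_one_of_one_le₀ h.le
    have hq0 : ‖(![p 0, (p 1)⁻¹] : Fin 2 → ℂ) 0‖ ≤ 1 := by
      simpa using hp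
    have hb := hM (a, b + 1) ![p 0, (p 1)⁻¹] hq0 hq1
    have t1 := N1_trans hH (a, b) (a, b + 1) p (mem_flip1 a b p hne)
    have t2 := N2_trans hH (a, b) (a, b + 1) p (mem_flip1 a b p hne)
    rw [lineTrans_flip1, tau_flip1] at t1 t2
    rw [t1, t2, max_eq_right h.le]
    have e : ‖(p 1) ^ (8 * (n:ℤ) + 1)‖ = ‖p 1‖ ^ (8 * n + 1) := by
      rw [show (8 * (n:ℤ) + 1) = ((8 * n + 1 : ℕ) : ℤ) by push_cast; ring, zpow_natCast, norm_pow]
    constructor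
    · rw [e]
      exact mul_le_mul_of_nonneg_left hb.1 (by positivity)
    · rw [zpow_one]
      have : ‖p 1‖ ≤ ‖p 1‖ ^ (8 * n + 1) := le_self_pow₀ h.le (by omega)
      calc ρ * (‖p 1‖ * N2 H (a, b + 1) ![p 0, (p 1)⁻¹])
            = ‖p 1‖ * (ρ * N2 H (a, b + 1) ![p 0, (p 1)⁻¹]) := by ring
        _ ≤ ‖p 1‖ * M := mul_le_mul_of_nonneg_left hb.2 (norm_nonneg _)
        _ ≤ ‖p 1‖ ^ (8 * n + 1) * M := mul_le_mul_of_nonneg_right this hM0

theorem N1_cont (α : Chart) : Continuous (N1 n H α) :=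
  dn_continuous hH α (fun p => p) continuous_id (e1 n α) (e1_diff n α).continuous

theorem N2_cont (α : Chart) : Continuous (N2 H α) :=
  dn_continuous hH α (fun p => p) continuous_id (fun _ => e2) continuous_const

theorem N3_cont (α : Chart) : Continuous (N3 H α) :=
  dn_continuous hH α (fun p => p) continuous_id (fun _ => e3) continuous_const

theorem N1_noMax0 (hG : IsGriffithsPositive H) (α : Chart) (τ : ℂ) :
    NoMax (fun s => N1 n H α ![s, τ]) := by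
  have h := noMax_line hH hG α ![0, τ] ![1, 0]
    (by intro h; have := congrFun h 0; simp at this) (e1 n α) (e1_diff n α) (e1_ne n α)
  simp only [slice0] at h
  exact h

theorem N1_noMax1 (hG : IsGriffithsPositive H) (α : Chart) (σ : ℂ) :
    NoMax (fun s => N1 n H α ![σ, s]) := by
  have h := noMax_line hH hG α ![σ, 0] ![0, 1]
    (by intro h; have := congrFun h 1; simp at this) (e1 n α) (e1_diff n α) (e1_ne n α)
  simp only [slice1] at h
  exact h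

theorem N2_noMax0 (hG : IsGriffithsPositive H) (α : Chart) (τ : ℂ) :
    NoMax (fun s => N2 H α ![s, τ]) := by
  have h := noMax_line hH hG α ![0, τ] ![1, 0]
    (by intro h; have := congrFun h 0; simp at this) (fun _ => e2) (by fun_prop) (fun _ => e2_ne)
  simp only [slice0] at h
  exact h

theorem N2_noMax1 (hG : IsGriffithsPositive H) (α : Chart) (σ : ℂ) :
    NoMax (fun s => N2 H α ![σ, s]) := by
  have h := noMax_line hH hG α ![σ, 0] ![0, 1]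
    (by intro h; have := congrFun h 1; simp at this) (fun _ => e2) (by fun_prop) (fun _ => e2_ne)
  simp only [slice1] at h
  exact h

theorem N3_noMax0 (hG : IsGriffithsPositive H) (α : Chart) (τ : ℂ) :
    NoMax (fun s => N3 H α ![s, τ]) := by
  have h := noMax_line hH hG α ![0, τ] ![1, 0]
    (by intro h; have := congrFun h 0; simp at this) (fun _ => e3) (by fun_prop) (fun _ => e3_ne)
  simp only [slice0] at h
  exact h

theorem N3_noMax1 (hG : IsGriffithsPositive H) (α : Chart) (σ : ℂ) :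
    NoMax (fun s => N3 H α ![σ, s]) := by
  have h := noMax_line hH hG α ![σ, 0] ![0, 1]
    (by intro h; have := congrFun h 1; simp at this) (fun _ => e3) (by fun_prop) (fun _ => e3_ne)
  simp only [slice1] at h
  exact h

end Metric

theorem NoMax.const_mul {a : ℂ → ℝ} (ha : NoMax a) (r : ℝ) (hr : 0 < r) :
    NoMax (fun s => r * a s) := by
  intro s0 h hd h0 hmax
  apply ha s0 h hd h0
  filter_upwards [hmax] with s hs
  have e1 : ‖h s‖ * (r * a s) = r * (‖h s‖ * a s) := by ring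
  have e2 : ‖h s0‖ * (r * a s0) = r * (‖h s0‖ * a s0) := by ring
  simp only [e1, e2] at hs
  exact le_of_mul_le_mul_left hs hr

/-- a `NoMax` function maximal over the unit disc at `s0` has `‖s0‖ = 1` -/
theorem NoMax.norm_eq {a : ℂ → ℝ} (ha : NoMax a) (s0 : ℂ) (h0 : ‖s0‖ ≤ 1)
    (hmax : ∀ s, ‖s‖ ≤ 1 → a s ≤ a s0) : ‖s0‖ = 1 := by
  by_contra hne
  have hlt : ‖s0‖ < 1 := lt_of_le_of_ne h0 hne
  refine ha s0 (fun _ => 1) (Eventually.of_forall fun s => by fun_prop) one_ne_zero ?_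
  have hev : ∀ᶠ s in 𝓝 s0, ‖s‖ < 1 := by
    have : ContinuousAt (fun s : ℂ => ‖s‖) s0 := by fun_prop
    exact this.eventually_lt_const hlt
  filter_upwards [hev] with s hs
  simp only [norm_one, one_mul]
  exact hmax s hs.le

/-- evaluation of `f`, `J` in the diagonal charts -/
theorem ev_fP (a : Fin 2) (n : ℕ) (s τ : ℂ) :
    MvPolynomial.eval (pw n ![s, τ]) (fP (a, a)) = fE cc (s ^ n) (τ ^ n) := by
  rw [eval_fP]; simp [pw]

theorem ev_JP (a : Fin 2) (n : ℕ) (s τ : ℂ) :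
    MvPolynomial.eval (pw n ![s, τ]) (JP (a, a)) = JE cc (s ^ n) (τ ^ n) := by
  rw [eval_JP]; simp [pw]

end Crest.Agent.S0396
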