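import Mathlib
import Crest.Agent.S0396_D3

set_option autoImplicit false

noncomputable section

namespace Crest.Agent.S0396

open Crest.AlgGeometry.QuadricBundle
open Filter Topology
open scoped ComplexOrder

theorem fin2_flip : ∀ a b : Fin 2, ¬ b = a → b + 1 = a := by decide

theorem norm_pow_le_of_near (n : ℕ) (s z : ℂ) (δ : ℝ) (hz : ‖z‖ = 1) (h : ‖s ^ n - z‖ ≤ δ) :
    ‖s ^ n‖ ≤ 1 + δ := by
  have := norm_sub_norm_le (s ^ n) z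
  linarith

section Metric

variable {n : ℕ} {H : MetricData 2} (hH : IsHermitianMetric (gn n) H)
include hH

/-- Case 1: the maximum is attained by `N1`. -/
theorem case1 (hn : 1 ≤ n) (hG : IsGriffithsPositive H) (ρ η CJ θ ε δ M : ℝ)
    (hη0 : 0 < η) (hηρ : η < ρ) (hρ1 : 1 ≤ ρ) (hCJ : 0 ≤ CJ)
    (hJ : ∀ z w : ℂ, ‖z‖ ≤ 2 → ‖w‖ ≤ 2 → ‖JE cc z w‖ ≤ CJ)
    (hcon : ∀ w : ℂ, ‖w‖ = 1 → ∃ zh : ℂ, ‖zh‖ = 1 ∧ fE cc zh w = 0 ∧ ‖JE cc zh w‖ ≤ η)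
    (hθ0 : 0 ≤ θ) (hθ1 : θ < 1) (hε : 0 < ε) (hε1 : ε < 1)
    (hest : ε * (2 ^ 9 * (1 + CJ)) + (η + ε) * ((1 + ε) ^ 9 / ρ) ≤ θ)
    (hδ : 0 < δ) (hδ1 : δ < 1) (hδε : δ ≤ ε)
    (hunif : ∀ z w z' w' : ℂ, ‖z‖ ≤ 2 → ‖w‖ ≤ 2 → ‖z'‖ ≤ 2 → ‖w'‖ ≤ 2 → ‖z - z'‖ ≤ δ → ‖w - w'‖ ≤ δ →
      ‖fE cc z w - fE cc z' w'‖ ≤ ε ∧ ‖JE cc z w - JE cc z' w'‖ ≤ ε)
    (hnδ : θ ^ n * 2 < δ) (hM0 : 0 < M)
    (hM : ∀ α (p : Fin 2 → ℂ), ‖p 0‖ ≤ 1 → ‖p 1‖ ≤ 1 → N1 n H α p ≤ M ∧ ρ * N2 H α p ≤ M)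
    (a : Fin 2) (s0 τ0 : ℂ) (hs0 : ‖s0‖ ≤ 1) (hτ0 : ‖τ0‖ = 1)
    (hval : N1 n H (a, a) ![s0, τ0] = M) : False := by
  have hρ0 : 0 < ρ := by linarith
  have hw0 : ‖τ0 ^ n‖ = 1 := by rw [norm_pow, hτ0, one_pow]
  obtain ⟨zh, hzh, hf, hJη⟩ := hcon (τ0 ^ n) hw0
  -- bounds on the slice
  have hb : ∀ s : ℂ, N1 n H (a, a) ![s, τ0] ≤ (max 1 ‖s‖) ^ (8 * n + 1) * M ∧
      ρ * N2 H (a, a) ![s, τ0] ≤ (max 1 ‖s‖) ^ (8 * n + 1) * M := by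
    intro s
    have := Bd0 hH M ρ hρ1 hM hM0.le (a, a) ![s, τ0] (by simp [hτ0])
    simpa using this
  have hN2nn : ∀ s : ℂ, 0 ≤ N2 H (a, a) ![s, τ0] := fun s => dn_nonneg _ _
  have hN3nn : ∀ s : ℂ, 0 ≤ N3 H (a, a) ![s, τ0] := fun s => dn_nonneg _ _
  have hN1nn : ∀ s : ℂ, 0 ≤ N1 n H (a, a) ![s, τ0] := fun s => dn_nonneg _ _
  have hcs : Continuous (fun s : ℂ => (![s, τ0] : Fin 2 → ℂ)) := by
    rw [continuous_pi_iff]; intro i; fin_cases i <;> simp <;> fun_prop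
  have hN3 : ∀ s : ℂ, ‖s ^ n‖ ≤ 2 → N3 H (a, a) ![s, τ0] ≤ 2 ^ 9 * (1 + CJ) * M := by
    intro s hs
    refine n3_bound n hn (fun s => N1 n H (a, a) ![s, τ0]) (fun s => N2 H (a, a) ![s, τ0])
      (fun s => N3 H (a, a) ![s, τ0]) (fun s => ‖fE cc (s ^ n) (τ0 ^ n)‖)
      (fun s => ‖JE cc (s ^ n) (τ0 ^ n)‖) M CJ hM0 hCJ hN3nn (N3_noMax0 hH hG (a, a) τ0)
      ((N3_cont hH (a, a)).comp hcs) ?_ ?_ (fun s => norm_nonneg _) ?_ (fun s => (hb s).1) ?_ s hs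
    · intro s hs; exact fE_ge _ _ hs hw0
    · intro s hs; exact hJ _ _ hs (by rw [hw0]; norm_num)
    · intro s
      have := N3_le hH (a, a) ![s, τ0]
      rwa [ev_fP, ev_JP] at this
    · intro s
      refine le_trans ?_ (hb s).2
      nlinarith [hN2nn s]
  -- the estimate near the good point
  have hθM : ∀ s : ℂ, ‖s ^ n - zh‖ ≤ δ → N1 n H (a, a) ![s, τ0] ≤ θ * M := by
    intro s hs
    have h1 : ‖s ^ n‖ ≤ 1 + δ := norm_pow_le_of_near n s zh δ hzh hs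
    have h2 : ‖s ^ n‖ ≤ 2 := by linarith
    have h3 := hunif (s ^ n) (τ0 ^ n) zh (τ0 ^ n) h2 (by rw [hw0]; norm_num) (by rw [hzh]; norm_num)
      (by rw [hw0]; norm_num) hs (by rw [sub_self, norm_zero]; exact hδ.le)
    rw [hf, sub_zero] at h3
    have h4 : ‖JE cc (s ^ n) (τ0 ^ n)‖ ≤ η + ε := by
      have := norm_sub_norm_le (JE cc (s ^ n) (τ0 ^ n)) (JE cc zh (τ0 ^ n))
      linarith [h3.2]
    have h5 := pow_est n hn ‖s‖ (1 + ε) (by linarith) (norm_nonneg _)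
      (by rw [← norm_pow]; linarith)
    have h6 : ρ * N2 H (a, a) ![s, τ0] ≤ (1 + ε) ^ 9 * M :=
      (hb s).2.trans (mul_le_mul_of_nonneg_right h5 hM0.le)
    have h7 : N2 H (a, a) ![s, τ0] ≤ (1 + ε) ^ 9 / ρ * M := by
      rw [div_mul_eq_mul_div, le_div_iff₀ hρ0]; linarith
    have h8 := N1_le hH (a, a) ![s, τ0]
    rw [ev_fP, ev_JP] at h8
    have h9 : ‖fE cc (s ^ n) (τ0 ^ n)‖ * N3 H (a, a) ![s, τ0] ≤ ε * (2 ^ 9 * (1 + CJ) * M) :=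
      mul_le_mul h3.1 (hN3 s h2) (hN3nn s) hε.le
    have h10 : ‖JE cc (s ^ n) (τ0 ^ n)‖ * N2 H (a, a) ![s, τ0] ≤ (η + ε) * ((1 + ε) ^ 9 / ρ * M) :=
      mul_le_mul h4 h7 (hN2nn s) (by linarith)
    calc N1 n H (a, a) ![s, τ0] ≤ ε * (2 ^ 9 * (1 + CJ) * M) + (η + ε) * ((1 + ε) ^ 9 / ρ * M) := by
          linarith
      _ = (ε * (2 ^ 9 * (1 + CJ)) + (η + ε) * ((1 + ε) ^ 9 / ρ)) * M := by ring
      _ ≤ θ * M := mul_le_mul_of_nonneg_right hest hM0.le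
  have hglue : ∀ s : ℂ, s ≠ 0 → N1 n H (a, a) ![s, τ0] = ‖s‖ * N1 n H (a + 1, a) ![s⁻¹, τ0] := by
    intro s hs
    have t1 := N1_trans hH (a, a) (a + 1, a) ![s, τ0] (mem_flip0 a a _ (by simpa using hs))
    rw [lineTrans_flip0, tau_flip0] at t1
    simpa using t1
  have := barrier n hn zh hzh (fun s => N1 n H (a, a) ![s, τ0]) (fun s => N1 n H (a + 1, a) ![s, τ0])
    ((N1_cont hH (a, a)).comp hcs) ((N1_cont hH (a + 1, a)).comp hcs) hN1nn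
    (fun s => dn_nonneg _ _) hglue (N1_noMax0 hH hG (a, a) τ0) (N1_noMax0 hH hG (a + 1, a) τ0)
    M θ δ hM0 hδ hδ1 hθ0 hθ1 hθM hnδ s0 hs0
  linarith [this.1]

/-- Case 2: the maximum is attained by `ρ N2`. -/
theorem case2 (hn : 1 ≤ n) (hG : IsGriffithsPositive H) (ρ η CJ θ ε δ M : ℝ)
    (hη0 : 0 < η) (hηρ : η < ρ) (hρ1 : 1 ≤ ρ) (hCJ : 0 ≤ CJ)
    (hJ : ∀ z w : ℂ, ‖z‖ ≤ 2 → ‖w‖ ≤ 2 → ‖JE cc z w‖ ≤ CJ)
    (hcon : ∀ z : ℂ, ‖z‖ = 1 → ∃ wh : ℂ, ‖wh‖ = 1 ∧ fE cc z wh = 0 ∧ ρ ^ 2 ≤ η * ‖JE cc z wh‖)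
    (hθ0 : 0 ≤ θ) (hθ1 : θ < 1) (hε : 0 < ε) (hε1 : ε < 1) (hpos : 0 < ρ ^ 2 / η - ε)
    (hest : ((1 + ε) ^ 9 + ε * (2 ^ 9 * (1 + CJ))) * ρ ≤ θ * (ρ ^ 2 / η - ε))
    (hδ : 0 < δ) (hδ1 : δ < 1) (hδε : δ ≤ ε)
    (hunif : ∀ z w z' w' : ℂ, ‖z‖ ≤ 2 → ‖w‖ ≤ 2 → ‖z'‖ ≤ 2 → ‖w'‖ ≤ 2 → ‖z - z'‖ ≤ δ → ‖w - w'‖ ≤ δ →
      ‖fE cc z w - fE cc z' w'‖ ≤ ε ∧ ‖JE cc z w - JE cc z' w'‖ ≤ ε)
    (hnδ : θ ^ n * 2 < δ) (hM0 : 0 < M)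
    (hM : ∀ α (p : Fin 2 → ℂ), ‖p 0‖ ≤ 1 → ‖p 1‖ ≤ 1 → N1 n H α p ≤ M ∧ ρ * N2 H α p ≤ M)
    (b : Fin 2) (s0 τ0 : ℂ) (hs0 : ‖s0‖ = 1) (hτ0 : ‖τ0‖ ≤ 1)
    (hval : ρ * N2 H (b, b) ![s0, τ0] = M) : False := by
  have hρ0 : 0 < ρ := by linarith
  have hz0 : ‖s0 ^ n‖ = 1 := by rw [norm_pow, hs0, one_pow]
  obtain ⟨wh, hwh, hf, hJη⟩ := hcon (s0 ^ n) hz0
  have hJ' : ρ ^ 2 / η ≤ ‖JE cc (s0 ^ n) wh‖ := by
    rw [div_le_iff₀ hη0]; linarith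
  have hb : ∀ s : ℂ, N1 n H (b, b) ![s0, s] ≤ (max 1 ‖s‖) ^ (8 * n + 1) * M ∧
      ρ * N2 H (b, b) ![s0, s] ≤ (max 1 ‖s‖) ^ (8 * n + 1) * M := by
    intro s
    have := Bd1 hH M ρ hρ1 hM hM0.le (b, b) ![s0, s] (by simp [hs0])
    simpa using this
  have hN2nn : ∀ s : ℂ, 0 ≤ N2 H (b, b) ![s0, s] := fun s => dn_nonneg _ _
  have hN3nn : ∀ s : ℂ, 0 ≤ N3 H (b, b) ![s0, s] := fun s => dn_nonneg _ _
  have hcs : Continuous (fun s : ℂ => (![s0, s] : Fin 2 → ℂ)) := by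
    rw [continuous_pi_iff]; intro i; fin_cases i <;> simp <;> fun_prop
  have hN3 : ∀ s : ℂ, ‖s ^ n‖ ≤ 2 → N3 H (b, b) ![s0, s] ≤ 2 ^ 9 * (1 + CJ) * M := by
    intro s hs
    refine n3_bound n hn (fun s => N1 n H (b, b) ![s0, s]) (fun s => N2 H (b, b) ![s0, s])
      (fun s => N3 H (b, b) ![s0, s]) (fun s => ‖fE cc (s0 ^ n) (s ^ n)‖)
      (fun s => ‖JE cc (s0 ^ n) (s ^ n)‖) M CJ hM0 hCJ hN3nn (N3_noMax1 hH hG (b, b) s0)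
      ((N3_cont hH (b, b)).comp hcs) ?_ ?_ (fun s => norm_nonneg _) ?_ (fun s => (hb s).1) ?_ s hs
    · intro s hs; exact fE_ge' _ _ hz0 hs
    · intro s hs; exact hJ _ _ (by rw [hz0]; norm_num) hs
    · intro s
      have := N3_le hH (b, b) ![s0, s]
      rwa [ev_fP, ev_JP] at this
    · intro s
      refine le_trans ?_ (hb s).2
      nlinarith [hN2nn s]
  have hθM : ∀ s : ℂ, ‖s ^ n - wh‖ ≤ δ → ρ * N2 H (b, b) ![s0, s] ≤ θ * M := by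
    intro s hs
    have h1 : ‖s ^ n‖ ≤ 1 + δ := norm_pow_le_of_near n s wh δ hwh hs
    have h2 : ‖s ^ n‖ ≤ 2 := by linarith
    have h3 := hunif (s0 ^ n) (s ^ n) (s0 ^ n) wh (by rw [hz0]; norm_num) h2 (by rw [hz0]; norm_num)
      (by rw [hwh]; norm_num) (by rw [sub_self, norm_zero]; exact hδ.le) hs
    rw [hf, sub_zero] at h3
    have h4 : ρ ^ 2 / η - ε ≤ ‖JE cc (s0 ^ n) (s ^ n)‖ := by
      have := norm_sub_norm_le (JE cc (s0 ^ n) wh) (JE cc (s0 ^ n) (s ^ n))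
      rw [norm_sub_rev] at this
      linarith [h3.2]
    have h5 := pow_est n hn ‖s‖ (1 + ε) (by linarith) (norm_nonneg _)
      (by rw [← norm_pow]; linarith)
    have h6 : N1 n H (b, b) ![s0, s] ≤ (1 + ε) ^ 9 * M :=
      (hb s).1.trans (mul_le_mul_of_nonneg_right h5 hM0.le)
    have h8 := N2_le hH (b, b) ![s0, s]
    rw [ev_fP, ev_JP] at h8
    have h9 : ‖fE cc (s0 ^ n) (s ^ n)‖ * N3 H (b, b) ![s0, s] ≤ ε * (2 ^ 9 * (1 + CJ) * M) :=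
      mul_le_mul h3.1 (hN3 s h2) (hN3nn s) hε.le
    have h10 : (ρ ^ 2 / η - ε) * N2 H (b, b) ![s0, s] ≤
        ((1 + ε) ^ 9 + ε * (2 ^ 9 * (1 + CJ))) * M := by
      calc (ρ ^ 2 / η - ε) * N2 H (b, b) ![s0, s]
          ≤ ‖JE cc (s0 ^ n) (s ^ n)‖ * N2 H (b, b) ![s0, s] :=
            mul_le_mul_of_nonneg_right h4 (hN2nn s)
        _ ≤ (1 + ε) ^ 9 * M + ε * (2 ^ 9 * (1 + CJ) * M) := by linarith
        _ = _ := by ring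
    have h11 : (ρ ^ 2 / η - ε) * (ρ * N2 H (b, b) ![s0, s]) ≤ (ρ ^ 2 / η - ε) * (θ * M) := by
      calc (ρ ^ 2 / η - ε) * (ρ * N2 H (b, b) ![s0, s])
          = ρ * ((ρ ^ 2 / η - ε) * N2 H (b, b) ![s0, s]) := by ring
        _ ≤ ρ * (((1 + ε) ^ 9 + ε * (2 ^ 9 * (1 + CJ))) * M) := mul_le_mul_of_nonneg_left h10 hρ0.le
        _ = (((1 + ε) ^ 9 + ε * (2 ^ 9 * (1 + CJ))) * ρ) * M := by ring
        _ ≤ (θ * (ρ ^ 2 / η - ε)) * M := mul_le_mul_of_nonneg_right hest hM0.le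
        _ = _ := by ring
    exact le_of_mul_le_mul_left h11 hpos
  have hglue : ∀ s : ℂ, s ≠ 0 →
      ρ * N2 H (b, b) ![s0, s] = ‖s‖ * (ρ * N2 H (b, b + 1) ![s0, s⁻¹]) := by
    intro s hs
    have t1 := N2_trans hH (b, b) (b, b + 1) ![s0, s] (mem_flip1 b b _ (by simpa using hs))
    rw [lineTrans_flip1, tau_flip1] at t1
    rw [t1]
    simp only [Matrix.cons_val_zero, Matrix.cons_val_one, Matrix.cons_val_fin_one, zpow_one]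
    ring
  have := barrier n hn wh hwh (fun s => ρ * N2 H (b, b) ![s0, s])
    (fun s => ρ * N2 H (b, b + 1) ![s0, s])
    (continuous_const.mul ((N2_cont hH (b, b)).comp hcs))
    (continuous_const.mul ((N2_cont hH (b, b + 1)).comp hcs))
    (fun s => mul_nonneg hρ0.le (dn_nonneg _ _))
    (fun s => mul_nonneg hρ0.le (dn_nonneg _ _)) hglue
    ((N2_noMax1 hH hG (b, b) s0).const_mul ρ hρ0) ((N2_noMax1 hH hG (b, b + 1) s0).const_mul ρ hρ0)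
    M θ δ hM0 hδ hδ1 hθ0 hθ1 hθM hnδ τ0 hτ0
  linarith [this.1]

end Metric

/-- Existence of the maximum over the compact surface. -/
theorem exists_max (F : Chart → (Fin 2 → ℂ) → ℝ) (hF : ∀ α, Continuous (F α)) :
    ∃ (α : Chart) (p : Fin 2 → ℂ), ‖p 0‖ ≤ 1 ∧ ‖p 1‖ ≤ 1 ∧
      ∀ β (q : Fin 2 → ℂ), ‖q 0‖ ≤ 1 → ‖q 1‖ ≤ 1 → F β q ≤ F α p := by
  have hK : IsCompact (Metric.closedBall (0 : Fin 2 → ℂ) 1) := isCompact_closedBall 0 1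
  have hmem : ∀ p : Fin 2 → ℂ, p ∈ Metric.closedBall (0 : Fin 2 → ℂ) 1 ↔ ‖p 0‖ ≤ 1 ∧ ‖p 1‖ ≤ 1 := by
    intro p
    rw [mem_closedBall_zero_iff, pi_norm_le_iff_of_nonneg zero_le_one, Fin.forall_fin_two]
  have hex : ∀ α : Chart, ∃ p ∈ Metric.closedBall (0 : Fin 2 → ℂ) 1,
      ∀ q ∈ Metric.closedBall (0 : Fin 2 → ℂ) 1, F α q ≤ F α p := by
    intro α
    obtain ⟨p, hp, h⟩ := hK.exists_isMaxOn ⟨0, by simp⟩ (hF α).continuousOn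
    exact ⟨p, hp, fun q hq => h hq⟩
  choose P hP hPm using hex
  obtain ⟨α, hα⟩ := Finite.exists_max (fun α => F α (P α))
  refine ⟨α, P α, ((hmem _).1 (hP α)).1, ((hmem _).1 (hP α)).2, ?_⟩
  intro β q h0 h1
  exact (hPm β q ((hmem q).2 ⟨h0, h1⟩)).trans (hα β)

theorem main : ∃ n : ℕ, 1 ≤ n ∧ ∀ H : MetricData 2, IsHermitianMetric (gn n) H →
    ¬ IsGriffithsPositive H := by
  obtain ⟨CJ, hCJ, hJ⟩ := exists_CJ
  set ρ : ℝ := (cr ^ 2 - 1) ^ 4 with hρ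
  set η : ℝ := (cr ^ 2 - cr + 1) ^ 4 with hη
  have hcr := cr_gt
  have hη0 : 0 < η := by rw [hη]; have : 0 < cr ^ 2 - cr + 1 := by nlinarith
                         positivity
  have hηρ : η < ρ := eta_lt
  have hρ1 : 1 ≤ ρ := by
    rw [hρ]; exact one_le_pow₀ (by nlinarith)
  have hρ0 : 0 < ρ := by linarith
  obtain ⟨θ, ε, hθ0, hθ1, hε, hε1, hpos, hest1, hest2⟩ :=
    choose_eps ρ η (2 ^ 9 * (1 + CJ)) hη0 hηρ (by positivity)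
  obtain ⟨δ0, hδ0, hunif⟩ := unif ε hε
  set δ : ℝ := min δ0 (min ε (1 / 2)) with hδdef
  have hδ : 0 < δ := by rw [hδdef]; positivity
  have hδδ0 : δ ≤ δ0 := min_le_left _ _
  have hδε : δ ≤ ε := (min_le_right _ _).trans (min_le_left _ _)
  have hδh : δ ≤ 1 / 2 := (min_le_right _ _).trans (min_le_right _ _)
  have hδ1 : δ < 1 := by linarith
  obtain ⟨n, hnn⟩ := exists_pow_lt_of_lt_one (by positivity : 0 < δ / 2) hθ1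
  have hnδ : θ ^ (n + 1) * 2 < δ := by
    have : θ ^ (n + 1) ≤ θ ^ n := pow_le_pow_of_le_one hθ0 hθ1.le (by omega)
    linarith
  refine ⟨n + 1, by omega, ?_⟩
  intro H hH hG
  have hn1 : 1 ≤ n + 1 := by omega
  have hunif' : ∀ z w z' w' : ℂ, ‖z‖ ≤ 2 → ‖w‖ ≤ 2 → ‖z'‖ ≤ 2 → ‖w'‖ ≤ 2 → ‖z - z'‖ ≤ δ →
      ‖w - w'‖ ≤ δ → ‖fE cc z w - fE cc z' w'‖ ≤ ε ∧ ‖JE cc z w - JE cc z' w'‖ ≤ ε :=
    fun z w z' w' h1 h2 h3 h4 h5 h6 => hunif z w z' w' h1 h2 h3 h4 (h5.trans hδδ0) (h6.trans hδδ0)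
  have hcon1 : ∀ w : ℂ, ‖w‖ = 1 → ∃ zh : ℂ, ‖zh‖ = 1 ∧ fE cc zh w = 0 ∧ ‖JE cc zh w‖ ≤ η :=
    contraction1
  have hcon2 : ∀ z : ℂ, ‖z‖ = 1 →
      ∃ wh : ℂ, ‖wh‖ = 1 ∧ fE cc z wh = 0 ∧ ρ ^ 2 ≤ η * ‖JE cc z wh‖ := by
    intro z hz
    obtain ⟨wh, h1, h2, h3⟩ := contraction2 z hz
    refine ⟨wh, h1, h2, ?_⟩
    rw [hρ, ← pow_mul]; exact h3
  obtain ⟨α, p, hp0, hp1, hmax⟩ := exists_max
    (fun α p => max (N1 (n + 1) H α p) (ρ * N2 H α p))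
    (fun α => (N1_cont hH α).max (continuous_const.mul (N2_cont hH α)))
  set M : ℝ := max (N1 (n + 1) H α p) (ρ * N2 H α p) with hMdef
  have hM : ∀ α (p : Fin 2 → ℂ), ‖p 0‖ ≤ 1 → ‖p 1‖ ≤ 1 →
      N1 (n + 1) H α p ≤ M ∧ ρ * N2 H α p ≤ M :=
    fun β q h0 h1 => ⟨(le_max_left _ _).trans (hmax β q h0 h1), (le_max_right _ _).trans (hmax β q h0 h1)⟩
  have hM0 : 0 < M := by
    have : 0 < N1 (n + 1) H α p := dn_pos _ (hH.posDef α p) _ (e1_ne _ _ _)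
    exact lt_of_lt_of_le this (le_max_left _ _)
  have hp : p = ![p 0, p 1] := by funext i; fin_cases i <;> simp
  obtain ⟨a, b⟩ := α
  rcases le_total (ρ * N2 H (a, b) p) (N1 (n + 1) H (a, b) p) with hc | hc
  · have hMv : N1 (n + 1) H (a, b) p = M := by rw [hMdef, max_eq_left hc]
    -- NoMax in direction 1
    have h1 : ‖p 1‖ = 1 := by
      refine (N1_noMax1 hH hG (a, b) (p 0)).norm_eq (p 1) hp1 ?_
      intro s hs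
      rw [← hp, hMv]
      exact (hM (a, b) ![p 0, s] (by simpa using hp0) (by simpa using hs)).1
    have hne : p 1 ≠ 0 := by intro h; rw [h, norm_zero] at h1; exact zero_ne_one h1
    by_cases hab : b = a
    · subst hab
      exact case1 hH hn1 hG ρ η CJ θ ε δ M hη0 hηρ hρ1 hCJ hJ hcon1 hθ0 hθ1 hε hε1 hest1 hδ hδ1 hδε
        hunif' hnδ hM0 hM b (p 0) (p 1) hp0 h1 (by rw [← hp]; exact hMv)
    · have hb1 : b + 1 = a := fin2_flip a b hab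
      have t1 := N1_trans hH (a, b) (a, b + 1) p (mem_flip1 a b p hne)
      rw [lineTrans_flip1, tau_flip1, norm_zpow, h1, one_zpow, one_mul, hb1, hMv] at t1
      exact case1 hH hn1 hG ρ η CJ θ ε δ M hη0 hηρ hρ1 hCJ hJ hcon1 hθ0 hθ1 hε hε1 hest1 hδ hδ1 hδε
        hunif' hnδ hM0 hM a (p 0) (p 1)⁻¹ hp0 (by rw [norm_inv, h1, inv_one]) t1.symm
  · have hMv : ρ * N2 H (a, b) p = M := by rw [hMdef, max_eq_right hc]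
    have h1 : ‖p 0‖ = 1 := by
      refine ((N2_noMax0 hH hG (a, b) (p 1)).const_mul ρ hρ0).norm_eq (p 0) hp0 ?_
      intro s hs
      rw [← hp, hMv]
      exact (hM (a, b) ![s, p 1] (by simpa using hs) (by simpa using hp1)).2
    have hne : p 0 ≠ 0 := by intro h; rw [h, norm_zero] at h1; exact zero_ne_one h1
    by_cases hab : a = b
    · subst hab
      exact case2 hH hn1 hG ρ η CJ θ ε δ M hη0 hηρ hρ1 hCJ hJ hcon2 hθ0 hθ1 hε hε1 hpos hest2 hδ hδ1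
        hδε hunif' hnδ hM0 hM a (p 0) (p 1) h1 hp1 (by rw [← hp]; exact hMv)
    · have hb1 : a + 1 = b := fin2_flip b a hab
      have t1 := N2_trans hH (a, b) (a + 1, b) p (mem_flip0 a b p hne)
      rw [lineTrans_flip0, tau_flip0, norm_zpow, h1, one_zpow, one_mul, hb1] at t1
      rw [t1] at hMv
      exact case2 hH hn1 hG ρ η CJ θ ε δ M hη0 hηρ hρ1 hCJ hJ hcon2 hθ0 hθ1 hε hε1 hpos hest2 hδ hδ1
        hδε hunif' hnδ hM0 hM b (p 0)⁻¹ (p 1) (by rw [norm_inv, h1, inv_one]) hp1 hMv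

end Crest.Agent.S0396
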