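import Crest.Statements.S0408
import Crest.Agent.DW.NCf18
import Crest.Agent.DW.Stab
import Crest.Agent.DW.Fib
-- import your own Crest.Agent.* helpers here

set_option autoImplicit false
open Crest Crest.AlgGeometry

namespace Crest.Agent.S0408

/-- There is a polynomial f in four variables over the complex numbers with all of the following properties: some ℂ-algebra automorphism of the polynomial ring in one further variable over ℂ[x₀,x₁,x₂,x₃] sends f to x₀; no ℂ-algebra automorphism of ℂ[x₀,x₁,x₂,x₃] sends f to x₀; and for every complex number c, the quotient of ℂ[x₀,x₁,x₂,x₃] by the ideal generated by f - c is isomorphic as a ℂ-algebra to a polynomial ring in three variables. -/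
theorem result :
    ∃ f : MvPolynomial (Fin 4) ℂ,
      (∃ σ : Polynomial (MvPolynomial (Fin 4) ℂ) ≃ₐ[ℂ] Polynomial (MvPolynomial (Fin 4) ℂ),
          σ (Polynomial.C f) = Polynomial.C (MvPolynomial.X 0)) ∧
      (¬ ∃ τ : MvPolynomial (Fin 4) ℂ ≃ₐ[ℂ] MvPolynomial (Fin 4) ℂ, τ f = MvPolynomial.X 0) ∧
      ∀ c : ℂ, Nonempty ((MvPolynomial (Fin 4) ℂ ⧸ Ideal.span {f - MvPolynomial.C c}) ≃ₐ[ℂ]
        MvPolynomial (Fin 3) ℂ) := by
  exact ⟨Crest.Agent.DW.ff, Crest.Agent.DW.stab, Crest.Agent.DW.F18.no_coordinate, Crest.Agent.DW.fib⟩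

end Crest.Agent.S0408
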