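import Crest.Statements.S0409
import Crest.Agent.AbSath.Basic
import Crest.Agent.AbSath.Crit

set_option autoImplicit false
open Crest Crest.AlgGeometry

namespace Crest.Agent.S0409

open MvPolynomial Crest.Agent.AbSath

theorem crit (c : ℂ) (i : Fin 4) :
    MvPolynomial.eval ![2, 0, 1 / 2, -1 / 2] (MvPolynomial.pderiv i
      (FF (X 0) (X 1) (X 2) (X 3) - C c : MvPolynomial (Fin 4) ℂ)) = 0 := by
  have h2 : ∀ i, pderiv i (2 : MvPolynomial (Fin 4) ℂ) = 0 := fun i => by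
    simpa using (pderiv i : Derivation ℂ (MvPolynomial (Fin 4) ℂ) _).map_natCast 2
  have h3 : ∀ i, pderiv i (3 : MvPolynomial (Fin 4) ℂ) = 0 := fun i => by
    simpa using (pderiv i : Derivation ℂ (MvPolynomial (Fin 4) ℂ) _).map_natCast 3
  fin_cases i <;>
  · simp [FF, F0, qf, rf, sf, pderiv_X, Derivation.leibniz, Derivation.leibniz_pow, h2, h3]
    try norm_num

abbrev P4 := MvPolynomial (Fin 4) ℂ
abbrev P3 := MvPolynomial (Fin 3) ℂ

/-- The polynomial `F - 1`. -/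
noncomputable def G : P4 := FF (X 0) (X 1) (X 2) (X 3) - 1

noncomputable def φ : P4 →ₐ[ℂ] P3 :=
  aeval ![AbSath.X0 1 1 (X 0) (X 1), AbSath.X1 1 1 (X 0) (X 1) (X 2), AbSath.X2 1 1 (X 0) (X 1) (X 2),
    AbSath.X3 1 1 (X 0) (X 1) (X 2)]

theorem φ_FF : φ (FF (X 0) (X 1) (X 2) (X 3)) = 1 := by
  have := AbSath.map_FF (φ : P4 →+* P3) (X 0) (X 1) (X 2) (X 3)
  have h := AbSath.par_FF (u := (1 : P3)) (v := 1) (Q := X 0) (R := X 1) (X 2) (by ring)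
  rw [← h]
  simpa [φ] using this

theorem φ_G : φ G = 0 := by
  unfold G
  rw [map_sub, φ_FF, map_one, sub_self]

noncomputable abbrev I : Ideal P4 := Ideal.span {G}

noncomputable def φb : (P4 ⧸ I) →ₐ[ℂ] P3 :=
  Ideal.Quotient.liftₐ I φ (by
    intro a ha
    have : I ≤ RingHom.ker (φ : P4 →+* P3) := by
      rw [Ideal.span_le]
      intro x hx
      rw [Set.mem_singleton_iff] at hx
      subst hx
      exact φ_G
    exact this ha)

noncomputable abbrev mk : P4 →+* P4 ⧸ I := Ideal.Quotient.mk I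

noncomputable def ψ : P3 →ₐ[ℂ] (P4 ⧸ I) :=
  aeval ![mk (QQ (X 0) (X 1) (X 2) (X 3)), mk (RR (X 0) (X 1) (X 2) (X 3)),
    mk (PP (X 0) (X 1) (X 2) (X 3))]

theorem mk_FF : FF (mk (X 0)) (mk (X 1)) (mk (X 2)) (mk (X 3)) = 1 := by
  rw [← AbSath.map_FF]
  have : mk G = 0 := Ideal.Quotient.eq_zero_iff_mem.2 (Ideal.subset_span rfl)
  unfold G at this
  rw [map_sub, map_one, sub_eq_zero] at this
  exact this

theorem mk_FF' : FF (mk (X 0)) (mk (X 1)) (mk (X 2)) (mk (X 3)) * 1 = 1 := by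
  rw [mk_FF, mul_one]

theorem ψφ (i : Fin 4) : ψ (φ (X i)) = mk (X i) := by
  have hψ0 : (ψ : P3 →+* P4 ⧸ I) (X 0) = mk (QQ (X 0) (X 1) (X 2) (X 3)) := by simp [ψ]
  have hψ1 : (ψ : P3 →+* P4 ⧸ I) (X 1) = mk (RR (X 0) (X 1) (X 2) (X 3)) := by simp [ψ]
  have hψ2 : (ψ : P3 →+* P4 ⧸ I) (X 2) = mk (PP (X 0) (X 1) (X 2) (X 3)) := by simp [ψ]
  have h0 := AbSath.rec_X0 mk_FF'
  have h1 := AbSath.rec_X1 mk_FF'
  have h2 := AbSath.rec_X2 mk_FF'
  have h3 := AbSath.rec_X3 mk_FF'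
  rw [mk_FF, one_pow, mul_one] at h1 h2 h3
  rw [mk_FF] at h0
  fin_cases i
  · have : φ (X 0) = AbSath.X0 1 1 (X 0) (X 1) := by simp [φ]
    change ψ (φ (X 0)) = mk (X 0)
    rw [this]
    have e := AbSath.map_X0 (ψ : P3 →+* P4 ⧸ I) 1 1 (X 0) (X 1)
    rw [hψ0, hψ1, map_one, AbSath.map_QQ, AbSath.map_RR, h0] at e
    exact e
  · have : φ (X 1) = AbSath.X1 1 1 (X 0) (X 1) (X 2) := by simp [φ]
    change ψ (φ (X 1)) = mk (X 1)
    rw [this]
    have e := AbSath.map_X1 (ψ : P3 →+* P4 ⧸ I) 1 1 (X 0) (X 1) (X 2)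
    rw [hψ0, hψ1, hψ2, map_one, AbSath.map_QQ, AbSath.map_RR, AbSath.map_PP, h1] at e
    exact e
  · have : φ (X 2) = AbSath.X2 1 1 (X 0) (X 1) (X 2) := by simp [φ]
    change ψ (φ (X 2)) = mk (X 2)
    rw [this]
    have e := AbSath.map_X2 (ψ : P3 →+* P4 ⧸ I) 1 1 (X 0) (X 1) (X 2)
    rw [hψ0, hψ1, hψ2, map_one, AbSath.map_QQ, AbSath.map_RR, AbSath.map_PP, h2] at e
    exact e
  · have : φ (X 3) = AbSath.X3 1 1 (X 0) (X 1) (X 2) := by simp [φ]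
    change ψ (φ (X 3)) = mk (X 3)
    rw [this]
    have e := AbSath.map_X3 (ψ : P3 →+* P4 ⧸ I) 1 1 (X 0) (X 1) (X 2)
    rw [hψ0, hψ1, hψ2, map_one, AbSath.map_QQ, AbSath.map_RR, AbSath.map_PP, h3] at e
    exact e

theorem φ_QQ : φ (QQ (X 0) (X 1) (X 2) (X 3)) = X 0 := by
  have := AbSath.map_QQ (φ : P4 →+* P3) (X 0) (X 1) (X 2) (X 3)
  have h := AbSath.par_QQ (u := (1 : P3)) (v := 1) (Q := X 0) (R := X 1) (X 2) (by ring)
  refine Eq.trans ?_ h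
  simpa [φ] using this

theorem φ_RR : φ (RR (X 0) (X 1) (X 2) (X 3)) = X 1 := by
  have := AbSath.map_RR (φ : P4 →+* P3) (X 0) (X 1) (X 2) (X 3)
  have h := AbSath.par_RR (u := (1 : P3)) (v := 1) (Q := X 0) (R := X 1) (X 2) (by ring)
  refine Eq.trans ?_ h
  simpa [φ] using this

theorem φ_PP : φ (PP (X 0) (X 1) (X 2) (X 3)) = X 2 := by
  have := AbSath.map_PP (φ : P4 →+* P3) (X 0) (X 1) (X 2) (X 3)
  have h := AbSath.par_PP (u := (1 : P3)) (v := 1) (Q := X 0) (R := X 1) (X 2) (by ring)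
  rw [one_pow, one_mul] at h
  refine Eq.trans ?_ h
  simpa [φ] using this

theorem φb_mk (f : P4) : φb (mk f) = φ f := rfl

noncomputable def iso : (P4 ⧸ I) ≃ₐ[ℂ] P3 :=
  AlgEquiv.ofAlgHom φb ψ
    (by
      apply MvPolynomial.algHom_ext
      intro i
      fin_cases i
      · change φb (ψ (X 0)) = X 0
        have : ψ (X 0) = mk (QQ (X 0) (X 1) (X 2) (X 3)) := by simp [ψ]
        rw [this, φb_mk, φ_QQ]
      · change φb (ψ (X 1)) = X 1
        have : ψ (X 1) = mk (RR (X 0) (X 1) (X 2) (X 3)) := by simp [ψ]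
        rw [this, φb_mk, φ_RR]
      · change φb (ψ (X 2)) = X 2
        have : ψ (X 2) = mk (PP (X 0) (X 1) (X 2) (X 3)) := by simp [ψ]
        rw [this, φb_mk, φ_PP])
    (by
      apply Ideal.Quotient.algHom_ext
      apply MvPolynomial.algHom_ext
      intro i
      exact ψφ i)

theorem result :
    ∃ F : MvPolynomial (Fin 4) ℂ,
      Nonempty ((MvPolynomial (Fin 4) ℂ ⧸ Ideal.span {F}) ≃ₐ[ℂ] MvPolynomial (Fin 3) ℂ) ∧
      (∃ p : Fin 4 → ℂ, ∀ i : Fin 4, MvPolynomial.eval p (MvPolynomial.pderiv i F) = 0) ∧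
      ¬ ∃ τ : MvPolynomial (Fin 4) ℂ ≃ₐ[ℂ] MvPolynomial (Fin 4) ℂ, τ F = MvPolynomial.X 0 := by
  have hc : ∀ i, MvPolynomial.eval ![2, 0, 1 / 2, -1 / 2] (MvPolynomial.pderiv i G) = 0 := by
    intro i
    have := crit 1 i
    rw [C_1] at this
    exact this
  exact ⟨G, ⟨iso⟩, ⟨_, hc⟩, no_coord G _ hc 0⟩

end Crest.Agent.S0409
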