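import Crest.Statements.S0410
import Crest.Agent.AbSath.Emb

set_option autoImplicit false
open Crest Crest.AlgGeometry

namespace Crest.Agent.S0410

open MvPolynomial Crest.Agent.AbSath Crest.Agent.AbSath.Der

variable (m : ℕ)

theorem pU (a : Fin 3 ⊕ Fin m) (k : ℕ) (f : L m) :
    pderiv a (U m ^ k * f) = U m ^ k * pderiv a f := by
  unfold U
  rw [← C_pow, pderiv_C_mul]

/-- Intertwining relation extends from the generators. -/
theorem key (D : Derivation ℂ (A m) (A m)) (a : Fin 3 ⊕ Fin m) (N : ℕ)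
    (h : ∀ i, Φ m (D (X i)) = U m ^ N * pderiv a (Φ m (X i))) (p : A m) :
    Φ m (D p) = U m ^ N * pderiv a (Φ m p) := by
  induction p using MvPolynomial.induction_on with
  | C c =>
    have h1 : Φ m (C c) = C (algebraMap ℂ Λ c) := (Φ m).commutes c
    rw [MvPolynomial.derivation_C, map_zero, h1, pderiv_C, mul_zero]
  | add f g hf hg => rw [map_add, map_add, map_add, map_add, hf, hg, mul_add]
  | mul_X f i hf =>
    rw [Derivation.leibniz, map_mul, pderiv_mul, map_add, smul_eq_mul, smul_eq_mul, map_mul,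
      map_mul, hf, h i]
    ring

theorem exists_lift : ∃ (N : ℕ) (e : (Fin 3 ⊕ Fin m) → Fin (4 + m) → A m),
    ∀ a i, Φ m (e a i) = U m ^ N * pderiv a (Φ m (X i)) := by
  choose k e h using fun (x : (Fin 3 ⊕ Fin m) × Fin (4 + m)) => dense m (pderiv x.1 (Φ m (X x.2)))
  refine ⟨∑ x, k x, fun a i => FA m ^ (∑ x, k x - k (a, i)) * e (a, i), fun a i => ?_⟩
  have hk : k (a, i) ≤ ∑ x, k x := Finset.single_le_sum (f := k) (fun _ _ => Nat.zero_le _)
    (Finset.mem_univ (a, i))
  rw [map_mul, map_pow, Φ_FA, ← h (a, i), ← mul_assoc, ← pow_add, Nat.sub_add_cancel hk]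

noncomputable def N : ℕ := (exists_lift m).choose
noncomputable def ee : (Fin 3 ⊕ Fin m) → Fin (4 + m) → A m := (exists_lift m).choose_spec.choose
theorem ee_spec (a : Fin 3 ⊕ Fin m) (i : Fin (4 + m)) :
    Φ m (ee m a i) = U m ^ N m * pderiv a (Φ m (X i)) :=
  (exists_lift m).choose_spec.choose_spec a i

noncomputable def D : Fin 3 ⊕ Fin m → Derivation ℂ (A m) (A m) :=
  Sum.elim (fun a => mkDerivation ℂ (ee m (Sum.inl a))) (fun j => pderiv (Fin.natAdd 4 j))

noncomputable def n : Fin 3 ⊕ Fin m → ℕ := Sum.elim (fun _ => N m) (fun _ => 0)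

theorem der_inr (j : Fin m) (i : Fin 4) : pderiv (Sum.inr j) (Φ0 m i) = 0 := by
  have hU : pderiv (Sum.inr j) (U m) = 0 := pderiv_C
  have hV : pderiv (Sum.inr j) (V m) = 0 := pderiv_C
  have h0 : pderiv (Sum.inr j) (X (Sum.inl 0) : L m) = 0 := pderiv_X_of_ne (by simp)
  have h1 : pderiv (Sum.inr j) (X (Sum.inl 1) : L m) = 0 := pderiv_X_of_ne (by simp)
  have h2 : pderiv (Sum.inr j) (X (Sum.inl 2) : L m) = 0 := pderiv_X_of_ne (by simp)
  fin_cases i
  · exact d_X0 (pderiv (Sum.inr j)) hU hV h0 h1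
  · exact d_X1 (pderiv (Sum.inr j)) hU hV h0 h1 h2
  · exact d_X2 (pderiv (Sum.inr j)) hU hV h0 h1 h2
  · exact d_X3 (pderiv (Sum.inr j)) hU hV h0 h1 h2

theorem hD (a : Fin 3 ⊕ Fin m) (p : A m) : Φ m (D m a p) = U m ^ n m a * pderiv a (Φ m p) := by
  rcases a with a | j
  · apply key
    intro i
    change Φ m (mkDerivation ℂ (ee m (Sum.inl a)) (X i)) = _
    rw [mkDerivation_X, ee_spec]
    rfl
  · apply key
    intro i
    change Φ m (pderiv (Fin.natAdd 4 j) (X i)) = U m ^ 0 * _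
    rw [pow_zero, one_mul]
    refine Fin.addCases (fun i => ?_) (fun j' => ?_) i
    · have : Φ m (X (Fin.castAdd m i)) = Φ0 m i := Φ_xx m i
      rw [this, der_inr, pderiv_X_of_ne, map_zero]
      intro h
      have := congrArg Fin.val h
      simp at this
      omega
    · rw [Φ_X]
      by_cases hj : j' = j
      · subst hj
        simp
      · rw [pderiv_X_of_ne, pderiv_X_of_ne, map_zero]
        · intro h; exact hj (Sum.inr_injective h)
        · intro h
          apply hj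
          exact Fin.natAdd_injective m 4 h

theorem U_pow_cancel (k : ℕ) (f : L m) (h : U m ^ k * f = 0) : f = 0 := by
  have : V m ^ k * (U m ^ k * f) = f := by
    rw [← mul_assoc, ← mul_pow, mul_comm (V m), UV, one_pow, one_mul]
  rw [← this, h, mul_zero]

theorem comm (a b : Fin 3 ⊕ Fin m) (p : A m) : D m a (D m b p) = D m b (D m a p) := by
  apply Φ_inj m
  rw [hD, hD, hD, hD, pU, pU, pderiv_comm]
  ring

theorem nil (a : Fin 3 ⊕ Fin m) (p : A m) : ∃ k, (D m a)^[k] p = 0 := by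
  obtain ⟨k, hk⟩ := loc_nil a (Φ m p)
  refine ⟨k, Φ_inj m ?_⟩
  have : ∀ k q, Φ m ((D m a)^[k] q) = U m ^ (k * n m a) * (pderiv a)^[k] (Φ m q) := by
    intro k
    induction k with
    | zero => intro q; simp
    | succ k ih =>
      intro q
      rw [Function.iterate_succ_apply', hD, ih, pU, Function.iterate_succ_apply',
        ← mul_assoc, ← pow_add]
      congr 2
      ring
  rw [this, hk, mul_zero, map_zero]

theorem linInd : LinearIndependent (A m) (D m) := by
  classical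
  rw [Fintype.linearIndependent_iff]
  intro g hg a
  obtain ⟨k, e, he⟩ := gen m a
  have h1 := congrArg (fun d : Derivation ℂ (A m) (A m) => Φ m (d e)) hg
  simp only [Derivation.coe_zero, Pi.zero_apply, map_zero] at h1
  rw [der_sum_apply, map_sum, Finset.sum_eq_single a] at h1
  · rw [Derivation.smul_apply, smul_eq_mul, map_mul, hD, ← he, pU, pderiv_X_self, mul_one,
      ← pow_add, mul_comm] at h1
    have h2 := U_pow_cancel m _ _ h1
    exact Φ_inj m (by rw [h2, map_zero])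
  · intro b _ hb
    rw [Derivation.smul_apply, smul_eq_mul, map_mul, hD, ← he, pU, pderiv_X_of_ne hb.symm,
      mul_zero, mul_zero, mul_zero]
  · intro h; exact absurd (Finset.mem_univ a) h

/-! ### the kernel -/

theorem eval_FA_zero : eval (fun _ => (0 : ℂ)) (FA m) = 0 := by
  have e := AbSath.map_FF (eval (fun _ : Fin (4 + m) => (0 : ℂ))) (xx m 0) (xx m 1) (xx m 2) (xx m 3)
  unfold FA
  rw [e]
  simp [xx, FF, F0, qf, rf, sf]

theorem div_FA (k : ℕ) (p : A m) (h : Polynomial ℂ)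
    (hp : FA m ^ k * p = Polynomial.aeval (FA m) h) :
    ∃ h' : Polynomial ℂ, p = Polynomial.aeval (FA m) h' := by
  induction k generalizing h with
  | zero => exact ⟨h, by simpa using hp⟩
  | succ k ih =>
    have h1 : h = Polynomial.X * h.divX + Polynomial.C (h.coeff 0) := by
      rw [mul_comm]; exact (Polynomial.divX_mul_X_add h).symm
    have h0 : h.coeff 0 = 0 := by
      have e := congrArg (eval (fun _ => (0 : ℂ))) hp
      rw [h1, map_add, map_mul, map_mul, map_pow, eval_FA_zero, Polynomial.aeval_C,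
        Polynomial.aeval_X, map_add, map_mul, eval_FA_zero] at e
      simpa using e.symm
    apply ih h.divX
    have hF := FA_ne m
    apply mul_left_cancel₀ hF
    rw [← mul_assoc, ← pow_succ', hp]
    conv_lhs => rw [h1, h0]
    simp

theorem ker_iff (p : A m) : (∀ a, D m a p = 0) ↔ p ∈ Algebra.adjoin ℂ {FA m} := by
  constructor
  · intro h
    have h1 : ∀ a, pderiv a (Φ m p) = 0 := by
      intro a
      apply U_pow_cancel m (n m a)
      rw [← hD, h a, map_zero]
    have h2 := const_of_pderiv (Φ m p) h1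
    obtain ⟨k, g, hg⟩ := IsLocalization.Away.surj (Polynomial.X : Polynomial ℂ) (coeff 0 (Φ m p))
    have h3 : FA m ^ k * p = Polynomial.aeval (FA m) g := by
      apply Φ_inj m
      rw [map_mul, map_pow, Φ_FA, Φ_aeval, ← hg, h2]
      unfold U uΛ
      rw [← C_pow, ← C_mul, mul_comm]
      simp
    obtain ⟨h', hh'⟩ := div_FA m k p g h3
    rw [Algebra.adjoin_singleton_eq_range_aeval]
    exact ⟨h', hh'.symm⟩
  · intro h a
    rw [Algebra.adjoin_singleton_eq_range_aeval] at h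
    obtain ⟨g, rfl⟩ := h
    apply Φ_inj m
    change Φ m (D m a (Polynomial.aeval (FA m) g)) = _
    rw [hD, Φ_aeval, pderiv_C, mul_zero, map_zero]

/-! ### the critical point -/

theorem crit_gen {σ : Type} (p : σ → ℂ) (x y z w : MvPolynomial σ ℂ) (hx : eval p x = 2)
    (hy : eval p y = 0) (hz : eval p z = 1 / 2) (hw : eval p w = -1 / 2)
    (d : Derivation ℂ (MvPolynomial σ ℂ) (MvPolynomial σ ℂ)) : eval p (d (FF x y z w)) = 0 := by
  simp [FF, F0, qf, rf, sf, Derivation.leibniz, Derivation.leibniz_pow, d2, d3, hx, hy, hz, hw]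
  ring

noncomputable def pt : Fin (4 + m) → ℂ :=
  Fin.addCases (![2, 0, 1 / 2, -1 / 2] : Fin 4 → ℂ) (fun _ => 0)

theorem crit_FA (d : Derivation ℂ (A m) (A m)) : eval (pt m) (d (FA m)) = 0 := by
  apply crit_gen <;> simp [xx, pt]

theorem no_coordinate (g : A m) (hg : ∀ a, D m a g = 0) :
    ¬ ∃ τ : A m ≃ₐ[ℂ] A m, τ g = X (Fin.castAdd m 0) := by
  apply no_coord g (pt m)
  intro i
  have h := (ker_iff m g).1 hg
  rw [Algebra.adjoin_singleton_eq_range_aeval] at h
  obtain ⟨h', rfl⟩ := h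
  change eval (pt m) (pderiv i (Polynomial.aeval (FA m) h')) = 0
  rw [Derivation.map_aeval, smul_eq_mul, map_mul, crit_FA, mul_zero]

theorem rename_FA :
    rename (Fin.castAdd m) (FF (X 0) (X 1) (X 2) (X 3) : MvPolynomial (Fin 4) ℂ) = FA m := by
  have e := AbSath.map_FF ((rename (Fin.castAdd m) : MvPolynomial (Fin 4) ℂ →ₐ[ℂ] A m) :
    MvPolynomial (Fin 4) ℂ →+* A m) (X 0) (X 1) (X 2) (X 3)
  simp only [RingHom.coe_coe, rename_X] at e
  exact e

theorem result :
    ∃ F : MvPolynomial (Fin 4) ℂ, ∀ m : ℕ,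
      ∃ D : Fin 3 ⊕ Fin m →
          Derivation ℂ (MvPolynomial (Fin (4 + m)) ℂ) (MvPolynomial (Fin (4 + m)) ℂ),
        (∀ i : Fin m, D (Sum.inr i) = MvPolynomial.pderiv (Fin.natAdd 4 i)) ∧
        (∀ a b : Fin 3 ⊕ Fin m, ∀ p : MvPolynomial (Fin (4 + m)) ℂ, D a (D b p) = D b (D a p)) ∧
        (∀ a : Fin 3 ⊕ Fin m, ∀ p : MvPolynomial (Fin (4 + m)) ℂ, ∃ k : ℕ, (D a)^[k] p = 0) ∧
        LinearIndependent (MvPolynomial (Fin (4 + m)) ℂ) D ∧
        (∀ p : MvPolynomial (Fin (4 + m)) ℂ, (∀ a : Fin 3 ⊕ Fin m, D a p = 0) ↔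
          p ∈ Algebra.adjoin ℂ {MvPolynomial.rename (Fin.castAdd m) F}) ∧
        ∀ g : MvPolynomial (Fin (4 + m)) ℂ, (∀ a : Fin 3 ⊕ Fin m, D a g = 0) →
          ¬ ∃ τ : MvPolynomial (Fin (4 + m)) ℂ ≃ₐ[ℂ] MvPolynomial (Fin (4 + m)) ℂ,
            τ g = MvPolynomial.X (Fin.castAdd m 0) := by
  refine ⟨FF (X 0) (X 1) (X 2) (X 3), fun m => ⟨D m, fun _ => rfl, comm m, nil m, linInd m, ?_,
    no_coordinate m⟩⟩
  intro p
  rw [rename_FA]
  exact ker_iff m p

end Crest.Agent.S0410
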