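import Crest.Statements.S0423

set_option autoImplicit false
open Crest Crest.AlgGeometry

namespace Crest.Agent.S0423

open MeasureTheory Set Real

/-- the averaging operator `f ↦ E f (· + c X)`, `X` a standard exponential variable -/
noncomputable def A (c : ℝ) (f : ℝ → ℝ) (y : ℝ) : ℝ :=
  ∫ x in Ioi (0 : ℝ), f (y + c * x) * exp (-x)

lemma int_exp : IntegrableOn (fun x : ℝ => exp (-x)) (Ioi 0) := integrableOn_exp_neg_Ioi 0

lemma int_id : IntegrableOn (fun x : ℝ => x * exp (-x)) (Ioi 0) := by
  have h := Real.GammaIntegral_convergent (s := 2) (by norm_num)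
  refine h.congr_fun (fun x hx => ?_) measurableSet_Ioi
  have : (2 : ℝ) - 1 = 1 := by norm_num
  simp only [this, Real.rpow_one]; ring

lemma int_sq : IntegrableOn (fun x : ℝ => x ^ 2 * exp (-x)) (Ioi 0) := by
  have h := Real.GammaIntegral_convergent (s := 3) (by norm_num)
  refine h.congr_fun (fun x hx => ?_) measurableSet_Ioi
  have : (3 : ℝ) - 1 = (2 : ℕ) := by norm_num
  simp only [this, Real.rpow_natCast]; ring

lemma val_exp : ∫ x in Ioi (0 : ℝ), exp (-x) = 1 := integral_exp_neg_Ioi_zero

lemma val_id : ∫ x in Ioi (0 : ℝ), x * exp (-x) = 1 := by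
  have h := Real.Gamma_eq_integral (s := 2) (by norm_num)
  rw [Real.Gamma_two] at h
  rw [h]
  refine setIntegral_congr_fun measurableSet_Ioi (fun x hx => ?_)
  have : (2 : ℝ) - 1 = 1 := by norm_num
  simp only [this, Real.rpow_one]; ring

lemma val_sq : ∫ x in Ioi (0 : ℝ), x ^ 2 * exp (-x) = 2 := by
  have h := Real.Gamma_eq_integral (s := 3) (by norm_num)
  have h3 : Real.Gamma 3 = 2 := by
    rw [show (3 : ℝ) = ((2 : ℕ) : ℝ) + 1 by norm_num, Real.Gamma_nat_eq_factorial]
    norm_num [Nat.factorial]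
  rw [h3] at h
  rw [h]
  refine setIntegral_congr_fun measurableSet_Ioi (fun x hx => ?_)
  have : (3 : ℝ) - 1 = (2 : ℕ) := by norm_num
  simp only [this, Real.rpow_natCast]; ring

/-- 1-Lipschitz functions on the line -/
def Lip (f : ℝ → ℝ) : Prop := ∀ x y, |f x - f y| ≤ |x - y|

lemma Lip.continuous {f : ℝ → ℝ} (hf : Lip f) : Continuous f := by
  have : LipschitzWith 1 f := by
    refine LipschitzWith.of_dist_le_mul (fun x y => ?_)
    simpa [Real.dist_eq] using hf x y
  exact this.continuous

lemma Lip.bound {f : ℝ → ℝ} (hf : Lip f) (y h : ℝ) : |f (y + h)| ≤ |f y| + |h| := by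
  have := hf (y + h) y
  have h2 : y + h - y = h := by ring
  rw [h2] at this
  have h3 : |f (y + h)| = |f y + (f (y + h) - f y)| := by ring_nf
  rw [h3]
  exact (abs_add_le _ _).trans (by linarith)

lemma Lip.int {f : ℝ → ℝ} (hf : Lip f) (y c : ℝ) :
    IntegrableOn (fun x => f (y + c * x) * exp (-x)) (Ioi 0) := by
  have hb : IntegrableOn (fun x : ℝ => |f y| * exp (-x) + |c| * (x * exp (-x))) (Ioi 0) :=
    (int_exp.const_mul _).add (int_id.const_mul _)
  refine Integrable.mono' hb ?_ ?_
  · exact ((hf.continuous.comp (by fun_prop)).mul (by fun_prop)).aestronglyMeasurable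
  · refine (ae_restrict_mem measurableSet_Ioi).mono (fun x hx => ?_)
    have hx : 0 < x := hx
    rw [norm_mul, Real.norm_eq_abs, Real.norm_eq_abs, abs_of_pos (exp_pos _)]
    have := hf.bound y (c * x)
    rw [abs_mul, abs_of_pos hx] at this
    nlinarith [exp_pos (-x)]

lemma Lip.A {f : ℝ → ℝ} (hf : Lip f) (c : ℝ) : Lip (A c f) := by
  intro x y
  unfold S0423.A
  rw [← integral_sub (hf.int x c) (hf.int y c)]
  have h1 : ‖∫ s in Ioi (0 : ℝ), (f (x + c * s) * exp (-s) - f (y + c * s) * exp (-s))‖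
      ≤ ∫ s in Ioi (0 : ℝ), |x - y| * exp (-s) := by
    refine norm_integral_le_of_norm_le (int_exp.const_mul _) ?_
    refine Filter.Eventually.of_forall (fun s => ?_)
    rw [← sub_mul, norm_mul, Real.norm_eq_abs, Real.norm_eq_abs, abs_of_pos (exp_pos _)]
    have := hf (x + c * s) (y + c * s)
    rw [show x + c * s - (y + c * s) = x - y by ring] at this
    exact mul_le_mul_of_nonneg_right this (exp_pos _).le
  rw [integral_const_mul, val_exp, mul_one] at h1
  exact h1

/-- the class of nonnegative nondecreasing 1-Lipschitz log-concave functions -/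
structure Good (f : ℝ → ℝ) : Prop where
  nonneg : ∀ x, 0 ≤ f x
  mono : Monotone f
  lip : Lip f
  pf2 : ∀ x y d, x ≤ y → 0 ≤ d → f x * f (y + d) ≤ f (x + d) * f y

lemma A_nonneg {f : ℝ → ℝ} (hf : ∀ x, 0 ≤ f x) (c y : ℝ) : 0 ≤ A c f y :=
  setIntegral_nonneg measurableSet_Ioi (fun x _ => mul_nonneg (hf _) (exp_pos _).le)

lemma A_mono {f g : ℝ → ℝ} (c y z : ℝ)
    (hf : IntegrableOn (fun x => f (y + c * x) * exp (-x)) (Ioi 0))
    (hg : IntegrableOn (fun x => g (z + c * x) * exp (-x)) (Ioi 0))
    (h : ∀ x, 0 < x → f (y + c * x) ≤ g (z + c * x)) : A c f y ≤ A c g z :=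
  setIntegral_mono_on hf hg measurableSet_Ioi
    (fun x hx => mul_le_mul_of_nonneg_right (h x hx) (exp_pos _).le)

lemma shift_Ioi (g : ℝ → ℝ) (a b : ℝ) :
    ∫ x in Ioi a, g (x + b) = ∫ x in Ioi (a + b), g x := by
  have h := (measurePreserving_add_right (volume : Measure ℝ) b).setIntegral_preimage_emb
    (measurableEmbedding_addRight b) g (Ioi (a + b))
  rw [← h]
  congr 2
  ext x; simp

/-- splitting of the integral -/
lemma A_split {f : ℝ → ℝ} (hf : Lip f) (a x h : ℝ) (h0 : 0 ≤ h) :
    A a f x = (∫ s in Ioc (0 : ℝ) h, f (x + a * s) * exp (-s))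
      + exp (-h) * A a f (x + a * h) := by
  unfold A
  rw [← Ioc_union_Ioi_eq_Ioi h0, setIntegral_union (Ioc_disjoint_Ioi le_rfl) measurableSet_Ioi
    ((hf.int x a).mono_set Ioc_subset_Ioi_self)
    ((hf.int x a).mono_set (Ioi_subset_Ioi h0)), Ioc_union_Ioi_eq_Ioi h0]
  congr 1
  rw [← integral_const_mul]
  have := shift_Ioi (fun s => f (x + a * s) * exp (-s)) 0 h
  rw [zero_add] at this
  rw [← this]
  refine setIntegral_congr_fun measurableSet_Ioi (fun s _ => ?_)
  rw [show x + a * (s + h) = x + a * h + a * s by ring, neg_add, exp_add]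
  ring

/-- key step of PF2 preservation for nonnegative shift -/
lemma pf2_pos {f : ℝ → ℝ} (hf : Good f) {a : ℝ} (ha : 0 < a) (x y d : ℝ) (hxy : x ≤ y)
    (hd : 0 ≤ d) : A a f x * A a f (y + d) ≤ A a f (x + d) * A a f y := by
  set h := (y - x) / a with hh
  have h0 : 0 ≤ h := div_nonneg (by linarith) ha.le
  have hah : a * h = y - x := by rw [hh]; field_simp
  have e1 := A_split hf.lip a x h h0
  have e2 := A_split hf.lip a (x + d) h h0
  rw [hah, show x + (y - x) = y by ring] at e1
  rw [hah, show x + d + (y - x) = y + d by ring] at e2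
  rw [e1, e2, add_mul, add_mul]
  have key : (∫ s in Ioc (0 : ℝ) h, f (x + a * s) * exp (-s)) * A a f (y + d)
      ≤ (∫ s in Ioc (0 : ℝ) h, f (x + d + a * s) * exp (-s)) * A a f y := by
    rw [← integral_mul_const, ← integral_mul_const]
    refine setIntegral_mono_on
      (((hf.lip.int x a).mono_set Ioc_subset_Ioi_self).mul_const _)
      (((hf.lip.int (x + d) a).mono_set Ioc_subset_Ioi_self).mul_const _) measurableSet_Ioc ?_
    intro s hs
    have : f (x + a * s) * A a f (y + d) ≤ f (x + d + a * s) * A a f y := by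
      unfold A
      rw [← integral_const_mul, ← integral_const_mul]
      refine setIntegral_mono_on ((hf.lip.int (y + d) a).const_mul _)
        ((hf.lip.int y a).const_mul _) measurableSet_Ioi ?_
      intro r hr
      have hr : 0 < r := hr
      have hle : x + a * s ≤ y + a * r := by
        have : a * s ≤ a * h := mul_le_mul_of_nonneg_left hs.2 ha.le
        nlinarith [mul_pos ha hr]
      have := hf.pf2 (x + a * s) (y + a * r) d hle hd
      rw [show y + a * r + d = y + d + a * r by ring, show x + a * s + d = x + d + a * s by ring]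
        at this
      nlinarith [exp_pos (-r)]
    nlinarith [exp_pos (-s)]
  nlinarith [key]

lemma pf2_neg {f : ℝ → ℝ} (hf : Good f) {a : ℝ} (ha : a < 0) (x y d : ℝ) (hxy : x ≤ y)
    (hd : 0 ≤ d) : A a f x * A a f (y + d) ≤ A a f (x + d) * A a f y := by
  set h := (x - y) / a with hh
  have h0 : 0 ≤ h := div_nonneg_of_nonpos (by linarith) ha.le
  have hah : a * h = x - y := by
    have := ha.ne
    rw [hh]; field_simp
  have e1 := A_split hf.lip a (y + d) h h0
  have e2 := A_split hf.lip a y h h0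
  rw [hah, show y + (x - y) = x by ring] at e2
  rw [hah, show y + d + (x - y) = x + d by ring] at e1
  rw [e1, e2, mul_add, mul_add]
  have key : A a f x * (∫ s in Ioc (0 : ℝ) h, f (y + d + a * s) * exp (-s))
      ≤ A a f (x + d) * (∫ s in Ioc (0 : ℝ) h, f (y + a * s) * exp (-s)) := by
    rw [← integral_const_mul, ← integral_const_mul]
    refine setIntegral_mono_on
      (((hf.lip.int (y + d) a).mono_set Ioc_subset_Ioi_self).const_mul _)
      (((hf.lip.int y a).mono_set Ioc_subset_Ioi_self).const_mul _) measurableSet_Ioc ?_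
    intro s hs
    have : A a f x * f (y + d + a * s) ≤ A a f (x + d) * f (y + a * s) := by
      unfold A
      rw [← integral_mul_const, ← integral_mul_const]
      refine setIntegral_mono_on ((hf.lip.int x a).mul_const _)
        ((hf.lip.int (x + d) a).mul_const _) measurableSet_Ioi ?_
      intro r hr
      have hr : 0 < r := hr
      have hle : x + a * r ≤ y + a * s := by
        have : a * h ≤ a * s := mul_le_mul_of_nonpos_left hs.2 ha.le
        nlinarith [mul_neg_of_neg_of_pos ha hr]
      have := hf.pf2 (x + a * r) (y + a * s) d hle hd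
      rw [show y + a * s + d = y + d + a * s by ring, show x + a * r + d = x + d + a * r by ring]
        at this
      nlinarith [exp_pos (-r)]
    nlinarith [exp_pos (-s)]
  nlinarith [key]

lemma A_zero (f : ℝ → ℝ) : A 0 f = f := by
  funext y
  unfold A
  simp only [zero_mul, add_zero]
  rw [integral_const_mul, val_exp, mul_one]

lemma Good.A {f : ℝ → ℝ} (hf : Good f) (c : ℝ) : Good (A c f) where
  nonneg := A_nonneg hf.nonneg c
  mono := by
    intro x y hxy
    exact A_mono c x y (hf.lip.int x c) (hf.lip.int y c) (fun s _ => hf.mono (by linarith))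
  lip := hf.lip.A c
  pf2 := by
    intro x y d hxy hd
    rcases lt_trichotomy c 0 with h | h | h
    · exact pf2_neg hf h x y d hxy hd
    · subst h; rw [A_zero]; exact hf.pf2 x y d hxy hd
    · exact pf2_pos hf h x y d hxy hd

/-- the positive part -/
noncomputable def pos (y : ℝ) : ℝ := max y 0

lemma good_pos : Good pos where
  nonneg := fun _ => le_max_right _ _
  mono := fun x y h => max_le_max h le_rfl
  lip := fun x y => abs_max_sub_max_le_abs x y 0
  pf2 := by
    intro x y d hxy hd
    unfold pos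
    rcases le_total x 0 with h | h
    · rw [max_eq_right h, zero_mul]; positivity
    · rw [max_eq_left h, max_eq_left (by linarith), max_eq_left (by linarith),
        max_eq_left (by linarith)]
      nlinarith

lemma A_ge {f : ℝ → ℝ} (hf : Lip f) (m : ℝ) (h : ∀ y, y + m ≤ f y) (c y : ℝ) :
    y + (c + m) ≤ A c f y := by
  have e : ∫ x in Ioi (0 : ℝ), ((y + m) * exp (-x) + c * (x * exp (-x))) = y + (c + m) := by
    rw [integral_add (int_exp.const_mul _) (int_id.const_mul _), integral_const_mul,
      integral_const_mul, val_exp, val_id]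
    ring
  rw [← e]
  unfold A
  refine setIntegral_mono_on ((int_exp.const_mul _).add (int_id.const_mul _)) (hf.int y c)
    measurableSet_Ioi ?_
  intro x _
  have := h (y + c * x)
  nlinarith [exp_pos (-x)]

/-- iterated averaging -/
noncomputable def H : List ℝ → (ℝ → ℝ) → (ℝ → ℝ)
  | [], f => f
  | c :: l, f => A c (H l f)

lemma Good.H {f : ℝ → ℝ} (hf : Good f) (l : List ℝ) : Good (H l f) := by
  induction l with
  | nil => exact hf
  | cons c l ih => exact ih.A c

lemma H_ge (l : List ℝ) (y : ℝ) : y + l.sum ≤ H l pos y := by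
  induction l generalizing y with
  | nil => simp [H, pos]
  | cons c l ih =>
    rw [List.sum_cons]
    exact A_ge (good_pos.H l).lip l.sum ih c y

lemma concave_core (φ : ℝ → ℝ) (a b : ℝ) (hφ : ContinuousOn φ (Icc a b)) (ha : φ a = 0)
    (hb : φ b = 0) (hm : ∀ x h, 0 ≤ h → a ≤ x - h → x + h ≤ b → φ (x - h) + φ (x + h) ≤ 2 * φ x)
    (c : ℝ) (hc : c ∈ Icc a b) : 0 ≤ φ c := by
  by_contra hneg
  push Not at hneg
  obtain ⟨x0, hx0, hmin⟩ := isCompact_Icc.exists_isMinOn ⟨c, hc⟩ hφ
  have hx0c : φ x0 ≤ φ c := hmin hc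
  have hcomp : IsCompact (Icc a b ∩ φ ⁻¹' {φ x0}) :=
    isCompact_Icc.of_isClosed_subset
      (hφ.preimage_isClosed_of_isClosed isClosed_Icc isClosed_singleton) inter_subset_left
  obtain ⟨z, ⟨hz1, hz2⟩, hz3⟩ := hcomp.exists_isLeast ⟨x0, hx0, rfl⟩
  have hz2 : φ z = φ x0 := hz2
  have hza : a < z := by
    rcases hz1.1.lt_or_eq with h | h
    · exact h
    · rw [← h, ha] at hz2; linarith
  have hzb : z < b := by
    rcases hz1.2.lt_or_eq with h | h
    · exact h
    · rw [h, hb] at hz2; linarith
  set h := min (z - a) (b - z) with hh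
  have h0 : 0 < h := lt_min (by linarith) (by linarith)
  have h1 : h ≤ z - a := min_le_left _ _
  have h2 : h ≤ b - z := min_le_right _ _
  have e1 := hm z h h0.le (by linarith) (by linarith)
  have m1 : z - h ∈ Icc a b := ⟨by linarith, by linarith⟩
  have m2 : z + h ∈ Icc a b := ⟨by linarith, by linarith⟩
  have e2 : φ x0 ≤ φ (z + h) := hmin m2
  have e3 : φ x0 ≤ φ (z - h) := hmin m1
  have e4 : φ x0 ≠ φ (z - h) := by
    intro he
    have := hz3 ⟨m1, he.symm⟩
    linarith
  have e5 := lt_of_le_of_ne e3 e4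
  linarith

lemma three_point {T : ℝ → ℝ} (hT : Good T) {a c b : ℝ} (ha : 0 < T a) (hac : a < c) (hcb : c < b) :
    (b - c) * log (T a) + (c - a) * log (T b) ≤ (b - a) * log (T c) := by
  have hpos : ∀ x, a ≤ x → 0 < T x := fun x hx => lt_of_lt_of_le ha (hT.mono hx)
  set φ : ℝ → ℝ := fun x => (b - a) * log (T x) - ((b - x) * log (T a) + (x - a) * log (T b)) with hφ
  have h1 : ContinuousOn φ (Icc a b) := by
    refine ContinuousOn.sub (ContinuousOn.mul continuousOn_const ?_) (by fun_prop)
    exact ContinuousOn.log hT.lip.continuous.continuousOn (fun x hx => (hpos x hx.1).ne')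
  have h2 := concave_core φ a b h1 (by simp [hφ]) (by simp [hφ]) ?_ c ⟨hac.le, hcb.le⟩
  · simp only [hφ] at h2; linarith
  · intro x h h0 hx hxb
    have hp := hT.pf2 (x - h) x h (by linarith) h0
    rw [sub_add_cancel] at hp
    have p1 := hpos (x - h) hx
    have p2 := hpos x (by linarith)
    have p3 := hpos (x + h) (by linarith)
    have hl := Real.log_le_log (by positivity) hp
    rw [Real.log_mul p1.ne' p3.ne', Real.log_mul p2.ne' p2.ne'] at hl
    simp only [hφ]
    nlinarith [mul_le_mul_of_nonneg_left hl (show 0 ≤ b - a by linarith)]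

lemma int_weight {T : ℝ → ℝ} (hT : Lip T) (y : ℝ) :
    IntegrableOn (fun s => (1 - s) * exp (-s) * T (y - s)) (Ioi 0) := by
  have hb : IntegrableOn (fun x : ℝ => |T y| * exp (-x) + (1 + |T y|) * (x * exp (-x))
      + 1 * (x ^ 2 * exp (-x))) (Ioi 0) :=
    ((int_exp.const_mul _).add (int_id.const_mul _)).add (int_sq.const_mul _)
  refine Integrable.mono' hb ?_ ?_
  · exact (((by fun_prop : Continuous fun s : ℝ => (1 - s) * exp (-s))).mul
      (hT.continuous.comp (by fun_prop))).aestronglyMeasurable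
  · refine (ae_restrict_mem measurableSet_Ioi).mono (fun x hx => ?_)
    have hx : 0 < x := hx
    rw [norm_mul, norm_mul, Real.norm_eq_abs, Real.norm_eq_abs, Real.norm_eq_abs,
      abs_of_pos (exp_pos _)]
    have h1 : |1 - x| ≤ 1 + x := by rw [abs_le]; constructor <;> linarith
    have h2 := hT.bound y (-x)
    rw [abs_neg, abs_of_pos hx, ← sub_eq_add_neg] at h2
    have h3 : |1 - x| * |T (y - x)| ≤ (1 + x) * (|T y| + x) :=
      mul_le_mul h1 h2 (abs_nonneg _) (by positivity)
    nlinarith [mul_le_mul_of_nonneg_right h3 (exp_pos (-x)).le]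

lemma int_exp_weight (σ : ℝ) (hσ : 0 ≤ σ) :
    IntegrableOn (fun s => (1 - s) * exp (-s) * exp (-(σ * s))) (Ioi 0) := by
  refine Integrable.mono' (int_exp.add int_id) ?_ ?_
  · exact Continuous.aestronglyMeasurable (by fun_prop)
  · refine (ae_restrict_mem measurableSet_Ioi).mono (fun x hx => ?_)
    have hx : 0 < x := hx
    rw [norm_mul, norm_mul, Real.norm_eq_abs, Real.norm_eq_abs, Real.norm_eq_abs,
      abs_of_pos (exp_pos _), abs_of_pos (exp_pos _)]
    have h1 : |1 - x| ≤ 1 + x := by rw [abs_le]; constructor <;> linarith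
    have h2 : exp (-(σ * x)) ≤ 1 := by
      rw [Real.exp_le_one_iff]; nlinarith
    have h3 := exp_pos (-x)
    calc |1 - x| * exp (-x) * exp (-(σ * x)) ≤ |1 - x| * exp (-x) * 1 :=
          mul_le_mul_of_nonneg_left h2 (by positivity)
      _ ≤ (1 + x) * exp (-x) := by rw [mul_one]; exact mul_le_mul_of_nonneg_right h1 h3.le
      _ = exp (-x) + x * exp (-x) := by ring

lemma val_exp_weight (σ : ℝ) (hσ : 0 ≤ σ) :
    ∫ s in Ioi (0 : ℝ), (1 - s) * exp (-s) * exp (-(σ * s)) = σ / (1 + σ) ^ 2 := by
  have h1 : 0 < 1 + σ := by linarith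
  have e := integral_comp_mul_left_Ioi (fun u => exp (-u)) 0 h1
  have e2 := integral_comp_mul_left_Ioi (fun u => u * exp (-u)) 0 h1
  rw [mul_zero, val_exp] at e
  rw [mul_zero, val_id] at e2
  have i1 : IntegrableOn (fun s : ℝ => exp (-((1 + σ) * s))) (Ioi 0) := by
    refine Integrable.mono' int_exp (Continuous.aestronglyMeasurable (by fun_prop)) ?_
    refine (ae_restrict_mem measurableSet_Ioi).mono (fun x hx => ?_)
    have hx : 0 < x := hx
    rw [Real.norm_eq_abs, abs_of_pos (exp_pos _), Real.exp_le_exp]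
    nlinarith
  have i2 : IntegrableOn (fun s : ℝ => (1 + σ) * s * exp (-((1 + σ) * s))) (Ioi 0) := by
    refine Integrable.mono' (int_id.const_mul (1 + σ))
      (Continuous.aestronglyMeasurable (by fun_prop)) ?_
    refine (ae_restrict_mem measurableSet_Ioi).mono (fun x hx => ?_)
    have hx : 0 < x := hx
    rw [Real.norm_eq_abs, abs_of_pos (by positivity), mul_assoc]
    refine mul_le_mul_of_nonneg_left (mul_le_mul_of_nonneg_left ?_ hx.le) h1.le
    rw [Real.exp_le_exp]
    nlinarith
  have e3 : ∀ s : ℝ, (1 - s) * exp (-s) * exp (-(σ * s))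
      = exp (-((1 + σ) * s)) - (1 + σ)⁻¹ * ((1 + σ) * s * exp (-((1 + σ) * s))) := by
    intro s
    rw [show -((1 + σ) * s) = -s + -(σ * s) by ring, exp_add]
    field_simp
  simp_rw [e3]
  rw [integral_sub i1 (i2.const_mul _), integral_const_mul, e, e2]
  simp only [smul_eq_mul, mul_one]
  field_simp
  ring

lemma main_ineq {T : ℝ → ℝ} (hT : Good T) (hge : ∀ y, y ≤ T y) :
    4 / 9 * exp (-(1 / 3)) ≤ ∫ s in Ioi (0 : ℝ), (1 - s) * exp (-s) * T (4 / 3 - s) := by
  have hT3 : 0 < T (1 / 3) := lt_of_lt_of_le (by norm_num) (hge (1 / 3))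
  have hT4 : 0 < T (4 / 3) := lt_of_lt_of_le (by norm_num) (hge (4 / 3))
  have hmono : T (1 / 3) ≤ T (4 / 3) := hT.mono (by norm_num)
  set σ := log (T (4 / 3)) - log (T (1 / 3)) with hσ
  have hσ0 : 0 ≤ σ := sub_nonneg.2 (Real.log_le_log hT3 hmono)
  -- pointwise comparison
  have hcmp : ∀ s ∈ Ioi (0 : ℝ), (1 - s) * exp (-s) * exp (-(σ * s)) * T (4 / 3)
      ≤ (1 - s) * exp (-s) * T (4 / 3 - s) := by
    intro s hs
    have hs : 0 < s := hs
    have he : exp (-(σ * s)) * T (4 / 3) = exp (log (T (4 / 3)) - σ * s) := by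
      rw [exp_sub, exp_log hT4, exp_neg]; field_simp
    have key : (1 - s) * (exp (-(σ * s)) * T (4 / 3)) ≤ (1 - s) * T (4 / 3 - s) := by
      rw [he]
      rcases lt_trichotomy s 1 with h | h | h
      · refine mul_le_mul_of_nonneg_left ?_ (by linarith)
        have h3 := three_point hT hT3 (show (1 / 3 : ℝ) < 4 / 3 - s by linarith)
          (show 4 / 3 - s < (4 / 3 : ℝ) by linarith)
        have hp : 0 < T (4 / 3 - s) := lt_of_lt_of_le hT3 (hT.mono (by linarith))
        rw [← Real.exp_log hp, Real.exp_le_exp, hσ]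
        nlinarith
      · subst h; simp
      · refine mul_le_mul_of_nonpos_left ?_ (by linarith)
        rcases (hT.nonneg (4 / 3 - s)).lt_or_eq with hp | hp
        · have h3 := three_point hT hp (show 4 / 3 - s < (1 / 3 : ℝ) by linarith)
            (show (1 / 3 : ℝ) < 4 / 3 by norm_num)
          rw [← Real.exp_log hp, Real.exp_le_exp, hσ]
          nlinarith
        · rw [← hp]; positivity
    have := mul_le_mul_of_nonneg_right key (exp_pos (-s)).le
    nlinarith
  have hint : T (4 / 3) * (σ / (1 + σ) ^ 2)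
      ≤ ∫ s in Ioi (0 : ℝ), (1 - s) * exp (-s) * T (4 / 3 - s) := by
    rw [← val_exp_weight σ hσ0, mul_comm, ← integral_mul_const]
    exact setIntegral_mono_on ((int_exp_weight σ hσ0).mul_const _) (int_weight hT.lip _)
      measurableSet_Ioi hcmp
  refine le_trans ?_ hint
  -- growth bound beyond 4/3
  have hgrow : ∀ u, 0 ≤ u → 4 / 3 + u ≤ exp (log (T (4 / 3)) + σ * u) := by
    intro u hu
    rcases hu.lt_or_eq with hu | hu
    · have h3 := three_point hT hT3 (show (1 / 3 : ℝ) < 4 / 3 by norm_num)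
        (show (4 / 3 : ℝ) < 4 / 3 + u by linarith)
      have hp : 0 < T (4 / 3 + u) := lt_of_lt_of_le hT3 (hT.mono (by linarith))
      refine (hge _).trans ?_
      rw [← Real.exp_log hp, Real.exp_le_exp, hσ]
      nlinarith
    · subst hu
      simp only [mul_zero, add_zero]
      rw [Real.exp_log hT4]
      exact hge _
  have hσpos : 0 < σ := by
    rcases hσ0.lt_or_eq with h | h
    · exact h
    · exfalso
      have := hgrow (T (4 / 3)) hT4.le
      rw [← h, zero_mul, add_zero, Real.exp_log hT4] at this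
      linarith
  rw [← mul_div_assoc, le_div_iff₀ (by positivity)]
  rcases le_total σ (3 / 4) with hc | hc
  · -- small slope
    have hu : 0 ≤ 1 / σ - 4 / 3 := by
      rw [sub_nonneg, le_div_iff₀ hσpos]; linarith
    have h1 := hgrow _ hu
    have h2 : log (T (4 / 3)) + σ * (1 / σ - 4 / 3) = log (T (4 / 3)) + (1 - 4 / 3 * σ) := by
      field_simp
    rw [h2, exp_add, Real.exp_log hT4, add_sub_cancel, div_le_iff₀ hσpos] at h1
    have h3 : exp (4 / 3 * σ - 1) ≤ T (4 / 3) * σ := by
      have h4 : exp (4 / 3 * σ - 1) * exp (1 - 4 / 3 * σ) = 1 := by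
        rw [← exp_add]; simp
      have h5 := mul_le_mul_of_nonneg_left h1 (exp_pos (4 / 3 * σ - 1)).le
      calc exp (4 / 3 * σ - 1) = exp (4 / 3 * σ - 1) * 1 := (mul_one _).symm
        _ ≤ exp (4 / 3 * σ - 1) * (T (4 / 3) * exp (1 - 4 / 3 * σ) * σ) := h5
        _ = (exp (4 / 3 * σ - 1) * exp (1 - 4 / 3 * σ)) * (T (4 / 3) * σ) := by ring
        _ = T (4 / 3) * σ := by rw [h4, one_mul]
    refine le_trans ?_ h3
    have h6 := Real.add_one_le_exp (2 / 3 * σ - 1 / 3)
    have h7 : (2 / 3 * (1 + σ)) ^ 2 ≤ exp (2 / 3 * σ - 1 / 3) ^ 2 :=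
      pow_le_pow_left₀ (by positivity) (by linarith) 2
    have h8 : exp (4 / 3 * σ - 1) = exp (-(1 / 3)) * exp (2 / 3 * σ - 1 / 3) ^ 2 := by
      rw [← exp_nat_mul, ← exp_add]; congr 1; push_cast; ring
    rw [h8]
    calc 4 / 9 * exp (-(1 / 3)) * (1 + σ) ^ 2 = exp (-(1 / 3)) * (2 / 3 * (1 + σ)) ^ 2 := by ring
      _ ≤ _ := mul_le_mul_of_nonneg_left h7 (exp_pos _).le
  · -- large slope
    have h1 : T (4 / 3) ≤ T (1 / 3) + 1 := by
      have := hT.lip (4 / 3) (1 / 3)
      have h2 := le_abs_self (T (4 / 3) - T (1 / 3))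
      have h3 : |(4 / 3 : ℝ) - 1 / 3| = 1 := by norm_num
      linarith
    have h2 : T (4 / 3) ≤ 4 * T (1 / 3) := by have := hge (1 / 3); linarith
    have h3 : σ ≤ 3 / 2 := by
      have := Real.log_le_log hT4 h2
      rw [Real.log_mul (by norm_num) hT3.ne', show (4 : ℝ) = 2 ^ 2 by norm_num, Real.log_pow] at this
      have := Real.log_two_lt_d9
      push_cast at *
      linarith
    have h4 : exp (-(1 / 3)) ≤ 18 / 25 := by
      have := Real.quadratic_le_exp_of_nonneg (show (0 : ℝ) ≤ 1 / 3 by norm_num)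
      rw [exp_neg, inv_le_comm₀ (exp_pos _) (by norm_num)]
      linarith
    have h5 := hge (4 / 3)
    have h6 : 0 < (1 + σ) ^ 2 := by positivity
    have h7 : 4 / 9 * exp (-(1 / 3)) * (1 + σ) ^ 2 ≤ 4 / 9 * (18 / 25) * (1 + σ) ^ 2 := by
      gcongr
    have h8 : 4 / 9 * (18 / 25) * (1 + σ) ^ 2 ≤ 4 / 3 * σ := by
      nlinarith
    have h9 : 4 / 3 * σ ≤ T (4 / 3) * σ := mul_le_mul_of_nonneg_right h5 hσpos.le
    linarith

/-- `B f (y) = 1 - ∫ (1-s) e^{-s} f(y-s) ds` -/
noncomputable def B (f : ℝ → ℝ) (y : ℝ) : ℝ :=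
  1 - ∫ s in Ioi (0 : ℝ), (1 - s) * exp (-s) * f (y - s)

lemma fubini_int {f : ℝ → ℝ} (hf : Lip f) (c y : ℝ) :
    Integrable (Function.uncurry fun x s : ℝ => (1 - s) * exp (-s) * f (y + c * x - s) * exp (-x))
      ((volume.restrict (Ioi (0 : ℝ))).prod (volume.restrict (Ioi (0 : ℝ)))) := by
  have i1 : Integrable (fun z : ℝ × ℝ => exp (-z.1) *
      ((|f y|) * exp (-z.2) + (1 + |f y|) * (z.2 * exp (-z.2)) + 1 * (z.2 ^ 2 * exp (-z.2))))
      ((volume.restrict (Ioi (0 : ℝ))).prod (volume.restrict (Ioi (0 : ℝ)))) :=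
    Integrable.mul_prod int_exp
      (((int_exp.const_mul _).add (int_id.const_mul _)).add (int_sq.const_mul _))
  have i2 : Integrable (fun z : ℝ × ℝ => (|c| * (z.1 * exp (-z.1))) *
      (exp (-z.2) + z.2 * exp (-z.2)))
      ((volume.restrict (Ioi (0 : ℝ))).prod (volume.restrict (Ioi (0 : ℝ)))) :=
    Integrable.mul_prod (int_id.const_mul _) (int_exp.add int_id)
  refine Integrable.mono' (i1.add i2) ?_ ?_
  · refine Continuous.aestronglyMeasurable ?_
    have := hf.continuous
    unfold Function.uncurry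
    fun_prop
  · rw [Measure.prod_restrict]
    refine (ae_restrict_mem (measurableSet_Ioi.prod measurableSet_Ioi)).mono (fun z hz => ?_)
    obtain ⟨hx, hs⟩ := hz
    have hx : 0 < z.1 := hx
    have hs : 0 < z.2 := hs
    simp only [Function.uncurry, Pi.add_apply]
    rw [norm_mul, norm_mul, norm_mul, Real.norm_eq_abs, Real.norm_eq_abs, Real.norm_eq_abs,
      Real.norm_eq_abs, abs_of_pos (exp_pos _), abs_of_pos (exp_pos _)]
    have h1 : |1 - z.2| ≤ 1 + z.2 := by rw [abs_le]; constructor <;> linarith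
    have h2 := hf.bound y (c * z.1 - z.2)
    have h3 : |c * z.1 - z.2| ≤ |c| * z.1 + z.2 := by
      refine (abs_sub _ _).trans ?_
      rw [abs_mul, abs_of_pos hx, abs_of_pos hs]
    rw [show y + (c * z.1 - z.2) = y + c * z.1 - z.2 by ring] at h2
    have h4 : |1 - z.2| * |f (y + c * z.1 - z.2)| ≤ (1 + z.2) * (|f y| + (|c| * z.1 + z.2)) :=
      mul_le_mul h1 (by linarith) (abs_nonneg _) (by positivity)
    have h5 : 0 < exp (-z.1) * exp (-z.2) := by positivity
    have h6 := mul_le_mul_of_nonneg_right h4 h5.le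
    calc |1 - z.2| * exp (-z.2) * |f (y + c * z.1 - z.2)| * exp (-z.1)
        = |1 - z.2| * |f (y + c * z.1 - z.2)| * (exp (-z.1) * exp (-z.2)) := by ring
      _ ≤ (1 + z.2) * (|f y| + (|c| * z.1 + z.2)) * (exp (-z.1) * exp (-z.2)) := h6
      _ = _ := by ring

lemma A_B {f : ℝ → ℝ} (hf : Lip f) (c : ℝ) : A c (B f) = B (A c f) := by
  funext y
  unfold B A
  have hF := fubini_int hf c y
  have i1 : IntegrableOn (fun x : ℝ => (∫ s in Ioi (0 : ℝ),
      (1 - s) * exp (-s) * f (y + c * x - s)) * exp (-x)) (Ioi 0) := by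
    have := hF.integral_prod_left
    refine this.congr (Filter.Eventually.of_forall (fun x => ?_))
    simp only [Function.uncurry]
    rw [integral_mul_const]
  have e1 : ∫ x in Ioi (0 : ℝ), (1 - ∫ s in Ioi (0 : ℝ),
      (1 - s) * exp (-s) * f (y + c * x - s)) * exp (-x)
      = 1 - ∫ x in Ioi (0 : ℝ), (∫ s in Ioi (0 : ℝ),
      (1 - s) * exp (-s) * f (y + c * x - s)) * exp (-x) := by
    simp_rw [sub_mul, one_mul]
    simp_rw [sub_mul, one_mul] at i1
    rw [integral_sub int_exp i1, val_exp]
  rw [e1]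
  congr 1
  have sw := integral_integral_swap hF
  simp_rw [integral_mul_const] at sw
  rw [sw]
  refine setIntegral_congr_fun measurableSet_Ioi (fun s _ => ?_)
  rw [← integral_const_mul]
  refine setIntegral_congr_fun measurableSet_Ioi (fun x _ => ?_)
  rw [show y - s + c * x = y + c * x - s by ring]
  ring

lemma H_B {f : ℝ → ℝ} (hf : Good f) (l : List ℝ) : H l (B f) = B (H l f) := by
  induction l with
  | nil => rfl
  | cons c l ih =>
    show A c (H l (B f)) = B (A c (H l f))
    rw [ih, A_B (hf.H l).lip]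

lemma weight_eq : truncExpWeight = B pos := by
  funext y
  unfold truncExpWeight B pos
  split_ifs with hy
  · have : ∫ s in Ioi (0 : ℝ), (1 - s) * exp (-s) * max (y - s) 0 = 0 := by
      rw [setIntegral_congr_fun (g := fun _ => (0 : ℝ)) measurableSet_Ioi]
      · simp
      · intro s hs
        have hs : 0 < s := hs
        simp only
        rw [max_eq_right (by linarith), mul_zero]
    rw [this, sub_zero]
  · push Not at hy
    have e1 : ∫ s in Ioi (0 : ℝ), (1 - s) * exp (-s) * max (y - s) 0
        = ∫ s in Ioc (0 : ℝ) y, (1 - s) * exp (-s) * max (y - s) 0 := by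
      refine (setIntegral_eq_of_subset_of_forall_sdiff_eq_zero measurableSet_Ioi
        Ioc_subset_Ioi_self ?_)
      intro s hs
      have h1 : 0 < s := hs.1
      have h2 : y < s := by
        by_contra h
        exact hs.2 ⟨h1, not_lt.1 h⟩
      rw [max_eq_right (by linarith), mul_zero]
    have e2 : ∫ s in Ioc (0 : ℝ) y, (1 - s) * exp (-s) * max (y - s) 0
        = ∫ s in (0 : ℝ)..y, (1 - s) * exp (-s) * (y - s) := by
      rw [intervalIntegral.integral_of_le hy.le]
      refine setIntegral_congr_fun measurableSet_Ioc (fun s hs => ?_)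
      rw [max_eq_left (by linarith [hs.2])]
    have e3 : ∫ s in (0 : ℝ)..y, (1 - s) * exp (-s) * (y - s)
        = -(y ^ 2 + (1 - y) * y + 1) * exp (-y) - -(0 ^ 2 + (1 - y) * 0 + 1) * exp (-0) := by
      refine intervalIntegral.integral_eq_sub_of_hasDerivAt
        (f := fun s => -(s ^ 2 + (1 - y) * s + 1) * exp (-s)) ?_ ?_
      · intro s _
        have h1 : HasDerivAt (fun s : ℝ => -(s ^ 2 + (1 - y) * s + 1)) (-(2 * s + (1 - y))) s := by
          have := (((hasDerivAt_pow 2 s).add ((hasDerivAt_id s).const_mul (1 - y))).add_const 1).neg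
          refine this.congr_deriv ?_
          simp
        have h2 : HasDerivAt (fun s : ℝ => exp (-s)) (exp (-s) * (-1)) s :=
          (hasDerivAt_id s).neg.exp
        refine (h1.mul h2).congr_deriv ?_
        ring
      · exact Continuous.intervalIntegrable (by fun_prop) _ _
    rw [e1, e2, e3]
    simp only [neg_zero, exp_zero]
    ring

lemma J_int {f : ℝ → ℝ} (hf : Continuous f) (hb : ∀ x, |f x| ≤ 1) {N : ℕ} (a : Fin N → ℝ) (y c : ℝ) :
    Integrable (fun z : ℝ × (Fin N → ℝ) => f (y + c * z.1 + ∑ i, a i * z.2 i)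
      * exp (-(∑ i, z.2 i)) * exp (-z.1))
      ((volume.restrict (Ioi (0 : ℝ))).prod
        (Measure.pi fun _ : Fin N => volume.restrict (Ioi (0 : ℝ)))) := by
  have i1 : Integrable (fun v : Fin N → ℝ => ∏ i, exp (-(v i)))
      (Measure.pi fun _ : Fin N => volume.restrict (Ioi (0 : ℝ))) :=
    Integrable.fintype_prod (fun _ => int_exp)
  have i2 := Integrable.mul_prod (f := fun x : ℝ => exp (-x)) int_exp i1
  refine Integrable.mono' i2 ?_ ?_
  · exact Continuous.aestronglyMeasurable (by fun_prop)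
  · refine Filter.Eventually.of_forall (fun z => ?_)
    rw [norm_mul, norm_mul, Real.norm_eq_abs, Real.norm_eq_abs, Real.norm_eq_abs,
      abs_of_pos (exp_pos _), abs_of_pos (exp_pos _), ← exp_sum, Finset.sum_neg_distrib]
    have := hb (y + c * z.1 + ∑ i, a i * z.2 i)
    have h1 : 0 < exp (-(∑ i, z.2 i)) * exp (-z.1) := by positivity
    nlinarith

lemma J_eq {f : ℝ → ℝ} (hf : Continuous f) (hb : ∀ x, |f x| ≤ 1) :
    ∀ (N : ℕ) (a : Fin N → ℝ) (y : ℝ),
      ∫ x in Set.pi Set.univ (fun _ : Fin N => Set.Ioi (0 : ℝ)),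
        f (y + ∑ i, a i * x i) * exp (-∑ i, x i) = H (List.ofFn a) f y := by
  intro N
  induction N with
  | zero =>
    intro a y
    have : Set.pi Set.univ (fun _ : Fin 0 => Set.Ioi (0 : ℝ)) = Set.univ := by
      ext x; simp
    rw [this, Measure.restrict_univ, MeasureTheory.Measure.volume_pi_eq_dirac]
    simp [H]
  | succ N ih =>
    intro a y
    rw [MeasureTheory.volume_pi, Measure.restrict_pi_pi]
    have mp := (measurePreserving_piFinSuccAbove
      (fun _ : Fin (N + 1) => (volume : Measure ℝ).restrict (Ioi 0)) 0)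
    have e1 := mp.integral_comp (MeasurableEquiv.measurableEmbedding _)
      (fun z : ℝ × (Fin N → ℝ) => f (y + a 0 * z.1 + ∑ i, a (Fin.succ i) * z.2 i)
      * exp (-(∑ i, z.2 i)) * exp (-z.1))
    have e2 : ∀ x : Fin (N + 1) → ℝ, f (y + ∑ i, a i * x i) * exp (-∑ i, x i)
        = (fun z : ℝ × (Fin N → ℝ) => f (y + a 0 * z.1 + ∑ i, a (Fin.succ i) * z.2 i)
      * exp (-(∑ i, z.2 i)) * exp (-z.1)) (MeasurableEquiv.piFinSuccAbove (fun _ => ℝ) 0 x) := by
      intro x
      simp only [MeasurableEquiv.piFinSuccAbove_apply, Fin.insertNthEquiv_symm_apply,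
        Fin.removeNth_zero, Fin.tail]
      rw [Fin.sum_univ_succ, Fin.sum_univ_succ, neg_add, exp_add, ← add_assoc]
      ring
    simp_rw [e2]
    rw [e1, integral_prod _ (J_int hf hb (fun i => a (Fin.succ i)) y (a 0))]
    rw [List.ofFn_succ]
    show _ = A (a 0) (H (List.ofFn fun i => a (Fin.succ i)) f) y
    unfold A
    refine setIntegral_congr_fun measurableSet_Ioi (fun u _ => ?_)
    dsimp only
    rw [integral_mul_const, ← ih, MeasureTheory.volume_pi, Measure.restrict_pi_pi]

/-- derivative of the weight -/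
noncomputable def g1 (y : ℝ) : ℝ := -(max y 0 * exp (-(max y 0)))

lemma g1_lip (x y : ℝ) : |g1 x - g1 y| ≤ |x - y| := by
  have core : ∀ u v : ℝ, 0 ≤ u → u ≤ v → |v * exp (-v) - u * exp (-u)| ≤ v - u := by
    intro u v hu huv
    have e1 : exp (-v) ≤ exp (-u) := Real.exp_le_exp.2 (by linarith)
    have e2 : exp (-u) ≤ 1 := Real.exp_le_one_iff.2 (by linarith)
    have e3 : 0 < exp (-v) := exp_pos _
    have e4 : 0 < exp (-u) := exp_pos _
    have e5 : u * exp (-u) ≤ 1 := by
      have := Real.add_one_le_exp u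
      have h6 : exp u * exp (-u) = 1 := by rw [← exp_add]; simp
      nlinarith
    have e6 : 1 - (v - u) ≤ exp (-(v - u)) := by
      have := Real.add_one_le_exp (-(v - u)); linarith
    have e7 : exp (-v) = exp (-u) * exp (-(v - u)) := by rw [← exp_add]; ring_nf
    rw [abs_le]
    constructor
    · have h8 : exp (-u) - exp (-v) ≤ exp (-u) * (v - u) := by
        rw [e7]; nlinarith
      nlinarith [mul_le_mul_of_nonneg_left h8 hu, mul_nonneg (sub_nonneg.2 huv) e3.le,
        mul_le_mul_of_nonneg_right e5 (sub_nonneg.2 huv)]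
    · nlinarith [mul_nonneg (sub_nonneg.2 huv) (sub_nonneg.2 e2)]
  have core2 : ∀ u v : ℝ, 0 ≤ u → 0 ≤ v → |u * exp (-u) - v * exp (-v)| ≤ |u - v| := by
    intro u v hu hv
    rcases le_total u v with h | h
    · rw [abs_sub_comm, abs_sub_comm u v, abs_of_nonneg (sub_nonneg.2 h)]
      exact core u v hu h
    · rw [abs_of_nonneg (sub_nonneg.2 h)]
      exact core v u hv h
  unfold g1
  rw [neg_sub_neg, abs_sub_comm]
  exact (core2 _ _ (le_max_right _ _) (le_max_right _ _)).trans (abs_max_sub_max_le_abs x y 0)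

lemma hasDeriv (y : ℝ) : HasDerivAt truncExpWeight (g1 y) y := by
  have hp : ∀ z : ℝ, HasDerivAt (fun y : ℝ => (1 + y) * exp (-y)) (-(z * exp (-z))) z := by
    intro z
    have h2 : HasDerivAt (fun s : ℝ => exp (-s)) (exp (-z) * (-1)) z :=
      (hasDerivAt_id z).neg.exp
    have h1 : HasDerivAt (fun s : ℝ => 1 + s) 1 z := (hasDerivAt_id z).const_add 1
    refine (h1.mul h2).congr_deriv ?_
    ring
  rcases lt_trichotomy y 0 with h | h | h
  · have : truncExpWeight =ᶠ[nhds y] fun _ => (1 : ℝ) := by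
      filter_upwards [Iio_mem_nhds h] with z hz
      simp [truncExpWeight, le_of_lt (show z < 0 from hz)]
    rw [show g1 y = 0 by simp [g1, max_eq_right h.le]]
    exact (hasDerivAt_const y (1 : ℝ)).congr_of_eventuallyEq this
  · subst h
    rw [show g1 0 = 0 by simp [g1]]
    have hl : HasDerivWithinAt truncExpWeight 0 (Iic 0) 0 := by
      refine (hasDerivWithinAt_const (0 : ℝ) (Iic 0) (1 : ℝ)).congr ?_ ?_
      · intro z hz
        simp only [truncExpWeight, if_pos (show z ≤ 0 from hz)]
      · simp [truncExpWeight]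
    have hr : HasDerivWithinAt truncExpWeight 0 (Ici 0) 0 := by
      have h0 := (hp 0).hasDerivWithinAt (s := Ici 0)
      rw [zero_mul, neg_zero] at h0
      refine h0.congr ?_ ?_
      · intro z hz
        rcases (show (0 : ℝ) ≤ z from hz).lt_or_eq with h | h
        · simp only [truncExpWeight, if_neg (not_le.2 h)]
        · subst h; simp [truncExpWeight]
      · simp [truncExpWeight]
    have := hl.union hr
    rwa [Iic_union_Ici, hasDerivWithinAt_univ] at this
  · have : truncExpWeight =ᶠ[nhds y] fun y : ℝ => (1 + y) * exp (-y) := by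
      filter_upwards [Ioi_mem_nhds h] with z hz
      simp only [truncExpWeight, if_neg (not_le.2 (show (0 : ℝ) < z from hz))]
    rw [show g1 y = -(y * exp (-y)) by simp [g1, max_eq_left h.le]]
    exact (hp y).congr_of_eventuallyEq this

lemma g1_bound (y : ℝ) : |g1 y| ≤ 1 := by
  unfold g1
  have hu : 0 ≤ max y 0 := le_max_right _ _
  set u := max y 0
  rw [abs_neg, abs_of_nonneg (by positivity)]
  have := Real.add_one_le_exp u
  have h6 : exp u * exp (-u) = 1 := by rw [← exp_add]; simp
  nlinarith [exp_pos (-u)]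

lemma mvt (x y : ℝ) (h : x < y) : ∃ z, x < z ∧ z < y ∧
    truncExpWeight y - truncExpWeight x = g1 z * (y - x) := by
  obtain ⟨c, hc, he⟩ := exists_hasDerivAt_eq_slope truncExpWeight g1 h
    (fun z _ => (hasDeriv z).continuousAt.continuousWithinAt) (fun z _ => hasDeriv z)
  refine ⟨c, hc.1, hc.2, ?_⟩
  rw [he]
  have : y - x ≠ 0 := by linarith
  field_simp

lemma lip_weight : Lip truncExpWeight := by
  have core : ∀ x y : ℝ, x < y → |truncExpWeight x - truncExpWeight y| ≤ |x - y| := by
    intro x y h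
    obtain ⟨z, _, _, he⟩ := mvt x y h
    rw [abs_sub_comm, he, abs_mul, abs_sub_comm x y]
    have := g1_bound z
    nlinarith [abs_nonneg (y - x)]
  intro x y
  rcases lt_trichotomy x y with h | h | h
  · exact core x y h
  · subst h; simp
  · rw [abs_sub_comm, abs_sub_comm x y]; exact core y x h

lemma taylor (m z : ℝ) :
    truncExpWeight m + g1 m * (z - m) - (z - m) ^ 2 ≤ truncExpWeight z := by
  rcases lt_trichotomy m z with h | h | h
  · obtain ⟨c, h1, h2, he⟩ := mvt m z h
    have h3 := g1_lip c m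
    rw [abs_of_pos (show 0 < c - m by linarith)] at h3
    have h4 := (abs_le.1 h3).1
    nlinarith
  · subst h; simp
  · obtain ⟨c, h1, h2, he⟩ := mvt z m h
    have h3 := g1_lip c m
    rw [abs_of_neg (show c - m < 0 by linarith)] at h3
    have h4 := (abs_le.1 h3).2
    nlinarith

lemma quad_int (p q r : ℝ) : IntegrableOn (fun x : ℝ => p * exp (-x) + q * (x * exp (-x))
    + r * (x ^ 2 * exp (-x))) (Ioi 0) :=
  ((int_exp.const_mul _).add (int_id.const_mul _)).add (int_sq.const_mul _)

lemma quad_val (p q r : ℝ) : ∫ x in Ioi (0 : ℝ), (p * exp (-x) + q * (x * exp (-x))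
    + r * (x ^ 2 * exp (-x))) = p + q + 2 * r := by
  have i1 : IntegrableOn (fun x : ℝ => p * exp (-x) + q * (x * exp (-x))) (Ioi 0) :=
    (int_exp.const_mul _).add (int_id.const_mul _)
  rw [integral_add i1 (int_sq.const_mul _), integral_add (int_exp.const_mul _) (int_id.const_mul _),
    integral_const_mul, integral_const_mul, integral_const_mul, val_exp, val_id, val_sq]
  ring

lemma A_taylor (c b y : ℝ) :
    truncExpWeight (y + c + b) - c ^ 2 ≤ A c (fun z => truncExpWeight (z + b)) y := by
  set m := y + c + b with hm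
  have e : ∫ x in Ioi (0 : ℝ), ((truncExpWeight m - c * g1 m - c ^ 2) * exp (-x)
      + (c * g1 m + 2 * c ^ 2) * (x * exp (-x)) + (-c ^ 2) * (x ^ 2 * exp (-x)))
      = truncExpWeight m - c ^ 2 := by
    rw [quad_val]
    ring
  rw [← e]
  unfold A
  have hl : Lip (fun z => truncExpWeight (z + b)) := by
    intro u v
    have := lip_weight (u + b) (v + b)
    simpa using this
  refine setIntegral_mono_on (quad_int _ _ _) (hl.int y c) measurableSet_Ioi ?_
  intro x _
  have := taylor m (y + c * x + b)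
  have h2 := mul_le_mul_of_nonneg_right this (exp_pos (-x)).le
  refine le_trans (le_of_eq ?_) h2
  rw [hm]; ring

lemma Lip.H {f : ℝ → ℝ} (hf : Lip f) (l : List ℝ) : Lip (H l f) := by
  induction l with
  | nil => exact hf
  | cons c l ih => exact ih.A c

lemma H_rep (c : ℝ) (k : ℕ) (y : ℝ) :
    truncExpWeight (y + k * c) - k * c ^ 2 ≤ H (List.replicate k c) truncExpWeight y := by
  induction k generalizing y with
  | zero => simp [H]
  | succ k ih =>
    rw [List.replicate_succ]
    show _ ≤ A c (H (List.replicate k c) truncExpWeight) y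
    have h1 := A_taylor c (k * c) y
    have hl : Lip (fun z => truncExpWeight (z + k * c) - k * c ^ 2) := by
      intro u v
      have := lip_weight (u + k * c) (v + k * c)
      simpa using this
    have h2 := A_mono (f := fun z => truncExpWeight (z + k * c) - k * c ^ 2) c y y (hl.int y c) ((lip_weight.H (List.replicate k c)).int y c)
      (fun x _ => ih (y + c * x))
    have h3 : A c (fun z => truncExpWeight (z + k * c) - k * c ^ 2) y
        = A c (fun z => truncExpWeight (z + k * c)) y - k * c ^ 2 := by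
      have hl2 : Lip (fun z => truncExpWeight (z + k * c)) := by
        intro u v
        have := lip_weight (u + k * c) (v + k * c)
        simpa using this
      unfold A
      simp_rw [sub_mul]
      rw [integral_sub (hl2.int y c) (int_exp.const_mul _), integral_const_mul, val_exp, mul_one]
    rw [h3] at h2
    push_cast
    rw [show y + (↑k + 1) * c = y + c + k * c by ring]
    nlinarith

lemma A_two_pos (y : ℝ) (hy : y ≤ 0) : A 2 pos y = 2 * exp (y / 2) := by
  have h := A_split good_pos.lip 2 y (-y / 2) (by linarith)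
  rw [h, show y + 2 * (-y / 2) = 0 by ring]
  have e1 : ∫ s in Ioc (0 : ℝ) (-y / 2), pos (y + 2 * s) * exp (-s) = 0 := by
    rw [setIntegral_congr_fun (g := fun _ => (0 : ℝ)) measurableSet_Ioc]
    · simp
    · intro s hs
      have : s ≤ -y / 2 := hs.2
      simp only [pos]
      rw [max_eq_right (by linarith), zero_mul]
  have e2 : A 2 pos 0 = 2 := by
    have : A 2 pos 0 = ∫ s in Ioi (0 : ℝ), 2 * (s * exp (-s)) := by
      unfold A
      refine setIntegral_congr_fun measurableSet_Ioi (fun s hs => ?_)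
      have hs : 0 < s := hs
      simp only [pos]
      rw [max_eq_left (by linarith)]
      ring
    rw [this, integral_const_mul, val_id, mul_one]
  rw [e1, e2, zero_add, show -(-y / 2) = y / 2 by ring]
  ring

lemma A_two_weight : A 2 truncExpWeight (-(2 / 3)) = 1 - 4 / 9 * exp (-(1 / 3)) := by
  rw [weight_eq, A_B good_pos.lip]
  unfold B
  congr 1
  have h1 : ∫ s in Ioi (0 : ℝ), (1 - s) * exp (-s) * A 2 pos (-(2 / 3) - s)
      = ∫ s in Ioi (0 : ℝ), (2 * exp (-(1 / 3))) * ((1 - s) * exp (-s) * exp (-(1 / 2 * s))) := by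
    refine setIntegral_congr_fun measurableSet_Ioi (fun s hs => ?_)
    have hs : 0 < s := hs
    rw [A_two_pos _ (by linarith), show (-(2 / 3) - s) / 2 = -(1 / 3) + -(1 / 2 * s) by ring, exp_add]
    ring
  rw [h1, integral_const_mul, val_exp_weight _ (by norm_num)]
  norm_num
  ring

lemma weight_abs_le (x : ℝ) : |truncExpWeight x| ≤ 1 := by
  unfold truncExpWeight
  split_ifs with h
  · simp
  · push Not at h
    rw [abs_of_nonneg (by positivity)]
    have := Real.add_one_le_exp x
    have h6 : exp x * exp (-x) = 1 := by rw [← exp_add]; simp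
    nlinarith [exp_pos (-x)]

/-- For independent mean-one exponential random variables `X_1, …, X_N` (written as an integral over the positive orthant against the density `exp (-(x_1 + ⋯ + x_N))`), real coefficients `a_1, …, a_N` summing to zero, and the weight `g = truncExpWeight`, the quantity `(e^{4/3} / (4/3)) · E[g(4/3 + a_1 X_1 + ⋯ + a_N X_N)]` has supremum over all `N ≥ 1` and all such `a` exactly `(3/4) e^{4/3} − e/3`: it never exceeds this value, and comes within any `ε > 0` of it for some `N` and `a`. -/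
theorem result :
    (∀ (N : ℕ) (a : Fin N → ℝ), 1 ≤ N → ∑ i, a i = 0 →
      Real.exp (4 / 3) / (4 / 3) *
          ∫ x in Set.pi Set.univ (fun _ : Fin N => Set.Ioi (0 : ℝ)),
            Crest.AlgGeometry.truncExpWeight (4 / 3 + ∑ i, a i * x i) * Real.exp (-∑ i, x i)
        ≤ 3 / 4 * Real.exp (4 / 3) - Real.exp 1 / 3) ∧
    (∀ ε : ℝ, 0 < ε → ∃ (N : ℕ) (a : Fin N → ℝ), 1 ≤ N ∧ ∑ i, a i = 0 ∧
      3 / 4 * Real.exp (4 / 3) - Real.exp 1 / 3 - ε <
        Real.exp (4 / 3) / (4 / 3) *
          ∫ x in Set.pi Set.univ (fun _ : Fin N => Set.Ioi (0 : ℝ)),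
            Crest.AlgGeometry.truncExpWeight (4 / 3 + ∑ i, a i * x i) * Real.exp (-∑ i, x i)) := by
  have hmul : exp (4 / 3) * exp (-(1 / 3)) = exp 1 := by
    rw [← exp_add]; norm_num
  have hval : 3 / 4 * Real.exp (4 / 3) - Real.exp 1 / 3
      = Real.exp (4 / 3) / (4 / 3) * (1 - 4 / 9 * exp (-(1 / 3))) := by
    rw [← hmul]; ring
  have hE : 0 < Real.exp (4 / 3) / (4 / 3) := by positivity
  constructor
  · intro N a _ ha
    rw [J_eq lip_weight.continuous weight_abs_le, hval]
    refine mul_le_mul_of_nonneg_left ?_ hE.le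
    rw [weight_eq, H_B good_pos]
    unfold B
    have hge : ∀ y, y ≤ H (List.ofFn a) pos y := by
      intro y
      have := H_ge (List.ofFn a) y
      rwa [List.sum_ofFn, ha, add_zero] at this
    have := main_ineq (good_pos.H (List.ofFn a)) hge
    linarith
  · intro ε hε
    obtain ⟨n, hn⟩ := exists_nat_gt (4 * (Real.exp (4 / 3) / (4 / 3)) / ε)
    have hn0 : (0 : ℝ) < n := lt_of_le_of_lt (by positivity) hn
    have hn1 : 0 < n := by exact_mod_cast hn0
    refine ⟨n + 1, Fin.cons 2 (fun _ => -2 / (n : ℝ)), by omega, ?_, ?_⟩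
    · rw [Fin.sum_univ_succ]
      simp
      field_simp
      norm_num
    · rw [J_eq lip_weight.continuous weight_abs_le, hval, List.ofFn_succ]
      simp only [Fin.cons_zero, Fin.cons_succ]
      rw [List.ofFn_const]
      show _ < Real.exp (4 / 3) / (4 / 3) *
        A 2 (H (List.replicate n (-2 / (n : ℝ))) truncExpWeight) (4 / 3)
      have hl : Lip (fun z => truncExpWeight (z + (-2)) - 4 / n) := by
        intro u v
        have := lip_weight (u + (-2)) (v + (-2))
        simpa using this
      have hl2 : Lip (fun z => truncExpWeight (z + (-2))) := by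
        intro u v
        have := lip_weight (u + (-2)) (v + (-2))
        simpa using this
      have h1 := A_mono (f := fun z => truncExpWeight (z + (-2)) - 4 / n) 2 (4 / 3) (4 / 3) (hl.int (4 / 3) 2)
        ((lip_weight.H (List.replicate n (-2 / (n : ℝ)))).int (4 / 3) 2) (fun x _ => by
          have := H_rep (-2 / (n : ℝ)) n (4 / 3 + 2 * x)
          rw [show (n : ℝ) * (-2 / n) = -2 by field_simp,
            show (n : ℝ) * (-2 / n) ^ 2 = 4 / n by field_simp; norm_num] at this
          exact this)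
      have h3 : A 2 (fun z => truncExpWeight (z + (-2)) - 4 / n) (4 / 3)
          = A 2 (fun z => truncExpWeight (z + (-2))) (4 / 3) - 4 / n := by
        unfold A
        simp_rw [sub_mul]
        rw [integral_sub (hl2.int (4 / 3) 2) (int_exp.const_mul _), integral_const_mul, val_exp,
          mul_one]
      have h4 : A 2 (fun z => truncExpWeight (z + (-2))) (4 / 3) = A 2 truncExpWeight (-(2 / 3)) := by
        unfold A
        refine setIntegral_congr_fun measurableSet_Ioi (fun s _ => ?_)
        simp only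
        rw [show (4 / 3 : ℝ) + 2 * s + -2 = -(2 / 3) + 2 * s by ring]
      rw [h3, h4, A_two_weight] at h1
      have h5 : Real.exp (4 / 3) / (4 / 3) * (4 / n) < ε := by
        rw [div_lt_iff₀ hε] at hn
        rw [← mul_div_assoc, div_lt_iff₀ hn0]
        linarith
      have h6 := mul_le_mul_of_nonneg_left h1 hE.le
      linarith

end Crest.Agent.S0423
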