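import Mathlib
import Crest.Prelude.Def_TruncExpWeight

set_option autoImplicit false
open MeasureTheory Set Filter Topology
open scoped ENNReal

namespace Crest.Agent.S0423.P1

/-- standard exponential measure -/
noncomputable def μ : Measure ℝ :=
  (volume.restrict (Ioi (0:ℝ))).withDensity (fun x => ENNReal.ofReal (Real.exp (-x)))

lemma integral_mu (f : ℝ → ℝ) : ∫ x, f x ∂μ = ∫ x in Ioi (0:ℝ), f x * Real.exp (-x) := by
  rw [μ, integral_withDensity_eq_integral_toReal_smul (by fun_prop) (by simp)]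
  congr 1
  ext x
  rw [ENNReal.toReal_ofReal (Real.exp_pos _).le, smul_eq_mul, mul_comm]

lemma integrable_mu_iff (f : ℝ → ℝ) :
    Integrable f μ ↔ IntegrableOn (fun x => f x * Real.exp (-x)) (Ioi (0:ℝ)) := by
  rw [μ, integrable_withDensity_iff (by fun_prop) (by simp)]
  rw [IntegrableOn]
  have : (fun x => f x * (ENNReal.ofReal (Real.exp (-x))).toReal) =
      fun x => f x * Real.exp (-x) := by
    ext x
    rw [ENNReal.toReal_ofReal (Real.exp_pos _).le]
  rw [this]

lemma gamma_int (s : ℝ) (hs : 0 < s) :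
    IntegrableOn (fun x : ℝ => x ^ (s - 1) * Real.exp (-x)) (Ioi 0) := by
  have := Real.GammaIntegral_convergent hs
  refine this.congr_fun (fun x _ => by ring) measurableSet_Ioi

lemma int0 : IntegrableOn (fun x : ℝ => Real.exp (-x)) (Ioi 0) := by
  have := gamma_int 1 one_pos
  simpa using this

lemma int1 : IntegrableOn (fun x : ℝ => x * Real.exp (-x)) (Ioi 0) := by
  have := gamma_int 2 two_pos
  norm_num at this
  exact this

lemma int2 : IntegrableOn (fun x : ℝ => x^2 * Real.exp (-x)) (Ioi 0) := by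
  have := gamma_int 3 three_pos
  norm_num at this
  exact this

instance : IsProbabilityMeasure μ := by
  constructor
  have h1 : ∫ x, (1:ℝ) ∂μ = 1 := by
    rw [integral_mu]
    simp only [one_mul]
    exact integral_exp_neg_Ioi_zero
  have h2 : Integrable (fun _ : ℝ => (1:ℝ)) μ := by
    rw [integrable_mu_iff]
    simpa using int0
  have h3 : IsFiniteMeasure μ := by
    rw [integrable_const_iff] at h2
    rcases h2 with h | h
    · simp at h
    · exact h
  simp at h1
  rw [Measure.real] at h1
  rw [← ENNReal.toReal_eq_toReal_iff' (measure_ne_top _ _) (by simp)]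
  simpa using h1

lemma integrable_id_mu : Integrable (fun x : ℝ => x) μ := by
  rw [integrable_mu_iff]; exact int1

lemma integral_id_mu : ∫ x, x ∂μ = 1 := by
  rw [integral_mu]
  have := Real.Gamma_eq_integral (s := 2) two_pos
  norm_num at this
  rw [this]
  exact setIntegral_congr_fun measurableSet_Ioi (fun x _ => by ring)

lemma integrable_sq_mu : Integrable (fun x : ℝ => x^2) μ := by
  rw [integrable_mu_iff]; exact int2

lemma integral_sq_mu : ∫ x, x^2 ∂μ = 2 := by
  rw [integral_mu]
  have := Real.Gamma_eq_integral (s := 3) three_pos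
  norm_num at this
  rw [this]
  refine setIntegral_congr_fun measurableSet_Ioi (fun x _ => by ring)


lemma ae_pos_mu : ∀ᵐ x ∂μ, 0 < x := by
  have h1 : ∀ᵐ x ∂(volume.restrict (Ioi (0:ℝ))), 0 < x := by
    filter_upwards [ae_restrict_mem measurableSet_Ioi] with x hx using hx
  exact (withDensity_absolutelyContinuous _ _).ae_le h1

/-- The product of exponential measures has density `exp (-∑ x i)` on the positive orthant. -/
lemma pi_mu (N : ℕ) : Measure.pi (fun _ : Fin N => μ) =
    (volume.restrict (Set.pi Set.univ (fun _ : Fin N => Ioi (0:ℝ)))).withDensity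
      (fun x => ENNReal.ofReal (Real.exp (-∑ i, x i))) := by
  refine Measure.pi_eq (fun s hs => ?_)
  rw [withDensity_apply _ (MeasurableSet.univ_pi hs)]
  rw [volume_pi, Measure.restrict_pi_pi, Measure.restrict_pi_pi]
  have hμ : ∀ i, μ (s i) = ∫⁻ x in s i, ENNReal.ofReal (Real.exp (-x)) ∂(volume.restrict (Ioi (0:ℝ))) := by
    intro i
    rw [μ, withDensity_apply _ (hs i)]
  have hint : ∀ i, Integrable (fun x : ℝ => Real.exp (-x)) ((volume.restrict (Ioi (0:ℝ))).restrict (s i)) := by
    intro i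
    exact (Integrable.restrict (s := s i) int0)
  have h1 : ∀ i, μ (s i) = ENNReal.ofReal (∫ x, Real.exp (-x) ∂((volume.restrict (Ioi (0:ℝ))).restrict (s i))) := by
    intro i
    rw [hμ i, ofReal_integral_eq_lintegral_ofReal (hint i) (ae_of_all _ fun x => (Real.exp_pos _).le)]
  have h2 := integral_fintype_prod_eq_prod (ι := Fin N) (𝕜 := ℝ) (fun _ x => Real.exp (-x))
    (μ := fun i => (volume.restrict (Ioi (0:ℝ))).restrict (s i))
  have h3 := Integrable.fintype_prod (ι := Fin N) (𝕜 := ℝ) (f := fun _ x => Real.exp (-x))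
    (μ := fun i => (volume.restrict (Ioi (0:ℝ))).restrict (s i)) hint
  have h4 : (fun x : Fin N → ℝ => ∏ i, Real.exp (-x i)) = fun x => Real.exp (-∑ i, x i) := by
    ext x
    rw [← Real.exp_sum, Finset.sum_neg_distrib]
  rw [h4] at h3
  rw [h4] at h2
  rw [← ofReal_integral_eq_lintegral_ofReal h3 (ae_of_all _ fun x => (Real.exp_pos _).le), h2,
    ENNReal.ofReal_prod_of_nonneg]
  · exact Finset.prod_congr rfl (fun i _ => (h1 i).symm)
  · intro i _
    exact integral_nonneg fun x => (Real.exp_pos _).le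

lemma integral_pi_mu (N : ℕ) (f : (Fin N → ℝ) → ℝ) :
    ∫ x, f x ∂(Measure.pi (fun _ : Fin N => μ)) =
      ∫ x in Set.pi Set.univ (fun _ : Fin N => Ioi (0:ℝ)), f x * Real.exp (-∑ i, x i) := by
  rw [pi_mu, integral_withDensity_eq_integral_toReal_smul (by fun_prop) (by simp)]
  congr 1
  ext x
  rw [ENNReal.toReal_ofReal (Real.exp_pos _).le, smul_eq_mul, mul_comm]

/-- Recursion. -/
lemma integral_pi_succ (N : ℕ) (f : (Fin (N+1) → ℝ) → ℝ)
    (hf : Integrable f (Measure.pi (fun _ : Fin (N+1) => μ))) :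
    ∫ x, f x ∂(Measure.pi (fun _ : Fin (N+1) => μ)) =
      ∫ t, ∫ x, f (Fin.cons t x) ∂(Measure.pi (fun _ : Fin N => μ)) ∂μ := by
  have hmp := measurePreserving_piFinSuccAbove (fun _ : Fin (N+1) => μ) 0
  have hsymm := hmp.symm
  have h1 := hsymm.integral_comp' (g := f)
  have he : ∀ p : ℝ × (Fin N → ℝ),
      (MeasurableEquiv.piFinSuccAbove (fun _ : Fin (N+1) => ℝ) 0).symm p = Fin.cons p.1 p.2 := by
    intro p
    simp only [MeasurableEquiv.piFinSuccAbove_symm_apply, Fin.insertNthEquiv, Fin.insertNth_zero,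
      Equiv.coe_fn_mk]
    rfl
  have h2 : Integrable (fun p : ℝ × (Fin N → ℝ) => f (Fin.cons p.1 p.2))
      (μ.prod (Measure.pi (fun _ : Fin N => μ))) := by
    have := (hsymm.integrable_comp_emb (MeasurableEquiv.measurableEmbedding _)).mpr hf
    refine this.congr (ae_of_all _ fun p => ?_)
    simp only [Function.comp_apply, he]
  rw [← h1]
  have h3 := integral_prod _ h2
  simp only [he]
  exact h3

/-- linear form -/
def lin {N : ℕ} (a : Fin N → ℝ) (x : Fin N → ℝ) : ℝ := ∑ i, a i * x i

lemma integrable_lin {N : ℕ} (a : Fin N → ℝ) :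
    Integrable (lin a) (Measure.pi (fun _ : Fin N => μ)) := by
  unfold lin
  apply integrable_finsetSum
  intro i _
  apply Integrable.const_mul
  exact integrable_comp_eval (i := i) (μ := fun _ : Fin N => μ) (f := fun x => x) integrable_id_mu

lemma integral_lin {N : ℕ} (a : Fin N → ℝ) :
    ∫ x, lin a x ∂(Measure.pi (fun _ : Fin N => μ)) = ∑ i, a i := by
  unfold lin
  rw [integral_finsetSum]
  · refine Finset.sum_congr rfl (fun i _ => ?_)
    rw [integral_const_mul]
    have := integral_comp_eval (i := i) (μ := fun _ : Fin N => μ) (f := fun x : ℝ => x)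
      (by fun_prop)
    rw [this, integral_id_mu, mul_one]
  · intro i _
    apply Integrable.const_mul
    exact integrable_comp_eval (i := i) (μ := fun _ : Fin N => μ) (f := fun x => x) integrable_id_mu


/-- 4-point form of log-concavity -/
def PF2 (F : ℝ → ℝ) : Prop := ∀ x y δ : ℝ, x ≤ y → 0 ≤ δ → F x * F (y + δ) ≤ F (x + δ) * F y

structure Good (F : ℝ → ℝ) : Prop where
  lip : ∀ x y, |F x - F y| ≤ |x - y|
  nonneg : ∀ x, 0 ≤ F x
  pf : PF2 F

lemma Good.cont {F : ℝ → ℝ} (h : Good F) : Continuous F := by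
  have : LipschitzWith 1 F := by
    apply LipschitzWith.of_dist_le_mul
    intro x y
    rw [Real.dist_eq, Real.dist_eq]
    simpa using h.lip x y
  exact this.continuous

noncomputable def Pop (c : ℝ) (F : ℝ → ℝ) (y : ℝ) : ℝ := ∫ t, F (y + c * t) ∂μ

lemma Good.integrable {F : ℝ → ℝ} (h : Good F) (c y : ℝ) :
    Integrable (fun t => F (y + c * t)) μ := by
  have hc : Continuous fun t => F (y + c * t) := h.cont.comp (by fun_prop)
  have hb : Integrable (fun t : ℝ => |F y| + |c * t|) μ :=
    (integrable_const _).add (integrable_id_mu.const_mul c).abs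
  refine hb.mono' hc.aestronglyMeasurable (ae_of_all _ fun t => ?_)
  rw [Real.norm_eq_abs]
  have h1 := h.lip (y + c * t) y
  have h2 : y + c * t - y = c * t := by ring
  rw [h2] at h1
  calc |F (y + c * t)| = |(F (y + c*t) - F y) + F y| := by ring_nf
    _ ≤ |F (y + c*t) - F y| + |F y| := abs_add_le _ _
    _ ≤ |F y| + |c * t| := by linarith

lemma good_zero : Good (fun y => max y 0) := by
  refine ⟨fun x y => ?_, fun x => le_max_right _ _, ?_⟩
  · exact abs_max_sub_max_le_abs x y 0
  · intro x y δ hxy hδ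
    show max x 0 * max (y + δ) 0 ≤ max (x + δ) 0 * max y 0
    rcases le_or_gt x 0 with hx | hx
    · rw [max_eq_right hx, zero_mul]
      positivity
    · rw [max_eq_left hx.le, max_eq_left (by linarith), max_eq_left (by linarith),
        max_eq_left (by linarith)]
      nlinarith

lemma good_reflect {F : ℝ → ℝ} (h : Good F) : Good (fun y => F (-y)) := by
  refine ⟨fun x y => ?_, fun x => h.nonneg _, ?_⟩
  · have := h.lip (-x) (-y)
    rw [show -x - -y = -(x - y) by ring, abs_neg] at this
    exact this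
  · intro x y δ hxy hδ
    have := h.pf (-y - δ) (-x - δ) δ (by linarith) hδ
    rw [show -x - δ + δ = -x by ring, show -y - δ + δ = -y by ring] at this
    show F (-x) * F (-(y + δ)) ≤ F (-(x + δ)) * F (-y)
    rw [show -(y + δ) = -y - δ by ring, show -(x + δ) = -x - δ by ring]
    linarith

lemma Pop_nonneg {F : ℝ → ℝ} (h : Good F) (c y : ℝ) : 0 ≤ Pop c F y :=
  integral_nonneg fun t => h.nonneg _

lemma Pop_lip {F : ℝ → ℝ} (h : Good F) (c x y : ℝ) : |Pop c F x - Pop c F y| ≤ |x - y| := by
  unfold Pop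
  rw [← integral_sub (h.integrable c x) (h.integrable c y)]
  have h1 := norm_integral_le_of_norm_le_const (μ := μ) (C := |x - y|)
    (f := fun t => F (x + c * t) - F (y + c * t)) (ae_of_all _ fun t => by
      rw [Real.norm_eq_abs]
      have := h.lip (x + c * t) (y + c * t)
      rwa [show x + c * t - (y + c * t) = x - y by ring] at this)
  simpa using h1

/-- splitting, for `c < 0` -/
lemma Pop_split {F : ℝ → ℝ} (h : Good F) {c : ℝ} (hc : c < 0) (y δ : ℝ) (hδ : 0 ≤ δ) :
    Pop c F (y + δ) = (∫ t in Ioc 0 (δ / (-c)), F (y + δ + c * t) * Real.exp (-t)) +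
      Real.exp (-(δ / (-c))) * Pop c F y := by
  set τ := δ / (-c) with hτ
  have hτ0 : 0 ≤ τ := div_nonneg hδ (by linarith)
  have hcτ : c * τ = -δ := by
    have hc0 : c ≠ 0 := ne_of_lt hc
    rw [hτ]; field_simp
  have hI := (integrable_mu_iff _).mp (h.integrable c (y + δ))
  have hsplit : Ioc 0 τ ∪ Ioi τ = Ioi (0:ℝ) := Ioc_union_Ioi_eq_Ioi hτ0
  unfold Pop
  rw [integral_mu, integral_mu, ← hsplit, setIntegral_union]
  · congr 1
    have hmp := (measurePreserving_add_right (volume : Measure ℝ) τ).setIntegral_preimage_emb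
      (measurableEmbedding_addRight τ) (fun t => F (y + δ + c * t) * Real.exp (-t)) (Ioi τ)
    rw [← hmp, preimage_add_const_Ioi, sub_self, hsplit, ← integral_const_mul]
    refine setIntegral_congr_fun measurableSet_Ioi (fun t _ => ?_)
    show F (y + δ + c * (t + τ)) * Real.exp (-(t + τ)) = Real.exp (-τ) * (F (y + c * t) * Real.exp (-t))
    rw [show y + δ + c * (t + τ) = y + c * t + (δ + c * τ) by ring, hcτ, add_neg_cancel, add_zero,
      show -(t + τ) = -τ + -t by ring, Real.exp_add]
    ring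
  · exact Ioc_disjoint_Ioi le_rfl
  · exact measurableSet_Ioi
  · exact hI.mono_set (by rw [← hsplit]; exact subset_union_left)
  · exact hI.mono_set (by rw [← hsplit]; exact subset_union_right)

lemma Pop_pf_neg {F : ℝ → ℝ} (h : Good F) {c : ℝ} (hc : c < 0) : PF2 (Pop c F) := by
  intro x y δ hxy hδ
  rw [Pop_split h hc y δ hδ, Pop_split h hc x δ hδ]
  set τ := δ / (-c) with hτ
  have hτ0 : 0 ≤ τ := div_nonneg hδ (by linarith)
  have hcτ : c * τ = -δ := by
    have hc0 : c ≠ 0 := ne_of_lt hc
    rw [hτ]; field_simp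
  have key : Pop c F x * (∫ t in Ioc 0 τ, F (y + δ + c * t) * Real.exp (-t)) ≤
      Pop c F y * (∫ t in Ioc 0 τ, F (x + δ + c * t) * Real.exp (-t)) := by
    rw [← integral_const_mul, ← integral_const_mul]
    have hIoc : ∀ z, IntegrableOn (fun t => F (z + δ + c * t) * Real.exp (-t)) (Ioc 0 τ) := by
      intro z
      exact ((integrable_mu_iff _).mp (h.integrable c (z + δ))).mono_set Ioc_subset_Ioi_self
    refine setIntegral_mono_on ((hIoc y).const_mul _) ((hIoc x).const_mul _) measurableSet_Ioc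
      (fun t ht => ?_)
    have hε : 0 ≤ δ + c * t := by
      have : c * τ ≤ c * t := by nlinarith [ht.2]
      linarith
    have hpt : Pop c F x * F (y + (δ + c * t)) ≤ Pop c F y * F (x + (δ + c * t)) := by
      unfold Pop
      rw [← integral_mul_const, ← integral_mul_const]
      refine integral_mono_ae ((h.integrable c x).mul_const _) ((h.integrable c y).mul_const _) ?_
      filter_upwards [ae_pos_mu] with v hv
      have := h.pf (x + c * v) (y + c * v) (δ + c * t - c * v) (by linarith) (by nlinarith)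
      rw [show y + c * v + (δ + c * t - c * v) = y + (δ + c * t) by ring,
        show x + c * v + (δ + c * t - c * v) = x + (δ + c * t) by ring] at this
      linarith
    rw [add_assoc y, add_assoc x]
    have he := Real.exp_pos (-t)
    calc Pop c F x * (F (y + (δ + c * t)) * Real.exp (-t))
        = (Pop c F x * F (y + (δ + c * t))) * Real.exp (-t) := by ring
      _ ≤ (Pop c F y * F (x + (δ + c * t))) * Real.exp (-t) :=
          mul_le_mul_of_nonneg_right hpt he.le
      _ = _ := by ring
  nlinarith [key]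

lemma good_Pop {F : ℝ → ℝ} (h : Good F) (c : ℝ) : Good (Pop c F) := by
  refine ⟨Pop_lip h c, Pop_nonneg h c, ?_⟩
  rcases lt_trichotomy c 0 with hc | hc | hc
  · exact Pop_pf_neg h hc
  · subst hc
    have : Pop 0 F = F := by
      ext y; simp [Pop]
    rw [this]; exact h.pf
  · have h1 := Pop_pf_neg (good_reflect h) (c := -c) (by linarith)
    have h2 : Pop (-c) (fun y => F (-y)) = fun y => Pop c F (-y) := by
      ext y
      unfold Pop
      refine integral_congr_ae (ae_of_all _ fun t => ?_)
      show F (-(y + -c * t)) = F (-y + c * t)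
      congr 1
      ring
    rw [h2] at h1
    intro x y δ hxy hδ
    have := h1 (-y - δ) (-x - δ) δ (by linarith) hδ
    simp only at this
    rw [show -(-y - δ) = y + δ by ring, show -(-x - δ + δ) = x by ring,
      show -(-y - δ + δ) = y by ring, show -(-x - δ) = x + δ by ring] at this
    linarith

/-- the iterated function -/
noncomputable def H {N : ℕ} (a : Fin N → ℝ) (y : ℝ) : ℝ :=
  ∫ x, max (y + lin a x) 0 ∂(Measure.pi (fun _ : Fin N => μ))

lemma integrable_max {N : ℕ} (a : Fin N → ℝ) (y : ℝ) :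
    Integrable (fun x => max (y + lin a x) 0) (Measure.pi (fun _ : Fin N => μ)) :=
  ((integrable_const y).add (integrable_lin a)).pos_part

lemma H_succ {N : ℕ} (a : Fin (N+1) → ℝ) : H a = Pop (a 0) (H (fun i => a i.succ)) := by
  ext y
  unfold H Pop
  rw [integral_pi_succ N _ (integrable_max a y)]
  refine integral_congr_ae (ae_of_all _ fun t => ?_)
  show ∫ x, max (y + lin a (Fin.cons t x)) 0 ∂(Measure.pi (fun _ : Fin N => μ)) =
    ∫ x, max (y + a 0 * t + lin (fun i => a i.succ) x) 0 ∂(Measure.pi (fun _ : Fin N => μ))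
  refine integral_congr_ae (ae_of_all _ fun x => ?_)
  show max (y + lin a (Fin.cons t x)) 0 = max (y + a 0 * t + lin (fun i => a i.succ) x) 0
  unfold lin
  rw [Fin.sum_univ_succ]
  simp only [Fin.cons_zero, Fin.cons_succ]
  rw [add_assoc]

lemma good_H : ∀ {N : ℕ} (a : Fin N → ℝ), Good (H a) := by
  intro N
  induction N with
  | zero =>
    intro a
    have : H a = fun y => max y 0 := by
      ext y
      unfold H lin
      simp
    rw [this]; exact good_zero
  | succ n ih =>
    intro a
    rw [H_succ]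
    exact good_Pop (ih _) _

lemma le_H {N : ℕ} (a : Fin N → ℝ) (ha : ∑ i, a i = 0) (y : ℝ) : y ≤ H a y := by
  have h1 : ∫ x, (y + lin a x) ∂(Measure.pi (fun _ : Fin N => μ)) = y := by
    rw [integral_add (integrable_const _) (integrable_lin a), integral_lin, ha]
    simp
  conv_lhs => rw [← h1]
  unfold H
  exact integral_mono ((integrable_const y).add (integrable_lin a)) (integrable_max a y)
    (fun x => le_max_left _ _)


lemma quasi {φ : ℝ → ℝ} (hc : Continuous φ) (hn : ∀ x, 0 ≤ φ x) (hp : PF2 φ)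
    {x y z : ℝ} (hxy : x ≤ y) (hyz : y ≤ z) : min (φ x) (φ z) ≤ φ y := by
  by_contra hcon
  push Not at hcon
  have hx : φ y < φ x := lt_of_lt_of_le hcon (min_le_left _ _)
  have hz : φ y < φ z := lt_of_lt_of_le hcon (min_le_right _ _)
  obtain ⟨p, hpI, hpm⟩ := isCompact_Icc.exists_isMinOn (⟨y, hxy, hyz⟩ : (Icc x z).Nonempty)
    hc.continuousOn
  have hmin : ∀ q ∈ Icc x z, φ p ≤ φ q := fun q hq => hpm hq
  have hpy : φ p ≤ φ y := hmin y ⟨hxy, hyz⟩
  have hp0 := hn p
  have hxz : x ≤ z := hxy.trans hyz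
  rcases hp0.eq_or_lt with h0 | h0
  · have := hp x (z - p + x) (p - x) (by linarith [hpI.2]) (by linarith [hpI.1])
    rw [show z - p + x + (p - x) = z by ring, show x + (p - x) = p by ring, ← h0, zero_mul] at this
    have h1 : 0 < φ x := lt_of_le_of_lt (hn y) hx
    have h2 : 0 < φ z := lt_of_le_of_lt (hn y) hz
    have := mul_pos h1 h2
    linarith
  · rcases le_total (p - x) (z - p) with h | h
    · have h1 := hp x p (p - x) hpI.1 (by linarith [hpI.1])
      rw [show x + (p - x) = p by ring] at h1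
      have h2 := hmin (p + (p - x)) ⟨by linarith [hpI.1], by linarith⟩
      have h3 : φ p < φ x := lt_of_le_of_lt hpy hx
      nlinarith
    · have h1 := hp (p - (z - p)) p (z - p) (by linarith [hpI.2]) (by linarith [hpI.2])
      rw [show p + (z - p) = z by ring, show p - (z - p) + (z - p) = p by ring] at h1
      have h2 := hmin (p - (z - p)) ⟨by linarith, by linarith [hpI.2]⟩
      have h3 : φ p < φ z := lt_of_le_of_lt hpy hz
      nlinarith

lemma PF2.tilt {F : ℝ → ℝ} (h : PF2 F) (κ : ℝ) : PF2 (fun t => F t * Real.exp (-(κ * t))) := by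
  intro x y δ hxy hδ
  have h1 := h x y δ hxy hδ
  have e1 : Real.exp (-(κ * x)) * Real.exp (-(κ * (y + δ))) =
      Real.exp (-(κ * (x + δ))) * Real.exp (-(κ * y)) := by
    rw [← Real.exp_add, ← Real.exp_add]; congr 1; ring
  have e2 : 0 < Real.exp (-(κ * (x + δ))) * Real.exp (-(κ * y)) := by positivity
  calc F x * Real.exp (-(κ * x)) * (F (y + δ) * Real.exp (-(κ * (y + δ))))
      = (F x * F (y + δ)) * (Real.exp (-(κ * x)) * Real.exp (-(κ * (y + δ)))) := by ring
    _ = (F x * F (y + δ)) * (Real.exp (-(κ * (x + δ))) * Real.exp (-(κ * y))) := by rw [e1]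
    _ ≤ (F (x + δ) * F y) * (Real.exp (-(κ * (x + δ))) * Real.exp (-(κ * y))) :=
        mul_le_mul_of_nonneg_right h1 e2.le
    _ = _ := by ring

lemma compare_right {F : ℝ → ℝ} (hF : Good F) {c s κ y : ℝ} 
    (hs : F c * Real.exp (κ * (s - c)) ≤ F s) (h1 : c ≤ y) (h2 : y ≤ s) :
    F c * Real.exp (κ * (y - c)) ≤ F y := by
  have hq := quasi (φ := fun t => F t * Real.exp (-(κ * t))) (by have := hF.cont; fun_prop)
    (fun t => mul_nonneg (hF.nonneg t) (Real.exp_pos _).le) (hF.pf.tilt κ) h1 h2
  have h3 : F c * Real.exp (-(κ * c)) ≤ F s * Real.exp (-(κ * s)) := by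
    have := mul_le_mul_of_nonneg_right hs (Real.exp_pos (-(κ * s))).le
    rw [mul_assoc, ← Real.exp_add] at this
    rwa [show κ * (s - c) + -(κ * s) = -(κ * c) by ring] at this
  simp only [min_eq_left h3] at hq
  have := mul_le_mul_of_nonneg_right hq (Real.exp_pos (κ * y)).le
  rw [mul_assoc, mul_assoc, ← Real.exp_add, ← Real.exp_add] at this
  rw [show -(κ * c) + κ * y = κ * (y - c) by ring, show -(κ * y) + κ * y = 0 by ring,
    Real.exp_zero, mul_one] at this
  exact this

lemma compare_left {F : ℝ → ℝ} (hF : Good F) {c s κ y : ℝ} (hcs : c < s) (hpos : 0 < F c)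
    (hs : F c * Real.exp (κ * (s - c)) ≤ F s) (h1 : y ≤ c) :
    F y ≤ F c * Real.exp (κ * (y - c)) := by
  have main : ∀ κ' < κ, F y ≤ F c * Real.exp (κ' * (y - c)) := by
    intro κ' hκ'
    have hq := quasi (φ := fun t => F t * Real.exp (-(κ' * t))) (by have := hF.cont; fun_prop)
      (fun t => mul_nonneg (hF.nonneg t) (Real.exp_pos _).le) (hF.pf.tilt κ') h1 hcs.le
    have h3 : F c * Real.exp (-(κ' * c)) < F s * Real.exp (-(κ' * s)) := by
      have h4 : F c * Real.exp (κ' * (s - c)) < F s := by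
        refine lt_of_lt_of_le ?_ hs
        apply mul_lt_mul_of_pos_left _ hpos
        apply Real.exp_lt_exp.mpr
        nlinarith
      have := mul_lt_mul_of_pos_right h4 (Real.exp_pos (-(κ' * s)))
      rw [mul_assoc, ← Real.exp_add] at this
      rwa [show κ' * (s - c) + -(κ' * s) = -(κ' * c) by ring] at this
    have h5 : F y * Real.exp (-(κ' * y)) ≤ F c * Real.exp (-(κ' * c)) := by
      rcases min_le_iff.mp hq with h | h
      · exact h
      · exact absurd h3 (not_lt.mpr h)
    have := mul_le_mul_of_nonneg_right h5 (Real.exp_pos (κ' * y)).le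
    rw [mul_assoc, mul_assoc, ← Real.exp_add, ← Real.exp_add] at this
    rw [show -(κ' * c) + κ' * y = κ' * (y - c) by ring, show -(κ' * y) + κ' * y = 0 by ring,
      Real.exp_zero, mul_one] at this
    exact this
  have hcont : Continuous fun k => F c * Real.exp (k * (y - c)) := by fun_prop
  have ht : Tendsto (fun k => F c * Real.exp (k * (y - c))) (𝓝[<] κ)
      (𝓝 (F c * Real.exp (κ * (y - c)))) := hcont.continuousAt.tendsto.mono_left nhdsWithin_le_nhds
  refine ge_of_tendsto ht ?_
  filter_upwards [self_mem_nhdsWithin] with k hk using main k hk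

/-- pointwise representation of `1 - g` -/
lemma one_sub_g (v : ℝ) : 1 - Crest.AlgGeometry.truncExpWeight v =
    ∫ u, (1 - u) * max (v - u) 0 ∂μ := by
  rw [integral_mu]
  unfold Crest.AlgGeometry.truncExpWeight
  split_ifs with hv
  · rw [sub_self]
    symm
    apply setIntegral_eq_zero_of_forall_eq_zero
    intro u hu
    have hu0 : (0:ℝ) < u := hu
    rw [max_eq_right (by linarith)]
    ring
  · push Not at hv
    have h1 : ∫ u in Ioi (0:ℝ), (1 - u) * max (v - u) 0 * Real.exp (-u) =
        ∫ u in Ioc (0:ℝ) v, (1 - u) * max (v - u) 0 * Real.exp (-u) := by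
      apply setIntegral_eq_of_subset_of_forall_sdiff_eq_zero measurableSet_Ioi Ioc_subset_Ioi_self
      intro u hu
      have : v < u := by
        by_contra hcon
        push Not at hcon
        exact hu.2 ⟨hu.1, hcon⟩
      rw [max_eq_right (by linarith)]
      ring
    have h2 : ∫ u in Ioc (0:ℝ) v, (1 - u) * max (v - u) 0 * Real.exp (-u) =
        ∫ u in Ioc (0:ℝ) v, (1 - u) * (v - u) * Real.exp (-u) := by
      refine setIntegral_congr_fun measurableSet_Ioc (fun u hu => ?_)
      show (1 - u) * max (v - u) 0 * Real.exp (-u) = (1 - u) * (v - u) * Real.exp (-u)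
      rw [max_eq_left (by linarith [hu.2])]
    rw [h1, h2, ← intervalIntegral.integral_of_le hv.le]
    have h3 : ∀ u ∈ uIcc (0:ℝ) v, HasDerivAt
        (fun u => u * (v - u) * Real.exp (-u) - (1 + u) * Real.exp (-u))
        ((1 - u) * (v - u) * Real.exp (-u)) u := by
      intro u _
      have e1 : HasDerivAt (fun u : ℝ => Real.exp (-u)) (-Real.exp (-u)) u := by
        have := (hasDerivAt_neg u).exp
        simpa using this
      have e2 : HasDerivAt (fun u : ℝ => u * (v - u)) (1 * (v - u) + u * (0 - 1)) u :=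
        (hasDerivAt_id u).mul ((hasDerivAt_const u v).sub (hasDerivAt_id u))
      have e3 : HasDerivAt (fun u : ℝ => 1 + u) (0 + 1) u :=
        (hasDerivAt_const u (1:ℝ)).add (hasDerivAt_id u)
      have e4 := (e2.mul e1).sub (e3.mul e1)
      refine e4.congr_deriv ?_
      ring
    rw [intervalIntegral.integral_eq_sub_of_hasDerivAt h3]
    · simp
      ring
    · apply Continuous.intervalIntegrable
      fun_prop


lemma continuous_lin {N : ℕ} (a : Fin N → ℝ) : Continuous (lin a) := by
  unfold lin; fun_prop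

lemma int_aux1 : Integrable (fun u : ℝ => |1 - u|) μ :=
  ((integrable_const (1:ℝ)).sub integrable_id_mu).abs

lemma int_aux2 : Integrable (fun u : ℝ => |1 - u| * (4 / 3 + |u|)) μ := by
  have hb : Integrable (fun u : ℝ => (4/3 : ℝ) + 3 * |u| + u ^ 2) μ :=
    ((integrable_const _).add (integrable_id_mu.abs.const_mul 3)).add integrable_sq_mu
  refine hb.mono' (Continuous.aestronglyMeasurable (by fun_prop)) (ae_of_all _ fun u => ?_)
  rw [Real.norm_eq_abs, abs_of_nonneg (by positivity)]
  have h1 : |1 - u| ≤ 1 + |u| := by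
    calc |1 - u| ≤ |1| + |u| := abs_sub _ _
      _ = 1 + |u| := by rw [abs_one]
  have h2 : 0 ≤ |u| := abs_nonneg u
  have h3 : u ^ 2 = |u| ^ 2 := (sq_abs u).symm
  rw [h3]
  nlinarith

lemma exp_one_sub_g {N : ℕ} (a : Fin N → ℝ) :
    ∫ x, (1 - Crest.AlgGeometry.truncExpWeight (4 / 3 + lin a x)) ∂(Measure.pi (fun _ : Fin N => μ)) =
      ∫ u, (1 - u) * H a (4 / 3 - u) ∂μ := by
  simp_rw [one_sub_g]
  have hint : Integrable (Function.uncurry fun (x : Fin N → ℝ) (u : ℝ) =>
      (1 - u) * max (4 / 3 + lin a x - u) 0) ((Measure.pi (fun _ : Fin N => μ)).prod μ) := by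
    have hb : Integrable (fun p : (Fin N → ℝ) × ℝ => |lin a p.1| * |1 - p.2| +
        (1:ℝ) * (|1 - p.2| * (4 / 3 + |p.2|))) ((Measure.pi (fun _ : Fin N => μ)).prod μ) := by
      apply Integrable.add
      · exact (integrable_lin a).abs.mul_prod int_aux1
      · exact (integrable_const (1:ℝ)).mul_prod int_aux2
    refine hb.mono' (Continuous.aestronglyMeasurable ?_) (ae_of_all _ fun p => ?_)
    · have := continuous_lin a
      unfold Function.uncurry
      fun_prop
    · unfold Function.uncurry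
      rw [Real.norm_eq_abs, abs_mul]
      have h1 : |max (4 / 3 + lin a p.1 - p.2) 0| ≤ 4 / 3 + |lin a p.1| + |p.2| := by
        rw [abs_of_nonneg (le_max_right _ _)]
        apply max_le
        · have := le_abs_self (lin a p.1)
          have := neg_abs_le p.2
          linarith
        · positivity
      have h2 : 0 ≤ |1 - p.2| := abs_nonneg _
      nlinarith
  rw [integral_integral_swap hint]
  refine integral_congr_ae (ae_of_all _ fun u => ?_)
  show ∫ x, (1 - u) * max (4 / 3 + lin a x - u) 0 ∂(Measure.pi (fun _ : Fin N => μ)) = _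
  rw [integral_const_mul]
  congr 1
  unfold H
  refine integral_congr_ae (ae_of_all _ fun x => ?_)
  show max (4 / 3 + lin a x - u) 0 = max (4 / 3 - u + lin a x) 0
  congr 1; ring

lemma tilted_integral (κ : ℝ) (hκ : 0 < κ) :
    Integrable (fun u : ℝ => (1 - u) * Real.exp (-(κ * u))) μ ∧
    ∫ u, (1 - u) * Real.exp (-(κ * u)) ∂μ = κ / (1 + κ) ^ 2 := by
  have hb : 0 < 1 + κ := by linarith
  have i0 : IntegrableOn (fun u : ℝ => Real.exp (-((1 + κ) * u))) (Ioi 0) := by
    have := integrableOn_Ioi_comp_mul_left_iff (fun x : ℝ => Real.exp (-x)) 0 hb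
    rw [mul_zero] at this
    exact this.mpr int0
  have i1 : IntegrableOn (fun u : ℝ => ((1 + κ) * u) * Real.exp (-((1 + κ) * u))) (Ioi 0) := by
    have := integrableOn_Ioi_comp_mul_left_iff (fun x : ℝ => x * Real.exp (-x)) 0 hb
    rw [mul_zero] at this
    exact this.mpr int1
  have i2 : IntegrableOn (fun u : ℝ => u * Real.exp (-((1 + κ) * u))) (Ioi 0) := by
    have := i1.const_mul (1 + κ)⁻¹
    refine this.congr (ae_of_all _ fun u => ?_)
    show (1 + κ)⁻¹ * (((1 + κ) * u) * Real.exp (-((1 + κ) * u))) = u * Real.exp (-((1 + κ) * u))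
    field_simp
  have v0 : ∫ u in Ioi (0:ℝ), Real.exp (-((1 + κ) * u)) = (1 + κ)⁻¹ := by
    have := integral_comp_mul_left_Ioi (fun x : ℝ => Real.exp (-x)) 0 hb
    rw [mul_zero, integral_exp_neg_Ioi_zero, smul_eq_mul, mul_one] at this
    exact this
  have v1 : ∫ u in Ioi (0:ℝ), u * Real.exp (-((1 + κ) * u)) = ((1 + κ)⁻¹) ^ 2 := by
    have h1 := integral_comp_mul_left_Ioi (fun x : ℝ => x * Real.exp (-x)) 0 hb
    rw [mul_zero] at h1
    have h2 : ∫ x in Ioi (0:ℝ), x * Real.exp (-x) = 1 := by
      rw [← integral_mu (fun x => x)]; exact integral_id_mu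
    rw [h2, smul_eq_mul, mul_one] at h1
    have h3 : ∫ u in Ioi (0:ℝ), u * Real.exp (-((1 + κ) * u)) =
        (1 + κ)⁻¹ * ∫ u in Ioi (0:ℝ), ((1 + κ) * u) * Real.exp (-((1 + κ) * u)) := by
      rw [← integral_const_mul]
      refine setIntegral_congr_fun measurableSet_Ioi (fun u _ => ?_)
      show u * Real.exp (-((1 + κ) * u)) = (1 + κ)⁻¹ * (((1 + κ) * u) * Real.exp (-((1 + κ) * u)))
      field_simp
    rw [h3, h1]; ring
  have hfun : (fun u : ℝ => (1 - u) * Real.exp (-(κ * u)) * Real.exp (-u)) =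
      fun u => Real.exp (-((1 + κ) * u)) - u * Real.exp (-((1 + κ) * u)) := by
    ext u
    rw [mul_assoc, ← Real.exp_add, show -(κ * u) + -u = -((1 + κ) * u) by ring]
    ring
  constructor
  · rw [integrable_mu_iff, hfun]
    exact i0.sub i2
  · rw [integral_mu, hfun, integral_sub i0 i2, v0, v1]
    field_simp
    ring

/-- the analytic core: lower bound on `∫ (1-u) H(4/3-u)` -/
lemma core {F : ℝ → ℝ} (hF : Good F) (hid : ∀ y, y ≤ F y) {s κ : ℝ} (hs : 4 / 3 ≤ s)
    (hκ : 0 < κ) (hsk : F (1 / 3) * Real.exp (κ * (s - 1 / 3)) ≤ s) :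
    F (1 / 3) * Real.exp κ * (κ / (1 + κ) ^ 2) ≤ ∫ u, (1 - u) * F (4 / 3 - u) ∂μ := by
  have hpos : 0 < F (1 / 3) := lt_of_lt_of_le (by norm_num) (hid (1 / 3))
  have hs' : F (1 / 3) * Real.exp (κ * (s - 1 / 3)) ≤ F s := hsk.trans (hid s)
  obtain ⟨t1, t2⟩ := tilted_integral κ hκ
  have h1 : ∫ u, (1 - u) * (F (1 / 3) * Real.exp (κ * (1 - u))) ∂μ =
      F (1 / 3) * Real.exp κ * (κ / (1 + κ) ^ 2) := by
    rw [← t2, ← integral_const_mul]
    refine integral_congr_ae (ae_of_all _ fun u => ?_)
    show (1 - u) * (F (1 / 3) * Real.exp (κ * (1 - u))) =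
      F (1 / 3) * Real.exp κ * ((1 - u) * Real.exp (-(κ * u)))
    rw [show κ * (1 - u) = κ + -(κ * u) by ring, Real.exp_add]
    ring
  rw [← h1]
  refine integral_mono_ae ?_ ?_ ?_
  · have := t1.const_mul (F (1 / 3) * Real.exp κ)
    refine this.congr (ae_of_all _ fun u => ?_)
    show F (1 / 3) * Real.exp κ * ((1 - u) * Real.exp (-(κ * u))) =
      (1 - u) * (F (1 / 3) * Real.exp (κ * (1 - u)))
    rw [show κ * (1 - u) = κ + -(κ * u) by ring, Real.exp_add]
    ring
  · have hb : Integrable (fun u : ℝ => |F 0| * |1 - u| + |1 - u| * (4 / 3 + |u|)) μ :=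
      (int_aux1.const_mul _).add int_aux2
    refine hb.mono' (Continuous.aestronglyMeasurable ?_) (ae_of_all _ fun u => ?_)
    · have := hF.cont; fun_prop
    · rw [Real.norm_eq_abs, abs_mul]
      have h2 : |F (4 / 3 - u)| ≤ |F 0| + (4 / 3 + |u|) := by
        have h3 := hF.lip (4 / 3 - u) 0
        have h4 : |F (4/3 - u)| - |F 0| ≤ |F (4/3 - u) - F 0| := abs_sub_abs_le_abs_sub _ _
        have h5 : |4 / 3 - u - 0| ≤ 4 / 3 + |u| := by
          rw [sub_zero]
          calc |4 / 3 - u| ≤ |4/3| + |u| := abs_sub _ _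
            _ = 4 / 3 + |u| := by rw [abs_of_pos (by norm_num : (0:ℝ) < 4/3)]
        linarith
      have h6 : 0 ≤ |1 - u| := abs_nonneg _
      nlinarith
  · filter_upwards [ae_pos_mu] with u hu0
    have e : 4 / 3 - u - 1 / 3 = 1 - u := by ring
    rcases le_total u 1 with hu | hu
    · apply mul_le_mul_of_nonneg_left _ (by linarith)
      have := compare_right hF (κ := κ) (y := 4 / 3 - u) hs' (by linarith) (by linarith)
      rwa [e] at this
    · have := compare_left hF (κ := κ) (y := 4 / 3 - u) (by linarith) hpos hs' (by linarith)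
      rw [e] at this
      nlinarith

lemma exp_third : Real.exp (-(1 / 3)) ≤ 0.72 := by
  have h1 : Real.exp (1 / 3) ^ 3 = Real.exp 1 := by
    rw [← Real.exp_nat_mul]; norm_num
  have h2 := Real.exp_one_gt_d9
  have h3 : (1.389 : ℝ) ≤ Real.exp (1 / 3) := by
    by_contra hcon
    push Not at hcon
    have h4 : Real.exp (1/3) ^ 3 < 1.389 ^ 3 :=
      pow_lt_pow_left₀ hcon (Real.exp_pos _).le (by norm_num)
    rw [h1] at h4
    norm_num at h4
    linarith
  rw [Real.exp_neg, inv_le_comm₀ (Real.exp_pos _) (by norm_num)]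
  refine le_trans ?_ h3
  norm_num

lemma core_bound {F : ℝ → ℝ} (hF : Good F) (hid : ∀ y, y ≤ F y) :
    4 / 9 * Real.exp (-(1 / 3)) ≤ ∫ u, (1 - u) * F (4 / 3 - u) ∂μ := by
  set h := F (1 / 3) with hh
  have h13 : 1 / 3 ≤ h := hid (1 / 3)
  have hpos : 0 < h := by linarith
  rcases le_or_gt (4 / 3 * Real.exp (-(3 / 4))) h with hcase | hcase
  · -- case A
    let f : ℝ → ℝ := fun s => s * Real.exp (-1 + 1 / (3 * s))
    have hcont : ContinuousOn f (Icc (4 / 3) (max (4 / 3) (Real.exp 1 * h))) := by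
      apply ContinuousOn.mul continuousOn_id
      apply ContinuousOn.rexp
      apply ContinuousOn.add continuousOn_const
      apply ContinuousOn.div continuousOn_const (by fun_prop)
      intro x hx
      have := hx.1
      positivity
    have himg := intermediate_value_Icc (le_max_left (4/3 : ℝ) (Real.exp 1 * h)) hcont
    have hmem : h ∈ Icc (f (4 / 3)) (f (max (4 / 3) (Real.exp 1 * h))) := by
      constructor
      · show 4 / 3 * Real.exp (-1 + 1 / (3 * (4 / 3))) ≤ h
        rw [show (-1 : ℝ) + 1 / (3 * (4 / 3)) = -(3 / 4) by norm_num]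
        exact hcase
      · show h ≤ max (4 / 3) (Real.exp 1 * h) * Real.exp (-1 + 1 / (3 * max (4 / 3) (Real.exp 1 * h)))
        set M := max (4 / 3 : ℝ) (Real.exp 1 * h) with hM
        have hM0 : 0 < M := lt_of_lt_of_le (by norm_num) (le_max_left _ _)
        have h1 : Real.exp (-1) ≤ Real.exp (-1 + 1 / (3 * M)) := by
          apply Real.exp_le_exp.mpr
          have : 0 ≤ 1 / (3 * M) := by positivity
          linarith
        calc h = (Real.exp 1 * h) * Real.exp (-1) := by
              rw [mul_comm (Real.exp 1) h, mul_assoc, ← Real.exp_add]; norm_num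
          _ ≤ M * Real.exp (-1) := mul_le_mul_of_nonneg_right (le_max_right _ _) (Real.exp_pos _).le
          _ ≤ M * Real.exp (-1 + 1 / (3 * M)) := mul_le_mul_of_nonneg_left h1 hM0.le
    obtain ⟨s, hsI, hsf⟩ := himg hmem
    have hs43 : 4 / 3 ≤ s := hsI.1
    have hs0 : 0 < s := by linarith
    have hsf' : s * Real.exp (-1 + 1 / (3 * s)) = h := hsf
    have hκ : 0 < 1 / s := by positivity
    have hsk : h * Real.exp (1 / s * (s - 1 / 3)) ≤ s := by
      rw [← hsf', mul_assoc, ← Real.exp_add]
      rw [show -1 + 1 / (3 * s) + 1 / s * (s - 1 / 3) = 0 by field_simp; ring]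
      simp
    have hcore := core hF hid hs43 hκ hsk
    refine le_trans ?_ hcore
    rw [← hh, ← hsf', mul_assoc s, ← Real.exp_add]
    -- exp(-1+1/(3s)+1/s) 
    have e1 : 1 / s / (1 + 1 / s) ^ 2 = s / (1 + s) ^ 2 := by
      field_simp
      ring
    rw [e1]
    have e2 : Real.exp (-1 + 1 / (3 * s) + 1 / s) = Real.exp (-(1/3)) * Real.exp (2 / (3 * s) - 1 / 3) ^ 2 := by
      rw [← Real.exp_nat_mul, ← Real.exp_add]
      congr 1
      push_cast
      field_simp
      ring
    rw [e2]
    have h1 : 2 / (3 * s) + 2 / 3 ≤ Real.exp (2 / (3 * s) - 1 / 3) := by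
      have := Real.add_one_le_exp (2 / (3 * s) - 1 / 3)
      linarith
    have h2 : 2 / 3 ≤ Real.exp (2 / (3 * s) - 1 / 3) * (s / (1 + s)) := by
      have h3 : 0 ≤ s / (1 + s) := by positivity
      calc (2:ℝ) / 3 = (2 / (3 * s) + 2 / 3) * (s / (1 + s)) := by field_simp
        _ ≤ _ := mul_le_mul_of_nonneg_right h1 h3
    have h4 : 4 / 9 ≤ (Real.exp (2 / (3 * s) - 1 / 3) * (s / (1 + s))) ^ 2 := by nlinarith
    have e3 : s * (Real.exp (-(1/3)) * Real.exp (2 / (3 * s) - 1 / 3) ^ 2) * (s / (1 + s) ^ 2) =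
        Real.exp (-(1/3)) * (Real.exp (2 / (3 * s) - 1 / 3) * (s / (1 + s))) ^ 2 := by
      field_simp
    rw [e3]
    have := Real.exp_pos (-(1/3))
    nlinarith
  · -- case B
    set κ := Real.log (4 / 3 / h) with hκdef
    have hq : 0 < 4 / 3 / h := by positivity
    have hexp : Real.exp κ = 4 / 3 / h := Real.exp_log hq
    have hκ1 : 3 / 4 < κ := by
      rw [hκdef, Real.lt_log_iff_exp_lt hq, lt_div_iff₀ hpos]
      have := mul_lt_mul_of_pos_left hcase (Real.exp_pos (3/4))
      rw [← mul_assoc, mul_comm (Real.exp (3/4)) (4/3), mul_assoc, ← Real.exp_add] at this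
      norm_num at this
      linarith
    have hκ2 : κ ≤ 1.39 := by
      have h1 : κ ≤ Real.log 4 := by
        rw [hκdef]
        apply Real.log_le_log hq
        rw [div_le_iff₀ hpos]
        linarith
      have h2 : Real.log 4 = 2 * Real.log 2 := by
        rw [show (4:ℝ) = 2 ^ 2 by norm_num, Real.log_pow]; norm_num
      have := Real.log_two_lt_d9
      rw [h2] at h1
      norm_num at this ⊢
      linarith
    have hκ : 0 < κ := by linarith
    have hhe : h * Real.exp κ = 4 / 3 := by
      rw [hexp]; field_simp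
    have hsk : h * Real.exp (κ * (4 / 3 - 1 / 3)) ≤ 4 / 3 := by
      rw [show κ * (4 / 3 - 1 / 3) = κ by ring, hhe]
    have hcore := core hF hid le_rfl hκ hsk
    refine le_trans ?_ hcore
    rw [← hh, hhe]
    have h3 := exp_third
    have h4 : 0.24 ≤ κ / (1 + κ) ^ 2 := by
      rw [le_div_iff₀ (by positivity)]
      nlinarith
    nlinarith

theorem part1 (N : ℕ) (a : Fin N → ℝ) (_hN : 1 ≤ N) (ha : ∑ i, a i = 0) :
    Real.exp (4 / 3) / (4 / 3) *
        ∫ x in Set.pi Set.univ (fun _ : Fin N => Set.Ioi (0 : ℝ)),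
          Crest.AlgGeometry.truncExpWeight (4 / 3 + ∑ i, a i * x i) * Real.exp (-∑ i, x i)
      ≤ 3 / 4 * Real.exp (4 / 3) - Real.exp 1 / 3 := by
  have hb := core_bound (good_H a) (le_H a ha)
  rw [← exp_one_sub_g a] at hb
  have hg1 : ∀ v, 0 ≤ Crest.AlgGeometry.truncExpWeight v ∧ Crest.AlgGeometry.truncExpWeight v ≤ 1 := by
    intro v
    unfold Crest.AlgGeometry.truncExpWeight
    split_ifs with hv
    · norm_num
    · push Not at hv
      constructor
      · positivity
      · rw [Real.exp_neg, ← div_eq_mul_inv, div_le_one (Real.exp_pos _)]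
        linarith [Real.add_one_le_exp v]
  have hmeas : Measurable Crest.AlgGeometry.truncExpWeight := by
    unfold Crest.AlgGeometry.truncExpWeight
    apply Measurable.ite measurableSet_Iic measurable_const
    fun_prop
  have hint : Integrable (fun x => Crest.AlgGeometry.truncExpWeight (4 / 3 + lin a x))
      (Measure.pi (fun _ : Fin N => μ)) := by
    refine (integrable_const (1:ℝ)).mono' ?_ (ae_of_all _ fun x => ?_)
    · apply Measurable.aestronglyMeasurable
      have := (continuous_lin a).measurable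
      exact hmeas.comp (this.const_add _)
    · rw [Real.norm_eq_abs, abs_of_nonneg (hg1 _).1]
      exact (hg1 _).2
  rw [integral_sub (integrable_const _) hint] at hb
  simp only [integral_const, probReal_univ, smul_eq_mul, mul_one, one_mul] at hb
  rw [integral_pi_mu] at hb
  unfold lin at hb
  set I := ∫ x in Set.pi Set.univ (fun _ : Fin N => Set.Ioi (0 : ℝ)),
          Crest.AlgGeometry.truncExpWeight (4 / 3 + ∑ i, a i * x i) * Real.exp (-∑ i, x i)
  have h1 : Real.exp 1 = Real.exp (4/3) * Real.exp (-(1/3)) := by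
    rw [← Real.exp_add]; norm_num
  rw [h1]
  have h2 := Real.exp_pos (4/3)
  have h3 : I ≤ 1 - 4 / 9 * Real.exp (-(1/3)) := by linarith
  calc Real.exp (4 / 3) / (4 / 3) * I ≤ Real.exp (4 / 3) / (4 / 3) * (1 - 4 / 9 * Real.exp (-(1/3))) :=
        mul_le_mul_of_nonneg_left h3 (by positivity)
    _ = _ := by ring

end Crest.Agent.S0423.P1
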