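import Crest.Statements.S0438
import Crest.Agent.PLift.DupJ
import Crest.Agent.PLift.DupS
import Crest.Agent.PLift.PureJ
import Crest.Agent.PLift.PureS
import Crest.Agent.PLift.Card2
import Crest.Agent.PLift.Sp4
import Crest.Agent.PLift.Sp8

set_option autoImplicit false
open Crest.WLRefine Crest.WLRefine.ParityLift
open Crest Crest.LogicCS

namespace Crest.Agent.S0438

/-- Fix k ≥ 4; t = k+1 (joint updates) or k (separate). For every choice system on t domains the two parity lifts of its base graph (parities all even, versus odd at main type 0) are simple with equally many vertices — ≤ A·(t·2^(t−2+3·C(t−1,2)) + 12·C(t,3)) if domains and label sets have size ≤ A —, and are k-dimensionally equivalent, also by pure tuples in the disjoint union, exactly when no successful choice exists; a successful one shows at round 2 joint (1 separate) in both comparisons. -/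
theorem result (k : ℕ) (hk : 4 ≤ k) :
    (∀ C : ChoiceSystem (k + 1),
      IsSimple (asMatrix (liftAdj C (lift0Parity (k + 1)))) ∧ IsSimple (asMatrix (liftAdj C (liftStarParity (k + 1)))) ∧
      Fintype.card (LiftV C (lift0Parity (k + 1))) = Fintype.card (LiftV C (liftStarParity (k + 1))) ∧
      (∀ A : ℕ, 1 ≤ A → C.SizeAtMost A →
        Fintype.card (LiftV C (lift0Parity (k + 1))) ≤ A * orderFactor (k + 1)) ∧
      (JEquiv k (asMatrix (liftAdj C (lift0Parity (k + 1)))) (asMatrix (liftAdj C (liftStarParity (k + 1)))) ↔ ¬ C.Successful) ∧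
      (PureJEquiv k (asMatrix (liftAdj C (lift0Parity (k + 1)))) (asMatrix (liftAdj C (liftStarParity (k + 1)))) ↔ ¬ C.Successful) ∧
      (C.Successful → (Finset.univ.val.map (jcolor (asMatrix (liftAdj C (lift0Parity (k + 1)))) k 2)) ≠
          Finset.univ.val.map (jcolor (asMatrix (liftAdj C (liftStarParity (k + 1)))) k 2) ∧
        ¬ PureJHistEq k 2 (asMatrix (liftAdj C (lift0Parity (k + 1)))) (asMatrix (liftAdj C (liftStarParity (k + 1)))))) ∧
    (∀ C : ChoiceSystem k,
      IsSimple (asMatrix (liftAdj C (lift0Parity k))) ∧ IsSimple (asMatrix (liftAdj C (liftStarParity k))) ∧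
      Fintype.card (LiftV C (lift0Parity k)) = Fintype.card (LiftV C (liftStarParity k)) ∧
      (∀ A : ℕ, 1 ≤ A → C.SizeAtMost A →
        Fintype.card (LiftV C (lift0Parity k)) ≤ A * orderFactor k) ∧
      (SEquiv k (asMatrix (liftAdj C (lift0Parity k))) (asMatrix (liftAdj C (liftStarParity k))) ↔ ¬ C.Successful) ∧
      (PureSEquiv k (asMatrix (liftAdj C (lift0Parity k))) (asMatrix (liftAdj C (liftStarParity k))) ↔ ¬ C.Successful) ∧
      (C.Successful → (Finset.univ.val.map (scolor (asMatrix (liftAdj C (lift0Parity k))) k 1)) ≠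
          Finset.univ.val.map (scolor (asMatrix (liftAdj C (liftStarParity k))) k 1) ∧
        ¬ PureSHistEq k 1 (asMatrix (liftAdj C (lift0Parity k))) (asMatrix (liftAdj C (liftStarParity k))))) := by
  refine ⟨fun C => ?_, fun C => ?_⟩
  · refine ⟨Crest.Agent.PLift.isSimple_lift _, Crest.Agent.PLift.isSimple_lift _,
      Crest.Agent.PLift.card_lift_eq (by omega) C,
      fun A _ hA => Crest.Agent.PLift.card_lift_le (by omega) C A hA,
      ⟨fun h hS => ?_, fun hS => Crest.Agent.PLift.dupJ k (by omega) C hS⟩,
      ⟨fun h hS => ?_, fun hS => Crest.Agent.PLift.pureJ k (by omega) C hS⟩, fun hS => ?_⟩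
    · exact (Crest.Agent.PLift.joint_hist_ne (by omega)
        (Crest.Agent.PLift.homT_ne (by omega) C hS)).1 (h 2)
    · exact (Crest.Agent.PLift.joint_hist_ne (by omega)
        (Crest.Agent.PLift.homT_ne (by omega) C hS)).2 (h 2)
    · exact Crest.Agent.PLift.joint_hist_ne (by omega)
        (Crest.Agent.PLift.homT_ne (by omega) C hS)
  · refine ⟨Crest.Agent.PLift.isSimple_lift _, Crest.Agent.PLift.isSimple_lift _,
      Crest.Agent.PLift.card_lift_eq (by omega) C,
      fun A _ hA => Crest.Agent.PLift.card_lift_le (by omega) C A hA,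
      ⟨fun h hS => ?_, fun hS => Crest.Agent.PLift.dupS k (by omega) C hS⟩,
      ⟨fun h hS => ?_, fun hS => Crest.Agent.PLift.pureS k (by omega) C hS⟩, fun hS => ?_⟩
    · exact (Crest.Agent.PLift.sep_hist_ne (by omega)
        (Crest.Agent.PLift.homT_ne (by omega) C hS)).1 (h 1)
    · exact (Crest.Agent.PLift.sep_hist_ne (by omega)
        (Crest.Agent.PLift.homT_ne (by omega) C hS)).2 (h 1)
    · exact Crest.Agent.PLift.sep_hist_ne (by omega)
        (Crest.Agent.PLift.homT_ne (by omega) C hS)

end Crest.Agent.S0438
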