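import Crest.Statements.S0468
import Crest.Agent.MS.Final
import Crest.Agent.MS.Link

set_option autoImplicit false
universe u
open Crest.OnlineMatroid
open Crest Crest.LogicCS

namespace Crest.Agent.S0468

/-- For every matroid on a finite ground set there are a seed probability space and a one-sample online rule (all samples seen in advance, each value on arrival) whose accepted set is always independent, such that for nonnegative sample/value pairs with all coordinates independent, each sample distributed as its value and finite expected optimum, the expected minimum over arrival orders of the accepted value (over seed and environment) is at least 2^(−310) of the expected optimum. -/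
theorem result (k : ℕ) (M : Matroid (Fin k)) :
    ∃ (ΩR : Type) (_ : MeasurableSpace ΩR) (μR : MeasureTheory.Measure ΩR) (R : SampleRule ΩR k),
      MeasureTheory.IsProbabilityMeasure μR ∧
      (∀ (r : ΩR) (s v : Fin k → ℝ) (order : List (Fin k)),
        M.Indep (sAccepted R r s v order : Set (Fin k))) ∧
      ∀ (Ω : Type u) [MeasurableSpace Ω] (P : MeasureTheory.Measure Ω)
        [MeasureTheory.IsProbabilityMeasure P] (S V : Ω → Fin k → ℝ),
        Measurable S → Measurable V → (∀ ω e, 0 ≤ S ω e ∧ 0 ≤ V ω e) →
        ProbabilityTheory.iIndepFun
          (fun (i : Fin k × Bool) (ω : Ω) => if i.2 = true then S ω i.1 else V ω i.1) P →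
        (∀ e, P.map (fun ω => S ω e) = P.map (fun ω => V ω e)) →
        ∫⁻ ω, optWeight M (V ω) ∂P ≠ ⊤ →
        (2 : ENNReal)⁻¹ ^ 310 * ∫⁻ ω, optWeight M (V ω) ∂P ≤
          ∫⁻ p, ⨅ σ : Equiv.Perm (Fin k),
            ENNReal.ofReal (∑ e ∈ sAccepted R p.1 (S p.2) (V p.2) (List.ofFn σ), V p.2 e)
            ∂(μR.prod P) :=
  Crest.Agent.MS.result_main.{u} k M (Crest.Agent.MS.locality M)
    (fun r A w => Crest.Agent.MS.algD_nest r A w)

end Crest.Agent.S0468
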