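import Crest.Statements.S0499
import Crest.Agent.SL68.Fin
import Crest.Agent.SL68.Block
import Crest.Agent.SL68.SmallT

set_option autoImplicit false
open Crest Crest.LogicCS

namespace Crest.Agent.S0499

/-- For each A > 0 there are c > 0 and d₀ such that for all d ≥ d₀, naturals M ≤ A·d² and T, and 0 < ε ≤ 1/10: if a randomized one-pass learner with at most 2^M states (own seed independent of the data; transitions read one pair (x_t, ⟪x_t, s⟫) at a time; optional early stopping; unit-vector output from stopping index, seed and final state), fed T independent standard Gaussian samples in ℝ^d with s uniform on the sphere, is within angle ε of s with probability ≥ 2/3, then T ≥ c·d·log(1/ε). -/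
theorem result :
    ∀ A : ℝ, 0 < A → ∃ c : ℝ, 0 < c ∧ ∃ d₀ : ℕ, ∀ d ≥ d₀, ∀ (M T : ℕ),
      (M : ℝ) ≤ A * (d : ℝ) ^ 2 → ∀ ε : ℝ, 0 < ε → ε ≤ 1 / 10 →
        ∀ L : Crest.StreamLearn.RLearner d T M,
          2 / 3 ≤ L.successProb ε → c * d * Real.log (1 / ε) ≤ T := by
  exact Crest.Agent.SL68.Lrn.final_of Crest.Agent.SL68.block_lemma
    (fun hd hT ε hε hε1 L => Crest.Agent.SL68.small_T hd hT ε hε hε1 L)

end Crest.Agent.S0499
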