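import Mathlib
import Crest.Prelude.Def_PolyominoGame

set_option autoImplicit false

namespace Crest.Agent.SnakyBase

open Crest.CombinatoricsR.PolyominoGame

/-- `MWin n A D`: with Maker's cells `A` and Breaker's cells `D`, Maker to move, Maker can make
`n` further legal claims so that afterwards his cells contain a copy. -/
def MWin : ℕ → Set (ℤ × ℤ) → Set (ℤ × ℤ) → Prop
  | 0, A, _ => ContainsCopy A
  | n + 1, A, D => ∃ x, x ∉ A ∧ x ∉ D ∧
      ∀ y, y ∉ A → y ≠ x → y ∉ D → MWin n (insert x A) (insert y D)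

theorem containsCopy_mono {A B : Set (ℤ × ℤ)} (h : A ⊆ B) (hA : ContainsCopy A) :
    ContainsCopy B := by
  obtain ⟨t, e1, e2, h1, h2, h3⟩ := hA
  refine ⟨t, e1, e2, h1, h2, ?_⟩
  rcases h3 with h3 | h3
  · exact Or.inl fun p hp => h (h3 p hp)
  · exact Or.inr fun p hp => h (h3 p hp)

theorem exists_fresh {A : Set (ℤ × ℤ)} (hA : A.Finite) : ∃ x, x ∉ A :=
  hA.exists_notMem

theorem MWin.of_copy {n : ℕ} : ∀ {A D : Set (ℤ × ℤ)}, A.Finite → D.Finite → ContainsCopy A →
    MWin n A D := by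
  induction n with
  | zero => intro A D _ _ h; exact h
  | succ n ih =>
    intro A D hA hD h
    obtain ⟨x, hx⟩ := exists_fresh (hA.union hD)
    refine ⟨x, fun hx' => hx (Or.inl hx'), fun hx' => hx (Or.inr hx'), ?_⟩
    intro y _ _ _
    exact ih (hA.insert x) (hD.insert y) (containsCopy_mono (Set.subset_insert x A) h)

theorem MWin.succ {n : ℕ} : ∀ {A D : Set (ℤ × ℤ)}, A.Finite → D.Finite → MWin n A D →
    MWin (n + 1) A D := by
  induction n with
  | zero => intro A D hA hD h; exact MWin.of_copy hA hD h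
  | succ n ih =>
    intro A D hA hD h
    obtain ⟨x, h1, h2, h3⟩ := h
    refine ⟨x, h1, h2, ?_⟩
    intro y hy1 hy2 hy3
    exact ih (hA.insert x) (hD.insert y) (h3 y hy1 hy2 hy3)

theorem MWin.mono {n m : ℕ} (hnm : n ≤ m) {A D : Set (ℤ × ℤ)} (hA : A.Finite) (hD : D.Finite)
    (h : MWin n A D) : MWin m A D := by
  induction hnm with
  | refl => exact h
  | step _ ih => exact MWin.succ hA hD ih

/-- decoding of bit positions: a 16 × 16 window -/
def dec (i : ℕ) : ℤ × ℤ := (((i % 16 : ℕ) : ℤ), ((i / 16 : ℕ) : ℤ))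

theorem dec_inj {i j : ℕ} (h : dec i = dec j) : i = j := by
  have h1 : ((i % 16 : ℕ) : ℤ) = ((j % 16 : ℕ) : ℤ) := congrArg Prod.fst h
  have h2 : ((i / 16 : ℕ) : ℤ) = ((j / 16 : ℕ) : ℤ) := congrArg Prod.snd h
  omega

def cells (m : ℕ) : Set (ℤ × ℤ) := {c | ∃ i, m.testBit i = true ∧ c = dec i}

theorem dec_mem_cells {m i : ℕ} : dec i ∈ cells m ↔ m.testBit i = true := by
  constructor
  · rintro ⟨j, hj, h⟩
    rw [dec_inj h]; exact hj
  · intro h; exact ⟨i, h, rfl⟩

theorem mem_cells_lor {a b : ℕ} {c : ℤ × ℤ} : c ∈ cells (Nat.lor a b) ↔ c ∈ cells a ∨ c ∈ cells b := by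
  constructor
  · rintro ⟨j, hj, h⟩
    have : (a ||| b).testBit j = true := hj
    rw [Nat.testBit_or, Bool.or_eq_true] at this
    rcases this with h' | h'
    · exact Or.inl ⟨j, h', h⟩
    · exact Or.inr ⟨j, h', h⟩
  · rintro (⟨j, hj, h⟩ | ⟨j, hj, h⟩)
    · refine ⟨j, ?_, h⟩
      show (a ||| b).testBit j = true
      rw [Nat.testBit_or, hj, Bool.true_or]
    · refine ⟨j, ?_, h⟩
      show (a ||| b).testBit j = true
      rw [Nat.testBit_or, hj, Bool.or_true]

theorem mem_cells_land {a b : ℕ} {c : ℤ × ℤ} (ha : c ∈ cells a) (hb : c ∈ cells b) :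
    c ∈ cells (Nat.land a b) := by
  obtain ⟨i, hi, rfl⟩ := ha
  rw [dec_mem_cells] at hb
  refine ⟨i, ?_, rfl⟩
  show (a &&& b).testBit i = true
  rw [Nat.testBit_and, hi, hb]; rfl

theorem cells_subset {a b : ℕ} (h : Nat.lor a b = b) : cells a ⊆ cells b := by
  intro c hc
  rw [← h]
  exact mem_cells_lor.2 (Or.inl hc)

theorem cells_bit (x : ℕ) : cells (Nat.shiftLeft 1 x) = {dec x} := by
  ext c
  constructor
  · rintro ⟨i, hi, rfl⟩
    have hi' : (1 <<< x).testBit i = true := hi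
    rw [Nat.testBit_shiftLeft] at hi'
    simp only [Bool.and_eq_true, decide_eq_true_eq, Nat.testBit_one_eq_true_iff_self_eq_zero] at hi'
    have : i = x := by omega
    rw [this]; rfl
  · intro h
    rw [Set.mem_singleton_iff] at h
    subst h
    refine ⟨x, ?_, rfl⟩
    show (1 <<< x).testBit x = true
    rw [Nat.testBit_shiftLeft]
    simp

/-- A winning pattern. -/
def Win (n M U : ℕ) : Prop :=
  ∀ A D : Set (ℤ × ℤ), A.Finite → D.Finite → cells M ⊆ A → (∀ c ∈ D, c ∉ cells U) → MWin n A D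

/-- A family of winning patterns, seen from Breaker's move. -/
def Fam (n M I W : ℕ) : Prop :=
  ∀ A D : Set (ℤ × ℤ), A.Finite → D.Finite → cells M ⊆ A → (∀ c ∈ D, c ∉ cells W) →
    ∀ y, y ∉ cells I → MWin n A (insert y D)

theorem fw {n M U : ℕ} (k : ℕ) (h : Win n M U) (hk : Nat.ble n k = true) : Fam k M U U := by
  intro A D hA hD hM hU y hy
  refine MWin.mono (Nat.le_of_ble_eq_true hk) hA (hD.insert y) ?_
  refine h A (insert y D) hA (hD.insert y) hM ?_
  intro c hc
  rcases Set.mem_insert_iff.1 hc with rfl | hc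
  · exact hy
  · exact hU c hc

theorem cb {n M1 I1 W1 M2 I2 W2 : ℕ} (h1 : Fam n M1 I1 W1) (h2 : Fam n M2 I2 W2) :
    Fam n (Nat.lor M1 M2) (Nat.land I1 I2) (Nat.lor W1 W2) := by
  intro A D hA hD hM hU y hy
  by_cases hy1 : y ∈ cells I1
  · refine h2 A D hA hD (fun c hc => hM (mem_cells_lor.2 (Or.inr hc)))
      (fun c hc hc' => hU c hc (mem_cells_lor.2 (Or.inr hc'))) y ?_
    intro hy2
    exact hy (mem_cells_land hy1 hy2)
  · exact h1 A D hA hD (fun c hc => hM (mem_cells_lor.2 (Or.inl hc)))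
      (fun c hc hc' => hU c hc (mem_cells_lor.2 (Or.inl hc'))) y hy1

def chk (x M U M' I W : ℕ) : Bool :=
  and (Nat.beq (Nat.lor (Nat.lor M' I) (Nat.lor M (Nat.shiftLeft 1 x)))
      (Nat.lor M (Nat.shiftLeft 1 x)))
    (Nat.beq (Nat.lor (Nat.lor W (Nat.shiftLeft 1 x)) U) U)

theorem nd {n M' I W : ℕ} (x M U : ℕ) (h : Fam n M' I W) (hc : chk x M U M' I W = true) :
    Win (n + 1) M U := by
  rw [chk, Bool.and_eq_true] at hc
  have hs1 := cells_subset (Nat.eq_of_beq_eq_true hc.1)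
  have hs2 := cells_subset (Nat.eq_of_beq_eq_true hc.2)
  have hxU : dec x ∈ cells U :=
    hs2 (mem_cells_lor.2 (Or.inr (by rw [cells_bit]; rfl)))
  have hWU : cells W ⊆ cells U := fun c hc => hs2 (mem_cells_lor.2 (Or.inl hc))
  have hM' : ∀ {B : Set (ℤ × ℤ)}, cells M ⊆ B → dec x ∈ B → cells M' ⊆ B := by
    intro B hB hx c hc
    rcases mem_cells_lor.1 (hs1 (mem_cells_lor.2 (Or.inl hc))) with h' | h'
    · exact hB h'
    · rw [cells_bit] at h'
      rw [Set.mem_singleton_iff.1 h']; exact hx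
  have hI : ∀ {B : Set (ℤ × ℤ)}, cells M ⊆ B → dec x ∈ B → cells I ⊆ B := by
    intro B hB hx c hc
    rcases mem_cells_lor.1 (hs1 (mem_cells_lor.2 (Or.inr hc))) with h' | h'
    · exact hB h'
    · rw [cells_bit] at h'
      rw [Set.mem_singleton_iff.1 h']; exact hx
  intro A D hA hD hMA hUD
  have key : ∀ z, cells M ⊆ insert z A → dec x ∈ insert z A → ∀ y, y ∉ A → y ≠ z →
      MWin n (insert z A) (insert y D) := by
    intro z hz hx y hy1 hy2
    refine h (insert z A) D (hA.insert z) hD (hM' hz hx) (fun c hc hc' => hUD c hc (hWU hc')) y ?_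
    intro hy
    rcases Set.mem_insert_iff.1 (hI hz hx hy) with h' | h'
    · exact hy2 h'
    · exact hy1 h'
  by_cases hxA : dec x ∈ A
  · obtain ⟨z, hz⟩ := exists_fresh (hA.union hD)
    refine ⟨z, fun h' => hz (Or.inl h'), fun h' => hz (Or.inr h'), ?_⟩
    intro y hy1 hy2 _
    exact key z (hMA.trans (Set.subset_insert z A)) (Set.mem_insert_of_mem z hxA) y hy1 hy2
  · refine ⟨dec x, hxA, fun h' => hUD _ h' hxU, ?_⟩
    intro y hy1 hy2 _
    exact key (dec x) (hMA.trans (Set.subset_insert _ A)) (Set.mem_insert _ A) y hy1 hy2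

/-- a full copy -/
def Won (C : ℕ) : Prop := ContainsCopy (cells C)

def inC (C : ℕ) (c : ℤ × ℤ) : Bool :=
  match c with
  | (Int.ofNat a, Int.ofNat b) => and (Nat.ble a 15) (Nat.testBit C (Nat.add a (Nat.mul 16 b)))
  | _ => false

theorem inC_mem {C : ℕ} {c : ℤ × ℤ} (h : inC C c = true) : c ∈ cells C := by
  obtain ⟨a, b⟩ := c
  match a, b, h with
  | Int.ofNat a, Int.ofNat b, h =>
    rw [inC, Bool.and_eq_true] at h
    have h1 := Nat.le_of_ble_eq_true h.1
    refine ⟨Nat.add a (Nat.mul 16 b), h.2, ?_⟩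
    have e1 : (a + 16 * b) % 16 = a := by omega
    have e2 : (a + 16 * b) / 16 = b := by omega
    show ((a : ℤ), (b : ℤ)) = ((((a + 16 * b) % 16 : ℕ) : ℤ), (((a + 16 * b) / 16 : ℕ) : ℤ))
    rw [e1, e2]
  | Int.ofNat a, Int.negSucc b, h => exact absurd h (by simp [inC])
  | Int.negSucc a, Int.ofNat b, h => exact absurd h (by simp [inC])
  | Int.negSucc a, Int.negSucc b, h => exact absurd h (by simp [inC])

def sgn (s : Bool) : ℤ := if s then 1 else -1

def wonChk (C : ℕ) (tx ty : ℤ) (s1 s2 sw : Bool) : Bool :=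
  match sw with
  | false => inC C (tx, ty) && inC C (tx + sgn s1, ty) && inC C (tx + sgn s1 * 2, ty) &&
      inC C (tx + sgn s1 * 3, ty) && inC C (tx + sgn s1 * 3, ty + sgn s2) &&
      inC C (tx + sgn s1 * 4, ty + sgn s2)
  | true => inC C (tx, ty) && inC C (tx, ty + sgn s2) && inC C (tx, ty + sgn s2 * 2) &&
      inC C (tx, ty + sgn s2 * 3) && inC C (tx + sgn s1, ty + sgn s2 * 3) &&
      inC C (tx + sgn s1, ty + sgn s2 * 4)

theorem won_of {C : ℕ} (tx ty : ℤ) (s1 s2 sw : Bool) (h : wonChk C tx ty s1 s2 sw = true) :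
    Won C := by
  have hs : ∀ s, sgn s = 1 ∨ sgn s = -1 := by intro s; cases s <;> simp [sgn]
  refine ⟨(tx, ty), sgn s1, sgn s2, hs s1, hs s2, ?_⟩
  cases sw
  · left
    simp only [wonChk, Bool.and_eq_true] at h
    obtain ⟨⟨⟨⟨⟨h0, h1⟩, h2⟩, h3⟩, h4⟩, h5⟩ := h
    intro p hp
    simp only [snaky, Finset.mem_insert, Finset.mem_singleton] at hp
    rcases hp with rfl | rfl | rfl | rfl | rfl | rfl
    · simpa using inC_mem h0
    · simpa using inC_mem h1
    · simpa using inC_mem h2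
    · simpa using inC_mem h3
    · simpa using inC_mem h4
    · simpa using inC_mem h5
  · right
    simp only [wonChk, Bool.and_eq_true] at h
    obtain ⟨⟨⟨⟨⟨h0, h1⟩, h2⟩, h3⟩, h4⟩, h5⟩ := h
    intro p hp
    simp only [snaky, Finset.mem_insert, Finset.mem_singleton] at hp
    rcases hp with rfl | rfl | rfl | rfl | rfl | rfl
    · simpa using inC_mem h0
    · simpa using inC_mem h1
    · simpa using inC_mem h2
    · simpa using inC_mem h3
    · simpa using inC_mem h4
    · simpa using inC_mem h5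

/-- five cells of a copy -/
theorem tm {C : ℕ} (h : Won C) (e M : ℕ)
    (hc : and (Nat.beq (Nat.lor (Nat.lor M (Nat.shiftLeft 1 e)) C) C)
      (Nat.beq (Nat.lor C (Nat.lor M (Nat.shiftLeft 1 e))) (Nat.lor M (Nat.shiftLeft 1 e))) = true) :
    Win 1 M C := by
  rw [Bool.and_eq_true] at hc
  have hs1 := cells_subset (Nat.eq_of_beq_eq_true hc.1)
  have hs2 := cells_subset (Nat.eq_of_beq_eq_true hc.2)
  have heC : dec e ∈ cells C :=
    hs1 (mem_cells_lor.2 (Or.inr (by rw [cells_bit]; rfl)))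
  have hC : ∀ {B : Set (ℤ × ℤ)}, cells M ⊆ B → dec e ∈ B → cells C ⊆ B := by
    intro B hB hx c hc
    rcases mem_cells_lor.1 (hs2 hc) with h' | h'
    · exact hB h'
    · rw [cells_bit] at h'
      rw [Set.mem_singleton_iff.1 h']; exact hx
  intro A D hA hD hMA hUD
  by_cases hxA : dec e ∈ A
  · obtain ⟨z, hz⟩ := exists_fresh (hA.union hD)
    refine ⟨z, fun h' => hz (Or.inl h'), fun h' => hz (Or.inr h'), ?_⟩
    intro y _ _ _
    exact containsCopy_mono (hC (hMA.trans (Set.subset_insert z A)) (Set.mem_insert_of_mem z hxA)) h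
  · refine ⟨dec e, hxA, fun h' => hUD _ h' heC, ?_⟩
    intro y _ _ _
    exact containsCopy_mono (hC (hMA.trans (Set.subset_insert _ A)) (Set.mem_insert _ A)) h

end Crest.Agent.SnakyBase
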