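import Crest.Agent.SnakyBase

set_option autoImplicit false

namespace Crest.Agent.SnakyBase

open Crest.CombinatoricsR.PolyominoGame

/-! ### symmetries -/

theorem MWin.preimage {g : ℤ × ℤ → ℤ × ℤ} (hg : ∀ x, g (g x) = x)
    (hc : ∀ X : Set (ℤ × ℤ), ContainsCopy X → ContainsCopy (g ⁻¹' X)) {n : ℕ} :
    ∀ {A D : Set (ℤ × ℤ)}, MWin n A D → MWin n (g ⁻¹' A) (g ⁻¹' D) := by
  induction n with
  | zero => intro A D h; exact hc A h
  | succ n ih =>
    intro A D h
    obtain ⟨x, h1, h2, h3⟩ := h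
    have hins : ∀ (z : ℤ × ℤ) (B : Set (ℤ × ℤ)), g ⁻¹' (insert z B) = insert (g z) (g ⁻¹' B) := by
      intro z B
      ext c
      simp only [Set.mem_preimage, Set.mem_insert_iff]
      constructor
      · rintro (h | h)
        · left; rw [← h, hg]
        · right; exact h
      · rintro (h | h)
        · left; rw [h, hg]
        · right; exact h
    refine ⟨g x, ?_, ?_, ?_⟩
    · show g (g x) ∉ A
      rw [hg]; exact h1
    · show g (g x) ∉ D
      rw [hg]; exact h2
    · intro y hy1 hy2 hy3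
      have := ih (h3 (g y) hy1 (fun h => hy2 (by rw [← h, hg])) hy3)
      rw [hins, hins, hg] at this
      exact this

def reflX (c : ℤ × ℤ) : ℤ × ℤ := (16 - c.1, c.2)
def reflY (c : ℤ × ℤ) : ℤ × ℤ := (c.1, 16 - c.2)
def swapC (c : ℤ × ℤ) : ℤ × ℤ := (c.2, c.1)

theorem reflX_reflX (x : ℤ × ℤ) : reflX (reflX x) = x := by
  simp [reflX]
theorem reflY_reflY (x : ℤ × ℤ) : reflY (reflY x) = x := by
  simp [reflY]
theorem swapC_swapC (x : ℤ × ℤ) : swapC (swapC x) = x := by
  simp [swapC]

theorem neg_sign {e : ℤ} (h : e = 1 ∨ e = -1) : -e = 1 ∨ -e = -1 := by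
  rcases h with rfl | rfl <;> simp

theorem copy_reflX (X : Set (ℤ × ℤ)) (h : ContainsCopy X) : ContainsCopy (reflX ⁻¹' X) := by
  obtain ⟨t, e1, e2, h1, h2, h3⟩ := h
  refine ⟨(16 - t.1, t.2), -e1, e2, neg_sign h1, h2, ?_⟩
  rcases h3 with h3 | h3
  · left
    intro p hp
    have := h3 p hp
    simp only [Set.mem_preimage, reflX]
    have e : (16 - (16 - t.1 + -e1 * p.1), t.2 + e2 * p.2) = (t.1 + e1 * p.1, t.2 + e2 * p.2) := by
      ext <;> simp; ring
    rw [e]; exact this
  · right
    intro p hp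
    have := h3 p hp
    simp only [Set.mem_preimage, reflX]
    have e : (16 - (16 - t.1 + -e1 * p.2), t.2 + e2 * p.1) = (t.1 + e1 * p.2, t.2 + e2 * p.1) := by
      ext <;> simp; ring
    rw [e]; exact this

theorem copy_reflY (X : Set (ℤ × ℤ)) (h : ContainsCopy X) : ContainsCopy (reflY ⁻¹' X) := by
  obtain ⟨t, e1, e2, h1, h2, h3⟩ := h
  refine ⟨(t.1, 16 - t.2), e1, -e2, h1, neg_sign h2, ?_⟩
  rcases h3 with h3 | h3
  · left
    intro p hp
    have := h3 p hp
    simp only [Set.mem_preimage, reflY]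
    have e : (t.1 + e1 * p.1, 16 - (16 - t.2 + -e2 * p.2)) = (t.1 + e1 * p.1, t.2 + e2 * p.2) := by
      ext <;> simp; ring
    rw [e]; exact this
  · right
    intro p hp
    have := h3 p hp
    simp only [Set.mem_preimage, reflY]
    have e : (t.1 + e1 * p.2, 16 - (16 - t.2 + -e2 * p.1)) = (t.1 + e1 * p.2, t.2 + e2 * p.1) := by
      ext <;> simp; ring
    rw [e]; exact this

theorem copy_swap (X : Set (ℤ × ℤ)) (h : ContainsCopy X) : ContainsCopy (swapC ⁻¹' X) := by
  obtain ⟨t, e1, e2, h1, h2, h3⟩ := h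
  refine ⟨(t.2, t.1), e2, e1, h2, h1, ?_⟩
  rcases h3 with h3 | h3
  · right
    intro p hp
    exact h3 p hp
  · left
    intro p hp
    exact h3 p hp

theorem win_reflX {n : ℕ} {y : ℤ × ℤ} (h : MWin n {(8, 8)} {reflX y}) : MWin n {(8, 8)} {y} := by
  have := MWin.preimage reflX_reflX copy_reflX h
  have e1 : reflX ⁻¹' {(8, 8)} = {(8, 8)} := by
    ext ⟨a, b⟩
    simp only [Set.mem_preimage, reflX, Set.mem_singleton_iff, Prod.mk.injEq]
    constructor <;> rintro ⟨h1, h2⟩ <;> constructor <;> omega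
  have e2 : reflX ⁻¹' {reflX y} = {y} := by
    ext c
    simp only [Set.mem_preimage, Set.mem_singleton_iff]
    constructor
    · intro h
      rw [← reflX_reflX c, h, reflX_reflX]
    · intro h; rw [h]
  rwa [e1, e2] at this

theorem win_reflY {n : ℕ} {y : ℤ × ℤ} (h : MWin n {(8, 8)} {reflY y}) : MWin n {(8, 8)} {y} := by
  have := MWin.preimage reflY_reflY copy_reflY h
  have e1 : reflY ⁻¹' {(8, 8)} = {(8, 8)} := by
    ext ⟨a, b⟩
    simp only [Set.mem_preimage, reflY, Set.mem_singleton_iff, Prod.mk.injEq]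
    constructor <;> rintro ⟨h1, h2⟩ <;> constructor <;> omega
  have e2 : reflY ⁻¹' {reflY y} = {y} := by
    ext c
    simp only [Set.mem_preimage, Set.mem_singleton_iff]
    constructor
    · intro h
      rw [← reflY_reflY c, h, reflY_reflY]
    · intro h; rw [h]
  rwa [e1, e2] at this

theorem win_swap {n : ℕ} {y : ℤ × ℤ} (h : MWin n {(8, 8)} {swapC y}) : MWin n {(8, 8)} {y} := by
  have := MWin.preimage swapC_swapC copy_swap h
  have e1 : swapC ⁻¹' {(8, 8)} = {(8, 8)} := by
    ext ⟨a, b⟩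
    simp only [Set.mem_preimage, swapC, Set.mem_singleton_iff, Prod.mk.injEq]
    constructor <;> rintro ⟨h1, h2⟩ <;> constructor <;> omega
  have e2 : swapC ⁻¹' {swapC y} = {y} := by
    ext c
    simp only [Set.mem_preimage, Set.mem_singleton_iff]
    constructor
    · intro h
      rw [← swapC_swapC c, h, swapC_swapC]
    · intro h; rw [h]
  rwa [e1, e2] at this

/-- reduction to Breaker replies in one octant -/
theorem root_win
    (H : ∀ a b : ℕ, b ≤ a → 0 < a → MWin 20 {(8, 8)} {(8 + (a : ℤ), 8 + (b : ℤ))}) :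
    MWin 21 ∅ ∅ := by
  have H1 : ∀ u v : ℤ, 0 ≤ v → v ≤ u → 0 < u → MWin 20 {(8, 8)} {(8 + u, 8 + v)} := by
    intro u v hv huv hu
    have := H u.toNat v.toNat (by omega) (by omega)
    rwa [Int.toNat_of_nonneg (by omega), Int.toNat_of_nonneg hv] at this
  have H2 : ∀ u v : ℤ, 0 ≤ v → 0 ≤ u → (u, v) ≠ (0, 0) → MWin 20 {(8, 8)} {(8 + u, 8 + v)} := by
    intro u v hv hu hne
    by_cases huv : v ≤ u
    · refine H1 u v hv huv ?_
      by_contra h
      exact hne (by rw [Prod.mk.injEq]; omega)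
    · exact win_swap (H1 v u hu (by omega) (by omega))
  have H3 : ∀ u v : ℤ, 0 ≤ u → (u, v) ≠ (0, 0) → MWin 20 {(8, 8)} {(8 + u, 8 + v)} := by
    intro u v hu hne
    by_cases hv : 0 ≤ v
    · exact H2 u v hv hu hne
    · refine win_reflY ?_
      have e : reflY (8 + u, 8 + v) = (8 + u, 8 + -v) := by
        simp only [reflY, Prod.mk.injEq, true_and]; ring
      rw [e]
      refine H2 u (-v) (by omega) hu ?_
      rw [Ne, Prod.mk.injEq]; omega
  have H4 : ∀ u v : ℤ, (u, v) ≠ (0, 0) → MWin 20 {(8, 8)} {(8 + u, 8 + v)} := by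
    intro u v hne
    by_cases hu : 0 ≤ u
    · exact H3 u v hu hne
    · refine win_reflX ?_
      have e : reflX (8 + u, 8 + v) = (8 + -u, 8 + v) := by
        simp only [reflX, Prod.mk.injEq, and_true]; ring
      rw [e]
      refine H3 (-u) v (by omega) ?_
      rw [Ne, Prod.mk.injEq]; intro h; apply hne; rw [Prod.mk.injEq]; omega
  refine ⟨(8, 8), Set.notMem_empty _, Set.notMem_empty _, ?_⟩
  intro y _ hy _
  obtain ⟨a, b⟩ := y
  have := H4 (a - 8) (b - 8) (by
    intro h; apply hy; rw [Prod.mk.injEq] at h ⊢; omega)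
  have e : ((8 + (a - 8), 8 + (b - 8)) : ℤ × ℤ) = (a, b) := by
    rw [Prod.mk.injEq]; constructor <;> ring
  rw [e] at this
  rw [insert_empty_eq, insert_empty_eq]
  exact this

/-- using a pattern whose only required stone is the centre -/
theorem use_pat {n U : ℕ} (h : Win n (Nat.shiftLeft 1 136) U) (hn : n ≤ 20) {y : ℤ × ℤ}
    (hy : y ∉ cells U) : MWin 20 {(8, 8)} {y} := by
  refine MWin.mono hn (Set.finite_singleton _) (Set.finite_singleton _) ?_
  refine h {(8, 8)} {y} (Set.finite_singleton _) (Set.finite_singleton _) ?_ ?_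
  · rw [cells_bit]
    intro c hc
    rw [Set.mem_singleton_iff] at hc ⊢
    rw [hc]; rfl
  · intro c hc
    rw [Set.mem_singleton_iff.1 hc]; exact hy

theorem notMem_far {U : ℕ} {a b : ℤ} (ha : 16 ≤ a) : (a, b) ∉ cells U := by
  rintro ⟨i, _, h⟩
  have h1 : a = ((i % 16 : ℕ) : ℤ) := congrArg Prod.fst h
  omega

theorem notMem_near {U a b : ℕ} (ha : a < 8) (h : U.testBit ((8 + a) + 16 * (8 + b)) = false) :
    ((8 + (a : ℤ), 8 + (b : ℤ)) : ℤ × ℤ) ∉ cells U := by
  have e : ((8 + (a : ℤ), 8 + (b : ℤ)) : ℤ × ℤ) = dec ((8 + a) + 16 * (8 + b)) := by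
    simp only [dec, Prod.mk.injEq]
    constructor <;> omega
  rw [e, dec_mem_cells, h]
  exact Bool.false_ne_true

/-! ### from the game to a policy -/

open Classical in
noncomputable def pick (n : ℕ) (A D : Set (ℤ × ℤ)) : ℤ × ℤ :=
  if h : ∃ x, x ∉ A ∧ x ∉ D ∧ ∀ y, y ∉ A → y ≠ x → y ∉ D → MWin n (insert x A) (insert y D)
  then h.choose else (0, 0)

theorem pick_spec {n : ℕ} {A D : Set (ℤ × ℤ)} (h : MWin (n + 1) A D) :
    pick n A D ∉ A ∧ pick n A D ∉ D ∧
      ∀ y, y ∉ A → y ≠ pick n A D → y ∉ D → MWin n (insert (pick n A D) A) (insert y D) := by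
  have h' : ∃ x, x ∉ A ∧ x ∉ D ∧
    ∀ y, y ∉ A → y ≠ x → y ∉ D → MWin n (insert x A) (insert y D) := h
  rw [pick, dif_pos h']
  exact h'.choose_spec

noncomputable def step (s : ℕ × Set (ℤ × ℤ) × Set (ℤ × ℤ)) (y : ℤ × ℤ) :
    ℕ × Set (ℤ × ℤ) × Set (ℤ × ℤ) :=
  (s.1 - 1, insert (pick s.1 s.2.1 s.2.2) s.2.1, insert y s.2.2)

noncomputable def run (l : List (ℤ × ℤ)) : ℕ × Set (ℤ × ℤ) × Set (ℤ × ℤ) :=
  l.foldl step (20, ∅, ∅)

noncomputable def pol (l : List (ℤ × ℤ)) : ℤ × ℤ :=
  pick (run l).1 (run l).2.1 (run l).2.2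

theorem run_succ (b : ℕ → ℤ × ℤ) (k : ℕ) :
    run ((List.range (k + 1)).map b) = step (run ((List.range k).map b)) (b k) := by
  rw [List.range_succ, List.map_append, run, List.foldl_append]
  rfl

theorem policy_of_win (hwin : MWin 21 ∅ ∅) :
    ∃ σ : List (ℤ × ℤ) → ℤ × ℤ, ∀ b : ℕ → ℤ × ℤ,
      (∀ k : ℕ, k < 20 →
        (∀ j : ℕ, j ≤ k → b k ≠ Crest.CombinatoricsR.PolyominoGame.makerClaim σ b j) ∧
        (∀ j : ℕ, j < k → b k ≠ b j)) →
      (∀ k : ℕ, k ≤ 20 →
        (∀ j : ℕ, j < k → Crest.CombinatoricsR.PolyominoGame.makerClaim σ b k ≠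
          Crest.CombinatoricsR.PolyominoGame.makerClaim σ b j) ∧
        (∀ j : ℕ, j < k → Crest.CombinatoricsR.PolyominoGame.makerClaim σ b k ≠ b j)) ∧
      Crest.CombinatoricsR.PolyominoGame.ContainsCopy
        {c | ∃ j : ℕ, j ≤ 20 ∧ c = Crest.CombinatoricsR.PolyominoGame.makerClaim σ b j} := by
  refine ⟨pol, ?_⟩
  intro b hb
  have hclaim : ∀ k, makerClaim pol b k = pick (run ((List.range k).map b)).1
    (run ((List.range k).map b)).2.1 (run ((List.range k).map b)).2.2 := fun k => rfl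
  have inv : ∀ k, k ≤ 20 → (run ((List.range k).map b)).1 = 20 - k ∧
      (run ((List.range k).map b)).2.1 = {c | ∃ j, j < k ∧ c = makerClaim pol b j} ∧
      (run ((List.range k).map b)).2.2 = {c | ∃ j, j < k ∧ c = b j} ∧
      MWin (20 - k + 1) (run ((List.range k).map b)).2.1 (run ((List.range k).map b)).2.2 := by
    intro k
    induction k with
    | zero =>
      intro _
      refine ⟨rfl, ?_, ?_, hwin⟩
      · ext c
        constructor
        · intro h; exact absurd h (Set.notMem_empty _)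
        · rintro ⟨j, hj, _⟩; omega
      · ext c
        constructor
        · intro h; exact absurd h (Set.notMem_empty _)
        · rintro ⟨j, hj, _⟩; omega
    | succ k ih =>
      intro hk
      obtain ⟨h1, h2, h3, h4⟩ := ih (by omega)
      have hs := pick_spec h4
      have hc : makerClaim pol b k = pick (20 - k) (run ((List.range k).map b)).2.1
          (run ((List.range k).map b)).2.2 := by rw [hclaim, h1]
      rw [← hc] at hs
      obtain ⟨hs1, hs2, hs3⟩ := hs
      have hbk := hb k (by omega)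
      rw [run_succ]
      have e1 : (step (run ((List.range k).map b)) (b k)).2.1 =
          insert (makerClaim pol b k) (run ((List.range k).map b)).2.1 := rfl
      have e2 : (step (run ((List.range k).map b)) (b k)).2.2 =
          insert (b k) (run ((List.range k).map b)).2.2 := rfl
      have e3 : (step (run ((List.range k).map b)) (b k)).1 =
          (run ((List.range k).map b)).1 - 1 := rfl
      refine ⟨?_, ?_, ?_, ?_⟩
      · rw [e3, h1]; omega
      · rw [e1, h2]
        ext c
        constructor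
        · intro h
          rcases Set.mem_insert_iff.1 h with h | ⟨j, hj, h⟩
          · exact ⟨k, by omega, h⟩
          · exact ⟨j, by omega, h⟩
        · rintro ⟨j, hj, h⟩
          by_cases hjk : j = k
          · subst hjk; exact Set.mem_insert_iff.2 (Or.inl h)
          · exact Set.mem_insert_iff.2 (Or.inr ⟨j, by omega, h⟩)
      · rw [e2, h3]
        ext c
        constructor
        · intro h
          rcases Set.mem_insert_iff.1 h with h | ⟨j, hj, h⟩
          · exact ⟨k, by omega, h⟩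
          · exact ⟨j, by omega, h⟩
        · rintro ⟨j, hj, h⟩
          by_cases hjk : j = k
          · subst hjk; exact Set.mem_insert_iff.2 (Or.inl h)
          · exact Set.mem_insert_iff.2 (Or.inr ⟨j, by omega, h⟩)
      · rw [e1, e2]
        have e4 : 20 - (k + 1) + 1 = 20 - k := by omega
        rw [e4]
        refine hs3 (b k) ?_ (hbk.1 k le_rfl) ?_
        · rw [h2]
          rintro ⟨j, hj, h⟩
          exact hbk.1 j (by omega) h
        · rw [h3]
          rintro ⟨j, hj, h⟩
          exact hbk.2 j hj h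
  refine ⟨?_, ?_⟩
  · intro k hk
    obtain ⟨h1, h2, h3, h4⟩ := inv k hk
    have hs := pick_spec h4
    have hc : makerClaim pol b k = pick (20 - k) (run ((List.range k).map b)).2.1
        (run ((List.range k).map b)).2.2 := by rw [hclaim, h1]
    rw [← hc] at hs
    obtain ⟨hs1, hs2, -⟩ := hs
    refine ⟨?_, ?_⟩
    · intro j hj h
      apply hs1
      rw [h2]
      exact ⟨j, hj, h⟩
    · intro j hj h
      apply hs2
      rw [h3]
      exact ⟨j, hj, h⟩
  · obtain ⟨h1, h2, h3, h4⟩ := inv 20 le_rfl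
    have hs := pick_spec h4
    have hc : makerClaim pol b 20 = pick (20 - 20) (run ((List.range 20).map b)).2.1
        (run ((List.range 20).map b)).2.2 := by rw [hclaim, h1]
    rw [← hc] at hs
    obtain ⟨-, -, hs3⟩ := hs
    have hA : (run ((List.range 20).map b)).2.1.Finite := by
      rw [h2]
      refine ((Set.finite_lt_nat 20).image (makerClaim pol b)).subset ?_
      rintro c ⟨j, hj, h⟩
      exact ⟨j, hj, h.symm⟩
    have hD : (run ((List.range 20).map b)).2.2.Finite := by
      rw [h3]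
      refine ((Set.finite_lt_nat 20).image b).subset ?_
      rintro c ⟨j, hj, h⟩
      exact ⟨j, hj, h.symm⟩
    obtain ⟨y, hy⟩ := exists_fresh ((hA.union hD).union (Set.finite_singleton (makerClaim pol b 20)))
    have hfin := hs3 y (fun h => hy (Or.inl (Or.inl h))) (fun h => hy (Or.inr h))
      (fun h => hy (Or.inl (Or.inr h)))
    refine containsCopy_mono ?_ hfin
    intro c hc
    rcases Set.mem_insert_iff.1 hc with h | h
    · exact ⟨20, le_rfl, h⟩
    · rw [h2] at h
      obtain ⟨j, hj, h⟩ := h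
      exact ⟨j, by omega, h⟩

/-! ### the adjacent reply -/

def halfChk (I : ℕ) : Bool :=
  (List.range 256).all fun i =>
    !(Nat.testBit I i) || Nat.beq i 136 || Nat.beq i 135 ||
      !(Nat.testBit I (i % 16 + 16 * (16 - i / 16)))

theorem half_of_chk {I : ℕ} (hlt : I < 2 ^ 256) (h : halfChk I = true) :
    ∀ y ∈ cells I, y = (8, 8) ∨ y = (7, 8) ∨ reflY y ∉ cells I := by
  rintro y ⟨i, hi, rfl⟩
  have hi256 : i < 256 := by
    by_contra hge
    have : I.testBit i = false :=
      Nat.testBit_lt_two_pow (lt_of_lt_of_le hlt (Nat.pow_le_pow_right (by norm_num) (by omega)))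
    rw [this] at hi
    exact Bool.false_ne_true hi
  have h1 := List.all_eq_true.1 h i (List.mem_range.2 hi256)
  simp only [Bool.or_eq_true, Bool.not_eq_true', hi, Bool.true_eq_false, false_or] at h1
  rcases h1 with (h1 | h1) | h1
  · left
    rw [Nat.eq_of_beq_eq_true h1]; rfl
  · right; left
    rw [Nat.eq_of_beq_eq_true h1]; rfl
  · right; right
    have e : reflY (dec i) = dec (i % 16 + 16 * (16 - i / 16)) := by
      simp only [reflY, dec, Prod.mk.injEq]
      constructor <;> omega
    rw [e, dec_mem_cells, h1]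
    exact Bool.false_ne_true

theorem half_win {M I W : ℕ} (F : Fam 19 M I W)
    (hM : Nat.lor M (Nat.lor (Nat.shiftLeft 1 136) (Nat.shiftLeft 1 135)) =
      Nat.lor (Nat.shiftLeft 1 136) (Nat.shiftLeft 1 135))
    (hW : W.testBit 137 = false)
    (hI : ∀ y ∈ cells I, y = (8, 8) ∨ y = (7, 8) ∨ reflY y ∉ cells I) :
    MWin 20 {(8, 8)} {(9, 8)} := by
  have hMs : cells M ⊆ insert (7, 8) {(8, 8)} := by
    intro c hc
    rcases mem_cells_lor.1 (cells_subset hM hc) with h | h
    · rw [cells_bit] at h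
      right; rw [Set.mem_singleton_iff.1 h]; rfl
    · rw [cells_bit] at h
      left; rw [Set.mem_singleton_iff.1 h]; rfl
  have hWs : ∀ c ∈ ({(9, 8)} : Set (ℤ × ℤ)), c ∉ cells W := by
    intro c hc
    rw [Set.mem_singleton_iff.1 hc]
    have e : ((9, 8) : ℤ × ℤ) = dec 137 := rfl
    rw [e, dec_mem_cells, hW]
    exact Bool.false_ne_true
  have key : ∀ y, y ∉ cells I → MWin 19 (insert (7, 8) {(8, 8)}) (insert y {(9, 8)}) :=
    F _ _ ((Set.finite_singleton _).insert _) (Set.finite_singleton _) hMs hWs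
  refine ⟨(7, 8), ?_, ?_, ?_⟩
  · intro h
    have := Set.mem_singleton_iff.1 h
    simp at this
  · intro h
    have := Set.mem_singleton_iff.1 h
    simp at this
  · intro y hy1 hy2 hy3
    by_cases hy : y ∈ cells I
    · rcases hI y hy with h | h | h
      · exact absurd (Set.mem_singleton_iff.2 h) hy1
      · exact absurd h hy2
      · have h' := MWin.preimage reflY_reflY copy_reflY (key _ h)
        have e1 : reflY ⁻¹' (insert (7, 8) {(8, 8)}) = insert (7, 8) {(8, 8)} := by
          ext ⟨a, b⟩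
          simp only [Set.mem_preimage, reflY, Set.mem_insert_iff, Set.mem_singleton_iff,
            Prod.mk.injEq]
          constructor <;> intro h <;> omega
        have e2 : reflY ⁻¹' (insert (reflY y) {(9, 8)}) = insert y {(9, 8)} := by
          obtain ⟨u, v⟩ := y
          ext ⟨a, b⟩
          simp only [Set.mem_preimage, reflY, Set.mem_insert_iff, Set.mem_singleton_iff,
            Prod.mk.injEq]
          constructor <;> intro h <;> omega
        rwa [e1, e2] at h'
    · exact key y hy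

end Crest.Agent.SnakyBase
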